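import Vale.Agent.P107.Sys

/-! Sizes of the kernels. -/

namespace Vale.Agent.P107

open MeasureTheory Set Filter Topology
open scoped ENNReal RealInnerProductSpace

noncomputable section

theorem Alg1_nrm_zero : nrm (0 : V) = 0 := by
  simp [nrm]

theorem Alg1_ang_zero (y : V) : ang 0 y = 1 := by
  simp [ang]

theorem Alg1_kT0 (W l : V) :
    kT 0 W l = ((q W) ^ 2 * (ang (vel W) (nrm l)) ^ 3 * ‖l‖ ^ 2)⁻¹ • (nrm l - vel W) := by
  simp only [kT, Alg1_ang_zero, one_smul]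

theorem Alg1_kS0 (W F l : V) :
    kS 0 W F l = (⟪acc W F, nrm l⟫ / ((ang (vel W) (nrm l)) ^ 3 * ‖l‖)) • (nrm l - vel W) -
      ((ang (vel W) (nrm l)) ^ 2 * ‖l‖)⁻¹ • acc W F := by
  simp only [kS, Alg1_ang_zero, one_smul, inner_zero_left, zero_smul, zero_add]

theorem Alg1_sqrt_two : √2 ≤ (99 / 70 : ℝ) := by
  exact Real.sqrt_le_iff.2 ⟨by norm_num, by norm_num⟩

theorem Alg1_sub_le {x y : V} (hx : ‖x‖ ≤ 1) (hy : ‖y‖ ≤ 1) :
    ‖x - y‖ ≤ 99 / 70 * √(ang x y) := by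
  have h := Real.le_sqrt_of_sq_le (sub_sq_le_ang hx hy)
  rw [Real.sqrt_mul (by norm_num)] at h
  exact h.trans (mul_le_mul_of_nonneg_right Alg1_sqrt_two (Real.sqrt_nonneg _))

theorem Alg1_sqrt_ang_le {x y : V} (hx : ‖x‖ ≤ 1) (hy : ‖y‖ ≤ 1) : √(ang x y) ≤ 99 / 70 := by
  exact (Real.sqrt_le_sqrt (ang_le_two hx hy)).trans Alg1_sqrt_two

theorem Alg1_ang_le {x y : V} (hx : ‖x‖ ≤ 1) (hy : ‖y‖ ≤ 1) :
    ang x y ≤ 99 / 70 * √(ang x y) := by
  have h := Real.mul_self_sqrt (ang_nonneg hx hy)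
  have h1 := mul_le_mul_of_nonneg_right (Alg1_sqrt_ang_le hx hy) (Real.sqrt_nonneg (ang x y))
  linarith

theorem kT_zero_l (u W : V) : kT u W 0 = 0 := by
  simp [kT]

theorem kS_zero_l (u W F : V) : kS u W F 0 = 0 := by
  simp [kS]

theorem kT_force (u W l : V) :
    kT u W l = ang u (nrm l) • kT 0 W l + ⟪u, kT 0 W l⟫ • nrm l := by
  rw [Alg1_kT0, kT, real_inner_smul_right, inner_sub_right]
  simp only [ang]
  module

theorem kS_force (u W F l : V) :
    kS u W F l = ang u (nrm l) • kS 0 W F l + ⟪u, kS 0 W F l⟫ • nrm l := by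
  rw [Alg1_kS0, kS, inner_sub_right, real_inner_smul_right, real_inner_smul_right, inner_sub_right]
  simp only [ang]
  module

theorem kT_lor (u W l : V) : kT u W l = kT 0 W l + cross u (cross (nrm l) (kT 0 W l)) := by
  rw [cross_cross, kT_force u W l, ang]
  module

theorem kS_lor (u W F l : V) :
    kS u W F l = kS 0 W F l + cross u (cross (nrm l) (kS 0 W F l)) := by
  rw [cross_cross, kS_force u W F l, ang]
  module

theorem Alg1_acc_add (W F F' : V) : acc W (F + F') = acc W F + acc W F' := by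
  simp only [acc, inner_add_right]
  module

theorem Alg1_acc_smul (W F : V) (r : ℝ) : acc W (r • F) = r • acc W F := by
  simp only [acc, real_inner_smul_right]
  module

theorem kS_add (u W F F' l : V) : kS u W (F + F') l = kS u W F l + kS u W F' l := by
  simp only [kS, Alg1_acc_add, inner_add_left, inner_add_right, add_div]
  module

theorem kS_smul (u W F l : V) (r : ℝ) : kS u W (r • F) l = r • kS u W F l := by
  simp only [kS, Alg1_acc_smul, real_inner_smul_left, real_inner_smul_right, mul_div_assoc]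
  module

theorem kS_zero_F (u W l : V) : kS u W 0 l = 0 := by
  have h := kS_smul u W 0 l 0
  simpa using h

theorem inner_nrm_kS0 (W F l : V) : ⟪nrm l, kS 0 W F l⟫ = 0 := by
  by_cases hl : l = 0
  · simp [hl, Alg1_nrm_zero]
  have hn := norm_nrm hl
  have hb := (ang_vel_pos W hn.le).ne'
  have hR := norm_ne_zero_iff.2 hl
  have e : ⟪nrm l, nrm l - vel W⟫ = ang (vel W) (nrm l) := by
    rw [inner_sub_right, real_inner_self_eq_norm_sq, hn, ang, real_inner_comm]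
    ring
  rw [Alg1_kS0, inner_sub_right, real_inner_smul_right, real_inner_smul_right, e,
    real_inner_comm (acc W F)]
  field_simp
  ring

theorem inner_nrm_kT0 (W : V) {l : V} (hl : l ≠ 0) :
    ⟪nrm l, kT 0 W l⟫ = ((q W) ^ 2 * (ang (vel W) (nrm l)) ^ 2 * ‖l‖ ^ 2)⁻¹ := by
  have hn := norm_nrm hl
  have hb := (ang_vel_pos W hn.le).ne'
  have hR := norm_ne_zero_iff.2 hl
  have hq := (q_pos W).ne'
  have e : ⟪nrm l, nrm l - vel W⟫ = ang (vel W) (nrm l) := by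
    rw [inner_sub_right, real_inner_self_eq_norm_sq, hn, ang, real_inner_comm]
    ring
  rw [Alg1_kT0, real_inner_smul_right, e]
  field_simp

theorem norm_acc_le (W F : V) : ‖acc W F‖ ≤ 2 * ‖F‖ / q W := by
  have hq := q_pos W
  have hw := (norm_vel_lt W).le
  rw [acc, norm_smul, norm_inv, Real.norm_eq_abs, abs_of_pos hq, ← div_eq_inv_mul]
  refine div_le_div_of_nonneg_right ((norm_sub_le _ _).trans ?_) hq.le
  rw [norm_smul, Real.norm_eq_abs]
  have h1 := (abs_real_inner_le_norm (vel W) F).trans (mul_le_of_le_one_left (norm_nonneg _) hw)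
  have h2 := mul_le_of_le_one_right (abs_nonneg ⟪vel W, F⟫) hw
  linarith

theorem inner_acc_le (W F : V) {n : V} (hn : ‖n‖ = 1) :
    |⟪acc W F, n⟫| ≤ 3 * √(ang (vel W) n) * ‖F‖ / q W := by
  have hq := q_pos W
  have hw := (norm_vel_lt W).le
  have e : ⟪acc W F, n⟫ = (q W)⁻¹ * ⟪(n - vel W) + ang (vel W) n • vel W, F⟫ := by
    rw [acc, real_inner_smul_left, inner_sub_left, real_inner_smul_left, inner_add_left,
      inner_sub_left, real_inner_smul_left, ang, real_inner_comm n F]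
    ring
  rw [e, abs_mul, abs_of_pos (inv_pos.2 hq), ← div_eq_inv_mul]
  refine div_le_div_of_nonneg_right ((abs_real_inner_le_norm _ _).trans ?_) hq.le
  refine mul_le_mul_of_nonneg_right ((norm_add_le _ _).trans ?_) (norm_nonneg _)
  have h1 := Alg1_sub_le hw hn.le
  have h2 := Alg1_ang_le hw hn.le
  have h3 := mul_le_of_le_one_right (ang_nonneg hw hn.le) hw
  rw [norm_sub_rev, norm_smul, Real.norm_eq_abs, abs_of_nonneg (ang_nonneg hw hn.le)]
  linarith [Real.sqrt_nonneg (ang (vel W) n)]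

theorem abs_ang_sub {x y n : V} (hx : ‖x‖ ≤ 1) (hy : ‖y‖ ≤ 1) (hn : ‖n‖ = 1) :
    |ang x y - ang x n| ≤ 2 * √(ang x n) * √(ang y n) + ang y n := by
  have e : ang x y - ang x n = ⟪x - n, n - y⟫ + ang y n := by
    simp only [ang, inner_sub_left, inner_sub_right, real_inner_self_eq_norm_sq, hn,
      real_inner_comm y n]
    ring
  have h1 := Real.le_sqrt_of_sq_le (sub_sq_le_ang hx hn.le)
  have h2 := Real.le_sqrt_of_sq_le (sub_sq_le_ang hy hn.le)
  rw [norm_sub_rev] at h2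
  have h3 := (abs_real_inner_le_norm (x - n) (n - y)).trans
    (mul_le_mul h1 h2 (norm_nonneg _) (Real.sqrt_nonneg _))
  rw [Real.sqrt_mul (by norm_num), Real.sqrt_mul (by norm_num)] at h3
  have h4 : √2 * √(ang x n) * (√2 * √(ang y n)) = 2 * √(ang x n) * √(ang y n) := by
    have h5 := Real.mul_self_sqrt (show (0 : ℝ) ≤ 2 by norm_num)
    linear_combination (√(ang x n) * √(ang y n)) * h5
  rw [e]
  refine (abs_add_le _ _).trans ?_
  rw [abs_of_nonneg (ang_nonneg hy hn.le)]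
  linarith

theorem norm_cn {x y n : V} (hx : ‖x‖ ≤ 1) (hy : ‖y‖ ≤ 1) (hn : ‖n‖ = 1) :
    ‖ang x y • n - ang x n • y‖ ≤ 4 * √(ang y n) * (√(ang x n) + √(ang y n)) := by
  have e : ang x y • n - ang x n • y = ang x n • (n - y) + (ang x y - ang x n) • n := by
    module
  have ha := ang_nonneg hx hn.le
  have hb := ang_nonneg hy hn.le
  have h1 := Real.le_sqrt_of_sq_le (sub_sq_le_ang hy hn.le)
  rw [norm_sub_rev, Real.sqrt_mul (by norm_num)] at h1
  have h2 := abs_ang_sub hx hy hn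
  have h3 : √(ang x n) ≤ √2 := Real.sqrt_le_sqrt (ang_le_two hx hn.le)
  have h4 := Real.mul_self_sqrt ha
  have h5 := Real.mul_self_sqrt hb
  have h6 := Real.mul_self_sqrt (show (0 : ℝ) ≤ 2 by norm_num)
  have sa := Real.sqrt_nonneg (ang x n)
  have sb := Real.sqrt_nonneg (ang y n)
  have h7 : ang x n ≤ √2 * √(ang x n) := by nlinarith
  have h8 := mul_le_mul h7 h1 (norm_nonneg _) (by positivity)
  have h9 : √2 * √(ang x n) * (√2 * √(ang y n)) = 2 * √(ang x n) * √(ang y n) := by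
    linear_combination (√(ang x n) * √(ang y n)) * h6
  rw [e]
  refine (norm_add_le _ _).trans ?_
  rw [norm_smul, norm_smul, Real.norm_eq_abs, Real.norm_eq_abs, abs_of_nonneg ha, hn]
  nlinarith

theorem Alg1_qb (W : V) {n : V} (hn : ‖n‖ ≤ 1) : 1 ≤ 2 * q W ^ 2 * ang (vel W) n := by
  have h := inv_q_sq_le_ang W hn
  have hq := q_pos W
  rw [inv_pow, inv_le_iff_one_le_mul₀' (by positivity)] at h
  linarith

theorem norm_kT0_le (W l : V) :
    ‖kT 0 W l‖ ≤ 4 / (ang (vel W) (nrm l) * √(ang (vel W) (nrm l)) * ‖l‖ ^ 2) := by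
  by_cases hl : l = 0
  · simp [hl, kT_zero_l]
  have hn := norm_nrm hl
  have hb := ang_vel_pos W hn.le
  have hR := norm_pos_iff.2 hl
  have hq := q_pos W
  have hs := Real.sqrt_pos.2 hb
  have h1 := Alg1_sub_le (norm_vel_lt W).le hn.le
  have h2 := Alg1_qb W hn.le
  have h3 := Real.mul_self_sqrt hb.le
  rw [Alg1_kT0, norm_smul, Real.norm_eq_abs, abs_of_pos (by positivity), norm_sub_rev,
    ← div_eq_inv_mul, div_le_div_iff₀ (by positivity) (by positivity)]
  generalize ang (vel W) (nrm l) = b at *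
  generalize √b = s at *
  generalize ‖vel W - nrm l‖ = N at *
  have h4 : N * (b * s * ‖l‖ ^ 2) ≤ 99 / 70 * s * (b * s * ‖l‖ ^ 2) :=
    mul_le_mul_of_nonneg_right h1 (by positivity)
  have h5 : 1 * (b ^ 2 * ‖l‖ ^ 2) ≤ 2 * q W ^ 2 * b * (b ^ 2 * ‖l‖ ^ 2) :=
    mul_le_mul_of_nonneg_right h2 (by positivity)
  have h6 : 99 / 70 * s * (b * s * ‖l‖ ^ 2) = 99 / 70 * (b ^ 2 * ‖l‖ ^ 2) := by
    linear_combination (99 / 70 * b * ‖l‖ ^ 2) * h3
  have h7 : 0 ≤ b ^ 2 * ‖l‖ ^ 2 := by positivity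
  nlinarith

theorem norm_kS0_le (W F l : V) :
    ‖kS 0 W F l‖ ≤ 7 * ‖F‖ / (q W * (ang (vel W) (nrm l)) ^ 2 * ‖l‖) := by
  by_cases hl : l = 0
  · simp [hl, kS_zero_l]
  have hn := norm_nrm hl
  have hb := ang_vel_pos W hn.le
  have hR := norm_pos_iff.2 hl
  have hq := q_pos W
  have hs := Real.sqrt_pos.2 hb
  have h1 := Alg1_sub_le (norm_vel_lt W).le hn.le
  have h2 := inner_acc_le W F hn
  have h3 := Real.mul_self_sqrt hb.le
  have h4 := norm_acc_le W F
  rw [Alg1_kS0]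
  refine (norm_sub_le _ _).trans ?_
  rw [norm_smul, norm_smul, Real.norm_eq_abs, Real.norm_eq_abs, abs_div,
    abs_of_pos (show 0 < ang (vel W) (nrm l) ^ 3 * ‖l‖ by positivity),
    abs_of_pos (show 0 < (ang (vel W) (nrm l) ^ 2 * ‖l‖)⁻¹ by positivity), norm_sub_rev]
  generalize ang (vel W) (nrm l) = b at *
  generalize √b = s at *
  have h5 : |⟪acc W F, nrm l⟫| / (b ^ 3 * ‖l‖) * ‖vel W - nrm l‖ ≤
      3 * s * ‖F‖ / q W / (b ^ 3 * ‖l‖) * (99 / 70 * s) :=
    mul_le_mul (div_le_div_of_nonneg_right h2 (by positivity)) h1 (norm_nonneg _) (by positivity)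
  have h6 : (b ^ 2 * ‖l‖)⁻¹ * ‖acc W F‖ ≤ (b ^ 2 * ‖l‖)⁻¹ * (2 * ‖F‖ / q W) :=
    mul_le_mul_of_nonneg_left h4 (by positivity)
  have h7 : 3 * s * ‖F‖ / q W / (b ^ 3 * ‖l‖) * (99 / 70 * s) =
      297 / 70 * (‖F‖ / (q W * b ^ 2 * ‖l‖)) := by
    rw [← h3]
    field_simp
    ring
  have h8 : (b ^ 2 * ‖l‖)⁻¹ * (2 * ‖F‖ / q W) = 2 * (‖F‖ / (q W * b ^ 2 * ‖l‖)) := by
    field_simp
  have h9 : 0 ≤ ‖F‖ / (q W * b ^ 2 * ‖l‖) := by positivity
  rw [mul_div_assoc]
  linarith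

theorem norm_kT_le {u : V} (hu : ‖u‖ ≤ 1) (W l : V) :
    ‖kT u W l‖ ≤ 4 * bT (q W) (ang u (nrm l)) (ang (vel W) (nrm l)) ‖l‖ := by
  by_cases hl : l = 0
  · simp [hl, kT_zero_l, bT]
  have hn := norm_nrm hl
  have hb := ang_vel_pos W hn.le
  have hR := norm_pos_iff.2 hl
  have hq := q_pos W
  have h1 := norm_cn hu (norm_vel_lt W).le hn
  rw [kT, bT, norm_smul, Real.norm_eq_abs, abs_of_pos (by positivity), ← div_eq_inv_mul,
    ← mul_div_assoc, ← mul_assoc]
  exact div_le_div_of_nonneg_right h1 (by positivity)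

theorem norm_kS_le {u : V} (hu : ‖u‖ ≤ 1) (W F l : V) :
    ‖kS u W F l‖ ≤ 20 * (bS (q W) (ang u (nrm l)) (ang (vel W) (nrm l)) ‖l‖ * ‖F‖) := by
  by_cases hl : l = 0
  · simp [hl, kS_zero_l, bS]
  have hn := norm_nrm hl
  have hb := ang_vel_pos W hn.le
  have hR := norm_pos_iff.2 hl
  have hq := q_pos W
  have ha := ang_nonneg hu hn.le
  have h1 := norm_kS0_le W F l
  have h2 := Alg1_sub_le hu hn.le
  have h3 := Alg1_ang_le hu hn.le
  have e : ⟪u, kS 0 W F l⟫ = ⟪u - nrm l, kS 0 W F l⟫ := by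
    rw [inner_sub_left, inner_nrm_kS0, sub_zero]
  have h4 := (abs_real_inner_le_norm (u - nrm l) (kS 0 W F l)).trans
    (mul_le_mul_of_nonneg_right h2 (norm_nonneg _))
  have h5 := mul_le_mul_of_nonneg_right h3 (norm_nonneg (kS 0 W F l))
  have h6 := mul_le_mul_of_nonneg_left h1 (Real.sqrt_nonneg (ang u (nrm l)))
  have h7 : bS (q W) (ang u (nrm l)) (ang (vel W) (nrm l)) ‖l‖ * ‖F‖ =
      √(ang u (nrm l)) * (‖F‖ / (q W * (ang (vel W) (nrm l)) ^ 2 * ‖l‖)) := by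
    rw [bS]
    ring
  have h8 : 0 ≤ √(ang u (nrm l)) * (‖F‖ / (q W * (ang (vel W) (nrm l)) ^ 2 * ‖l‖)) := by
    positivity
  rw [kS_force, h7]
  refine (norm_add_le _ _).trans ?_
  rw [norm_smul, norm_smul, Real.norm_eq_abs, Real.norm_eq_abs, abs_of_nonneg ha, hn, e]
  rw [mul_div_assoc] at h6
  linarith

theorem norm_lor_le' (E B W : V) {n : V} (hn : ‖n‖ = 1) :
    ‖lor E B W‖ ≤ ‖E + cross n B‖ + √(2 * ang (vel W) n) * ‖B‖ := by
  have e : lor E B W = (E + cross n B) + cross (vel W - n) B := by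
    rw [lor, cross_sub_left]
    abel
  rw [e]
  refine (norm_add_le _ _).trans (add_le_add le_rfl ((norm_cross_le _ _).trans ?_))
  exact mul_le_mul_of_nonneg_right
    (Real.le_sqrt_of_sq_le (sub_sq_le_ang (norm_vel_lt W).le hn.le)) (norm_nonneg _)

theorem Alg1_force_le {u n : V} (hu : ‖u‖ ≤ 1) (hn : ‖n‖ ≤ 1) (E : V) :
    ‖ang u n • E + ⟪u, E⟫ • n‖ ≤ 3 * ‖E‖ := by
  refine (norm_add_le _ _).trans ?_
  rw [norm_smul, norm_smul, Real.norm_eq_abs, Real.norm_eq_abs, abs_of_nonneg (ang_nonneg hu hn)]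
  have h1 := mul_le_mul_of_nonneg_right (ang_le_two hu hn) (norm_nonneg E)
  have h2 := (abs_real_inner_le_norm u E).trans (mul_le_of_le_one_left (norm_nonneg _) hu)
  have h3 := mul_le_of_le_one_right (abs_nonneg ⟪u, E⟫) hn
  linarith

theorem norm_kT_crude {u W : V} {P : ℝ} (hu : ‖u‖ ≤ 1) (hP : q W ≤ P) (l : V) :
    ‖kT u W l‖ ≤ 100 * P ^ 3 / ‖l‖ ^ 2 := by
  by_cases hl : l = 0
  · simp [hl, kT_zero_l]
  have hn := norm_nrm hl
  have hb := ang_vel_pos W hn.le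
  have hR := norm_pos_iff.2 hl
  have hq := q_pos W
  have hP0 := hq.trans_le hP
  have hs := Real.sqrt_pos.2 hb
  have h1 := norm_kT0_le W l
  have h2 := Alg1_qb W hn.le
  have h3 := Real.mul_self_sqrt hb.le
  have h4 := Alg1_force_le hu hn.le (kT 0 W l)
  rw [← kT_force] at h4
  refine h4.trans ((mul_le_mul_of_nonneg_left h1 (by norm_num)).trans ?_)
  rw [← mul_div_assoc, div_le_div_iff₀ (by positivity) (by positivity)]
  generalize ang (vel W) (nrm l) = b at *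
  generalize √b = s at *
  have h5 : 1 ≤ 2 * P ^ 2 * b :=
    h2.trans (mul_le_mul_of_nonneg_right (by nlinarith) hb.le)
  have h6 : 1 / 2 ≤ P * s := by
    refine le_of_sq_le_sq ?_ (by positivity)
    nlinarith
  have h7 : 1 * (1 / 2) ≤ 2 * P ^ 2 * b * (P * s) := mul_le_mul h5 h6 (by norm_num) (by positivity)
  have h8 := mul_le_mul_of_nonneg_right h7 (show 0 ≤ ‖l‖ ^ 2 by positivity)
  nlinarith

theorem norm_kS_crude {u W : V} {P : ℝ} (hu : ‖u‖ ≤ 1) (hP : q W ≤ P) (F l : V) :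
    ‖kS u W F l‖ ≤ 120 * P ^ 3 * ‖F‖ / ‖l‖ := by
  by_cases hl : l = 0
  · simp [hl, kS_zero_l]
  have hn := norm_nrm hl
  have hb := ang_vel_pos W hn.le
  have hR := norm_pos_iff.2 hl
  have hq := q_pos W
  have hP0 := hq.trans_le hP
  have h1 := norm_kS0_le W F l
  have h2 := Alg1_qb W hn.le
  have h4 := Alg1_force_le hu hn.le (kS 0 W F l)
  rw [← kS_force] at h4
  refine h4.trans ((mul_le_mul_of_nonneg_left h1 (by norm_num)).trans ?_)
  rw [← mul_div_assoc, div_le_div_iff₀ (by positivity) (by positivity)]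
  generalize ang (vel W) (nrm l) = b at *
  have h5 : 1 ^ 2 ≤ (2 * q W ^ 2 * b) ^ 2 := pow_le_pow_left₀ (by norm_num) h2 2
  have h6 : q W ^ 3 ≤ P ^ 3 := pow_le_pow_left₀ hq.le hP 3
  have h7 := mul_le_mul_of_nonneg_right h6 (show 0 ≤ q W * b ^ 2 by positivity)
  have h8 : 1 ≤ 4 * (P ^ 3 * (q W * b ^ 2)) := by nlinarith
  have h9 := mul_le_mul_of_nonneg_right h8 (show 0 ≤ ‖F‖ * ‖l‖ by positivity)
  have h10 : 0 ≤ ‖F‖ * ‖l‖ := by positivity
  nlinarith

theorem bT_nonneg {p a b R : ℝ} (hb : 0 ≤ b) : 0 ≤ bT p a b R := by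
  unfold bT
  positivity

theorem bS_nonneg {p a b R : ℝ} (hp : 0 ≤ p) (hR : 0 ≤ R) : 0 ≤ bS p a b R := by
  unfold bS
  positivity

theorem bG_nonneg {a b R : ℝ} (hb : 0 ≤ b) : 0 ≤ bG a b R := by
  unfold bG
  positivity

theorem bH_nonneg {a b R : ℝ} (hR : 0 ≤ R) : 0 ≤ bH a b R := by
  unfold bH
  positivity

theorem bL_nonneg {a b R : ℝ} (ha : 0 ≤ a) (hR : 0 ≤ R) : 0 ≤ bL a b R := by
  unfold bL
  positivity

theorem psi_nonneg {π : Par} (hδ : 0 ≤ π.δ) {p a b R f : ℝ} (hp : 0 ≤ p) (hb : 0 ≤ b)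
    (hR : 0 ≤ R) (hf : 0 ≤ f) : 0 ≤ psi π p a b R f := by
  have h1 := bT_nonneg (p := p) (a := a) (R := R) hb
  have h2 := bS_nonneg (a := a) (b := b) hp hR
  have h3 := bG_nonneg (a := a) (R := R) hb
  unfold psi
  refine add_nonneg (add_nonneg ?_ ?_) ?_ <;> split_ifs <;> positivity

theorem Alg1_measurableSet_RDir (π : Par) :
    MeasurableSet {x : ℝ × ℝ × ℝ × ℝ | RDir π x.1 x.2.1 x.2.2.1 x.2.2.2} := by
  simp only [RDir, ofPred_or]
  refine MeasurableSet.union (measurableSet_le (by fun_prop) (by fun_prop))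
    (MeasurableSet.union (measurableSet_le (by fun_prop) (by fun_prop))
      (MeasurableSet.union (measurableSet_le (by fun_prop) (by fun_prop))
        (measurableSet_le (by fun_prop) (by fun_prop))))

theorem Alg1_measurableSet_RNr (π : Par) :
    MeasurableSet {x : ℝ × ℝ × ℝ × ℝ | RNr π x.2.1 x.2.2.1} := by
  unfold RNr
  exact measurableSet_le (by fun_prop) (by fun_prop)

theorem Alg1_measurableSet_RTr (π : Par) :
    MeasurableSet {x : ℝ × ℝ × ℝ × ℝ | RTr π x.1 x.2.1 x.2.2.1 x.2.2.2} := by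
  simp only [RTr, ofPred_and]
  refine MeasurableSet.inter (measurableSet_le (by fun_prop) (by fun_prop))
    (MeasurableSet.inter (measurableSet_le (by fun_prop) (by fun_prop))
      (MeasurableSet.inter (measurableSet_le (by fun_prop) (by fun_prop))
        (MeasurableSet.inter (measurableSet_le (by fun_prop) (by fun_prop))
          (measurableSet_le (by fun_prop) (by fun_prop)))))

theorem measurable_psi (π : Par) :
    Measurable (fun x : ℝ × ℝ × ℝ × ℝ × ℝ => psi π x.1 x.2.1 x.2.2.1 x.2.2.2.1 x.2.2.2.2) := by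
  have hm : Measurable (fun x : ℝ × ℝ × ℝ × ℝ × ℝ =>
      ((x.1, x.2.1, x.2.2.1, x.2.2.2.1) : ℝ × ℝ × ℝ × ℝ)) := by fun_prop
  have h1 := hm ((Alg1_measurableSet_RDir π).union (Alg1_measurableSet_RNr π))
  have h2 := hm (Alg1_measurableSet_RTr π)
  unfold psi
  refine Measurable.add (Measurable.add ?_ ?_) ?_
  · refine Measurable.ite h1 ?_ measurable_const
    unfold bT bS
    fun_prop
  · refine Measurable.ite h2 ?_ measurable_const
    unfold bS bG
    fun_prop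
  · refine Measurable.ite (h2.inter h1) ?_ measurable_const
    unfold bG
    fun_prop

theorem measurableSet_RTr (π : Par) :
    MeasurableSet {x : ℝ × ℝ × ℝ × ℝ | RTr π x.1 x.2.1 x.2.2.1 x.2.2.2} := by
  exact Alg1_measurableSet_RTr π

theorem Alg1_sqrt_le {a a0 : ℝ} (h : a ≤ 2 * a0) : √a ≤ √2 * √a0 := by
  rw [← Real.sqrt_mul (by norm_num)]
  exact Real.sqrt_le_sqrt h

/-- Comparison of the sizes inside a box. -/
theorem Box.Mem.sizes {d : Box} (hd : d.Pos) {p a b c R : ℝ} (h : d.Mem p a b c R) :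
    bT p a b R ≤ 2 * bT d.p d.a d.b d.R ∧ bS p a b R ≤ 2 * bS d.p d.a d.b d.R ∧
      bG a b R ≤ 2 * bG d.a d.b d.R ∧ bH a b R ≤ bH d.a d.b d.R ∧ bL a b R ≤ bL d.a d.b d.R := by
  have hp : 0 < d.p := one_pos.trans_le hd.p
  have ha := hd.a
  have hb := hd.b
  have hR := hd.R
  have hp1 := h.p1
  have ha1 := h.a1
  have hb1 := h.b1
  have hR1 := h.R1
  have h1 := Alg1_sqrt_le h.a2
  have h2 := Alg1_sqrt_le h.b2
  have h3 := Real.mul_self_sqrt (show (0 : ℝ) ≤ 2 by norm_num)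
  have h4 : √a ≤ 2 * √d.a := by
    refine h1.trans (mul_le_mul_of_nonneg_right ?_ (Real.sqrt_nonneg _))
    linarith [Alg1_sqrt_two]
  have h5 : √b * (√a + √b) ≤ 2 * (√d.b * (√d.a + √d.b)) := by
    have h6 := mul_le_mul h2 (add_le_add h1 h2) (by positivity) (by positivity)
    have h7 : √2 * √d.b * (√2 * √d.a + √2 * √d.b) = 2 * (√d.b * (√d.a + √d.b)) := by
      linear_combination (√d.b * (√d.a + √d.b)) * h3
    linarith
  have hp' := hp.trans_le hp1
  have ha' := ha.trans_le ha1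
  have hb' := hb.trans_le hb1
  have hR' := hR.trans_le hR1
  unfold bT bS bG bH bL
  refine ⟨?_, ?_, ?_, ?_, ?_⟩
  · rw [← mul_div_assoc]
    gcongr
  · rw [← mul_div_assoc]
    gcongr
  · rw [← mul_div_assoc]
    gcongr
  · gcongr
  · gcongr

end

end Vale.Agent.P107
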