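import Vale.Agent.P107.Stmt

/-! Kernels of the retarded fields of a point charge and elementary vector facts. -/

namespace Vale.Agent.P107

open MeasureTheory Set Filter Topology
open scoped ENNReal RealInnerProductSpace

noncomputable section

/-- Direction of a vector (zero at zero). -/
def nrm (l : V) : V := ‖l‖⁻¹ • l

/-- `1 - x · y`. -/
def ang (x y : V) : ℝ := 1 - ⟪x, y⟫

/-- Derivative of the velocity `vel W` when the momentum `W` has derivative `F`. -/
def acc (W F : V) : V := (q W)⁻¹ • (F - ⟪vel W, F⟫ • vel W)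

/-- Lorentz force on a particle of momentum `W`. -/
def lor (E B W : V) : V := E + cross (vel W) B

/-- Velocity part of the force exerted on a test velocity `u` by a charge of retarded momentum `W`
at retarded displacement `l`. -/
def kT (u W l : V) : V :=
  ((q W) ^ 2 * (ang (vel W) (nrm l)) ^ 3 * ‖l‖ ^ 2)⁻¹ •
    (ang u (vel W) • nrm l - ang u (nrm l) • vel W)

/-- Acceleration part of the same force; `F` is the force acting on the charge. -/
def kS (u W F l : V) : V :=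
  (⟪acc W F, nrm l⟫ / ((ang (vel W) (nrm l)) ^ 3 * ‖l‖)) •
      (ang u (vel W) • nrm l - ang u (nrm l) • vel W) -
    ((ang (vel W) (nrm l)) ^ 2 * ‖l‖)⁻¹ • (⟪u, acc W F⟫ • nrm l + ang u (nrm l) • acc W F)

@[simp] theorem mk3_0 (a b c : ℝ) : mk3 a b c 0 = a := rfl
@[simp] theorem mk3_1 (a b c : ℝ) : mk3 a b c 1 = b := rfl
@[simp] theorem mk3_2 (a b c : ℝ) : mk3 a b c 2 = c := rfl

theorem ext3 {x y : V} (h0 : x 0 = y 0) (h1 : x 1 = y 1) (h2 : x 2 = y 2) : x = y := by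
  ext i
  fin_cases i
  exacts [h0, h1, h2]

theorem inner3 (x y : V) : ⟪x, y⟫ = x 0 * y 0 + x 1 * y 1 + x 2 * y 2 := by
  simp only [PiLp.inner_apply, Fin.sum_univ_three, RCLike.inner_apply, conj_trivial]
  ring

theorem normsq3 (x : V) : ‖x‖ ^ 2 = x 0 ^ 2 + x 1 ^ 2 + x 2 ^ 2 := by
  rw [← real_inner_self_eq_norm_sq, inner3]
  ring

theorem one_le_q (v : V) : 1 ≤ q v := by
  exact Real.one_le_sqrt.2 (le_add_of_nonneg_right (sq_nonneg _))

theorem q_pos (v : V) : 0 < q v := by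
  exact one_pos.trans_le (one_le_q v)

theorem q_sq (v : V) : q v ^ 2 = 1 + ‖v‖ ^ 2 := by
  exact Real.sq_sqrt (by positivity)

theorem norm_lt_q (v : V) : ‖v‖ < q v := by
  exact Real.lt_sqrt_of_sq_lt (by linarith)

theorem q_le (v : V) : q v ≤ 1 + ‖v‖ := by
  exact Real.sqrt_le_iff.2 ⟨by positivity, by nlinarith [norm_nonneg v]⟩

theorem q_lip (a b : V) : |q a - q b| ≤ ‖a - b‖ := by
  have h1 := abs_norm_sub_norm_le a b
  have h2 : |q a - q b| * (q a + q b) = |‖a‖ - ‖b‖| * (‖a‖ + ‖b‖) := by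
    rw [← abs_of_pos (add_pos (q_pos a) (q_pos b)), ← abs_mul,
      ← abs_of_nonneg (add_nonneg (norm_nonneg a) (norm_nonneg b)), ← abs_mul]
    congr 1
    linear_combination q_sq a - q_sq b
  refine le_of_mul_le_mul_right ?_ (add_pos (q_pos a) (q_pos b))
  rw [h2]
  exact mul_le_mul h1 (add_le_add (norm_lt_q a).le (norm_lt_q b).le) (by positivity)
    (norm_nonneg _)

theorem q_smul_vel (v : V) : q v • vel v = v := by
  rw [vel, smul_smul, mul_inv_cancel₀ (q_pos v).ne', one_smul]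

theorem norm_vel_sq (v : V) : ‖vel v‖ ^ 2 = 1 - ((q v)⁻¹) ^ 2 := by
  have h := (q_pos v).ne'
  rw [vel, norm_smul, norm_inv, Real.norm_eq_abs, abs_of_pos (q_pos v)]
  field_simp
  linear_combination -q_sq v

theorem norm_vel_lt (v : V) : ‖vel v‖ < 1 := by
  rw [vel, norm_smul, norm_inv, Real.norm_eq_abs, abs_of_pos (q_pos v), ← div_eq_inv_mul,
    div_lt_one (q_pos v)]
  exact norm_lt_q v

theorem norm_vel_le {v : V} {P : ℝ} (h : q v ≤ P) : ‖vel v‖ ≤ 1 - (2 * P ^ 2)⁻¹ := by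
  have h0 := q_pos v
  have h1 : P⁻¹ ≤ (q v)⁻¹ := inv_anti₀ h0 h
  have h2 : 0 < P⁻¹ := inv_pos.2 (h0.trans_le h)
  have h3 : (2 * P ^ 2)⁻¹ = P⁻¹ ^ 2 / 2 := by
    rw [mul_inv, inv_pow]
    ring
  have h4 := norm_vel_sq v
  have h5 := pow_le_pow_left₀ h2.le h1 2
  rw [h3]
  nlinarith [sq_nonneg (‖vel v‖ - 1)]

theorem vel_lip (a b : V) : ‖vel a - vel b‖ ≤ 2 * ‖a - b‖ / q a := by
  have ha := q_pos a
  have hb := q_pos b
  have e : vel a - vel b = (q a)⁻¹ • ((a - b) + (q b - q a) • vel b) := by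
    rw [sub_smul, q_smul_vel, smul_add, smul_sub, smul_sub, smul_smul,
      inv_mul_cancel₀ ha.ne', one_smul, vel]
    abel
  rw [e, norm_smul, norm_inv, Real.norm_eq_abs, abs_of_pos ha, ← div_eq_inv_mul]
  refine div_le_div_of_nonneg_right ((norm_add_le _ _).trans ?_) ha.le
  rw [norm_smul, Real.norm_eq_abs, abs_sub_comm]
  have h1 := mul_le_of_le_one_right (abs_nonneg (q a - q b)) (norm_vel_lt b).le
  linarith [q_lip a b]

theorem contDiff_q : ContDiff ℝ (⊤ : ℕ∞) q := by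
  exact (contDiff_const.add (contDiff_norm_sq ℝ)).sqrt fun v => by positivity

theorem contDiff_vel : ContDiff ℝ (⊤ : ℕ∞) vel := by
  exact (contDiff_q.inv fun v => (q_pos v).ne').smul contDiff_id

theorem hasDerivAt_q {W : ℝ → V} {F : V} {t : ℝ} (h : HasDerivAt W F t) :
    HasDerivAt (fun s => q (W s)) ⟪vel (W t), F⟫ t := by
  have h1 := (h.norm_sq.const_add 1).sqrt (by positivity)
  refine h1.congr_deriv ?_
  have h0 := (q_pos (W t)).ne'
  change _ / (2 * q (W t)) = _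
  rw [vel, real_inner_smul_left]
  field_simp

theorem hasDerivAt_vel {W : ℝ → V} {F : V} {t : ℝ} (h : HasDerivAt W F t) :
    HasDerivAt (fun s => vel (W s)) (acc (W t) F) t := by
  have h0 := (q_pos (W t)).ne'
  refine (((hasDerivAt_q h).inv h0).smul h).congr_deriv ?_
  rw [acc, smul_sub, smul_smul]
  conv_rhs => rw [vel, smul_smul]
  rw [sub_eq_add_neg, ← neg_smul]
  congr 2
  rw [vel]
  field_simp

theorem fderiv_vel (W F : V) : fderiv ℝ vel W F = acc W F := by
  have h1 : HasDerivAt (fun s : ℝ => W + s • F) F 0 := by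
    simpa using ((hasDerivAt_id (0 : ℝ)).smul_const F).const_add W
  have h2 := hasDerivAt_vel h1
  have h3 := (contDiff_vel.differentiable (by simp) (W + (0 : ℝ) • F)).hasFDerivAt.comp_hasDerivAt
    (0 : ℝ) h1
  simpa using h3.unique h2

theorem norm_nrm {l : V} (h : l ≠ 0) : ‖nrm l‖ = 1 := by
  exact norm_smul_inv_norm (𝕜 := ℝ) h

theorem norm_nrm_le (l : V) : ‖nrm l‖ ≤ 1 := by
  by_cases h : l = 0
  · simp [nrm, h]
  · exact (norm_nrm h).le

theorem norm_smul_nrm (l : V) : ‖l‖ • nrm l = l := by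
  by_cases h : l = 0
  · simp [nrm, h]
  · rw [nrm, smul_smul, mul_inv_cancel₀ (norm_ne_zero_iff.2 h), one_smul]

theorem measurable_nrm : Measurable nrm := by
  exact measurable_norm.inv.smul measurable_id

theorem contDiff_cross : ContDiff ℝ (⊤ : ℕ∞) (fun p : V × V => cross p.1 p.2) := by
  refine contDiff_euclidean.2 fun i => ?_
  fin_cases i <;> simp [cross] <;> fun_prop

theorem norm_cross_le (a b : V) : ‖cross a b‖ ≤ ‖a‖ * ‖b‖ := by
  refine le_of_sq_le_sq ?_ (by positivity)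
  rw [mul_pow, normsq3, normsq3, normsq3]
  simp only [cross, mk3_0, mk3_1, mk3_2]
  nlinarith [sq_nonneg (a 0 * b 0 + a 1 * b 1 + a 2 * b 2)]

theorem norm_cross_sq (a b : V) : ‖cross a b‖ ^ 2 = ‖a‖ ^ 2 * ‖b‖ ^ 2 - ⟪a, b⟫ ^ 2 := by
  rw [normsq3, normsq3, normsq3, inner3]
  simp only [cross, mk3_0, mk3_1, mk3_2]
  ring

theorem cross_add_left (a a' b : V) : cross (a + a') b = cross a b + cross a' b := by
  refine ext3 ?_ ?_ ?_ <;> simp [cross] <;> ring

theorem cross_add_right (a b b' : V) : cross a (b + b') = cross a b + cross a b' := by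
  refine ext3 ?_ ?_ ?_ <;> simp [cross] <;> ring

theorem cross_sub_left (a a' b : V) : cross (a - a') b = cross a b - cross a' b := by
  refine ext3 ?_ ?_ ?_ <;> simp [cross] <;> ring

theorem cross_sub_right (a b b' : V) : cross a (b - b') = cross a b - cross a b' := by
  refine ext3 ?_ ?_ ?_ <;> simp [cross] <;> ring

theorem cross_smul_left (r : ℝ) (a b : V) : cross (r • a) b = r • cross a b := by
  refine ext3 ?_ ?_ ?_ <;> simp [cross] <;> ring

theorem cross_smul_right (r : ℝ) (a b : V) : cross a (r • b) = r • cross a b := by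
  refine ext3 ?_ ?_ ?_ <;> simp [cross] <;> ring

theorem cross_cross (a b c : V) : cross a (cross b c) = ⟪a, c⟫ • b - ⟪a, b⟫ • c := by
  refine ext3 ?_ ?_ ?_ <;> simp [cross, inner3] <;> ring

theorem inner_cross_self (a b : V) : ⟪a, cross a b⟫ = 0 := by
  simp only [inner3, cross, mk3_0, mk3_1, mk3_2]
  ring

theorem inner_cross_perm (a b c : V) : ⟪a, cross b c⟫ = ⟪b, cross c a⟫ := by
  simp only [inner3, cross, mk3_0, mk3_1, mk3_2]
  ring

/-- The cross product with a fixed left factor as a continuous linear map. -/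
def crossL (a : V) : V →L[ℝ] V :=
  LinearMap.toContinuousLinearMap
    { toFun := cross a, map_add' := cross_add_right a, map_smul' := fun r b => cross_smul_right r a b }

theorem crossL_apply (a b : V) : crossL a b = cross a b := rfl

theorem norm_lor_le (E B W : V) : ‖lor E B W‖ ≤ ‖E‖ + ‖B‖ := by
  refine (norm_add_le _ _).trans (add_le_add le_rfl ((norm_cross_le _ _).trans ?_))
  exact mul_le_of_le_one_left (norm_nonneg _) (norm_vel_lt W).le

theorem inner_vel_lor (E B W : V) : ⟪vel W, lor E B W⟫ = ⟪vel W, E⟫ := by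
  rw [lor, inner_add_right, inner_cross_self, add_zero]

theorem continuous_lor : Continuous (fun p : V × V × V => lor p.1 p.2.1 p.2.2) := by
  exact continuous_fst.add (contDiff_cross.continuous.comp
    ((contDiff_vel.continuous.comp continuous_snd.snd).prodMk continuous_snd.fst))

theorem ang_comm (x y : V) : ang x y = ang y x := by
  rw [ang, ang, real_inner_comm]

theorem ang_nonneg {x y : V} (hx : ‖x‖ ≤ 1) (hy : ‖y‖ ≤ 1) : 0 ≤ ang x y := by
  exact sub_nonneg.2 ((real_inner_le_norm x y).trans (mul_le_one₀ hx (norm_nonneg _) hy))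

theorem ang_le_two {x y : V} (hx : ‖x‖ ≤ 1) (hy : ‖y‖ ≤ 1) : ang x y ≤ 2 := by
  have h := (abs_real_inner_le_norm x y).trans (mul_le_one₀ hx (norm_nonneg _) hy)
  unfold ang
  linarith [(abs_le.1 h).1]

theorem sub_sq_le_ang {x y : V} (hx : ‖x‖ ≤ 1) (hy : ‖y‖ ≤ 1) : ‖x - y‖ ^ 2 ≤ 2 * ang x y := by
  rw [norm_sub_sq_real, ang]
  nlinarith [norm_nonneg x, norm_nonneg y]

theorem inv_q_sq_le_ang (W : V) {y : V} (hy : ‖y‖ ≤ 1) :
    ((q W)⁻¹) ^ 2 ≤ 2 * ang (vel W) y := by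
  have h := norm_sub_sq_real (vel W) y
  rw [norm_vel_sq] at h
  unfold ang
  nlinarith [norm_nonneg y, sq_nonneg ‖vel W - y‖]

theorem ang_vel_pos (W : V) {y : V} (hy : ‖y‖ ≤ 1) : 0 < ang (vel W) y := by
  have h := inv_q_sq_le_ang W hy
  have h1 : 0 < (q W)⁻¹ ^ 2 := pow_pos (inv_pos.2 (q_pos W)) 2
  linarith

theorem two_ang_unit (W : V) {n : V} (hn : ‖n‖ = 1) :
    2 * ang (vel W) n = ‖vel W - n‖ ^ 2 + ((q W)⁻¹) ^ 2 := by
  rw [norm_sub_sq_real, norm_vel_sq, hn, ang]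
  ring

theorem two_ang_vel (U W : V) :
    2 * ang (vel U) (vel W) = ‖vel U - vel W‖ ^ 2 + ((q U)⁻¹) ^ 2 + ((q W)⁻¹) ^ 2 := by
  rw [norm_sub_sq_real, norm_vel_sq, norm_vel_sq, ang]
  ring

theorem sq_tri (x y z : V) : ‖x - z‖ ^ 2 ≤ 2 * ‖x - y‖ ^ 2 + 2 * ‖y - z‖ ^ 2 := by
  have h := pow_le_pow_left₀ (norm_nonneg _) (norm_sub_le_norm_sub_add_norm_sub x y z) 2
  nlinarith [sq_nonneg (‖x - y‖ - ‖y - z‖)]

theorem tri_a (U W : V) {n : V} (hn : ‖n‖ = 1) :
    ang (vel U) n ≤ 2 * ang (vel W) n + 2 * ang (vel U) (vel W) := by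
  have h := sq_tri (vel U) (vel W) n
  linarith [two_ang_unit U hn, two_ang_unit W hn, two_ang_vel U W, sq_nonneg (q U)⁻¹,
    sq_nonneg (q W)⁻¹]

theorem tri_b (U W : V) {n : V} (hn : ‖n‖ = 1) :
    ang (vel W) n ≤ 2 * ang (vel U) n + 2 * ang (vel U) (vel W) := by
  rw [ang_comm (vel U) (vel W)]
  exact tri_a W U hn

theorem tri_c (U W : V) {n : V} (hn : ‖n‖ = 1) :
    ang (vel U) (vel W) ≤ 2 * ang (vel U) n + 2 * ang (vel W) n := by
  have h := sq_tri (vel U) n (vel W)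
  rw [norm_sub_rev n] at h
  linarith [two_ang_unit U hn, two_ang_unit W hn, two_ang_vel U W, sq_nonneg (q U)⁻¹,
    sq_nonneg (q W)⁻¹]

/-- Two momenta whose velocities differ by at most `δ`, both of energy at least `1/δ`. -/
structure Close (δ : ℝ) (U U₀ : V) : Prop where
  d : ‖vel U - vel U₀‖ ≤ δ
  q1 : (q U)⁻¹ ≤ δ
  q2 : (q U₀)⁻¹ ≤ δ

theorem Close.symm {δ : ℝ} {U U₀ : V} (h : Close δ U U₀) : Close δ U₀ U := by
  exact ⟨by rw [norm_sub_rev]; exact h.d, h.q2, h.q1⟩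

theorem Close.kappa {δ : ℝ} {U U₀ : V} (h : Close δ U U₀) :
    ang (vel U₀) (vel U) ≤ 3 / 2 * δ ^ 2 := by
  have h1 := pow_le_pow_left₀ (norm_nonneg _) h.symm.d 2
  have h2 := pow_le_pow_left₀ (inv_pos.2 (q_pos U)).le h.q1 2
  have h3 := pow_le_pow_left₀ (inv_pos.2 (q_pos U₀)).le h.q2 2
  linarith [two_ang_vel U₀ U]

theorem Close.ang_pert {δ : ℝ} {U U₀ : V} (h : Close δ U U₀) {m : V} (hm : ‖m‖ ≤ 1) :
    |ang (vel U) m - ang (vel U₀) m| ≤ √(2 * ang (vel U₀) m) * δ + δ ^ 2 := by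
  have h1 := pow_le_pow_left₀ (norm_nonneg _) h.d 2
  have h2 := pow_le_pow_left₀ (inv_pos.2 (q_pos U)).le h.q1 2
  have h3 := pow_le_pow_left₀ (inv_pos.2 (q_pos U₀)).le h.q2 2
  have h4 : ‖vel U₀ - m‖ ≤ √(2 * ang (vel U₀) m) :=
    Real.le_sqrt_of_sq_le (sub_sq_le_ang (norm_vel_lt U₀).le hm)
  have h5 : |⟪vel U - vel U₀, vel U₀ - m⟫| ≤ √(2 * ang (vel U₀) m) * δ := by
    refine (abs_real_inner_le_norm _ _).trans ?_
    rw [mul_comm]
    exact mul_le_mul h4 h.d (norm_nonneg _) (Real.sqrt_nonneg _)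
  have h6 := norm_sub_sq_real (vel U) (vel U₀)
  have e : ang (vel U) m - ang (vel U₀) m =
      ⟪vel U - vel U₀, vel U₀ - m⟫ - (⟪vel U, vel U₀⟫ - ‖vel U₀‖ ^ 2) := by
    simp only [ang, inner_sub_left, inner_sub_right, real_inner_self_eq_norm_sq]
    ring
  rw [norm_vel_sq U] at h6
  rw [e]
  rw [norm_vel_sq U₀] at h6 ⊢
  have h7 := abs_le.1 h5
  rw [abs_le]
  constructor <;>
    linarith [h7.1, h7.2, sq_nonneg (q U)⁻¹, sq_nonneg (q U₀)⁻¹, sq_nonneg ‖vel U - vel U₀‖]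

theorem measurable_kT : Measurable (fun p : V × V × V => kT p.1 p.2.1 p.2.2) := by
  have h1 := contDiff_q.continuous.measurable
  have h2 := contDiff_vel.continuous.measurable
  have h3 := measurable_nrm
  unfold kT ang
  fun_prop

theorem measurable_kS : Measurable (fun p : V × V × V × V => kS p.1 p.2.1 p.2.2.1 p.2.2.2) := by
  have h1 := contDiff_q.continuous.measurable
  have h2 := contDiff_vel.continuous.measurable
  have h3 := measurable_nrm
  unfold kS acc ang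
  fun_prop

end

end Vale.Agent.P107
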