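import Vale.Agent.P107.Step

/-! The a priori bound of the momenta. -/

namespace Vale.Agent.P107

open MeasureTheory Set Filter Topology
open scoped ENNReal RealInnerProductSpace

noncomputable section

variable {T1 T F0 En C0 P0 c0 P : ℝ}

theorem boot_small {Λ A : ℝ} (hΛ : 0 ≤ Λ) (hA : 0 < A) : ∃ h : ℝ, 0 < h ∧ 2 * Λ * h ≤ A := by
  refine ⟨A / (2 * Λ + 1), by positivity, ?_⟩
  rw [← mul_div_assoc, div_le_iff₀ (by positivity)]
  nlinarith

theorem boot_extend (S : Sys T F0 En C0 P0) (hn : Num T1 F0 En C0 P0 c0 P) {h t t' : ℝ}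
    (hh : 2 * S.Λ * h ≤ P ^ (11 / 20 : ℝ) / 200) (h1 : t ≤ t') (h2 : t' ≤ t + h)
    (H : Hyp S c0 P t (1 / 200)) : Hyp S c0 P t' (1 / 100) := by
  intro z hz s1 hs1 hQ
  have hM : 0 ≤ 2 * S.Λ := mul_nonneg zero_le_two S.Λ_nonneg
  have hη : 0 ≤ eta P (q (S.W z s1)) := le_trans (by norm_num) (hn.eta_le hQ).1
  have hu : 0 < uu c0 P (q (S.W z s1)) := uu_pos hn.hc0 hn.hP2 (q_pos _)
  have hq := q_pos (S.W z s1)
  rcases le_total s1 t with h3 | h3
  · have c1 := (H z hz s1 ⟨hs1.1, h3⟩ hQ).extend hη hM (le_min h3 (by linarith))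
      (min_le_min_right _ h1) (S.lipW z)
    refine c1.mono ?_
    have e1 : min t' (s1 + uu c0 P (q (S.W z s1))) - min t (s1 + uu c0 P (q (S.W z s1))) ≤ h := by
      rcases le_total t (s1 + uu c0 P (q (S.W z s1))) with h4 | h4
      · rw [min_eq_left h4]
        linarith [min_le_left t' (s1 + uu c0 P (q (S.W z s1)))]
      · rw [min_eq_right h4]
        linarith [min_le_right t' (s1 + uu c0 P (q (S.W z s1)))]
    have e2 := mul_le_mul_of_nonneg_left e1 hM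
    linarith
  · have c1 := Ctl.of_lip (U := S.W z) (s1 := s1) (e := min t' (s1 + uu c0 P (q (S.W z s1)))) hη hM
      (le_min hs1.2 (by linarith)) (S.lipW z)
    refine c1.mono ?_
    have e1 : min t' (s1 + uu c0 P (q (S.W z s1))) - s1 ≤ h := by
      linarith [min_le_left t' (s1 + uu c0 P (q (S.W z s1)))]
    have e2 := mul_le_mul_of_nonneg_left e1 hM
    linarith

theorem hyp_of_step (S : Sys T F0 En C0 P0) (hT : T ≤ T1) (hn : Num T1 F0 En C0 P0 c0 P)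
    (hs : ∀ x : Ctx T1 F0 En C0 P0 c0 P, Ctl x.U x.s1 x.s2 x.η (1 / 200 * x.Q)) {t : ℝ}
    (ht : t ≤ T) (hP : ∀ z ∈ S.S, ∀ s, s ≤ t → q (S.W z s) ≤ P) : Hyp S c0 P t (1 / 200) := by
  have hP0 : 0 < P := lt_of_lt_of_le one_pos hn.hP2
  obtain ⟨h, h0, hh⟩ := boot_small S.Λ_nonneg (A := P ^ (11 / 20 : ℝ) / 200) (by positivity)
  have impr : ∀ t', t' ≤ t → Hyp S c0 P t' (1 / 100) → Hyp S c0 P t' (1 / 200) := by
    intro t' ht' H z hz s1 hs1 hQ
    exact hs ⟨T, S, t', z, s1, hn, hT, ht'.trans ht, hs1.1, hs1.2, hz,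
      fun z hz s hs => hP z hz s (hs.trans ht'), hQ, H⟩
  have ind : ∀ j : ℕ, ∀ t', t' ≤ t → t' < j * h → Hyp S c0 P t' (1 / 200) := by
    intro j
    induction j with
    | zero =>
      intro t' _ h2 z _ s1 hs1 _
      exfalso
      have := hs1.1.trans hs1.2
      simp only [Nat.cast_zero, zero_mul] at h2
      linarith
    | succ j ih =>
      intro t' h1 h2
      push_cast at h2
      exact impr t' h1 (boot_extend S hn hh (t := t' - h) (by linarith) (by linarith)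
        (ih (t' - h) (by linarith) (by linarith)))
  obtain ⟨j, hj⟩ := exists_nat_gt (t / h)
  rw [div_lt_iff₀ h0] at hj
  exact ind j t le_rfl hj

theorem boot_half (hn : Num T1 F0 En C0 P0 c0 P) : P ^ (11 / 20 : ℝ) ≤ P / 2 := by
  have hP0 : 0 < P := lt_of_lt_of_le one_pos hn.hP2
  have e1 : P ^ (1 / 100 : ℝ) ≤ P ^ (9 / 20 : ℝ) :=
    Real.rpow_le_rpow_of_exponent_le hn.hP2 (by norm_num)
  have e2 : P ^ (11 / 20 : ℝ) * P ^ (9 / 20 : ℝ) = P := by
    rw [← Real.rpow_add hP0]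
    norm_num
  have e3 : 0 < P ^ (11 / 20 : ℝ) := by positivity
  have e4 : (2 : ℝ) ≤ P ^ (9 / 20 : ℝ) := le_trans (by norm_num) (hn.hP1.trans e1)
  nlinarith

theorem boot_improve (S : Sys T F0 En C0 P0) (hT : T ≤ T1) (hn : Num T1 F0 En C0 P0 c0 P)
    (hs : ∀ x : Ctx T1 F0 En C0 P0 c0 P, Ctl x.U x.s1 x.s2 x.η (1 / 200 * x.Q)) {t t' : ℝ}
    (ht : 0 ≤ t) (hP : ∀ z ∈ S.S, ∀ s, s ≤ min T t → q (S.W z s) ≤ P / 2)
    (h1 : t' ≤ T) (h2 : t' ≤ t + uu c0 P (P / 2))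
    (H : ∀ z ∈ S.S, ∀ s, s ≤ t' → q (S.W z s) ≤ P) :
    ∀ z ∈ S.S, ∀ s, s ≤ t' → q (S.W z s) ≤ 9 / 10 * P := by
  intro z hz s hs'
  have hP0 : 0 < P := lt_of_lt_of_le one_pos hn.hP2
  by_cases hq : q (S.W z s) ≤ P / 2
  · linarith
  push Not at hq
  have hts : t ≤ s := by
    by_contra hlt
    push Not at hlt
    have := hP z hz s (le_min (hs'.trans h1) hlt.le)
    linarith
  have hqt := hP z hz t (le_min (hts.trans (hs'.trans h1)) le_rfl)
  have cq : Continuous (fun r => q (S.W z r)) := contDiff_q.continuous.comp (S.tm z).cW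
  obtain ⟨s1, hs1, e1⟩ := intermediate_value_Icc hts cq.continuousOn ⟨hqt, hq.le⟩
  simp only at e1
  have hQ : P ^ (11 / 20 : ℝ) ≤ q (S.W z s1) := by
    rw [e1]
    exact boot_half hn
  have c1 := hyp_of_step S hT hn hs h1 H z hz s1 ⟨ht.trans hs1.1, hs1.2.trans hs'⟩ hQ
  have e2 := (hn.eta_le hQ).2
  have e3 := c1.bound (r := s) ⟨hs1.2, le_min hs' (by rw [e1]; linarith [hs1.1])⟩
  have e4 := (le_abs_self _).trans (q_lip (S.W z s) (S.W z s1))
  rw [e1] at e2 e3 e4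
  linarith

theorem doubling (S : Sys T F0 En C0 P0) (hT : T ≤ T1) (hn : Num T1 F0 En C0 P0 c0 P)
    (hs : ∀ x : Ctx T1 F0 En C0 P0 c0 P, Ctl x.U x.s1 x.s2 x.η (1 / 200 * x.Q)) {t : ℝ}
    (ht : 0 ≤ t) (hP : ∀ z ∈ S.S, ∀ s, s ≤ min T t → q (S.W z s) ≤ P / 2) :
    ∀ z ∈ S.S, ∀ s, s ≤ min T (t + uu c0 P (P / 2)) → q (S.W z s) ≤ P := by
  have hP0 : 0 < P := lt_of_lt_of_le one_pos hn.hP2
  obtain ⟨h, h0, hh⟩ := boot_small S.Λ_nonneg (A := P / 10) (by positivity)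
  have hM : 0 ≤ 2 * S.Λ := mul_nonneg zero_le_two S.Λ_nonneg
  have ind : ∀ j : ℕ, ∀ t', t' ≤ T → t' ≤ t + uu c0 P (P / 2) → t' ≤ t + j * h →
      ∀ z ∈ S.S, ∀ s, s ≤ t' → q (S.W z s) ≤ P := by
    intro j
    induction j with
    | zero =>
      intro t' h1 _ h3 z hz s hs'
      simp only [Nat.cast_zero, zero_mul, add_zero] at h3
      have := hP z hz s (le_min (hs'.trans h1) (hs'.trans h3))
      linarith
    | succ j ih =>
      intro t' h1 h2 h3 z hz s hs'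
      push_cast at h3
      have H := ih (t' - h) (by linarith) (by linarith) (by linarith)
      rcases le_total s (t' - h) with h4 | h4
      · exact H z hz s h4
      · have e1 := boot_improve S hT hn hs ht hP (t' := t' - h) (by linarith) (by linarith) H z hz
          (t' - h) le_rfl
        have e2 := (le_abs_self _).trans (q_lip (S.W z s) (S.W z (t' - h)))
        have e3 := S.lipW z (t' - h) s
        rw [abs_of_nonneg (by linarith)] at e3
        have e4 := mul_le_mul_of_nonneg_left (show s - (t' - h) ≤ h by linarith) hM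
        linarith
  obtain ⟨j, hj⟩ := exists_nat_ge (uu c0 P (P / 2) / h)
  rw [div_le_iff₀ h0] at hj
  exact ind j _ (min_le_left _ _) (min_le_right _ _) ((min_le_right _ _).trans (by linarith))

theorem apriori (T1 F0 En C0 P0 : ℝ) (hT : 1 ≤ T1) (hF : 1 ≤ F0) (hE : 1 ≤ En) (hC : 0 ≤ C0) :
    ∃ Ps : ℝ, 1 ≤ Ps ∧ ∀ T, 0 ≤ T → T ≤ T1 → ∀ S : Sys T F0 En C0 P0, ∀ z ∈ S.S, ∀ s, s ≤ T →
      q (S.W z s) ≤ Ps := by
  obtain ⟨c0, P1, hc0, hP1, hst⟩ := step T1 F0 En C0 P0 hT hF hE hC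
  have hA : 1 ≤ max P1 P0 := hP1.trans (le_max_left _ _)
  generalize hAe : max P1 P0 = A at hA
  have hA1 : P1 ≤ A := hAe ▸ le_max_left _ _
  have hA0 : P0 ≤ A := hAe ▸ le_max_right _ _
  have hpow : ∀ k : ℕ, A ≤ A * 2 ^ k := fun k =>
    le_mul_of_one_le_right (by linarith) (one_le_pow₀ (by norm_num))
  obtain ⟨n, hn⟩ := osgood T1 c0 A hc0 hA
  refine ⟨A * 2 ^ n, hA.trans (hpow n), fun T _ hT1 S => ?_⟩
  have ind : ∀ m : ℕ, ∀ z ∈ S.S, ∀ s,
      s ≤ min T (∑ k ∈ Finset.range m, uu c0 (A * 2 ^ (k + 1)) (A * 2 ^ k)) →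
        q (S.W z s) ≤ A * 2 ^ m := by
    intro m
    induction m with
    | zero =>
      intro z hz s hs
      have h0 : s ≤ 0 := by simpa using hs.trans (min_le_right _ _)
      rw [(S.tm z).past s h0]
      exact (S.init z hz).trans (hA0.trans (hpow 0))
    | succ m ih =>
      obtain ⟨hnum, hctl⟩ := hst (A * 2 ^ (m + 1)) (hA1.trans (hpow _))
      have e : A * 2 ^ (m + 1) / 2 = A * 2 ^ m := by ring
      have h0 : 0 ≤ ∑ k ∈ Finset.range m, uu c0 (A * 2 ^ (k + 1)) (A * 2 ^ k) :=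
        Finset.sum_nonneg fun k _ =>
          (uu_pos hc0 (hA.trans (hpow _)) (lt_of_lt_of_le one_pos (hA.trans (hpow _)))).le
      have := doubling S hT1 hnum hctl h0 (by rw [e]; exact ih)
      rw [e, ← Finset.sum_range_succ (fun k => uu c0 (A * 2 ^ (k + 1)) (A * 2 ^ k))] at this
      exact this
  exact fun z hz s hs => ind n z hz s (le_min hs (hs.trans (hT1.trans hn)))

end

end Vale.Agent.P107
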