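import Vale.Agent.P107.Occ

/-! The force on the sources of a box in mean square. -/

namespace Vale.Agent.P107

open MeasureTheory Set Filter Topology
open scoped ENNReal RealInnerProductSpace

noncomputable section

/-- Momenta compatible with a box. -/
def csV (d : Box) (n u : V) : Set V :=
  {v | q v ≤ 2 * d.p ∧ ang (vel v) n ≤ 2 * d.b ∧ ang u (vel v) ≤ 2 * d.c}

/-- Positions compatible with a box. -/
def csY (d : Box) (s : ℝ) (X u : V) : Set V :=
  {y | ‖X - y‖ < s ∧ d.a ≤ ang u (nrm (X - y)) ∧ d.R ≤ ‖X - y‖ ∧ ‖X - y‖ ≤ 2 * d.R}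

theorem cs_meas_ang {α : Type} [MeasurableSpace α] {f g : α → V} (hf : Measurable f)
    (hg : Measurable g) : Measurable fun a => ang (f a) (g a) :=
  measurable_const.sub (hf.inner hg)

theorem cs_vol : ∃ C : ℝ, 1 ≤ C ∧ ∀ (d : Box) (n u : V), d.Pos → ‖n‖ ≤ 1 → ‖u‖ ≤ 1 →
    volume (csV d n u) ≤ ENNReal.ofReal (C * (d.p ^ 3 * min d.b d.c)) := by
  obtain ⟨C, hC, h⟩ := vol_V
  refine ⟨16 * C, by linarith, fun d n u hd hn hu => ?_⟩
  have hp : 0 < d.p := by linarith [hd.p]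
  have key : ∀ (m : V) (e : ℝ), ‖m‖ ≤ 1 → 0 < e →
      volume {v : V | q v ≤ 2 * d.p ∧ ang (vel v) m ≤ 2 * e} ≤
        ENNReal.ofReal (16 * C * (d.p ^ 3 * e)) := by
    intro m e hm he
    refine le_trans (measure_mono ?_) ((h m (2 * d.p) (min (2 * e) 2) hm (by linarith)
      (lt_min (by linarith) two_pos) ((min_le_right _ _).trans (by norm_num))).trans ?_)
    · intro v hv
      exact ⟨hv.1, le_min hv.2 (ang_le_two (norm_vel_lt v).le hm)⟩
    · refine ENNReal.ofReal_le_ofReal ?_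
      have h1 : min (2 * e) 2 ≤ 2 * e := min_le_left _ _
      calc C * ((2 * d.p) ^ 3 * min (2 * e) 2) ≤ C * ((2 * d.p) ^ 3 * (2 * e)) := by gcongr
        _ = 16 * C * (d.p ^ 3 * e) := by ring
  rcases le_total d.b d.c with hbc | hbc
  · rw [min_eq_left hbc]
    refine le_trans (measure_mono fun v hv => ?_) (key n d.b hn hd.b)
    exact ⟨hv.1, hv.2.1⟩
  · rw [min_eq_right hbc]
    refine le_trans (measure_mono fun v hv => ?_) (key u d.c hu hd.c)
    exact ⟨hv.1, by rw [ang_comm]; exact hv.2.2⟩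

theorem cs_holder {α : Type} [MeasurableSpace α] (μ : Measure α) {f : α → ℝ} (hf : Measurable f)
    (h0 : ∀ a, 0 ≤ f a) {A O : ℝ} (hA : 0 ≤ A) (hO : 0 ≤ O)
    (h1 : ∫⁻ a, ENNReal.ofReal (f a ^ 2) ∂μ ≤ ENNReal.ofReal A)
    (h2 : μ univ = ENNReal.ofReal O) :
    ∫⁻ a, ENNReal.ofReal (f a) ∂μ ≤ ENNReal.ofReal (√(O * A)) := by
  have h := ENNReal.lintegral_mul_le_Lp_mul_Lq μ Real.HolderConjugate.two_two
    (f := fun a => ENNReal.ofReal (f a)) (g := fun _ => 1) hf.ennreal_ofReal.aemeasurable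
    aemeasurable_const
  simp only [Pi.mul_apply, mul_one, ENNReal.one_rpow, lintegral_const, one_mul] at h
  refine h.trans ?_
  have e1 : ∀ a, ENNReal.ofReal (f a) ^ (2 : ℝ) = ENNReal.ofReal (f a ^ 2) := fun a => by
    rw [ENNReal.ofReal_rpow_of_nonneg (h0 a) (by norm_num), Real.rpow_two]
  simp only [e1]
  rw [h2]
  calc (∫⁻ a, ENNReal.ofReal (f a ^ 2) ∂μ) ^ (1 / 2 : ℝ) * ENNReal.ofReal O ^ (1 / 2 : ℝ)
      ≤ ENNReal.ofReal A ^ (1 / 2 : ℝ) * ENNReal.ofReal O ^ (1 / 2 : ℝ) := by gcongr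
    _ = ENNReal.ofReal (√(O * A)) := by
      rw [← ENNReal.mul_rpow_of_nonneg _ _ (by norm_num), ← ENNReal.ofReal_mul hA,
        ENNReal.ofReal_rpow_of_nonneg (mul_nonneg hA hO) (by norm_num), Real.sqrt_eq_rpow,
        mul_comm]

namespace Ctx

theorem cs_sg {T1 F0 En C0 P0 c0 P : ℝ} (x : Ctx T1 F0 En C0 P0 c0 P) (s : ℝ) (z : Z) :
    x.sg s z = s - ‖x.X s - x.S.Y z (x.sg s z)‖ := by
  have h := x.pR_eq s z
  unfold pR el at h
  linarith

theorem cs_measY {T1 F0 En C0 P0 c0 P : ℝ} (x : Ctx T1 F0 En C0 P0 c0 P) (d : Box) :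
    MeasurableSet {w : ℝ × V | w.2 ∈ csY d w.1 (x.X w.1) (vel (x.U w.1))} := by
  have hX : Measurable fun w : ℝ × V => x.X w.1 :=
    (continuous_iff_continuousAt.2 fun s => (x.tm.hY s).continuousAt).measurable.comp
      measurable_fst
  have hU : Measurable fun w : ℝ × V => vel (x.U w.1) :=
    (contDiff_vel.continuous.comp x.tm.cW).measurable.comp measurable_fst
  have hl : Measurable fun w : ℝ × V => x.X w.1 - w.2 := hX.sub measurable_snd
  exact (measurableSet_lt hl.norm measurable_fst).inter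
    ((measurableSet_le measurable_const (cs_meas_ang hU (measurable_nrm.comp hl))).inter
      ((measurableSet_le measurable_const hl.norm).inter
        (measurableSet_le hl.norm measurable_const)))

theorem cs_slice : ∃ C : ℝ, 1 ≤ C ∧ ∀ (T1 F0 En C0 P0 c0 P : ℝ) (x : Ctx T1 F0 En C0 P0 c0 P)
    (d : Box), d.Pos → ∀ (s : ℝ) (G : V → ℝ≥0∞), Measurable G →
    ∫⁻ z, (x.piece d).indicator (fun w => G (x.S.Y w.2 (x.sg w.1 w.2))) (s, z) ∂x.S.ν ≤
      ENNReal.ofReal (C * F0 * (d.b * d.p ^ 3 * min d.b d.c)) *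
        ∫⁻ y in csY d s (x.X s) (vel (x.U s)), G y := by
  obtain ⟨C, hC, hv⟩ := cs_vol
  refine ⟨2 * C, by linarith, fun T1 F0 En C0 P0 c0 P x d hd s G hG => ?_⟩
  have hF : 0 ≤ F0 := by linarith [x.num.hF0]
  have hb := hd.b
  set A := csY d s (x.X s) (vel (x.U s)) with hA
  have mA : MeasurableSet A := (measurable_prodMk_left (x := s)) (x.cs_measY d)
  have hl : Measurable fun w : Z => nrm (x.X s - w.1) :=
    measurable_nrm.comp (measurable_const.sub measurable_fst)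
  have hw : Measurable fun w : Z => vel w.2 :=
    contDiff_vel.continuous.measurable.comp measurable_snd
  have mB : MeasurableSet {w : Z | w.1 ∈ A ∧ w.2 ∈ csV d (nrm (x.X s - w.1)) (vel (x.U s))} :=
    (measurable_fst mA).inter
      ((measurableSet_le (contDiff_q.continuous.measurable.comp measurable_snd)
        measurable_const).inter ((measurableSet_le (cs_meas_ang hw hl) measurable_const).inter
          (measurableSet_le (cs_meas_ang measurable_const hw) measurable_const)))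
  have hc := x.S.cone s (x.X s)
    ({w : Z | w.1 ∈ A ∧ w.2 ∈ csV d (nrm (x.X s - w.1)) (vel (x.U s))}.indicator fun w => G w.1)
    ((hG.comp measurable_fst).indicator mB)
  refine le_trans (lintegral_mono fun z => ?_) (hc.trans ?_)
  · by_cases hz : (s, z) ∈ x.piece d
    · obtain ⟨⟨-, -, h1, -⟩, h2⟩ := id hz
      have h3 := x.cs_sg s z
      rw [indicator_of_mem hz, indicator_of_mem]
      · exact le_rfl
      · refine ⟨⟨?_, h2.a1, h2.R1, h2.R2⟩, h2.p2, h2.b2, h2.c2⟩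
        change ‖x.X s - x.S.Y z (x.sg s z)‖ < s
        change 0 < x.sg s z at h1
        linarith
    · rw [indicator_of_notMem hz]
      exact zero_le
  · have hin : ∀ y : V, ∫⁻ v, ENNReal.ofReal (ang (vel v) (nrm (x.X s - y))) *
        {w : Z | w.1 ∈ A ∧ w.2 ∈ csV d (nrm (x.X s - w.1)) (vel (x.U s))}.indicator
          (fun w => G w.1) (y, v) ≤
        ENNReal.ofReal (2 * C * (d.b * d.p ^ 3 * min d.b d.c)) * A.indicator G y := by
      intro y
      by_cases hy : y ∈ A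
      · rw [indicator_of_mem hy]
        refine le_trans (lintegral_mono (g := (csV d (nrm (x.X s - y)) (vel (x.U s))).indicator
          fun _ => ENNReal.ofReal (2 * d.b) * G y) fun v => ?_)
          ((lintegral_indicator_const_le _ _).trans ?_)
        · by_cases hv' : v ∈ csV d (nrm (x.X s - y)) (vel (x.U s))
          · rw [indicator_of_mem hv', indicator_of_mem (by exact ⟨hy, hv'⟩)]
            exact mul_le_mul_left (ENNReal.ofReal_le_ofReal hv'.2.1) _
          · rw [indicator_of_notMem hv', indicator_of_notMem (fun h => hv' h.2), mul_zero]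
        · calc ENNReal.ofReal (2 * d.b) * G y * volume (csV d (nrm (x.X s - y)) (vel (x.U s)))
              ≤ ENNReal.ofReal (2 * d.b) * G y * ENNReal.ofReal (C * (d.p ^ 3 * min d.b d.c)) :=
                mul_le_mul_right (hv d _ _ hd (norm_nrm_le _) (norm_vel_lt _).le) _
            _ = _ := by
              rw [mul_right_comm, ← ENNReal.ofReal_mul (by linarith)]
              congr 2
              ring
      · refine le_trans (le_of_eq ?_) zero_le
        refine (lintegral_congr fun v => ?_).trans lintegral_zero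
        rw [indicator_of_notMem (fun h => hy h.1), mul_zero]
    refine (mul_le_mul_right (lintegral_mono hin) _).trans (le_of_eq ?_)
    rw [lintegral_const_mul' _ _ ENNReal.ofReal_ne_top, lintegral_indicator mA, ← mul_assoc,
      ← ENNReal.ofReal_mul hF]
    congr 2
    ring

theorem cs_piece : ∃ C : ℝ, 1 ≤ C ∧ ∀ (T1 F0 En C0 P0 c0 P : ℝ) (x : Ctx T1 F0 En C0 P0 c0 P)
    (d : Box), d.Pos → ∀ (g : ℝ → V → ℝ≥0∞), (∀ s, Measurable (g s)) →
    ∫⁻ w in x.piece d, g w.1 (x.S.Y w.2 (x.sg w.1 w.2)) ∂x.m ≤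
      ENNReal.ofReal (C * F0 * (d.b * d.p ^ 3 * min d.b d.c)) *
        ∫⁻ s in Icc x.s1 x.s2, ∫⁻ y in csY d s (x.X s) (vel (x.U s)), g s y := by
  obtain ⟨C, hC, h⟩ := cs_slice
  refine ⟨C, hC, fun T1 F0 En C0 P0 c0 P x d hd g hg => ?_⟩
  have := x.S.fin
  rw [← lintegral_indicator (x.measurableSet_piece d), ← lintegral_const_mul' _ _
    ENNReal.ofReal_ne_top, ← lintegral_indicator measurableSet_Icc]
  refine (lintegral_prod_le _).trans (lintegral_mono fun s => ?_)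
  by_cases hs : s ∈ Icc x.s1 x.s2
  · rw [indicator_of_mem hs]
    refine le_trans (le_of_eq (lintegral_congr fun z => ?_)) (h _ _ _ _ _ _ _ x d hd s (g s) (hg s))
    by_cases hz : (s, z) ∈ x.piece d
    · rw [indicator_of_mem hz, indicator_of_mem hz]
    · rw [indicator_of_notMem hz, indicator_of_notMem hz]
  · refine le_trans (le_of_eq ?_) zero_le
    refine (lintegral_congr fun z => ?_).trans lintegral_zero
    exact indicator_of_notMem (fun h => hs h.1.1) _

theorem sq_K : ∃ C : ℝ, 1 ≤ C ∧ ∀ (T1 F0 En C0 P0 c0 P : ℝ) (x : Ctx T1 F0 En C0 P0 c0 P)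
    (d : Box), d.Pos →
    ∫⁻ w in x.piece d, ENNReal.ofReal
      (‖x.S.E (x.sg w.1 w.2) (x.S.Y w.2 (x.sg w.1 w.2)) +
        cross (nrm (x.el w.1 w.2)) (x.S.B (x.sg w.1 w.2) (x.S.Y w.2 (x.sg w.1 w.2)))‖ ^ 2) ∂x.m ≤
      ENNReal.ofReal (C * F0 * En * (d.b * d.p ^ 3 * min d.b d.c * x.τ)) := by
  obtain ⟨C, hC, h⟩ := cs_piece
  refine ⟨C, hC, fun T1 F0 En C0 P0 c0 P x d hd => ?_⟩
  have hF : 0 ≤ F0 := by linarith [x.num.hF0]
  have hE : 0 ≤ En := by linarith [x.num.hEn]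
  have hM : 0 ≤ d.b * d.p ^ 3 * min d.b d.c := by
    have := hd.b; have := hd.p; have := lt_min hd.b hd.c; positivity
  have key := h _ _ _ _ _ _ _ x d hd (fun s y => ENNReal.ofReal
    (‖x.S.E (s - ‖x.X s - y‖) y + cross (nrm (x.X s - y)) (x.S.B (s - ‖x.X s - y‖) y)‖ ^ 2))
    fun s => by
      have h1 : Measurable fun y : V => (s - ‖x.X s - y‖, y) := by fun_prop
      have h2 : Measurable fun y : V => nrm (x.X s - y) :=
        measurable_nrm.comp (measurable_const.sub measurable_id)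
      exact (((x.S.cE.measurable.comp h1).add (contDiff_cross.continuous.measurable.comp
        (h2.prodMk (x.S.cB.measurable.comp h1)))).norm.pow_const 2).ennreal_ofReal
  refine le_trans (le_of_eq (lintegral_congr fun w => ?_)) (key.trans ?_)
  · beta_reduce
    rw [← x.cs_sg w.1 w.2]
    rfl
  · have h1 : ∫⁻ s in Icc x.s1 x.s2, ∫⁻ y in csY d s (x.X s) (vel (x.U s)), ENNReal.ofReal
        (‖x.S.E (s - ‖x.X s - y‖) y +
          cross (nrm (x.X s - y)) (x.S.B (s - ‖x.X s - y‖) y)‖ ^ 2) ≤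
        ENNReal.ofReal (En * x.τ) := by
      refine le_trans (setLIntegral_mono' (g := fun _ => ENNReal.ofReal En) measurableSet_Icc
        fun s hs => ?_) ?_
      · refine le_trans (lintegral_mono_set fun y hy => ?_) (x.S.flK s (x.mem_Icc hs) (x.X s))
        rw [mem_ball_iff_norm']
        exact hy.1
      · rw [setLIntegral_const, Real.volume_Icc, ← ENNReal.ofReal_mul hE]
        exact ENNReal.ofReal_le_ofReal (mul_le_mul_of_nonneg_left (by linarith [x.s2_le.1]) hE)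
    refine (mul_le_mul_right h1 _).trans (le_of_eq ?_)
    rw [← ENNReal.ofReal_mul (by positivity)]
    congr 1
    ring

theorem cs_time {T1 F0 En C0 P0 c0 P : ℝ} (x : Ctx T1 F0 En C0 P0 c0 P) {d : Box} (hd : d.Pos) :
    ∫⁻ s in Icc x.s1 x.s2, ∫⁻ y in csY d s (x.X s) (vel (x.U s)),
      ENNReal.ofReal (‖x.S.B (s - ‖x.X s - y‖) y‖ ^ 2) ≤
      ENNReal.ofReal (2 * En * ((x.τ + d.R) / d.a)) := by
  have hE : 0 ≤ En := by linarith [x.num.hEn]
  have ha := hd.a
  have hR := hd.R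
  have hτ := x.τ_pos
  set g : ℝ → V → ℝ≥0∞ := fun t y => ENNReal.ofReal (‖x.S.B t y‖ ^ 2) with hg
  have mg : Measurable fun w : ℝ × V => g w.1 w.2 :=
    (x.S.cB.measurable.norm.pow_const 2).ennreal_ofReal
  have hX : Measurable fun w : ℝ × V => x.X w.1 :=
    (continuous_iff_continuousAt.2 fun s => (x.tm.hY s).continuousAt).measurable.comp
      measurable_fst
  set D : Set (ℝ × V) := {w | w.2 ∈ csY d w.1 (x.X w.1) (vel (x.U w.1))} with hD
  have mD : MeasurableSet D := x.cs_measY d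
  have mH : Measurable (D.indicator fun w : ℝ × V => g (w.1 - ‖x.X w.1 - w.2‖) w.2) :=
    (mg.comp ((measurable_fst.sub (hX.sub measurable_snd).norm).prodMk
      measurable_snd)).indicator mD
  have e1 : ∫⁻ s in Icc x.s1 x.s2, ∫⁻ y in csY d s (x.X s) (vel (x.U s)),
      g (s - ‖x.X s - y‖) y = ∫⁻ y, ∫⁻ s in Icc x.s1 x.s2,
        D.indicator (fun w : ℝ × V => g (w.1 - ‖x.X w.1 - w.2‖) w.2) (s, y) := by
    rw [← lintegral_lintegral_swap (f := fun s y =>
      D.indicator (fun w : ℝ × V => g (w.1 - ‖x.X w.1 - w.2‖) w.2) (s, y)) mH.aemeasurable]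
    refine lintegral_congr fun s => ?_
    have mA : MeasurableSet (csY d s (x.X s) (vel (x.U s))) := (measurable_prodMk_left (x := s)) mD
    rw [← lintegral_indicator mA]
    rfl
  set J : Set ℝ := Icc (max 0 (x.s1 - 2 * d.R)) x.s2 with hJ
  have e2 : ∀ y : V, ENNReal.ofReal d.a * ∫⁻ s in Icc x.s1 x.s2,
      D.indicator (fun w : ℝ × V => g (w.1 - ‖x.X w.1 - w.2‖) w.2) (s, y) ≤ ∫⁻ t in J, g t y := by
    intro y
    have mD' : MeasurableSet {s : ℝ | (s, y) ∈ D} := (measurable_prodMk_right (y := y)) mD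
    have e3 : ∫⁻ s in Icc x.s1 x.s2,
        D.indicator (fun w : ℝ × V => g (w.1 - ‖x.X w.1 - w.2‖) w.2) (s, y) =
        ∫⁻ s in {s : ℝ | (s, y) ∈ D} ∩ Icc x.s1 x.s2, g (s - ‖x.X s - y‖) y := by
      rw [← Measure.restrict_restrict mD', ← lintegral_indicator mD']
      rfl
    rw [e3]
    refine (cv_le (φ := fun s => s - ‖x.X s - y‖)
      (φ' := fun s => ang (vel (x.U s)) (nrm (x.X s - y))) (mD'.inter measurableSet_Icc)
      ((x.tm.smono_sub y).injective.injOn) (fun s hs => ⟨x.tm.hasDerivAt_sub fun h => ?_,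
        hs.1.2.1⟩) fun t => g t y).trans (lintegral_mono_set ?_)
    · have h1 : d.R ≤ ‖x.X s - y‖ := hs.1.2.2.1
      rw [h, sub_self, norm_zero] at h1
      linarith
    · rintro _ ⟨s, ⟨⟨h1, -, -, h2⟩, h3, h4⟩, rfl⟩
      change ‖x.X s - y‖ < s at h1
      change ‖x.X s - y‖ ≤ 2 * d.R at h2
      exact ⟨max_le (by linarith) (by linarith), by linarith [norm_nonneg (x.X s - y)]⟩
  have e4 : ∫⁻ y, ∫⁻ t in J, g t y ≤ ENNReal.ofReal (En * (2 * (x.τ + d.R))) := by
    rw [← lintegral_lintegral_swap (f := g) mg.aemeasurable]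
    refine le_trans (setLIntegral_mono' (g := fun _ => ENNReal.ofReal En) measurableSet_Icc
      fun t ht => x.S.enB t ⟨(le_max_left _ _).trans ht.1, ht.2.trans (x.s2_le.2.trans x.ht)⟩) ?_
    rw [setLIntegral_const, Real.volume_Icc, ← ENNReal.ofReal_mul hE]
    refine ENNReal.ofReal_le_ofReal (mul_le_mul_of_nonneg_left ?_ hE)
    linarith [x.s2_le.1, le_max_right 0 (x.s1 - 2 * d.R)]
  have e5 := (lintegral_mono e2).trans e4
  rw [lintegral_const_mul' _ _ ENNReal.ofReal_ne_top, ← e1] at e5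
  have ha' : ENNReal.ofReal d.a ≠ 0 := (ENNReal.ofReal_pos.2 ha).ne'
  rw [← ENNReal.mul_le_mul_iff_right ha' ENNReal.ofReal_ne_top]
  refine e5.trans (le_of_eq ?_)
  rw [← ENNReal.ofReal_mul ha.le]
  congr 1
  field_simp

theorem sq_B : ∃ C : ℝ, 1 ≤ C ∧ ∀ (T1 F0 En C0 P0 c0 P : ℝ) (x : Ctx T1 F0 En C0 P0 c0 P)
    (d : Box), d.Pos →
    ∫⁻ w in x.piece d, ENNReal.ofReal
      (‖x.S.B (x.sg w.1 w.2) (x.S.Y w.2 (x.sg w.1 w.2))‖ ^ 2) ∂x.m ≤
      ENNReal.ofReal (C * F0 * En * (d.b * d.p ^ 3 * min d.b d.c * ((x.τ + d.R) / d.a))) := by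
  obtain ⟨C, hC, h⟩ := cs_piece
  refine ⟨2 * C, by linarith, fun T1 F0 En C0 P0 c0 P x d hd => ?_⟩
  have hF : 0 ≤ F0 := by linarith [x.num.hF0]
  have hM : 0 ≤ d.b * d.p ^ 3 * min d.b d.c := by
    have := hd.b; have := hd.p; have := lt_min hd.b hd.c; positivity
  have key := h _ _ _ _ _ _ _ x d hd (fun s y => ENNReal.ofReal
    (‖x.S.B (s - ‖x.X s - y‖) y‖ ^ 2)) fun s => by
      have h1 : Measurable fun y : V => (s - ‖x.X s - y‖, y) := by fun_prop
      exact ((x.S.cB.measurable.comp h1).norm.pow_const 2).ennreal_ofReal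
  refine le_trans (le_of_eq (lintegral_congr fun w => ?_)) (key.trans ?_)
  · beta_reduce
    rw [← x.cs_sg w.1 w.2]
  · refine (mul_le_mul_right (x.cs_time hd) _).trans (le_of_eq ?_)
    rw [← ENNReal.ofReal_mul (by positivity)]
    congr 1
    ring

theorem lint_F : ∃ C : ℝ, 1 ≤ C ∧ ∀ (T1 F0 En C0 P0 c0 P : ℝ) (x : Ctx T1 F0 En C0 P0 c0 P)
    (d : Box), d.Pos →
    ∫⁻ w in x.piece d, ENNReal.ofReal ‖x.Fs w.1 w.2‖ ∂x.m ≤
      ENNReal.ofReal (C * F0 * En * (√(x.O d * d.b * d.p ^ 3 * min d.b d.c) *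
        (√x.τ + √(d.b * (x.τ + d.R) / d.a)))) := by
  obtain ⟨C1, hC1, h1⟩ := sq_K
  obtain ⟨C2, hC2, h2⟩ := sq_B
  refine ⟨C1 + 2 * C2, by linarith, fun T1 F0 En C0 P0 c0 P x d hd => ?_⟩
  have hF := x.num.hF0
  have hE := x.num.hEn
  have ha := hd.a
  have hb := hd.b
  have hR := hd.R
  have hτ := x.τ_pos
  have hM : 0 ≤ d.b * d.p ^ 3 * min d.b d.c := by
    have := hd.p; have := lt_min hd.b hd.c; positivity
  have hO : 0 ≤ x.O d := ENNReal.toReal_nonneg
  have mp : Measurable fun w : ℝ × Z => (x.sg w.1 w.2, x.S.Y w.2 (x.sg w.1 w.2)) :=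
    x.measurable_sg.prodMk (x.S.mY.comp (measurable_snd.prodMk x.measurable_sg))
  have mB : Measurable fun w : ℝ × Z => x.S.B (x.sg w.1 w.2) (x.S.Y w.2 (x.sg w.1 w.2)) :=
    x.S.cB.measurable.comp mp
  have mK : Measurable fun w : ℝ × Z => ‖x.S.E (x.sg w.1 w.2) (x.S.Y w.2 (x.sg w.1 w.2)) +
      cross (nrm (x.el w.1 w.2)) (x.S.B (x.sg w.1 w.2) (x.S.Y w.2 (x.sg w.1 w.2)))‖ :=
    ((x.S.cE.measurable.comp mp).add (contDiff_cross.continuous.measurable.comp
      ((measurable_nrm.comp x.measurable_el).prodMk mB))).norm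
  have hm : x.m.restrict (x.piece d) univ = ENNReal.ofReal (x.O d) := by
    rw [Measure.restrict_apply_univ, x.m_piece]
  have k1 := cs_holder _ mK (fun _ => norm_nonneg _) (by positivity) hO (h1 _ _ _ _ _ _ _ x d hd) hm
  have k2 := cs_holder _ mB.norm (fun _ => norm_nonneg _) (by positivity) hO
    (h2 _ _ _ _ _ _ _ x d hd) hm
  refine le_trans (setLIntegral_mono' (g := fun w => ENNReal.ofReal
    ‖x.S.E (x.sg w.1 w.2) (x.S.Y w.2 (x.sg w.1 w.2)) +
      cross (nrm (x.el w.1 w.2)) (x.S.B (x.sg w.1 w.2) (x.S.Y w.2 (x.sg w.1 w.2)))‖ +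
    ENNReal.ofReal (2 * √d.b) *
      ENNReal.ofReal ‖x.S.B (x.sg w.1 w.2) (x.S.Y w.2 (x.sg w.1 w.2))‖)
    (x.measurableSet_piece d) fun w hw => ?_) ?_
  · rw [← ENNReal.ofReal_mul (by positivity), ← ENNReal.ofReal_add (norm_nonneg _) (by positivity)]
    refine ENNReal.ofReal_le_ofReal ?_
    have hn : ‖nrm (x.el w.1 w.2)‖ = 1 := norm_nrm (norm_pos_iff.1 hw.1.2.2.2)
    refine (norm_lor_le' _ _ _ hn).trans (add_le_add_right (mul_le_mul_of_nonneg_right ?_
      (norm_nonneg _)) _)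
    have h3 : ang (vel (x.Ws w.1 w.2)) (nrm (x.el w.1 w.2)) ≤ 2 * d.b := hw.2.b2
    rw [Real.sqrt_le_left (by positivity), mul_pow, Real.sq_sqrt hb.le]
    linarith
  · rw [lintegral_add_left mK.ennreal_ofReal, lintegral_const_mul' _ _ ENNReal.ofReal_ne_top]
    refine (add_le_add k1 (mul_le_mul_right k2 _)).trans ?_
    rw [← ENNReal.ofReal_mul (by positivity),
      ← ENNReal.ofReal_add (Real.sqrt_nonneg _) (by positivity)]
    refine ENNReal.ofReal_le_ofReal ?_
    have sq : ∀ c : ℝ, 1 ≤ c → √(c * F0 * En) ≤ c * F0 * En := fun c hc => by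
      have h : 1 ≤ c * F0 * En := one_le_mul_of_one_le_of_one_le
        (one_le_mul_of_one_le_of_one_le hc hF) hE
      rw [Real.sqrt_le_left (by linarith)]
      nlinarith
    have hN : 0 ≤ x.O d * d.b * d.p ^ 3 * min d.b d.c := by
      have := mul_nonneg hO hM
      linarith [show x.O d * d.b * d.p ^ 3 * min d.b d.c =
        x.O d * (d.b * d.p ^ 3 * min d.b d.c) by ring]
    have e1 : √(x.O d * (C1 * F0 * En * (d.b * d.p ^ 3 * min d.b d.c * x.τ))) =
        √(C1 * F0 * En) * (√(x.O d * d.b * d.p ^ 3 * min d.b d.c) * √x.τ) := by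
      rw [← Real.sqrt_mul hN, ← Real.sqrt_mul (by positivity)]
      congr 1
      ring
    have e2 : √d.b * √(x.O d * (C2 * F0 * En *
        (d.b * d.p ^ 3 * min d.b d.c * ((x.τ + d.R) / d.a)))) =
        √(C2 * F0 * En) * (√(x.O d * d.b * d.p ^ 3 * min d.b d.c) *
          √(d.b * (x.τ + d.R) / d.a)) := by
      rw [← Real.sqrt_mul hN, ← Real.sqrt_mul hb.le, ← Real.sqrt_mul (by positivity)]
      congr 1
      ring
    rw [mul_assoc 2, e1, e2]
    have a1 := mul_le_mul_of_nonneg_right (sq C1 hC1)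
      (show 0 ≤ √(x.O d * d.b * d.p ^ 3 * min d.b d.c) * √x.τ by positivity)
    have a2 := mul_le_mul_of_nonneg_right (sq C2 hC2)
      (show 0 ≤ √(x.O d * d.b * d.p ^ 3 * min d.b d.c) * √(d.b * (x.τ + d.R) / d.a) by positivity)
    have a3 : 0 ≤ C1 * F0 * En * (√(x.O d * d.b * d.p ^ 3 * min d.b d.c) *
      √(d.b * (x.τ + d.R) / d.a)) := by positivity
    have a4 : 0 ≤ C2 * F0 * En * (√(x.O d * d.b * d.p ^ 3 * min d.b d.c) * √x.τ) := by positivity
    nlinarith

end Ctx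

end

end Vale.Agent.P107
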