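import Vale.Agent.P107.CtxB

/-! Chaining of windows and extension of control functions. -/

namespace Vale.Agent.P107

open MeasureTheory Set Filter Topology
open scoped ENNReal RealInnerProductSpace

noncomputable section

theorem chain_ind {D : ℝ → ℝ → ℝ} {g Θ : ℝ → ℝ} {s1 s2 η l : ℝ} (hη : 0 < η) (hl : 0 ≤ l)
    (cg : Continuous g)
    (hsub : ∀ a b c, D a c ≤ D a b + D b c)
    (h1 : ∀ r r', s1 ≤ r → r ≤ r' → r' ≤ s2 → g r' - g r ≤ η → D r r' ≤ Θ r' - Θ r + l) (n : ℕ) :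
    ∀ r r', s1 ≤ r → r ≤ r' → r' ≤ s2 → g r' - g r ≤ (n + 1) * η →
      D r r' ≤ Θ r' - Θ r + (n + 1) * l := by
  induction n with
  | zero =>
    intro r r' a b c d
    have := h1 r r' a b c (by simpa using d)
    simpa using this
  | succ n ih =>
    intro r r' a b c d
    by_cases hle : g r' - g r ≤ η
    · have := h1 r r' a b c hle
      have h2 : l ≤ ((n + 1 : ℕ) + 1 : ℝ) * l := by
        have : (1 : ℝ) ≤ ((n + 1 : ℕ) + 1 : ℝ) := by
          have : (0 : ℝ) ≤ ((n + 1 : ℕ) : ℝ) := Nat.cast_nonneg _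
          linarith
        nlinarith
      linarith
    · push Not at hle
      have hmem : g r + η ∈ Icc (g r) (g r') := ⟨by linarith, by linarith⟩
      obtain ⟨m, hm, hgm⟩ := intermediate_value_Icc b cg.continuousOn hmem
      have e1 := h1 r m a hm.1 (hm.2.trans c) (by linarith)
      have e2 := ih m r' (a.trans hm.1) hm.2 c (by push_cast at d; linarith)
      have e3 := hsub r m r'
      push_cast
      linarith

theorem chain {U : ℝ → V} {h : ℝ → V → V} {Θ : ℝ → ℝ} {s1 s2 η X lam Y : ℝ} (hη : 0 < η)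
    (hs : s1 ≤ s2) (hl0 : 0 ≤ lam) (hl1 : lam ≤ 1 / 2) (hc : Ctl U s1 s2 η X)
    (cΘ : Continuous Θ) (mΘ : Monotone Θ) (hΘ : Θ s2 - Θ s1 ≤ Y)
    (hw : ∀ r r' U₀, s1 ≤ r → r ≤ r' → r' ≤ s2 → (∀ s ∈ Icc r r', ‖U s - U₀‖ ≤ 2 * η) →
      ‖U r' - U r - (h r' U₀ - h r U₀)‖ ≤ Θ r' - Θ r)
    (hb : ∀ s ∈ Icc s1 s2, ‖h s (U s)‖ ≤ η / 8)
    (hj : ∀ s ∈ Icc s1 s2, ∀ U₀, ‖U s - U₀‖ ≤ 2 * η → ‖h s U₀ - h s (U s)‖ ≤ lam * η) :
    Ctl U s1 s2 η (Y + lam * X) := by
  obtain ⟨g, cg, mg, hg, hX⟩ := hc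
  have key := chain_ind (D := fun r r' => ‖U r' - U r - (h r' (U r') - h r (U r))‖) (g := g)
    (Θ := Θ) (s1 := s1) (s2 := s2) (l := lam * η) hη (by positivity) cg
    (fun a b c => by
      have e : U c - U a - (h c (U c) - h a (U a)) =
          (U b - U a - (h b (U b) - h a (U a))) + (U c - U b - (h c (U c) - h b (U b))) := by abel
      rw [e]
      exact norm_add_le _ _)
    (fun r r' a b c d => by
      have hcl : ∀ s ∈ Icc r r', ‖U s - U r‖ ≤ 2 * η := by
        intro s hs'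
        have e1 := hg r s a hs'.1 (hs'.2.trans c)
        have e2 := mg hs'.2
        linarith
      have e1 := hw r r' (U r) a b c hcl
      have e2 := hj r' ⟨a.trans b, c⟩ (U r) (hcl r' ⟨b, le_rfl⟩)
      have e : U r' - U r - (h r' (U r') - h r (U r)) =
          (U r' - U r - (h r' (U r) - h r (U r))) + (h r' (U r) - h r' (U r')) := by abel
      rw [e]
      exact (norm_add_le _ _).trans (add_le_add e1 e2))
  refine ⟨fun s => Θ s + lam * g s, cΘ.add (continuous_const.mul cg), ?_, ?_, ?_⟩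
  · intro a b hab
    have e1 := mΘ hab
    have e2 := mul_le_mul_of_nonneg_left (mg hab) hl0
    simp only
    linarith
  · intro r r' a b c
    have hd : 0 ≤ g r' - g r := sub_nonneg.2 (mg b)
    have hq : 0 ≤ (g r' - g r) / η := div_nonneg hd hη.le
    have f1 : (⌊(g r' - g r) / η⌋₊ : ℝ) ≤ (g r' - g r) / η := Nat.floor_le hq
    have f2 : (g r' - g r) / η < ⌊(g r' - g r) / η⌋₊ + 1 := Nat.lt_floor_add_one _
    rw [le_div_iff₀ hη] at f1
    rw [div_lt_iff₀ hη] at f2
    have e1 := key _ r r' a b c f2.le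
    have e2 := hb r ⟨a, b.trans c⟩
    have e3 := hb r' ⟨a.trans b, c⟩
    have e : U r' - U r =
        (U r' - U r - (h r' (U r') - h r (U r))) + (h r' (U r') - h r (U r)) := by abel
    have e4 : ‖U r' - U r‖ ≤ ‖U r' - U r - (h r' (U r') - h r (U r))‖ +
        (‖h r' (U r')‖ + ‖h r (U r)‖) := by
      calc ‖U r' - U r‖ = ‖(U r' - U r - (h r' (U r') - h r (U r))) + (h r' (U r') - h r (U r))‖ := by
            rw [← e]
        _ ≤ _ := (norm_add_le _ _).trans (add_le_add le_rfl (norm_sub_le _ _))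
    have e5 := mul_le_mul_of_nonneg_left f1 hl0
    have e6 := mul_le_mul_of_nonneg_right hl1 hη.le
    simp only at e1 ⊢
    nlinarith
  · have e2 := mul_le_mul_of_nonneg_left hX hl0
    simp only
    linarith

theorem Ctl.mono {U : ℝ → V} {s1 s2 η X X' : ℝ} (h : Ctl U s1 s2 η X) (hX : X ≤ X') :
    Ctl U s1 s2 η X' := by
  obtain ⟨g, cg, mg, hg, h2⟩ := h
  exact ⟨g, cg, mg, hg, h2.trans hX⟩

theorem Ctl.extend {U : ℝ → V} {s1 e e' η X M : ℝ} (h : Ctl U s1 e η X) (hη : 0 ≤ η) (hM : 0 ≤ M)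
    (h1 : s1 ≤ e) (he : e ≤ e') (hU : ∀ s s', ‖U s' - U s‖ ≤ M * |s' - s|) :
    Ctl U s1 e' η (X + M * (e' - e)) := by
  obtain ⟨g, cg, mg, hg, h2⟩ := h
  refine ⟨fun s => g (min s e) + M * max (s - e) 0, ?_, ?_, ?_, ?_⟩
  · exact (cg.comp (continuous_id.min continuous_const)).add
      (continuous_const.mul ((continuous_id.sub continuous_const).max continuous_const))
  · intro a b hab
    have e1 := mg (min_le_min_right e hab)
    have e2 : max (a - e) 0 ≤ max (b - e) 0 := max_le_max_right _ (by linarith)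
    have e3 := mul_le_mul_of_nonneg_left e2 hM
    simp only
    linarith
  · intro r r' a b c
    simp only
    rcases le_total r' e with h3 | h3
    · have := hg r r' a b h3
      rw [min_eq_left h3, min_eq_left (b.trans h3), max_eq_right (by linarith),
        max_eq_right (by linarith)]
      linarith
    · rcases le_total r e with h4 | h4
      · have e1 := hg r e a h4 le_rfl
        have e2 := hU e r'
        rw [abs_of_nonneg (by linarith)] at e2
        rw [min_eq_right h3, min_eq_left h4, max_eq_left (by linarith),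
          max_eq_right (by linarith)]
        have e3 : ‖U r' - U r‖ ≤ ‖U r' - U e‖ + ‖U e - U r‖ := norm_sub_le_norm_sub_add_norm_sub _ _ _
        linarith
      · have e2 := hU r r'
        rw [abs_of_nonneg (by linarith)] at e2
        rw [min_eq_right h3, min_eq_right h4, max_eq_left (by linarith),
          max_eq_left (by linarith)]
        nlinarith
  · simp only
    rw [min_eq_right he, min_eq_left h1, max_eq_left (by linarith), max_eq_right (by linarith)]
    linarith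

theorem Ctl.of_lip {U : ℝ → V} {s1 e η M : ℝ} (hη : 0 ≤ η) (hM : 0 ≤ M) (h1 : s1 ≤ e)
    (hU : ∀ s s', ‖U s' - U s‖ ≤ M * |s' - s|) : Ctl U s1 e η (M * (e - s1)) := by
  refine ⟨fun s => M * s, continuous_const.mul continuous_id, ?_, ?_, ?_⟩
  · intro a b hab
    exact mul_le_mul_of_nonneg_left hab hM
  · intro r r' _ b _
    have e2 := hU r r'
    rw [abs_of_nonneg (by linarith)] at e2
    simp only
    nlinarith
  · simp only
    linarith

theorem Ctl.bound {U : ℝ → V} {s1 s2 η X : ℝ} (h : Ctl U s1 s2 η X) {r : ℝ} (hr : r ∈ Icc s1 s2) :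
    ‖U r - U s1‖ ≤ η + X := by
  obtain ⟨g, _, mg, hg, h2⟩ := h
  have e1 := hg s1 r le_rfl hr.1 hr.2
  have e2 := mg hr.2
  linarith

theorem chain_uu_ge (c0 P1 : ℝ) (hc : 0 < c0) (hP : 1 ≤ P1) (k : ℕ) :
    c0 / (2 * (Real.log P1 + 4)) * (1 / ((k : ℝ) + 1)) ≤
      uu c0 (P1 * 2 ^ (k + 1)) (P1 * 2 ^ k) := by
  have hL : 0 ≤ Real.log P1 := Real.log_nonneg hP
  have hk : (0 : ℝ) ≤ k := Nat.cast_nonneg k
  have hx : (0 : ℝ) < P1 * 2 ^ k := by positivity
  have hl2 : Real.log 2 ≤ 1 := by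
    have := Real.log_le_sub_one_of_pos (show (0 : ℝ) < 2 by norm_num)
    linarith
  have hl2' : 0 ≤ Real.log 2 := Real.log_nonneg (by norm_num)
  have hlog : Real.log (P1 * 2 ^ (k + 1)) = Real.log P1 + (k + 1) * Real.log 2 := by
    rw [Real.log_mul (by positivity) (by positivity), Real.log_pow]
    push_cast
    ring
  have hpos : 0 < 2 + Real.log (P1 * 2 ^ (k + 1)) := by
    rw [hlog]
    positivity
  have e : uu c0 (P1 * 2 ^ (k + 1)) (P1 * 2 ^ k) =
      c0 / (2 * (2 + Real.log (P1 * 2 ^ (k + 1)))) := by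
    unfold uu
    generalize Real.log (P1 * 2 ^ (k + 1)) = L at hpos ⊢
    have h2 : P1 * 2 ^ (k + 1) = 2 * (P1 * 2 ^ k) := by ring
    rw [h2]
    generalize P1 * 2 ^ k = y at hx ⊢
    have h3 : 2 * y * (2 * y + L * y) = y ^ 2 * (2 * (2 + L)) := by ring
    rw [h3]
    field_simp
  rw [e, mul_one_div, div_div]
  apply div_le_div_of_nonneg_left hc.le (by positivity)
  rw [hlog]
  nlinarith [mul_nonneg hk hL, mul_le_mul_of_nonneg_left hl2 (show (0 : ℝ) ≤ k + 1 by linarith)]

/-- Divergence of the series of doubling times. -/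
theorem osgood (T1 c0 P1 : ℝ) (hc : 0 < c0) (hP : 1 ≤ P1) : ∃ n : ℕ,
    T1 ≤ ∑ k ∈ Finset.range n, uu c0 (P1 * 2 ^ (k + 1)) (P1 * 2 ^ k) := by
  have hL : 0 ≤ Real.log P1 := Real.log_nonneg hP
  have hA : 0 < c0 / (2 * (Real.log P1 + 4)) := by positivity
  have ht := Real.tendsto_sum_range_one_div_nat_succ_atTop.const_mul_atTop hA
  obtain ⟨n, hn⟩ := (ht.eventually_ge_atTop T1).exists
  refine ⟨n, hn.trans ?_⟩
  rw [Finset.mul_sum]
  exact Finset.sum_le_sum fun k _ => chain_uu_ge c0 P1 hc hP k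

end

end Vale.Agent.P107
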