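import Vale.Agent.P107.HsB

/-! The cutoff of the transfer region. -/

namespace Vale.Agent.P107

open MeasureTheory Set Filter Topology
open scoped ENNReal RealInnerProductSpace

noncomputable section

/-- A smooth function equal to `1` on `(-∞, 1]` and to `0` on `[2, ∞)`. -/
def phi (x : ℝ) : ℝ := Real.smoothTransition (2 - x)

/-- The cutoff. -/
def chi (π : Par) (u W l : V) : ℝ :=
  phi (al (vel W) l / (π.th * al u l)) * (1 - phi (al u l / (π.am * ‖l‖))) *
    phi ((q W) ^ 2 * al (vel W) l * ‖l‖ / (π.yy * (π.τ + ‖l‖))) * (1 - phi (q W / π.pm)) *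
      (1 - phi (‖l‖ / π.r0))

theorem phi_nonneg (x : ℝ) : 0 ≤ phi x := by
  exact Real.smoothTransition.nonneg _

theorem phi_le_one (x : ℝ) : phi x ≤ 1 := by
  exact Real.smoothTransition.le_one _

theorem phi_eq_one {x : ℝ} (h : x ≤ 1) : phi x = 1 := by
  exact Real.smoothTransition.one_of_one_le (by linarith)

theorem phi_eq_zero {x : ℝ} (h : 2 ≤ x) : phi x = 0 := by
  exact Real.smoothTransition.zero_of_nonpos (by linarith)

theorem contDiff_phi : ContDiff ℝ (⊤ : ℕ∞) phi := by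
  exact Real.smoothTransition.contDiff.comp (contDiff_const.sub contDiff_id)

theorem deriv_phi_eq_zero {x : ℝ} (h : x ≤ 1 ∨ 2 ≤ x) : deriv phi x = 0 := by
  rcases h with h | h
  · have hm : IsLocalMax phi x :=
      Filter.Eventually.of_forall fun y => by rw [phi_eq_one h]; exact phi_le_one y
    exact hm.deriv_eq_zero
  · have hm : IsLocalMin phi x :=
      Filter.Eventually.of_forall fun y => by rw [phi_eq_zero h]; exact phi_nonneg y
    exact hm.deriv_eq_zero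

theorem deriv_phi_bdd : ∃ C : ℝ, 1 ≤ C ∧ (∀ x, |deriv phi x| ≤ C) ∧ (∀ x, |x * deriv phi x| ≤ C) ∧
    ∀ x y, |phi x - phi y| ≤ C * |x - y| := by
  have hc : Continuous (deriv phi) := contDiff_phi.continuous_deriv (by exact_mod_cast le_top)
  obtain ⟨M, hM⟩ := isCompact_Icc.exists_bound_of_continuousOn
    (hc.continuousOn (s := Icc (1 : ℝ) 2))
  have hM0 : 0 ≤ M := le_trans (norm_nonneg _) (hM 1 ⟨le_rfl, by norm_num⟩)
  have h1 : ∀ x, |deriv phi x| ≤ 2 * M + 1 := by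
    intro x
    by_cases hx : x ≤ 1 ∨ 2 ≤ x
    · rw [deriv_phi_eq_zero hx, abs_zero]; linarith
    · push Not at hx
      have := hM x ⟨hx.1.le, hx.2.le⟩
      rw [Real.norm_eq_abs] at this
      linarith
  refine ⟨2 * M + 1, by linarith, h1, ?_, ?_⟩
  · intro x
    by_cases hx : x ≤ 1 ∨ 2 ≤ x
    · rw [deriv_phi_eq_zero hx, mul_zero, abs_zero]; linarith
    · push Not at hx
      have h2 := hM x ⟨hx.1.le, hx.2.le⟩
      rw [Real.norm_eq_abs] at h2
      rw [abs_mul, abs_of_nonneg (by linarith [hx.1] : (0 : ℝ) ≤ x)]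
      have h3 : x * |deriv phi x| ≤ 2 * M :=
        mul_le_mul hx.2.le h2 (abs_nonneg _) (by norm_num)
      linarith
  · intro x y
    have hd : Differentiable ℝ phi := contDiff_phi.differentiable (by simp)
    have := Convex.norm_image_sub_le_of_norm_deriv_le (𝕜 := ℝ) (f := phi) (s := univ)
      (C := 2 * M + 1) (x := y) (y := x) (fun z _ => hd z)
      (fun z _ => by rw [Real.norm_eq_abs]; exact h1 z) convex_univ (mem_univ _) (mem_univ _)
    simpa [Real.norm_eq_abs] using this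

theorem chiA_sub_nonneg (x : ℝ) : 0 ≤ 1 - phi x := sub_nonneg.2 (phi_le_one x)

theorem chiA_sub_le_one (x : ℝ) : 1 - phi x ≤ 1 := sub_le_self _ (phi_nonneg x)

theorem chi_nonneg (π : Par) (u W l : V) : 0 ≤ chi π u W l := by
  unfold chi
  exact mul_nonneg (mul_nonneg (mul_nonneg (mul_nonneg (phi_nonneg _) (chiA_sub_nonneg _))
    (phi_nonneg _)) (chiA_sub_nonneg _)) (chiA_sub_nonneg _)

theorem chi_le_one (π : Par) (u W l : V) : chi π u W l ≤ 1 := by
  unfold chi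
  exact mul_le_one₀ (mul_le_one₀ (mul_le_one₀ (mul_le_one₀ (phi_le_one _) (chiA_sub_nonneg _)
    (chiA_sub_le_one _)) (phi_nonneg _) (phi_le_one _)) (chiA_sub_nonneg _) (chiA_sub_le_one _))
    (chiA_sub_nonneg _) (chiA_sub_le_one _)

theorem chi_eq_zero {π : Par} (hπ : π.Ok) (u : V) {W l : V} (h : q W ≤ π.pm ∨ ‖l‖ ≤ π.r0) :
    chi π u W l = 0 := by
  unfold chi
  rcases h with h | h
  · rw [phi_eq_one ((div_le_one hπ.pm0).2 h)]; simp
  · rw [phi_eq_one ((div_le_one hπ.r00).2 h)]; simp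

theorem measurable_chi (π : Par) : Measurable (fun p : V × V × V => chi π p.1 p.2.1 p.2.2) := by
  have hp : Measurable phi := contDiff_phi.continuous.measurable
  have hv : Continuous vel := contDiff_vel.continuous
  have hq : Continuous q := contDiff_q.continuous
  have hl : Measurable (fun p : V × V × V => ‖p.2.2‖) := (by fun_prop : Continuous _).measurable
  have h1 : Measurable (fun p : V × V × V => al p.1 p.2.2) := by
    unfold al
    exact (by fun_prop : Continuous _).measurable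
  have h2 : Measurable (fun p : V × V × V => al (vel p.2.1) p.2.2) := by
    unfold al
    exact (by fun_prop : Continuous _).measurable
  have h3 : Measurable (fun p : V × V × V => q p.2.1) := (by fun_prop : Continuous _).measurable
  unfold chi
  refine ((((hp.comp ?_).mul (measurable_const.sub (hp.comp ?_))).mul (hp.comp ?_)).mul
    (measurable_const.sub (hp.comp ?_))).mul (measurable_const.sub (hp.comp ?_))
  · exact h2.div (measurable_const.mul h1)
  · exact h1.div (measurable_const.mul hl)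
  · exact (((h3.pow_const 2).mul h2).mul hl).div
      (measurable_const.mul (measurable_const.add hl))
  · exact h3.div measurable_const
  · exact hl.div measurable_const

/-- The closed support of the cutoff, in terms of the frozen velocity. -/
def CSupp (π : Par) (u W l : V) : Prop :=
  ang (vel W) (nrm l) ≤ 2 * π.th * ang u (nrm l) ∧ π.am ≤ ang u (nrm l) ∧
    (q W) ^ 2 * ang (vel W) (nrm l) * ‖l‖ ^ 2 ≤ 2 * π.yy * (π.τ + ‖l‖) ∧ π.pm ≤ q W ∧ π.r0 ≤ ‖l‖

theorem chiA_gt {x : ℝ} (h : 1 - phi x ≠ 0) : 1 < x := by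
  by_contra hx
  exact h (by rw [phi_eq_one (not_lt.1 hx)]; simp)

theorem chiA_lt {x : ℝ} (h : phi x ≠ 0) : x < 2 := by
  by_contra hx
  exact h (phi_eq_zero (not_lt.1 hx))

theorem chiA_arg1 (π : Par) (u w : V) {l : V} (hl : 0 < ‖l‖) :
    al w l / (π.th * al u l) = ang w (nrm l) / (π.th * ang u (nrm l)) := by
  rw [al_eq, al_eq, mul_left_comm, mul_div_mul_left _ _ hl.ne']

theorem chiA_arg2 (π : Par) (u : V) {l : V} (hl : 0 < ‖l‖) :
    al u l / (π.am * ‖l‖) = ang u (nrm l) / π.am := by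
  rw [al_eq, mul_comm π.am, mul_div_mul_left _ _ hl.ne']

theorem CSupp_of_ne {π : Par} (hπ : π.Ok) (U : V) {W l : V} (h : chi π (vel U) W l ≠ 0) :
    CSupp π (vel U) W l := by
  unfold chi at h
  obtain ⟨h, h5⟩ := mul_ne_zero_iff.1 h
  obtain ⟨h, h4⟩ := mul_ne_zero_iff.1 h
  obtain ⟨h, h3⟩ := mul_ne_zero_iff.1 h
  obtain ⟨h1, h2⟩ := mul_ne_zero_iff.1 h
  have g5 := chiA_gt h5
  have g4 := chiA_gt h4
  have g3 := chiA_lt h3
  have g2 := chiA_gt h2
  have g1 := chiA_lt h1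
  rw [one_lt_div hπ.r00] at g5
  rw [one_lt_div hπ.pm0] at g4
  have hl : 0 < ‖l‖ := lt_trans hπ.r00 g5
  have ha : 0 < ang (vel U) (nrm l) := ang_vel_pos U (norm_nrm_le l)
  rw [chiA_arg1 π _ _ hl] at g1
  rw [chiA_arg2 π _ hl] at g2
  rw [div_lt_iff₀ (mul_pos hπ.th0 ha)] at g1
  rw [one_lt_div hπ.am0] at g2
  rw [div_lt_iff₀ (mul_pos hπ.yy0 (add_pos hπ.τ0 hl)), al_eq] at g3
  refine ⟨by linarith, g2.le, ?_, g4.le, g5.le⟩
  have e : q W ^ 2 * ang (vel W) (nrm l) * ‖l‖ ^ 2 =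
      q W ^ 2 * (‖l‖ * ang (vel W) (nrm l)) * ‖l‖ := by ring
  rw [e]; linarith

theorem CSupp.frz {π : Par} (hπ : π.Ok) {U U₀ W l : V} (hc : Close π.δ U U₀)
    (h : CSupp π (vel U₀) W l) : Frz π.δ U U₀ W l := by
  obtain ⟨h1, h2, -, -, h5⟩ := h
  have ha : 0 < ang (vel U₀) (nrm l) := ang_vel_pos U₀ (norm_nrm_le l)
  refine ⟨hc, ?_, le_trans hπ.δ1 h2, ?_⟩
  · rintro rfl
    have := hπ.r00
    simp at h5
    linarith
  · have := mul_le_mul_of_nonneg_right hπ.th1 ha.le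
    linarith

theorem CSupp.rtr {π : Par} (hπ : π.Ok) {U U₀ W l : V} (hc : Close π.δ U U₀)
    (h : CSupp π (vel U₀) W l) : RTr π (q W) (ang (vel U) (nrm l)) (ang (vel W) (nrm l)) ‖l‖ := by
  obtain ⟨h1, h2, h3, h4, h5⟩ := h
  have hn := (hc.near (norm_nrm_le l) (le_trans hπ.δ1 h2)).1
  have ha : 0 < ang (vel U₀) (nrm l) := ang_vel_pos U₀ (norm_nrm_le l)
  have h6 : ang (vel U₀) (nrm l) ≤ 2 * ang (vel U) (nrm l) := by
    have := (abs_le.1 hn).1
    linarith
  refine ⟨?_, by linarith, h3, h4, h5⟩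
  have := mul_le_mul_of_nonneg_left h6 hπ.th0.le
  linarith

/-- The closed set outside of which the cutoff is locally equal to one. -/
def CEdge (π : Par) (u W l : V) : Prop :=
  π.th * ang u (nrm l) ≤ ang (vel W) (nrm l) ∨ ang u (nrm l) ≤ 2 * π.am ∨
    π.yy * (π.τ + ‖l‖) ≤ (q W) ^ 2 * ang (vel W) (nrm l) * ‖l‖ ^ 2 ∨ q W ≤ 2 * π.pm ∨
      ‖l‖ ≤ 2 * π.r0

theorem CEdge_of_ne {π : Par} (hπ : π.Ok) (U : V) {W l : V} (h : chi π (vel U) W l ≠ 1) :
    CEdge π (vel U) W l := by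
  by_contra hE
  unfold CEdge at hE
  push Not at hE
  obtain ⟨g1, g2, g3, g4, g5⟩ := hE
  apply h
  have hl : 0 < ‖l‖ := by linarith [hπ.r00]
  have ha : 0 < ang (vel U) (nrm l) := ang_vel_pos U (norm_nrm_le l)
  unfold chi
  rw [chiA_arg1 π _ _ hl, chiA_arg2 π _ hl]
  rw [phi_eq_one ((div_le_one (mul_pos hπ.th0 ha)).2 g1.le),
    phi_eq_zero ((le_div_iff₀ hπ.am0).2 g2.le),
    phi_eq_zero ((le_div_iff₀ hπ.pm0).2 g4.le),
    phi_eq_zero ((le_div_iff₀ hπ.r00).2 g5.le),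
    phi_eq_one ((div_le_one (mul_pos hπ.yy0 (add_pos hπ.τ0 hl))).2 ?_)]
  · norm_num
  · rw [al_eq]
    have e : q W ^ 2 * ang (vel W) (nrm l) * ‖l‖ ^ 2 =
        q W ^ 2 * (‖l‖ * ang (vel W) (nrm l)) * ‖l‖ := by ring
    linarith

theorem chiA_small {π : Par} (hπ : π.Ok) {U U₀ l : V} (hc : Close π.δ U U₀)
    (h0 : ang (vel U₀) (nrm l) ≤ 2 * π.am) : ang (vel U) (nrm l) ≤ 4 * π.am := by
  have hp := (abs_le.1 (hc.ang_pert (norm_nrm_le l))).2
  have ha : 0 < ang (vel U₀) (nrm l) := ang_vel_pos U₀ (norm_nrm_le l)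
  have hs : √(2 * ang (vel U₀) (nrm l)) ^ 2 = 2 * ang (vel U₀) (nrm l) :=
    Real.sq_sqrt (by linarith)
  have h1 := hπ.δ1
  have h2 := hπ.am0
  nlinarith [sq_nonneg (√(2 * ang (vel U₀) (nrm l)) - 10 * π.δ)]

theorem CEdge.dir {π : Par} (hπ : π.Ok) {U U₀ W l : V} (hc : Close π.δ U U₀)
    (h : CEdge π (vel U₀) W l) :
    RDir π (q W) (ang (vel U) (nrm l)) (ang (vel W) (nrm l)) ‖l‖ ∨
      RNr π (ang (vel U) (nrm l)) (ang (vel W) (nrm l)) := by
  by_cases h0 : ang (vel U₀) (nrm l) ≤ 2 * π.am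
  · exact Or.inl (Or.inl (chiA_small hπ hc h0))
  · push Not at h0
    rcases h with h | h | h | h | h
    · right
      have hn := (hc.near (norm_nrm_le l) (by linarith [hπ.δ1, hπ.am0])).1
      have ha : 0 < ang (vel U₀) (nrm l) := ang_vel_pos U₀ (norm_nrm_le l)
      have h6 : ang (vel U) (nrm l) ≤ 2 * ang (vel U₀) (nrm l) := by
        have := (abs_le.1 hn).2
        linarith
      have := mul_le_mul_of_nonneg_left h6 hπ.th0.le
      unfold RNr
      linarith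
    · exact absurd h (not_le.2 h0)
    · exact Or.inl (Or.inr (Or.inl h))
    · exact Or.inl (Or.inr (Or.inr (Or.inl h)))
    · exact Or.inl (Or.inr (Or.inr (Or.inr h)))

theorem chiA_prod {x x' y y' c d e : ℝ} (hx0 : 0 ≤ x') (hx1 : x' ≤ 1) (hy0 : 0 ≤ y)
    (hy1 : y ≤ 1) (hc0 : 0 ≤ c) (hc1 : c ≤ 1) (hd0 : 0 ≤ d) (hd1 : d ≤ 1) (he0 : 0 ≤ e)
    (he1 : e ≤ 1) :
    |x * y * c * d * e - x' * y' * c * d * e| ≤ |x - x'| + |y - y'| := by
  have h1 : x * y * c * d * e - x' * y' * c * d * e =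
      ((x - x') * y + x' * (y - y')) * (c * d * e) := by ring
  have h2 : 0 ≤ c * d * e := mul_nonneg (mul_nonneg hc0 hd0) he0
  have h3 : c * d * e ≤ 1 := mul_le_one₀ (mul_le_one₀ hc1 hd0 hd1) he0 he1
  rw [h1, abs_mul, abs_of_nonneg h2]
  refine le_trans (mul_le_of_le_one_right (abs_nonneg _) h3) ?_
  refine le_trans (abs_add_le _ _) (add_le_add ?_ ?_)
  · rw [abs_mul, abs_of_nonneg hy0]
    exact mul_le_of_le_one_right (abs_nonneg _) hy1
  · rw [abs_mul, abs_of_nonneg hx0]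
    exact mul_le_of_le_one_left (abs_nonneg _) hx1

theorem chiA_div {a δ : ℝ} (ha : 0 < a) : √a * δ / a = δ / √a := by
  have hs : 0 < √a := Real.sqrt_pos.2 ha
  rw [div_eq_div_iff ha.ne' hs.ne']
  have := Real.mul_self_sqrt ha.le
  calc √a * δ * √a = δ * (√a * √a) := by ring
    _ = δ * a := by rw [this]

theorem chiA_f1 {C th a a0 b δ : ℝ} (hC : 1 ≤ C) (hL : ∀ x y, |phi x - phi y| ≤ C * |x - y|)
    (hth : 0 < th) (ha : 0 < a) (ha0 : 0 < a0) (hb : 0 ≤ b) (k2 : b ≤ 3 * th * a0)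
    (k3 : |a - a0| ≤ 3 * √a * δ) :
    |phi (b / (th * a0)) - phi (b / (th * a))| ≤ 9 * C * (δ / √a) := by
  refine le_trans (hL _ _) ?_
  have e : b / (th * a0) - b / (th * a) = b / (th * a0) * ((a - a0) / a) := by
    field_simp
  have h1 : b / (th * a0) ≤ 3 := by
    rw [div_le_iff₀ (mul_pos hth ha0)]; linarith
  have h2 : 0 ≤ b / (th * a0) := div_nonneg hb (mul_pos hth ha0).le
  have h3 : |(a - a0) / a| ≤ 3 * (δ / √a) := by
    rw [abs_div, abs_of_pos ha, ← chiA_div ha, ← mul_div_assoc, ← mul_assoc]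
    exact div_le_div_of_nonneg_right k3 ha.le
  have h4 : |b / (th * a0) - b / (th * a)| ≤ 3 * (3 * (δ / √a)) := by
    rw [e, abs_mul, abs_of_nonneg h2]
    exact mul_le_mul h1 h3 (abs_nonneg _) (by norm_num)
  have h5 := mul_le_mul_of_nonneg_left h4 (by linarith : (0 : ℝ) ≤ C)
  linarith

theorem chiA_f2 {C am a a0 δ : ℝ} (hC : 1 ≤ C) (hL : ∀ x y, |phi x - phi y| ≤ C * |x - y|)
    (ham : 0 < am) (ha : 0 < a) (hδ : 0 ≤ δ) (k1 : a ≤ 2 * a0)
    (k3 : |a - a0| ≤ 3 * √a * δ) :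
    |1 - phi (a0 / am) - (1 - phi (a / am))| ≤ 12 * C * (δ / √a) := by
  have hs : 0 < √a := Real.sqrt_pos.2 ha
  have hC0 : (0 : ℝ) ≤ C := by linarith
  by_cases h : 4 * am ≤ a
  · rw [phi_eq_zero ((le_div_iff₀ ham).2 (by linarith : 2 * am ≤ a0)),
      phi_eq_zero ((le_div_iff₀ ham).2 (by linarith : 2 * am ≤ a)), sub_self, abs_zero]
    positivity
  · push Not at h
    have e : 1 - phi (a0 / am) - (1 - phi (a / am)) = phi (a / am) - phi (a0 / am) := by ring
    rw [e]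
    refine le_trans (hL _ _) ?_
    have h3 : |a / am - a0 / am| ≤ 12 * (δ / √a) := by
      rw [← sub_div, abs_div, abs_of_pos ham, ← chiA_div ha, div_le_iff₀ ham]
      refine le_trans k3 ?_
      have h4 : 0 ≤ √a * δ / a := by positivity
      have h5 : √a * δ / a * a = √a * δ := div_mul_cancel₀ _ ha.ne'
      have h6 := mul_le_mul_of_nonneg_left h.le h4
      linarith
    have h5 := mul_le_mul_of_nonneg_left h3 hC0
    linarith

theorem chi_lip : ∃ C : ℝ, 1 ≤ C ∧ ∀ (π : Par), π.Ok → ∀ (U U₀ W l : V), Close π.δ U U₀ →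
    |chi π (vel U₀) W l - chi π (vel U) W l| ≤ C * (π.δ / √(ang (vel U) (nrm l))) := by
  obtain ⟨C, hC1, -, -, hL⟩ := deriv_phi_bdd
  refine ⟨21 * C, by linarith, ?_⟩
  intro π hπ U U₀ W l hc
  have ha : 0 < ang (vel U) (nrm l) := ang_vel_pos U (norm_nrm_le l)
  have ha0 : 0 < ang (vel U₀) (nrm l) := ang_vel_pos U₀ (norm_nrm_le l)
  have hb : 0 < ang (vel W) (nrm l) := ang_vel_pos W (norm_nrm_le l)
  have hδ := hπ.δ0
  have hsa : 0 < √(ang (vel U) (nrm l)) := Real.sqrt_pos.2 ha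
  by_cases hz : chi π (vel U₀) W l = 0 ∧ chi π (vel U) W l = 0
  · rw [hz.1, hz.2, sub_zero, abs_zero]
    have : 0 ≤ C := by linarith
    positivity
  have key : 0 < ‖l‖ ∧ ang (vel U) (nrm l) ≤ 2 * ang (vel U₀) (nrm l) ∧
      ang (vel W) (nrm l) ≤ 3 * π.th * ang (vel U₀) (nrm l) ∧
      |ang (vel U) (nrm l) - ang (vel U₀) (nrm l)| ≤ 3 * √(ang (vel U) (nrm l)) * π.δ := by
    rcases not_and_or.1 hz with h | h
    · obtain ⟨h1, h2, -, -, h5⟩ := CSupp_of_ne hπ U₀ h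
      obtain ⟨n1, n2⟩ := hc.near (norm_nrm_le l) (le_trans hπ.δ1 h2)
      refine ⟨lt_of_lt_of_le hπ.r00 h5, by linarith [(abs_le.1 n1).2], ?_, ?_⟩
      · have := mul_pos hπ.th0 ha0
        linarith
      · have := mul_pos hsa hδ
        linarith
    · obtain ⟨h1, h2, -, -, h5⟩ := CSupp_of_ne hπ U h
      obtain ⟨n1, n2⟩ := hc.symm.near (norm_nrm_le l) (le_trans hπ.δ1 h2)
      have m1 := (abs_le.1 n1).1
      have m2 := (abs_le.1 n1).2
      refine ⟨lt_of_lt_of_le hπ.r00 h5, by linarith, ?_, ?_⟩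
      · have h6 : ang (vel U) (nrm l) ≤ 5 / 4 * ang (vel U₀) (nrm l) := by linarith
        have h7 := mul_le_mul_of_nonneg_left h6 hπ.th0.le
        have h8 := mul_pos hπ.th0 ha0
        linarith
      · rw [abs_sub_comm]
        have h6 : √(ang (vel U₀) (nrm l)) ≤ 3 / 2 * √(ang (vel U) (nrm l)) := by
          apply Real.sqrt_le_iff.2
          refine ⟨by positivity, ?_⟩
          rw [mul_pow, Real.sq_sqrt ha.le]
          linarith
        have h7 := mul_le_mul_of_nonneg_right h6 hδ.le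
        linarith
  obtain ⟨hl, k1, k2, k3⟩ := key
  have f1 := chiA_f1 hC1 hL hπ.th0 ha ha0 hb.le k2 k3
  have f2 := chiA_f2 hC1 hL hπ.am0 ha hδ.le k1 k3
  unfold chi
  rw [chiA_arg1 π _ _ hl, chiA_arg1 π _ _ hl, chiA_arg2 π _ hl, chiA_arg2 π _ hl]
  refine le_trans (chiA_prod (phi_nonneg _) (phi_le_one _) (chiA_sub_nonneg _)
    (chiA_sub_le_one _) (phi_nonneg _) (phi_le_one _) (chiA_sub_nonneg _) (chiA_sub_le_one _)
    (chiA_sub_nonneg _) (chiA_sub_le_one _)) ?_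
  linarith

end

end Vale.Agent.P107
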