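import Vale.Agent.P107.Chi

/-! Derivative of the cutoff along the true path. -/

namespace Vale.Agent.P107

open MeasureTheory Set Filter Topology
open scoped ENNReal RealInnerProductSpace

noncomputable section

namespace ChiD

/-- A positive function whose logarithmic derivative is bounded under the hypothesis `H`. -/
def LD (H : Prop) (s : ℝ) (f : ℝ → ℝ) (M : ℝ) : Prop :=
  0 < f s ∧ ∃ d, HasDerivAt f d s ∧ (H → |d| ≤ M * f s)

variable {H P P' E : Prop} {s M M' c : ℝ} {f g : ℝ → ℝ}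

theorem LD.mul (hf : LD H s f M) (hg : LD H s g M') : LD H s (fun r => f r * g r) (M + M') := by
  obtain ⟨f0, d, hd, hb⟩ := hf
  obtain ⟨g0, e, he, hc⟩ := hg
  refine ⟨mul_pos f0 g0, _, hd.mul he, fun h => (abs_add_le _ _).trans ?_⟩
  rw [abs_mul, abs_mul, abs_of_pos f0, abs_of_pos g0]
  have a1 := mul_le_mul_of_nonneg_right (hb h) g0.le
  have a2 := mul_le_mul_of_nonneg_left (hc h) f0.le
  linarith

theorem LD.inv (hf : LD H s f M) : LD H s (fun r => (f r)⁻¹) M := by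
  obtain ⟨f0, d, hd, hb⟩ := hf
  refine ⟨inv_pos.2 f0, _, hd.inv f0.ne', fun h => ?_⟩
  rw [abs_div, abs_neg, abs_of_pos (pow_pos f0 2), div_le_iff₀ (pow_pos f0 2)]
  refine (hb h).trans (le_of_eq ?_)
  field_simp

theorem LD.div (hf : LD H s f M) (hg : LD H s g M') : LD H s (fun r => f r / g r) (M + M') := by
  simpa only [div_eq_mul_inv] using hf.mul hg.inv

theorem LD.const (hc : 0 < c) : LD H s (fun _ => c) 0 :=
  ⟨hc, 0, hasDerivAt_const s c, fun _ => by simp⟩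

theorem LD.const_add (hf : LD H s f M) (hc : 0 ≤ c) (hM : 0 ≤ M) :
    LD H s (fun r => c + f r) M := by
  obtain ⟨f0, d, hd, hb⟩ := hf
  exact ⟨add_pos_of_nonneg_of_pos hc f0, _, hd.const_add c, fun h =>
    (hb h).trans (mul_le_mul_of_nonneg_left (le_add_of_nonneg_left hc) hM)⟩

theorem LD.sq (hf : LD H s f M) : LD H s (fun r => f r ^ 2) (M + M) := by
  simpa only [pow_two] using hf.mul hf

/-- A factor of the cutoff. -/
def Fac (H P E : Prop) (s : ℝ) (f : ℝ → ℝ) (M : ℝ) : Prop :=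
  |f s| ≤ 1 ∧ (f s ≠ 0 → P) ∧ ∃ d, HasDerivAt f d s ∧ (d ≠ 0 → P ∧ E) ∧ (H → |d| ≤ M)

theorem Fac.mul (hf : Fac H P E s f M) (hg : Fac H P' E s g M') :
    Fac H (P ∧ P') E s (fun r => f r * g r) (M + M') := by
  obtain ⟨f1, f2, d, hd, f3, f4⟩ := hf
  obtain ⟨g1, g2, e, he, g3, g4⟩ := hg
  refine ⟨?_, fun h => ⟨f2 (left_ne_zero_of_mul h), g2 (right_ne_zero_of_mul h)⟩, _, hd.mul he,
    fun h => ?_, fun h => (abs_add_le _ _).trans (add_le_add ?_ ?_)⟩
  · rw [abs_mul]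
    exact mul_le_one₀ f1 (abs_nonneg _) g1
  · by_cases h1 : d * g s = 0
    · rw [h1, zero_add] at h
      have := g3 (right_ne_zero_of_mul h)
      exact ⟨⟨f2 (left_ne_zero_of_mul h), this.1⟩, this.2⟩
    · have := f3 (left_ne_zero_of_mul h1)
      exact ⟨⟨this.1, g2 (right_ne_zero_of_mul h1)⟩, this.2⟩
  · rw [abs_mul]
    exact (mul_le_of_le_one_right (abs_nonneg _) g1).trans (f4 h)
  · rw [abs_mul]
    exact (mul_le_of_le_one_left (abs_nonneg _) f1).trans (g4 h)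

theorem LD.phi (hC : ∀ x, |x * deriv phi x| ≤ c) (hf : LD H s f M) (hM : 0 ≤ M) :
    ∃ d, HasDerivAt (fun r => phi (f r)) d s ∧ (d ≠ 0 → 1 ≤ f s ∧ f s ≤ 2) ∧
      (H → |d| ≤ c * M) := by
  obtain ⟨f0, d, hd, hb⟩ := hf
  have h1 : HasDerivAt P107.phi (deriv P107.phi (f s)) (f s) :=
    (contDiff_phi.differentiable (by simp) _).hasDerivAt
  refine ⟨_, h1.comp s hd, fun h => ?_, fun h => ?_⟩
  · have h2 := left_ne_zero_of_mul h
    exact ⟨not_lt.1 fun h3 => h2 (deriv_phi_eq_zero (Or.inl h3.le)),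
      not_lt.1 fun h3 => h2 (deriv_phi_eq_zero (Or.inr h3.le))⟩
  · have a1 := mul_le_mul_of_nonneg_left (hb h) (abs_nonneg (deriv P107.phi (f s)))
    have a2 := mul_le_mul_of_nonneg_right (hC (f s)) hM
    rw [abs_mul, abs_of_pos f0] at a2
    rw [abs_mul]
    linarith

theorem LD.fac1 (hC : ∀ x, |x * deriv P107.phi x| ≤ c) (hf : LD H s f M) (hM : 0 ≤ M)
    (hP : f s ≤ 2 → P) (hE : 1 ≤ f s → E) :
    Fac H P E s (fun r => P107.phi (f r)) (c * M) := by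
  obtain ⟨d, hd, h1, h2⟩ := hf.phi hC hM
  exact ⟨abs_le.2 ⟨by linarith [phi_nonneg (f s)], phi_le_one _⟩,
    fun h => hP (not_lt.1 fun h3 => h (phi_eq_zero h3.le)), d, hd,
    fun h => ⟨hP (h1 h).2, hE (h1 h).1⟩, h2⟩

theorem LD.fac2 (hC : ∀ x, |x * deriv P107.phi x| ≤ c) (hf : LD H s f M) (hM : 0 ≤ M)
    (hP : 1 ≤ f s → P) (hE : f s ≤ 2 → E) :
    Fac H P E s (fun r => 1 - P107.phi (f r)) (c * M) := by
  obtain ⟨d, hd, h1, h2⟩ := hf.phi hC hM
  refine ⟨abs_le.2 ⟨by linarith [phi_le_one (f s)], by linarith [phi_nonneg (f s)]⟩,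
    fun h => hP (not_lt.1 fun h3 => h (sub_eq_zero.2 (phi_eq_one h3.le).symm)), _, hd.const_sub 1,
    fun h => ?_, fun h => by simpa using h2 h⟩
  have := h1 (neg_ne_zero.1 h)
  exact ⟨hP this.1, hE this.2⟩

/-- The four logarithmic derivatives. -/
theorem bounds {δ : ℝ} {U U₀ W l : V} (h : Frz δ U U₀ W l) (F : V) {sd K : ℝ} {L : V}
    (hsd : sd = ang (vel U) (nrm l) / ang (vel W) (nrm l))
    (hK : K = sd * (1 / ‖l‖ + ‖F‖ / (q W * √(ang (vel W) (nrm l))))) (hL : L = vel U - sd • vel W) :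
    |⟪nrm l, L⟫| ≤ K * ‖l‖ ∧ |⟪nrm l, L⟫ - ⟪vel U₀, L⟫| ≤ 5 * K * al (vel U₀) l ∧
      |⟪nrm l, L⟫ - ⟪acc W (sd • F), l⟫ - ⟪vel W, L⟫| ≤ 4 * K * al (vel W) l ∧
      |⟪vel W, sd • F⟫| ≤ K * q W := by
  have R0 : 0 < ‖l‖ := norm_pos_iff.2 h.l0
  have hn : ‖nrm l‖ = 1 := norm_nrm h.l0
  have p0 := q_pos W
  have near := abs_le.1 (h.cl.near hn.le h.big).1
  have small := h.small
  have big := h.big
  have kap := h.cl.kappa
  have k0 := ang_nonneg (norm_vel_lt U₀).le (norm_vel_lt U).le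
  have c0 := ang_nonneg (norm_vel_lt U₀).le (norm_vel_lt W).le
  have c1 := tri_c U₀ W hn
  have c2 := ang_nonneg (norm_vel_lt U).le (norm_vel_lt W).le
  have c3 := tri_c U W hn
  have a2 := ang_le_two (norm_vel_lt U₀).le hn.le
  have i1 := inv_q_sq_le_ang W hn.le
  have i2 := inner_acc_le W F hn
  have i3 : ⟪vel W, vel W⟫ = 1 - ((q W)⁻¹) ^ 2 := by rw [real_inner_self_eq_norm_sq, norm_vel_sq]
  have i4 : ⟪acc W (sd • F), l⟫ = sd * ‖l‖ * ⟪acc W F, nrm l⟫ := by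
    conv_lhs => rw [← norm_smul_nrm l]
    rw [acc_smul, real_inner_smul_left, real_inner_smul_right, mul_assoc]
  have i5 : |⟪vel W, F⟫| ≤ ‖F‖ := (abs_real_inner_le_norm _ _).trans
    (mul_le_of_le_one_left (norm_nonneg _) (norm_vel_lt W).le)
  have b0 : 0 < ang (vel W) (nrm l) := ang_vel_pos W hn.le
  have e1 : ⟪nrm l, vel U⟫ = 1 - ang (vel U) (nrm l) := by
    rw [ang, real_inner_comm, sub_sub_cancel]
  have e2 : ⟪nrm l, vel W⟫ = 1 - ang (vel W) (nrm l) := by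
    rw [ang, real_inner_comm, sub_sub_cancel]
  have e3 : ⟪vel U₀, vel U⟫ = 1 - ang (vel U₀) (vel U) := by rw [ang, sub_sub_cancel]
  have e4 : ⟪vel U₀, vel W⟫ = 1 - ang (vel U₀) (vel W) := by rw [ang, sub_sub_cancel]
  have e5 : ⟪vel W, vel U⟫ = 1 - ang (vel U) (vel W) := by
    rw [ang, real_inner_comm, sub_sub_cancel]
  simp only [hL, inner_sub_right, real_inner_smul_right, al_eq, e1, e2, e3, e4, e5, i3, i4]
  generalize ang (vel U) (nrm l) = a at *
  generalize ang (vel U₀) (nrm l) = a0 at *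
  generalize ang (vel U₀) (vel U) = k at *
  generalize ang (vel U₀) (vel W) = c at *
  generalize ang (vel U) (vel W) = c' at *
  generalize ang (vel W) (nrm l) = b at *
  generalize ⟪acc W F, nrm l⟫ = z at *
  generalize ⟪vel W, F⟫ = y at *
  have s0 : sd * b = a := by rw [hsd, div_mul_cancel₀ _ b0.ne']
  have s1 : 1 ≤ sd := by
    rw [hsd, one_le_div b0]
    linarith
  have r0 : 0 < √b := Real.sqrt_pos.2 b0
  have r1 : √b ≤ 1 := Real.sqrt_le_one.2 (by linarith)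
  have r2 : √b * √b = b := Real.mul_self_sqrt b0.le
  obtain ⟨G, hG⟩ : ∃ G, G = ‖F‖ / (q W * √b) := ⟨_, rfl⟩
  have G0 : 0 ≤ G := by
    rw [hG]
    positivity
  have G1 : ‖F‖ = G * (q W * √b) := by rw [hG, div_mul_cancel₀ _ (by positivity)]
  have G2 : 3 * √b * ‖F‖ / q W = 3 * (G * b) := by
    rw [G1, div_eq_iff p0.ne']
    linear_combination 3 * G * q W * r2
  have K1 : K * ‖l‖ = sd + sd * ‖l‖ * G := by
    rw [hK, ← hG]
    field_simp
  have K2 : K * q W = sd * (1 / ‖l‖ * q W) + sd * (G * q W) := by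
    rw [hK, ← hG]
    ring
  have K3 : 0 ≤ sd * ‖l‖ * G := by positivity
  have a00 : 0 ≤ a0 := by linarith
  have i0 : 0 ≤ ((q W)⁻¹) ^ 2 := sq_nonneg _
  refine ⟨abs_le.2 ⟨by linarith, by linarith⟩, ?_, ?_, ?_⟩
  · have m1 : sd * (c - b) ≤ sd * (3 * a0) := mul_le_mul_of_nonneg_left (by linarith) (by linarith)
    have m2 : sd * (b - c) ≤ sd * (3 * a0) := mul_le_mul_of_nonneg_left (by linarith) (by linarith)
    have m3 : 1 * a0 ≤ sd * a0 := mul_le_mul_of_nonneg_right s1 a00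
    have m4 : 0 ≤ sd * ‖l‖ * G * a0 := mul_nonneg K3 a00
    have m5 : 5 * K * (‖l‖ * a0) = 5 * (sd * a0) + 5 * (sd * ‖l‖ * G * a0) := by
      linear_combination 5 * a0 * K1
    exact abs_le.2 ⟨by linarith, by linarith⟩
  · rw [G2] at i2
    have m1 : sd * ((q W)⁻¹) ^ 2 ≤ sd * (2 * b) := mul_le_mul_of_nonneg_left i1 (by linarith)
    have m2 : 0 ≤ sd * ((q W)⁻¹) ^ 2 := by positivity
    have m3 := mul_le_mul_of_nonneg_left (abs_le.1 i2).1 (by positivity : 0 ≤ sd * ‖l‖)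
    have m4 := mul_le_mul_of_nonneg_left (abs_le.1 i2).2 (by positivity : 0 ≤ sd * ‖l‖)
    have m5 : 4 * K * (‖l‖ * b) = 4 * (sd * b) + 4 * (sd * ‖l‖ * G * b) := by
      linear_combination 4 * b * K1
    have m6 : 0 ≤ sd * ‖l‖ * G * b := mul_nonneg K3 b0.le
    exact abs_le.2 ⟨by linarith, by linarith⟩
  · have m1 : G * q W * √b ≤ G * q W * 1 := mul_le_mul_of_nonneg_left r1 (by positivity)
    have m2 : sd * |y| ≤ sd * (G * q W) := mul_le_mul_of_nonneg_left (by linarith) (by linarith)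
    have m3 : 0 ≤ sd * (1 / ‖l‖ * q W) := by positivity
    rw [abs_mul, abs_of_nonneg (by linarith : 0 ≤ sd)]
    linarith

end ChiD

open ChiD in
theorem chi_deriv : ∃ C : ℝ, 1 ≤ C ∧ ∀ (π : Par), π.Ok → ∀ (U U₀ F : V) (W l : ℝ → V) (s : ℝ),
    Close π.δ U U₀ → l s ≠ 0 →
    HasDerivAt l (vel U - (ang (vel U) (nrm (l s)) / ang (vel (W s)) (nrm (l s))) • vel (W s)) s →
    HasDerivAt W ((ang (vel U) (nrm (l s)) / ang (vel (W s)) (nrm (l s))) • F) s →
    ∃ D : ℝ, HasDerivAt (fun r => chi π (vel U₀) (W r) (l r)) D s ∧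
      (D ≠ 0 → CSupp π (vel U₀) (W s) (l s) ∧ CEdge π (vel U₀) (W s) (l s)) ∧
      |D| ≤ C * (ang (vel U) (nrm (l s)) / ang (vel (W s)) (nrm (l s)) *
        (1 / ‖l s‖ + ‖F‖ / (q (W s) * √(ang (vel (W s)) (nrm (l s)))))) := by
  obtain ⟨C, C1, -, hC, -⟩ := deriv_phi_bdd
  refine ⟨25 * C, by linarith, fun π hπ U U₀ F W l s hc h0 hl hW => ?_⟩
  obtain ⟨K, hK⟩ : ∃ K, K = ang (vel U) (nrm (l s)) / ang (vel (W s)) (nrm (l s)) *
    (1 / ‖l s‖ + ‖F‖ / (q (W s) * √(ang (vel (W s)) (nrm (l s))))) := ⟨_, rfl⟩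
  have R0 : 0 < ‖l s‖ := norm_pos_iff.2 h0
  have p0 := q_pos (W s)
  have a0 := ang_vel_pos U (norm_nrm_le (l s))
  have a1 := ang_vel_pos U₀ (norm_nrm_le (l s))
  have b0 := ang_vel_pos (W s) (norm_nrm_le (l s))
  have K0 : 0 ≤ K := by
    rw [hK]
    positivity
  have hb := fun h : CSupp π (vel U₀) (W s) (l s) => bounds (h.frz hπ hc) F rfl hK rfl
  have lR : LD (CSupp π (vel U₀) (W s) (l s)) s (fun r => ‖l r‖) K :=
    ⟨R0, _, hasDerivAt_norm_path hl h0, fun h => (hb h).1⟩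
  have lA : LD (CSupp π (vel U₀) (W s) (l s)) s (fun r => al (vel U₀) (l r)) (5 * K) :=
    ⟨by simpa only [al_eq] using mul_pos R0 a1, _, hasDerivAt_al _ hl h0, fun h => (hb h).2.1⟩
  have lB : LD (CSupp π (vel U₀) (W s) (l s)) s (fun r => al (vel (W r)) (l r)) (4 * K) :=
    ⟨by simpa only [al_eq] using mul_pos R0 b0, _, hasDerivAt_al_vel hl hW h0,
      fun h => (hb h).2.2.1⟩
  have lp : LD (CSupp π (vel U₀) (W s) (l s)) s (fun r => q (W r)) K :=
    ⟨p0, _, hasDerivAt_q hW, fun h => (hb h).2.2.2⟩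
  have th0 := hπ.th0
  have am0 := hπ.am0
  have yy0 := hπ.yy0
  have τ0 := hπ.τ0
  have f1 := (lB.div ((LD.const hπ.th0).mul lA)).fac1 hC (by positivity)
    (P := ang (vel (W s)) (nrm (l s)) ≤ 2 * π.th * ang (vel U₀) (nrm (l s)))
    (E := CEdge π (vel U₀) (W s) (l s))
    (fun h => by
      simp only [al_eq] at h
      rw [div_le_iff₀ (by positivity)] at h
      exact le_of_mul_le_mul_left (by linarith) R0)
    (fun h => Or.inl (by
      simp only [al_eq] at h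
      rw [one_le_div (by positivity)] at h
      exact le_of_mul_le_mul_left (by linarith) R0))
  have f2 := (lA.div ((LD.const hπ.am0).mul lR)).fac2 hC (by positivity)
    (P := π.am ≤ ang (vel U₀) (nrm (l s))) (E := CEdge π (vel U₀) (W s) (l s))
    (fun h => by
      simp only [al_eq] at h
      rw [one_le_div (by positivity)] at h
      exact le_of_mul_le_mul_left (by linarith) R0)
    (fun h => Or.inr (Or.inl (by
      simp only [al_eq] at h
      rw [div_le_iff₀ (by positivity)] at h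
      exact le_of_mul_le_mul_left (by linarith) R0)))
  have f3 := (((lp.sq.mul lB).mul lR).div
    ((LD.const hπ.yy0).mul (lR.const_add hπ.τ0.le K0))).fac1 hC (by positivity)
    (P := (q (W s)) ^ 2 * ang (vel (W s)) (nrm (l s)) * ‖l s‖ ^ 2 ≤ 2 * π.yy * (π.τ + ‖l s‖))
    (E := CEdge π (vel U₀) (W s) (l s))
    (fun h => by
      simp only [al_eq] at h
      rw [div_le_iff₀ (by positivity)] at h
      linarith)
    (fun h => Or.inr (Or.inr (Or.inl (by
      simp only [al_eq] at h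
      rw [one_le_div (by positivity)] at h
      linarith))))
  have f4 := (lp.div (LD.const hπ.pm0)).fac2 hC (by positivity)
    (P := π.pm ≤ q (W s)) (E := CEdge π (vel U₀) (W s) (l s))
    (fun h => (one_le_div hπ.pm0).1 h)
    (fun h => Or.inr (Or.inr (Or.inr (Or.inl ((div_le_iff₀ hπ.pm0).1 h)))))
  have f5 := (lR.div (LD.const hπ.r00)).fac2 hC (by positivity)
    (P := π.r0 ≤ ‖l s‖) (E := CEdge π (vel U₀) (W s) (l s))
    (fun h => (one_le_div hπ.r00).1 h)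
    (fun h => Or.inr (Or.inr (Or.inr (Or.inr ((div_le_iff₀ hπ.r00).1 h)))))
  obtain ⟨-, -, D, hD, h1, h2⟩ := (((f1.mul f2).mul f3).mul f4).mul f5
  have h3 : D ≠ 0 → CSupp π (vel U₀) (W s) (l s) ∧ CEdge π (vel U₀) (W s) (l s) := fun h => by
    obtain ⟨⟨⟨⟨⟨g1, g2⟩, g3⟩, g4⟩, g5⟩, g6⟩ := h1 h
    exact ⟨⟨g1, g2, g3, g4, g5⟩, g6⟩
  refine ⟨D, hD, h3, ?_⟩
  rw [← hK]
  by_cases h : D = 0
  · rw [h, abs_zero]
    positivity
  · exact (h2 (h3 h).1).trans (le_of_eq (by ring))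

end

end Vale.Agent.P107
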