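import Vale.Agent.P107.Basic

/-! Volumes of tubes and sectors. -/

namespace Vale.Agent.P107

open MeasureTheory Set Filter Topology
open scoped ENNReal RealInnerProductSpace

noncomputable section

theorem vol_ball_le (x : V) {r : ℝ} (hr : 0 ≤ r) :
    volume (Metric.closedBall x r) ≤ ENNReal.ofReal (8 * r ^ 3) := by
  rw [EuclideanSpace.volume_closedBall_fin_three, ← ENNReal.ofReal_pow hr,
    ← ENNReal.ofReal_mul (pow_nonneg hr 3)]
  apply ENNReal.ofReal_le_ofReal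
  have h1 : Real.pi * 4 / 3 ≤ 8 := by linarith [Real.pi_le_four]
  have h2 := pow_nonneg hr 3
  nlinarith

theorem geo_tube_aux (x m : V) (ρ : ℝ) (hρ : 0 < ρ) :
    volume {y : V | ∃ t ∈ Icc (0 : ℝ) 1, ‖y - (x + t • m)‖ ≤ ρ} ≤
      ENNReal.ofReal (192 * (ρ ^ 2 * (‖m‖ + ρ))) := by
  set N : ℕ := ⌈‖m‖ / ρ⌉₊ + 1 with hN
  have hm0 : 0 ≤ ‖m‖ / ρ := div_nonneg (norm_nonneg _) hρ.le
  have hNpos : (0 : ℝ) < N := by
    rw [hN]; push_cast; positivity
  have hN1 : ‖m‖ / ρ ≤ N := by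
    rw [hN]; push_cast
    linarith [Nat.le_ceil (‖m‖ / ρ)]
  have hN2 : (N : ℝ) + 1 ≤ ‖m‖ / ρ + 3 := by
    rw [hN]; push_cast
    linarith [Nat.ceil_lt_add_one hm0]
  have hsub : {y : V | ∃ t ∈ Icc (0 : ℝ) 1, ‖y - (x + t • m)‖ ≤ ρ} ⊆
      ⋃ k ∈ Finset.range (N + 1), Metric.closedBall (x + ((k : ℝ) / N) • m) (2 * ρ) := by
    rintro y ⟨t, ⟨ht0, ht1⟩, hy⟩
    have htN : 0 ≤ t * N := mul_nonneg ht0 hNpos.le
    have hk1 : ((⌊t * N⌋₊ : ℕ) : ℝ) ≤ t * N := Nat.floor_le htN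
    have hk2 : t * N < (⌊t * N⌋₊ : ℕ) + 1 := Nat.lt_floor_add_one _
    refine mem_iUnion₂.2 ⟨⌊t * N⌋₊, ?_, ?_⟩
    · rw [Finset.mem_range, Nat.lt_succ_iff]
      have h3 : ((⌊t * N⌋₊ : ℕ) : ℝ) ≤ N := by nlinarith
      exact_mod_cast h3
    · rw [Metric.mem_closedBall, dist_eq_norm]
      set k : ℝ := ((⌊t * N⌋₊ : ℕ) : ℝ) with hk
      have e : y - (x + (k / N) • m) = (y - (x + t • m)) + (t - k / N) • m := by
        rw [sub_smul]; abel
      have h4 : 0 ≤ t - k / N := by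
        rw [sub_nonneg, div_le_iff₀ hNpos]; exact hk1
      have h5 : t - k / N ≤ 1 / N := by
        rw [sub_le_iff_le_add, ← add_div, le_div_iff₀ hNpos]; linarith
      have h6 : ‖(t - k / N) • m‖ ≤ ρ := by
        rw [norm_smul, Real.norm_of_nonneg h4]
        have h7 : ‖m‖ ≤ N * ρ := by rwa [div_le_iff₀ hρ] at hN1
        calc (t - k / N) * ‖m‖ ≤ (1 / N) * (N * ρ) :=
              mul_le_mul h5 h7 (norm_nonneg _) (by positivity)
          _ = ρ := by field_simp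
      rw [e]
      calc _ ≤ ‖y - (x + t • m)‖ + ‖(t - k / N) • m‖ := norm_add_le _ _
        _ ≤ 2 * ρ := by linarith
  calc _ ≤ volume (⋃ k ∈ Finset.range (N + 1),
        Metric.closedBall (x + ((k : ℝ) / N) • m) (2 * ρ)) := measure_mono hsub
    _ ≤ ∑ k ∈ Finset.range (N + 1),
        volume (Metric.closedBall (x + ((k : ℝ) / N) • m) (2 * ρ)) :=
        measure_biUnion_finset_le _ _
    _ ≤ ∑ _k ∈ Finset.range (N + 1), ENNReal.ofReal (8 * (2 * ρ) ^ 3) :=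
        Finset.sum_le_sum fun k _ => vol_ball_le _ (by positivity)
    _ = ENNReal.ofReal (((N : ℝ) + 1) * (8 * (2 * ρ) ^ 3)) := by
        rw [Finset.sum_const, Finset.card_range, nsmul_eq_mul,
          ENNReal.ofReal_mul (p := (N : ℝ) + 1) (by positivity)]
        congr 1
        rw [← ENNReal.ofReal_natCast]; push_cast; rfl
    _ ≤ _ := by
        apply ENNReal.ofReal_le_ofReal
        calc ((N : ℝ) + 1) * (8 * (2 * ρ) ^ 3) ≤ (‖m‖ / ρ + 3) * (8 * (2 * ρ) ^ 3) :=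
              mul_le_mul_of_nonneg_right hN2 (by positivity)
          _ = 64 * (ρ ^ 2 * (‖m‖ + 3 * ρ)) := by field_simp; ring
          _ ≤ 192 * (ρ ^ 2 * (‖m‖ + ρ)) := by
              have h8 : 0 ≤ ρ ^ 2 * ‖m‖ := by positivity
              nlinarith

theorem vol_tube : ∃ C : ℝ, 1 ≤ C ∧ ∀ (x m : V) (ρ : ℝ), 0 < ρ →
    volume {y : V | ∃ t ∈ Icc (0 : ℝ) 1, ‖y - (x + t • m)‖ ≤ ρ} ≤
      ENNReal.ofReal (C * (ρ ^ 2 * (‖m‖ + ρ))) :=
  ⟨192, by norm_num, geo_tube_aux⟩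

theorem geo_sector_aux (x n : V) (p b : ℝ) (hn : ‖n‖ ≤ 1) (hp : 0 < p) (hb : 0 < b)
    (hb4 : b ≤ 4) :
    volume {y : V | ∃ t ∈ Icc (0 : ℝ) 1, ‖y - (x + t • (p • n))‖ ≤ p * √(2 * b)} ≤
      ENNReal.ofReal (1536 * (p ^ 3 * b)) := by
  have hs : 0 < √(2 * b) := Real.sqrt_pos.2 (by linarith)
  refine (geo_tube_aux x (p • n) _ (mul_pos hp hs)).trans (ENNReal.ofReal_le_ofReal ?_)
  have h1 : √(2 * b) ≤ 3 := by
    rw [Real.sqrt_le_iff]; constructor <;> linarith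
  have h2 : ‖p • n‖ ≤ p := by
    rw [norm_smul, Real.norm_of_nonneg hp.le]
    nlinarith
  have h3 : (p * √(2 * b)) ^ 2 = p ^ 2 * (2 * b) := by
    rw [mul_pow, Real.sq_sqrt (by linarith)]
  have h4 : ‖p • n‖ + p * √(2 * b) ≤ 4 * p := by nlinarith
  rw [h3]
  calc 192 * (p ^ 2 * (2 * b) * (‖p • n‖ + p * √(2 * b))) ≤ 192 * (p ^ 2 * (2 * b) * (4 * p)) := by
        gcongr
    _ = 1536 * (p ^ 3 * b) := by ring

theorem geo_sub_le_sqrt {x y : V} {b : ℝ} (hx : ‖x‖ ≤ 1) (hy : ‖y‖ ≤ 1) (h : ang x y ≤ b) :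
    ‖x - y‖ ≤ √(2 * b) := by
  apply Real.le_sqrt_of_sq_le
  linarith [sub_sq_le_ang hx hy]

theorem vol_V : ∃ C : ℝ, 1 ≤ C ∧ ∀ (n : V) (p b : ℝ), ‖n‖ ≤ 1 → 0 < p → 0 < b → b ≤ 4 →
    volume {v : V | q v ≤ p ∧ ang (vel v) n ≤ b} ≤ ENNReal.ofReal (C * (p ^ 3 * b)) := by
  refine ⟨1536, by norm_num, fun n p b hn hp hb hb4 => ?_⟩
  refine le_trans (measure_mono ?_) (geo_sector_aux 0 n p b hn hp hb hb4)
  rintro v ⟨hq, ha⟩
  have hq0 := q_pos v
  refine ⟨q v / p, ⟨by positivity, (div_le_one hp).2 hq⟩, ?_⟩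
  have e : v - (0 + (q v / p) • (p • n)) = q v • (vel v - n) := by
    rw [zero_add, smul_smul, div_mul_cancel₀ _ hp.ne', smul_sub, q_smul_vel]
  rw [e, norm_smul, Real.norm_of_nonneg hq0.le]
  exact mul_le_mul hq (geo_sub_le_sqrt (norm_vel_lt v).le hn ha) (norm_nonneg _) hp.le

theorem vol_Y : ∃ C : ℝ, 1 ≤ C ∧ ∀ (u x : V) (R a : ℝ), ‖u‖ ≤ 1 → 0 < R → 0 < a → a ≤ 4 →
    volume {y : V | ‖x - y‖ ≤ R ∧ ang u (nrm (x - y)) ≤ a} ≤ ENNReal.ofReal (C * (R ^ 3 * a)) := by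
  refine ⟨1536, by norm_num, fun u x R a hu hR ha ha4 => ?_⟩
  refine le_trans (measure_mono ?_) (geo_sector_aux x (-u) R a (by rwa [norm_neg]) hR ha ha4)
  rintro y ⟨hq, hb⟩
  refine ⟨‖x - y‖ / R, ⟨by positivity, (div_le_one hR).2 hq⟩, ?_⟩
  have e : y - (x + (‖x - y‖ / R) • (R • (-u))) = ‖x - y‖ • (u - nrm (x - y)) := by
    rw [smul_smul, div_mul_cancel₀ _ hR.ne', smul_sub, norm_smul_nrm, smul_neg]; abel
  rw [e, norm_smul, Real.norm_of_nonneg (norm_nonneg _)]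
  exact mul_le_mul hq (geo_sub_le_sqrt hu (norm_nrm_le _) hb) (norm_nonneg _) hR.le

theorem geo_radial_zero (g : ℝ → ℝ≥0∞) (hg : Measurable g) :
    ∫⁻ y : V, g ‖y‖ = ∫⁻ r in Ioi (0 : ℝ), ENNReal.ofReal (4 * Real.pi * r ^ 2) * g r := by
  have hd : Module.finrank ℝ V = 3 := by simp
  have hS : (volume : Measure V).toSphere univ = ENNReal.ofReal (4 * Real.pi) := by
    rw [Measure.toSphere_apply_univ, hd, EuclideanSpace.volume_ball_fin_three, ENNReal.ofReal_one,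
      one_pow, one_mul, ← ENNReal.ofReal_natCast, ← ENNReal.ofReal_mul (by positivity)]
    congr 1; push_cast; ring
  have hg2 : Measurable (fun x : Ioi (0 : ℝ) => g x) := hg.comp measurable_subtype_coe
  calc ∫⁻ y : V, g ‖y‖
      = ∫⁻ x : ({(0)}ᶜ : Set V), g (‖x.1‖) ∂((volume : Measure V).comap (↑)) := by
        rw [lintegral_subtype_comap (measurableSet_singleton _).compl fun x : V => g (‖x‖),
          restrict_compl_singleton]
    _ = ∫⁻ x, g x.2 ∂(volume : Measure V).toSphere.prod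
          (Measure.volumeIoiPow (Module.finrank ℝ V - 1)) := by
        have h := (volume : Measure V).measurePreserving_homeomorphUnitSphereProd.lintegral_comp_emb
          (Homeomorph.measurableEmbedding _) (g ∘ Subtype.val ∘ Prod.snd)
        simpa using h
    _ = ∫⁻ _x : Metric.sphere (0 : V) 1, (∫⁻ r : Ioi (0 : ℝ), g r
          ∂(Measure.volumeIoiPow (Module.finrank ℝ V - 1))) ∂(volume : Measure V).toSphere :=
        lintegral_prod _ (hg2.comp measurable_snd).aemeasurable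
    _ = (∫⁻ r : Ioi (0 : ℝ), g r ∂(Measure.volumeIoiPow 2)) * ENNReal.ofReal (4 * Real.pi) := by
        rw [lintegral_const, hS, hd]
    _ = (∫⁻ r in Ioi (0 : ℝ), ENNReal.ofReal (r ^ 2) * g r) * ENNReal.ofReal (4 * Real.pi) := by
        rw [Measure.volumeIoiPow, lintegral_withDensity_eq_lintegral_mul _
          (measurable_subtype_coe.pow_const _).ennreal_ofReal hg2]
        congr 1
        exact lintegral_subtype_comap measurableSet_Ioi fun r : ℝ => ENNReal.ofReal (r ^ 2) * g r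
    _ = _ := by
        rw [← lintegral_mul_const' _ _ ENNReal.ofReal_ne_top]
        refine lintegral_congr fun r => ?_
        rw [ENNReal.ofReal_mul (p := 4 * Real.pi) (by positivity)]
        ring

theorem geo_radial (x : V) (g : ℝ → ℝ≥0∞) (hg : Measurable g) :
    ∫⁻ y, g ‖x - y‖ = ∫⁻ r in Ioi (0 : ℝ), ENNReal.ofReal (4 * Real.pi * r ^ 2) * g r := by
  rw [← geo_radial_zero g hg]
  exact lintegral_sub_left_eq_self (fun y : V => g ‖y‖) x

theorem geo_ball_radial (x : V) (r : ℝ) (g : ℝ → ℝ≥0∞) (hg : Measurable g) (K : ℝ≥0∞)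
    (hK : ∀ s, 0 < s → s ≤ r → ENNReal.ofReal (4 * Real.pi * s ^ 2) * g s ≤ K) :
    ∫⁻ y in Metric.closedBall x r, g ‖x - y‖ ≤ K * ENNReal.ofReal r := by
  have e : ∫⁻ y in Metric.closedBall x r, g ‖x - y‖ = ∫⁻ y, (Iic r).indicator g ‖x - y‖ := by
    rw [← lintegral_indicator measurableSet_closedBall]
    refine lintegral_congr fun y => ?_
    by_cases hy : y ∈ Metric.closedBall x r
    · have h2 : ‖x - y‖ ∈ Iic r := by
        rwa [Metric.mem_closedBall, dist_comm, dist_eq_norm] at hy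
      rw [indicator_of_mem hy, indicator_of_mem h2]
    · have h2 : ‖x - y‖ ∉ Iic r := by
        rwa [Metric.mem_closedBall, dist_comm, dist_eq_norm] at hy
      rw [indicator_of_notMem hy, indicator_of_notMem h2]
  rw [e, geo_radial x _ (hg.indicator measurableSet_Iic)]
  calc ∫⁻ s in Ioi (0 : ℝ), ENNReal.ofReal (4 * Real.pi * s ^ 2) * (Iic r).indicator g s
      ≤ ∫⁻ s in Ioi (0 : ℝ), (Iic r).indicator (fun _ => K) s := by
        refine setLIntegral_mono' measurableSet_Ioi fun s hs => ?_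
        by_cases h : s ∈ Iic r
        · rw [indicator_of_mem h, indicator_of_mem h]; exact hK s hs h
        · rw [indicator_of_notMem h, indicator_of_notMem h, mul_zero]
    _ = K * ENNReal.ofReal r := by
        rw [lintegral_indicator_const measurableSet_Iic, Measure.restrict_apply measurableSet_Iic,
          Iic_inter_Ioi, Real.volume_Ioc, sub_zero]

theorem lint_inv_sq : ∃ C : ℝ, 1 ≤ C ∧ ∀ (x : V) (r : ℝ), 0 ≤ r →
    ∫⁻ y in Metric.closedBall x r, ENNReal.ofReal (1 / ‖x - y‖ ^ 2) ≤ ENNReal.ofReal (C * r) := by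
  refine ⟨16, by norm_num, fun x r _ => ?_⟩
  have h := geo_ball_radial x r (fun s => ENNReal.ofReal (1 / s ^ 2))
    (by fun_prop) (ENNReal.ofReal 16) (fun s hs _ => by
      rw [← ENNReal.ofReal_mul (by positivity)]
      apply ENNReal.ofReal_le_ofReal
      have e : 4 * Real.pi * s ^ 2 * (1 / s ^ 2) = 4 * Real.pi := by field_simp
      rw [e]; linarith [Real.pi_le_four])
  rwa [← ENNReal.ofReal_mul (by norm_num)] at h

theorem lint_inv : ∃ C : ℝ, 1 ≤ C ∧ ∀ (x : V) (r : ℝ), 0 ≤ r →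
    ∫⁻ y in Metric.closedBall x r, ENNReal.ofReal (1 / ‖x - y‖) ≤ ENNReal.ofReal (C * r ^ 2) := by
  refine ⟨16, by norm_num, fun x r hr => ?_⟩
  have h := geo_ball_radial x r (fun s => ENNReal.ofReal (1 / s))
    (by fun_prop) (ENNReal.ofReal (16 * r)) (fun s hs hsr => by
      rw [← ENNReal.ofReal_mul (by positivity)]
      apply ENNReal.ofReal_le_ofReal
      have e : 4 * Real.pi * s ^ 2 * (1 / s) = 4 * Real.pi * s := by field_simp
      rw [e]
      have h1 : 4 * Real.pi ≤ 16 := by linarith [Real.pi_le_four]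
      exact mul_le_mul h1 hsr hs.le (by norm_num))
  rw [← ENNReal.ofReal_mul (by positivity)] at h
  have e : 16 * r * r = 16 * r ^ 2 := by ring
  rwa [e] at h

/-- Radial integrals over shells. -/
theorem lint_radial (x : V) (g : ℝ → ℝ≥0∞) (hg : Measurable g) :
    ∫⁻ y, g ‖x - y‖ = ∫⁻ r in Ioi (0 : ℝ), ENNReal.ofReal (4 * Real.pi * r ^ 2) * g r :=
  geo_radial x g hg

end

end Vale.Agent.P107
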