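import Vale.Agent.P107.Traj2
import Vale.Agent.P107.Geo

/-! The charges seen on a backward light cone. -/

namespace Vale.Agent.P107

open MeasureTheory Set Filter Topology
open scoped ENNReal NNReal RealInnerProductSpace BoundedContinuousFunction

noncomputable section

variable {Λ M1 l1 M2 l2 : ℝ} {G : ST → Z}

theorem cone_ang_nonneg (v l : V) : 0 ≤ ang (vel v) (nrm l) :=
  ang_nonneg (norm_vel_lt v).le (norm_nrm_le l)

theorem cw_nonneg (d : Dat) (G : ST → Z) (p : ST) (w : Z) : 0 ≤ cw d G p w :=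
  div_nonneg (mul_nonneg (cone_ang_nonneg _ _) (den_nonneg _ _ _ _)) (by positivity)

theorem cw_le (d : Dat) (G : ST → Z) (p : ST) (w : Z) : cw d G p w ≤ d.F0 / (2 * Real.pi) := by
  have h1 := mul_le_mul (ang_le_two (norm_vel_lt w.2).le (norm_nrm_le w.1))
    (den_le d G (p.1 - ‖w.1‖) (p.2 - w.1, w.2)) (den_nonneg _ _ _ _) zero_le_two
  have h2 := Real.pi_pos
  refine (div_le_div_of_nonneg_right h1 (by positivity)).trans (le_of_eq ?_)
  field_simp
  ring

theorem cone_meas_ang {X : Type} [MeasurableSpace X] {v l : X → V} (hv : Measurable v)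
    (hl : Measurable l) : Measurable fun y => ang (vel (v y)) (nrm (l y)) := by
  have h2 := contDiff_vel.continuous.measurable
  have h3 := measurable_nrm
  unfold ang
  fun_prop

theorem Cl.cone_meas_den (h : Cl Λ M1 l1 M2 l2 G) (d : Dat) {X : Type} [MeasurableSpace X]
    {s : X → ℝ} {w : X → Z} (hs : Measurable s) (hw : Measurable w) :
    Measurable fun y => den d G (s y) (w y) := by
  have := (h.continuous_den d).measurable.comp (hs.prodMk hw)
  exact this

theorem Cl.cone_meas (h : Cl Λ M1 l1 M2 l2 G) (d : Dat) {X : Type} [MeasurableSpace X]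
    {p : X → ST} {w : X → Z} (hp : Measurable p) (hw : Measurable w) :
    Measurable fun y => cw d G (p y) (w y) :=
  ((cone_meas_ang hw.snd hw.fst).mul (h.cone_meas_den d (hp.fst.sub hw.fst.norm)
    ((hp.snd.sub hw.fst).prodMk hw.snd))).div_const _

theorem Cl.measurable_cw (h : Cl Λ M1 l1 M2 l2 G) (d : Dat) (p : ST) : Measurable (cw d G p) :=
  h.cone_meas d measurable_const measurable_id

theorem Cl.cw_supp (h : Cl Λ M1 l1 M2 l2 G) {d : Dat} {t P : ℝ} (hP : Bd d G t P) {p : ST}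
    (hp : p.1 ≤ t) {w : Z} (hw : cw d G p w ≠ 0) :
    q w.2 ≤ P ∧ ‖w.1‖ ≤ 2 * d.P0 ^ 2 * (d.R0 + ‖p.2‖ + |p.1|) := by
  have h0 : den d G (p.1 - ‖w.1‖) (p.2 - w.1, w.2) ≠ 0 := fun e => hw (by rw [cw, e]; simp)
  have hl := norm_nonneg w.1
  refine ⟨(h.den_supp hP (by linarith) h0).1, ?_⟩
  have h1 : 1 ≤ 2 * d.P0 ^ 2 := by nlinarith [d.hP]
  have hR := d.hR
  have hx := norm_nonneg p.2
  rcases le_total (p.1 - ‖w.1‖) 0 with hs | hs
  · have h2 := (den_supp_past d G hs h0).2.2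
    have h3 : ‖w.1‖ - ‖p.2‖ ≤ ‖p.2 - w.1‖ := by
      rw [norm_sub_rev]
      exact norm_sub_norm_le _ _
    have h4 : 0 < (2 * d.P0 ^ 2)⁻¹ := by positivity
    have h5 : (2 * d.P0 ^ 2)⁻¹ ≤ 1 := inv_le_one_of_one_le₀ h1
    have h6 : -(1 - (2 * d.P0 ^ 2)⁻¹) * p.1 ≤ |p.1| := by
      nlinarith [neg_abs_le p.1, abs_nonneg p.1]
    rw [← inv_mul_le_iff₀ (by positivity)]
    dsimp only at h2
    nlinarith
  · have h2 : ‖w.1‖ ≤ d.R0 + ‖p.2‖ + |p.1| := by linarith [le_abs_self p.1]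
    exact h2.trans (le_mul_of_one_le_left (by positivity) h1)

theorem Tm.cone_cv {Y W : ℝ → V} (h : Tm Y W) (x : V) (g : ℝ → ℝ≥0∞) :
    ∫⁻ s, g s = ∫⁻ σ, ENNReal.ofReal (ang (vel (W σ)) (nrm (x - Y σ))) * g (σ + ‖x - Y σ‖) := by
  have hN : MeasurableSet {σ | Y σ = x} := (isClosed_eq h.ret_cont continuous_const).measurableSet
  have hb : Function.Bijective fun σ => σ + ‖x - Y σ‖ :=
    ⟨(h.smono x).injective, fun t => ⟨_, h.ret_eq t x⟩⟩
  have e1 : (fun σ => σ + ‖x - Y σ‖) '' {σ | Y σ = x} = {σ | Y σ = x} := by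
    refine (image_congr (g := id) fun σ hσ => ?_).trans (image_id _)
    rw [show Y σ = x from hσ]
    simp
  have h1 := lintegral_image_eq_lintegral_abs_deriv_mul hN (f := fun σ => σ + ‖x - Y σ‖)
    (f' := fun σ => ang (vel (W σ)) (nrm (x - Y σ))) (fun σ hσ => by
      have e : ang (vel (W σ)) (nrm (x - Y σ)) = 1 := by
        rw [show Y σ = x from hσ]
        simp [ang, nrm]
      rw [e]
      refine (hasDerivWithinAt_id σ _).congr_of_mem (fun r hr => ?_) hσ
      rw [show Y r = x from hr]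
      simp) hb.1.injOn g
  have h2 := lintegral_image_eq_lintegral_abs_deriv_mul hN.compl (f := fun σ => σ + ‖x - Y σ‖)
    (f' := fun σ => ang (vel (W σ)) (nrm (x - Y σ))) (fun σ hσ => by
      have h3 := (ret_hasFDerivAt_norm (sub_ne_zero.2 (Ne.symm hσ))).comp_hasDerivAt σ
        ((h.hY σ).const_sub x)
      refine (((hasDerivAt_id σ).add h3).congr_deriv ?_).hasDerivWithinAt
      rw [innerSL_apply_apply, inner_neg_right, ang, real_inner_comm, ← sub_eq_add_neg])
    hb.1.injOn g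
  rw [image_compl_eq hb, e1] at h2
  rw [e1] at h1
  simp only [abs_of_nonneg (cone_ang_nonneg _ _)] at h1 h2
  rw [← lintegral_add_compl _ hN, h1, h2, lintegral_add_compl _ hN]

theorem cone_comp {X Y T : Type} [MeasurableSpace X] [MeasurableSpace Y] [MeasurableSpace T]
    {f : X → Y} {g : Y → T} (hf : Measurable f) (hg : Measurable g) :
    Measurable fun x => g (f x) := hg.comp hf

theorem cone_mp (x : V) : MeasurePreserving (fun w : Z => (x - w.1, w.2)) volume volume :=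
  (Measure.measurePreserving_sub_left volume x).prod (MeasurePreserving.id volume)

theorem Cl.cone_meas_tr (h : Cl Λ M1 l1 M2 l2 G) {X : Type} [MeasurableSpace X]
    {z : X → Z} {s : X → ℝ} (hz : Measurable z) (hs : Measurable s) :
    Measurable fun y => tr G (z y) (s y) := by
  have := h.continuous_tr.measurable.comp (hz.prodMk hs)
  exact this

theorem Cl.cone_meas_r (h : Cl Λ M1 l1 M2 l2 G) {X : Type} [MeasurableSpace X]
    {z : X → Z} {p : X → ST} (hz : Measurable z) (hp : Measurable p) :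
    Measurable fun y => (rl G (z y) (p y), rW G (z y) (p y)) := by
  have h0 := h.measurable_rt.comp (hz.prodMk hp)
  have h1 := h.cone_meas_tr (s := fun y => rt G (z y) (p y)) hz h0
  exact (hp.snd.sub h1.fst).prodMk h1.snd

theorem Cl.cone_meas_r' (h : Cl Λ M1 l1 M2 l2 G) (p : ST) :
    Measurable fun z => (rl G z p, rW G z p) := h.cone_meas_r measurable_id measurable_const

/-- The identity averaged over the observation time. -/
theorem Cl.cone_avg (h : Cl Λ M1 l1 M2 l2 G) (d : Dat) (x : V) {ψ : ℝ → ℝ≥0∞} (hψ : Measurable ψ)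
    {Φ : Z → ℝ≥0∞} (hΦ : Measurable Φ) :
    ∫⁻ s, ψ s * ∫⁻ z, Φ (rl G z (s, x), rW G z (s, x)) ∂d.ν =
      ∫⁻ s, ψ s * ∫⁻ w, ENNReal.ofReal (cw d G (s, x) w) * Φ w := by
  have m0 : Measurable fun y : ℝ × Z => ((y.1, x) : ST) := measurable_fst.prodMk measurable_const
  have m1 : Measurable fun y : ℝ × Z => Φ (rl G y.2 (y.1, x), rW G y.2 (y.1, x)) :=
    cone_comp (h.cone_meas_r measurable_snd m0) hΦ
  have m2 : Measurable fun y : ℝ × Z => ENNReal.ofReal (cw d G (y.1, x) y.2) * Φ y.2 :=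
    (h.cone_meas d m0 measurable_snd).ennreal_ofReal.mul (hΦ.comp measurable_snd)
  obtain ⟨K, hK⟩ : ∃ K : ℝ × Z → ℝ≥0∞, K = fun y =>
    ENNReal.ofReal (ang (vel y.2.2) (nrm y.2.1)) * (ψ (y.1 + ‖y.2.1‖) * Φ y.2) := ⟨_, rfl⟩
  have mK : Measurable K :=
    hK ▸ (cone_meas_ang measurable_snd.snd measurable_snd.fst).ennreal_ofReal.mul
      ((hψ.comp (measurable_fst.add measurable_snd.fst.norm)).mul (hΦ.comp measurable_snd))
  have m3 : Measurable fun y : Z × ℝ => K (y.2, (x - (tr G y.1 y.2).1, (tr G y.1 y.2).2)) := by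
    have := h.cone_meas_tr (X := Z × ℝ) measurable_fst measurable_snd
    exact cone_comp (measurable_snd.prodMk ((measurable_const.sub this.fst).prodMk this.snd)) mK
  have m4 : Measurable fun y : ℝ × Z =>
      ENNReal.ofReal (den d G y.1 (x - y.2.1, y.2.2) / (4 * Real.pi)) * K y :=
    ((h.cone_meas_den d measurable_fst ((measurable_const.sub measurable_snd.fst).prodMk
      measurable_snd.snd)).div_const _).ennreal_ofReal.mul mK
  calc ∫⁻ s, ψ s * ∫⁻ z, Φ (rl G z (s, x), rW G z (s, x)) ∂d.ν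
      = ∫⁻ s, ∫⁻ z, ψ s * Φ (rl G z (s, x), rW G z (s, x)) ∂d.ν :=
        lintegral_congr fun s => (lintegral_const_mul _ (m1.comp measurable_prodMk_left)).symm
    _ = ∫⁻ z, (∫⁻ s, ψ s * Φ (rl G z (s, x), rW G z (s, x))) ∂d.ν :=
        lintegral_lintegral_swap ((hψ.comp measurable_fst).mul m1).aemeasurable
    _ = ∫⁻ z, (∫⁻ σ, K (σ, (x - (tr G z σ).1, (tr G z σ).2))) ∂d.ν := by
        refine lintegral_congr fun z => ((h.tm z).cone_cv x _).trans (lintegral_congr fun σ => ?_)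
        have e : rt G z (σ + ‖x - trY G z σ‖, x) = σ := ((h.tm z).ret_eq_iff _ _ _).2 rfl
        rw [rl, rW, e, hK]
        rfl
    _ = ∫⁻ σ, ∫⁻ z, K (σ, (x - (tr G z σ).1, (tr G z σ).2)) ∂d.ν :=
        lintegral_lintegral_swap m3.aemeasurable
    _ = ∫⁻ σ, ∫⁻ w : Z, ENNReal.ofReal (den d G σ (x - w.1, w.2) / (4 * Real.pi)) * K (σ, w) := by
        refine lintegral_congr fun σ => ?_
        rw [h.lint_slice d σ (Φ := fun w => K (σ, (x - w.1, w.2))) (mK.comp (by fun_prop)),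
          ← (cone_mp x).lintegral_comp (cone_comp (measurable_prodMk_left (x := σ)) m4)]
        simp only [sub_sub_cancel]
    _ = ∫⁻ w : Z, ∫⁻ σ, ENNReal.ofReal (den d G σ (x - w.1, w.2) / (4 * Real.pi)) * K (σ, w) :=
        lintegral_lintegral_swap m4.aemeasurable
    _ = ∫⁻ w : Z, ∫⁻ s, ψ s * (ENNReal.ofReal (cw d G (s, x) w) * Φ w) := by
        refine lintegral_congr fun w => ?_
        rw [← lintegral_add_right_eq_self (fun s => ψ s * (ENNReal.ofReal (cw d G (s, x) w) * Φ w))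
          ‖w.1‖]
        refine lintegral_congr fun σ => ?_
        simp only [hK, cw, add_sub_cancel_right]
        rw [mul_div_assoc, ENNReal.ofReal_mul (cone_ang_nonneg _ _)]
        ring
    _ = ∫⁻ s, ∫⁻ w : Z, ψ s * (ENNReal.ofReal (cw d G (s, x) w) * Φ w) :=
        (lintegral_lintegral_swap ((hψ.comp measurable_fst).mul m2).aemeasurable).symm
    _ = _ := lintegral_congr fun s => lintegral_const_mul _
        ((h.measurable_cw d (s, x)).ennreal_ofReal.mul hΦ)

theorem Cl.cone_cont1 (h : Cl Λ M1 l1 M2 l2 G) (d : Dat) (x : V) (Φ : Z →ᵇ ℝ≥0) :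
    Continuous fun s : ℝ => ∫⁻ z, (Φ (rl G z (s, x), rW G z (s, x)) : ℝ≥0∞) ∂d.ν := by
  refine continuous_iff_continuousAt.2 fun s => tendsto_lintegral_filter_of_dominated_convergence
    (fun _ => (nndist Φ 0 : ℝ≥0∞)) (Eventually.of_forall fun s => ?_)
    (Eventually.of_forall fun s => ae_of_all _ fun z => ?_) ?_ (ae_of_all _ fun z => ?_)
  · exact (Φ.continuous.measurable.comp (h.cone_meas_r' _)).coe_nnreal_ennreal
  · exact ENNReal.coe_le_coe.2 (BoundedContinuousFunction.NNReal.upper_bound Φ _)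
  · rw [lintegral_const]
    exact ENNReal.mul_ne_top ENNReal.coe_ne_top (measure_ne_top _ _)
  · have h1 : Continuous fun s : ℝ => tr G z (rt G z (s, x)) :=
      h.continuous_tr.comp (f := fun s : ℝ => (z, rt G z (s, x)))
        (continuous_const.prodMk ((h.continuous_rt z).comp (by fun_prop)))
    exact (ENNReal.continuous_coe.comp (Φ.continuous.comp
      ((continuous_const.sub h1.fst).prodMk h1.snd))).tendsto s

theorem Cl.cone_cont2 (h : Cl Λ M1 l1 M2 l2 G) (d : Dat) (x : V) (Φ : Z →ᵇ ℝ≥0) :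
    Continuous fun s : ℝ => ∫⁻ w, ENNReal.ofReal (cw d G (s, x) w) * Φ w := by
  refine continuous_iff_continuousAt.2 fun s => ?_
  have hT : 0 ≤ |s| + 1 := by positivity
  obtain ⟨R, hR1, hR2⟩ : ∃ R, d.P0 + 2 * Λ * (|s| + 1) ≤ R ∧
    2 * d.P0 ^ 2 * (d.R0 + ‖x‖ + (|s| + 1)) ≤ R := ⟨_, le_max_left _ _, le_max_right _ _⟩
  refine tendsto_lintegral_filter_of_dominated_convergence
    ((Metric.closedBall (0 : Z) R).indicator fun _ =>
      ENNReal.ofReal (d.F0 / (2 * Real.pi)) * (nndist Φ 0 : ℝ≥0∞))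
    (Eventually.of_forall fun s => ?_) ?_ ?_ (ae_of_all _ fun w => ?_)
  · exact (h.measurable_cw d _).ennreal_ofReal.mul Φ.continuous.measurable.coe_nnreal_ennreal
  · have : ∀ᶠ r in 𝓝 s, |r| < |s| + 1 :=
      (continuous_abs.tendsto s).eventually (gt_mem_nhds (lt_add_one _))
    refine this.mono fun r hr => ae_of_all _ fun w => ?_
    by_cases h0 : cw d G (r, x) w = 0
    · simp [h0]
    obtain ⟨h1, h2⟩ := h.cw_supp (h.bd d hT) (p := (r, x)) ((le_abs_self r).trans hr.le) h0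
    rw [indicator_of_mem]
    · exact mul_le_mul' (ENNReal.ofReal_le_ofReal (cw_le _ _ _ _))
        (ENNReal.coe_le_coe.2 (BoundedContinuousFunction.NNReal.upper_bound Φ _))
    rw [mem_closedBall_zero_iff, Prod.norm_def]
    refine max_le (h2.trans (le_trans ?_ hR2)) ((norm_lt_q _).le.trans (h1.trans hR1))
    gcongr
  · rw [lintegral_indicator_const Metric.isClosed_closedBall.measurableSet]
    exact ENNReal.mul_ne_top (ENNReal.mul_ne_top ENNReal.ofReal_ne_top ENNReal.coe_ne_top)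
      measure_closedBall_lt_top.ne
  · have h1 : Continuous fun s : ℝ => den d G (s - ‖w.1‖) (x - w.1, w.2) :=
      (h.continuous_den d).comp (f := fun s : ℝ => (s - ‖w.1‖, (x - w.1, w.2))) (by fun_prop)
    have h2 : Continuous fun s : ℝ => cw d G (s, x) w := (continuous_const.mul h1).div_const _
    exact ENNReal.Tendsto.mul_const ((ENNReal.continuous_ofReal.comp h2).tendsto s)
      (Or.inr ENNReal.coe_ne_top)

theorem Cl.map_cone (h : Cl Λ M1 l1 M2 l2 G) (d : Dat) (p : ST) :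
    Measure.map (fun z => (rl G z p, rW G z p)) d.ν =
      (volume : Measure Z).withDensity (fun w => ENNReal.ofReal (cw d G p w)) := by
  refine ext_of_forall_lintegral_eq_of_IsFiniteMeasure fun Φ => ?_
  have hΦ : Measurable fun w => (Φ w : ℝ≥0∞) := Φ.continuous.measurable.coe_nnreal_ennreal
  have h1 := h.cone_cont1 d p.2 Φ
  have h2 := h.cone_cont2 d p.2 Φ
  have h3 := ae_eq_of_forall_setLIntegral_eq_of_sigmaFinite (μ := volume) h1.measurable
    h2.measurable fun A hA _ => by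
      have := h.cone_avg d p.2 (ψ := A.indicator 1) (measurable_one.indicator hA) hΦ
      have e : ∀ f : ℝ → ℝ≥0∞, ∫⁻ s, A.indicator 1 s * f s = ∫⁻ s in A, f s := fun f => by
        rw [← lintegral_indicator hA]
        exact lintegral_congr fun s => by by_cases hs : s ∈ A <;> simp [hs]
      rwa [e, e] at this
  rw [lintegral_map hΦ (h.cone_meas_r' p),
    lintegral_withDensity_eq_lintegral_mul _ (h.measurable_cw d p).ennreal_ofReal hΦ]
  exact congrFun ((h1.ae_eq_iff_eq volume h2).1 h3) p.1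

theorem Cl.lint_cone (h : Cl Λ M1 l1 M2 l2 G) (d : Dat) (p : ST) {Φ : Z → ℝ≥0∞}
    (hΦ : Measurable Φ) :
    ∫⁻ z, Φ (rl G z p, rW G z p) ∂d.ν = ∫⁻ w, ENNReal.ofReal (cw d G p w) * Φ w := by
  rw [← lintegral_map hΦ (h.cone_meas_r' p)]
  exact (congrArg (fun μ => ∫⁻ w, Φ w ∂μ) (h.map_cone d p)).trans
    (lintegral_withDensity_eq_lintegral_mul _ (h.measurable_cw d p).ennreal_ofReal hΦ)

theorem Cl.int_cone (h : Cl Λ M1 l1 M2 l2 G) (d : Dat) (p : ST) {F : Type} [NormedAddCommGroup F]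
    [NormedSpace ℝ F] [CompleteSpace F] {Φ : Z → F} (hΦ : StronglyMeasurable Φ) :
    (∫ z, Φ (rl G z p, rW G z p) ∂d.ν = ∫ w, cw d G p w • Φ w) ∧
      (Integrable (fun z => Φ (rl G z p, rW G z p)) d.ν ↔
        Integrable (fun w => cw d G p w • Φ w)) := by
  have hm : AEMeasurable (fun z => (rl G z p, rW G z p)) d.ν :=
    (h.cone_meas_r' p).aemeasurable
  have h1 := (h.measurable_cw d p).ennreal_ofReal
  have h2 : ∀ᵐ w : Z, ENNReal.ofReal (cw d G p w) < ∞ := ae_of_all _ fun _ => ENNReal.ofReal_lt_top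
  constructor
  · rw [← integral_map hm hΦ.aestronglyMeasurable, h.map_cone,
      integral_withDensity_eq_integral_toReal_smul h1 h2]
    simp only [ENNReal.toReal_ofReal (cw_nonneg _ _ _ _)]
  · refine (integrable_map_measure hΦ.aestronglyMeasurable hm).symm.trans ?_
    rw [h.map_cone, integrable_withDensity_iff_integrable_smul' h1 h2]
    simp only [ENNReal.toReal_ofReal (cw_nonneg _ _ _ _)]

theorem Cl.cone_le (h : Cl Λ M1 l1 M2 l2 G) (d : Dat) (s : ℝ) (x : V) (Φ : Z → ℝ≥0∞)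
    (hΦ : Measurable Φ) :
    ∫⁻ z, Φ (trY G z (ret (trY G z) s x), trW G z (ret (trY G z) s x)) ∂d.ν ≤
      ENNReal.ofReal d.F0 *
        ∫⁻ y, ∫⁻ v, ENNReal.ofReal (ang (vel v) (nrm (x - y))) * Φ (y, v) := by
  have h1 := h.lint_cone d (s, x) (hΦ.comp (cone_mp x).measurable)
  have m : Measurable fun w : Z => ENNReal.ofReal (ang (vel w.2) (nrm (x - w.1))) * Φ w :=
    (cone_meas_ang measurable_snd (measurable_const.sub measurable_fst)).ennreal_ofReal.mul hΦ
  simp only [Function.comp, rl, sub_sub_cancel] at h1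
  refine h1.le.trans ?_
  rw [← lintegral_prod _ m.aemeasurable, ← Measure.volume_eq_prod, ← (cone_mp x).lintegral_comp m,
    ← lintegral_const_mul' _ _ ENNReal.ofReal_ne_top]
  refine lintegral_mono fun w => ?_
  have hF : 0 ≤ d.F0 := zero_le_one.trans d.hF
  simp only [sub_sub_cancel]
  rw [← mul_assoc, ← ENNReal.ofReal_mul hF]
  refine mul_le_mul_left (ENNReal.ofReal_le_ofReal ?_) _
  rw [cw, mul_div_assoc, mul_comm]
  refine mul_le_mul_of_nonneg_right ((div_le_self (den_nonneg _ _ _ _) ?_).trans (den_le _ _ _ _))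
    (cone_ang_nonneg _ _)
  linarith [Real.pi_gt_three]

theorem Cl.cone_rad (h : Cl Λ M1 l1 M2 l2 G) (d : Dat) (p : ST) {P : ℝ} (hP : 0 ≤ P)
    {g : ℝ → ℝ≥0∞} (hg : Measurable g) :
    ∫⁻ z in {z | q (rW G z p) ≤ P}, g ‖rl G z p‖ ∂d.ν ≤
      ENNReal.ofReal (16 * d.F0 * P ^ 3) * ∫⁻ r in Ioi (0 : ℝ), ENNReal.ofReal (r ^ 2) * g r := by
  have hA : MeasurableSet {v : V | q v ≤ P} :=
    (isClosed_le contDiff_q.continuous continuous_const).measurableSet
  have m1 : Measurable fun l : V => g ‖l‖ := hg.comp measurable_norm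
  have m2 : Measurable ({v : V | q v ≤ P}.indicator (1 : V → ℝ≥0∞)) := measurable_one.indicator hA
  have m : Measurable fun w : Z => g ‖w.1‖ * {v : V | q v ≤ P}.indicator 1 w.2 :=
    (m1.comp measurable_fst).mul (m2.comp measurable_snd)
  have hF : 0 ≤ d.F0 := zero_le_one.trans d.hF
  have hπ := Real.pi_pos
  have hv : volume {v : V | q v ≤ P} ≤ ENNReal.ofReal (8 * P ^ 3) :=
    (measure_mono fun v hv => mem_closedBall_zero_iff.2 ((norm_lt_q v).le.trans hv)).trans
      (vol_ball_le 0 hP)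
  have e : ∫⁻ l : V, g ‖l‖ = ENNReal.ofReal (4 * Real.pi) *
      ∫⁻ r in Ioi (0 : ℝ), ENNReal.ofReal (r ^ 2) * g r := by
    rw [geo_radial_zero g hg, ← lintegral_const_mul' _ _ ENNReal.ofReal_ne_top]
    refine lintegral_congr fun r => ?_
    rw [ENNReal.ofReal_mul (by positivity), mul_assoc]
  calc ∫⁻ z in {z | q (rW G z p) ≤ P}, g ‖rl G z p‖ ∂d.ν
      = ∫⁻ z, g ‖rl G z p‖ * {v : V | q v ≤ P}.indicator 1 (rW G z p) ∂d.ν := by
        rw [← lintegral_indicator (s := {z | q (rW G z p) ≤ P}) ((h.measurable_r p).2.2.1 hA)]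
        refine lintegral_congr fun z => ?_
        by_cases hz : q (rW G z p) ≤ P <;> simp [indicator, hz]
    _ = ∫⁻ w, ENNReal.ofReal (cw d G p w) * (g ‖w.1‖ * {v : V | q v ≤ P}.indicator 1 w.2) :=
        h.lint_cone d p m
    _ ≤ ∫⁻ w : Z, ENNReal.ofReal (d.F0 / (2 * Real.pi)) *
          (g ‖w.1‖ * {v : V | q v ≤ P}.indicator 1 w.2) :=
        lintegral_mono fun w => mul_le_mul_left (ENNReal.ofReal_le_ofReal (cw_le _ _ _ _)) _
    _ = ENNReal.ofReal (d.F0 / (2 * Real.pi)) * ((∫⁻ l : V, g ‖l‖) * volume {v : V | q v ≤ P}) := by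
        rw [lintegral_const_mul _ m, Measure.volume_eq_prod,
          lintegral_prod_mul m1.aemeasurable m2.aemeasurable, lintegral_indicator_one hA]
    _ ≤ ENNReal.ofReal (d.F0 / (2 * Real.pi)) * ((∫⁻ l : V, g ‖l‖) * ENNReal.ofReal (8 * P ^ 3)) := by
        gcongr
    _ = _ := by
        have e2 : 16 * d.F0 * P ^ 3 = d.F0 / (2 * Real.pi) * (4 * Real.pi * (8 * P ^ 3)) := by
          field_simp
          ring
        rw [e, e2, ENNReal.ofReal_mul (p := d.F0 / (2 * Real.pi)) (by positivity),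
          ENNReal.ofReal_mul (p := 4 * Real.pi) (by positivity)]
        ring

theorem Cl.cone_rad' (h : Cl Λ M1 l1 M2 l2 G) {d : Dat} {t P : ℝ} (hP : Bd d G t P) (hP0 : 0 ≤ P)
    {p : ST} (hp : p.1 ≤ t) {g : ℝ → ℝ≥0∞} (hg : Measurable g) :
    ∫⁻ z, g ‖rl G z p‖ ∂d.ν ≤
      ENNReal.ofReal (16 * d.F0 * P ^ 3) * ∫⁻ r in Ioi (0 : ℝ), ENNReal.ofReal (r ^ 2) * g r := by
  have h1 := h.cone_rad d p hP0 hg
  rwa [Measure.restrict_eq_self_of_ae_mem (s := {z | q (rW G z p) ≤ P})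
    (d.ae_mem.mono fun z hz => h.q_rW hP hz hp)] at h1

theorem Cl.ae_rl_ne (h : Cl Λ M1 l1 M2 l2 G) (d : Dat) (p : ST) :
    ∀ᵐ z ∂d.ν, rl G z p ≠ 0 ∧ rt G z p ≠ 0 := by
  have h1 : ∀ᵐ l : V, l ≠ 0 ∧ l ∉ Metric.sphere (0 : V) p.1 :=
    (Measure.ae_ne volume 0).and
      (measure_eq_zero_iff_ae_notMem.1 (Measure.addHaar_sphere volume (0 : V) p.1))
  have h2 : ∀ᵐ w : Z, w.1 ≠ 0 ∧ w.1 ∉ Metric.sphere (0 : V) p.1 :=
    (Measure.quasiMeasurePreserving_fst (μ := volume) (ν := volume)).ae h1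
  have h3 := (withDensity_absolutelyContinuous volume
    fun w => ENNReal.ofReal (cw d G p w)).ae_le h2
  rw [← h.map_cone] at h3
  refine (ae_of_ae_map (h.cone_meas_r' p).aemeasurable h3).mono
    fun z hz => ⟨hz.1, fun e => hz.2 ?_⟩
  rw [mem_sphere_zero_iff_norm]
  exact (h.norm_rl z p).trans (by rw [e, sub_zero])

/-- The singular weights are integrable, uniformly in the observation point. -/
theorem lint_sing (d : Dat) (P : ℝ) : ∃ C : ℝ, 1 ≤ C ∧ ∀ (Λ M1 l1 M2 l2 : ℝ) (G : ST → Z),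
    Cl Λ M1 l1 M2 l2 G → ∀ p : ST,
    ∫⁻ z in {z | q (rW G z p) ≤ P},
      ENNReal.ofReal (1 / ‖rl G z p‖ ^ 2 + 1 / ‖rl G z p‖) ∂d.ν ≤ ENNReal.ofReal C := by
  have hF : 0 ≤ d.F0 := zero_le_one.trans d.hF
  refine ⟨1 + (16 * d.F0 * |P| ^ 3 * 2 + 2 * (d.ν univ).toReal),
    le_add_of_nonneg_right (by positivity), fun Λ M1 l1 M2 l2 G h p => ?_⟩
  let g : ℝ → ℝ≥0∞ := (Iic 1).indicator fun r => ENNReal.ofReal (2 / r ^ 2)
  have hg : Measurable g := Measurable.indicator (by fun_prop) measurableSet_Iic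
  have h1 := h.cone_rad d p (abs_nonneg P) hg
  have h2 : ∫⁻ r in Ioi (0 : ℝ), ENNReal.ofReal (r ^ 2) * g r ≤ ENNReal.ofReal 2 := by
    calc ∫⁻ r in Ioi (0 : ℝ), ENNReal.ofReal (r ^ 2) * g r
        ≤ ∫⁻ r in Ioi (0 : ℝ), (Iic 1).indicator (fun _ => ENNReal.ofReal 2) r := by
          refine setLIntegral_mono' measurableSet_Ioi fun r hr => ?_
          have hr' : 0 < r := hr
          by_cases h3 : r ∈ Iic (1 : ℝ)
          · simp only [g, indicator_of_mem h3]
            rw [← ENNReal.ofReal_mul (sq_nonneg r)]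
            refine le_of_eq (congrArg _ ?_)
            field_simp
          · simp [g, indicator_of_notMem h3]
      _ = ENNReal.ofReal 2 := by
          rw [lintegral_indicator_const measurableSet_Iic,
            Measure.restrict_apply measurableSet_Iic, Iic_inter_Ioi, Real.volume_Ioc]
          simp
  have h3 : ∀ r : ℝ, 0 ≤ r → ENNReal.ofReal (1 / r ^ 2 + 1 / r) ≤ g r + ENNReal.ofReal 2 := by
    intro r hr
    rcases hr.eq_or_lt with rfl | hr
    · simp
    by_cases h4 : r ∈ Iic (1 : ℝ)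
    · simp only [g, indicator_of_mem h4]
      refine le_add_right (ENNReal.ofReal_le_ofReal ?_)
      have h5 : 1 / r ≤ 1 / r ^ 2 := one_div_le_one_div_of_le (by positivity) (by
        nlinarith [show r ≤ 1 from h4])
      have e : 2 / r ^ 2 = 1 / r ^ 2 + 1 / r ^ 2 := by ring
      linarith
    · refine le_add_left (ENNReal.ofReal_le_ofReal ?_)
      have h5 : 1 < r := not_le.1 h4
      have h6 : 1 / r ≤ 1 := (div_le_one hr).2 h5.le
      have h7 : 1 / r ^ 2 ≤ 1 := (div_le_one (by positivity)).2 (by nlinarith)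
      linarith
  calc ∫⁻ z in {z | q (rW G z p) ≤ P}, ENNReal.ofReal (1 / ‖rl G z p‖ ^ 2 + 1 / ‖rl G z p‖) ∂d.ν
      ≤ ∫⁻ z in {z | q (rW G z p) ≤ |P|}, g ‖rl G z p‖ + ENNReal.ofReal 2 ∂d.ν :=
        lintegral_mono' (Measure.restrict_mono (fun z hz => le_trans hz (le_abs_self P)) le_rfl)
          fun z => h3 _ (norm_nonneg _)
    _ ≤ ENNReal.ofReal (16 * d.F0 * |P| ^ 3) * ENNReal.ofReal 2 +
          ENNReal.ofReal 2 * ENNReal.ofReal (d.ν univ).toReal := by
        rw [lintegral_add_right _ measurable_const, lintegral_const,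
          ENNReal.ofReal_toReal (measure_ne_top _ _)]
        exact add_le_add (h1.trans (mul_le_mul_right h2 _))
          (mul_le_mul_right (Measure.restrict_le_self _) _)
    _ ≤ _ := by
        rw [← ENNReal.ofReal_mul (by positivity), ← ENNReal.ofReal_mul zero_le_two,
          ← ENNReal.ofReal_add (by positivity) (by positivity)]
        exact ENNReal.ofReal_le_ofReal (le_add_of_nonneg_left zero_le_one)

end

end Vale.Agent.P107
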