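import Vale.Agent.P107.Ener1

/-! Continuity of the fields in mean square. -/

namespace Vale.Agent.P107

open MeasureTheory Set Filter Topology
open scoped ENNReal RealInnerProductSpace

noncomputable section

theorem l2c_r (y : V) : rε 1 y = q y := by
  rw [rε, q, one_pow]

theorem l2c_cont_en : Continuous en := by
  unfold en
  fun_prop

theorem l2c_ne {M ρ : ℝ} {p : ST} (h : cone 1 M 0 p * stp 1 (rε 1 p.2 - p.1 - ρ) ≠ 0) :
    ρ + p.1 - 1 < ‖p.2‖ := by
  have h1 : stp 1 (rε 1 p.2 - p.1 - ρ) ≠ 0 := right_ne_zero_of_mul h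
  rw [stp, div_one, l2c_r] at h1
  have h2 : 0 < q p.2 - p.1 - ρ := not_le.1 fun h2 => h1 (Real.smoothTransition.zero_of_nonpos h2)
  linarith [q_le p.2]

theorem l2c_one {n ρ s : ℝ} {x : V} (h1 : ρ + s + 1 ≤ ‖x‖) (h2 : ‖x‖ ≤ n) :
    cone 1 (n + s + 2) 0 (s, x) * stp 1 (rε 1 x - s - ρ) = 1 := by
  have h3 := q_le (0 - x)
  rw [zero_sub, norm_neg] at h3
  rw [cone, stp, stp, div_one, div_one, l2c_r, l2c_r, zero_sub,
    Real.smoothTransition.one_of_one_le (by simp only; linarith),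
    Real.smoothTransition.one_of_one_le (by linarith [norm_lt_q x]), one_mul]

theorem l2c_int {H : ST → Z} (hH : Continuous H) {g : ST → ℝ} (hg : Adm g) (s : ℝ) :
    ENNReal.ofReal (∫ x, g (s, x) * en (H (s, x))) =
      ∫⁻ x, ENNReal.ofReal (g (s, x) * en (H (s, x))) := by
  obtain ⟨R, hR⟩ := hg.supp
  have h1 := hg.c1.continuous
  have h2 := l2c_cont_en
  have h4 : Continuous fun x : V => g (s, x) * en (H (s, x)) := by fun_prop
  refine ofReal_integral_eq_lintegral_ofReal (h4.integrable_of_hasCompactSupport ?_)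
    (Eventually.of_forall fun x => mul_nonneg (hg.nn _) (en_nonneg _))
  refine HasCompactSupport.intro (isCompact_closedBall (0 : V) (R + |s|)) fun x hx => ?_
  have h3 : g (s, x) = 0 := by
    by_contra h3
    exact hx (mem_closedBall_zero_iff.2 (hR (s, x) h3))
  rw [h3, zero_mul]

theorem MxS.tail {H : ST → Z} {J : ST → ST} (h : MxS H J) {R0 : ℝ}
    (hJ : ∀ p, J p ≠ 0 → ‖p.2‖ ≤ R0 + |p.1|) {s ρ : ℝ} (hs : 0 ≤ s) (hρ : R0 + 1 ≤ ρ) :
    ∫⁻ x in {x : V | ρ + s + 1 ≤ ‖x‖}, ENNReal.ofReal (en (H (s, x))) ≤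
      ∫⁻ x in {x : V | ρ - 1 ≤ ‖x‖}, ENNReal.ofReal (en (H (0, x))) := by
  have e : {x : V | ρ + s + 1 ≤ ‖x‖} = ⋃ n : ℕ, {x : V | ρ + s + 1 ≤ ‖x‖ ∧ ‖x‖ ≤ n} := by
    ext x
    simp only [mem_ofPred_eq, mem_iUnion]
    exact ⟨fun hx => (exists_nat_ge ‖x‖).imp fun n hn => ⟨hx, hn⟩, fun ⟨_, hn⟩ => hn.1⟩
  have hm : Monotone fun n : ℕ => {x : V | ρ + s + 1 ≤ ‖x‖ ∧ ‖x‖ ≤ n} := fun a b hab x hx =>
    ⟨hx.1, hx.2.trans (by exact_mod_cast hab)⟩
  rw [e, setLIntegral_iUnion_of_directed _ hm.directed_le]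
  refine iSup_le fun n => ?_
  have hg := adm_tail (n + s + 2) ρ
  set g : ST → ℝ := fun p => cone 1 (n + s + 2) 0 p * stp 1 (rε 1 p.2 - p.1 - ρ) with hgd
  obtain ⟨R, hR⟩ := hg.supp
  have h1 := h.energy hg.c1 hR hs
  have h2 : ∫ t in (0 : ℝ)..s, ∫ x, g (t, x) * ⟪(J (t, x)).2, (H (t, x)).1⟫ = 0 := by
    rw [intervalIntegral.integral_congr (g := fun _ => 0), intervalIntegral.integral_zero]
    intro t ht
    rw [uIcc_of_le hs] at ht
    refine (integral_congr_ae (Eventually.of_forall fun x => ?_)).trans (integral_zero _ _)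
    by_cases h3 : g (t, x) = 0
    · simp [h3]
    · have h4 := l2c_ne h3
      have h5 : J (t, x) = 0 := by
        by_contra h5
        have h6 := hJ _ h5
        simp only [abs_of_nonneg ht.1] at h4 h6
        linarith
      simp [h5]
  have h3 : ∫ t in (0 : ℝ)..s, ∫ x, fderiv ℝ g (t, x) (poy (H (t, x))) ≤ 0 := by
    rw [← neg_nonneg, ← intervalIntegral.integral_neg]
    refine intervalIntegral.integral_nonneg hs fun t _ => neg_nonneg.2 (integral_nonpos fun x => ?_)
    exact hg.caus _ _ _ (norm_poy_le _)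
  have h4 : ∫ x, g (s, x) * en (H (s, x)) ≤ ∫ x, g (0, x) * en (H (0, x)) := by linarith
  have h5 := ENNReal.ofReal_le_ofReal h4
  rw [l2c_int h.c1.continuous hg, l2c_int h.c1.continuous hg] at h5
  refine le_trans ?_ (h5.trans ?_)
  · have hm1 : MeasurableSet {x : V | ρ + s + 1 ≤ ‖x‖ ∧ ‖x‖ ≤ n} :=
      ((isClosed_le continuous_const continuous_norm).inter
        (isClosed_le continuous_norm continuous_const)).measurableSet
    refine le_trans (le_of_eq (setLIntegral_congr_fun hm1 fun x hx => ?_))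
      (setLIntegral_le_lintegral _ _)
    have h6 : g (s, x) = 1 := l2c_one hx.1 hx.2
    simp only [h6, one_mul]
  · have hm1 : MeasurableSet {x : V | ρ - 1 ≤ ‖x‖} :=
      (isClosed_le continuous_const continuous_norm).measurableSet
    rw [← lintegral_indicator hm1]
    refine lintegral_mono fun x => ?_
    by_cases h6 : g (0, x) = 0
    · simp [h6]
    · have h7 := l2c_ne h6
      rw [indicator_of_mem (show x ∈ {x : V | ρ - 1 ≤ ‖x‖} by
        simp only [add_zero] at h7; exact h7.le)]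
      exact ENNReal.ofReal_le_ofReal (mul_le_of_le_one_left (en_nonneg _) (hg.le _))

theorem l2c_small {f : V → ℝ≥0∞} (hf : ∫⁻ x, f x ≠ ∞) {ε : ℝ≥0∞} (hε : 0 < ε) :
    ∃ n : ℕ, ∫⁻ x in {x : V | (n : ℝ) ≤ ‖x‖}, f x ≤ ε := by
  have hm : ∀ n : ℕ, MeasurableSet {x : V | (n : ℝ) ≤ ‖x‖} := fun n =>
    (isClosed_le continuous_const continuous_norm).measurableSet
  have := isFiniteMeasure_withDensity hf
  have h1 := tendsto_measure_iInter_atTop (μ := volume.withDensity f)
    (s := fun n : ℕ => {x : V | (n : ℝ) ≤ ‖x‖}) (fun n => (hm n).nullMeasurableSet)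
    (fun a b hab x hx => le_trans (by exact_mod_cast hab) (show (b : ℝ) ≤ ‖x‖ from hx))
    ⟨0, measure_ne_top _ _⟩
  have e : ⋂ n : ℕ, {x : V | (n : ℝ) ≤ ‖x‖} = ∅ := by
    refine eq_empty_of_forall_notMem fun x hx => ?_
    obtain ⟨n, hn⟩ := exists_nat_gt ‖x‖
    exact hn.not_ge (mem_iInter.1 hx n)
  rw [e, measure_empty] at h1
  obtain ⟨n, hn⟩ := (ENNReal.tendsto_nhds_zero.1 h1 ε hε).exists
  exact ⟨n, by rwa [Function.comp_apply, withDensity_apply _ (hm n)] at hn⟩

theorem l2c_en {H : ST → Z} {J : ST → ST} (h : MxS H J) {R0 : ℝ}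
    (hJ : ∀ p, J p ≠ 0 → ‖p.2‖ ≤ R0 + |p.1|)
    (h0 : ∫⁻ x, ENNReal.ofReal (en (H (0, x))) ≠ ∞) {t : ℝ} (ht : 0 ≤ t) :
    Integrable fun x => en (H (t, x)) := by
  have h1 := h.c1.continuous
  have h2 := l2c_cont_en
  have hc : Continuous fun x => en (H (t, x)) := by fun_prop
  have hm : MeasurableSet {x : V | R0 + 1 + t + 1 ≤ ‖x‖} :=
    (isClosed_le continuous_const continuous_norm).measurableSet
  refine ⟨hc.aestronglyMeasurable, ?_⟩
  rw [hasFiniteIntegral_iff_ofReal (Eventually.of_forall fun x => en_nonneg _),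
    ← lintegral_add_compl _ hm]
  refine ENNReal.add_lt_top.2 ⟨?_, ?_⟩
  · exact ((h.tail hJ ht le_rfl).trans (setLIntegral_le_lintegral _ _)).trans_lt h0.lt_top
  · refine (lintegral_mono_set (t := Metric.closedBall (0 : V) (R0 + 1 + t + 1)) fun x hx =>
      mem_closedBall_zero_iff.2 (not_le.1 hx).le).trans_lt ?_
    exact (hc.continuousOn.integrableOn_compact (isCompact_closedBall _ _)).lintegral_lt_top

theorem l2c_dist (E E' : V → V) :
    dist2 E E' = (∫⁻ x, ENNReal.ofReal (‖E x - E' x‖ ^ 2)) ^ (1 / 2 : ℝ) := by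
  rw [dist2, eLpNorm_eq_lintegral_rpow_enorm_toReal two_ne_zero ENNReal.ofNat_ne_top,
    ENNReal.toReal_ofNat]
  congr 1
  refine lintegral_congr fun x => ?_
  rw [← ofReal_norm, ENNReal.ofReal_rpow_of_nonneg (norm_nonneg _) (by norm_num),
    Real.rpow_two]

theorem l2c_gen {H : ST → Z} {J : ST → ST} (h : MxS H J) {R0 : ℝ}
    (hJ : ∀ p, J p ≠ 0 → ‖p.2‖ ≤ R0 + |p.1|)
    (h0 : ∫⁻ x, ENNReal.ofReal (en (H (0, x))) ≠ ∞) {φ : Z → V} (hφ : Continuous φ)
    (hb : ∀ a, ‖φ a‖ ^ 2 ≤ 2 * en a) : L2Cont (fun t x => φ (H (t, x))) := by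
  have h1 := h.c1.continuous
  have h2 := l2c_cont_en
  intro t ht
  constructor
  · have hc : Continuous fun x => φ (H (t, x)) := by fun_prop
    refine (memLp_two_iff_integrable_sq_norm hc.aestronglyMeasurable).2 ?_
    refine ((l2c_en h hJ h0 ht).const_mul 2).mono' (hc.norm.pow 2).aestronglyMeasurable
      (Eventually.of_forall fun x => ?_)
    rw [Real.norm_of_nonneg (sq_nonneg _)]
    exact hb _
  · simp only [l2c_dist]
    have h3 : Tendsto (fun s => ∫⁻ x, ENNReal.ofReal (‖φ (H (s, x)) - φ (H (t, x))‖ ^ 2))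
        (𝓝[Ici 0] t) (𝓝 0) := by
      refine ENNReal.tendsto_nhds_zero.2 fun ε hε => ?_
      have hε2 : 0 < ε / 2 := ENNReal.half_pos hε.ne'
      obtain ⟨n, hn⟩ := l2c_small h0 (ε := ε / 2 / 8)
        (ENNReal.div_pos hε2.ne' ENNReal.ofNat_ne_top)
      set ρ := max (R0 + 1) (n + 1) with hρ
      have hτ : ∀ s ∈ Icc 0 (t + 1), ∫⁻ x in {x : V | ρ + t + 2 ≤ ‖x‖},
          ENNReal.ofReal (en (H (s, x))) ≤ ε / 2 / 8 := fun s hs => by
        refine le_trans (lintegral_mono_set fun x hx => ?_)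
          ((h.tail (ρ := ρ) hJ hs.1 (le_max_left _ _)).trans
            (le_trans (lintegral_mono_set fun x hx => ?_) hn))
        · exact le_trans (by linarith [hs.2]) (show ρ + t + 2 ≤ ‖x‖ from hx)
        · exact le_trans (by linarith [le_max_right (R0 + 1) (n + 1 : ℝ)])
            (show ρ - 1 ≤ ‖x‖ from hx)
      have hK := isCompact_closedBall (0 : V) (ρ + t + 2)
      have h4 : Continuous fun s => ∫ x in Metric.closedBall (0 : V) (ρ + t + 2),
          ‖φ (H (s, x)) - φ (H (t, x))‖ ^ 2 :=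
        continuous_parametric_integral_of_continuous
          (f := fun s x => ‖φ (H (s, x)) - φ (H (t, x))‖ ^ 2) (by fun_prop) hK
      have h5 := (ENNReal.continuous_ofReal.comp h4).tendsto t
      simp only [Function.comp_def, sub_self, norm_zero, ne_eq, OfNat.ofNat_ne_zero,
        not_false_eq_true, zero_pow, integral_zero, ENNReal.ofReal_zero] at h5
      have h6 := ENNReal.tendsto_nhds_zero.1 h5 _ hε2
      have hm : MeasurableSet {x : V | ρ + t + 2 ≤ ‖x‖} :=
        (isClosed_le continuous_const continuous_norm).measurableSet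
      filter_upwards [self_mem_nhdsWithin, mem_nhdsWithin_of_mem_nhds h6,
        mem_nhdsWithin_of_mem_nhds (Iic_mem_nhds (lt_add_one t))] with s hs0 hs hs1
      rw [← lintegral_add_compl _ hm, ← ENNReal.add_halves ε]
      refine add_le_add ?_ ?_
      · have h7 : ∀ x, ENNReal.ofReal (‖φ (H (s, x)) - φ (H (t, x))‖ ^ 2) ≤
            4 * ENNReal.ofReal (en (H (s, x))) + 4 * ENNReal.ofReal (en (H (t, x))) := fun x => by
          have h8 := sq_tri (φ (H (s, x))) 0 (φ (H (t, x)))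
          rw [sub_zero, zero_sub, norm_neg] at h8
          rw [← ENNReal.ofReal_ofNat 4, ← ENNReal.ofReal_mul (by norm_num),
            ← ENNReal.ofReal_mul (by norm_num), ← ENNReal.ofReal_add
              (mul_nonneg (by norm_num) (en_nonneg _)) (mul_nonneg (by norm_num) (en_nonneg _))]
          exact ENNReal.ofReal_le_ofReal (by linarith [hb (H (s, x)), hb (H (t, x))])
        refine (lintegral_mono h7).trans ?_
        rw [lintegral_add_left (by fun_prop), lintegral_const_mul' _ _ ENNReal.ofNat_ne_top,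
          lintegral_const_mul' _ _ ENNReal.ofNat_ne_top]
        refine (add_le_add (mul_le_mul_right (hτ s ⟨hs0, hs1⟩) _)
          (mul_le_mul_right (hτ t ⟨ht, by linarith⟩) _)).trans ?_
        rw [← add_mul, show (4 : ℝ≥0∞) + 4 = 8 by norm_num]
        exact ENNReal.mul_div_le
      · refine (lintegral_mono_set (t := Metric.closedBall (0 : V) (ρ + t + 2)) fun x hx =>
          mem_closedBall_zero_iff.2 (not_le.1 hx).le).trans (le_trans (le_of_eq ?_) hs)
        refine (ofReal_integral_eq_lintegral_ofReal (ContinuousOn.integrableOn_compact hK ?_)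
          (Eventually.of_forall fun x => sq_nonneg _)).symm
        fun_prop
    have h4 := ((ENNReal.continuous_rpow_const (y := 1 / 2)).tendsto 0).comp h3
    rw [ENNReal.zero_rpow_of_pos (by norm_num)] at h4
    exact h4

theorem MxS.l2 {H : ST → Z} {J : ST → ST} (h : MxS H J) {R0 : ℝ}
    (hJ : ∀ p, J p ≠ 0 → ‖p.2‖ ≤ R0 + |p.1|) (h1 : IsL2 (fun x => (H (0, x)).1))
    (h2 : IsL2 (fun x => (H (0, x)).2)) :
    L2Cont (fun t x => (H (t, x)).1) ∧ L2Cont (fun t x => (H (t, x)).2) := by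
  have h0 : ∫⁻ x, ENNReal.ofReal (en (H (0, x))) ≠ ∞ :=
    ((((memLp_two_iff_integrable_sq_norm h1.1).1 h1).add
      ((memLp_two_iff_integrable_sq_norm h2.1).1 h2)).div_const 2).lintegral_lt_top.ne
  refine ⟨l2c_gen h hJ h0 continuous_fst fun a => ?_, l2c_gen h hJ h0 continuous_snd fun a => ?_⟩
  · rw [en]
    linarith [sq_nonneg ‖a.2‖]
  · rw [en]
    linarith [sq_nonneg ‖a.1‖]

end

end Vale.Agent.P107
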