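import Vale.Agent.P107.RetMx
import Vale.Agent.P107.L2c

/-! A self-consistent field gives a classical solution. -/

namespace Vale.Agent.P107

open MeasureTheory Set Filter Topology
open scoped ENNReal RealInnerProductSpace

noncomputable section

theorem conv_dt {F W : Type} [NormedAddCommGroup F] [NormedSpace ℝ F] [NormedAddCommGroup W]
    [NormedSpace ℝ W] {H : ℝ × W → F} {t : ℝ} {w : W} (h : DifferentiableAt ℝ H (t, w))
    (ht : 0 ≤ t) {g : ℝ → F} (hg : ∀ s, 0 ≤ s → g s = H (s, w)) :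
    derivWithin g (Ici 0) t = fderiv ℝ H (t, w) (1, 0) := by
  rw [derivWithin_congr (s := Ici 0) (f := fun s => H (s, w)) (fun s hs => hg s hs) (hg t ht)]
  exact (h.hasFDerivAt.comp_hasDerivAt t ((hasDerivAt_id t).prodMk
    (hasDerivAt_const t w))).hasDerivWithinAt.derivWithin (uniqueDiffOn_Ici 0 t ht)

theorem conv_grad (g : V → ℝ) (x a : V) : ⟪a, grad g x⟫ = fderiv ℝ g x a := by
  have e : a = a 0 • EuclideanSpace.single 0 (1 : ℝ) + a 1 • EuclideanSpace.single 1 (1 : ℝ) +
      a 2 • EuclideanSpace.single 2 (1 : ℝ) := by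
    refine ext3 ?_ ?_ ?_ <;> simp
  conv_rhs => rw [e]
  simp only [inner3, grad, pd, mk3_0, mk3_1, mk3_2, map_add, map_smul, smul_eq_mul]

theorem Sol.loc {f₀ : V → V → ℝ} {E₀ B₀ : V → V} {d : Dat} (hd : ∀ z, d.f z = f₀ z.1 z.2)
    {K G : ST → Z} (hK : Pre d K) (h0 : ∀ x, HH d K 0 (0, x) = (E₀ x, B₀ x)) {T : ℝ}
    (h : Sol d K T G) :
    Loc f₀ E₀ B₀ T (fun t x v => den d G t (x, v)) (fun t x => (HH d K G (t, x)).1)
      (fun t x => (HH d K G (t, x)).2) := by
  obtain ⟨Λ, M1, l1, M2, l2, hc⟩ := h.cl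
  have hm := hK.mxS h.cl
  have e : ∀ s, 0 ≤ s → ∀ w, den d G s w = d.f (fl (vf G) 0 s w) := fun s hs w => by
    rw [den, hc.bk_of_nonneg w hs]
  have hF := hc.contDiff_den d
  have hl := hm.l2 (fun p hp => hc.Jc_supp d hp)
    (by simpa only [HH_zero d K h.cl] using hK.l1) (by simpa only [HH_zero d K h.cl] using hK.l2)
  refine ⟨?_, hm.c1.fst.contDiffOn, hm.c1.snd.contDiffOn, fun t _ x v => d.nn _,
    fun t ht hT x v => ?_, fun t ht x => ?_, ?_, ?_, ?_, hl.1, hl.2, fun T' => ?_⟩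
  · exact hF.contDiffOn.congr fun p hp => e _ hp.1 _
  · have hD := (hF.differentiable one_ne_zero (t, (x, v))).hasFDerivAt
    have h1 := hD.comp (f := fun y => (t, (y, v))) x ((hasFDerivAt_const t x).prodMk
      ((hasFDerivAt_id x).prodMk (hasFDerivAt_const v x)))
    have h2 := hD.comp (f := fun y => (t, (x, y))) v ((hasFDerivAt_const t v).prodMk
      ((hasFDerivAt_const x v).prodMk (hasFDerivAt_id v)))
    have h3 := hc.transport d t (x, v)
    rw [vf, h.eq (t, x) ⟨ht, hT⟩] at h3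
    simp only [Vlasov, dt, conv_grad]
    rw [conv_dt hD.differentiableAt ht fun s hs => e s hs (x, v)]
    simp only [e t ht]
    have h4 := h1.fderiv
    have h5 := h2.fderiv
    simp only [Function.comp_def] at h4 h5
    rw [h4, h5]
    simp only [ContinuousLinearMap.comp_apply, ← map_add]
    refine (congrArg _ ?_).trans h3
    simp [lor]
  · have hD := (hm.c1.differentiable one_ne_zero (t, x)).hasFDerivAt
    obtain ⟨a1, a2, a3, a4⟩ := hm.mx (t, x) ht
    have c1 := curl_eq_cu hD.fst.differentiableAt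
    have c2 := curl_eq_cu hD.snd.differentiableAt
    have d1 := dvg_eq_dv hD.fst.differentiableAt
    have d2 := dvg_eq_dv hD.snd.differentiableAt
    have t1 := conv_dt hD.fst.differentiableAt ht fun _ _ => rfl
    have t2 := conv_dt hD.snd.differentiableAt ht fun _ _ => rfl
    rw [hD.fst.fderiv] at c1 d1 t1
    rw [hD.snd.fderiv] at c2 d2 t2
    exact ⟨(congrArg₂ (· - ·) t1 c2).trans a1, (congrArg₂ (· + ·) t2 c1).trans a2, d1.trans a3,
      d2.trans a4⟩
  · funext x v
    rw [den, bk_zero, hd]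
  · funext x
    rw [HH_zero d K h.cl, h0]
  · funext x
    rw [HH_zero d K h.cl, h0]
  · refine ⟨max (d.R0 + T') (d.P0 + 2 * Λ * T'), fun t ht x v hv => ?_⟩
    obtain ⟨h1, h2⟩ := hc.den_supp (hc.bd d (ht.1.trans ht.2)) ht.2 hv
    rw [abs_of_nonneg ht.1] at h2
    exact ⟨le_max_of_le_left (by linarith [ht.2]),
      le_max_of_le_right ((norm_lt_q v).le.trans h1)⟩

end

end Vale.Agent.P107
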