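import Mathlib

/-! Elementary inequalities for the sum of the critical profile over the source energy. -/

namespace Vale.Agent.P107

open Real

noncomputable section

theorem crA_sum_two (n : ℕ) : ∑ i ∈ Finset.range (n + 1), (2 : ℝ) ^ i ≤ 2 * 2 ^ n := by
  induction n with
  | zero => norm_num
  | succ n ih => rw [Finset.sum_range_succ, pow_succ]; linarith

theorem crA_sum_sqrt (n : ℕ) :
    ∑ i ∈ Finset.range (n + 1), √((2 : ℝ) ^ i) ≤ 4 * √((2 : ℝ) ^ n) := by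
  induction n with
  | zero => norm_num
  | succ n ih =>
    rw [Finset.sum_range_succ]
    have h0 : (0 : ℝ) ≤ 2 ^ n := by positivity
    have h1 : 4 * √((2 : ℝ) ^ n) ≤ 3 * √((2 : ℝ) ^ (n + 1)) := by
      have a1 := Real.sq_sqrt h0
      have a2 := Real.sq_sqrt (show (0 : ℝ) ≤ 2 ^ (n + 1) by positivity)
      refine (abs_le_of_sq_le_sq' ?_ (by positivity)).2
      rw [mul_pow, mul_pow, a1, a2, pow_succ (2 : ℝ) n]
      nlinarith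
    linarith

theorem crA_card {P : ℝ} {n : ℕ} (hL : 1 ≤ Real.log P) (h : (2 : ℝ) ^ n ≤ P) :
    (n : ℝ) + 1 ≤ 3 * Real.log P := by
  have h1 : Real.log ((2 : ℝ) ^ n) ≤ Real.log P := Real.log_le_log (by positivity) h
  rw [Real.log_pow] at h1
  have h2 := Real.log_two_gt_d9
  have h3 : (0 : ℝ) ≤ n := Nat.cast_nonneg n
  nlinarith

theorem crA_theta {P Q : ℝ} (hP : 0 < P) (hQ : 0 < Q) :
    (((Q / P) ^ (3 / 2 : ℝ) / 1000) ^ (-1 / 3 : ℝ)) ^ 4 = 10000 * (P ^ 2 / Q ^ 2) := by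
  have hx : 0 < Q / P := div_pos hQ hP
  have h1 : (0 : ℝ) < (Q / P) ^ (3 / 2 : ℝ) := Real.rpow_pos_of_pos hx _
  rw [← Real.rpow_natCast, ← Real.rpow_mul (by positivity), Real.div_rpow h1.le (by norm_num),
    ← Real.rpow_mul hx.le]
  have e1 : (3 / 2 : ℝ) * (-1 / 3 * ((4 : ℕ) : ℝ)) = -((2 : ℕ) : ℝ) := by norm_num
  have e2 : (1000 : ℝ) ^ (-1 / 3 * ((4 : ℕ) : ℝ)) = 1 / 10000 := by
    have : (1000 : ℝ) = 10 ^ (3 : ℝ) := by norm_num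
    rw [this, ← Real.rpow_mul (by norm_num)]
    have e3 : (3 : ℝ) * (-1 / 3 * ((4 : ℕ) : ℝ)) = -((4 : ℕ) : ℝ) := by norm_num
    rw [e3, Real.rpow_neg (by norm_num), Real.rpow_natCast]
    norm_num
  rw [e1, e2, Real.rpow_neg hx.le, Real.rpow_natCast]
  field_simp

theorem crA_q4 {x : ℝ} (hx : 0 ≤ x) : (x ^ (1 / 4 : ℝ)) ^ 4 = x := by
  rw [← Real.rpow_natCast, ← Real.rpow_mul hx]
  norm_num

theorem crA_q34 {x : ℝ} (hx : 0 ≤ x) : (x ^ (3 / 4 : ℝ)) ^ 4 = x ^ 3 := by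
  rw [← Real.rpow_natCast, ← Real.rpow_mul hx, ← Real.rpow_natCast]
  norm_num

/-- First profile. -/
theorem crA_one {c0 P Q L p τ u : ℝ} (hc : 0 < c0) (hP : 1 ≤ P) (hL : 1 ≤ L) (hQ : 0 < Q)
    (hp : 0 < p) (hτ : τ = c0 * Q ^ 2 / (P * (P + L * Q)))
    (hu : u = c0 * p ^ 2 / (P * (P + L * p))) :
    √τ * p * √(1 + τ / u) ≤ √c0 * Q * (2 * p / P + 1 / L) := by
  have hP0 : 0 < P := by linarith
  have hL0 : 0 < L := by linarith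
  have hA : 0 < P + L * Q := by positivity
  have hB : 0 < P + L * p := by positivity
  have hτ0 : 0 < τ := by rw [hτ]; positivity
  have hu0 : 0 < u := by rw [hu]; positivity
  have hsq : (√τ * p * √(1 + τ / u)) ^ 2 = τ * p ^ 2 + τ ^ 2 * (p ^ 2 / u) := by
    rw [mul_pow, mul_pow, Real.sq_sqrt hτ0.le, Real.sq_sqrt (by positivity)]
    field_simp
  have hpu : p ^ 2 / u = P * (P + L * p) / c0 := by rw [hu]; field_simp
  have t1 : τ ≤ c0 * Q ^ 2 / P ^ 2 := by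
    rw [hτ]
    apply div_le_div_of_nonneg_left (by positivity) (by positivity)
    nlinarith [mul_pos hL0 hQ]
  have t2 : τ ≤ c0 * Q / (P * L) := by
    rw [hτ, div_le_div_iff₀ (by positivity) (by positivity)]
    have : 0 < c0 * Q * P * P := by positivity
    nlinarith
  have s1 : τ * p ^ 2 ≤ c0 * Q ^ 2 * (p / P) ^ 2 := by
    calc τ * p ^ 2 ≤ c0 * Q ^ 2 / P ^ 2 * p ^ 2 := by gcongr
      _ = _ := by field_simp
  have s2 : τ ^ 2 * (P * (P + L * p) / c0) ≤ c0 * Q ^ 2 * (1 / L ^ 2 + p / P * (1 / L)) := by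
    calc τ ^ 2 * (P * (P + L * p) / c0) ≤ (c0 * Q / (P * L)) ^ 2 * (P * (P + L * p) / c0) := by
          gcongr
      _ = _ := by field_simp
  refine (abs_le_of_sq_le_sq' ?_ (by positivity)).2
  rw [hsq, hpu, mul_pow, mul_pow, Real.sq_sqrt hc.le]
  have hx : 0 < p / P := by positivity
  have hy : 0 < 1 / L := by positivity
  have e : (2 * p / P + 1 / L) ^ 2 = 4 * (p / P) ^ 2 + 4 * (p / P * (1 / L)) + 1 / L ^ 2 := by
    field_simp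
    ring
  rw [e]
  have hcq : 0 < c0 * Q ^ 2 := by positivity
  have k1 : 0 < c0 * Q ^ 2 * (p / P) ^ 2 := by positivity
  have k2 : 0 < c0 * Q ^ 2 * (p / P * (1 / L)) := by positivity
  nlinarith

theorem crA_pow4 {P Q p τ u : ℝ} (hP : 0 < P) (hQ : 0 < Q) (hτ : 0 < τ) (hu : 0 < u) :
    (((Q / P) ^ (3 / 2 : ℝ) / 1000) ^ (-1 / 3 : ℝ) * τ ^ (3 / 4 : ℝ) * p *
      (1 + τ / u) ^ (1 / 4 : ℝ)) ^ 4 =
      10000 * (P ^ 2 / Q ^ 2 * τ ^ 3 * p ^ 4 +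
        P ^ 2 / Q ^ 2 * (τ ^ 2) ^ 2 * (p ^ 2 / u) * p ^ 2) := by
  rw [mul_pow, mul_pow, mul_pow, crA_theta hP hQ, crA_q34 hτ.le, crA_q4 (by positivity)]
  field_simp

theorem crA_s1 {c0 P Q p τ : ℝ} (hc : 0 < c0) (hc1 : c0 ≤ 1) (hP : 0 < P) (hQ : 0 < Q)
    (hp : 0 < p) (hτ : 0 < τ) (t1 : τ ≤ c0 * Q ^ 2 / P ^ 2) :
    P ^ 2 / Q ^ 2 * τ ^ 3 * p ^ 4 ≤ c0 ^ 2 * Q ^ 4 * (p / P) ^ 4 := by
  calc P ^ 2 / Q ^ 2 * τ ^ 3 * p ^ 4 ≤ P ^ 2 / Q ^ 2 * (c0 * Q ^ 2 / P ^ 2) ^ 3 * p ^ 4 := by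
        gcongr
    _ = c0 * (c0 ^ 2 * Q ^ 4 * (p / P) ^ 4) := by field_simp
    _ ≤ 1 * (c0 ^ 2 * Q ^ 4 * (p / P) ^ 4) := by gcongr
    _ = _ := one_mul _

theorem crA_s2 {c0 P Q L p τ v : ℝ} (hc : 0 < c0) (hc1 : c0 ≤ 1) (hP : 0 < P) (hL : 1 ≤ L)
    (hQ : 0 < Q) (hp : 0 < p) (hv : 0 ≤ v) (t2 : τ ^ 2 ≤ c0 ^ 2 * Q ^ 3 / (4 * P ^ 3 * L))
    (t3 : v ≤ 2 * L * P ^ 2 / c0) :
    P ^ 2 / Q ^ 2 * (τ ^ 2) ^ 2 * v * p ^ 2 ≤ c0 ^ 2 * Q ^ 4 * (p / P) ^ 2 := by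
  have hL0 : 0 < L := by linarith
  have h1 : c0 / (8 * L) ≤ 1 := by
    rw [div_le_one (by positivity)]
    linarith
  have h2 : (τ ^ 2) ^ 2 ≤ (c0 ^ 2 * Q ^ 3 / (4 * P ^ 3 * L)) ^ 2 :=
    pow_le_pow_left₀ (sq_nonneg τ) t2 2
  calc P ^ 2 / Q ^ 2 * (τ ^ 2) ^ 2 * v * p ^ 2
      ≤ P ^ 2 / Q ^ 2 * (c0 ^ 2 * Q ^ 3 / (4 * P ^ 3 * L)) ^ 2 * (2 * L * P ^ 2 / c0) * p ^ 2 := by
        gcongr
    _ = c0 / (8 * L) * (c0 ^ 2 * Q ^ 4 * (p / P) ^ 2) := by field_simp; ring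
    _ ≤ 1 * (c0 ^ 2 * Q ^ 4 * (p / P) ^ 2) := by gcongr
    _ = _ := one_mul _

theorem crA_s3 {c0 P Q p : ℝ} (hc : 0 < c0) (hP : 0 < P) (hp : 0 < p) :
    10000 * (c0 ^ 2 * Q ^ 4 * (p / P) ^ 4 + c0 ^ 2 * Q ^ 4 * (p / P) ^ 2) ≤
      (√c0 * Q * (10 * p / P + 10 * √p / √P)) ^ 4 := by
  have e3 : 10 * p / P + 10 * √p / √P = 10 * (p / P + √p / √P) := by ring
  have hx0 : 0 < p / P := by positivity
  have hy0 : 0 < √p / √P := by positivity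
  have hy2 : (√p / √P) ^ 2 = p / P := by rw [div_pow, Real.sq_sqrt hp.le, Real.sq_sqrt hP.le]
  rw [e3]
  generalize p / P = x at hx0 hy2 ⊢
  generalize √p / √P = y at hy0 hy2 ⊢
  have e2 : √c0 ^ 4 = c0 ^ 2 := by
    rw [show (4 : ℕ) = 2 * 2 from rfl, pow_mul, Real.sq_sqrt hc.le]
  have e4 : x ^ 4 + x ^ 2 ≤ (x + y) ^ 4 := by
    have h1 : x ^ 2 = y ^ 4 := by rw [← hy2]; ring
    have k : 0 ≤ 4 * x ^ 3 * y + 6 * x ^ 2 * y ^ 2 + 4 * x * y ^ 3 := by positivity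
    have h2 : (x + y) ^ 4 = x ^ 4 + y ^ 4 + (4 * x ^ 3 * y + 6 * x ^ 2 * y ^ 2 + 4 * x * y ^ 3) := by
      ring
    linarith
  calc 10000 * (c0 ^ 2 * Q ^ 4 * x ^ 4 + c0 ^ 2 * Q ^ 4 * x ^ 2)
      = 10000 * (c0 ^ 2 * Q ^ 4 * (x ^ 4 + x ^ 2)) := by ring
    _ ≤ 10000 * (c0 ^ 2 * Q ^ 4 * (x + y) ^ 4) := by gcongr
    _ = _ := by rw [mul_pow, mul_pow, mul_pow, e2]; ring

/-- Second profile. -/
theorem crA_two {c0 P Q L p τ u : ℝ} (hc : 0 < c0) (hc1 : c0 ≤ 1) (hP : 1 ≤ P) (hL : 1 ≤ L)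
    (hQ : 0 < Q) (hp : 0 < p) (hpP : p ≤ P) (hτ : τ = c0 * Q ^ 2 / (P * (P + L * Q)))
    (hu : u = c0 * p ^ 2 / (P * (P + L * p))) :
    ((Q / P) ^ (3 / 2 : ℝ) / 1000) ^ (-1 / 3 : ℝ) * τ ^ (3 / 4 : ℝ) * p * (1 + τ / u) ^ (1 / 4 : ℝ) ≤
      √c0 * Q * (10 * p / P + 10 * √p / √P) := by
  have hP0 : 0 < P := by linarith
  have hL0 : 0 < L := by linarith
  have hA : 0 < P + L * Q := by positivity
  have hB : 0 < P + L * p := by positivity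
  have hτ0 : 0 < τ := by rw [hτ]; positivity
  have hu0 : 0 < u := by rw [hu]; positivity
  have hpu : p ^ 2 / u = P * (P + L * p) / c0 := by rw [hu]; field_simp
  have t1 : τ ≤ c0 * Q ^ 2 / P ^ 2 := by
    rw [hτ]
    apply div_le_div_of_nonneg_left (by positivity) (by positivity)
    nlinarith [mul_pos hL0 hQ]
  have t2 : τ ^ 2 ≤ c0 ^ 2 * Q ^ 3 / (4 * P ^ 3 * L) := by
    rw [hτ, div_pow, div_le_div_iff₀ (by positivity) (by positivity)]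
    have h1 : 4 * P * (L * Q) ≤ (P + L * Q) ^ 2 := by nlinarith [sq_nonneg (P - L * Q)]
    calc (c0 * Q ^ 2) ^ 2 * (4 * P ^ 3 * L) = c0 ^ 2 * Q ^ 3 * P ^ 2 * (4 * P * (L * Q)) := by ring
      _ ≤ c0 ^ 2 * Q ^ 3 * P ^ 2 * (P + L * Q) ^ 2 := by gcongr
      _ = _ := by ring
  have t3 : P * (P + L * p) / c0 ≤ 2 * L * P ^ 2 / c0 := by
    apply div_le_div_of_nonneg_right _ hc.le
    have h1 : L * p ≤ L * P := by gcongr
    have h2 : P ≤ L * P := by nlinarith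
    nlinarith
  have s1 := crA_s1 hc hc1 hP0 hQ hp hτ0 t1
  have s2 := crA_s2 hc hc1 hP0 hL hQ hp (by positivity) t2 t3
  have s3 := crA_s3 (Q := Q) hc hP0 hp
  refine le_of_pow_le_pow_left₀ (n := 4) (by norm_num) (by positivity) ?_
  rw [crA_pow4 hP0 hQ hτ0 hu0, hpu]
  linarith

end

end Vale.Agent.P107
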