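import Vale.Agent.P107.Alg1

/-! Elementary facts on the data of a bootstrap step. -/

namespace Vale.Agent.P107

open MeasureTheory Set Filter Topology
open scoped ENNReal RealInnerProductSpace

noncomputable section

theorem uu_mono {c0 P Q Q' : ℝ} (hc : 0 ≤ c0) (hP : 1 ≤ P) (hQ : 0 ≤ Q) (h : Q ≤ Q') :
    uu c0 P Q ≤ uu c0 P Q' := by
  have hL := Real.log_nonneg hP
  have hP0 : 0 < P := one_pos.trans_le hP
  have hQ' := hQ.trans h
  unfold uu
  rw [div_le_div_iff₀ (by positivity) (by positivity)]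
  have h1 : Q ^ 2 ≤ Q' ^ 2 := pow_le_pow_left₀ hQ h 2
  have h2 := mul_le_mul_of_nonneg_left h1 (show 0 ≤ c0 * P * P by positivity)
  have h3 := mul_le_mul_of_nonneg_left h (show 0 ≤ c0 * P * Real.log P * Q * Q' by positivity)
  nlinarith

theorem uu_pos {c0 P Q : ℝ} (hc : 0 < c0) (hP : 1 ≤ P) (hQ : 0 < Q) : 0 < uu c0 P Q := by
  have hL := Real.log_nonneg hP
  have hP0 : 0 < P := one_pos.trans_le hP
  unfold uu
  positivity

theorem uu_le {c0 P Q : ℝ} (hc : c0 ≤ 1) (hP : 1 ≤ P) (hQ : 0 ≤ Q) :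
    uu c0 P Q ≤ Q ^ 2 / P ^ 2 := by
  have hL := Real.log_nonneg hP
  have hP0 : 0 < P := one_pos.trans_le hP
  unfold uu
  refine div_le_div₀ (by positivity) (mul_le_of_le_one_left (by positivity) hc) (by positivity) ?_
  have h1 : 0 ≤ P * (Real.log P * Q) := by positivity
  nlinarith

theorem inv_uu_le {c0 P Q : ℝ} (hc : 0 < c0) (hP : 1 ≤ P) (hL : 1 ≤ Real.log P) (hQ : 0 < Q)
    (hQP : Q ≤ P) : 1 / uu c0 P Q ≤ 2 * Real.log P / c0 * (P ^ 2 / Q ^ 2) := by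
  have hP0 : 0 < P := one_pos.trans_le hP
  have hL0 : 0 < Real.log P := one_pos.trans_le hL
  unfold uu
  rw [one_div_div, div_mul_div_comm]
  refine div_le_div_of_nonneg_right ?_ (by positivity)
  have h1 := mul_le_mul_of_nonneg_left hQP (show 0 ≤ P * Real.log P by positivity)
  have h2 := mul_le_mul_of_nonneg_left hL (show 0 ≤ P * P by positivity)
  nlinarith

theorem eta_mono {P Q Q' : ℝ} (hP : 0 ≤ P) (hQ : 0 ≤ Q) (h : Q ≤ Q') : eta P Q ≤ eta P Q' := by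
  unfold eta
  exact mul_le_mul_of_nonneg_left (Real.rpow_le_rpow hQ h (by norm_num)) (by positivity)

theorem CtxB_pow_ge {T1 F0 En C0 P0 c0 P : ℝ} (h : Num T1 F0 En C0 P0 c0 P) {r : ℝ}
    (hr : 1 / 100 ≤ r) : (10 : ℝ) ^ 6 ≤ P ^ r := by
  exact h.hP1.trans (Real.rpow_le_rpow_of_exponent_le h.hP2 hr)

theorem Num.log_ge {T1 F0 En C0 P0 c0 P : ℝ} (h : Num T1 F0 En C0 P0 c0 P) :
    1 ≤ Real.log P := by
  have h1 := CtxB_pow_ge h (r := 1) (by norm_num)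
  rw [Real.rpow_one] at h1
  rw [Real.le_log_iff_exp_le (one_pos.trans_le h.hP2)]
  linarith [Real.exp_one_lt_d9]

theorem Num.eta_le {T1 F0 En C0 P0 c0 P : ℝ} (h : Num T1 F0 En C0 P0 c0 P) {Q : ℝ}
    (hQ : P ^ (11 / 20 : ℝ) ≤ Q) : 1000 ≤ eta P Q ∧ eta P Q ≤ Q / 1000 := by
  have hP0 : 0 < P := one_pos.trans_le h.hP2
  have hQ1 : 1 ≤ Q := (Real.one_le_rpow h.hP2 (by norm_num)).trans hQ
  have hQ0 : 0 < Q := one_pos.trans_le hQ1
  have h1 := CtxB_pow_ge h (r := 1 / 10) (by norm_num)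
  have h2 : 1 ≤ Q ^ (1 / 4 : ℝ) := Real.one_le_rpow hQ1 (by norm_num)
  unfold eta
  constructor
  · nlinarith
  · have h3 : (P ^ (11 / 20 : ℝ)) ^ (3 / 4 : ℝ) ≤ Q ^ (3 / 4 : ℝ) :=
      Real.rpow_le_rpow (by positivity) hQ (by norm_num)
    rw [← Real.rpow_mul hP0.le] at h3
    have h4 : P ^ (11 / 20 * (3 / 4) : ℝ) = P ^ (1 / 10 : ℝ) * P ^ (5 / 16 : ℝ) := by
      rw [← Real.rpow_add hP0]
      norm_num
    have h5 := CtxB_pow_ge h (r := 5 / 16) (by norm_num)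
    have h6 : Q = Q ^ (3 / 4 : ℝ) * Q ^ (1 / 4 : ℝ) := by
      rw [← Real.rpow_add hQ0]
      norm_num
    have h7 : 1000 * P ^ (1 / 10 : ℝ) ≤ Q ^ (3 / 4 : ℝ) := by nlinarith
    have h8 := mul_le_mul_of_nonneg_right h7 (zero_le_one.trans h2)
    rw [← h6] at h8
    linarith

theorem CtxB_Λ_nonneg {T F0 En C0 P0 : ℝ} (S : Sys T F0 En C0 P0) : 0 ≤ S.Λ := by
  exact (norm_nonneg _).trans (S.bE 0 0)

theorem Sys.lipW {T F0 En C0 P0 : ℝ} (S : Sys T F0 En C0 P0) (z : Z) (s s' : ℝ) :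
    ‖S.W z s' - S.W z s‖ ≤ 2 * S.Λ * |s' - s| := by
  have hc := (S.tm z).cW
  have h1 : ∀ r ∈ Ioi (0 : ℝ), ∀ r' ∈ Ioi (0 : ℝ), ‖S.W z r' - S.W z r‖ ≤ 2 * S.Λ * |r' - r| := by
    intro r hr r' hr'
    refine (convex_Ioi (0 : ℝ)).norm_image_sub_le_of_norm_hasDerivWithin_le
      (fun t ht => (S.hW z t ht).hasDerivWithinAt) (fun t _ => ?_) hr hr'
    linarith [norm_lor_le (S.E t (S.Y z t)) (S.B t (S.Y z t)) (S.W z t), S.bE t (S.Y z t),
      S.bB t (S.Y z t)]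
  have h2 : IsClosed {p : ℝ × ℝ | ‖S.W z p.2 - S.W z p.1‖ ≤ 2 * S.Λ * |p.2 - p.1|} :=
    isClosed_le (by fun_prop) (by fun_prop)
  have h3 : closure (Ioi (0 : ℝ) ×ˢ Ioi (0 : ℝ)) ⊆
      {p : ℝ × ℝ | ‖S.W z p.2 - S.W z p.1‖ ≤ 2 * S.Λ * |p.2 - p.1|} :=
    h2.closure_subset_iff.2 fun p hp => h1 p.1 hp.1 p.2 hp.2
  rw [closure_prod_eq, closure_Ioi] at h3
  have h4 : ∀ r, S.W z r = S.W z (max r 0) := by
    intro r
    rcases le_total r 0 with h | h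
    · rw [max_eq_right h, (S.tm z).past r h]
    · rw [max_eq_left h]
  have h5 := h3 (show (max s 0, max s' 0) ∈ Ici (0 : ℝ) ×ˢ Ici (0 : ℝ) from
    ⟨le_max_right s 0, le_max_right s' 0⟩)
  rw [h4 s, h4 s']
  refine le_trans h5 (mul_le_mul_of_nonneg_left (abs_max_sub_max_le_abs _ _ _) ?_)
  linarith [CtxB_Λ_nonneg S]

theorem Sys.Λ_nonneg {T F0 En C0 P0 : ℝ} (S : Sys T F0 En C0 P0) : 0 ≤ S.Λ := by
  exact CtxB_Λ_nonneg S

namespace Ctx

variable {T1 F0 En C0 P0 c0 P : ℝ} (x : Ctx T1 F0 En C0 P0 c0 P)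

theorem tm : Tm x.X x.U := by
  exact x.S.tm x.z0

theorem Q_ge : P ^ (11 / 20 : ℝ) ≤ x.Q := by
  exact x.hQ

theorem Q_le : x.Q ≤ P := by
  exact x.hP x.z0 x.hz x.s1 x.hs1

theorem one_le_Q : 1 ≤ x.Q := by
  exact one_le_q _

theorem τ_pos : 0 < x.τ := by
  exact uu_pos x.num.hc0 x.num.hP2 (q_pos _)

theorem τ_le : x.τ ≤ x.Q ^ 2 / P ^ 2 := by
  exact uu_le x.num.hc1 x.num.hP2 (q_pos _).le

theorem τ_le_one : x.τ ≤ 1 := by
  have hP0 : 0 < P := one_pos.trans_le x.num.hP2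
  refine x.τ_le.trans ((div_le_one (by positivity)).2 ?_)
  exact pow_le_pow_left₀ (zero_le_one.trans x.one_le_Q) x.Q_le 2

theorem η_ge : 1000 ≤ x.η := by
  exact (x.num.eta_le x.Q_ge).1

theorem η_le : x.η ≤ x.Q / 1000 := by
  exact (x.num.eta_le x.Q_ge).2

theorem s1_le_s2 : x.s1 ≤ x.s2 := by
  exact le_min x.hs1 (le_add_of_nonneg_right x.τ_pos.le)

theorem s2_le : x.s2 ≤ x.s1 + x.τ ∧ x.s2 ≤ x.t := by
  exact ⟨min_le_right _ _, min_le_left _ _⟩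

theorem mem_Icc {s : ℝ} (hs : s ∈ Icc x.s1 x.s2) : s ∈ Icc 0 x.T := by
  exact ⟨x.hs0.trans hs.1, hs.2.trans (x.s2_le.2.trans x.ht)⟩

theorem par_ok : x.par.Ok := by
  have hP0 : 0 < P := one_pos.trans_le x.num.hP2
  have hQ0 : 0 < x.Q := one_pos.trans_le x.one_le_Q
  have hη : 0 < x.η := by linarith [x.η_ge]
  refine ⟨?_, ?_, ?_, ?_, ?_, ?_, x.τ_pos, ?_, ?_⟩ <;> simp only [par]
  · positivity
  · refine div_le_div_of_nonneg_right ?_ (by norm_num)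
    exact Real.rpow_le_one (by positivity) ((div_le_one hP0).2 x.Q_le) (by norm_num)
  · positivity
  · positivity
  · positivity
  · positivity
  · positivity
  · have h1 := CtxB_pow_ge x.num (r := 1 / 25) (by norm_num)
    have h2 := mul_le_mul_of_nonneg_right h1 (sq_nonneg (x.η / x.Q))
    rw [mul_div_assoc]
    nlinarith [sq_nonneg (x.η / x.Q)]

theorem ctl : Ctl x.U x.s1 x.s2 x.η (1 / 100 * x.Q) := by
  exact x.hyp x.z0 x.hz x.s1 ⟨x.hs0, x.hs1⟩ x.hQ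

theorem q_U {s : ℝ} (hs : s ∈ Icc x.s1 x.s2) : x.Q / 2 ≤ q (x.U s) ∧ q (x.U s) ≤ 2 * x.Q := by
  obtain ⟨g, -, hg, h1, h2⟩ := x.ctl
  have h3 := h1 x.s1 s le_rfl hs.1 hs.2
  have h4 := hg hs.2
  have h5 := abs_le.1 (q_lip (x.U s) (x.U x.s1))
  have h6 : q (x.U x.s1) = x.Q := rfl
  have h7 := x.η_le
  have h8 := x.one_le_Q
  rw [h6] at h5
  constructor <;> linarith [h5.1, h5.2]

theorem close {s : ℝ} (hs : s ∈ Icc x.s1 x.s2) {U₀ : V} (h : ‖x.U s - U₀‖ ≤ 2 * x.η) :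
    Close x.par.δ (x.U s) U₀ := by
  have hQ0 : 0 < x.Q := one_pos.trans_le x.one_le_Q
  have h1 := (x.q_U hs).1
  have h2 := x.η_ge
  have h3 := x.η_le
  have h4 := abs_le.1 ((q_lip (x.U s) U₀).trans h)
  have hq := q_pos (x.U s)
  have hq0 := q_pos U₀
  have hδ : x.par.δ = 8 * x.η / x.Q := rfl
  rw [hδ]
  refine ⟨(vel_lip _ _).trans ?_, ?_, ?_⟩
  · rw [div_le_div_iff₀ hq hQ0]
    have h5 := mul_le_mul_of_nonneg_right h hQ0.le
    have h6 := mul_le_mul_of_nonneg_left h1 (show 0 ≤ x.η by linarith)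
    nlinarith
  · rw [inv_eq_one_div, div_le_div_iff₀ hq hQ0]
    nlinarith
  · rw [inv_eq_one_div, div_le_div_iff₀ hq0 hQ0]
    have h5 : x.Q / 4 ≤ q U₀ := by linarith [h4.2]
    nlinarith

theorem pR_eq (s : ℝ) (z : Z) : x.pR s z = s - x.sg s z := by
  have h := (x.S.tm z).ret_eq s (x.X s)
  unfold pR el sg
  linarith

theorem CtxB_continuous_X : Continuous x.X := by
  exact continuous_iff_continuousAt.2 fun s => (x.tm.hY s).continuousAt

theorem measurable_sg : Measurable (fun w : ℝ × Z => x.sg w.1 w.2) := by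
  have h1 : Measurable (fun w : ℝ × Z => ((w.2, w.1, x.X w.1) : Z × ℝ × V)) :=
    measurable_snd.prodMk (measurable_fst.prodMk
      (x.CtxB_continuous_X.measurable.comp measurable_fst))
  have h2 := (measurable_ret x.S.tm x.S.mY).comp h1
  simpa only [Function.comp_def, sg] using h2

theorem CtxB_measurable_Y : Measurable (fun w : ℝ × Z => x.S.Y w.2 (x.sg w.1 w.2)) := by
  exact x.S.mY.comp (measurable_snd.prodMk x.measurable_sg)

theorem measurable_el : Measurable (fun w : ℝ × Z => x.el w.1 w.2) := by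
  exact (x.CtxB_continuous_X.measurable.comp measurable_fst).sub x.CtxB_measurable_Y

theorem measurable_Ws : Measurable (fun w : ℝ × Z => x.Ws w.1 w.2) := by
  exact x.S.mW.comp (measurable_snd.prodMk x.measurable_sg)

theorem measurable_Fs : Measurable (fun w : ℝ × Z => x.Fs w.1 w.2) := by
  have h := x.measurable_sg.prodMk x.CtxB_measurable_Y
  exact continuous_lor.measurable.comp ((x.S.cE.measurable.comp h).prodMk
    ((x.S.cB.measurable.comp h).prodMk x.measurable_Ws))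

theorem measurable_pp : Measurable (fun w : ℝ × Z => x.pp w.1 w.2) := by
  exact contDiff_q.continuous.measurable.comp x.measurable_Ws

theorem CtxB_measurable_U : Measurable (fun w : ℝ × Z => vel (x.U w.1)) := by
  exact (contDiff_vel.continuous.comp x.tm.cW).measurable.comp measurable_fst

theorem CtxB_measurable_vW : Measurable (fun w : ℝ × Z => vel (x.Ws w.1 w.2)) := by
  exact contDiff_vel.continuous.measurable.comp x.measurable_Ws

theorem CtxB_measurable_n : Measurable (fun w : ℝ × Z => nrm (x.el w.1 w.2)) := by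
  exact measurable_nrm.comp x.measurable_el

theorem measurable_pa : Measurable (fun w : ℝ × Z => x.pa w.1 w.2) := by
  exact measurable_const.sub (x.CtxB_measurable_U.inner x.CtxB_measurable_n)

theorem measurable_pb : Measurable (fun w : ℝ × Z => x.pb w.1 w.2) := by
  exact measurable_const.sub (x.CtxB_measurable_vW.inner x.CtxB_measurable_n)

theorem measurable_pc : Measurable (fun w : ℝ × Z => x.pc w.1 w.2) := by
  exact measurable_const.sub (x.CtxB_measurable_U.inner x.CtxB_measurable_vW)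

theorem measurable_pR : Measurable (fun w : ℝ × Z => x.pR w.1 w.2) := by
  exact x.measurable_el.norm

theorem measurableSet_act : MeasurableSet x.act := by
  simp only [act, ofPred_and]
  exact (measurable_fst measurableSet_Icc).inter ((measurable_snd x.S.mS).inter
    ((measurableSet_lt measurable_const x.measurable_sg).inter
      (measurableSet_lt measurable_const x.measurable_pR)))

theorem measurableSet_piece (d : Box) : MeasurableSet (x.piece d) := by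
  have e : x.piece d = x.act ∩ ((fun w : ℝ × Z => x.pp w.1 w.2) ⁻¹' Icc d.p (2 * d.p) ∩
      ((fun w : ℝ × Z => x.pa w.1 w.2) ⁻¹' Icc d.a (2 * d.a) ∩
      ((fun w : ℝ × Z => x.pb w.1 w.2) ⁻¹' Icc d.b (2 * d.b) ∩
      ((fun w : ℝ × Z => x.pc w.1 w.2) ⁻¹' Icc d.c (2 * d.c) ∩
      (fun w : ℝ × Z => x.pR w.1 w.2) ⁻¹' Icc d.R (2 * d.R))))) := by
    ext w
    constructor
    · rintro ⟨h0, h⟩
      exact ⟨h0, ⟨h.p1, h.p2⟩, ⟨h.a1, h.a2⟩, ⟨h.b1, h.b2⟩, ⟨h.c1, h.c2⟩, ⟨h.R1, h.R2⟩⟩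
    · rintro ⟨h0, hp, ha, hb, hc, hR⟩
      exact ⟨h0, hp.1, hp.2, ha.1, ha.2, hb.1, hb.2, hc.1, hc.2, hR.1, hR.2⟩
  rw [e]
  exact x.measurableSet_act.inter ((x.measurable_pp measurableSet_Icc).inter
    ((x.measurable_pa measurableSet_Icc).inter ((x.measurable_pb measurableSet_Icc).inter
      ((x.measurable_pc measurableSet_Icc).inter (x.measurable_pR measurableSet_Icc)))))

theorem measurable_Psi : Measurable x.Psi := by
  exact (measurable_psi x.par).comp (x.measurable_pp.prodMk (x.measurable_pa.prodMk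
    (x.measurable_pb.prodMk (x.measurable_pR.prodMk x.measurable_Fs.norm))))

theorem Psi_nonneg (w : ℝ × Z) : 0 ≤ x.Psi w := by
  exact psi_nonneg x.par_ok.δ0.le (q_pos _).le (ang_vel_pos _ (norm_nrm_le _)).le (norm_nonneg _)
    (norm_nonneg _)

theorem m_act_ne_top : x.m x.act ≠ ⊤ := by
  have := x.S.fin
  have h : x.act ⊆ Icc x.s1 x.s2 ×ˢ univ := fun w hw => ⟨hw.1, mem_univ _⟩
  refine ne_top_of_le_ne_top ?_ (measure_mono h)
  rw [m, Measure.prod_prod, Real.volume_Icc]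
  exact ENNReal.mul_ne_top ENNReal.ofReal_ne_top (measure_ne_top _ _)

theorem m_piece (d : Box) : x.m (x.piece d) = ENNReal.ofReal (x.O d) := by
  have h : x.piece d ⊆ x.act := fun w hw => hw.1
  exact (ENNReal.ofReal_toReal (ne_top_of_le_ne_top x.m_act_ne_top (measure_mono h))).symm

theorem ν_slice (s : ℝ) (d : Box) :
    x.S.ν {z | (s, z) ∈ x.piece d} = ENNReal.ofReal (x.Ms s d) := by
  have := x.S.fin
  exact (ENNReal.ofReal_toReal (measure_ne_top _ _)).symm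

theorem O_le_of_Ms (d : Box) {M : ℝ} (hM : 0 ≤ M) (h : ∀ s ∈ Icc x.s1 x.s2, x.Ms s d ≤ M) :
    x.O d ≤ x.τ * M := by
  have := x.S.fin
  refine ENNReal.toReal_le_of_le_ofReal (mul_nonneg x.τ_pos.le hM) ?_
  rw [m, Measure.prod_apply (x.measurableSet_piece d)]
  have h1 : ∀ s, x.S.ν (Prod.mk s ⁻¹' x.piece d) ≤
      (Icc x.s1 x.s2).indicator (fun _ => ENNReal.ofReal M) s := by
    intro s
    by_cases hs : s ∈ Icc x.s1 x.s2
    · rw [indicator_of_mem hs]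
      exact (x.ν_slice s d).le.trans (ENNReal.ofReal_le_ofReal (h s hs))
    · have e : Prod.mk s ⁻¹' x.piece d = ∅ :=
        eq_empty_of_forall_notMem fun z hz => hs hz.1.1
      rw [e, measure_empty]
      exact zero_le
  refine (lintegral_mono h1).trans ?_
  rw [lintegral_indicator_const measurableSet_Icc, Real.volume_Icc, ← ENNReal.ofReal_mul hM,
    mul_comm]
  exact ENNReal.ofReal_le_ofReal (mul_le_mul_of_nonneg_right (by linarith [x.s2_le.1]) hM)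

theorem CtxB_qb (W : V) {n : V} (hn : ‖n‖ ≤ 1) {M : ℝ} (hM : q W ≤ M) :
    1 ≤ 2 * M ^ 2 * ang (vel W) n := by
  refine (Alg1_qb W hn).trans (mul_le_mul_of_nonneg_right ?_ (ang_vel_pos W hn).le)
  linarith [pow_le_pow_left₀ (q_pos W).le hM 2]

/-- Ranges of the parameters of an active pair. -/
theorem act_range {w : ℝ × Z} (hw : w ∈ x.act) :
    (1 ≤ x.pp w.1 w.2 ∧ x.pp w.1 w.2 ≤ P) ∧ (0 < x.pR w.1 w.2 ∧ x.pR w.1 w.2 ≤ T1) ∧
      (1 ≤ 8 * x.Q ^ 2 * x.pa w.1 w.2 ∧ 1 ≤ 2 * P ^ 2 * x.pa w.1 w.2 ∧ x.pa w.1 w.2 ≤ 2) ∧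
      (1 ≤ 2 * x.pp w.1 w.2 ^ 2 * x.pb w.1 w.2 ∧ x.pb w.1 w.2 ≤ 2) ∧
      (1 ≤ 2 * x.pp w.1 w.2 ^ 2 * x.pc w.1 w.2 ∧ 1 ≤ 8 * x.Q ^ 2 * x.pc w.1 w.2 ∧
        x.pc w.1 w.2 ≤ 2) ∧
      (x.pa w.1 w.2 ≤ 2 * x.pb w.1 w.2 + 2 * x.pc w.1 w.2 ∧
        x.pb w.1 w.2 ≤ 2 * x.pa w.1 w.2 + 2 * x.pc w.1 w.2 ∧
        x.pc w.1 w.2 ≤ 2 * x.pa w.1 w.2 + 2 * x.pb w.1 w.2) := by
  obtain ⟨hs, hz, hsg, hR⟩ := hw
  have hst : w.1 ≤ x.t := hs.2.trans x.s2_le.2
  have hRe := x.pR_eq w.1 w.2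
  have hn : ‖nrm (x.el w.1 w.2)‖ = 1 := norm_nrm (norm_pos_iff.1 hR)
  have hU := (norm_vel_lt (x.U w.1)).le
  have hW := (norm_vel_lt (x.Ws w.1 w.2)).le
  have h8 : ∀ r : ℝ, 8 * x.Q ^ 2 * r = 2 * (2 * x.Q) ^ 2 * r := fun r => by ring
  refine ⟨⟨one_le_q _, x.hP w.2 hz _ (by linarith)⟩, ⟨hR, ?_⟩, ⟨?_, ?_, ang_le_two hU hn.le⟩,
    ⟨Alg1_qb _ hn.le, ang_le_two hW hn.le⟩, ⟨?_, ?_, ang_le_two hU hW⟩,
    tri_a _ _ hn, tri_b _ _ hn, tri_c _ _ hn⟩
  · linarith [x.ht, x.hT]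
  · rw [h8]
    exact CtxB_qb _ hn.le (x.q_U hs).2
  · exact CtxB_qb _ hn.le (x.hP x.z0 x.hz _ hst)
  · rw [pc, ang_comm]
    exact Alg1_qb _ hU
  · rw [h8]
    exact CtxB_qb _ hW (x.q_U hs).2

theorem ker_eq (s : ℝ) (z : Z) :
    ker (x.S.Y z) (x.S.W z) x.S.E x.S.B s (x.X s) (vel (x.U s)) =
      if 0 < x.sg s z then kT (vel (x.U s)) (x.Ws s z) (x.el s z) +
        kS (vel (x.U s)) (x.Ws s z) (x.Fs s z) (x.el s z) else 0 := by
  rfl

end Ctx

end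

end Vale.Agent.P107
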