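import Mathlib

/-! Linear arithmetic behind the two critical piece bounds (all variables are logarithms). -/

namespace Vale.Agent.P107.LP

/-- Hypotheses of the critical bounds; `h = log θ`, `n = log N`, `m = log (min b c)`,
`ρ` is the logarithm of the distance at which the two occupancy bounds agree. -/
structure Cr (h t n k p a b c r m o ρ : ℝ) : Prop where
  k0 : 0 ≤ k
  h0 : h ≤ 0
  a1 : a ≤ k
  b1 : b ≤ k
  c1 : c ≤ k
  ta : a ≤ k + b ∨ a ≤ k + c
  tb : b ≤ k + a ∨ b ≤ k + c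
  tc : c ≤ k + a ∨ c ≤ k + b
  m1 : m ≤ b
  m2 : m ≤ c
  m3 : m = b ∨ m = c
  nr : h + a ≤ k + b
  cap : o ≤ k + t + 3 * p + m + a + b + 3 * r
  kin : o ≤ k + b + r - 3 / 2 * c + n - p
  hρ : 2 * ρ = n - t - 4 * p - m - a - 3 / 2 * c

variable {h t n k p a b c r m o ρ w e : ℝ}

theorem cG (H : Cr h t n k p a b c r m o ρ) (h1 : b ≤ k + h + a) (h6 : a ≤ k + c) (h7 : c ≤ k + a)
    (hw : w = b - h - a ∨ w = h + a - b) (he : e = r - ρ ∨ e = ρ - r) :
    o + a / 2 - 3 / 2 * b - 2 * r ≤ t / 2 + p + n / 2 + (a + c) / 100 + w / 100 + e / 2 + 100 * k := by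
  obtain ⟨k0, h0, a1, b1, c1, ta, tb, tc, m1, m2, m3, nr, cap, kin, hρ⟩ := H
  have hx : r ≤ ρ ∨ ρ ≤ r := le_total _ _
  rcases hw with hw | hw <;> rcases he with he | he <;> rcases m3 with m3 | m3 <;>
    rcases hx with hx | hx <;> linarith

theorem cSg (H : Cr h t n k p a b c r m o ρ)
    (hw : w = b - h - a ∨ w = h + a - b) (he : e = r - ρ ∨ e = ρ - r) :
    (t + o + p + m + a) / 2 - 3 / 2 * b - r ≤
      -h / 3 + 3 / 4 * t + p + n / 4 + (a + c) / 100 + w / 100 + e / 2 + 100 * k := by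
  obtain ⟨k0, h0, a1, b1, c1, ta, tb, tc, m1, m2, m3, nr, cap, kin, hρ⟩ := H
  rcases hw with hw | hw <;> rcases he with he | he <;> rcases m3 with m3 | m3 <;>
    rcases ta with ta | ta <;> rcases tb with tb | tb <;> rcases tc with tc | tc <;> linarith

theorem cSb (H : Cr h t n k p a b c r m o ρ) {s : ℝ} (hs : s ≤ k + t)
    (hw : w = b - h - a ∨ w = h + a - b) (he : e = r - ρ ∨ e = ρ - r) :
    (o + p + m + s) / 2 - b - r ≤
      -h / 3 + 3 / 4 * t + p + n / 4 + (a + c) / 100 + w / 100 + e / 2 + 100 * k := by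
  obtain ⟨k0, h0, a1, b1, c1, ta, tb, tc, m1, m2, m3, nr, cap, kin, hρ⟩ := H
  rcases hw with hw | hw <;> rcases he with he | he <;> rcases m3 with m3 | m3 <;>
    rcases ta with ta | ta <;> rcases tb with tb | tb <;> rcases tc with tc | tc <;> linarith

end Vale.Agent.P107.LP
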