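import Vale.Agent.P107.MulD
import Vale.Agent.P107.LP5
import Vale.Agent.P107.CtxB
import Vale.Agent.P107.CritAux

/-! The two critical piece bounds and their sum over the source energy. -/

namespace Vale.Agent.P107

open MeasureTheory Set Filter Topology
open scoped ENNReal RealInnerProductSpace

noncomputable section

variable {θ τ N K p a b c R O : ℝ}

theorem rho0_pos (hτ : 0 < τ) (hN : 0 < N) (hp : 0 < p) (ha : 0 < a) (hb : 0 < b) (hc : 0 < c) :
    0 < rho0 τ N p a b c := by
  have hm : 0 < min b c := lt_min hb hc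
  unfold rho0
  positivity

theorem crB_log_mul {K x y : ℝ} (hx : 0 < x) (hK : 0 < K) (hy : 0 < y) (h : x ≤ K * y) :
    Real.log x ≤ Real.log K + Real.log y := by
  rw [← Real.log_mul hK.ne' hy.ne']
  exact Real.log_le_log hx h

theorem crB_log_sqrt {x : ℝ} (hx : 0 < x) : Real.log (√x) = Real.log x / 2 :=
  Real.log_sqrt hx.le

theorem crB_log_rho (hτ : 0 < τ) (hN : 0 < N) (hp : 0 < p) (ha : 0 < a) (hb : 0 < b)
    (hc : 0 < c) :
    2 * Real.log (rho0 τ N p a b c) = Real.log N - Real.log τ - 4 * Real.log p -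
      Real.log (min b c) - Real.log a - 3 / 2 * Real.log c := by
  have hm : 0 < min b c := lt_min hb hc
  have hs : 0 < √c := Real.sqrt_pos.2 hc
  unfold rho0
  rw [crB_log_sqrt (by positivity), Real.log_div hN.ne' (by positivity),
    Real.log_mul (by positivity) (by positivity), Real.log_mul (by positivity) ha.ne',
    Real.log_mul (by positivity) hm.ne', Real.log_mul hτ.ne' (by positivity),
    Real.log_mul hc.ne' hs.ne', crB_log_sqrt hc, Real.log_pow]
  push_cast
  ring

theorem crB_Cr (h : MCr θ τ N K p a b c R O) (hO : 0 < O) :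
    LP.Cr (Real.log θ) (Real.log τ) (Real.log N) (Real.log K) (Real.log p) (Real.log a)
      (Real.log b) (Real.log c) (Real.log R) (Real.log (min b c)) (Real.log O)
      (Real.log (rho0 τ N p a b c)) := by
  obtain ⟨K2, θ0, θ1, τ0, N0, p0, a0, b0, c0, R0, O0, a1, b1, c1, ta, tb, tc, nr, cap, kin, Rτ⟩ := h
  have hK : 0 < K := by linarith
  have hm : 0 < min b c := lt_min b0 c0
  have hs : 0 < √c := Real.sqrt_pos.2 c0
  refine ⟨Real.log_nonneg (by linarith), Real.log_nonpos θ0.le θ1, Real.log_le_log a0 a1,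
    Real.log_le_log b0 b1, Real.log_le_log c0 c1,
    ta.imp (crB_log_mul a0 hK b0) (crB_log_mul a0 hK c0),
    tb.imp (crB_log_mul b0 hK a0) (crB_log_mul b0 hK c0),
    tc.imp (crB_log_mul c0 hK a0) (crB_log_mul c0 hK b0),
    Real.log_le_log hm (min_le_left _ _), Real.log_le_log hm (min_le_right _ _),
    (min_choice b c).imp (fun e => by rw [e]) (fun e => by rw [e]), ?_, ?_, ?_,
    crB_log_rho τ0 N0 p0 a0 b0 c0⟩
  · have := crB_log_mul (by positivity) hK b0 nr
    rwa [Real.log_mul θ0.ne' a0.ne'] at this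
  · have := crB_log_mul hO hK (by positivity) cap
    rw [Real.log_mul τ0.ne' (by positivity), Real.log_mul (by positivity) (by positivity),
      Real.log_mul (by positivity) b0.ne', Real.log_mul (by positivity) a0.ne',
      Real.log_mul (by positivity) hm.ne', Real.log_pow, Real.log_pow] at this
    push_cast at this
    linarith
  · have := crB_log_mul hO hK (by positivity) kin
    rw [Real.log_div (by positivity) p0.ne', Real.log_mul (by positivity) N0.ne',
      Real.log_div (by positivity) (by positivity), Real.log_mul b0.ne' R0.ne',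
      Real.log_mul c0.ne' hs.ne', crB_log_sqrt c0] at this
    linarith

theorem crB_wt_pos (hθ : 0 < θ) (ha : 0 < a) (hb : 0 < b) (hc : 0 < c) : 0 < wt θ a b c := by
  have hm : 0 < min (b / (θ * a)) (θ * a / b) := lt_min (by positivity) (by positivity)
  unfold wt
  positivity

theorem crB_wt (hθ : 0 < θ) (ha : 0 < a) (hb : 0 < b) (hc : 0 < c) :
    ∃ w : ℝ, (w = Real.log b - Real.log θ - Real.log a ∨ w = Real.log θ + Real.log a - Real.log b) ∧
      Real.log (wt θ a b c) = (Real.log a + Real.log c) / 100 + w / 100 := by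
  have hm : 0 < min (b / (θ * a)) (θ * a / b) := lt_min (by positivity) (by positivity)
  refine ⟨Real.log (min (b / (θ * a)) (θ * a / b)), ?_, ?_⟩
  · rcases min_choice (b / (θ * a)) (θ * a / b) with e | e <;> rw [e]
    · left
      rw [Real.log_div hb.ne' (by positivity), Real.log_mul hθ.ne' ha.ne']
      ring
    · right
      rw [Real.log_div (by positivity) hb.ne', Real.log_mul hθ.ne' ha.ne']
  · unfold wt
    rw [Real.log_mul (by positivity) (by positivity), Real.log_rpow (by positivity),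
      Real.log_rpow hm, Real.log_mul ha.ne' hc.ne']
    ring

theorem crB_mn_pos {ρ : ℝ} (hR : 0 < R) (hρ : 0 < ρ) : 0 < mn R ρ :=
  lt_min (by positivity) (by positivity)

theorem crB_mn {ρ : ℝ} (hR : 0 < R) (hρ : 0 < ρ) :
    ∃ e : ℝ, (e = Real.log R - Real.log ρ ∨ e = Real.log ρ - Real.log R) ∧
      Real.log (mn R ρ) = e / 2 := by
  unfold mn
  rcases min_choice (√(R / ρ)) (√(ρ / R)) with e | e <;> rw [e]
  · exact ⟨_, Or.inl rfl, by rw [crB_log_sqrt (by positivity), Real.log_div hR.ne' hρ.ne']⟩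
  · exact ⟨_, Or.inr rfl, by rw [crB_log_sqrt (by positivity), Real.log_div hρ.ne' hR.ne']⟩

theorem crit_G (h : MCr θ τ N K p a b c R O) (h1 : b ≤ K * (θ * a)) (h6 : a ≤ K * c)
    (h7 : c ≤ K * a) :
    bG a b R * O ≤ K ^ 100 * (√τ * p * √N * wt θ a b c * mn R (rho0 τ N p a b c)) := by
  have hK : 0 < K := by linarith [h.K2]
  have θ0 := h.θ0
  have τ0 := h.τ0
  have N0 := h.N0
  have p0 := h.p0
  have a0 := h.a0
  have b0 := h.b0
  have c0 := h.c0
  have R0 := h.R0
  have hρ := rho0_pos τ0 N0 p0 a0 b0 c0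
  have hw0 := crB_wt_pos θ0 a0 b0 c0
  have hm0 := crB_mn_pos R0 hρ
  rcases h.O0.eq_or_lt with hO | hO
  · rw [← hO, mul_zero]
    positivity
  obtain ⟨w, hw, ew⟩ := crB_wt θ0 a0 b0 c0
  obtain ⟨e, he, ee⟩ := crB_mn R0 hρ
  have g1 := crB_log_mul b0 hK (by positivity) h1
  rw [Real.log_mul θ0.ne' a0.ne'] at g1
  have key := LP.cG (crB_Cr h hO) (by linarith) (crB_log_mul a0 hK c0 h6)
    (crB_log_mul c0 hK a0 h7) hw he
  unfold bG
  rw [← Real.log_le_log_iff (by positivity) (by positivity),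
    Real.log_mul (by positivity) hO.ne', Real.log_div (by positivity) (by positivity),
    Real.log_mul (by positivity) (by positivity), Real.log_mul b0.ne' (by positivity),
    Real.log_mul (by positivity) (by positivity), Real.log_mul (by positivity) hm0.ne',
    Real.log_mul (by positivity) hw0.ne', Real.log_mul (by positivity) (by positivity),
    Real.log_mul (by positivity) p0.ne', crB_log_sqrt a0, crB_log_sqrt b0, crB_log_sqrt τ0,
    crB_log_sqrt N0, Real.log_pow, Real.log_pow, ew, ee]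
  push_cast
  linarith

theorem crB_log_bS (hp : 0 < p) (ha : 0 < a) (hb : 0 < b) (hc : 0 < c) (hR : 0 < R)
    (hO : 0 < O) :
    Real.log (bS p a b R * √(O * b * p ^ 3 * min b c)) =
      (Real.log O + Real.log p + Real.log (min b c) + Real.log a) / 2 - 3 / 2 * Real.log b -
        Real.log R := by
  have hm : 0 < min b c := lt_min hb hc
  unfold bS
  rw [Real.log_mul (by positivity) (by positivity), Real.log_div (by positivity) (by positivity),
    Real.log_mul (by positivity) hR.ne', Real.log_mul hp.ne' (by positivity), crB_log_sqrt ha,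
    crB_log_sqrt (by positivity), Real.log_mul (by positivity) hm.ne',
    Real.log_mul (by positivity) (by positivity), Real.log_mul hO.ne' hb.ne', Real.log_pow,
    Real.log_pow]
  push_cast
  ring

theorem crit_S (h : MCr θ τ N K p a b c R O) :
    bS p a b R * mF τ p a b c R O ≤
      K ^ 101 * (θ ^ (-1 / 3 : ℝ) * τ ^ (3 / 4 : ℝ) * p * N ^ (1 / 4 : ℝ) * wt θ a b c *
        mn R (rho0 τ N p a b c)) := by
  have K2 := h.K2
  have hK : 0 < K := by linarith
  have θ0 := h.θ0
  have τ0 := h.τ0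
  have N0 := h.N0
  have p0 := h.p0
  have a0 := h.a0
  have b0 := h.b0
  have c0 := h.c0
  have R0 := h.R0
  have hρ := rho0_pos τ0 N0 p0 a0 b0 c0
  have hw0 := crB_wt_pos θ0 a0 b0 c0
  have hm0 := crB_mn_pos R0 hρ
  rcases h.O0.eq_or_lt with hO | hO
  · unfold mF
    rw [← hO, zero_mul, zero_mul, zero_mul, Real.sqrt_zero, zero_mul, mul_zero]
    positivity
  obtain ⟨w, hw, ew⟩ := crB_wt θ0 a0 b0 c0
  obtain ⟨e, he, ee⟩ := crB_mn R0 hρ
  have hs : Real.log (τ + R) ≤ Real.log K + Real.log τ :=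
    crB_log_mul (by positivity) hK τ0 (by nlinarith [h.Rτ])
  have k1 := LP.cSg (crB_Cr h hO) hw he
  have k2 := LP.cSb (crB_Cr h hO) hs hw he
  have hm : 0 < min b c := lt_min b0 c0
  have hX : 0 < bS p a b R * √(O * b * p ^ 3 * min b c) := by
    unfold bS
    positivity
  have eX := crB_log_bS p0 a0 b0 c0 R0 hO
  have hY : 0 < θ ^ (-1 / 3 : ℝ) * τ ^ (3 / 4 : ℝ) * p * N ^ (1 / 4 : ℝ) * wt θ a b c *
      mn R (rho0 τ N p a b c) := by positivity
  have eY : Real.log (K ^ 100 * (θ ^ (-1 / 3 : ℝ) * τ ^ (3 / 4 : ℝ) * p * N ^ (1 / 4 : ℝ) *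
      wt θ a b c * mn R (rho0 τ N p a b c))) = -Real.log θ / 3 + 3 / 4 * Real.log τ + Real.log p +
        Real.log N / 4 + (Real.log a + Real.log c) / 100 + w / 100 + e / 2 + 100 * Real.log K := by
    rw [Real.log_mul (by positivity) hY.ne', Real.log_mul (by positivity) hm0.ne',
      Real.log_mul (by positivity) hw0.ne', Real.log_mul (by positivity) (by positivity),
      Real.log_mul (by positivity) p0.ne', Real.log_mul (by positivity) (by positivity),
      Real.log_rpow θ0, Real.log_rpow τ0, Real.log_rpow N0, Real.log_pow, ew, ee]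
    push_cast
    ring
  unfold mF
  generalize θ ^ (-1 / 3 : ℝ) * τ ^ (3 / 4 : ℝ) * p * N ^ (1 / 4 : ℝ) * wt θ a b c *
    mn R (rho0 τ N p a b c) = Y at hY eY ⊢
  rw [← mul_assoc]
  generalize bS p a b R * √(O * b * p ^ 3 * min b c) = X at hX eX ⊢
  have g1 : X * √τ ≤ K ^ 100 * Y := by
    rw [← Real.log_le_log_iff (by positivity) (by positivity), eY,
      Real.log_mul hX.ne' (by positivity), eX, crB_log_sqrt τ0]
    linarith
  have g2 : X * √(b * (τ + R) / a) ≤ K ^ 100 * Y := by
    rw [← Real.log_le_log_iff (by positivity) (by positivity), eY,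
      Real.log_mul hX.ne' (by positivity), eX, crB_log_sqrt (by positivity),
      Real.log_div (by positivity) a0.ne', Real.log_mul b0.ne' (by positivity)]
    linarith
  have hZ : 0 < K ^ 100 * Y := by positivity
  calc X * (√τ + √(b * (τ + R) / a)) = X * √τ + X * √(b * (τ + R) / a) := mul_add _ _ _
    _ ≤ 2 * (K ^ 100 * Y) := by linarith
    _ ≤ K * (K ^ 100 * Y) := by gcongr
    _ = K ^ 101 * Y := by rw [pow_succ K 100]; ring

theorem crB_uu_pos {c0 P Q : ℝ} (hc : 0 < c0) (hP : 1 ≤ P) (hQ : 0 < Q) : 0 < uu c0 P Q := by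
  have hL : 0 ≤ Real.log P := Real.log_nonneg hP
  have hP0 : 0 < P := by linarith
  unfold uu
  positivity

theorem gg_nonneg {c0 P Q p : ℝ} (hc : 0 < c0) (hP : 1 ≤ P) (hQ : 0 < Q) (hp : 0 < p) :
    0 ≤ gg c0 P Q p := by
  have h1 := crB_uu_pos hc hP hQ
  have h2 := crB_uu_pos hc hP hp
  have hP0 : 0 < P := by linarith
  unfold gg
  positivity

theorem gg_sum : ∃ C : ℝ, 1 ≤ C ∧ ∀ (c0 P Q : ℝ) (n : ℕ), 0 < c0 → c0 ≤ 1 → 1 ≤ P →
    1 ≤ Real.log P → 0 < Q → Q ≤ P → (2 : ℝ) ^ n ≤ P →
    ∑ i ∈ Finset.range (n + 1), gg c0 P Q (2 ^ i) ≤ C * √c0 * Q := by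
  refine ⟨67, by norm_num, fun c0 P Q n hc hc1 hP hL hQ _ hn => ?_⟩
  have hP0 : 0 < P := by linarith
  have hL0 : 0 < Real.log P := by linarith
  have hsP : 0 < √P := Real.sqrt_pos.2 hP0
  have hpt : ∀ i ∈ Finset.range (n + 1), gg c0 P Q (2 ^ i) ≤
      √c0 * Q * (12 / P * 2 ^ i + 1 / Real.log P + 10 / √P * √(2 ^ i)) := by
    intro i hi
    have hi' : i ≤ n := Nat.lt_succ_iff.1 (Finset.mem_range.1 hi)
    have hp : (0 : ℝ) < 2 ^ i := by positivity
    have hpP : (2 : ℝ) ^ i ≤ P := (pow_le_pow_right₀ (by norm_num) hi').trans hn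
    have g1 := crA_one (τ := uu c0 P Q) (u := uu c0 P (2 ^ i)) hc hP hL hQ hp rfl rfl
    have g2 := crA_two (τ := uu c0 P Q) (u := uu c0 P (2 ^ i)) hc hc1 hP hL hQ hp hpP rfl rfl
    unfold gg
    refine (add_le_add g1 g2).trans (le_of_eq ?_)
    ring
  refine (Finset.sum_le_sum hpt).trans ?_
  rw [← Finset.mul_sum, Finset.sum_add_distrib, Finset.sum_add_distrib, ← Finset.mul_sum,
    ← Finset.mul_sum, Finset.sum_const, Finset.card_range, nsmul_eq_mul]
  have s1 : 12 / P * ∑ i ∈ Finset.range (n + 1), (2 : ℝ) ^ i ≤ 24 := by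
    calc 12 / P * ∑ i ∈ Finset.range (n + 1), (2 : ℝ) ^ i ≤ 12 / P * (2 * P) := by
          gcongr
          linarith [crA_sum_two n]
      _ = 24 := by field_simp; norm_num
  have s2 : ((n + 1 : ℕ) : ℝ) * (1 / Real.log P) ≤ 3 := by
    rw [mul_one_div, div_le_iff₀ hL0]
    push_cast
    exact crA_card hL hn
  have s3 : 10 / √P * ∑ i ∈ Finset.range (n + 1), √((2 : ℝ) ^ i) ≤ 40 := by
    calc 10 / √P * ∑ i ∈ Finset.range (n + 1), √((2 : ℝ) ^ i) ≤ 10 / √P * (4 * √P) := by
          gcongr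
          linarith [crA_sum_sqrt n, Real.sqrt_le_sqrt hn]
      _ = 40 := by field_simp; norm_num
  calc _ ≤ √c0 * Q * 67 := by
        gcongr
        linarith
    _ = _ := by ring

end

end Vale.Agent.P107
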