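import Vale.Agent.P107.OpA

/-! Charge and current of the transported density. -/

namespace Vale.Agent.P107

open MeasureTheory Set Filter Topology
open scoped ENNReal RealInnerProductSpace

noncomputable section

variable {Λ M1 l1 M2 l2 : ℝ} {G : ST → Z}

theorem Cl.cur_supp (h : Cl Λ M1 l1 M2 l2 G) (d : Dat) (t : ℝ) : ∃ P : ℝ, ∀ s, s ≤ t → ∀ w : Z,
    den d G s w ≠ 0 → ‖w.2‖ ≤ P ∧ ‖w.1‖ ≤ d.R0 + |s| := by
  refine ⟨d.P0 + 2 * Λ * max t 0, fun s hs w hw => ?_⟩
  have h1 := h.den_supp (h.bd d (le_max_right t 0)) (hs.trans (le_max_left t 0)) hw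
  exact ⟨(norm_lt_q _).le.trans h1.1, h1.2⟩

theorem cur_cont_u : Continuous (fun v : V => (((1 : ℝ), vel v) : ST)) :=
  continuous_const.prodMk contDiff_vel.continuous

theorem Cl.cur_cont (h : Cl Λ M1 l1 M2 l2 G) (d : Dat) :
    Continuous (fun x : ST × V => den d G x.1.1 (x.1.2, x.2)) :=
  (h.continuous_den d).comp
    (continuous_fst.fst.prodMk (continuous_fst.snd.prodMk continuous_snd))

theorem Cl.cur_int (h : Cl Λ M1 l1 M2 l2 G) (d : Dat) (p : ST) {F : Type} [NormedAddCommGroup F]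
    [NormedSpace ℝ F] {g : V → F} (hg : Continuous g) :
    Integrable (fun v => den d G p.1 (p.2, v) • g v) := by
  obtain ⟨P, hP⟩ := h.cur_supp d p.1
  have hc : Continuous (fun v : V => den d G p.1 (p.2, v)) :=
    (h.cur_cont d).comp (continuous_const.prodMk continuous_id)
  refine (hc.smul hg).integrable_of_hasCompactSupport ?_
  refine HasCompactSupport.intro (isCompact_closedBall (0 : V) P) fun v hv => ?_
  have h0 : den d G p.1 (p.2, v) = 0 := by
    by_contra h1
    exact hv (mem_closedBall_zero_iff.2 (hP p.1 le_rfl _ h1).1)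
  change den d G p.1 (p.2, v) • g v = 0
  rw [h0, zero_smul]

theorem Cl.Jc_eq (h : Cl Λ M1 l1 M2 l2 G) (d : Dat) (p : ST) :
    Jc d G p = ∫ v, den d G p.1 (p.2, v) • (((1 : ℝ), vel v) : ST) := by
  have h1 := h.cur_int d p (g := fun _ => (1 : ℝ)) continuous_const
  have h2 := h.cur_int d p contDiff_vel.continuous
  simp only [smul_eq_mul, mul_one] at h1
  rw [Jc, ← integral_pair h1 h2]
  simp only [Prod.smul_mk, smul_eq_mul, mul_one]

theorem Cl.continuous_Jc (h : Cl Λ M1 l1 M2 l2 G) (d : Dat) : Continuous (Jc d G) := by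
  rw [show Jc d G = _ from funext (h.Jc_eq d)]
  refine continuous_iff_continuousAt.2 fun p₀ => ?_
  obtain ⟨P, hP⟩ := h.cur_supp d (p₀.1 + 1)
  have ho : {p : ST | p.1 < p₀.1 + 1} ∈ 𝓝 p₀ :=
    (isOpen_lt continuous_fst continuous_const).mem_nhds (lt_add_one p₀.1)
  refine ContinuousOn.continuousAt ?_ ho
  refine continuousOn_integral_of_compact_support
    (f := fun (p : ST) (v : V) => den d G p.1 (p.2, v) • (((1 : ℝ), vel v) : ST))
    (isCompact_closedBall (0 : V) P) ?_ fun p v hp hv => ?_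
  · exact ((h.cur_cont d).smul (cur_cont_u.comp continuous_snd)).continuousOn
  · have h0 : den d G p.1 (p.2, v) = 0 := by
      by_contra h1
      exact hv (mem_closedBall_zero_iff.2 (hP p.1 (le_of_lt hp) _ h1).1)
    rw [h0, zero_smul]

theorem cur_ex (d : Dat) (G : ST → Z) {p : ST} (hp : Jc d G p ≠ 0) :
    ∃ v, den d G p.1 (p.2, v) ≠ 0 := by
  by_contra hc
  push Not at hc
  apply hp
  simp [Jc, hc]

theorem PS_Jc (d : Dat) (G : ST → Z) : PS (Jc d G) := by
  have h1 := d.hP
  have h2 : 1 ≤ 2 * d.P0 ^ 2 := by nlinarith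
  refine ⟨d.R0, (2 * d.P0 ^ 2)⁻¹, by positivity, inv_le_one_of_one_le₀ h2,
    zero_le_one.trans d.hR, fun p hp => ?_⟩
  obtain ⟨v, hv⟩ := cur_ex d G hp
  rcases le_total p.1 0 with h0 | h0
  · exact Or.inr (den_supp_past d G h0 hv).2.2
  · exact Or.inl (by linarith [d.hR])

theorem Cl.Jc_supp (h : Cl Λ M1 l1 M2 l2 G) (d : Dat) {p : ST} (hp : Jc d G p ≠ 0) :
    ‖p.2‖ ≤ d.R0 + |p.1| := by
  obtain ⟨v, hv⟩ := cur_ex d G hp
  obtain ⟨P, hP⟩ := h.cur_supp d p.1
  exact (hP p.1 le_rfl _ hv).2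

theorem Jc_zero (d : Dat) (G : ST → Z) (x : V) : (Jc d G (0, x)).1 = ∫ v, d.f (x, v) := by
  simp only [Jc, den, bk_zero]

/-- Pairing of the four-current at time `s` with a continuous covector field. -/
theorem Cl.int_Jc (h : Cl Λ M1 l1 M2 l2 G) (d : Dat) (s : ℝ) {A : V → ST →L[ℝ] ℝ}
    (hA : Continuous A) :
    ∫ x, A x (Jc d G (s, x)) =
      4 * Real.pi * ∫ z, A (trY G z s) (1, vel (trW G z s)) ∂d.ν := by
  have hΦ : Continuous (fun w : Z => A w.1 (1, vel w.2)) :=
    (hA.comp continuous_fst).clm_apply (cur_cont_u.comp continuous_snd)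
  have h1 := h.int_slice d s hΦ
  have h2 : ∀ x, A x (Jc d G (s, x)) = ∫ v, den d G s (x, v) * A x (1, vel v) := by
    intro x
    rw [h.Jc_eq d, ← ContinuousLinearMap.integral_comp_comm _ (h.cur_int d (s, x) cur_cont_u)]
    simp only [map_smul, smul_eq_mul]
  have hc : Continuous (fun w : Z => den d G s w) :=
    (h.continuous_den d).comp (continuous_const.prodMk continuous_id)
  have h3 : Integrable (fun w : Z => den d G s w * A w.1 (1, vel w.2))
      ((volume : Measure V).prod volume) := by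
    obtain ⟨P, hP⟩ := h.cur_supp d s
    refine (hc.mul hΦ).integrable_of_hasCompactSupport ?_
    refine HasCompactSupport.intro
      ((isCompact_closedBall (0 : V) (d.R0 + |s|)).prod (isCompact_closedBall (0 : V) P))
      fun w hw => ?_
    have h0 : den d G s w = 0 := by
      by_contra h1
      exact hw ⟨mem_closedBall_zero_iff.2 (hP s le_rfl _ h1).2,
        mem_closedBall_zero_iff.2 (hP s le_rfl _ h1).1⟩
    change den d G s w * A w.1 (1, vel w.2) = 0
    rw [h0, zero_mul]
  have h4 := integral_prod _ h3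
  simp only [h2]
  change _ = 4 * Real.pi * ∫ z, A (tr G z s).1 (1, vel (tr G z s).2) ∂d.ν
  rw [h1, ← h4, ← integral_const_mul, Measure.volume_eq_prod]
  refine integral_congr_ae (Eventually.of_forall fun w => ?_)
  have := Real.pi_pos
  simp only [smul_eq_mul]
  field_simp

theorem cur_line {Y W : ℝ → V} (hT : Tm Y W) {ψ : ST → ℝ} (hψ : ContDiff ℝ 1 ψ) {R : ℝ}
    (hR : ∀ p : ST, p.1 ∉ Icc (-R) R → ψ p = 0 ∧ fderiv ℝ ψ p = 0) :
    ∫ s, fderiv ℝ ψ (s, Y s) (1, vel (W s)) = 0 := by
  have hc : Continuous (fun s : ℝ => ((s, Y s) : ST)) := continuous_id.prodMk hT.ret_cont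
  refine integral_eq_zero_of_hasDerivAt_of_integrable (f := fun s => ψ (s, Y s)) (fun s => ?_) ?_ ?_
  · have h1 : HasDerivAt (fun s => ((s, Y s) : ST)) (1, vel (W s)) s :=
      (hasDerivAt_id s).prodMk (hT.hY s)
    exact HasFDerivAt.comp_hasDerivAt (f := fun s => ((s, Y s) : ST)) (l := ψ) s
      (hψ.differentiable one_ne_zero (s, Y s)).hasFDerivAt h1
  · refine Continuous.integrable_of_hasCompactSupport
      (((hψ.continuous_fderiv one_ne_zero).comp hc).clm_apply (cur_cont_u.comp hT.cW)) ?_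
    refine HasCompactSupport.intro (isCompact_Icc (a := -R) (b := R)) fun s hs => ?_
    rw [(hR (s, Y s) hs).2, zero_apply]
  · refine Continuous.integrable_of_hasCompactSupport (hψ.continuous.comp hc) ?_
    exact HasCompactSupport.intro (isCompact_Icc (a := -R) (b := R)) fun s hs => (hR (s, Y s) hs).1

theorem Cl.wdiv (h : Cl Λ M1 l1 M2 l2 G) (d : Dat) : WDiv (Jc d G) := by
  intro ψ hψ hs
  have hD : Continuous (fderiv ℝ ψ) := hψ.continuous_fderiv one_ne_zero
  have hDs : HasCompactSupport (fderiv ℝ ψ) := hs.fderiv ℝ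
  obtain ⟨R, hR0⟩ := hs.isCompact.isBounded.subset_closedBall 0
  have hR : ∀ p : ST, p.1 ∉ Icc (-R) R → ψ p = 0 ∧ fderiv ℝ ψ p = 0 := by
    intro p hp
    have h1 : p ∉ tsupport ψ := fun h2 => hp (abs_le.1
      ((norm_fst_le p).trans (mem_closedBall_zero_iff.1 (hR0 h2))))
    exact ⟨image_eq_zero_of_notMem_tsupport h1,
      image_eq_zero_of_notMem_tsupport fun h2 => h1 (tsupport_fderiv_subset ℝ h2)⟩
  obtain ⟨C, hC⟩ := hD.bounded_above_of_compact_support hDs
  have h1 : Integrable (fun p : ST => fderiv ℝ ψ p (Jc d G p))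
      ((volume : Measure ℝ).prod (volume : Measure V)) := by
    refine (hD.clm_apply (h.continuous_Jc d)).integrable_of_hasCompactSupport ?_
    refine HasCompactSupport.intro hDs.isCompact fun p hp => ?_
    rw [image_eq_zero_of_notMem_tsupport hp, zero_apply]
  have h2 : ∀ s, ∫ x, fderiv ℝ ψ (s, x) (Jc d G (s, x)) =
      4 * Real.pi * ∫ z, fderiv ℝ ψ (s, trY G z s) (1, vel (trW G z s)) ∂d.ν := fun s =>
    h.int_Jc d s (A := fun x => fderiv ℝ ψ (s, x)) (hD.comp (continuous_const.prodMk continuous_id))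
  have htr : Continuous (fun x : ℝ × Z => tr G x.2 x.1) :=
    h.continuous_tr.comp (continuous_snd.prodMk continuous_fst)
  have hF : Continuous (fun x : ℝ × Z =>
      fderiv ℝ ψ (x.1, trY G x.2 x.1) (1, vel (trW G x.2 x.1))) :=
    (hD.comp (continuous_fst.prodMk htr.fst)).clm_apply (cur_cont_u.comp htr.snd)
  have h3 : Integrable (fun x : ℝ × Z => fderiv ℝ ψ (x.1, trY G x.2 x.1) (1, vel (trW G x.2 x.1)))
      ((volume : Measure ℝ).prod d.ν) := by
    refine IntegrableOn.integrable_of_forall_notMem_eq_zero (s := Icc (-R) R ×ˢ univ) ?_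
      fun x hx => ?_
    · refine Measure.integrableOn_of_bounded (M := C) ?_ hF.aestronglyMeasurable
        (Eventually.of_forall fun x => ?_)
      · rw [Measure.prod_prod]
        exact ENNReal.mul_ne_top measure_Icc_lt_top.ne (measure_ne_top _ _)
      · refine (ContinuousLinearMap.le_opNorm _ _).trans ?_
        have h4 : ‖(((1 : ℝ), vel (trW G x.2 x.1)) : ST)‖ ≤ 1 := by
          rw [Prod.norm_mk, norm_one]
          exact max_le le_rfl (norm_vel_lt _).le
        exact (mul_le_of_le_one_right (norm_nonneg _) h4).trans (hC _)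
    · rw [(hR (x.1, trY G x.2 x.1) fun h5 => hx ⟨h5, mem_univ _⟩).2,
        zero_apply]
  rw [Measure.volume_eq_prod, integral_prod _ h1]
  simp only [h2]
  rw [integral_const_mul, integral_integral_swap h3]
  simp only [cur_line (h.tm _) hψ hR, integral_zero, mul_zero]

theorem Cl.rp_Jc (h : Cl Λ M1 l1 M2 l2 G) (d : Dat) (p : ST) : rp (Jc d G) p = pot d G p := by
  have hΦ : StronglyMeasurable (fun w : Z => lw w.2 w.1) :=
    (measurable_lw.comp measurable_swap).stronglyMeasurable
  obtain ⟨h1, h2⟩ := h.int_cone d p hΦ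
  have h3 := h2.1 (h.integrable_lw d p)
  rw [Measure.volume_eq_prod] at h3
  rw [pot, h1, Measure.volume_eq_prod, integral_prod _ h3, rp]
  refine integral_congr_ae (Eventually.of_forall fun y => ?_)
  simp only
  rw [h.Jc_eq d, ← integral_smul]
  refine integral_congr_ae (Eventually.of_forall fun v => ?_)
  have h4 := (ang_vel_pos v (norm_nrm_le y)).ne'
  have h5 := Real.pi_pos.ne'
  simp only [cw, lw, smul_smul, al_eq, mul_inv]
  congr 1
  generalize ‖y‖⁻¹ = a
  field_simp

end

end Vale.Agent.P107
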