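import Vale.Agent.P107.SBF

/-! The weighted energy identity for the fields. -/

namespace Vale.Agent.P107

open MeasureTheory Set Filter Topology
open scoped ENNReal RealInnerProductSpace

noncomputable section

theorem en_nonneg (a : Z) : 0 ≤ en a := by
  unfold en
  positivity

theorem norm_poy_le (a : Z) : ‖(poy a).2‖ ≤ (poy a).1 := by
  have h1 := norm_cross_le a.1 a.2
  show ‖cross a.1 a.2‖ ≤ (‖a.1‖ ^ 2 + ‖a.2‖ ^ 2) / 2
  nlinarith [sq_nonneg (‖a.1‖ - ‖a.2‖)]

theorem flux_le (a : Z) {n : V} (hn : ‖n‖ = 1) :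
    ‖a.1 + cross n a.2‖ ^ 2 ≤ 2 * (en a - ⟪n, cross a.1 a.2⟫) := by
  have h1 : ⟪a.1, cross n a.2⟫ = -⟪n, cross a.1 a.2⟫ := by
    simp only [inner3, cross, mk3_0, mk3_1, mk3_2]
    ring
  have h2 := norm_cross_sq n a.2
  rw [hn] at h2
  rw [norm_add_sq_real, h1, h2, en]
  nlinarith [sq_nonneg ⟪n, a.2⟫]

private def enerB : V →L[ℝ] V →L[ℝ] V :=
  LinearMap.mkContinuous₂
    (LinearMap.mk₂ ℝ cross cross_add_left cross_smul_left cross_add_right cross_smul_right) 1
    (fun a b => by simpa using norm_cross_le a b)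

private theorem ener_fderiv_poy {H : ST → Z} {p : ST} (hd : DifferentiableAt ℝ H p) (e : ST) :
    fderiv ℝ (fun p => poy (H p)) p e =
      (⟪(H p).1, (fderiv ℝ H p e).1⟫ + ⟪(H p).2, (fderiv ℝ H p e).2⟫,
        cross (H p).1 (fderiv ℝ H p e).2 + cross (fderiv ℝ H p e).1 (H p).2) := by
  have h1 := hd.hasFDerivAt.fst
  have h2 := hd.hasFDerivAt.snd
  have h3 := ((h1.norm_sq.add h2.norm_sq).mul_const (2 : ℝ)⁻¹).prodMk
    (enerB.hasFDerivAt_of_bilinear h1 h2)
  have h4 : (fun p => poy (H p)) = fun p => ((‖(H p).1‖ ^ 2 + ‖(H p).2‖ ^ 2) * (2 : ℝ)⁻¹,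
      enerB (H p).1 (H p).2) := by
    funext p
    rw [poy, en, div_eq_mul_inv]
    rfl
  have h5 : fderiv ℝ (fun p => ((‖(H p).1‖ ^ 2 + ‖(H p).2‖ ^ 2) * (2 : ℝ)⁻¹,
      enerB (H p).1 (H p).2)) p = _ := h3.fderiv
  rw [h4, h5]
  refine Prod.ext ?_ rfl
  simp only [ContinuousLinearMap.prod_apply, _root_.smul_apply,
    _root_.add_apply, ContinuousLinearMap.comp_apply, ContinuousLinearMap.coe_fst',
    ContinuousLinearMap.coe_snd', innerSL_apply_apply, smul_eq_mul, nsmul_eq_mul]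
  push_cast
  ring

private theorem ener_contDiff_poy : ContDiff ℝ 1 poy := by
  have h1 : ContDiff ℝ 1 (fun a : Z => (‖a.1‖ ^ 2 + ‖a.2‖ ^ 2) / 2) :=
    ((contDiff_fst.norm_sq ℝ).add (contDiff_snd.norm_sq ℝ)).div_const 2
  exact h1.prodMk (contDiff_cross.of_le (by exact_mod_cast le_top))

/-- Poynting's theorem at a point. -/
theorem poynting {H : ST → Z} {J p : ST} (hd : DifferentiableAt ℝ H p)
    (h : MxD (fderiv ℝ H p) J) :
    (fderiv ℝ (fun p => poy (H p)) p e0).1 + dv (fun e => (fderiv ℝ (fun p => poy (H p)) p e).2) =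
      -⟪J.2, (H p).1⟫ := by
  have a0 := congrArg (fun v : V => v 0) h.amp
  have a1 := congrArg (fun v : V => v 1) h.amp
  have a2 := congrArg (fun v : V => v 2) h.amp
  have f0 := congrArg (fun v : V => v 0) h.far
  have f1 := congrArg (fun v : V => v 1) h.far
  have f2 := congrArg (fun v : V => v 2) h.far
  simp only [cu, PiLp.sub_apply, PiLp.add_apply, PiLp.neg_apply, PiLp.zero_apply, mk3_0, mk3_1,
    mk3_2] at a0 a1 a2 f0 f1 f2
  simp only [ener_fderiv_poy hd, dv, Fin.sum_univ_three, inner3, cross, PiLp.add_apply, mk3_0,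
    mk3_1, mk3_2]
  linear_combination (H p).1 0 * a0 + (H p).1 1 * a1 + (H p).1 2 * a2 + (H p).2 0 * f0 +
    (H p).2 1 * f1 + (H p).2 2 * f2

private theorem ener_fderiv_zero {F : Type} [NormedAddCommGroup F] [NormedSpace ℝ F] {X : ST → F}
    {R : ℝ} (h : ∀ p : ST, R + |p.1| < ‖p.2‖ → X p = 0) (p : ST) (hp : R + |p.1| < ‖p.2‖) :
    fderiv ℝ X p = 0 := by
  have h1 : IsOpen {p : ST | R + |p.1| < ‖p.2‖} :=
    isOpen_lt (continuous_const.add continuous_fst.abs) continuous_snd.norm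
  have h2 : X =ᶠ[𝓝 p] fun _ => 0 := by
    filter_upwards [h1.mem_nhds hp] with p' hp' using h p' hp'
  rw [h2.fderiv_eq, fderiv_const_apply]

/-- Continuous functions that vanish outside a double cone. -/
private def EnerS (R : ℝ) (φ : ST → ℝ) : Prop :=
  Continuous φ ∧ ∀ p : ST, R + |p.1| < ‖p.2‖ → φ p = 0

private theorem EnerS.int {R : ℝ} {φ : ST → ℝ} (h : EnerS R φ) (t : ℝ) :
    Integrable (fun x : V => φ (t, x)) := by
  refine (h.1.comp (continuous_const.prodMk continuous_id)).integrable_of_hasCompactSupport ?_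
  refine HasCompactSupport.intro (isCompact_closedBall (0 : V) (R + |t|)) fun x hx => ?_
  rw [mem_closedBall_zero_iff, not_le] at hx
  exact h.2 (t, x) hx

private theorem EnerS.int2 {R : ℝ} {φ : ST → ℝ} (h : EnerS R φ) {s : ℝ} (hs : 0 ≤ s) :
    Integrable (Function.uncurry fun (t : ℝ) (x : V) => φ (t, x))
      ((volume.restrict (uIoc 0 s)).prod volume) := by
  rw [Measure.restrict_prod_eq_prod_univ, uIoc_of_le hs]
  have h1 : IntegrableOn φ (Icc 0 s ×ˢ Metric.closedBall (0 : V) (R + s))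
      ((volume : Measure ℝ).prod volume) :=
    h.1.continuousOn.integrableOn_compact (isCompact_Icc.prod (isCompact_closedBall _ _))
  refine h1.of_forall_sdiff_eq_zero (measurableSet_Ioc.prod MeasurableSet.univ) fun p hp => ?_
  have h2 := hp.1.1
  refine h.2 p ?_
  by_contra h0
  refine hp.2 ⟨Ioc_subset_Icc_self h2, mem_closedBall_zero_iff.2 ?_⟩
  rw [abs_of_pos h2.1, not_lt] at h0
  linarith [h2.2]

private theorem EnerS.int3 {R : ℝ} {φ : ST → ℝ} (h : EnerS R φ) {s : ℝ} (hs : 0 ≤ s) :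
    IntervalIntegrable (fun t => ∫ x : V, φ (t, x)) volume 0 s :=
  intervalIntegrable_iff.2 (h.int2 hs).integral_prod_left

private theorem ener_div {u u' : V → ℝ} {v : V} (h' : Integrable u') (h : Integrable u)
    (hd : ∀ x, HasLineDerivAt ℝ u (u' x) x v) : ∫ x, u' x = 0 := by
  have := integral_bilinear_hasLineDerivAt_right_eq_neg_left_of_integrable (μ := volume)
    (f := fun _ : V => (1 : ℝ)) (f' := fun _ => 0) (g := u) (g' := u') (v := v)
    (B := ContinuousLinearMap.mul ℝ ℝ) (by simp) (by simpa using h') (by simpa using h)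
    (fun x _ => (hasFDerivAt_const (1 : ℝ) x).hasLineDerivAt v) (fun x _ => hd x)
  simpa using this

theorem MxS.energy {H : ST → Z} {J : ST → ST} (h : MxS H J) {g : ST → ℝ} (hg : ContDiff ℝ 1 g)
    {R : ℝ} (hR : ∀ p, g p ≠ 0 → ‖p.2‖ ≤ R + |p.1|) {s : ℝ} (hs : 0 ≤ s) :
    (∫ x, g (s, x) * en (H (s, x))) - ∫ x, g (0, x) * en (H (0, x)) =
      (∫ t in (0 : ℝ)..s, ∫ x, fderiv ℝ g (t, x) (poy (H (t, x)))) -
        ∫ t in (0 : ℝ)..s, ∫ x, g (t, x) * ⟪(J (t, x)).2, (H (t, x)).1⟫ := by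
  have hP : ContDiff ℝ 1 (fun p => poy (H p)) := ener_contDiff_poy.comp h.c1
  obtain ⟨X, hXd⟩ : ∃ X : ST → ST, X = fun p => g p • poy (H p) := ⟨_, rfl⟩
  have hX : ContDiff ℝ 1 X := hXd ▸ hg.smul hP
  have hgz : ∀ p : ST, R + |p.1| < ‖p.2‖ → g p = 0 := fun p hp => by
    by_contra h0
    exact absurd (hR p h0) (not_le.2 hp)
  have hXz : ∀ p : ST, R + |p.1| < ‖p.2‖ → X p = 0 := fun p hp => by
    simp only [hXd, hgz p hp, zero_smul]
  have dX : Differentiable ℝ X := hX.differentiable one_ne_zero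
  have cX : Continuous (fderiv ℝ X) := hX.continuous_fderiv one_ne_zero
  have cg : Continuous (fderiv ℝ g) := hg.continuous_fderiv one_ne_zero
  have zX := ener_fderiv_zero hXz
  have zg := ener_fderiv_zero hgz
  have sA : EnerS R (fun p => (fderiv ℝ X p e0).1) :=
    ⟨(cX.clm_apply continuous_const).fst, fun p hp => by simp [zX p hp]⟩
  have sB : ∀ i : Fin 3, EnerS R (fun p => (fderiv ℝ X p (ei i)).2 i) := fun i =>
    ⟨(EuclideanSpace.proj i : V →L[ℝ] ℝ).continuous.comp (cX.clm_apply continuous_const).snd,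
      fun p hp => by simp [zX p hp]⟩
  have sC : EnerS R (fun p => fderiv ℝ g p (poy (H p))) :=
    ⟨cg.clm_apply hP.continuous, fun p hp => by simp [zg p hp]⟩
  have sD : EnerS R (fun p => g p * ⟪(J p).2, (H p).1⟫) :=
    ⟨hg.continuous.mul (h.cJ.snd.inner h.c1.continuous.fst), fun p hp => by simp [hgz p hp]⟩
  have sE : EnerS R (fun p => (X p).1) :=
    ⟨hX.continuous.fst, fun p hp => by simp [hXz p hp]⟩
  have sF : ∀ i : Fin 3, EnerS R (fun p => (X p).2 i) := fun i =>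
    ⟨(EuclideanSpace.proj i : V →L[ℝ] ℝ).continuous.comp hX.continuous.snd,
      fun p hp => by simp [hXz p hp]⟩
  have key : ∀ p : ST, 0 ≤ p.1 → (fderiv ℝ X p e0).1 =
      fderiv ℝ g p (poy (H p)) - g p * ⟪(J p).2, (H p).1⟫ - ∑ i, (fderiv ℝ X p (ei i)).2 i := by
    intro p hp
    have h1 := poynting ((h.c1.differentiable one_ne_zero) p) (h.mx p hp)
    have h2 : ∀ e, fderiv ℝ X p e =
        g p • fderiv ℝ (fun p => poy (H p)) p e + fderiv ℝ g p e • poy (H p) := by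
      intro e
      have := (((hg.differentiable one_ne_zero) p).hasFDerivAt.smul
        ((hP.differentiable one_ne_zero) p).hasFDerivAt).fderiv
      rw [show X = g • fun p => poy (H p) from hXd, this]
      simp
    have h3 : fderiv ℝ g p (poy (H p)) = (poy (H p)).1 * fderiv ℝ g p e0 +
        ∑ i, (poy (H p)).2 i * fderiv ℝ g p (ei i) := by
      conv_lhs => rw [st_decomp (poy (H p))]
      simp only [map_add, map_smul, map_sum, smul_eq_mul]
    rw [h3]
    simp only [dv, Fin.sum_univ_three] at h1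
    simp only [h2, Fin.sum_univ_three, Prod.fst_add, Prod.snd_add, Prod.smul_fst, Prod.smul_snd,
      PiLp.add_apply, PiLp.smul_apply, smul_eq_mul]
    linear_combination g p * h1
  have hdiv : ∀ (t : ℝ) (i : Fin 3), ∫ x, (fderiv ℝ X (t, x) (ei i)).2 i = 0 := by
    intro t i
    refine ener_div (v := EuclideanSpace.single i 1) ((sB i).int t) ((sF i).int t) fun x => ?_
    have h1 : HasFDerivAt (fun x : V => X (t, x))
        ((fderiv ℝ X (t, x)).comp (ContinuousLinearMap.inr ℝ ℝ V)) x :=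
      (dX (t, x)).hasFDerivAt.comp x (hasFDerivAt_prodMk_right t x)
    exact (((EuclideanSpace.proj i : V →L[ℝ] ℝ).hasFDerivAt.comp x h1.snd).hasLineDerivAt
      (EuclideanSpace.single i 1))
  have hftc : ∀ x : V, ∫ t in (0 : ℝ)..s, (fderiv ℝ X (t, x) e0).1 =
      (X (s, x)).1 - (X (0, x)).1 := by
    intro x
    refine intervalIntegral.integral_eq_sub_of_hasDerivAt (f := fun t => (X (t, x)).1)
      (fun t _ => ?_) ((sA.1.comp (continuous_id.prodMk continuous_const)).intervalIntegrable _ _)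
    have h1 : HasDerivAt (fun t : ℝ => ((t, x) : ST)) e0 t :=
      (hasDerivAt_id t).prodMk (hasDerivAt_const t x)
    have h2 := (dX (t, x)).hasFDerivAt.comp_hasDerivAt t h1
    exact (ContinuousLinearMap.fst ℝ ℝ V).hasFDerivAt.comp_hasDerivAt t h2
  have e1 : (∫ x, g (s, x) * en (H (s, x))) - ∫ x, g (0, x) * en (H (0, x)) =
      ∫ t in (0 : ℝ)..s, ∫ x, (fderiv ℝ X (t, x) e0).1 := by
    rw [intervalIntegral_integral_swap (f := fun t x => (fderiv ℝ X (t, x) e0).1) (sA.int2 hs)]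
    simp only [hftc]
    rw [integral_sub (sE.int s) (sE.int 0), hXd]
    rfl
  rw [e1, ← intervalIntegral.integral_sub (sC.int3 hs) (sD.int3 hs)]
  refine intervalIntegral.integral_congr fun t ht => ?_
  rw [uIcc_of_le hs] at ht
  have e2 : ∀ x : V, (fderiv ℝ X (t, x) e0).1 = fderiv ℝ g (t, x) (poy (H (t, x))) -
      g (t, x) * ⟪(J (t, x)).2, (H (t, x)).1⟫ - ∑ i, (fderiv ℝ X (t, x) (ei i)).2 i :=
    fun x => key (t, x) ht.1
  simp only [e2]
  have e3 : Integrable (fun x : V => fderiv ℝ g (t, x) (poy (H (t, x))) -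
      g (t, x) * ⟪(J (t, x)).2, (H (t, x)).1⟫) := (sC.int t).sub (sD.int t)
  rw [integral_sub e3 (integrable_finsetSum _ fun i _ => (sB i).int t),
    integral_sub (sC.int t) (sD.int t), integral_finsetSum _ fun i _ => (sB i).int t]
  simp only [hdiv, Finset.sum_const_zero, sub_zero]

/-- The regularised distance. -/
def rε (ε : ℝ) (y : V) : ℝ := √(ε ^ 2 + ‖y‖ ^ 2)

/-- A smooth step from `0` to `1` on `[0, δ]`. -/
def stp (δ r : ℝ) : ℝ := Real.smoothTransition (r / δ)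

/-- The weight of a regularised backward light cone. -/
def cone (δ s : ℝ) (x : V) (p : ST) : ℝ := stp δ (s - p.1 - rε δ (x - p.2))

private theorem ener_stp_cd (δ : ℝ) : ContDiff ℝ 1 (stp δ) :=
  (Real.smoothTransition.contDiff (n := 1)).comp (contDiff_id.div_const δ)

private theorem ener_stp_diff (δ : ℝ) : Differentiable ℝ (stp δ) :=
  (ener_stp_cd δ).differentiable one_ne_zero

private theorem ener_rε_cd {ε : ℝ} (hε : 0 < ε) : ContDiff ℝ 1 (rε ε) :=
  (contDiff_const.add (contDiff_id.norm_sq ℝ)).sqrt fun y => by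
    show ε ^ 2 + ‖y‖ ^ 2 ≠ 0
    positivity

private theorem ener_le_rε (ε : ℝ) (y : V) : ‖y‖ ≤ rε ε y :=
  Real.le_sqrt_of_sq_le (by nlinarith [sq_nonneg ε])

private theorem ener_inner_le {ε : ℝ} (hε : 0 < ε) (y ξ : V) : ⟪(rε ε y)⁻¹ • y, ξ⟫ ≤ ‖ξ‖ := by
  have h0 : 0 < rε ε y := Real.sqrt_pos.2 (by positivity)
  have h1 : ‖(rε ε y)⁻¹ • y‖ ≤ 1 := by
    rw [norm_smul, Real.norm_eq_abs, abs_of_pos (inv_pos.2 h0), inv_mul_le_iff₀ h0, mul_one]
    exact ener_le_rε ε y
  exact (real_inner_le_norm _ _).trans (mul_le_of_le_one_left (norm_nonneg _) h1)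

theorem hasFDerivAt_rε {ε : ℝ} (hε : 0 < ε) (y : V) :
    HasFDerivAt (rε ε) (innerSL ℝ ((rε ε y)⁻¹ • y)) y := by
  have h0 : ε ^ 2 + ‖y‖ ^ 2 ≠ 0 := by positivity
  have h1 := (((hasFDerivAt_id y).norm_sq).const_add (ε ^ 2)).sqrt h0
  refine h1.congr_fderiv ?_
  ext v
  have h2 : 0 < √(ε ^ 2 + ‖y‖ ^ 2) := Real.sqrt_pos.2 (by positivity)
  simp only [rε, id, _root_.smul_apply, ContinuousLinearMap.comp_apply,
    ContinuousLinearMap.id_apply, innerSL_apply_apply, smul_eq_mul, nsmul_eq_mul,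
    real_inner_smul_left]
  field_simp
  norm_num

theorem fderiv_cone {δ : ℝ} (hδ : 0 < δ) (s : ℝ) (x : V) (p e : ST) :
    fderiv ℝ (cone δ s x) p e = -(deriv (stp δ) (s - p.1 - rε δ (x - p.2)) *
      (e.1 - ⟪(rε δ (x - p.2))⁻¹ • (x - p.2), e.2⟫)) := by
  have h1 : HasFDerivAt (fun p : ST => x - p.2) (-ContinuousLinearMap.snd ℝ ℝ V) p :=
    (hasFDerivAt_snd (p := p)).const_sub x
  have h2 := ((hasFDerivAt_fst (𝕜 := ℝ) (p := p)).const_sub s).sub
    ((hasFDerivAt_rε hδ (x - p.2)).comp p h1)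
  have h3 := ((ener_stp_diff δ (s - p.1 - rε δ (x - p.2))).hasDerivAt.comp_hasFDerivAt p h2).fderiv
  have h4 : fderiv ℝ (cone δ s x) p = _ := h3
  rw [h4]
  simp only [_root_.smul_apply, _root_.sub_apply,
    _root_.neg_apply, ContinuousLinearMap.comp_apply, ContinuousLinearMap.coe_fst',
    ContinuousLinearMap.coe_snd', innerSL_apply_apply, inner_neg_right, smul_eq_mul]
  ring

theorem deriv_stp_nonneg {δ : ℝ} (hδ : 0 < δ) (r : ℝ) : 0 ≤ deriv (stp δ) r := by
  refine Monotone.deriv_nonneg fun a b hab => ?_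
  exact Real.smoothTransition.monotone (div_le_div_of_nonneg_right hab hδ.le)

theorem adm_cone {δ : ℝ} (hδ : 0 < δ) (s : ℝ) (x : V) : Adm (cone δ s x) := by
  refine ⟨?_, fun p => Real.smoothTransition.nonneg _, fun p => Real.smoothTransition.le_one _,
    ⟨‖x‖ + |s|, fun p hp => ?_⟩, fun p a ξ h => ?_⟩
  · exact (ener_stp_cd δ).comp ((contDiff_const.sub contDiff_fst).sub
      ((ener_rε_cd hδ).comp (contDiff_const.sub contDiff_snd)))
  · have h1 : 0 < (s - p.1 - rε δ (x - p.2)) / δ := by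
      by_contra h0
      exact hp (Real.smoothTransition.zero_of_nonpos (not_lt.1 h0))
    have h2 := (div_pos_iff_of_pos_right hδ).1 h1
    have h3 := ener_le_rε δ (x - p.2)
    have h4 := norm_sub_norm_le p.2 x
    rw [norm_sub_rev] at h4
    have h5 := le_abs_self s
    have h6 := neg_abs_le p.1
    linarith
  · rw [fderiv_cone hδ, neg_nonpos]
    exact mul_nonneg (deriv_stp_nonneg hδ _) (sub_nonneg.2 ((ener_inner_le hδ _ _).trans h))

theorem adm_tail (M ρ : ℝ) :
    Adm (fun p => cone 1 M 0 p * stp 1 (rε 1 p.2 - p.1 - ρ)) := by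
  have hA := adm_cone one_pos M 0
  have hc : ContDiff ℝ 1 (fun p : ST => stp 1 (rε 1 p.2 - p.1 - ρ)) :=
    (ener_stp_cd 1).comp ((((ener_rε_cd one_pos).comp contDiff_snd).sub contDiff_fst).sub
      contDiff_const)
  have n1 : ∀ r, 0 ≤ stp 1 r := fun r => Real.smoothTransition.nonneg _
  have n2 : ∀ r, stp 1 r ≤ 1 := fun r => Real.smoothTransition.le_one _
  obtain ⟨R, hR⟩ := hA.supp
  refine ⟨hA.c1.mul hc, fun p => mul_nonneg (hA.nn p) (n1 _),
    fun p => mul_le_one₀ (hA.le p) (n1 _) (n2 _), ⟨R, fun p hp => hR p (left_ne_zero_of_mul hp)⟩,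
    fun p a ξ h => ?_⟩
  have h2 := ((((hasFDerivAt_rε one_pos p.2).comp p (hasFDerivAt_snd (p := p))).sub
    (hasFDerivAt_fst (𝕜 := ℝ) (p := p))).sub_const ρ)
  have h3 := (ener_stp_diff 1 (rε 1 p.2 - p.1 - ρ)).hasDerivAt.comp_hasFDerivAt p h2
  have h4 := (((hA.c1.differentiable one_ne_zero) p).hasFDerivAt.mul h3).fderiv
  have h5 : fderiv ℝ (fun p : ST => cone 1 M 0 p * stp 1 (rε 1 p.2 - p.1 - ρ)) p = _ := h4
  rw [h5]
  simp only [_root_.smul_apply, _root_.sub_apply,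
    _root_.add_apply, ContinuousLinearMap.comp_apply, ContinuousLinearMap.coe_fst',
    ContinuousLinearMap.coe_snd', innerSL_apply_apply, smul_eq_mul, Function.comp_apply]
  have k1 := hA.caus p a ξ h
  have k2 := (ener_inner_le one_pos p.2 ξ).trans h
  exact add_nonpos (mul_nonpos_of_nonneg_of_nonpos (hA.nn p)
    (mul_nonpos_of_nonneg_of_nonpos (deriv_stp_nonneg one_pos _) (sub_nonpos.2 k2)))
    (mul_nonpos_of_nonneg_of_nonpos (n1 _) k1)

end

end Vale.Agent.P107
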