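import Vale.Agent.P107.OpA

/-! Dependence of the retarded field on the force field. -/

namespace Vale.Agent.P107

open MeasureTheory Set Filter Topology
open scoped ENNReal RealInnerProductSpace

noncomputable section

theorem opc_rad {K lam : ℝ} (hK : 0 ≤ K) (hl : 0 < lam) :
    ∫⁻ l : V, ENNReal.ofReal (K * Real.exp (-lam * ‖l‖) / ‖l‖ ^ 2) ≤
      ENNReal.ofReal (16 * K / lam) := by
  rw [geo_radial_zero (fun r => ENNReal.ofReal (K * Real.exp (-lam * r) / r ^ 2)) (by fun_prop)]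
  have hi : IntegrableOn (fun r : ℝ => 16 * K * Real.exp (-lam * r)) (Ioi 0) :=
    (integrableOn_exp_mul_Ioi (neg_lt_zero.2 hl) 0).const_mul _
  calc ∫⁻ r in Ioi (0 : ℝ), ENNReal.ofReal (4 * Real.pi * r ^ 2) *
        ENNReal.ofReal (K * Real.exp (-lam * r) / r ^ 2)
      ≤ ∫⁻ r in Ioi (0 : ℝ), ENNReal.ofReal (16 * K * Real.exp (-lam * r)) := by
        refine setLIntegral_mono' measurableSet_Ioi fun r hr => ?_
        have hr0 : (0 : ℝ) < r := hr
        rw [← ENNReal.ofReal_mul (by positivity)]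
        apply ENNReal.ofReal_le_ofReal
        have e : 4 * Real.pi * r ^ 2 * (K * Real.exp (-lam * r) / r ^ 2) =
            4 * Real.pi * (K * Real.exp (-lam * r)) := by field_simp
        rw [e, mul_assoc 16]
        exact mul_le_mul_of_nonneg_right (by linarith [Real.pi_le_four]) (by positivity)
    _ = ENNReal.ofReal (∫ r in Ioi (0 : ℝ), 16 * K * Real.exp (-lam * r)) :=
        (ofReal_integral_eq_lintegral_ofReal hi (Eventually.of_forall fun r => by positivity)).symm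
    _ = ENNReal.ofReal (16 * K / lam) := by
        rw [integral_const_mul, integral_exp_mul_Ioi (neg_lt_zero.2 hl) 0]
        congr 1
        rw [mul_zero, Real.exp_zero]
        field_simp

theorem opc_int {f : Z → Z} {P K lam : ℝ} (hP : 0 ≤ P) (hK : 0 ≤ K) (hl : 0 < lam)
    (h0 : ∀ w : Z, ¬ q w.2 ≤ P → f w = 0)
    (h1 : ∀ w : Z, q w.2 ≤ P → ‖f w‖ ≤ K * Real.exp (-lam * ‖w.1‖) / ‖w.1‖ ^ 2) :
    ‖∫ w, f w‖ ≤ 128 * P ^ 3 * K / lam := by
  refine (norm_integral_le_lintegral_norm f).trans (ENNReal.toReal_le_of_le_ofReal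
    (by positivity) ?_)
  have hm1 : Measurable fun l : V => ENNReal.ofReal (K * Real.exp (-lam * ‖l‖) / ‖l‖ ^ 2) := by
    fun_prop
  have hm2 : Measurable ((Metric.closedBall (0 : V) P).indicator (1 : V → ℝ≥0∞)) :=
    measurable_one.indicator measurableSet_closedBall
  calc ∫⁻ w : Z, ENNReal.ofReal ‖f w‖
      ≤ ∫⁻ w : Z, ENNReal.ofReal (K * Real.exp (-lam * ‖w.1‖) / ‖w.1‖ ^ 2) *
          (Metric.closedBall (0 : V) P).indicator 1 w.2 := by
        refine lintegral_mono fun w => ?_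
        by_cases hw : q w.2 ≤ P
        · have h2 : w.2 ∈ Metric.closedBall (0 : V) P :=
            mem_closedBall_zero_iff.2 ((norm_lt_q _).le.trans hw)
          simp only [indicator_of_mem h2, Pi.one_apply, mul_one]
          exact ENNReal.ofReal_le_ofReal (h1 w hw)
        · simp [h0 w hw]
    _ = (∫⁻ l : V, ENNReal.ofReal (K * Real.exp (-lam * ‖l‖) / ‖l‖ ^ 2)) *
          ∫⁻ v : V, (Metric.closedBall (0 : V) P).indicator 1 v := by
        rw [Measure.volume_eq_prod]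
        exact lintegral_prod_mul hm1.aemeasurable hm2.aemeasurable
    _ ≤ ENNReal.ofReal (16 * K / lam) * ENNReal.ofReal (8 * P ^ 3) := by
        rw [lintegral_indicator_one measurableSet_closedBall]
        exact mul_le_mul' (opc_rad hK hl) (vol_ball_le 0 hP)
    _ = ENNReal.ofReal (128 * P ^ 3 * K / lam) := by
        rw [← ENNReal.ofReal_mul (by positivity)]
        congr 1
        ring

theorem opc_lor_sub (a b : Z) (v : V) : ‖lor a.1 a.2 v - lor b.1 b.2 v‖ ≤ 2 * ‖a - b‖ := by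
  have e : lor a.1 a.2 v - lor b.1 b.2 v = lor (a - b).1 (a - b).2 v := by
    simp only [lor, Prod.fst_sub, Prod.snd_sub, cross_sub_right]
    abel
  rw [e]
  refine (norm_lor_le _ _ _).trans ?_
  linarith [norm_fst_le (a - b), norm_snd_le (a - b)]

theorem opc_lor (a : Z) (v : V) : ‖lor a.1 a.2 v‖ ≤ 2 * ‖a‖ := by
  refine (norm_lor_le _ _ _).trans ?_
  linarith [norm_fst_le a, norm_snd_le a]

theorem opc_Av {Λ M1 l1 t T : ℝ} (hΛ : 1 ≤ Λ) (hM : 1 ≤ M1) (hl : 1 ≤ l1) (h : t ≤ T) :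
    Av Λ M1 l1 t ≤ Av Λ M1 l1 T := by
  unfold Av
  have h1 : Real.exp (l1 * t) ≤ Real.exp (l1 * T) :=
    Real.exp_le_exp.2 (mul_le_mul_of_nonneg_left h (by linarith))
  have h2 : (2 + 2 * Λ) * t ≤ (2 + 2 * Λ) * T := mul_le_mul_of_nonneg_left h (by linarith)
  have h3 : 2 * M1 * Real.exp (l1 * t) / l1 ≤ 2 * M1 * Real.exp (l1 * T) / l1 :=
    div_le_div_of_nonneg_right (mul_le_mul_of_nonneg_left h1 (by linarith)) (by linarith)
  linarith

theorem opc_inv {r T : ℝ} (hr : 0 ≤ r) (h : r ≤ T) : 1 / r ≤ T / r ^ 2 := by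
  rcases hr.eq_or_lt with h0 | h0
  · subst h0
    simp
  · rw [div_le_div_iff₀ h0 (by positivity)]
    nlinarith

/-- The difference of the cone densities. -/
theorem opc_cw {Λ M1 l1 M2 l2 : ℝ} {G G' : ST → Z} (h : Cl Λ M1 l1 M2 l2 G)
    (h' : Cl Λ M1 l1 M2 l2 G') (d : Dat) {D lam t T : ℝ} (hD : 0 ≤ D) (hl : 1 ≤ lam) (hT : t ≤ T)
    (he : ∀ p : ST, p.1 ∈ Icc 0 t → ‖G p - G' p‖ ≤ D * Real.exp (lam * p.1)) (x : V) (w : Z)
    (hw : ‖w.1‖ ≤ t) : |cw d G (t, x) w - cw d G' (t, x) w| ≤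
      2 * d.F0 * Real.exp (Av Λ M1 l1 T) * (D * Real.exp (lam * (t - ‖w.1‖))) := by
  have hs : t - ‖w.1‖ ∈ Icc 0 t := ⟨by linarith, by linarith [norm_nonneg w.1]⟩
  have h1 := h.den_stab h' d hD hl he hs (x - w.1, w.2)
  have hF : 0 ≤ d.F0 := by linarith [d.hF]
  have ha0 : 0 ≤ ang (vel w.2) (nrm w.1) := ang_nonneg (norm_vel_lt _).le (norm_nrm_le _)
  have ha2 : ang (vel w.2) (nrm w.1) ≤ 2 := ang_le_two (norm_vel_lt _).le (norm_nrm_le _)
  have e : cw d G (t, x) w - cw d G' (t, x) w = ang (vel w.2) (nrm w.1) / (4 * Real.pi) *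
      (den d G (t - ‖w.1‖) (x - w.1, w.2) - den d G' (t - ‖w.1‖) (x - w.1, w.2)) := by
    simp only [cw]
    ring
  have hpi := Real.pi_gt_three
  have h2 : ang (vel w.2) (nrm w.1) / (4 * Real.pi) ≤ 1 := by
    rw [div_le_one (by positivity)]
    linarith
  have h3 : 0 ≤ ang (vel w.2) (nrm w.1) / (4 * Real.pi) := by positivity
  rw [e, abs_mul, abs_of_nonneg h3]
  refine (mul_le_of_le_one_left (abs_nonneg _) h2).trans (h1.trans ?_)
  have h4 : Real.exp (Av Λ M1 l1 t) ≤ Real.exp (Av Λ M1 l1 T) :=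
    Real.exp_le_exp.2 (opc_Av h.hΛ h.hM1 h.hl1 hT)
  have h5 : D * Real.exp (lam * (t - ‖w.1‖)) / lam ≤ D * Real.exp (lam * (t - ‖w.1‖)) :=
    div_le_self (by positivity) hl
  exact mul_le_mul (mul_le_mul_of_nonneg_left h4 (by positivity)) h5 (by positivity)
    (by positivity)

/-- The integrand of the difference of the retarded fields. -/
def opcD (d : Dat) (G G' : ST → Z) (p : ST) (w : Z) : Z :=
  (cw d G p w • zT w.2 w.1 + cw d G p w • eS G p w) -
    (cw d G' p w • zT w.2 w.1 + cw d G' p w • eS G' p w)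

theorem opc_past (d : Dat) (G G' : ST → Z) (p : ST) {w : Z} (hw : p.1 ≤ ‖w.1‖) :
    opcD d G G' p w = 0 := by
  have hs : p.1 - ‖w.1‖ ≤ 0 := by linarith
  have h1 : cw d G p w = cw d G' p w := by
    simp only [cw, den_past d G hs, den_past d G' hs]
  have h2 : ∀ H : ST → Z, eS H p w = 0 := fun H => if_neg (not_lt.2 hw)
  rw [opcD, h1, h2, h2, sub_self]

theorem opc_pt {Λ M1 l1 M2 l2 : ℝ} {G G' : ST → Z} (h : Cl Λ M1 l1 M2 l2 G)
    (h' : Cl Λ M1 l1 M2 l2 G') (d : Dat) {D lam t T P : ℝ} (hD : 0 ≤ D) (hl : 1 ≤ lam) (hT : t ≤ T)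
    (he : ∀ p : ST, p.1 ∈ Icc 0 t → ‖G p - G' p‖ ≤ D * Real.exp (lam * p.1)) (x : V) (w : Z)
    (hq : q w.2 ≤ P) (hw : ‖w.1‖ < t) : ‖opcD d G G' (t, x) w‖ ≤
      P ^ 3 * (2 * d.F0 * Real.exp (Av Λ M1 l1 T) * (100 + 240 * Λ * T) + 240 * d.F0 * T) *
        (D * Real.exp (lam * (t - ‖w.1‖))) / ‖w.1‖ ^ 2 := by
  have hc := opc_cw h h' d hD hl hT he x w hw.le
  set A := 2 * d.F0 * Real.exp (Av Λ M1 l1 T) with hA
  set X := D * Real.exp (lam * (t - ‖w.1‖)) with hX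
  have hF : 0 ≤ d.F0 := by linarith [d.hF]
  have hA0 : 0 ≤ A := by positivity
  have hX0 : 0 ≤ X := by positivity
  have hP : 0 ≤ P := (q_pos _).le.trans hq
  have hΛ : 0 ≤ Λ := by linarith [h.hΛ]
  have hi := opc_inv (norm_nonneg w.1) (hw.le.trans hT)
  have hs : t - ‖w.1‖ ∈ Icc 0 t := ⟨by linarith, by linarith [norm_nonneg w.1]⟩
  have e1 : ∀ H : ST → Z, eS H (t, x) w = zS w.2 (lor (H (t - ‖w.1‖, x - w.1)).1
      (H (t - ‖w.1‖, x - w.1)).2 w.2) w.1 := fun H => if_pos hw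
  have h1 : ‖zT w.2 w.1‖ ≤ 100 * P ^ 3 / ‖w.1‖ ^ 2 := norm_zT_le hq _
  have hS : ∀ (F : V) (c : ℝ), ‖F‖ ≤ 2 * c → ‖zS w.2 F w.1‖ ≤ 240 * P ^ 3 * c * T / ‖w.1‖ ^ 2 := by
    intro F c hc
    have hc0 : 0 ≤ c := by linarith [norm_nonneg F]
    refine (norm_zS_le hq F w.1).trans ?_
    calc 120 * P ^ 3 * ‖F‖ / ‖w.1‖ = 120 * P ^ 3 * ‖F‖ * (1 / ‖w.1‖) := by ring
      _ ≤ 120 * P ^ 3 * (2 * c) * (T / ‖w.1‖ ^ 2) :=
        mul_le_mul (mul_le_mul_of_nonneg_left hc (by positivity)) hi (by positivity)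
          (by positivity)
      _ = _ := by ring
  have h2 : ‖eS G (t, x) w‖ ≤ 240 * P ^ 3 * Λ * T / ‖w.1‖ ^ 2 := by
    rw [e1]
    exact hS _ _ ((opc_lor _ _).trans (by linarith [h.bdd (t - ‖w.1‖, x - w.1)]))
  have h3 : ‖eS G (t, x) w - eS G' (t, x) w‖ ≤ 240 * P ^ 3 * X * T / ‖w.1‖ ^ 2 := by
    rw [e1, e1, zS_sub]
    exact hS _ _ ((opc_lor_sub _ _ _).trans (by linarith [he (t - ‖w.1‖, x - w.1) hs]))
  have h4 : |cw d G' (t, x) w| ≤ d.F0 := by
    rw [abs_of_nonneg (cw_nonneg _ _ _ _)]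
    refine (cw_le _ _ _ _).trans (div_le_self hF ?_)
    linarith [Real.pi_gt_three]
  have e : opcD d G G' (t, x) w =
      (cw d G (t, x) w - cw d G' (t, x) w) • (zT w.2 w.1 + eS G (t, x) w) +
        cw d G' (t, x) w • (eS G (t, x) w - eS G' (t, x) w) := by
    rw [opcD]
    module
  rw [e]
  refine (norm_add_le _ _).trans ?_
  rw [norm_smul, norm_smul, Real.norm_eq_abs, Real.norm_eq_abs]
  have h5 := mul_le_mul hc ((norm_add_le _ _).trans (add_le_add h1 h2)) (norm_nonneg _)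
    (by positivity)
  have h6 := mul_le_mul h4 h3 (norm_nonneg _) hF
  refine (add_le_add h5 h6).trans (le_of_eq ?_)
  ring

theorem op_contr (d : Dat) (Λ M1 l1 T : ℝ) : ∃ C : ℝ, 1 ≤ C ∧ ∀ (M2 l2 : ℝ) (G G' : ST → Z),
    Cl Λ M1 l1 M2 l2 G → Cl Λ M1 l1 M2 l2 G' → ∀ D lam : ℝ, 0 ≤ D → 1 ≤ lam → ∀ t ∈ Icc 0 T,
    (∀ p : ST, p.1 ∈ Icc 0 t → ‖G p - G' p‖ ≤ D * Real.exp (lam * p.1)) →
    ∀ x, ‖retF d G (t, x) - retF d G' (t, x)‖ ≤ C * (D * Real.exp (lam * t) / lam) := by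
  set P := d.P0 + 2 * Λ * T with hPdef
  set K := P ^ 3 * (2 * d.F0 * Real.exp (Av Λ M1 l1 T) * (100 + 240 * Λ * T) + 240 * d.F0 * T)
    with hK
  refine ⟨max 1 (128 * P ^ 3 * K), le_max_left _ _, ?_⟩
  intro M2 l2 G G' h h' D lam hD hl t ht he x
  have hT : 0 ≤ T := ht.1.trans ht.2
  have hΛ : 0 ≤ Λ := by linarith [h.hΛ]
  have hF : 0 ≤ d.F0 := by linarith [d.hF]
  have hP : 0 ≤ P := by
    have := d.hP
    positivity
  have hK0 : 0 ≤ K := by positivity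
  have hl0 : 0 < lam := by linarith
  obtain ⟨a1, a2⟩ := h.opT_eul d (t, x)
  obtain ⟨b1, b2⟩ := h.opS_eul d (t, x)
  obtain ⟨c1, c2⟩ := h'.opT_eul d (t, x)
  obtain ⟨d1, d2⟩ := h'.opS_eul d (t, x)
  have e : retF d G (t, x) - retF d G' (t, x) = ∫ w, opcD d G G' (t, x) w := by
    rw [retF, retF, a1, b1, c1, d1, ← integral_add a2 b2, ← integral_add c2 d2]
    exact (integral_sub (a2.add b2) (c2.add d2)).symm
  rw [e]
  have hb := opc_int (f := opcD d G G' (t, x)) (K := K * (D * Real.exp (lam * t))) hP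
    (by positivity) hl0 (fun w hw => by
      have z1 : cw d G (t, x) w = 0 := by
        by_contra hc
        exact hw (h.cw_supp (h.bd d hT) (p := (t, x)) ht.2 hc).1
      have z2 : cw d G' (t, x) w = 0 := by
        by_contra hc
        exact hw (h'.cw_supp (h'.bd d hT) (p := (t, x)) ht.2 hc).1
      simp [opcD, z1, z2])
    (fun w hw => by
      rcases le_or_gt t ‖w.1‖ with h1 | h1
      · rw [opc_past d G G' (t, x) h1, norm_zero]
        positivity
      · refine (opc_pt h h' d hD hl ht.2 he x w hw h1).trans (le_of_eq ?_)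
        have e1 : Real.exp (lam * (t - ‖w.1‖)) =
            Real.exp (lam * t) * Real.exp (-lam * ‖w.1‖) := by
          rw [← Real.exp_add]
          congr 1
          ring
        rw [e1, ← hK]
        ring)
  refine hb.trans ?_
  calc 128 * P ^ 3 * (K * (D * Real.exp (lam * t))) / lam
      = 128 * P ^ 3 * K * (D * Real.exp (lam * t) / lam) := by ring
    _ ≤ _ := mul_le_mul_of_nonneg_right (le_max_right _ _) (by positivity)

end

end Vale.Agent.P107
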