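import Vale.Agent.P107.OpLSAux

/-! Lipschitz bound of the acceleration field. -/

namespace Vale.Agent.P107

open MeasureTheory Set Filter Topology
open scoped ENNReal RealInnerProductSpace

noncomputable section

variable {Λ M1 l1 M2 l2 : ℝ} {G : ST → Z}

/-- The majorant attached to one of the two points. -/
def oplsM (G : ST → Z) (A l δ c1 c2 : ℝ) (p : ST) (z : Z) : ℝ :=
  A * (1 / ‖rl G z p‖ ^ 2 + 1 / ‖rl G z p‖) + oplsB p.1 l δ c1 c2 ‖rl G z p‖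

theorem oplsM_nonneg (G : ST → Z) {A c1 c2 : ℝ} (l δ : ℝ) (hA : 0 ≤ A) (h1 : 0 ≤ c1)
    (h2 : 0 ≤ c2) (p : ST) (z : Z) : 0 ≤ oplsM G A l δ c1 c2 p z :=
  add_nonneg (by positivity) (oplsB_nonneg _ _ _ h1 h2 (norm_nonneg _))

theorem opls_pt (h : Cl Λ M1 l1 M2 l2 G) {d : Dat} {t P Cz : ℝ} (hP : Bd d G t P) (hP1 : 1 ≤ P)
    (hCz : 1 ≤ Cz)
    (hz : ∀ (v v' F l l' : V), q v ≤ P → q v' ≤ P → l ≠ 0 →
      l' ≠ 0 → ‖zS v F l - zS v' F l'‖ ≤ Cz * ‖F‖ * (‖l - l'‖ + ‖v - v'‖) *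
        ((1 / ‖l‖ ^ 2 + 1 / ‖l‖) + (1 / ‖l'‖ ^ 2 + 1 / ‖l'‖)))
    {z : Z} (hzS : z ∈ d.S) {p p' : ST} (hp : p.1 ≤ t) (hp' : p'.1 ≤ t) (hl : rl G z p ≠ 0)
    (hl' : rl G z p' ≠ 0) (hr : rt G z p' ≤ rt G z p) {δ : ℝ} (hδ : δ = ‖p - p'‖) :
    ‖sZ G z p - sZ G z p'‖ ≤
      oplsM G ((1920 * P ^ 3 + 26 * Cz) * Λ ^ 2 * P ^ 2 * δ) l1 (4 * P ^ 2 * δ)
        (960 * P ^ 5 * M1 * δ) (240 * P ^ 3 * Λ) p z +
      oplsM G ((1920 * P ^ 3 + 26 * Cz) * Λ ^ 2 * P ^ 2 * δ) l1 (4 * P ^ 2 * δ)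
        (960 * P ^ 5 * M1 * δ) (240 * P ^ 3 * Λ) p' z := by
  have hΛ := h.hΛ
  have hM := h.hM1
  have hδ0 : 0 ≤ δ := hδ ▸ norm_nonneg _
  obtain ⟨k1, k2, k3, k4⟩ := h.r_lip hP hzS hp hp'
  rw [← hδ] at k1 k2 k3 k4
  have q1 := h.q_rW hP hzS hp
  have q2 := h.q_rW hP hzS hp'
  have n1 := h.norm_rl z p
  have hR : 0 < ‖rl G z p‖ := norm_pos_iff.2 hl
  have hR' : 0 < ‖rl G z p'‖ := norm_pos_iff.2 hl'
  have m1 := oplsM_nonneg G (A := (1920 * P ^ 3 + 26 * Cz) * Λ ^ 2 * P ^ 2 * δ)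
    (c1 := 960 * P ^ 5 * M1 * δ) (c2 := 240 * P ^ 3 * Λ) l1 (4 * P ^ 2 * δ) (by positivity)
    (by positivity) (by positivity)
  unfold sZ
  by_cases h0 : 0 < rt G z p
  swap
  · rw [if_neg h0, if_neg (by linarith), sub_zero, norm_zero]
    exact add_nonneg (m1 p z) (m1 p' z)
  rw [if_pos h0]
  have hlt : ‖rl G z p‖ < p.1 := by linarith
  by_cases h0' : 0 < rt G z p'
  · rw [if_pos h0']
    have e : zS (rW G z p) (rF G z p) (rl G z p) - zS (rW G z p') (rF G z p') (rl G z p') =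
        zS (rW G z p) (rF G z p - rF G z p') (rl G z p) +
          (zS (rW G z p) (rF G z p') (rl G z p) - zS (rW G z p') (rF G z p') (rl G z p')) := by
      rw [← zS_sub]
      abel
    rw [max_eq_left hr, max_eq_left h0.le, show rt G z p = p.1 - ‖rl G z p‖ by linarith] at k4
    have b1 := norm_zS_le q1 (rF G z p - rF G z p') (rl G z p)
    have b2 := hz _ _ (rF G z p') _ _ q1 q2 hl hl'
    have b3 := h.norm_rF z p'
    have b4 := oplsB_nonneg p'.1 l1 (4 * P ^ 2 * δ) (c1 := 960 * P ^ 5 * M1 * δ)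
      (c2 := 240 * P ^ 3 * Λ) (by positivity) (by positivity) hR'.le
    rw [e]
    refine (norm_add_le _ _).trans ?_
    unfold oplsM
    rw [oplsB, if_pos hlt]
    generalize Real.exp (l1 * (p.1 - ‖rl G z p‖)) = e1 at k4 ⊢
    have b5 : 0 ≤ 240 * P ^ 3 * Λ *
        (if p.1 - 4 * P ^ 2 * δ ≤ ‖rl G z p‖ ∧ ‖rl G z p‖ < p.1 then 1 / ‖rl G z p‖ else 0) := by
      split_ifs <;> positivity
    have b6 : 120 * P ^ 3 * ‖rF G z p - rF G z p'‖ / ‖rl G z p‖ ≤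
        960 * P ^ 5 * M1 * δ * (e1 / ‖rl G z p‖) +
          1920 * P ^ 3 * Λ ^ 2 * P ^ 2 * δ * (1 / ‖rl G z p‖) := by
      calc _ ≤ 120 * P ^ 3 * ((8 * M1 * e1 + 16 * Λ ^ 2) * P ^ 2 * δ) / ‖rl G z p‖ := by gcongr
        _ = _ := by ring
    have b7 : ‖rl G z p - rl G z p'‖ + ‖rW G z p - rW G z p'‖ ≤ 13 * Λ * P ^ 2 * δ := by
      have : 5 * P ^ 2 * δ * 1 ≤ 5 * P ^ 2 * δ * Λ :=
        mul_le_mul_of_nonneg_left hΛ (by positivity)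
      linarith
    have b8 : Cz * ‖rF G z p'‖ * (‖rl G z p - rl G z p'‖ + ‖rW G z p - rW G z p'‖) ≤
        Cz * (2 * Λ) * (13 * Λ * P ^ 2 * δ) := by gcongr
    have b9 := b2.trans (mul_le_mul_of_nonneg_right b8 (by positivity))
    have b10 : 0 ≤ 1920 * P ^ 3 * Λ ^ 2 * P ^ 2 * δ * (1 / ‖rl G z p‖ ^ 2) := by positivity
    have b11 : 0 ≤ 1920 * P ^ 3 * Λ ^ 2 * P ^ 2 * δ *
      (1 / ‖rl G z p'‖ ^ 2 + 1 / ‖rl G z p'‖) := by positivity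
    linarith
  · rw [if_neg h0', sub_zero]
    refine le_add_of_le_of_nonneg ?_ (m1 p' z)
    have b1 := norm_zS_le q1 (rF G z p) (rl G z p)
    have b2 := h.norm_rF z p
    have b3 : p.1 - 4 * P ^ 2 * δ ≤ ‖rl G z p‖ := by linarith [(abs_le.1 k1).2]
    unfold oplsM
    rw [oplsB, if_pos hlt, if_pos ⟨b3, hlt⟩]
    have b4 : 120 * P ^ 3 * ‖rF G z p‖ / ‖rl G z p‖ ≤ 240 * P ^ 3 * Λ * (1 / ‖rl G z p‖) := by
      calc _ ≤ 120 * P ^ 3 * (2 * Λ) / ‖rl G z p‖ := by gcongr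
        _ = _ := by ring
    have b5 : 0 ≤ (1920 * P ^ 3 + 26 * Cz) * Λ ^ 2 * P ^ 2 * δ *
      (1 / ‖rl G z p‖ ^ 2 + 1 / ‖rl G z p‖) := by positivity
    have b6 : 0 ≤ 960 * P ^ 5 * M1 * δ *
      (Real.exp (l1 * (p.1 - ‖rl G z p‖)) / ‖rl G z p‖) := by positivity
    linarith

theorem oplsM_meas (h : Cl Λ M1 l1 M2 l2 G) (A l δ c1 c2 : ℝ) (p : ST) :
    Measurable (oplsM G A l δ c1 c2 p) := by
  have h1 := (h.measurable_r p).2.1.norm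
  unfold oplsM
  exact (((h1.pow_const 2).const_div 1).add (h1.const_div 1)).const_mul A |>.add
    ((oplsB_meas _ _ _ _ _).comp h1)

theorem oplsM_int (h : Cl Λ M1 l1 M2 l2 G) {d : Dat} {t T P Cs A δ c1 c2 : ℝ} (hP : Bd d G t P)
    (hP0 : 0 ≤ P) (ht : t ∈ Icc 0 T) (hCs : 0 ≤ Cs) (hA : 0 ≤ A) (hδ : 0 ≤ δ) (h1 : 0 ≤ c1)
    (h2 : 0 ≤ c2) {p : ST} (hp : p.1 ≤ t)
    (hs : ∫⁻ z in {z | q (rW G z p) ≤ P},
      ENNReal.ofReal (1 / ‖rl G z p‖ ^ 2 + 1 / ‖rl G z p‖) ∂d.ν ≤ ENNReal.ofReal Cs) :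
    ∫⁻ z, ENNReal.ofReal (oplsM G A l1 δ c1 c2 p z) ∂d.ν ≤ ENNReal.ofReal
      (A * Cs + 16 * d.F0 * P ^ 3 * (c1 * T * (Real.exp (l1 * t) / l1) + c2 * T * δ)) := by
  have hl := h.hl1
  have hF := d.hF
  have hT : 0 ≤ T := ht.1.trans ht.2
  rw [Measure.restrict_eq_self_of_ae_mem (s := {z | q (rW G z p) ≤ P})
    (d.ae_mem.mono fun z hz => h.q_rW hP hz hp)] at hs
  have hm := (oplsB_meas p.1 l1 δ c1 c2).ennreal_ofReal
  have b1 := (h.cone_rad' hP hP0 hp hm).trans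
    (mul_le_mul_right (oplsB_int hp ht.1 ht.2 (by linarith) hδ h1 h2) _)
  rw [← ENNReal.ofReal_mul (by positivity)] at b1
  rw [ENNReal.ofReal_add (by positivity) (by positivity), ENNReal.ofReal_mul hA]
  refine (lintegral_mono fun z => ENNReal.ofReal_add_le).trans ?_
  have hm' : Measurable fun z => ENNReal.ofReal (oplsB p.1 l1 δ c1 c2 ‖rl G z p‖) :=
    hm.comp (h.measurable_r p).2.1.norm
  rw [lintegral_add_right _ hm']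
  refine add_le_add ?_ b1
  simp only [ENNReal.ofReal_mul hA]
  rw [lintegral_const_mul' _ _ ENNReal.ofReal_ne_top]
  exact mul_le_mul_right hs _

theorem op_lipS (d : Dat) (Λ T : ℝ) : ∃ C : ℝ, 1 ≤ C ∧ ∀ (M1 l1 M2 l2 : ℝ) (G : ST → Z),
    Cl Λ M1 l1 M2 l2 G → ∀ t ∈ Icc 0 T, ∀ p p' : ST, p.1 ≤ t → p'.1 ≤ t →
    ‖opS d G p - opS d G p'‖ ≤ C * (1 + M1 * Real.exp (l1 * t) / l1) * ‖p - p'‖ := by
  obtain ⟨P, hPe⟩ : ∃ P, P = d.P0 + 2 * Λ * T := ⟨_, rfl⟩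
  obtain ⟨Cz, hCz, hz⟩ := zS_lip P
  obtain ⟨Cs, hCs, hs⟩ := lint_sing d P
  obtain ⟨K1, hK1⟩ : ∃ K1, K1 = (1920 * P ^ 3 + 26 * Cz) * Λ ^ 2 * P ^ 2 * Cs +
    16 * d.F0 * P ^ 3 * (240 * P ^ 3 * Λ * T * (4 * P ^ 2)) := ⟨_, rfl⟩
  obtain ⟨K2, hK2⟩ : ∃ K2, K2 = 16 * d.F0 * P ^ 3 * (960 * P ^ 5 * T) := ⟨_, rfl⟩
  refine ⟨max 1 (2 * max K1 K2), le_max_left _ _, fun M1 l1 M2 l2 G h t ht p p' hp hp' => ?_⟩
  have hΛ := h.hΛ
  have hM := h.hM1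
  have hl := h.hl1
  have hF := d.hF
  have hT : 0 ≤ T := ht.1.trans ht.2
  have hP1 : 1 ≤ P := by
    have : 0 ≤ 2 * Λ * T := by positivity
    linarith [d.hP]
  have hP : Bd d G t P := (h.bd d hT).mono ht.2 hPe.ge
  obtain ⟨δ, hδ⟩ : ∃ δ, δ = ‖p - p'‖ := ⟨_, rfl⟩
  have hδ0 : 0 ≤ δ := hδ ▸ norm_nonneg _
  have hI := fun (x : ST) (hx : x.1 ≤ t) => oplsM_int h hP (by linarith) ht (by linarith)
    (A := (1920 * P ^ 3 + 26 * Cz) * Λ ^ 2 * P ^ 2 * δ) (δ := 4 * P ^ 2 * δ)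
    (c1 := 960 * P ^ 5 * M1 * δ) (c2 := 240 * P ^ 3 * Λ) (by positivity) (by positivity)
    (by positivity) (by positivity) hx (hs _ _ _ _ _ G h x)
  have e : (1920 * P ^ 3 + 26 * Cz) * Λ ^ 2 * P ^ 2 * δ * Cs + 16 * d.F0 * P ^ 3 *
      (960 * P ^ 5 * M1 * δ * T * (Real.exp (l1 * t) / l1) + 240 * P ^ 3 * Λ * T * (4 * P ^ 2 * δ))
      = (K1 + K2 * (M1 * Real.exp (l1 * t) / l1)) * δ := by
    rw [hK1, hK2]
    ring
  rw [e] at hI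
  have hK10 : 0 ≤ K1 := by
    rw [hK1]
    positivity
  have hK20 : 0 ≤ K2 := by
    rw [hK2]
    positivity
  have hE : 0 ≤ M1 * Real.exp (l1 * t) / l1 := by positivity
  generalize M1 * Real.exp (l1 * t) / l1 = e1 at hI hE
  rw [opS, opS, ← integral_sub (h.integrable_S d p) (h.integrable_S d p'), ← hδ]
  refine (opls_norm_int (K := (K1 + K2 * e1) * δ + (K1 + K2 * e1) * δ) (by positivity) ?_).trans ?_
  · rw [ENNReal.ofReal_add (by positivity) (by positivity)]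
    refine le_trans ?_ (add_le_add (hI p hp) (hI p' hp'))
    rw [← lintegral_add_left (oplsM_meas h _ _ _ _ _ p).ennreal_ofReal]
    refine lintegral_mono_ae ?_
    filter_upwards [d.ae_mem, h.ae_rl_ne d p, h.ae_rl_ne d p'] with z z1 z2 z3
    rw [← ofReal_norm]
    refine (ENNReal.ofReal_le_ofReal ?_).trans ENNReal.ofReal_add_le
    rcases le_total (rt G z p') (rt G z p) with hr | hr
    · exact opls_pt h hP hP1 hCz hz z1 hp hp' z2.1 z3.1 hr hδ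
    · rw [norm_sub_rev, add_comm]
      exact opls_pt h hP hP1 hCz hz z1 hp' hp z3.1 z2.1 hr (hδ.trans (norm_sub_rev _ _))
  · rw [← add_mul]
    refine mul_le_mul_of_nonneg_right ?_ hδ0
    have b1 := le_max_left K1 K2
    have b2 := mul_le_mul_of_nonneg_right (le_max_right K1 K2) hE
    have b3 := mul_le_mul_of_nonneg_right (le_max_right 1 (2 * max K1 K2)) (add_nonneg zero_le_one hE)
    linarith

end

end Vale.Agent.P107
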