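import Vale.Agent.P107.OpLSAux

/-! Second differences of the retarded field. -/

namespace Vale.Agent.P107

open MeasureTheory Set Filter Topology
open scoped ENNReal RealInnerProductSpace

noncomputable section

theorem opsd_prod {f : Z → Z} (hf : Integrable f) {P K : ℝ} (hP : 0 ≤ P) (hK : 0 ≤ K)
    (h0 : ∀ l v, ¬ q v ≤ P → f (l, v) = 0)
    (h1 : ∀ v, q v ≤ P → ∫⁻ l, ‖f (l, v)‖ₑ ≤ ENNReal.ofReal K) : ‖∫ w, f w‖ ≤ 8 * P ^ 3 * K := by
  refine opls_norm_int (by positivity) ?_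
  rw [Measure.volume_eq_prod, lintegral_prod_symm _ hf.1.enorm]
  calc ∫⁻ v, ∫⁻ l, ‖f (l, v)‖ₑ
      ≤ ∫⁻ v, (Metric.closedBall (0 : V) P).indicator (fun _ => ENNReal.ofReal K) v := by
        refine lintegral_mono fun v => ?_
        by_cases hv : q v ≤ P
        · rw [indicator_of_mem (mem_closedBall_zero_iff.2 ((norm_lt_q v).le.trans hv))]
          exact h1 v hv
        · simp [h0 _ v hv]
    _ ≤ ENNReal.ofReal K * ENNReal.ofReal (8 * P ^ 3) := by
        rw [lintegral_indicator_const Metric.isClosed_closedBall.measurableSet]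
        exact mul_le_mul_right (vol_ball_le 0 hP) _
    _ = ENNReal.ofReal (8 * P ^ 3 * K) := by
        rw [← ENNReal.ofReal_mul hK, mul_comm]

theorem opsd_int {g : V → Z} {k : V → Z → Z} (he : ∀ x, g x = ∫ w, k x w ∧ Integrable (k x))
    (x h : V) : sd g x h = ∫ w, sd (fun y => k y w) x h ∧
      Integrable (fun w => sd (fun y => k y w) x h) := by
  have i1 := (he (x + h)).2
  have i2 := (he (x - h)).2
  have i3 : Integrable (fun w => (2 : ℝ) • k x w) := (he x).2.smul (2 : ℝ)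
  have i4 : Integrable (fun w => k (x + h) w + k (x - h) w) := i1.add i2
  refine ⟨?_, i4.sub i3⟩
  simp only [sd]
  rw [integral_sub i4 i3, integral_add i1 i2, integral_smul, (he _).1, (he _).1, (he _).1]

theorem opsd_shift {F : Type} [NormedAddCommGroup F] [NormedSpace ℝ F] {g : V → F} {C : ℝ}
    (h : SD g C) (l : V) : SD (fun y => g (y - l)) C := by
  intro x k
  have e := h (x - l) k
  simp only [sd] at e ⊢
  rwa [add_sub_right_comm x k l, sub_right_comm x k l]

theorem opsd_ang (v l : V) : |ang (vel v) (nrm l) / (4 * Real.pi)| ≤ 1 := by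
  have h0 := cone_ang_nonneg v l
  have h1 := ang_le_two (norm_vel_lt v).le (norm_nrm_le l)
  have h2 := Real.pi_gt_three
  rw [abs_of_nonneg (by positivity), div_le_one (by positivity)]
  linarith

theorem opsd_zero {k : V → Z} {x h : V} (h1 : k (x + h) = 0) (h2 : k (x - h) = 0) (h3 : k x = 0) :
    sd k x h = 0 := by
  simp [sd, h1, h2, h3]

theorem opsd_cw {Λ M1 l1 M2 l2 : ℝ} {G : ST → Z} (h : Cl Λ M1 l1 M2 l2 G) (d : Dat) {T s : ℝ}
    (hT : 0 ≤ T) (hs : s ≤ T) (y l : V) {v : V} (hv : ¬ q v ≤ d.P0 + 2 * Λ * T) :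
    cw d G (s, y) (l, v) = 0 := by
  by_contra h1
  exact hv (h.cw_supp (h.bd d hT) (p := (s, y)) hs h1).1

theorem opsd_far (d : Dat) (G : ST → Z) {s : ℝ} {y l v : V} (hl : s ≤ ‖l‖)
    (h : ¬ ‖y - s • vel v - l + ‖l‖ • vel v‖ ≤ d.R0) : cw d G (s, y) (l, v) = 0 := by
  have e : den d G (s - ‖l‖) (y - l, v) = 0 := by
    by_contra h1
    refine h (le_of_eq_of_le ?_ (den_supp_past d G (sub_nonpos.2 hl) h1).2.1)
    congr 1
    simp only [sub_smul]
    abel
  simp only [cw, e, mul_zero, zero_div]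

theorem op_sdT (d : Dat) (Λ M1 l1 T : ℝ) : ∃ C : ℝ, 1 ≤ C ∧ ∀ (M2 l2 : ℝ) (G : ST → Z),
    Cl Λ M1 l1 M2 l2 G → ∀ t ∈ Icc 0 T, ∀ s, s ≤ t →
    SD (fun x => opT d G (s, x)) (C * (1 + M2 * Real.exp (l2 * t) / l2)) := by
  obtain ⟨C1, hC1, H1⟩ := den_sd d Λ M1 l1 T
  obtain ⟨C2, hC2, H2⟩ := lint_inv_sq
  obtain ⟨C3, hC3, H3⟩ := free_int d.R0 (d.P0 + 2 * Λ * T)
  generalize hPe : d.P0 + 2 * Λ * T = P at H3
  refine ⟨max 1 (8 * P ^ 3 * (C1 * (100 * P ^ 3) * (C2 * T + 3 * C3))), le_max_left _ _,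
    fun M2 l2 G h t ht s hs x k => ?_⟩
  have hT : 0 ≤ T := ht.1.trans ht.2
  have hP : 0 ≤ P := by
    have := h.hΛ
    have := d.hP
    rw [← hPe]
    positivity
  have hE : 0 ≤ 1 + M2 * Real.exp (l2 * t) / l2 := by
    have := h.hM2
    have := h.hl2
    positivity
  generalize hEe : 1 + M2 * Real.exp (l2 * t) / l2 = E at hE
  obtain ⟨e1, i1⟩ := opsd_int (g := fun x => opT d G (s, x))
    (k := fun y w => cw d G (s, y) w • zT w.2 w.1) (fun y => h.opT_eul d (s, y)) x k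
  have hc : 0 ≤ C1 * E * ‖k‖ ^ 2 * (100 * P ^ 3) := by positivity
  rw [e1]
  refine (opsd_prod i1 hP (K := C1 * E * ‖k‖ ^ 2 * (100 * P ^ 3) * (C2 * T + 3 * C3))
    (by positivity) (fun l v hv => ?_) fun v hv => ?_).trans ?_
  · rw [← hPe] at hv
    apply opsd_zero <;> simp only [opsd_cw h d hT (hs.trans ht.2) _ l hv, zero_smul]
  · let A : V → Set V := fun y => {l : V | ‖y - s • vel v - l + ‖l‖ • vel v‖ ≤ d.R0}
    have hA : ∀ y, ∫⁻ l in A y, ENNReal.ofReal (1 / ‖l‖ ^ 2) ≤ ENNReal.ofReal C3 :=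
      fun y => H3 _ v hv
    have hB : ∫⁻ l in Metric.closedBall (0 : V) T, ENNReal.ofReal (1 / ‖l‖ ^ 2) ≤
        ENNReal.ofReal (C2 * T) := by
      simpa only [zero_sub, norm_neg] using H2 0 T hT
    calc ∫⁻ l, ‖sd (fun y => cw d G (s, y) (l, v) • zT v l) x k‖ₑ
        ≤ ∫⁻ l, (Metric.closedBall (0 : V) T ∪ A (x + k) ∪ A (x - k) ∪ A x).indicator
          (fun l => ENNReal.ofReal (C1 * E * ‖k‖ ^ 2 * (100 * P ^ 3)) *
            ENNReal.ofReal (1 / ‖l‖ ^ 2)) l := by
          refine lintegral_mono fun l => ?_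
          by_cases hl : l ∈ Metric.closedBall (0 : V) T ∪ A (x + k) ∪ A (x - k) ∪ A x
          · rw [indicator_of_mem hl, ← ENNReal.ofReal_mul hc, ← ofReal_norm]
            refine ENNReal.ofReal_le_ofReal ?_
            have s1 := opsd_shift (H1 M2 l2 G h t ht (s - ‖l‖)
              ((sub_le_self _ (norm_nonneg l)).trans hs) v) l x k
            have e2 : sd (fun y => cw d G (s, y) (l, v) • zT v l) x k =
                (ang (vel v) (nrm l) / (4 * Real.pi)) •
                  sd (fun y => den d G (s - ‖l‖) (y - l, v)) x k • zT v l := by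
              simp only [sd, cw, smul_smul, smul_eq_mul, ← add_smul, ← sub_smul]
              congr 1
              ring
            rw [hEe] at s1
            rw [e2, norm_smul, norm_smul, Real.norm_eq_abs]
            refine (mul_le_of_le_one_left (by positivity) (opsd_ang v l)).trans ?_
            refine (mul_le_mul s1 (norm_zT_le hv l) (norm_nonneg _) (by positivity)).trans_eq ?_
            ring
          · simp only [mem_union, not_or, mem_closedBall_zero_iff, not_le] at hl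
            have h2 : s ≤ ‖l‖ := (hs.trans ht.2).trans hl.1.1.1.le
            rw [opsd_zero (k := fun y => cw d G (s, y) (l, v) • zT v l)
              (by simp only [opsd_far d G h2 hl.1.1.2, zero_smul])
              (by simp only [opsd_far d G h2 hl.1.2, zero_smul])
              (by simp only [opsd_far d G h2 hl.2, zero_smul]), enorm_zero]
            exact zero_le
      _ ≤ ENNReal.ofReal (C1 * E * ‖k‖ ^ 2 * (100 * P ^ 3)) *
          (ENNReal.ofReal (C2 * T) + ENNReal.ofReal C3 + ENNReal.ofReal C3 +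
            ENNReal.ofReal C3) := by
          refine (lintegral_indicator_le _ _).trans ?_
          rw [lintegral_const_mul' _ _ ENNReal.ofReal_ne_top]
          refine mul_le_mul_right ?_ _
          exact (lintegral_union_le _ _ _).trans (add_le_add ((lintegral_union_le _ _ _).trans
            (add_le_add ((lintegral_union_le _ _ _).trans (add_le_add hB (hA _))) (hA _))) (hA _))
      _ = _ := by
          rw [← ENNReal.ofReal_add (by positivity) (by positivity),
            ← ENNReal.ofReal_add (by positivity) (by positivity),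
            ← ENNReal.ofReal_add (by positivity) (by positivity), ← ENNReal.ofReal_mul hc]
          congr 1
          ring
  · refine le_trans (le_of_eq ?_) (mul_le_mul_of_nonneg_right
      (mul_le_mul_of_nonneg_right (le_max_right _ _) hE) (sq_nonneg _))
    ring

/-- The Lorentz force as a linear map of the field. -/
def opsdL (v : V) : Z →L[ℝ] V :=
  ContinuousLinearMap.fst ℝ V V + (crossL (vel v)).comp (ContinuousLinearMap.snd ℝ V V)

theorem opsdL_apply (v : V) (a : Z) : opsdL v a = lor a.1 a.2 v := rfl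

theorem opsdL_norm (v : V) : ‖opsdL v‖ ≤ 2 := by
  refine ContinuousLinearMap.opNorm_le_bound _ zero_le_two fun a => ?_
  have h1 := norm_lor_le a.1 a.2 v
  have h2 := norm_fst_le a
  have h3 := norm_snd_le a
  rw [opsdL_apply]
  linarith

theorem opsd_S {Λ M1 l1 M2 l2 : ℝ} {G : ST → Z} (h : Cl Λ M1 l1 M2 l2 G) (d : Dat)
    {T s P C : ℝ} (hs : s ≤ T) {l v : V} (hl : ‖l‖ < s) (hv : q v ≤ P) (hC : 0 ≤ C)
    (hD : SD (fun x => den d G (s - ‖l‖) (x, v)) C) :
    SD (fun y => cw d G (s, y) (l, v) • eS G (s, y) (l, v))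
      (240 * P ^ 3 / ‖l‖ * (d.F0 * (M2 * Real.exp (l2 * (s - ‖l‖))) + Λ * C +
        2 * (4 * Λ * d.F0 * Real.exp (Av Λ M1 l1 T)) * (M1 * Real.exp (l1 * T)))) := by
  have hσ : 0 ≤ s - ‖l‖ := sub_nonneg.2 hl.le
  have hσT : s - ‖l‖ ≤ T := (sub_le_self _ (norm_nonneg l)).trans hs
  have hT : 0 ≤ T := hσ.trans hσT
  have h1 := h.hΛ
  have h2 := h.hM1
  have h3 := h.hM2
  have h4 := d.hF
  have hP : 0 ≤ P := (q_pos v).le.trans hv
  obtain ⟨A, hA, hA'⟩ := exists_zSL v l
  have s1 := SD.bilin (ContinuousLinearMap.lsmul ℝ ℝ : ℝ →L[ℝ] Z →L[ℝ] Z)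
    (g := fun x => den d G (s - ‖l‖) (x, v)) (k := fun x => G (s - ‖l‖, x)) (A := d.F0) (A' := Λ)
    (L := 4 * Λ * d.F0 * Real.exp (Av Λ M1 l1 T)) (L' := M1 * Real.exp (l1 * T))
    (fun x => by rw [Real.norm_eq_abs, abs_of_nonneg (den_nonneg _ _ _ _)]; exact den_le _ _ _ _)
    (by positivity)
    (fun a b => by
      simpa only [sub_self, abs_zero, zero_add, Real.norm_eq_abs]
        using h.den_lip d hT hσT hσT a b v)
    hC hD (fun x => h.bdd _) (by positivity)
    (fun a b => by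
      have e := h.lip T hT (s - ‖l‖, a) (s - ‖l‖, b) hσT hσT
      rwa [Prod.mk_sub_mk (s - ‖l‖), sub_self, Prod.norm_mk (0 : ℝ), norm_zero,
        max_eq_right (norm_nonneg _)] at e)
    (by positivity) (h.sd _ hσ _ le_rfl)
  have s2 := (opsd_shift s1 l).clm
    ((ang (vel v) (nrm l) / (4 * Real.pi)) • A.comp (opsdL v))
  have n1 : ‖(ang (vel v) (nrm l) / (4 * Real.pi)) • A.comp (opsdL v)‖ ≤ 240 * P ^ 3 / ‖l‖ := by
    rw [norm_smul, Real.norm_eq_abs]
    refine (mul_le_of_le_one_left (norm_nonneg _) (opsd_ang v l)).trans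
      ((ContinuousLinearMap.opNorm_comp_le _ _).trans ((mul_le_mul (hA' P hv) (opsdL_norm v)
        (norm_nonneg _) (by positivity)).trans_eq ?_))
    ring
  have n2 : ‖(ContinuousLinearMap.lsmul ℝ ℝ : ℝ →L[ℝ] Z →L[ℝ] Z)‖ ≤ 1 :=
    ContinuousLinearMap.opNorm_lsmul_le
  have e : (fun y => cw d G (s, y) (l, v) • eS G (s, y) (l, v)) = fun y =>
      ((ang (vel v) (nrm l) / (4 * Real.pi)) • A.comp (opsdL v))
        ((ContinuousLinearMap.lsmul ℝ ℝ : ℝ →L[ℝ] Z →L[ℝ] Z) (den d G (s - ‖l‖) (y - l, v))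
          (G (s - ‖l‖, y - l))) := by
    funext y
    simp only [cw, eS, if_pos hl, hA, smul_apply,
      ContinuousLinearMap.comp_apply, ContinuousLinearMap.lsmul_apply, map_smul, smul_smul,
      opsdL_apply]
    congr 1
    ring
  rw [e]
  refine s2.mono (mul_le_mul n1 (mul_le_of_le_one_left (by positivity) n2) (by positivity)
    (by positivity))

theorem op_sdS (d : Dat) (Λ M1 l1 T : ℝ) : ∃ C : ℝ, 1 ≤ C ∧ ∀ (M2 l2 : ℝ) (G : ST → Z),
    Cl Λ M1 l1 M2 l2 G → ∀ t ∈ Icc 0 T, ∀ s, s ≤ t →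
    SD (fun x => opS d G (s, x)) (C * (1 + M2 * Real.exp (l2 * t) / l2)) := by
  obtain ⟨C1, hC1, H1⟩ := den_sd d Λ M1 l1 T
  generalize hPe : d.P0 + 2 * Λ * T = P
  generalize hLe : 2 * (4 * Λ * d.F0 * Real.exp (Av Λ M1 l1 T)) * (M1 * Real.exp (l1 * T)) = L
  refine ⟨max 1 (8 * P ^ 3 * (4 * Real.pi * (240 * P ^ 3 *
    (d.F0 * T + (Λ * C1 + L) * T * T)))), le_max_left _ _, fun M2 l2 G h t ht s hs x k => ?_⟩
  have hT : 0 ≤ T := ht.1.trans ht.2
  have h1 := h.hΛ
  have h2 := h.hM1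
  have h3 := h.hM2
  have h4 := d.hF
  have h5 := h.hl2
  have h6 := Real.pi_pos
  have hP : 0 ≤ P := by
    have := d.hP
    rw [← hPe]
    positivity
  have hL : 0 ≤ L := by
    rw [← hLe]
    positivity
  have hE : 0 ≤ Real.exp (l2 * t) / l2 := by positivity
  have H2 := H1 M2 l2 G h t ht
  rw [mul_div_assoc] at H2 ⊢
  obtain ⟨e1, i1⟩ := opsd_int (g := fun x => opS d G (s, x))
    (k := fun y w => cw d G (s, y) w • eS G (s, y) w) (fun y => h.opS_eul d (s, y)) x k
  have c1 : 0 ≤ 240 * P ^ 3 * ‖k‖ ^ 2 * (d.F0 * M2) := by positivity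
  have c2 : 0 ≤ 240 * P ^ 3 * ‖k‖ ^ 2 * (Λ * (C1 * (1 + M2 * (Real.exp (l2 * t) / l2))) + L) := by
    positivity
  have H3 := oplsB_int hs ht.1 ht.2 (show 0 < l2 by linarith) hT c1 c2
  generalize Real.exp (l2 * t) / l2 = E at hE H2 H3 c2 ⊢
  rw [e1]
  refine (opsd_prod i1 hP (K := 4 * Real.pi * (240 * P ^ 3 * ‖k‖ ^ 2 * (d.F0 * M2) * T * E +
    240 * P ^ 3 * ‖k‖ ^ 2 * (Λ * (C1 * (1 + M2 * E)) + L) * T * T))
    (by positivity) (fun l v hv => ?_) fun v hv => ?_).trans ?_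
  · rw [← hPe] at hv
    apply opsd_zero <;> simp only [opsd_cw h d hT (hs.trans ht.2) _ l hv, zero_smul]
  · calc ∫⁻ l, ‖sd (fun y => cw d G (s, y) (l, v) • eS G (s, y) (l, v)) x k‖ₑ
        ≤ ∫⁻ l : V, ENNReal.ofReal (oplsB s l2 T (240 * P ^ 3 * ‖k‖ ^ 2 * (d.F0 * M2))
          (240 * P ^ 3 * ‖k‖ ^ 2 * (Λ * (C1 * (1 + M2 * E)) + L)) ‖l‖) := by
          refine lintegral_mono fun l => ?_
          rw [← ofReal_norm]
          refine ENNReal.ofReal_le_ofReal ?_
          by_cases hl : ‖l‖ < s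
          · refine (opsd_S h d (hs.trans ht.2) hl hv (by positivity)
              (H2 _ ((sub_le_self _ (norm_nonneg l)).trans hs) v) x k).trans_eq ?_
            rw [hLe, oplsB, if_pos hl,
              if_pos ⟨(sub_nonpos.2 (hs.trans ht.2)).trans (norm_nonneg l), hl⟩]
            ring
          · rw [opsd_zero (k := fun y => cw d G (s, y) (l, v) • eS G (s, y) (l, v))
              (by simp only [eS, if_neg hl, smul_zero]) (by simp only [eS, if_neg hl, smul_zero])
              (by simp only [eS, if_neg hl, smul_zero]), norm_zero]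
            exact oplsB_nonneg _ _ _ c1 c2 (norm_nonneg l)
      _ ≤ _ := by
          rw [geo_radial_zero _ (oplsB_meas _ _ _ _ _).ennreal_ofReal,
            ENNReal.ofReal_mul (p := 4 * Real.pi) (by positivity)]
          simp only [ENNReal.ofReal_mul (show 0 ≤ 4 * Real.pi by positivity), mul_assoc
            (ENNReal.ofReal (4 * Real.pi))]
          rw [lintegral_const_mul' _ _ ENNReal.ofReal_ne_top]
          exact mul_le_mul_right H3 _
  · refine le_trans ?_ (mul_le_mul_of_nonneg_right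
      (mul_le_mul_of_nonneg_right (le_max_right _ _) (by positivity)) (sq_nonneg _))
    have h7 : 0 ≤ 8 * P ^ 3 * (4 * Real.pi * (240 * P ^ 3 * ‖k‖ ^ 2 *
      (d.F0 * T + L * T * T * (M2 * E)))) := by positivity
    refine (le_add_of_nonneg_right h7).trans_eq ?_
    ring

theorem op_sd (d : Dat) (Λ M1 l1 T : ℝ) : ∃ C : ℝ, 1 ≤ C ∧ ∀ (M2 l2 : ℝ) (G : ST → Z),
    Cl Λ M1 l1 M2 l2 G → ∀ t ∈ Icc 0 T, ∀ s, s ≤ t →
    SD (fun x => retF d G (s, x)) (C * (1 + M2 * Real.exp (l2 * t) / l2)) := by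
  obtain ⟨C1, hC1, H1⟩ := op_sdT d Λ M1 l1 T
  obtain ⟨C2, hC2, H2⟩ := op_sdS d Λ M1 l1 T
  refine ⟨C1 + C2, by linarith, fun M2 l2 G h t ht s hs => ?_⟩
  rw [add_mul]
  exact (H1 M2 l2 G h t ht s hs).add (H2 M2 l2 G h t ht s hs)

end

end Vale.Agent.P107
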