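import Vale.Agent.P107.OpLT
import Vale.Agent.P107.OpLS
import Vale.Agent.P107.OpSD
import Vale.Agent.P107.OpC

/-! The fixed point of the truncated problem and uniqueness. -/

namespace Vale.Agent.P107

open MeasureTheory Set Filter Topology
open scoped ENNReal RealInnerProductSpace

noncomputable section

theorem op_lip (d : Dat) (Λ T : ℝ) : ∃ C : ℝ, 1 ≤ C ∧ ∀ (M1 l1 M2 l2 : ℝ) (G : ST → Z),
    Cl Λ M1 l1 M2 l2 G → ∀ t ∈ Icc 0 T, ∀ p p' : ST, p.1 ≤ t → p'.1 ≤ t →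
    ‖retF d G p - retF d G p'‖ ≤ C * (1 + M1 * Real.exp (l1 * t) / l1) * ‖p - p'‖ := by
  obtain ⟨C, hC, h⟩ := op_lipT d Λ T
  obtain ⟨C', hC', h'⟩ := op_lipS d Λ T
  refine ⟨C + C', by linarith, fun M1 l1 M2 l2 G hG t ht p p' hp hp' => ?_⟩
  have h1 := h M1 l1 M2 l2 G hG t ht p p' hp hp'
  have h2 := h' M1 l1 M2 l2 G hG t ht p p' hp hp'
  have e : retF d G p - retF d G p' = (opT d G p - opT d G p') + (opS d G p - opS d G p') := by
    unfold retF; abel
  rw [e]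
  refine (norm_add_le _ _).trans ?_
  linarith

theorem InCl.continuous_retF {G : ST → Z} (h : InCl G) (d : Dat) : Continuous (retF d G) := by
  obtain ⟨Λ, M1, l1, M2, l2, hG⟩ := h
  refine continuous_iff_continuousAt.2 fun p₀ => ?_
  obtain ⟨C, -, hC⟩ := op_lip d Λ (max (p₀.1 + 1) 0)
  have hlt : p₀.1 < max (p₀.1 + 1) 0 := lt_max_of_lt_left (lt_add_one _)
  have h1 : ∀ᶠ p : ST in 𝓝 p₀, p.1 < max (p₀.1 + 1) 0 :=
    (continuous_fst.tendsto p₀).eventually (gt_mem_nhds hlt)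
  refine tendsto_iff_norm_sub_tendsto_zero.2 (squeeze_zero' (Eventually.of_forall fun _ =>
    norm_nonneg _) (h1.mono fun p hp => hC M1 l1 M2 l2 G hG _ ⟨le_max_right _ _, le_rfl⟩ p p₀
      hp.le hlt.le) ?_)
  have h2 := (tendsto_iff_norm_sub_tendsto_zero.1 (tendsto_id (x := 𝓝 p₀))).const_mul
    (C * (1 + M1 * Real.exp (l1 * max (p₀.1 + 1) 0) / l1))
  rwa [mul_zero] at h2

theorem exists_trunc {A : ℝ} (hA : 1 ≤ A) : ∃ (Θ : Z → Z) (c : ℝ), 1 ≤ c ∧
    (∀ a, ‖a‖ ≤ A → Θ a = a) ∧ (∀ a, ‖Θ a‖ ≤ 2 * A) ∧ (∀ a b, ‖Θ a - Θ b‖ ≤ c * ‖a - b‖) ∧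
      SD Θ c := by
  let b : ContDiffBump (0 : Z) := ⟨A, 2 * A, by linarith, by linarith⟩
  have h1 : ContDiff ℝ 2 (fun a : Z => b a • a) := b.contDiff.smul contDiff_id
  have h2 : HasCompactSupport (fun a : Z => b a • a) := b.hasCompactSupport.smul_right
  obtain ⟨c, hc, -, h3, h4⟩ := exists_bounds_of_compact h1 h2
  refine ⟨fun a => b a • a, c, hc, fun a ha => ?_, fun a => ?_, h3, h4⟩
  · have : b a = 1 := b.one_of_mem_closedBall (mem_closedBall_zero_iff.2 ha)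
    simp only [this, one_smul]
  · rcases le_total ‖a‖ (2 * A) with h | h
    · rw [norm_smul, Real.norm_of_nonneg b.nonneg]
      exact (mul_le_of_le_one_left (norm_nonneg a) b.le_one).trans h
    · have : b a = 0 := b.zero_of_le_dist (by rwa [dist_zero_right])
      simp only [this, zero_smul, norm_zero]
      linarith

theorem Cl.of_tendsto {Λ M1 l1 M2 l2 : ℝ} {Gs : ℕ → ST → Z} {G : ST → Z}
    (h : ∀ n, Cl Λ M1 l1 M2 l2 (Gs n)) (hl : ∀ p, Tendsto (fun n => Gs n p) atTop (𝓝 (G p))) :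
    Cl Λ M1 l1 M2 l2 G := by
  refine ⟨(h 0).hΛ, (h 0).hM1, (h 0).hl1, (h 0).hM2, (h 0).hl2, fun p => ?_,
    fun t ht p p' hp hp' => ?_, fun t ht s hs z k => ?_⟩
  · exact le_of_tendsto' (hl p).norm fun n => (h n).bdd p
  · exact le_of_tendsto' ((hl p).sub (hl p')).norm fun n => (h n).lip t ht p p' hp hp'
  · exact le_of_tendsto' (((hl (s, z + k)).add (hl (s, z - k))).sub
      ((hl (s, z)).const_smul (2 : ℝ))).norm fun n => (h n).sd t ht s hs z k

theorem fix_zero {a B : ℝ} (h : ∀ n : ℕ, a ≤ B * (1 / 2) ^ n) : a ≤ 0 := by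
  have h1 := (tendsto_pow_atTop_nhds_zero_of_lt_one (r := (1 / 2 : ℝ)) (by norm_num)
    (by norm_num)).const_mul B
  rw [mul_zero] at h1
  exact ge_of_tendsto' h1 h

/-- Projection of the time variable to `[0, T]`. -/
def fixc (T : ℝ) (p : ST) : ST := (max 0 (min p.1 T), p.2)

theorem fixc_mem {T : ℝ} (hT : 0 ≤ T) (p : ST) : (fixc T p).1 ∈ Icc 0 T :=
  ⟨le_max_left _ _, max_le hT (min_le_right _ _)⟩

theorem fixc_le {T t : ℝ} (hT : 0 ≤ T) (ht : 0 ≤ t) {p : ST} (hp : p.1 ≤ t) :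
    (fixc T p).1 ≤ min t T :=
  max_le (le_min ht hT) (min_le_min_right _ hp)

theorem fixc_eq {T : ℝ} {p : ST} (hp : p.1 ∈ Icc 0 T) : fixc T p = p := by
  unfold fixc
  rw [min_eq_left hp.2, max_eq_right hp.1]

theorem fixc_lip (T : ℝ) (p p' : ST) : ‖fixc T p - fixc T p'‖ ≤ ‖p - p'‖ := by
  rw [Prod.norm_def, Prod.norm_def]
  refine max_le_max ?_ le_rfl
  change |max 0 (min p.1 T) - max 0 (min p'.1 T)| ≤ |p.1 - p'.1|
  rw [max_comm 0, max_comm 0]
  refine (abs_max_sub_max_le_abs _ _ _).trans ?_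
  simpa using abs_min_sub_min_le_max p.1 T p'.1 T

/-- The abstract iteration. -/
theorem fix_iter {P : (ST → Z) → Prop} {Φ : (ST → Z) → ST → Z} {T Λ lam : ℝ} (hT : 0 ≤ T)
    (hlam : 0 ≤ lam) (h0 : P 0) (hΦ : ∀ G, P G → P (Φ G)) (hb : ∀ G, P G → ∀ p, ‖G p‖ ≤ Λ)
    (hcl : ∀ (Gs : ℕ → ST → Z) (G : ST → Z), (∀ n, P (Gs n)) →
      (∀ p, Tendsto (fun n => Gs n p) atTop (𝓝 (G p))) → P G)
    (hc : ∀ G p, Φ G p = Φ G (fixc T p))
    (hcon : ∀ G G', P G → P G' → ∀ D : ℝ, 0 ≤ D →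
      (∀ p : ST, p.1 ∈ Icc 0 T → ‖G p - G' p‖ ≤ D * Real.exp (lam * p.1)) →
      ∀ p : ST, p.1 ∈ Icc 0 T → ‖Φ G p - Φ G' p‖ ≤ D / 2 * Real.exp (lam * p.1)) :
    ∃ G, P G ∧ ∀ p : ST, p.1 ∈ Icc 0 T → G p = Φ G p := by
  have hΛ : 0 ≤ Λ := (norm_nonneg _).trans (hb 0 h0 0)
  have hP : ∀ n : ℕ, P (Φ^[n] 0) := fun n => by
    induction n with
    | zero => exact h0
    | succ n ih => rw [Function.iterate_succ_apply']; exact hΦ _ ih
  have he1 : ∀ p : ST, p.1 ∈ Icc 0 T → 1 ≤ Real.exp (lam * p.1) := fun p hp =>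
    Real.one_le_exp (mul_nonneg hlam hp.1)
  have he2 : ∀ p : ST, p.1 ∈ Icc 0 T → Real.exp (lam * p.1) ≤ Real.exp (lam * T) := fun p hp =>
    Real.exp_le_exp.2 (mul_le_mul_of_nonneg_left hp.2 hlam)
  have hd : ∀ n : ℕ, ∀ p : ST, p.1 ∈ Icc 0 T →
      ‖Φ^[n] 0 p - Φ^[n + 1] 0 p‖ ≤ 2 * Λ * (1 / 2) ^ n * Real.exp (lam * p.1) := fun n => by
    induction n with
    | zero =>
      intro p hp
      have h1 := norm_sub_le (Φ^[0] 0 p) (Φ^[0 + 1] 0 p)
      have h2 := hb _ (hP 0) p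
      have h3 := hb _ (hP (0 + 1)) p
      have h4 := mul_le_mul_of_nonneg_left (he1 p hp) hΛ
      rw [pow_zero]
      linarith
    | succ n ih =>
      intro p hp
      have h1 := hcon _ _ (hP n) (hP (n + 1)) _ (by positivity) ih p hp
      rw [Function.iterate_succ_apply' Φ (n + 1), Function.iterate_succ_apply' Φ n, pow_succ]
      rw [Function.iterate_succ_apply' Φ n] at h1
      linarith
  have hd' : ∀ (p : ST) (n : ℕ), dist (Φ^[n + 1] 0 p) (Φ^[n + 1 + 1] 0 p) ≤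
      Λ * Real.exp (lam * T) * (1 / 2) ^ n := fun p n => by
    have h1 := hd (n + 1) _ (fixc_mem hT p)
    have h2 := mul_le_mul_of_nonneg_left (he2 _ (fixc_mem hT p))
      (by positivity : 0 ≤ 2 * Λ * (1 / 2) ^ (n + 1))
    rw [Function.iterate_succ_apply' Φ (n + 1), Function.iterate_succ_apply' Φ n, ← hc, ← hc,
      ← Function.iterate_succ_apply' Φ n] at h1
    rw [dist_eq_norm, Function.iterate_succ_apply' Φ (n + 1)]
    rw [pow_succ] at h1 h2
    linarith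
  choose G hG using fun p => cauchySeq_tendsto_of_complete
    (cauchySeq_of_le_geometric (1 / 2) _ (by norm_num) (hd' p))
  have hPG : P G := hcl (fun n => Φ^[n + 1] 0) G (fun n => hP (n + 1)) hG
  have hdist : ∀ (p : ST) (n : ℕ), ‖Φ^[n + 1] 0 p - G p‖ ≤
      2 * (Λ * Real.exp (lam * T)) * (1 / 2) ^ n := fun p n => by
    have h1 := dist_le_of_le_geometric_of_tendsto (1 / 2) _ (by norm_num) (hd' p) (hG p) n
    rw [dist_eq_norm, le_div_iff₀ (by norm_num)] at h1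
    linarith
  refine ⟨G, hPG, fun p hp => ?_⟩
  rw [← sub_eq_zero, ← norm_le_zero_iff]
  refine fix_zero (B := Λ * Real.exp (lam * T) * (1 + Real.exp (lam * T))) fun n => ?_
  have h1 := hcon _ _ (hP (n + 1)) hPG (2 * (Λ * Real.exp (lam * T)) * (1 / 2) ^ n)
    (by positivity) (fun p hp => (hdist p n).trans
      (le_mul_of_one_le_right (by positivity) (he1 p hp))) p hp
  have h2 := hdist p (n + 1)
  rw [Function.iterate_succ_apply' Φ (n + 1), pow_succ, norm_sub_rev] at h2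
  have h3 := norm_sub_le_norm_sub_add_norm_sub (G p) (Φ (Φ^[n + 1] 0) p) (Φ G p)
  have h4 := mul_le_mul_of_nonneg_left (he2 p hp)
    (by positivity : 0 ≤ Λ * Real.exp (lam * T) * (1 / 2) ^ n)
  linarith

theorem fix_half {c C M e a : ℝ} (hc : 1 ≤ c) (hC : 1 ≤ C) (he : 1 ≤ e) (hM : 0 ≤ M)
    (ha : 2 * (a + c * C) ≤ M) : a + c * (C * (1 + M * e / (2 * c * C))) ≤ M * e := by
  have h1 : c * (C * (1 + M * e / (2 * c * C))) = c * C + M * e / 2 := by
    field_simp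
  have h2 := mul_le_mul_of_nonneg_left he hM
  linarith

theorem exists_fix (d : Dat) {K : ST → Z} (hK : Nice K) {T A : ℝ} (hT : 0 ≤ T) (hA : 1 ≤ A) :
    ∃ G : ST → Z, InCl G ∧ ∀ p : ST, p.1 ∈ Icc 0 T → ‖HH d K G p‖ ≤ A → G p = HH d K G p := by
  obtain ⟨Θ, c, hc, hΘ1, hΘ2, hΘ3, hΘ4⟩ := exists_trunc hA
  obtain ⟨CK, hCK, -, hK2, hK3⟩ := hK.bd T
  obtain ⟨C, hC, hlip⟩ := op_lip d (2 * A) T
  obtain ⟨M1, hM1⟩ : ∃ M1, M1 = 2 * (c * CK + c * C) := ⟨_, rfl⟩
  obtain ⟨C2, hC2, hsd⟩ := op_sd d (2 * A) M1 (2 * c * C) T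
  obtain ⟨C3, hC3, hcon⟩ := op_contr d (2 * A) M1 (2 * c * C) T
  obtain ⟨L, hL⟩ : ∃ L, L = M1 * Real.exp (2 * c * C * T) := ⟨_, rfl⟩
  obtain ⟨M2, hM2⟩ : ∃ M2, M2 = 2 * (c * L ^ 2 + c * CK + c * C2) := ⟨_, rfl⟩
  have c0 : 0 ≤ c := by linarith
  have p1 : 1 ≤ c * CK := one_le_mul_of_one_le_of_one_le hc hCK
  have p2 : 1 ≤ c * C := one_le_mul_of_one_le_of_one_le hc hC
  have p3 : 1 ≤ c * C2 := one_le_mul_of_one_le_of_one_le hc hC2
  have p4 : 1 ≤ c * C3 := one_le_mul_of_one_le_of_one_le hc hC3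
  have p5 : 0 ≤ c * L ^ 2 := by positivity
  have q1 : 1 ≤ M1 := by linarith
  have q2 : 1 ≤ M2 := by linarith
  have q3 : 1 ≤ 2 * c * C := by linarith
  have q4 : 1 ≤ 2 * c * C2 := by linarith
  have q5 : 1 ≤ 2 * c * C3 := by linarith
  have lipH : ∀ G, Cl (2 * A) M1 (2 * c * C) M2 (2 * c * C2) G → ∀ t ∈ Icc 0 T, ∀ p p' : ST,
      p.1 ∈ Icc 0 t → p'.1 ∈ Icc 0 t → c * ‖HH d K G p - HH d K G p'‖ ≤
        M1 * Real.exp (2 * c * C * t) * ‖p - p'‖ := by
    intro G hG t ht p p' hp hp'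
    have h1 := hlip _ _ _ _ G hG t ht p p' hp.2 hp'.2
    have h2 := hK2 p p' ⟨hp.1, hp.2.trans ht.2⟩ ⟨hp'.1, hp'.2.trans ht.2⟩
    have e : HH d K G p - HH d K G p' = (K p - K p') + (retF d G p - retF d G p') := by
      unfold HH; abel
    have h3 := mul_le_mul_of_nonneg_left ((norm_add_le _ _).trans (add_le_add h2 h1)) c0
    have h4 := mul_le_mul_of_nonneg_right (fix_half (a := c * CK) (M := M1) hc hC
      (Real.one_le_exp (mul_nonneg (zero_le_one.trans q3) ht.1)) (zero_le_one.trans q1) hM1.ge)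
      (norm_nonneg (p - p'))
    rw [e]
    linarith
  obtain ⟨G, hG, hfix⟩ := fix_iter (P := Cl (2 * A) M1 (2 * c * C) M2 (2 * c * C2))
    (Φ := fun G p => Θ (HH d K G (fixc T p))) (Λ := 2 * A) (lam := 2 * c * C3) hT
    (zero_le_one.trans q5) (Cl.zero.mono (by linarith) q1 q3 q2 q4) (fun G hG => by
      refine ⟨hG.hΛ, q1, q3, q2, q4, fun p => hΘ2 _, fun t ht p p' hp hp' => ?_,
        fun t ht s hs => ?_⟩
      · have h1 := lipH G hG (min t T) ⟨le_min ht hT, min_le_right _ _⟩ _ _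
          ⟨(fixc_mem hT p).1, fixc_le hT ht hp⟩ ⟨(fixc_mem hT p').1, fixc_le hT ht hp'⟩
        refine ((hΘ3 _ _).trans h1).trans (mul_le_mul (mul_le_mul_of_nonneg_left
          (Real.exp_le_exp.2 (mul_le_mul_of_nonneg_left (min_le_left _ _)
            (zero_le_one.trans q3))) (zero_le_one.trans q1)) (fixc_lip T p p')
          (norm_nonneg _) (by positivity))
      · have hm := fixc_mem hT (s, 0)
        have ht' : min t T ∈ Icc 0 T := ⟨le_min ht hT, min_le_right _ _⟩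
        have h1 := (hK3 _ hm).add (hsd _ _ G hG (min t T) ht' _ (fixc_le hT ht (p := (s, 0)) hs))
        have h2 : ∀ a b : V, ‖HH d K G (fixc T (s, a)) - HH d K G (fixc T (s, b))‖ ≤
            L * ‖a - b‖ := fun a b => by
          have k1 := lipH G hG T ⟨hT, le_rfl⟩ _ _ (fixc_mem hT (s, a)) (fixc_mem hT (s, b))
          have k2 : ‖fixc T (s, a) - fixc T (s, b)‖ = ‖a - b‖ := by
            simp [fixc, Prod.norm_def]
          rw [k2, ← hL] at k1
          exact (le_mul_of_one_le_left (norm_nonneg _) hc).trans k1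
        have h3 := hΘ4.comp (k := fun x => HH d K G (fixc T (s, x))) c0 c0 hΘ3 h1 h2
        refine h3.mono ?_
        have h4 := fix_half (a := c * L ^ 2 + c * CK) (M := M2) hc hC2
          (Real.one_le_exp (mul_nonneg (zero_le_one.trans q4) ht'.1)) (zero_le_one.trans q2)
          hM2.ge
        have h5 := mul_le_mul_of_nonneg_left (Real.exp_le_exp.2 (mul_le_mul_of_nonneg_left
          (min_le_left t T) (zero_le_one.trans q4))) (zero_le_one.trans q2)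
        linarith)
    (fun G hG => hG.bdd) (fun _ _ h hl => Cl.of_tendsto h hl)
    (fun G p => by simp only [fixc_eq (fixc_mem hT p)])
    (fun G G' hG hG' D hD h p hp => by
      have h1 := hcon _ _ G G' hG hG' D _ hD q5 p.1 hp
        (fun p' hp' => h p' ⟨hp'.1, hp'.2.trans hp.2⟩) p.2
      have e : HH d K G p - HH d K G' p = retF d G (p.1, p.2) - retF d G' (p.1, p.2) := by
        unfold HH; abel
      have h2 := mul_le_mul_of_nonneg_left h1 c0
      have h3 : c * (C3 * (D * Real.exp (2 * c * C3 * p.1) / (2 * c * C3))) =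
          D / 2 * Real.exp (2 * c * C3 * p.1) := by
        field_simp
      simp only [fixc_eq hp]
      refine (hΘ3 _ _).trans ?_
      rw [e]
      linarith)
  refine ⟨G, ⟨_, _, _, _, _, hG⟩, fun p hp hA' => ?_⟩
  rw [hfix p hp, fixc_eq hp]
  exact hΘ1 _ hA'

theorem Sol.unique {d : Dat} {K G G' : ST → Z} {T : ℝ} (h : Sol d K T G) (h' : Sol d K T G') :
    ∀ p : ST, p.1 ∈ Icc 0 T → G p = G' p := by
  obtain ⟨Λ, M1, l1, M2, l2, hG, hG'⟩ := h.cl.common h'.cl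
  obtain ⟨C, hC, hcon⟩ := op_contr d Λ M1 l1 T
  have hΛ : 0 ≤ Λ := zero_le_one.trans hG.hΛ
  have hd : ∀ n : ℕ, ∀ p : ST, p.1 ∈ Icc 0 T →
      ‖G p - G' p‖ ≤ 2 * Λ * (1 / 2) ^ n * Real.exp (2 * C * p.1) := fun n => by
    induction n with
    | zero =>
      intro p hp
      have h1 := norm_sub_le (G p) (G' p)
      have h2 := hG.bdd p
      have h3 := hG'.bdd p
      have h4 := mul_le_mul_of_nonneg_left
        (Real.one_le_exp (mul_nonneg (by linarith : 0 ≤ 2 * C) hp.1)) hΛ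
      rw [pow_zero]
      linarith
    | succ n ih =>
      intro p hp
      have h1 := hcon _ _ G G' hG hG' _ (2 * C) (by positivity) (by linarith) p.1 hp
        (fun p' hp' => ih p' ⟨hp'.1, hp'.2.trans hp.2⟩) p.2
      have e : G p - G' p = retF d G (p.1, p.2) - retF d G' (p.1, p.2) := by
        rw [h.eq p hp, h'.eq p hp]
        unfold HH; abel
      have h3 : C * (2 * Λ * (1 / 2) ^ n * Real.exp (2 * C * p.1) / (2 * C)) =
          2 * Λ * (1 / 2) ^ (n + 1) * Real.exp (2 * C * p.1) := by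
        rw [pow_succ]
        field_simp
      rw [e, ← h3]
      exact h1
  intro p hp
  rw [← sub_eq_zero, ← norm_le_zero_iff]
  refine fix_zero (B := 2 * Λ * Real.exp (2 * C * p.1)) fun n => ?_
  have := hd n p hp
  linarith

end

end Vale.Agent.P107
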