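import Vale.Agent.P107.MaxSm

/-! Smooth functions bounded with all derivatives. -/

namespace Vale.Agent.P107

open MeasureTheory Set Filter Topology
open scoped ENNReal RealInnerProductSpace

noncomputable section

variable {F : Type} [NormedAddCommGroup F] [NormedSpace ℝ F] [CompleteSpace F]

/-- Bounded derivative of one order. -/
def sbfP {G : Type} [NormedAddCommGroup G] [NormedSpace ℝ G] (n : ℕ) (g : V → G) : Prop :=
  ContDiff ℝ n g ∧ ∃ C : ℝ, ∀ x, ‖iteratedFDeriv ℝ n g x‖ ≤ C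

section
variable {G G' : Type} [NormedAddCommGroup G] [NormedSpace ℝ G] [NormedAddCommGroup G']
  [NormedSpace ℝ G']

theorem sbf_iff {g : V → G} : SB g ↔ ∀ n, sbfP n g :=
  ⟨fun h n => ⟨contDiff_infty.1 h.1 n, h.2 n⟩,
    fun h => ⟨contDiff_infty.2 fun n => (h n).1, fun n => (h n).2⟩⟩

theorem sbfP.add {n : ℕ} {g g' : V → G} (h : sbfP n g) (h' : sbfP n g') :
    sbfP n (fun x => g x + g' x) := by
  obtain ⟨h1, C, hC⟩ := h
  obtain ⟨h2, C', hC'⟩ := h'
  refine ⟨h1.add h2, C + C', fun x => ?_⟩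
  rw [fun_iteratedFDeriv_add_apply h1.contDiffAt h2.contDiffAt]
  exact (norm_add_le _ _).trans (add_le_add (hC x) (hC' x))

theorem sbfP.clm {n : ℕ} {g : V → G} (h : sbfP n g) (A : G →L[ℝ] G') :
    sbfP n (fun x => A (g x)) := by
  obtain ⟨h1, C, hC⟩ := h
  refine ⟨A.contDiff.comp h1, ‖A‖ * C, fun x => ?_⟩
  exact (A.norm_iteratedFDeriv_comp_left h1.contDiffAt le_rfl).trans
    (mul_le_mul_of_nonneg_left (hC x) (norm_nonneg _))

theorem sbf_fderiv {g : V → G} (h : SB g) : SB (fderiv ℝ g) := by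
  refine ⟨h.1.fderiv_right (by simp), fun n => ?_⟩
  obtain ⟨C, hC⟩ := h.2 (n + 1)
  exact ⟨C, fun x => by rw [norm_iteratedFDeriv_fderiv]; exact hC x⟩

theorem sbf_lip {g : V → G} (h : SB g) :
    ∃ C : ℝ, 0 ≤ C ∧ ∀ a b, ‖g a - g b‖ ≤ C * ‖a - b‖ := by
  obtain ⟨C, hC⟩ := h.2 1
  refine ⟨C, (norm_nonneg _).trans (hC 0), fun a b => ?_⟩
  refine convex_univ.norm_image_sub_le_of_norm_fderiv_le (𝕜 := ℝ)
    (fun x _ => h.1.differentiable (by simp) x) (fun x _ => ?_) (mem_univ b) (mem_univ a)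
  rw [← norm_iteratedFDeriv_one]
  exact hC x

end

theorem sbf_pd {E : V → V} {x : V} (h : DifferentiableAt ℝ E x) (i j : Fin 3) :
    pd i (fun y => E y j) x = fderiv ℝ E x (EuclideanSpace.single i 1) j := by
  have h1 : HasFDerivAt (fun y => E y j) ((EuclideanSpace.proj j : V →L[ℝ] ℝ).comp
      (fderiv ℝ E x)) x := (EuclideanSpace.proj j : V →L[ℝ] ℝ).hasFDerivAt.comp x h.hasFDerivAt
  rw [pd, h1.fderiv]
  rfl

/-- The curl as a function of the derivative. -/
def sbfC : (V →L[ℝ] V) →L[ℝ] V :=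
  LinearMap.toContinuousLinearMap
    { toFun := fun D => mk3
        (D (EuclideanSpace.single 1 1) 2 - D (EuclideanSpace.single 2 1) 1)
        (D (EuclideanSpace.single 2 1) 0 - D (EuclideanSpace.single 0 1) 2)
        (D (EuclideanSpace.single 0 1) 1 - D (EuclideanSpace.single 1 1) 0)
      map_add' := fun D D' => by refine ext3 ?_ ?_ ?_ <;> simp <;> ring
      map_smul' := fun r D => by refine ext3 ?_ ?_ ?_ <;> simp <;> ring }

theorem sbfC_apply (D : V →L[ℝ] V) : sbfC D = mk3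
    (D (EuclideanSpace.single 1 1) 2 - D (EuclideanSpace.single 2 1) 1)
    (D (EuclideanSpace.single 2 1) 0 - D (EuclideanSpace.single 0 1) 2)
    (D (EuclideanSpace.single 0 1) 1 - D (EuclideanSpace.single 1 1) 0) := rfl

theorem sbf_curl {E : V → V} {x : V} (h : DifferentiableAt ℝ E x) :
    curl E x = sbfC (fderiv ℝ E x) := by
  rw [sbfC_apply, curl]
  simp only [sbf_pd h]

theorem sbf_dvg {E : V → V} {x : V} (h : DifferentiableAt ℝ E x) :
    dvg E x = ∑ i, fderiv ℝ E x (EuclideanSpace.single i 1) i := by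
  simp only [dvg, sbf_pd h]

theorem sbf_slice {H : ST → V} {p : ST} (h : DifferentiableAt ℝ H p) :
    HasFDerivAt (fun x => H (p.1, x)) ((fderiv ℝ H p).comp (ContinuousLinearMap.inr ℝ ℝ V)) p.2 :=
  h.hasFDerivAt.comp p.2 (hasFDerivAt_prodMk_right p.1 p.2)

theorem Fld.sb {E : V → V} (h : Fld E) : SB E := by
  exact ⟨h.smooth, h.bdd⟩

theorem SB.bdd {g : V → F} (h : SB g) : ∃ C : ℝ, 1 ≤ C ∧ (∀ x, ‖g x‖ ≤ C) ∧
    (∀ a b, ‖g a - g b‖ ≤ C * ‖a - b‖) ∧ SD g C := by
  obtain ⟨C0, h0⟩ := h.2 0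
  obtain ⟨C1, hC1, h1⟩ := sbf_lip h
  obtain ⟨C2, hC2, h2⟩ := sbf_lip (sbf_fderiv h)
  have hC0 : 0 ≤ C0 := (norm_nonneg _).trans (h0 0)
  refine ⟨1 + C0 + C1 + 2 * C2, by linarith, fun x => ?_, fun a b => ?_, ?_⟩
  · have := h0 x
    rw [norm_iteratedFDeriv_zero] at this
    linarith
  · exact (h1 a b).trans (mul_le_mul_of_nonneg_right (by linarith) (norm_nonneg _))
  · exact (SD.of_fderiv (h.1.differentiable (by simp)) h2).mono (by linarith)

theorem SB.add {g g' : V → F} (h : SB g) (h' : SB g') : SB (fun x => g x + g' x) := by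
  exact sbf_iff.2 fun n => (sbf_iff.1 h n).add (sbf_iff.1 h' n)

theorem SB.sub {g g' : V → F} (h : SB g) (h' : SB g') : SB (fun x => g x - g' x) := by
  have h1 := sbf_iff.2 fun n => (sbf_iff.1 h n).add
    ((sbf_iff.1 h' n).clm (-ContinuousLinearMap.id ℝ F))
  simpa [sub_eq_add_neg] using h1

theorem SB.clm {F' : Type} [NormedAddCommGroup F'] [NormedSpace ℝ F'] {g : V → F} (h : SB g)
    (A : F →L[ℝ] F') : SB (fun x => A (g x)) := by
  exact sbf_iff.2 fun n => (sbf_iff.1 h n).clm A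

theorem SB.fderiv {g : V → F} (h : SB g) : SB (fderiv ℝ g) := by
  exact sbf_fderiv h

theorem SB.curl {E : V → V} (h : SB E) : SB (curl E) := by
  have e : P107.curl E = fun x => sbfC (_root_.fderiv ℝ E x) :=
    funext fun x => sbf_curl (h.1.differentiable (by simp) x)
  rw [e]
  exact sbf_iff.2 fun n => (sbf_iff.1 (sbf_fderiv h) n).clm sbfC

theorem dvg_curl {E : V → V} (h : ContDiff ℝ 2 E) (x : V) : dvg (curl E) x = 0 := by
  have e : curl E = fun x => sbfC (fderiv ℝ E x) :=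
    funext fun x => sbf_curl (h.differentiable two_ne_zero x)
  have h1 : ContDiff ℝ 1 (fderiv ℝ E) := h.fderiv_right (by norm_num)
  have h2 : HasFDerivAt (curl E) (sbfC.comp (fderiv ℝ (fderiv ℝ E) x)) x := by
    rw [e]
    exact sbfC.hasFDerivAt.comp x (h1.differentiable one_ne_zero x).hasFDerivAt
  have h3 := (h.contDiffAt (x := x)).isSymmSndFDerivAt (by simp)
  rw [sbf_dvg h2.differentiableAt, h2.fderiv, Fin.sum_univ_three]
  simp only [ContinuousLinearMap.comp_apply, sbfC_apply, mk3_0, mk3_1, mk3_2]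
  rw [h3.eq (EuclideanSpace.single 0 1) (EuclideanSpace.single 1 1),
    h3.eq (EuclideanSpace.single 0 1) (EuclideanSpace.single 2 1),
    h3.eq (EuclideanSpace.single 1 1) (EuclideanSpace.single 2 1)]
  ring

theorem curl_eq_cu {H : ST → V} {p : ST} (h : DifferentiableAt ℝ H p) :
    curl (fun x => H (p.1, x)) p.2 = cu (fun e => fderiv ℝ H p e) := by
  rw [sbf_curl (sbf_slice h).differentiableAt, (sbf_slice h).fderiv]
  rfl

theorem dvg_eq_dv {H : ST → V} {p : ST} (h : DifferentiableAt ℝ H p) :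
    dvg (fun x => H (p.1, x)) p.2 = dv (fun e => fderiv ℝ H p e) := by
  rw [sbf_dvg (sbf_slice h).differentiableAt, (sbf_slice h).fderiv]
  rfl

theorem dvg_sub {E E' : V → V} (h : Differentiable ℝ E) (h' : Differentiable ℝ E') (x : V) :
    dvg (fun x => E x - E' x) x = dvg E x - dvg E' x := by
  have h1 := (h x).hasFDerivAt.fun_sub (h' x).hasFDerivAt
  rw [sbf_dvg h1.differentiableAt, h1.fderiv, sbf_dvg (h x), sbf_dvg (h' x),
    ← Finset.sum_sub_distrib]
  rfl

/-- A family of bounded differentiable functions closed under coordinate derivatives. -/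
theorem SB.of_closed (A : Set (V → F))
    (h : ∀ g ∈ A, Differentiable ℝ g ∧ (∃ C, ∀ x, ‖g x‖ ≤ C) ∧
      ∀ i : Fin 3, (fun x => _root_.fderiv ℝ g x (EuclideanSpace.single i 1)) ∈ A) :
    ∀ g ∈ A, SB g := by
  have key : ∀ n : ℕ, ∀ g ∈ A, sbfP n g := by
    intro n
    induction n with
    | zero =>
      intro g hg
      obtain ⟨h1, ⟨C, hC⟩, -⟩ := h g hg
      exact ⟨contDiff_zero.2 h1.continuous, C, fun x => by
        rw [norm_iteratedFDeriv_zero]; exact hC x⟩
    | succ n ih =>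
      intro g hg
      obtain ⟨h1, -, h2⟩ := h g hg
      let L : Fin 3 → F →L[ℝ] (V →L[ℝ] F) := fun i =>
        ContinuousLinearMap.smulRightL ℝ V F (EuclideanSpace.proj i)
      have h3 := (((ih _ (h2 0)).clm (L 0)).add ((ih _ (h2 1)).clm (L 1))).add
        ((ih _ (h2 2)).clm (L 2))
      have e : _root_.fderiv ℝ g = fun x =>
          L 0 (_root_.fderiv ℝ g x (EuclideanSpace.single 0 1))
            + L 1 (_root_.fderiv ℝ g x (EuclideanSpace.single 1 1))
            + L 2 (_root_.fderiv ℝ g x (EuclideanSpace.single 2 1)) := by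
        funext x
        ext v
        have hv : v = v 0 • EuclideanSpace.single 0 (1 : ℝ) + v 1 • EuclideanSpace.single 1 (1 : ℝ)
            + v 2 • EuclideanSpace.single 2 (1 : ℝ) := by
          refine ext3 ?_ ?_ ?_ <;> simp
        conv_lhs => rw [hv, map_add, map_add, map_smul, map_smul, map_smul]
        rfl
      rw [← e] at h3
      obtain ⟨h4, C, hC⟩ := h3
      refine ⟨?_, C, fun x => by rw [← norm_iteratedFDeriv_fderiv]; exact hC x⟩
      push_cast
      exact contDiff_succ_iff_fderiv.2 ⟨h1, by simp, h4⟩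
  exact fun g hg => sbf_iff.2 fun n => key n g hg

theorem Nice.add {K K' : ST → Z} (h : Nice K) (h' : Nice K') : Nice (fun p => K p + K' p) := by
  refine ⟨h.c1.add h'.c1, fun T => ?_⟩
  obtain ⟨C, hC, h1, h2, h3⟩ := h.bd T
  obtain ⟨C', hC', h1', h2', h3'⟩ := h'.bd T
  refine ⟨C + C', by linarith, fun p hp => ?_, fun p p' hp hp' => ?_, fun s hs => ?_⟩
  · exact (norm_add_le _ _).trans (add_le_add (h1 p hp) (h1' p hp))
  · rw [add_sub_add_comm, add_mul]
    exact (norm_add_le _ _).trans (add_le_add (h2 p p' hp hp') (h2' p p' hp hp'))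
  · exact (h3 s hs).add (h3' s hs)

theorem sbf_sd_smul {g : V → Z} {C r M : ℝ} (h : SD g C) (hr : |r| ≤ M) :
    SD (fun x => r • g x) (M * C) := by
  intro z k
  have e : sd (fun x => r • g x) z k = r • sd g z k := by
    simp only [sd, smul_add, smul_sub, smul_comm r (2 : ℝ)]
  rw [e, norm_smul, Real.norm_eq_abs, mul_assoc]
  exact mul_le_mul hr (h z k) (norm_nonneg _) ((abs_nonneg _).trans hr)

theorem Nice.smul {K : ST → Z} (h : Nice K) (r : ℝ) : Nice (fun p => r • K p) := by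
  refine ⟨h.c1.const_smul r, fun T => ?_⟩
  obtain ⟨C, hC, h1, h2, h3⟩ := h.bd T
  have hr := abs_nonneg r
  have hM : |r| ≤ 1 + |r| := by linarith
  refine ⟨(1 + |r|) * C, by nlinarith, fun p hp => ?_, fun p p' hp hp' => ?_, fun s hs => ?_⟩
  · rw [norm_smul, Real.norm_eq_abs]
    exact mul_le_mul hM (h1 p hp) (norm_nonneg _) (by linarith)
  · rw [← smul_sub, norm_smul, Real.norm_eq_abs, mul_assoc]
    exact mul_le_mul hM (h2 p p' hp hp') (norm_nonneg _) (by linarith)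
  · exact sbf_sd_smul (h3 s hs) hM

theorem Nice.monomial {a : V → Z} (h : SB a) (k : ℕ) : Nice (fun p => p.1 ^ k • a p.2) := by
  refine ⟨(contDiff_fst.pow k).smul ((h.1.of_le (by simp)).comp contDiff_snd), fun T => ?_⟩
  obtain ⟨C, hC, h1, h2, h3⟩ := h.bdd
  obtain ⟨M, hM1, hMT⟩ : ∃ M : ℝ, 1 ≤ M ∧ T ≤ M := ⟨max 1 T, le_max_left _ _, le_max_right _ _⟩
  have hk : 1 ≤ M ^ k := one_le_pow₀ hM1
  have hk0 : (0 : ℝ) ≤ k := Nat.cast_nonneg k
  have ha : ∀ s ∈ Icc 0 T, |s| ≤ M := fun s hs => by rw [abs_of_nonneg hs.1]; exact hs.2.trans hMT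
  have hb : ∀ s ∈ Icc 0 T, |s ^ k| ≤ M ^ k := fun s hs => by
    rw [abs_pow]; exact pow_le_pow_left₀ (abs_nonneg _) (ha s hs) k
  have hle : M ^ k ≤ (1 + k) * M ^ k := by nlinarith
  refine ⟨(1 + k) * M ^ k * C, by nlinarith, fun p hp => ?_, fun p p' hp hp' => ?_,
    fun s hs => ?_⟩
  · rw [norm_smul, Real.norm_eq_abs]
    exact mul_le_mul ((hb _ hp).trans hle) (h1 _) (norm_nonneg _) (by positivity)
  · have e : p.1 ^ k • a p.2 - p'.1 ^ k • a p'.2
        = p.1 ^ k • (a p.2 - a p'.2) + (p.1 ^ k - p'.1 ^ k) • a p'.2 := by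
      rw [smul_sub, sub_smul]; abel
    have d1 : ‖p.2 - p'.2‖ ≤ ‖p - p'‖ := norm_snd_le (p - p')
    have d2 : |p.1 - p'.1| ≤ ‖p - p'‖ := norm_fst_le (p - p')
    have d3 : max |p.1| |p'.1| ^ (k - 1) ≤ M ^ k :=
      (pow_le_pow_left₀ (le_max_of_le_left (abs_nonneg _)) (max_le (ha _ hp) (ha _ hp')) _).trans
        (pow_le_pow_right₀ hM1 (Nat.sub_le _ _))
    have d4 : |p.1 ^ k - p'.1 ^ k| ≤ ‖p - p'‖ * k * M ^ k :=
      (abs_pow_sub_pow_le _ _ _).trans
        (mul_le_mul (mul_le_mul_of_nonneg_right d2 hk0) d3 (by positivity) (by positivity))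
    have d5 : ‖p.1 ^ k • (a p.2 - a p'.2)‖ ≤ M ^ k * (C * ‖p - p'‖) := by
      rw [norm_smul, Real.norm_eq_abs]
      exact mul_le_mul (hb _ hp) ((h2 _ _).trans (mul_le_mul_of_nonneg_left d1 (by linarith)))
        (norm_nonneg _) (by positivity)
    have d6 : ‖(p.1 ^ k - p'.1 ^ k) • a p'.2‖ ≤ ‖p - p'‖ * k * M ^ k * C := by
      rw [norm_smul, Real.norm_eq_abs]
      exact mul_le_mul d4 (h1 _) (norm_nonneg _) (by positivity)
    rw [e]
    refine (norm_add_le _ _).trans ?_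
    linarith
  · exact sbf_sd_smul (g := a) (r := s ^ k) h3 ((hb s hs).trans hle)

end

end Vale.Agent.P107
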