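import Vale.Agent.P107.OpA
import Vale.Agent.P107.SBF

/-! The field of the freely moving past is smooth. -/

namespace Vale.Agent.P107

open MeasureTheory Set Filter Topology
open scoped ENNReal RealInnerProductSpace

noncomputable section

/-- The velocity field at time zero of a freely moving cloud with density `g`. -/
def frF (g : Z → ℝ) (x : V) : Z :=
  ∫ w : Z, (ang (vel w.2) (nrm w.1) * g (x - w.1 + ‖w.1‖ • vel w.2, w.2) / (4 * Real.pi)) •
    zT w.2 w.1

/-- The set carrying the integrand. -/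
def freeS (R P : ℝ) (x : V) : Set Z := {w | q w.2 ≤ P ∧ ‖x - w.1 + ‖w.1‖ • vel w.2‖ ≤ R}

/-- The dominating function. -/
def freeD (R P : ℝ) (x : V) (w : Z) : ℝ := (freeS R P x).indicator (fun w => 1 / ‖w.1‖ ^ 2) w

theorem free_cont (x : V) : Continuous fun w : Z => x - w.1 + ‖w.1‖ • vel w.2 := by
  have := contDiff_vel.continuous
  fun_prop

theorem free_meas (R P : ℝ) (x : V) : MeasurableSet (freeS R P x) :=
  ((isClosed_le (contDiff_q.continuous.comp continuous_snd) continuous_const).inter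
    (isClosed_le (free_cont x).norm continuous_const)).measurableSet

theorem freeD_nonneg (R P : ℝ) (x : V) (w : Z) : 0 ≤ freeD R P x w :=
  indicator_nonneg (fun _ _ => by positivity) _

theorem freeD_meas (R P : ℝ) (x : V) : Measurable (freeD R P x) :=
  Measurable.indicator (by fun_prop) (free_meas R P x)

theorem free_dom (R P : ℝ) : ∃ K : ℝ, ∀ x, Integrable (freeD R P x) ∧ ∫ w, freeD R P x w ≤ K := by
  obtain ⟨C, -, hC⟩ := free_int R P
  have hfin : ENNReal.ofReal C * volume (Metric.closedBall (0 : V) P) ≠ ∞ :=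
    ENNReal.mul_ne_top ENNReal.ofReal_ne_top measure_closedBall_lt_top.ne
  have key : ∀ x, ∫⁻ w, ENNReal.ofReal (freeD R P x w) ≤
      ENNReal.ofReal C * volume (Metric.closedBall (0 : V) P) := by
    intro x
    rw [Measure.volume_eq_prod,
      lintegral_prod_symm' _ (freeD_meas R P x).ennreal_ofReal,
      ← setLIntegral_const, ← lintegral_indicator measurableSet_closedBall]
    refine lintegral_mono fun v => ?_
    by_cases hv : q v ≤ P
    · rw [indicator_of_mem (mem_closedBall_zero_iff.2 ((norm_lt_q v).le.trans hv))]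
      refine le_trans (le_of_eq ?_) (hC x v hv)
      have hm : MeasurableSet {y : V | ‖x - y + ‖y‖ • vel v‖ ≤ R} :=
        (isClosed_le (by fun_prop) continuous_const).measurableSet
      rw [← lintegral_indicator hm]
      refine lintegral_congr fun y => ?_
      by_cases hy : ‖x - y + ‖y‖ • vel v‖ ≤ R
      · rw [indicator_of_mem (show y ∈ {y : V | ‖x - y + ‖y‖ • vel v‖ ≤ R} from hy), freeD,
          indicator_of_mem (show (y, v) ∈ freeS R P x from ⟨hv, hy⟩)]
      · rw [indicator_of_notMem (show y ∉ {y : V | ‖x - y + ‖y‖ • vel v‖ ≤ R} from hy), freeD,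
          indicator_of_notMem (show (y, v) ∉ freeS R P x from fun h => hy h.2), ENNReal.ofReal_zero]
    · refine le_trans (le_of_eq ?_) zero_le
      refine (lintegral_congr fun y => ?_).trans lintegral_zero
      rw [freeD, indicator_of_notMem (show (y, v) ∉ freeS R P x from fun h => hv h.1),
        ENNReal.ofReal_zero]
  refine ⟨(ENNReal.ofReal C * volume (Metric.closedBall (0 : V) P)).toReal, fun x => ⟨?_, ?_⟩⟩
  · refine ⟨(freeD_meas R P x).aestronglyMeasurable, ?_⟩
    rw [hasFiniteIntegral_iff_ofReal (Eventually.of_forall (freeD_nonneg R P x))]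
    exact (key x).trans_lt hfin.lt_top
  · rw [integral_eq_lintegral_of_nonneg_ae (Eventually.of_forall (freeD_nonneg R P x))
      (freeD_meas R P x).aestronglyMeasurable]
    exact ENNReal.toReal_mono hfin (key x)

theorem free_coef (w : Z) : |ang (vel w.2) (nrm w.1) / (4 * Real.pi)| ≤ 1 := by
  have h1 := ang_nonneg (norm_vel_lt w.2).le (norm_nrm_le w.1)
  have h2 := ang_le_two (norm_vel_lt w.2).le (norm_nrm_le w.1)
  have h3 := Real.pi_gt_three
  rw [abs_of_nonneg (by positivity), div_le_one (by positivity)]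
  linarith

theorem free_bound {R P C a : ℝ} (hC : 0 ≤ C) {x : V} {w : Z} (ha : a ≤ C)
    (hs : a ≠ 0 → w ∈ freeS R P x) : a * ‖zT w.2 w.1‖ ≤ C * (100 * P ^ 3) * freeD R P x w := by
  by_cases hw : w ∈ freeS R P x
  · rw [freeD, indicator_of_mem hw]
    refine (mul_le_mul ha (norm_zT_le hw.1 _) (norm_nonneg _) hC).trans (le_of_eq ?_)
    ring
  · have h1 : a = 0 := by
      by_contra h
      exact hw (hs h)
    rw [freeD, indicator_of_notMem hw, h1]
    simp

theorem free_supp {g : Z → ℝ} (hc : HasCompactSupport g) :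
    ∃ R P : ℝ, 0 ≤ P ∧ ∀ z ∈ tsupport g, ‖z.1‖ ≤ R ∧ q z.2 ≤ P := by
  obtain ⟨R, hR, h⟩ := hc.isCompact.isBounded.exists_pos_norm_le
  refine ⟨R, 1 + R, by positivity, fun z hz => ⟨(norm_fst_le z).trans (h z hz), ?_⟩⟩
  linarith [q_le z.2, (norm_snd_le z).trans (h z hz)]

theorem free_meas_ang : Measurable fun w : Z => ang (vel w.2) (nrm w.1) := by
  have h2 := contDiff_vel.continuous.measurable
  have h3 := measurable_nrm
  unfold ang
  fun_prop

theorem free_meas_zT : Measurable fun w : Z => zT w.2 w.1 :=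
  Measurable.comp (g := fun x : V × V => zT x.1 x.2) (f := Prod.swap) measurable_zT measurable_swap

theorem free_aesm {g : Z → ℝ} (hg : Continuous g) (x : V) : AEStronglyMeasurable (fun w : Z =>
    (ang (vel w.2) (nrm w.1) * g (x - w.1 + ‖w.1‖ • vel w.2, w.2) / (4 * Real.pi)) •
      zT w.2 w.1) volume :=
  (((free_meas_ang.mul (hg.comp ((free_cont x).prodMk continuous_snd)).measurable).div_const
    _).smul free_meas_zT).aestronglyMeasurable

theorem free_norm {g : Z → ℝ} (hg : Continuous g) (hc : HasCompactSupport g) :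
    ∃ R P C : ℝ, 0 ≤ C ∧ ∀ (x : V) (w : Z),
      ‖(ang (vel w.2) (nrm w.1) * g (x - w.1 + ‖w.1‖ • vel w.2, w.2) / (4 * Real.pi)) •
        zT w.2 w.1‖ ≤ C * freeD R P x w := by
  obtain ⟨R, P, hP, h⟩ := free_supp hc
  obtain ⟨C, hC⟩ := hg.bounded_above_of_compact_support hc
  have hC0 : 0 ≤ C := (norm_nonneg _).trans (hC 0)
  refine ⟨R, P, C * (100 * P ^ 3), by positivity, fun x w => ?_⟩
  rw [norm_smul]
  refine free_bound hC0 ?_ fun h0 => ?_
  · rw [mul_div_right_comm, norm_mul]
    exact (mul_le_of_le_one_left (norm_nonneg _) (free_coef w)).trans (hC _)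
  · have h1 : g (x - w.1 + ‖w.1‖ • vel w.2, w.2) ≠ 0 := fun h1 => h0 (by simp [h1])
    exact (h _ (subset_tsupport _ h1)).symm

theorem free_bdd {g : Z → ℝ} (hg : Continuous g) (hc : HasCompactSupport g) :
    ∃ C, ∀ x, ‖frF g x‖ ≤ C := by
  obtain ⟨R, P, C, hC, h⟩ := free_norm hg hc
  obtain ⟨K, hK⟩ := free_dom R P
  refine ⟨C * K, fun x => ?_⟩
  refine (norm_integral_le_of_norm_le ((hK x).1.const_mul C) (Eventually.of_forall (h x))).trans ?_
  rw [integral_const_mul]
  exact mul_le_mul_of_nonneg_left (hK x).2 hC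

/-- The derivative of the integrand. -/
def freeF' (g : Z → ℝ) (x : V) (w : Z) : V →L[ℝ] Z :=
  ContinuousLinearMap.smulRightL ℝ V Z ((ang (vel w.2) (nrm w.1) / (4 * Real.pi)) •
    (fderiv ℝ g (x - w.1 + ‖w.1‖ • vel w.2, w.2)).comp (ContinuousLinearMap.inl ℝ V V))
    (zT w.2 w.1)

theorem free_aesm' {g : Z → ℝ} (hg : ContDiff ℝ (⊤ : ℕ∞) g) (x : V) :
    AEStronglyMeasurable (freeF' g x) volume := by
  have h1 : Continuous fun w : Z =>
      (fderiv ℝ g (x - w.1 + ‖w.1‖ • vel w.2, w.2)).comp (ContinuousLinearMap.inl ℝ V V) :=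
    ((hg.continuous_fderiv (by simp)).comp ((free_cont x).prodMk continuous_snd)).clm_comp
      continuous_const
  exact (ContinuousLinearMap.smulRightL ℝ V Z).aestronglyMeasurable_comp₂
    ((free_meas_ang.div_const _).aestronglyMeasurable.smul h1.aestronglyMeasurable)
    free_meas_zT.aestronglyMeasurable

theorem free_norm' {g : Z → ℝ} (hg : ContDiff ℝ (⊤ : ℕ∞) g) (hc : HasCompactSupport g) :
    ∃ R P C : ℝ, ∀ (x₀ : V) (w : Z), ∀ x ∈ Metric.ball x₀ 1,
      ‖freeF' g x w‖ ≤ C * freeD R P x₀ w := by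
  obtain ⟨R, P, hP, h⟩ := free_supp hc
  obtain ⟨C, hC⟩ := (hg.continuous_fderiv (by simp)).bounded_above_of_compact_support
    (hc.fderiv ℝ)
  have hC0 : 0 ≤ C := (norm_nonneg _).trans (hC 0)
  refine ⟨R + 1, P, C * (100 * P ^ 3), fun x₀ w x hx => ?_⟩
  rw [freeF', ContinuousLinearMap.smulRightL_apply_apply, ContinuousLinearMap.norm_smulRight_apply]
  refine free_bound hC0 ?_ fun h0 => ?_
  · rw [norm_smul]
    refine (mul_le_of_le_one_left (norm_nonneg _) (free_coef w)).trans ?_
    refine (ContinuousLinearMap.opNorm_comp_le _ _).trans ?_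
    exact (mul_le_of_le_one_right (norm_nonneg _) (ContinuousLinearMap.norm_inl_le_one ℝ V V)).trans
      (hC _)
  · have h1 : fderiv ℝ g (x - w.1 + ‖w.1‖ • vel w.2, w.2) ≠ 0 := fun h1 => h0 (by simp [h1])
    have h2 := h _ (support_fderiv_subset ℝ h1)
    refine ⟨h2.2, ?_⟩
    have e : x₀ - w.1 + ‖w.1‖ • vel w.2 = (x - w.1 + ‖w.1‖ • vel w.2) - (x - x₀) := by abel
    rw [e]
    exact (norm_sub_le _ _).trans (add_le_add h2.1 (mem_ball_iff_norm.1 hx).le)

theorem free_deriv {g : Z → ℝ} (hg : ContDiff ℝ (⊤ : ℕ∞) g) (x : V) (w : Z) :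
    HasFDerivAt (fun x : V =>
      (ang (vel w.2) (nrm w.1) * g (x - w.1 + ‖w.1‖ • vel w.2, w.2) / (4 * Real.pi)) •
        zT w.2 w.1) (freeF' g x w) x := by
  have h1 : HasFDerivAt (fun x : V => ((x - w.1 + ‖w.1‖ • vel w.2, w.2) : Z))
      (ContinuousLinearMap.inl ℝ V V) x :=
    (((hasFDerivAt_id x).sub_const w.1).add_const _).prodMk (hasFDerivAt_const w.2 x)
  have h2 := (hg.differentiable (by simp) _).hasFDerivAt.comp x h1
  have h3 := (h2.const_mul (ang (vel w.2) (nrm w.1) / (4 * Real.pi))).smul_const (zT w.2 w.1)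
  simp only [mul_div_right_comm]
  exact h3

theorem free_hasFDerivAt {g : Z → ℝ} (hg : ContDiff ℝ (⊤ : ℕ∞) g) (hc : HasCompactSupport g)
    (x : V) : Integrable (freeF' g x) ∧ HasFDerivAt (frF g) (∫ w, freeF' g x w) x := by
  obtain ⟨R, P, C, -, h⟩ := free_norm hg.continuous hc
  obtain ⟨K, hK⟩ := free_dom R P
  obtain ⟨R', P', C', h'⟩ := free_norm' hg hc
  obtain ⟨K', hK'⟩ := free_dom R' P'
  refine ⟨((hK' x).1.const_mul C').mono' (free_aesm' hg x)
    (Eventually.of_forall fun w => h' x w x (Metric.mem_ball_self one_pos)), ?_⟩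
  exact hasFDerivAt_integral_of_dominated_of_fderiv_le (F' := freeF' g)
    (Metric.ball_mem_nhds x one_pos) (Eventually.of_forall fun y => free_aesm hg.continuous y)
    (((hK x).1.const_mul C).mono' (free_aesm hg.continuous x) (Eventually.of_forall (h x)))
    (free_aesm' hg x) (Eventually.of_forall fun w => h' x w) ((hK' x).1.const_mul C')
    (Eventually.of_forall fun w y _ => free_deriv hg y w)

theorem SB_frF {g : Z → ℝ} (hg : ContDiff ℝ (⊤ : ℕ∞) g) (hc : HasCompactSupport g) :
    SB (frF g) := by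
  refine SB.of_closed {k | ∃ g : Z → ℝ, ContDiff ℝ (⊤ : ℕ∞) g ∧ HasCompactSupport g ∧ k = frF g}
    ?_ _ ⟨g, hg, hc, rfl⟩
  rintro _ ⟨g, hg, hc, rfl⟩
  refine ⟨fun x => (free_hasFDerivAt hg hc x).2.differentiableAt, free_bdd hg.continuous hc,
    fun i => ⟨fun z => fderiv ℝ g z (EuclideanSpace.single i 1, 0),
      (hg.fderiv_right (m := (⊤ : ℕ∞)) (by simp)).clm_apply contDiff_const,
      hc.fderiv_apply ℝ _, funext fun x => ?_⟩⟩
  obtain ⟨h1, h2⟩ := free_hasFDerivAt hg hc x
  rw [h2.fderiv, ContinuousLinearMap.integral_apply h1, frF]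
  refine integral_congr_ae (Eventually.of_forall fun w => ?_)
  simp only [freeF', ContinuousLinearMap.smulRightL_apply_apply,
    ContinuousLinearMap.smulRight_apply, smul_apply,
    ContinuousLinearMap.comp_apply, ContinuousLinearMap.inl_apply, smul_eq_mul, mul_div_right_comm]

theorem opT_zero_eq (d : Dat) (x : V) : opT d 0 (0, x) = frF d.f x := by
  rw [(Cl.zero.opT_eul d (0, x)).1, frF]
  refine integral_congr_ae (Eventually.of_forall fun w => ?_)
  simp only [cw]
  rw [den_past d 0 (by simp)]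
  simp only [zero_sub, neg_smul, sub_neg_eq_add]

theorem SB_retF_zero (d : Dat) : SB (fun x => retF d 0 (0, x)) := by
  have e : (fun x => retF d 0 (0, x)) = frF d.f := funext fun x => by
    rw [retF_zero d ⟨_, _, _, _, _, Cl.zero⟩, opT_zero_eq]
  rw [e]
  refine SB_frF d.sm (HasCompactSupport.intro d.isCompact_S fun z hz => ?_)
  by_contra h
  exact hz (d.supp z h)

end

end Vale.Agent.P107
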