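import Vale.Agent.P107.SBF

/-! The vacuum Maxwell equations with smooth bounded data. -/

namespace Vale.Agent.P107

open MeasureTheory Set Filter Topology
open scoped ENNReal RealInnerProductSpace

noncomputable section

theorem hom_hasDerivAt {k : ℕ} (hk : 1 ≤ k) (t : ℝ) :
    HasDerivAt (fun t : ℝ => (max t 0) ^ (k + 1)) (((k : ℝ) + 1) * (max t 0) ^ k) t := by
  refine hasDerivAt_of_hasDerivAt_of_ne' (x := 0) (f := fun t : ℝ => (max t 0) ^ (k + 1))
    (g := fun t : ℝ => ((k : ℝ) + 1) * (max t 0) ^ k) (fun y hy => ?_) (by fun_prop) (by fun_prop) t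
  rcases lt_or_gt_of_ne hy with h | h
  · have e : (fun t : ℝ => (max t 0) ^ (k + 1)) =ᶠ[𝓝 y] fun _ => 0 := by
      filter_upwards [Iio_mem_nhds h] with s hs
      rw [max_eq_right (le_of_lt hs), zero_pow (by omega)]
    rw [max_eq_right h.le, zero_pow (by omega), mul_zero]
    exact (hasDerivAt_const y (0 : ℝ)).congr_of_eventuallyEq e
  · have e : (fun t : ℝ => (max t 0) ^ (k + 1)) =ᶠ[𝓝 y] fun t => t ^ (k + 1) := by
      filter_upwards [Ioi_mem_nhds h] with s hs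
      rw [max_eq_left (le_of_lt hs)]
    rw [max_eq_left h.le]
    have h1 := hasDerivAt_pow (k + 1) y
    rw [Nat.add_sub_cancel, Nat.cast_succ] at h1
    exact h1.congr_of_eventuallyEq e

theorem hom_deriv {k : ℕ} (hk : 1 ≤ k) :
    deriv (fun t : ℝ => (max t 0) ^ (k + 1)) = fun t => ((k : ℝ) + 1) * (max t 0) ^ k :=
  funext fun t => (hom_hasDerivAt hk t).deriv

theorem hom_c1 {k : ℕ} (hk : 1 ≤ k) : ContDiff ℝ 1 (fun t : ℝ => (max t 0) ^ (k + 1)) := by
  refine contDiff_one_iff_deriv.2 ⟨fun t => (hom_hasDerivAt hk t).differentiableAt, ?_⟩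
  rw [hom_deriv hk]
  fun_prop

theorem contDiff_posPow {k : ℕ} (hk : 3 ≤ k) : ContDiff ℝ 2 (fun t : ℝ => (max t 0) ^ k) := by
  obtain ⟨j, rfl⟩ : ∃ j, k = j + 1 + 1 := ⟨k - 2, by omega⟩
  have e : (2 : WithTop ℕ∞) = 1 + 1 := rfl
  rw [e]
  refine contDiff_succ_iff_deriv.2 ⟨fun t => (hom_hasDerivAt (by omega) t).differentiableAt,
    by simp, ?_⟩
  rw [hom_deriv (by omega)]
  exact contDiff_const.mul (hom_c1 (by omega))

section Gen

variable {F : Type} [NormedAddCommGroup F] [NormedSpace ℝ F]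

theorem hom_fd {b : V → F} {φ : ℝ → ℝ} {φ' : ℝ} {p : ST} (hb : DifferentiableAt ℝ b p.2)
    (hφ : HasDerivAt φ φ' p.1) :
    HasFDerivAt (fun p : ST => φ p.1 • b p.2)
      (φ p.1 • (fderiv ℝ b p.2).comp (ContinuousLinearMap.snd ℝ ℝ V) +
        φ' • (ContinuousLinearMap.fst ℝ ℝ V).smulRight (b p.2)) p := by
  have h1 : HasFDerivAt (fun p : ST => φ p.1) _ p := hφ.hasFDerivAt.comp p hasFDerivAt_fst
  have h2 : HasFDerivAt (fun p : ST => b p.2) _ p := hb.hasFDerivAt.comp p hasFDerivAt_snd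
  refine (h1.fun_smul h2).congr_fderiv ?_
  refine ContinuousLinearMap.ext fun e => ?_
  simp [smul_smul, mul_comm]

theorem hom_diff {b : V → F} (h : SB b) : Differentiable ℝ b := h.1.differentiable (by simp)

theorem hom_cd {b : V → F} (h : SB b) (n : ℕ) : ContDiff ℝ n b := contDiff_infty.1 h.1 n

theorem hom_zero {b : V → F} {k : ℕ} (p : ST) (hp : p.1 ≤ 0) :
    (max p.1 0) ^ (k + 1) • b p.2 = 0 := by
  rw [max_eq_right hp, zero_pow (by omega), zero_smul]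

end Gen

theorem hom_nice {b : V → Z} (h : SB b) {k : ℕ} (hk : 1 ≤ k) :
    Nice (rp (fun p : ST => (max p.1 0) ^ (k + 1) • b p.2)) := by
  set N : ST → Z := fun p => (max p.1 0) ^ (k + 1) • b p.2 with hN
  have hc : ContDiff ℝ 1 N :=
    ((hom_c1 hk).comp contDiff_fst).smul ((hom_cd h 1).comp contDiff_snd)
  have h0 : ∀ p : ST, p.1 ≤ 0 → N p = 0 := fun p hp => hom_zero p hp
  have hPS : PS N := PS.of_neg h0
  have hD : ∀ p : ST, fderiv ℝ N p = (max p.1 0) ^ (k + 1) •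
      (fderiv ℝ b p.2).comp (ContinuousLinearMap.snd ℝ ℝ V) +
        (((k : ℝ) + 1) * (max p.1 0) ^ k) • (ContinuousLinearMap.fst ℝ ℝ V).smulRight (b p.2) :=
    fun p => (hom_fd (hom_diff h p.2) (hom_hasDerivAt hk p.1)).fderiv
  have hD0 : ∀ p : ST, p.1 ≤ 0 → fderiv ℝ N p = 0 := fun p hp => by
    rw [hD, max_eq_right hp, zero_pow (by omega), zero_pow (by omega), mul_zero]
    exact ContinuousLinearMap.ext fun e => by simp
  refine ⟨contDiff_rp 1 hc hPS, fun T => ?_⟩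
  obtain ⟨C, hC1, hCb, -, hCs⟩ := (Nice.monomial h (k + 1)).bd T
  obtain ⟨A, hA1, hA, -, -⟩ := h.bdd
  obtain ⟨A', hA1', hA', -, -⟩ := h.fderiv.bdd
  set M : ℝ := |T| ^ (k + 1) * A' + ((k : ℝ) + 1) * |T| ^ k * A with hM
  have hM0 : 0 ≤ M := by positivity
  have hDb : ∀ p : ST, p.1 ∈ Icc 0 T → ‖fderiv ℝ N p‖ ≤ M := fun p hp => by
    have h1 : p.1 ≤ |T| := hp.2.trans (le_abs_self T)
    have h2 := hp.1
    rw [hD, max_eq_left h2]
    refine (norm_add_le _ _).trans (add_le_add ?_ ?_)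
    · rw [norm_smul, Real.norm_of_nonneg (by positivity)]
      refine mul_le_mul (pow_le_pow_left₀ h2 h1 _) ?_ (norm_nonneg _) (by positivity)
      refine (ContinuousLinearMap.opNorm_comp_le _ _).trans ?_
      exact (mul_le_of_le_one_right (norm_nonneg _) (ContinuousLinearMap.norm_snd_le _ _ _)).trans
        (hA' _)
    · rw [norm_smul, Real.norm_of_nonneg (by positivity), ContinuousLinearMap.norm_smulRight_apply]
      refine mul_le_mul (mul_le_mul_of_nonneg_left (pow_le_pow_left₀ h2 h1 _) (by positivity)) ?_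
        (by positivity) (by positivity)
      exact (mul_le_of_le_one_left (norm_nonneg _) (ContinuousLinearMap.norm_fst_le _ _ _)).trans
        (hA _)
  have hT : 0 ≤ T ^ 2 := sq_nonneg T
  have hCT : 0 ≤ C * T ^ 2 := by positivity
  have hMT : 0 ≤ M * T ^ 2 := by positivity
  refine ⟨1 + C * T ^ 2 + M * T ^ 2, by linarith, fun p hp => ?_, fun p p' hp hp' => ?_,
    fun s hs => ?_⟩
  · refine (norm_rp_le h0 (M := C) (by linarith) (fun p hp => ?_) hp).trans (by linarith)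
    have := hCb p hp
    simp only [hN]
    rwa [max_eq_left hp.1]
  · have hcv : Convex ℝ (Icc (0 : ℝ) T ×ˢ (univ : Set V)) := (convex_Icc 0 T).prod convex_univ
    have h1 := hcv.norm_image_sub_le_of_norm_hasFDerivWithin_le (f := rp N)
      (f' := rp (fderiv ℝ N)) (C := M * T ^ 2)
      (fun x _ => (hasFDerivAt_rp hc hPS x).hasFDerivWithinAt)
      (fun x hx => norm_rp_le hD0 hM0 hDb hx.1) (x := p') (y := p) ⟨hp', mem_univ _⟩
      ⟨hp, mem_univ _⟩
    exact h1.trans (mul_le_mul_of_nonneg_right (by linarith) (norm_nonneg _))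
  · refine (SD_rp hc.continuous h0 (M := C) (by linarith) (fun s hs => ?_) hs).mono (by linarith)
    have := hCs s hs
    simp only [hN]
    rwa [max_eq_left hs.1]

theorem hom_curl {a : V → V} {x : V} (ha : DifferentiableAt ℝ a x) :
    curl a x = cu (fun e => fderiv ℝ a x e.2) := by
  have h2 : HasFDerivAt (fun p : ST => a p.2) _ ((0 : ℝ), x) :=
    ha.hasFDerivAt.comp ((0 : ℝ), x) hasFDerivAt_snd
  have h := curl_eq_cu h2.differentiableAt
  rw [h2.fderiv] at h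
  exact h

theorem hom_dvg {a : V → V} {x : V} (ha : DifferentiableAt ℝ a x) :
    dvg a x = dv (fun e => fderiv ℝ a x e.2) := by
  have h2 : HasFDerivAt (fun p : ST => a p.2) _ ((0 : ℝ), x) :=
    ha.hasFDerivAt.comp ((0 : ℝ), x) hasFDerivAt_snd
  have h := dvg_eq_dv h2.differentiableAt
  rw [h2.fderiv] at h
  exact h

theorem hom_cu (g : ST → V) (c c' : ℝ) (v : V) :
    cu (fun e => c • g e + c' • e.1 • v) = c • cu g := by
  refine ext3 ?_ ?_ ?_ <;> simp [cu, ei] <;> ring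

theorem hom_dv (g : ST → V) (c c' : ℝ) (v : V) :
    dv (fun e => c • g e + c' • e.1 • v) = c * dv g := by
  simp [dv, ei, Finset.mul_sum]

/-- The linear map `v ↦ dt ⊗ (0, v)`. -/
def homL1 : V →L[ℝ] (ST →L[ℝ] ST) :=
  LinearMap.toContinuousLinearMap
    { toFun := fun v => (ContinuousLinearMap.fst ℝ ℝ V).smulRight ((0 : ℝ), v)
      map_add' := fun v w => ContinuousLinearMap.ext fun e => by simp
      map_smul' := fun r v => ContinuousLinearMap.ext fun e => by simp [smul_comm r] }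

/-- The linear map `A ↦ (0, A dx)`. -/
def homL2 : (V →L[ℝ] V) →L[ℝ] (ST →L[ℝ] ST) :=
  LinearMap.toContinuousLinearMap
    { toFun := fun A => ((ContinuousLinearMap.inr ℝ ℝ V).comp A).comp
        (ContinuousLinearMap.snd ℝ ℝ V)
      map_add' := fun v w => ContinuousLinearMap.ext fun e => by simp
      map_smul' := fun r v => ContinuousLinearMap.ext fun e => by simp }

theorem homL1_apply (v : V) (e : ST) : homL1 v e = e.1 • ((0 : ℝ), v) := rfl

theorem homL2_apply (A : V →L[ℝ] V) (e : ST) : homL2 A e = ((0 : ℝ), A e.2) := rfl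

/-- The field of the current `t₊ᵏ a(x)`. -/
theorem exists_corr {a : V → V} (h : SB a) (hd : ∀ x, dvg a x = 0) {k : ℕ} (hk : 3 ≤ k) :
    ∃ K : ST → Z, Nice K ∧ (∀ x, K (0, x) = 0) ∧
      ∀ p : ST, 0 ≤ p.1 → MxD (fderiv ℝ K p) (0, p.1 ^ k • a p.2) := by
  obtain ⟨j, rfl⟩ : ∃ j, k = j + 1 + 1 := ⟨k - 2, by omega⟩
  have hj : 1 ≤ j := by omega
  set b : V → ST := fun x => ContinuousLinearMap.inr ℝ ℝ V (a x) with hb
  have hbS : SB b := h.clm _
  set J : ST → ST := fun p => (max p.1 0) ^ (j + 1 + 1) • b p.2 with hJ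
  have hc : ContDiff ℝ 2 J :=
    ((contDiff_posPow hk).comp contDiff_fst).smul ((hom_cd hbS 2).comp contDiff_snd)
  have h0 : ∀ p : ST, p.1 ≤ 0 → J p = 0 := fun p hp => hom_zero p hp
  have hPS : PS J := PS.of_neg h0
  have hfb : ∀ x, fderiv ℝ b x = (ContinuousLinearMap.inr ℝ ℝ V).comp (fderiv ℝ a x) := fun x =>
    ((ContinuousLinearMap.inr ℝ ℝ V).hasFDerivAt.comp x (hom_diff h x).hasFDerivAt).fderiv
  have hD : ∀ p : ST, fderiv ℝ J p = (max p.1 0) ^ (j + 1 + 1) • homL2 (fderiv ℝ a p.2) +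
      ((((j + 1 : ℕ) : ℝ) + 1) * (max p.1 0) ^ (j + 1)) • homL1 (a p.2) := fun p => by
    rw [(hom_fd (hom_diff hbS p.2) (hom_hasDerivAt (k := j + 1) (by omega) p.1)).fderiv, hfb]
    rfl
  have hdiv : ∀ p, (fderiv ℝ J p e0).1 + dv (fun e => (fderiv ℝ J p e).2) = 0 := fun p => by
    have h1 := hom_dv (fun e => fderiv ℝ a p.2 e.2) ((max p.1 0) ^ (j + 1 + 1))
      ((((j + 1 : ℕ) : ℝ) + 1) * (max p.1 0) ^ (j + 1)) (a p.2)
    rw [← hom_dvg (hom_diff h p.2), hd, mul_zero] at h1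
    rw [hD]
    simp only [ContinuousLinearMap.add_apply, ContinuousLinearMap.smul_apply, homL1_apply,
      homL2_apply, Prod.fst_add, Prod.snd_add, Prod.smul_fst, Prod.smul_snd, smul_zero, add_zero,
      zero_add]
    exact h1
  obtain ⟨-, hmx⟩ := maxwell_smooth hc hPS hdiv
  set b1 : V → Z := fun x => (EBL.comp homL2) (fderiv ℝ a x) with hb1
  set b2 : V → Z := fun x => ((((j + 1 : ℕ) : ℝ) + 1) • EBL.comp homL1) (a x) with hb2
  have hb1S : SB b1 := h.fderiv.clm _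
  have hb2S : SB b2 := h.clm _
  have c1 : Continuous fun p : ST => (max p.1 0) ^ (j + 1 + 1) • b1 p.2 :=
    (((hom_c1 (k := j + 1) (by omega)).comp contDiff_fst).smul
      ((hom_cd hb1S 1).comp contDiff_snd)).continuous
  have c2 : Continuous fun p : ST => (max p.1 0) ^ (j + 1) • b2 p.2 :=
    (((hom_c1 hj).comp contDiff_fst).smul ((hom_cd hb2S 1).comp contDiff_snd)).continuous
  have hK : (fun p => EB (fderiv ℝ (rp J) p)) = fun p =>
      rp (fun p : ST => (max p.1 0) ^ (j + 1 + 1) • b1 p.2) p +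
        rp (fun p : ST => (max p.1 0) ^ (j + 1) • b2 p.2) p := by
    funext p
    rw [(hasFDerivAt_rp (hc.of_le (by norm_num)) hPS p).fderiv, ← EBL_apply,
      rp_clm (hc.continuous_fderiv (by norm_num)) hPS.fderiv,
      ← rp_add c1 (PS.of_neg fun p hp => hom_zero p hp) c2 (PS.of_neg fun p hp => hom_zero p hp)]
    congr 1
    funext p
    rw [hD, map_add, map_smul, map_smul, mul_comm, mul_smul]
    rfl
  rw [hK] at hmx
  refine ⟨_, (hom_nice hb1S (k := j + 1) (by omega)).add (hom_nice hb2S hj), fun x => ?_,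
    fun p hp => ?_⟩
  · rw [rp_of_neg (fun p hp => hom_zero p hp) le_rfl, rp_of_neg (fun p hp => hom_zero p hp) le_rfl,
      add_zero]
  · have h1 := hmx p
    simp only [hJ, hb, max_eq_left hp, ContinuousLinearMap.inr_apply, Prod.smul_mk,
      smul_zero] at h1
    exact h1

theorem hom_mx {a b : V → V} {φ ψ : ℝ → ℝ} {φ' ψ' : ℝ} {p : ST} (ha : DifferentiableAt ℝ a p.2)
    (hb : DifferentiableAt ℝ b p.2) (da : dvg a p.2 = 0) (db : dvg b p.2 = 0)
    (hφ : HasDerivAt φ φ' p.1) (hψ : HasDerivAt ψ ψ' p.1)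
    (hf : ψ' • b p.2 + φ p.1 • curl a p.2 = 0) :
    MxD (fderiv ℝ (fun p : ST => (φ p.1 • a p.2, ψ p.1 • b p.2)) p)
      (0, ψ p.1 • curl b p.2 - φ' • a p.2) := by
  rw [((hom_fd ha hφ).prodMk (hom_fd hb hψ)).fderiv]
  have e1 := hom_cu (fun e => fderiv ℝ a p.2 e.2) (φ p.1) φ' (a p.2)
  have e2 := hom_cu (fun e => fderiv ℝ b p.2 e.2) (ψ p.1) ψ' (b p.2)
  have e3 := hom_dv (fun e => fderiv ℝ a p.2 e.2) (φ p.1) φ' (a p.2)
  have e4 := hom_dv (fun e => fderiv ℝ b p.2 e.2) (ψ p.1) ψ' (b p.2)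
  rw [← hom_curl ha] at e1
  rw [← hom_curl hb] at e2
  rw [← hom_dvg ha, da, mul_zero] at e3
  rw [← hom_dvg hb, db, mul_zero] at e4
  refine ⟨?_, ?_, e3, e4⟩
  · refine (congrArg _ e2).trans ?_
    simp [e0]
  · refine (congrArg _ e1).trans ?_
    simpa [e0] using hf

theorem hom_diffK {K : ST → Z} (h : Nice K) (p : ST) : HasFDerivAt K (fderiv ℝ K p) p :=
  (h.c1.differentiable (by simp) p).hasFDerivAt

/-- The pair `(tᵏ a, -tᵏ⁺¹ curl a / (k+1))`. -/
def homP (k : ℕ) (a : V → V) (p : ST) : Z :=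
  (p.1 ^ k • a p.2, (-((k : ℝ) + 1)⁻¹ * p.1 ^ (k + 1)) • curl a p.2)

theorem homP_nice {a : V → V} (h : SB a) (k : ℕ) : Nice (homP k a) := by
  have h1 := (Nice.monomial (h.clm (ContinuousLinearMap.inl ℝ V V)) k).add
    ((Nice.monomial (h.curl.clm (ContinuousLinearMap.inr ℝ V V)) (k + 1)).smul (-((k : ℝ) + 1)⁻¹))
  have e : homP k a = fun p : ST => p.1 ^ k • ContinuousLinearMap.inl ℝ V V (a p.2) +
      (-((k : ℝ) + 1)⁻¹) • p.1 ^ (k + 1) • ContinuousLinearMap.inr ℝ V V (curl a p.2) := by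
    funext p
    simp [homP, smul_smul]
  rw [e]
  exact h1

theorem homP_mx {a : V → V} (h : SB a) (hd : ∀ x, dvg a x = 0) (k : ℕ) (p : ST) :
    MxD (fderiv ℝ (homP k a) p) (0, (-((k : ℝ) + 1)⁻¹ * p.1 ^ (k + 1)) • curl (curl a) p.2 -
      ((k : ℝ) * p.1 ^ (k - 1)) • a p.2) := by
  have h1 := (hasDerivAt_pow (k + 1) p.1).const_mul (-((k : ℝ) + 1)⁻¹)
  refine hom_mx (φ := fun t => t ^ k) (ψ := fun t => -((k : ℝ) + 1)⁻¹ * t ^ (k + 1))
    (hom_diff h _) (hom_diff h.curl _) (hd _) (dvg_curl (hom_cd h 2) _) (hasDerivAt_pow k p.1) h1 ?_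
  rw [← add_smul, Nat.add_sub_cancel, Nat.cast_succ]
  have : (-((k : ℝ) + 1)⁻¹ * (((k : ℝ) + 1) * p.1 ^ k) + p.1 ^ k) = 0 := by
    field_simp
    ring
  rw [this, zero_smul]

/-- Solvability for the current `tᵏ a(x)` with zero data. -/
def HomC (k : ℕ) : Prop := ∀ a : V → V, SB a → (∀ x, dvg a x = 0) →
  ∃ K : ST → Z, Nice K ∧ (∀ x, K (0, x) = 0) ∧
    ∀ p : ST, 0 ≤ p.1 → MxD (fderiv ℝ K p) (0, p.1 ^ k • a p.2)

theorem hom_comb {K K' : ST → Z} (h : Nice K) (h' : Nice K') (r r' : ℝ) {p J J' : ST}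
    (m : MxD (fderiv ℝ K p) J) (m' : MxD (fderiv ℝ K' p) J') :
    MxD (fderiv ℝ (fun p => r • K p + r' • K' p) p) (r • J + r' • J') := by
  rw [(((hom_diffK h p).fun_const_smul r).fun_add ((hom_diffK h' p).fun_const_smul r')).fderiv]
  exact (m.smul r).add (m'.smul r')

theorem homC_step {k : ℕ} (H : HomC (k + 2)) : HomC k := by
  intro a h hd
  obtain ⟨K, hK, h0, hm⟩ := H (curl (curl a)) h.curl.curl (dvg_curl (hom_cd h.curl 2))
  refine ⟨_, ((homP_nice h (k + 1)).smul (-((k : ℝ) + 1)⁻¹)).add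
    (hK.smul (-((k : ℝ) + 1)⁻¹ * ((k : ℝ) + 2)⁻¹)), fun x => ?_, fun p hp => ?_⟩
  · simp [homP, h0]
  · have h1 := hom_comb (homP_nice h (k + 1)) hK (-((k : ℝ) + 1)⁻¹)
      (-((k : ℝ) + 1)⁻¹ * ((k : ℝ) + 2)⁻¹) (homP_mx h hd (k + 1) p) (hm p hp)
    refine (congrArg _ ?_).mp h1
    refine Prod.ext (by simp) ?_
    simp only [Prod.snd_add, Prod.smul_snd, Nat.add_sub_cancel, Nat.cast_succ, smul_sub, smul_smul]
    have e1 : -((k : ℝ) + 1)⁻¹ * (((k : ℝ) + 1) * p.1 ^ k) = -p.1 ^ k := by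
      field_simp
    have e2 : -((k : ℝ) + 1)⁻¹ * (-((k : ℝ) + 1 + 1)⁻¹ * p.1 ^ (k + 1 + 1)) =
        -(-((k : ℝ) + 1)⁻¹ * ((k : ℝ) + 2)⁻¹ * p.1 ^ (k + 2)) := by
      rw [show (k : ℝ) + 1 + 1 = k + 2 by ring]
      ring
    rw [e1, e2, neg_smul, neg_smul]
    abel

theorem homC_all (k : ℕ) : HomC k := by
  have h3 : ∀ k, 3 ≤ k → HomC k := fun k hk a h hd => exists_corr h hd hk
  have h1 : HomC 1 := homC_step (h3 3 le_rfl)
  have h2 : HomC 2 := homC_step (h3 4 (by omega))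
  match k with
  | 0 => exact homC_step h2
  | 1 => exact h1
  | 2 => exact h2
  | k + 3 => exact h3 _ (by omega)

theorem exists_hom {E B : V → V} (hE : SB E) (hB : SB B) (dE : ∀ x, dvg E x = 0)
    (dB : ∀ x, dvg B x = 0) : ∃ K : ST → Z, Nice K ∧ (∀ x, K (0, x) = (E x, B x)) ∧
      ∀ p : ST, 0 ≤ p.1 → MxD (fderiv ℝ K p) 0 := by
  obtain ⟨K1, hK1, z1, m1⟩ := homC_all 1 (curl (curl E)) hE.curl.curl
    (dvg_curl (hom_cd hE.curl 2))
  obtain ⟨K0, hK0, z0, m0⟩ := homC_all 0 (curl B) hB.curl (dvg_curl (hom_cd hB 2))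
  set Q : ST → Z := fun p => ((0 : ℝ) • E p.2, (1 : ℝ) • B p.2) with hQ
  have hQn : Nice Q := by
    have h1 := Nice.monomial (hB.clm (ContinuousLinearMap.inr ℝ V V)) 0
    have e : Q = fun p : ST => p.1 ^ 0 • ContinuousLinearMap.inr ℝ V V (B p.2) := by
      funext p
      simp [hQ]
    rw [e]
    exact h1
  have hQm : ∀ p : ST, MxD (fderiv ℝ Q p) (0, (1 : ℝ) • curl B p.2 - (0 : ℝ) • E p.2) := fun p =>
    hom_mx (φ := fun _ => 0) (ψ := fun _ => 1) (hom_diff hE _) (hom_diff hB _) (dE _) (dB _)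
      (hasDerivAt_const _ _) (hasDerivAt_const _ _) (by simp)
  have n1 := ((homP_nice hE 0).smul 1).add (hK1.smul 1)
  have n2 := (hQn.smul 1).add (hK0.smul (-1))
  refine ⟨_, (n1.smul 1).add (n2.smul 1), fun x => ?_, fun p hp => ?_⟩
  · simp [homP, z1, z0, hQ]
  · have h1 := hom_comb n1 n2 1 1
      (hom_comb (homP_nice hE 0) hK1 1 1 (homP_mx hE dE 0 p) (m1 p hp))
      (hom_comb hQn hK0 1 (-1) (hQm p) (m0 p hp))
    refine (congrArg _ ?_).mp h1
    refine Prod.ext (by simp) ?_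
    simp

end

end Vale.Agent.P107
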