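import Vale.Agent.P107.Wave1

/-! Mollification in space-time. -/

namespace Vale.Agent.P107

open MeasureTheory Set Filter Topology
open scoped ENNReal RealInnerProductSpace

noncomputable section

/-- The bump functions. -/
def bumpS (n : ℕ) : ContDiffBump (0 : ST) :=
  ⟨1 / (2 * ((n : ℝ) + 1)), 1 / ((n : ℝ) + 1), by positivity, by
    apply one_div_lt_one_div_of_lt <;> nlinarith [Nat.cast_nonneg (α := ℝ) n]⟩

/-- Mollification. -/
def mol {F : Type} [NormedAddCommGroup F] [NormedSpace ℝ F] (n : ℕ) (g : ST → F) (p : ST) : F :=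
  ∫ u : ST, (bumpS n).normed volume u • g (p - u)

variable {F : Type} [NormedAddCommGroup F] [NormedSpace ℝ F] [CompleteSpace F]

theorem moll_haar : (volume : Measure ST).IsAddHaarMeasure :=
  Measure.prod.instIsAddHaarMeasure _ _

theorem moll_lt (n : ℕ) {u : ST} (h : (bumpS n).normed volume u ≠ 0) : ‖u‖ < 1 := by
  have h1 : u ∈ Function.support ((bumpS n).normed (volume : Measure ST)) := h
  rw [ContDiffBump.support_normed_eq, mem_ball_zero_iff] at h1
  refine lt_of_lt_of_le h1 ?_
  show 1 / ((n : ℝ) + 1) ≤ 1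
  rw [div_le_one (by positivity)]
  linarith [Nat.cast_nonneg (α := ℝ) n]

omit [CompleteSpace F] in
theorem moll_int (n : ℕ) {g : ST → F} (hg : LocallyIntegrable g) (p : ST) :
    Integrable (fun u : ST => (bumpS n).normed volume u • g (p - u)) := by
  have := moll_haar
  exact (bumpS n).hasCompactSupport_normed.convolutionExists_left (ContinuousLinearMap.lsmul ℝ ℝ)
    (bumpS n).continuous_normed hg p

omit [CompleteSpace F] in
theorem moll_norm (n : ℕ) (u : ST) {v : F} {C : ℝ} (h : ‖u‖ < 1 → ‖v‖ ≤ C) :
    ‖(bumpS n).normed volume u • v‖ ≤ (bumpS n).normed volume u * C := by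
  by_cases h0 : (bumpS n).normed volume u = 0
  · simp [h0]
  · rw [norm_smul, Real.norm_of_nonneg ((bumpS n).nonneg_normed u)]
    exact mul_le_mul_of_nonneg_left (h (moll_lt n h0)) ((bumpS n).nonneg_normed u)

theorem contDiff_mol (n : ℕ) {g : ST → F} (hg : Continuous g) :
    ContDiff ℝ (⊤ : ℕ∞) (mol n g) := by
  have := moll_haar
  exact (bumpS n).hasCompactSupport_normed.contDiff_convolution_left
    (ContinuousLinearMap.lsmul ℝ ℝ) (bumpS n).contDiff_normed hg.locallyIntegrable

theorem PS.mol {g : ST → F} (h : PS g) (n : ℕ) : PS (mol n g) := by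
  obtain ⟨R, κ, h0, h1, hR, h⟩ := h
  refine ⟨R + 2, κ, h0, h1, by linarith, fun p hp => ?_⟩
  obtain ⟨u, hu⟩ : ∃ u : ST, (bumpS n).normed volume u • g (p - u) ≠ 0 := by
    by_contra hn
    push Not at hn
    exact hp (by simp [Vale.Agent.P107.mol, hn])
  have h2 := moll_lt n (left_ne_zero_of_smul hu)
  have h3 := abs_le.1 (le_trans (norm_fst_le u) h2.le)
  have h4 := le_trans (norm_snd_le u) h2.le
  rcases h _ (right_ne_zero_of_smul hu) with h5 | h5
  · left
    simp only [Prod.fst_sub] at h5
    linarith [h3.1]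
  · right
    simp only [Prod.fst_sub, Prod.snd_sub] at h5
    have h6 : ‖p.2‖ ≤ ‖p.2 - u.2‖ + ‖u.2‖ := by
      simpa using norm_add_le (p.2 - u.2) u.2
    have h7 : (1 - κ) * u.1 ≤ 1 := by nlinarith [h3.1, h3.2]
    linarith

theorem mol_tendsto {g : ST → F} (hg : Continuous g) :
    TendstoLocallyUniformly (fun n => mol n g) g atTop := by
  have := moll_haar
  rw [tendstoLocallyUniformly_iff_forall_isCompact]
  intro K hK
  rw [Metric.tendstoUniformlyOn_iff]
  intro ε hε
  obtain ⟨δ, hδ, h⟩ := Metric.mem_uniformity_dist.1 (hK.uniformContinuousAt_of_continuousAt g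
    (fun a _ => hg.continuousAt) (Metric.dist_mem_uniformity (half_pos hε)))
  filter_upwards [tendsto_one_div_add_atTop_nhds_zero_nat.eventually_le_const hδ] with n hn x hx
  have h1 : dist (mol n g x) (g x) ≤ ε / 2 := by
    refine (bumpS n).dist_normed_convolution_le hg.aestronglyMeasurable fun y hy => ?_
    rw [dist_comm]
    exact (h (lt_of_lt_of_le (by rw [dist_comm]; exact hy) hn) hx).le
  rw [dist_comm]
  linarith

theorem mol_clm {F' : Type} [NormedAddCommGroup F'] [NormedSpace ℝ F'] [CompleteSpace F']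
    (n : ℕ) {g : ST → F} (hg : LocallyIntegrable g) (A : F →L[ℝ] F') (p : ST) :
    A (mol n g p) = mol n (fun p => A (g p)) p := by
  unfold mol
  rw [← A.integral_comp_comm (moll_int n hg p)]
  simp only [map_smul]

theorem hasFDerivAt_mol [FiniteDimensional ℝ F] (n : ℕ) {g : ST → F} (hg : Differentiable ℝ g)
    (hb : ∀ T : ℝ, ∃ C : ℝ, ∀ p : ST, p.1 ≤ T → ‖fderiv ℝ g p‖ ≤ C) (p : ST) :
    LocallyIntegrable (fderiv ℝ g) ∧ HasFDerivAt (mol n g) (mol n (fderiv ℝ g) p) p := by
  have hm : Measurable (fderiv ℝ g) := measurable_fderiv ℝ g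
  have hli : LocallyIntegrable (fderiv ℝ g) := by
    rw [locallyIntegrable_iff]
    intro K hK
    obtain ⟨R, hR⟩ := isBounded_iff_forall_norm_le.1 hK.isBounded
    obtain ⟨C, hC⟩ := hb R
    refine IntegrableOn.of_bound hK.measure_lt_top hm.aestronglyMeasurable C ?_
    refine (ae_restrict_iff' hK.measurableSet).2 (Eventually.of_forall fun x hx => hC x ?_)
    exact le_trans (le_abs_self _) (le_trans (norm_fst_le x) (hR x hx))
  refine ⟨hli, ?_⟩
  obtain ⟨C, hC⟩ := hb (p.1 + 2)
  refine hasFDerivAt_integral_of_dominated_of_fderiv_le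
    (F' := fun x u => (bumpS n).normed volume u • fderiv ℝ g (x - u))
    (bound := fun u => (bumpS n).normed volume u * C) (Metric.ball_mem_nhds p one_pos)
    (Eventually.of_forall fun x => (moll_int n hg.continuous.locallyIntegrable x).1)
    (moll_int n hg.continuous.locallyIntegrable p) (moll_int n hli p).1
    (Eventually.of_forall fun u x hx => moll_norm n u fun hu => hC _ ?_)
    ((bumpS n).integrable_normed.mul_const C) (Eventually.of_forall fun u x _ => ?_)
  · have h1 := abs_le.1 (le_trans (norm_fst_le u) hu.le)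
    have h2 := abs_le.1 (le_trans (norm_fst_le (x - p)) (mem_ball_iff_norm.1 hx).le)
    simp only [Prod.fst_sub] at h2 ⊢
    linarith [h1.1, h2.2]
  · have h1 : HasFDerivAt (fun x => g (x - u)) (fderiv ℝ g (x - u)) x :=
      (hasFDerivAt_comp_sub u).2 (hg (x - u)).hasFDerivAt
    exact h1.const_smul _

theorem fderiv_mol_space (n : ℕ) {g : ST → F} (hg : Continuous g)
    (hd : ∀ s, Differentiable ℝ (fun x => g (s, x)))
    (hc : Continuous (fun p : ST => fderiv ℝ (fun x => g (p.1, x)) p.2)) (p : ST) :
    (fderiv ℝ (mol n g) p).comp (ContinuousLinearMap.inr ℝ ℝ V) =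
      mol n (fun p : ST => fderiv ℝ (fun x => g (p.1, x)) p.2) p := by
  have h1 : HasFDerivAt (fun x : V => mol n g (p.1, x))
      ((fderiv ℝ (mol n g) p).comp (ContinuousLinearMap.inr ℝ ℝ V)) p.2 :=
    HasFDerivAt.comp (f := fun x : V => (p.1, x)) p.2
      ((contDiff_mol n hg).differentiable (by simp) p).hasFDerivAt (hasFDerivAt_prodMk_right _ _)
  obtain ⟨C, hC⟩ := (isCompact_closedBall p 2).exists_bound_of_continuousOn hc.continuousOn
  have h2 : HasFDerivAt (fun x : V => mol n g (p.1, x))
      (mol n (fun p : ST => fderiv ℝ (fun x => g (p.1, x)) p.2) p) p.2 := by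
    refine hasFDerivAt_integral_of_dominated_of_fderiv_le
      (F := fun (x : V) (u : ST) => (bumpS n).normed volume u • g ((p.1, x) - u))
      (F' := fun (x : V) (u : ST) => (bumpS n).normed volume u •
        fderiv ℝ (fun y => g (((p.1, x) - u).1, y)) ((p.1, x) - u).2)
      (bound := fun u => (bumpS n).normed volume u * C) (Metric.ball_mem_nhds p.2 one_pos)
      (Eventually.of_forall fun x => (moll_int n hg.locallyIntegrable (p.1, x)).1)
      (moll_int n hg.locallyIntegrable p) (moll_int n hc.locallyIntegrable p).1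
      (Eventually.of_forall fun u x hx => moll_norm n u fun hu => hC _ ?_)
      ((bumpS n).integrable_normed.mul_const C) (Eventually.of_forall fun u x _ => ?_)
    · rw [mem_closedBall_iff_norm]
      have e : (p.1, x) - u - p = ((0 : ℝ), x - p.2) - u := by
        ext1
        · simp
        · simp only [Prod.snd_sub]
          abel
      have h3 : ‖((0 : ℝ), x - p.2)‖ ≤ 1 := by
        rw [Prod.norm_mk, norm_zero, max_eq_right (norm_nonneg _)]
        exact (mem_ball_iff_norm.1 hx).le
      rw [e]
      linarith [norm_sub_le ((0 : ℝ), x - p.2) u]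
    · have h3 : HasFDerivAt (fun x : V => g (p.1 - u.1, x - u.2))
          (fderiv ℝ (fun y => g (p.1 - u.1, y)) (x - u.2)) x :=
        (hasFDerivAt_comp_sub (f := fun y => g (p.1 - u.1, y)) u.2).2
          (hd (p.1 - u.1) (x - u.2)).hasFDerivAt
      exact h3.const_smul _
  exact h1.unique h2

theorem mol_rp (n : ℕ) {J : ST → F} (hc : Continuous J) (h : PS J) (p : ST) :
    mol n (rp J) p = rp (mol n J) p := by
  obtain ⟨ρ, hρ, hJ⟩ := h.bound (‖p‖ + 1)
  obtain ⟨C, hC⟩ := (isCompact_closedBall p (ρ + 1)).exists_bound_of_continuousOn hc.continuousOn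
  have hC0 : 0 ≤ C := le_trans (norm_nonneg _) (hC p (Metric.mem_closedBall_self (by linarith)))
  have hm : Measurable fun y : V => (4 * Real.pi * ‖y‖)⁻¹ := by fun_prop
  have hi : Integrable ((Metric.ball (0 : V) (ρ + 1)).indicator
      fun y => (4 * Real.pi * ‖y‖)⁻¹ * C) := by
    rw [integrable_indicator_iff measurableSet_ball]
    refine Integrable.mul_const (integrableOn_ball_of_norm_le_rpow (by simp) (C := (4 * Real.pi)⁻¹)
      (α := 1) (by simp) (Eventually.of_forall fun y => ?_) hm.aestronglyMeasurable) C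
    rw [Real.norm_of_nonneg (by positivity), Real.rpow_neg_one, mul_inv]
  have hint : Integrable (Function.uncurry fun (u : ST) (y : V) => (bumpS n).normed volume u •
      (4 * Real.pi * ‖y‖)⁻¹ • J ((p - u).1 - ‖y‖, (p - u).2 - y)) (volume.prod volume) := by
    refine Integrable.mono' ((bumpS n).integrable_normed.mul_prod hi) ?_
      (Eventually.of_forall fun z => ?_)
    · have c1 : Continuous fun z : ST × V => (bumpS n).normed volume z.1 :=
        (bumpS n).continuous_normed.comp continuous_fst
      have c2 : Continuous fun z : ST × V => J ((p - z.1).1 - ‖z.2‖, (p - z.1).2 - z.2) :=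
        hc.comp (by fun_prop)
      exact c1.aestronglyMeasurable.smul
        ((hm.comp measurable_snd).aestronglyMeasurable.smul c2.aestronglyMeasurable)
    · obtain ⟨u, y⟩ := z
      refine moll_norm n u fun hu => ?_
      by_cases h0 : J ((p - u).1 - ‖y‖, (p - u).2 - y) = 0
      · rw [h0, smul_zero, norm_zero]
        exact indicator_nonneg (fun y _ => by positivity) _
      · have h1 := hJ (p - u) y (by linarith [norm_sub_le p u]) h0
        rw [indicator_of_mem (mem_ball_zero_iff.2 (by linarith)), norm_smul,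
          Real.norm_of_nonneg (by positivity)]
        refine mul_le_mul_of_nonneg_left (hC _ ?_) (by positivity)
        rw [mem_closedBall_iff_norm]
        have e : ((p - u).1 - ‖y‖, (p - u).2 - y) - p = -(u + (‖y‖, y)) := by
          ext1
          · simp only [Prod.fst_sub, Prod.fst_neg, Prod.fst_add]
            ring
          · simp only [Prod.snd_sub, Prod.snd_neg, Prod.snd_add]
            abel
        have h3 : ‖((‖y‖, y) : ST)‖ = ‖y‖ := by
          rw [Prod.norm_mk, norm_norm, max_self]
        rw [e, norm_neg]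
        linarith [norm_add_le u (‖y‖, y)]
  unfold mol rp
  simp only [← integral_smul]
  rw [integral_integral_swap hint]
  refine integral_congr_ae (Eventually.of_forall fun y => ?_)
  refine integral_congr_ae (Eventually.of_forall fun u => ?_)
  have e : ((p - u).1 - ‖y‖, (p - u).2 - y) = (p.1 - ‖y‖, p.2 - y) - u := by
    ext1
    · simp only [Prod.fst_sub]
      ring
    · simp only [Prod.snd_sub]
      abel
  simp only
  rw [e, smul_comm]

/-- The space-time divergence as a linear functional of the derivative. -/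
def mollTr : (ST →L[ℝ] ST) →L[ℝ] ℝ :=
  (ContinuousLinearMap.fst ℝ ℝ V).comp (ContinuousLinearMap.apply ℝ ST e0) +
    ∑ i : Fin 3, ((EuclideanSpace.proj i : V →L[ℝ] ℝ).comp (ContinuousLinearMap.snd ℝ ℝ V)).comp
      (ContinuousLinearMap.apply ℝ ST (ei i))

theorem moll_tr (D : ST →L[ℝ] ST) : mollTr D = (D e0).1 + dv (fun e => (D e).2) := by
  simp [mollTr, dv]

theorem moll_tr_pre (φ : ST →L[ℝ] ℝ) (v : ST) :
    mollTr ((ContinuousLinearMap.lsmul ℝ ℝ : ℝ →L[ℝ] ST →L[ℝ] ST).precompL ST φ v) = φ v := by
  have e : v = v.1 • e0 + ∑ i : Fin 3, v.2 i • ei i := by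
    ext1
    · simp [e0, ei, Fin.sum_univ_three]
    · refine ext3 ?_ ?_ ?_ <;> simp [e0, ei, Fin.sum_univ_three]
  rw [moll_tr]
  conv_rhs => rw [e]
  simp [dv, Fin.sum_univ_three, mul_comm]

theorem mol_div (n : ℕ) {J : ST → ST} (hc : Continuous J) (h : WDiv J) (p : ST) :
    (fderiv ℝ (mol n J) p e0).1 + dv (fun e => (fderiv ℝ (mol n J) p e).2) = 0 := by
  have := moll_haar
  have hb : ContDiff ℝ 1 ((bumpS n).normed (volume : Measure ST)) := (bumpS n).contDiff_normed
  have hs := (bumpS n).hasCompactSupport_normed (μ := (volume : Measure ST))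
  have h1 : HasFDerivAt (mol n J) _ p := hs.hasFDerivAt_convolution_left
    (ContinuousLinearMap.lsmul ℝ ℝ) hb hc.locallyIntegrable p
  have h2 := (hs.fderiv ℝ).convolutionExists_left (μ := volume)
    ((ContinuousLinearMap.lsmul ℝ ℝ : ℝ →L[ℝ] ST →L[ℝ] ST).precompL ST)
    (hb.continuous_fderiv (by simp)) hc.locallyIntegrable p
  rw [← moll_tr, h1.fderiv, convolution_def, ← mollTr.integral_comp_comm h2]
  simp only [moll_tr_pre]
  rw [← integral_sub_left_eq_self _ volume p]
  simp only [sub_sub_cancel]
  have h3 := h (fun u => (bumpS n).normed volume (p - u)) (hb.comp (by fun_prop))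
    (hs.comp_homeomorph (Homeomorph.subLeft p))
  have h4 : ∀ u : ST, fderiv ℝ (fun u => (bumpS n).normed volume (p - u)) u =
      -fderiv ℝ ((bumpS n).normed volume) (p - u) := by
    intro u
    have h5 := HasFDerivAt.comp (f := fun u : ST => p - u) u
      (hb.differentiable (by simp) (p - u)).hasFDerivAt ((hasFDerivAt_id u).const_sub p)
    refine h5.fderiv.trans ?_
    ext1 <;> simp
  simp only [h4, ContinuousLinearMap.neg_apply, integral_neg, neg_eq_zero] at h3
  exact h3

end

end Vale.Agent.P107
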