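import Vale.Agent.P107.MaxSm
import Vale.Agent.P107.Moll

/-! The Maxwell equations for continuous sources. -/

namespace Vale.Agent.P107

open MeasureTheory Set Filter Topology
open scoped ENNReal RealInnerProductSpace

noncomputable section

theorem maxwell_cont {J : ST → ST} {H : ST → Z} (hc : Continuous J) (h : PS J) (hw : WDiv J)
    (hd : Differentiable ℝ (rp J))
    (hb : ∀ T : ℝ, ∃ C : ℝ, ∀ p : ST, p.1 ≤ T → ‖fderiv ℝ (rp J) p‖ ≤ C)
    (hH : ∀ p, EB (fderiv ℝ (rp J) p) = H p) (cH : Continuous H)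
    (hs : ∀ T : ℝ, ∃ C : ℝ, ∀ s, s ≤ T → SD (fun x => H (s, x)) C) :
    ContDiff ℝ 1 H ∧ ∀ p, MxD (fderiv ℝ H p) (J p) := by
  obtain ⟨A, hA⟩ := exists_MxL
  have e1 : ∀ n, (fun p => EB (fderiv ℝ (rp (mol n J)) p)) = mol n H := fun n => by
    funext p
    have h1 := hasFDerivAt_mol n hd hb p
    rw [← funext (mol_rp n hc h), h1.2.fderiv, ← EBL_apply, mol_clm n h1.1 EBL p]
    simp only [EBL_apply, hH]
  have sm : ∀ n, ContDiff ℝ 1 (mol n H) ∧ ∀ p, MxD (fderiv ℝ (mol n H) p) (mol n J p) := fun n =>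
    e1 n ▸ maxwell_smooth ((contDiff_mol n hc).of_le (WithTop.coe_le_coe.2 le_top)) (h.mol n)
      (mol_div n hc hw)
  set Dx : ST → V →L[ℝ] Z := fun p => fderiv ℝ (fun x => H (p.1, x)) p.2 with hDx
  have cD : Continuous Dx := SD.cont_fderiv (g := fun s x => H (s, x)) cH fun s₀ => by
    obtain ⟨C, hC⟩ := hs (s₀ + 1)
    exact ⟨C, (eventually_le_nhds (lt_add_one s₀)).mono hC⟩
  have dH : ∀ s, Differentiable ℝ fun x => H (s, x) := fun s => by
    obtain ⟨C, hC⟩ := hs s
    exact (SD.diff (cH.comp (Continuous.prodMk_right s)) (hC s le_rfl)).1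
  have cA : Continuous fun p => A (Dx p, J p) := A.continuous.comp (cD.prodMk hc)
  have e2 : ∀ n, fderiv ℝ (mol n H) = mol n fun p => A (Dx p, J p) := fun n => by
    funext p
    have l := (cD.prodMk hc).locallyIntegrable (μ := volume)
    rw [hA _ _ ((sm n).2 p), fderiv_mol_space n cH dH cD, ← mol_clm n l A p]
    congr 1
    exact Prod.ext (mol_clm n l (ContinuousLinearMap.fst ℝ _ _) p).symm
      (mol_clm n l (ContinuousLinearMap.snd ℝ _ _) p).symm
  have t1 := mol_tendsto cA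
  have key : ∀ p, HasFDerivAt H (A (Dx p, J p)) p := fun p =>
    hasFDerivAt_of_tendstoLocallyUniformlyOn (l := atTop) isOpen_univ
      (tendstoLocallyUniformlyOn_univ.2 t1)
      (fun n x _ => e2 n ▸ ((sm n).1.differentiable one_ne_zero x).hasFDerivAt)
      (fun x _ => (tendstoLocallyUniformlyOn_univ.2 (mol_tendsto cH)).tendsto_at (mem_univ x))
      (mem_univ p)
  have e3 : fderiv ℝ H = fun p => A (Dx p, J p) := funext fun p => (key p).fderiv
  refine ⟨contDiff_one_iff_fderiv.2 ⟨fun p => (key p).differentiableAt, e3 ▸ cA⟩, fun p => ?_⟩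
  rw [e3]
  exact isClosed_MxD.mem_of_tendsto (b := atTop) (x := (A (Dx p, J p), J p))
    (((tendstoLocallyUniformlyOn_univ.2 t1).tendsto_at (mem_univ p)).prodMk_nhds
      ((tendstoLocallyUniformlyOn_univ.2 (mol_tendsto hc)).tendsto_at (mem_univ p)))
    (Eventually.of_forall fun n => by simpa only [mem_ofPred_eq, ← e2] using (sm n).2 p)

end

end Vale.Agent.P107
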