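import Vale.Agent.P107.Pot2
import Vale.Agent.P107.Cur
import Vale.Agent.P107.MaxA
import Vale.Agent.P107.Fix
import Vale.Agent.P107.Free
import Vale.Agent.P107.Hom

/-! The total field solves the Maxwell equations. -/

namespace Vale.Agent.P107

open MeasureTheory Set Filter Topology
open scoped ENNReal RealInnerProductSpace

noncomputable section

theorem RetMx_inCl_zero : InCl 0 :=
  ⟨1, 1, 1, 1, 1, le_rfl, le_rfl, le_rfl, le_rfl, le_rfl, by simp,
    fun t _ p p' _ _ => by simpa using by positivity,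
    fun t _ s _ => (SD.const (0 : Z)).mono (by positivity)⟩

theorem InCl.maxwell_retF {G : ST → Z} (h : InCl G) (d : Dat) :
    ContDiff ℝ 1 (retF d G) ∧ ∀ p, MxD (fderiv ℝ (retF d G) p) (Jc d G p) := by
  have hc := h.continuous_retF d
  obtain ⟨Λ, M1, l1, M2, l2, h⟩ := h
  have e : rp (Jc d G) = pot d G := funext (h.rp_Jc d)
  refine maxwell_cont (h.continuous_Jc d) (PS_Jc d G) (h.wdiv d)
    (e ▸ fun p => (h.hasFDerivAt_pot d p).differentiableAt) (e ▸ h.pot_bd d) (e ▸ h.EB_pot d) hc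
    fun T => ?_
  obtain ⟨C, -, hC⟩ := op_sd d Λ M1 l1 (max T 0)
  exact ⟨_, fun s hs => hC M2 l2 G h (max T 0) ⟨le_max_right _ _, le_rfl⟩ s
    (hs.trans (le_max_left _ _))⟩

theorem Pre.mxS {d : Dat} {K G : ST → Z} (hK : Pre d K) (h : InCl G) :
    MxS (HH d K G) (Jc d G) := by
  have h1 := h.maxwell_retF d
  obtain ⟨Λ, M1, l1, M2, l2, h⟩ := h
  refine ⟨hK.nice.c1.add h1.1, h.continuous_Jc d, fun p hp => ?_⟩
  have e : fderiv ℝ (HH d K G) p = fderiv ℝ K p + fderiv ℝ (retF d G) p :=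
    fderiv_add (hK.nice.c1.differentiable one_ne_zero p) (h1.1.differentiable one_ne_zero p)
  simpa only [e, zero_add] using (hK.mx p hp).add (h1.2 p)

theorem HH_zero (d : Dat) (K : ST → Z) {G : ST → Z} (h : InCl G) (x : V) :
    HH d K G (0, x) = HH d K 0 (0, x) := by
  rw [HH, HH, retF_zero d h, retF_zero d RetMx_inCl_zero]

theorem exists_dat {f₀ : V → V → ℝ} {E₀ B₀ : V → V} (h : Datum f₀ E₀ B₀) :
    ∃ d : Dat, ∀ z, d.f z = f₀ z.1 z.2 := by
  obtain ⟨C, h1, h2, h3, h4⟩ := exists_bounds_of_compact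
    (h.smooth.of_le (WithTop.coe_le_coe.2 le_top)) h.supp
  obtain ⟨R, hR⟩ := h.supp.isCompact.isBounded.exists_norm_le
  have hz : ∀ z : Z, f₀ z.1 z.2 ≠ 0 → ‖z‖ ≤ R := fun z hz => hR z (subset_tsupport _ hz)
  exact ⟨⟨fun z => f₀ z.1 z.2, max R 1, 1 + max R 0, C, le_max_right _ _,
    le_add_of_nonneg_right (le_max_right _ _), h1, h.smooth,
    fun z h0 => ⟨((norm_fst_le z).trans (hz z h0)).trans (le_max_left _ _), (q_le _).trans
      (add_le_add le_rfl (((norm_snd_le z).trans (hz z h0)).trans (le_max_left _ _)))⟩,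
    fun z => h.nonneg _ _, fun z => (le_abs_self _).trans (h2 z), h3, h4⟩, fun _ => rfl⟩

theorem exists_pre {f₀ : V → V → ℝ} {E₀ B₀ : V → V} (h : Datum f₀ E₀ B₀) {d : Dat}
    (hd : ∀ z, d.f z = f₀ z.1 z.2) :
    ∃ K : ST → Z, Pre d K ∧ ∀ x, HH d K 0 (0, x) = (E₀ x, B₀ x) := by
  have m := RetMx_inCl_zero.maxwell_retF d
  have dm := m.1.differentiable one_ne_zero
  have s1 := (SB_retF_zero d).clm (ContinuousLinearMap.fst ℝ V V)
  have s2 := (SB_retF_zero d).clm (ContinuousLinearMap.snd ℝ V V)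
  have df : ∀ {g : V → V}, SB g → Differentiable ℝ g := fun hg => hg.1.differentiable (by simp)
  obtain ⟨K, nK, K0, mK⟩ := exists_hom (h.fE.sb.sub s1) (h.fB.sb.sub s2)
    (fun x => by
      have e := dvg_eq_dv (H := fun p => (retF d 0 p).1) (p := (0, x)) (dm _).fst
      rw [dvg_sub (df h.fE.sb) (df s1), h.divE, sub_eq_zero]
      refine Eq.trans ?_ e.symm
      rw [fderiv.fst (dm _)]
      refine Eq.trans ?_ (m.2 (0, x)).gE.symm
      simp only [Jc_zero, hd, rho])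
    (fun x => by
      have e := dvg_eq_dv (H := fun p => (retF d 0 p).2) (p := (0, x)) (dm _).snd
      rw [dvg_sub (df h.fB.sb) (df s2), h.divB, sub_eq_zero]
      refine Eq.trans ?_ e.symm
      rw [fderiv.snd (dm _)]
      exact (m.2 (0, x)).gB.symm)
  have e : ∀ x, HH d K 0 (0, x) = (E₀ x, B₀ x) := fun x => by
    rw [HH, K0]; ext1 <;> simp
  exact ⟨K, ⟨nK, mK, by simpa only [e] using h.fE.l2, by simpa only [e] using h.fB.l2⟩, e⟩

end

end Vale.Agent.P107
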