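import Vale.Agent.P107.Ener1
import Vale.Agent.P107.RetMx

/-! Energy balance of particles and fields. -/

namespace Vale.Agent.P107

open MeasureTheory Set Filter Topology
open scoped ENNReal RealInnerProductSpace

noncomputable section

/-- The initial energy. -/
def En0 (d : Dat) (K : ST → Z) : ℝ :=
  (∫ x, en (HH d K 0 (0, x))) + 4 * Real.pi * ∫ z, q z.2 ∂d.ν

theorem ener2_int {X : Type} [TopologicalSpace X] [MeasurableSpace X] [OpensMeasurableSpace X]
    [T2Space X] {μ : Measure X} [IsFiniteMeasureOnCompacts μ] {C : Set X} (hC : IsCompact C)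
    {Φ : X → ℝ} (hΦ : Continuous Φ) (h : ∀ᵐ x ∂μ, x ∉ C → Φ x = 0) : Integrable Φ μ :=
  (hΦ.continuousOn.integrableOn_compact hC).integrable_of_ae_notMem_eq_zero h

theorem ener2_nu (d : Dat) {Φ : Z → ℝ} (hΦ : Continuous Φ) : Integrable Φ d.ν :=
  ener2_int d.isCompact_S hΦ (d.ae_mem.mono fun _ h h' => absurd h h')

theorem ener2_ae {X : Type} [MeasurableSpace X] (μ : Measure X) (s : ℝ) :
    ∀ᵐ p ∂μ.prod (volume.restrict (Ioc (0 : ℝ) s)), p.2 ∈ Icc 0 s :=
  Measure.quasiMeasurePreserving_snd.ae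
    ((ae_restrict_mem measurableSet_Ioc).mono fun _ h => Ioc_subset_Icc_self h)

theorem ener2_nu2 (d : Dat) (s : ℝ) {Φ : Z × ℝ → ℝ} (hΦ : Continuous Φ) :
    Integrable Φ (d.ν.prod (volume.restrict (Ioc (0 : ℝ) s))) := by
  refine ener2_int (d.isCompact_S.prod (isCompact_Icc (a := 0) (b := s))) hΦ ?_
  filter_upwards [Measure.quasiMeasurePreserving_fst.ae d.ae_mem, ener2_ae d.ν s] with p h1 h2 h3
  exact absurd ⟨h1, h2⟩ h3

theorem ener2_lint {X : Type} [MeasurableSpace X] {μ : Measure X} {s : ℝ} {Ψ : X × ℝ → ℝ}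
    (hi : Integrable Ψ (μ.prod (volume.restrict (Ioc (0 : ℝ) s)))) (h0 : ∀ p, 0 ≤ Ψ p) :
    ∫⁻ x, ∫⁻ t in Ioc 0 s, ENNReal.ofReal (Ψ (x, t)) ∂volume ∂μ =
      ENNReal.ofReal (∫ p, Ψ p ∂μ.prod (volume.restrict (Ioc (0 : ℝ) s))) := by
  rw [ofReal_integral_eq_lintegral_ofReal hi (ae_of_all _ h0),
    lintegral_prod _ hi.aestronglyMeasurable.aemeasurable.ennreal_ofReal]

theorem ener2_en : Continuous en := by
  unfold en
  fun_prop

theorem ener2_poy : Continuous poy := ener2_en.prodMk contDiff_cross.continuous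

theorem ener2_supp {g : ST → ℝ} {R : ℝ} (hR : ∀ p, g p ≠ 0 → ‖p.2‖ ≤ R + |p.1|) {p : ST}
    (hp : fderiv ℝ g p ≠ 0) : ‖p.2‖ ≤ R + |p.1| :=
  closure_minimal (t := {p : ST | ‖p.2‖ ≤ R + |p.1|}) hR
    (isClosed_le (by fun_prop) (by fun_prop)) (support_fderiv_subset ℝ hp)

/-- The energy balance along one characteristic. -/
theorem ener2_one {Λ M1 l1 M2 l2 : ℝ} {G : ST → Z} (h : Cl Λ M1 l1 M2 l2 G) {g : ST → ℝ}
    (hg : ContDiff ℝ 1 g) (z : Z) {t : ℝ} (ht : 0 < t) :
    HasDerivAt (fun t => g (t, trY G z t) * q (trW G z t))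
      (g (t, trY G z t) * ⟪vel (trW G z t), (G (t, trY G z t)).1⟫ -
        -fderiv ℝ g (t, trY G z t) (1, vel (trW G z t)) * q (trW G z t)) t := by
  have h1 : HasDerivAt (fun t => (t, trY G z t)) (1, vel (trW G z t)) t :=
    (hasDerivAt_id t).prodMk ((h.tm z).hY t)
  have h2 := HasFDerivAt.comp_hasDerivAt (f := fun t => (t, trY G z t)) (l := g) t
    (hg.differentiable one_ne_zero _).hasFDerivAt h1
  have h3 := hasDerivAt_q (h.hasDerivAt_trW z ht)
  rw [inner_vel_lor] at h3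
  refine (h2.mul h3).congr_deriv ?_
  simp only [Function.comp_apply]
  ring

theorem Sol.bal {d : Dat} {K G : ST → Z} {T : ℝ} (hK : Pre d K) (h : Sol d K T G) {g : ST → ℝ}
    (hg : Adm g) {s : ℝ} (hs : s ∈ Icc 0 T) :
    ∫⁻ x, ENNReal.ofReal (g (s, x) * en (G (s, x))) ≤ ENNReal.ofReal (En0 d K) ∧
      ∫⁻ z, ENNReal.ofReal (g (s, trY G z s) * q (trW G z s)) ∂d.ν ≤ ENNReal.ofReal (En0 d K) ∧
      ∫⁻ x, ∫⁻ t in Ioc 0 s, ENNReal.ofReal (-fderiv ℝ g (t, x) (poy (G (t, x)))) ≤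
        ENNReal.ofReal (En0 d K) ∧
      ∫⁻ z, ∫⁻ t in Ioc 0 s, ENNReal.ofReal
        (-fderiv ℝ g (t, trY G z t) (1, vel (trW G z t)) * q (trW G z t)) ∂volume ∂d.ν ≤
        ENNReal.ofReal (En0 d K) := by
  obtain ⟨Λ, M1, l1, M2, l2, cl⟩ := h.cl
  obtain ⟨R, hR⟩ := hg.supp
  have cG := cl.cont
  have cg := hg.c1.continuous
  have cD : Continuous (fderiv ℝ g) := hg.c1.continuous_fderiv one_ne_zero
  have cq := contDiff_q.continuous
  have cv := contDiff_vel.continuous
  have cY : Continuous fun p : Z × ℝ => trY G p.1 p.2 := cl.continuous_tr.fst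
  have cW : Continuous fun p : Z × ℝ => trW G p.1 p.2 := cl.continuous_tr.snd
  have cP : Continuous fun p : Z × ℝ => ((p.2, trY G p.1 p.2) : ST) := continuous_snd.prodMk cY
  have eq : ∀ t ∈ uIcc 0 s, ∀ x, HH d K G (t, x) = G (t, x) := fun t ht x => by
    rw [uIcc_of_le hs.1] at ht
    exact (h.eq (t, x) ⟨ht.1, ht.2.trans hs.2⟩).symm
  -- the integrands
  let A : Z × ℝ → ℝ := fun p =>
    -fderiv ℝ g (p.2, trY G p.1 p.2) (1, vel (trW G p.1 p.2)) * q (trW G p.1 p.2)
  let C : Z × ℝ → ℝ := fun p =>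
    g (p.2, trY G p.1 p.2) * ⟪vel (trW G p.1 p.2), (G (p.2, trY G p.1 p.2)).1⟫
  let φ : Z × ℝ → ℝ := fun p => g (p.2, trY G p.1 p.2) * q (trW G p.1 p.2)
  let Ψ : V × ℝ → ℝ := fun p => -fderiv ℝ g (p.2, p.1) (poy (G (p.2, p.1)))
  have cA : Continuous A :=
    ((cD.comp cP).clm_apply (continuous_const.prodMk (cv.comp cW))).neg.mul (cq.comp cW)
  have cC : Continuous C := (cg.comp cP).mul ((cv.comp cW).inner (cG.comp cP).fst)
  have cφ : Continuous φ := (cg.comp cP).mul (cq.comp cW)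
  have cΨ : Continuous Ψ := ((cD.comp continuous_swap).clm_apply
    (ener2_poy.comp (cG.comp continuous_swap))).neg
  have A0 : ∀ p, 0 ≤ A p := fun p => mul_nonneg
    (neg_nonneg.2 (hg.caus _ _ _ (norm_vel_lt _).le)) (q_pos _).le
  have φ0 : ∀ p, 0 ≤ φ p := fun p => mul_nonneg (hg.nn _) (q_pos _).le
  have Ψ0 : ∀ p, 0 ≤ Ψ p := fun p => neg_nonneg.2 (hg.caus _ _ _ (norm_poy_le _))
  have iA := ener2_nu2 d s cA
  have iC := ener2_nu2 d s cC
  have iφ : ∀ t, Integrable (fun z => φ (z, t)) d.ν := fun t =>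
    ener2_nu d (cφ.comp (continuous_id.prodMk continuous_const))
  have iΨ : Integrable Ψ ((volume : Measure V).prod (volume.restrict (Ioc (0 : ℝ) s))) := by
    refine ener2_int ((isCompact_closedBall (0 : V) (R + s)).prod
      (isCompact_Icc (a := 0) (b := s))) cΨ ?_
    filter_upwards [ener2_ae (volume : Measure V) s] with p h1 h2
    by_contra h3
    refine h2 ⟨mem_closedBall_zero_iff.2 ?_, h1⟩
    have h4 := ener2_supp hR (p := (p.2, p.1)) fun e => h3 (by simp [Ψ, e])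
    rw [abs_of_nonneg h1.1] at h4
    linarith [h1.2]
  have i1 : Integrable fun x => g (s, x) * en (G (s, x)) := by
    refine ener2_int (isCompact_closedBall (0 : V) (R + |s|)) ((cg.comp
      (continuous_const.prodMk continuous_id)).mul (ener2_en.comp (cG.comp
        (continuous_const.prodMk continuous_id)))) (ae_of_all _ fun x hx => ?_)
    by_contra h3
    exact hx (mem_closedBall_zero_iff.2 (hR (s, x) (left_ne_zero_of_mul h3)))
  -- the fields
  have e1 := (hK.mxS h.cl).energy hg.c1 hR hs.1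
  have e2 : ∫ t in (0 : ℝ)..s, ∫ x, fderiv ℝ g (t, x) (poy (HH d K G (t, x))) =
      -∫ p, Ψ p ∂(volume : Measure V).prod (volume.restrict (Ioc (0 : ℝ) s)) := by
    rw [integral_prod_symm _ iΨ, ← intervalIntegral.integral_of_le hs.1,
      ← intervalIntegral.integral_neg]
    refine intervalIntegral.integral_congr fun t ht => ?_
    simp only [Ψ, eq t ht, integral_neg, neg_neg]
  have e3 : ∫ t in (0 : ℝ)..s, ∫ x, g (t, x) * ⟪(Jc d G (t, x)).2, (HH d K G (t, x)).1⟫ =
      4 * Real.pi * ∫ p, C p ∂d.ν.prod (volume.restrict (Ioc (0 : ℝ) s)) := by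
    rw [integral_prod_symm _ iC, ← intervalIntegral.integral_of_le hs.1,
      ← intervalIntegral.integral_const_mul]
    refine intervalIntegral.integral_congr fun t ht => ?_
    have c1 : Continuous fun x : V => ((t, x) : ST) := continuous_const.prodMk continuous_id
    have h1 := cl.int_Jc d t
      (A := fun x => g (t, x) • (innerSL ℝ (G (t, x)).1).comp (ContinuousLinearMap.snd ℝ ℝ V))
      ((cg.comp c1).smul (((innerSL ℝ).continuous.comp (cG.comp c1).fst).clm_comp
        continuous_const))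
    simp only [smul_apply, ContinuousLinearMap.comp_apply, innerSL_apply_apply,
      ContinuousLinearMap.coe_snd', smul_eq_mul] at h1
    simp only [C, eq t ht, real_inner_comm (G _).1]
    exact h1
  -- the particles
  have e4 : (∫ p, C p ∂d.ν.prod (volume.restrict (Ioc (0 : ℝ) s))) -
      ∫ p, A p ∂d.ν.prod (volume.restrict (Ioc (0 : ℝ) s)) =
      (∫ z, φ (z, s) ∂d.ν) - ∫ z, φ (z, 0) ∂d.ν := by
    rw [← integral_sub iC iA, ← integral_sub (iφ s) (iφ 0),
      integral_prod (fun p => C p - A p) (iC.sub iA)]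
    refine integral_congr_ae (ae_of_all _ fun z => ?_)
    have c1 : Continuous fun t : ℝ => (z, t) := continuous_const.prodMk continuous_id
    beta_reduce
    rw [← intervalIntegral.integral_of_le hs.1]
    exact intervalIntegral.integral_eq_sub_of_hasDerivAt_of_le hs.1 (cφ.comp c1).continuousOn
      (fun t ht => ener2_one cl hg.c1 z ht.1) (((cC.sub cA).comp c1).intervalIntegrable _ _)
  have b1 : ∫ x, g (0, x) * en (HH d K G (0, x)) ≤ ∫ x, en (HH d K 0 (0, x)) := by
    refine integral_mono_of_nonneg (ae_of_all _ fun x => mul_nonneg (hg.nn _) (en_nonneg _))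
      ((((memLp_two_iff_integrable_sq_norm hK.l1.1).1 hK.l1).add
        ((memLp_two_iff_integrable_sq_norm hK.l2.1).1 hK.l2)).div_const 2)
      (ae_of_all _ fun x => ?_)
    beta_reduce
    rw [HH_zero d K h.cl]
    exact mul_le_of_le_one_left (en_nonneg _) (hg.le _)
  have b2 : ∫ z, φ (z, 0) ∂d.ν ≤ ∫ z, q z.2 ∂d.ν := by
    refine integral_mono (iφ 0) (ener2_nu d (cq.comp continuous_snd)) fun z => ?_
    simp only [φ, trW, tr_zero]
    exact mul_le_of_le_one_left (q_pos _).le (hg.le _)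
  have e5 : ∫ x, g (s, x) * en (HH d K G (s, x)) = ∫ x, g (s, x) * en (G (s, x)) := by
    simp only [eq s right_mem_uIcc]
  rw [e2, e3, e5] at e1
  have n1 : 0 ≤ ∫ x, g (s, x) * en (G (s, x)) :=
    integral_nonneg fun x => mul_nonneg (hg.nn _) (en_nonneg _)
  have n2 : 0 ≤ ∫ z, φ (z, s) ∂d.ν := integral_nonneg fun z => φ0 _
  have n3 : 0 ≤ ∫ p, Ψ p ∂(volume : Measure V).prod (volume.restrict (Ioc (0 : ℝ) s)) :=
    integral_nonneg Ψ0
  have n4 : 0 ≤ ∫ p, A p ∂d.ν.prod (volume.restrict (Ioc (0 : ℝ) s)) := integral_nonneg A0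
  have p3 : 0 ≤ 4 * Real.pi - 1 := by linarith [Real.pi_gt_three]
  have m2 := mul_nonneg p3 n2
  have m4 := mul_nonneg p3 n4
  have m0 := mul_le_mul_of_nonneg_left b2 (by positivity : 0 ≤ 4 * Real.pi)
  have e6 := congrArg (fun r => 4 * Real.pi * r) e4
  simp only [mul_sub] at e6
  refine ⟨?_, ?_, ?_, ?_⟩
  · rw [← ofReal_integral_eq_lintegral_ofReal i1
      (ae_of_all _ fun x => mul_nonneg (hg.nn _) (en_nonneg _))]
    exact ENNReal.ofReal_le_ofReal (by rw [En0]; linarith)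
  · refine (ofReal_integral_eq_lintegral_ofReal (iφ s) (ae_of_all _ fun z => φ0 _)).symm.trans_le ?_
    exact ENNReal.ofReal_le_ofReal (by rw [En0]; linarith)
  · exact (ener2_lint iΨ Ψ0).trans_le (ENNReal.ofReal_le_ofReal (by rw [En0]; linarith))
  · exact (ener2_lint iA A0).trans_le (ENNReal.ofReal_le_ofReal (by rw [En0]; linarith))

end

end Vale.Agent.P107
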