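import Vale.Agent.P107.Ener2

/-! Energy and flux bounds. -/

namespace Vale.Agent.P107

open MeasureTheory Set Filter Topology
open scoped ENNReal RealInnerProductSpace

noncomputable section

variable {d : Dat} {K G : ST → Z} {T : ℝ}

theorem ener3_fatou {X : Type} [MeasurableSpace X] {μ : Measure X} {F : ℕ → X → ℝ≥0∞}
    (hF : ∀ n, Measurable (F n)) {E : ℝ≥0∞} (hE : ∀ n, ∫⁻ x, F n x ∂μ ≤ E) {S : Set X}
    {f : X → ℝ≥0∞} (hf : ∀ x ∈ S, f x ≤ liminf (fun n => F n x) atTop) :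
    ∫⁻ x in S, f x ∂μ ≤ E :=
  (setLIntegral_mono (Measurable.liminf hF) hf).trans ((setLIntegral_le_lintegral _ _).trans
    ((lintegral_liminf_le hF).trans (liminf_le_of_frequently_le' (Frequently.of_forall hE))))

theorem ener3_two {X : Type} [MeasurableSpace X] {μ : Measure X} {f : X → ℝ} {E : ℝ}
    (h : ∫⁻ x, ENNReal.ofReal (f x / 2) ∂μ ≤ ENNReal.ofReal E) :
    ∫⁻ x, ENNReal.ofReal (f x) ∂μ ≤ ENNReal.ofReal (2 * E) := by
  rw [ENNReal.ofReal_mul zero_le_two]
  refine le_trans (le_of_eq ?_) (mul_le_mul_right h _)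
  rw [← lintegral_const_mul' _ _ ENNReal.ofReal_ne_top]
  refine lintegral_congr fun x => ?_
  rw [← ENNReal.ofReal_mul zero_le_two, mul_div_cancel₀ _ two_ne_zero]

theorem ener3_r {δ : ℝ} (hδ : 0 ≤ δ) (y : V) : ‖y‖ ≤ rε δ y ∧ rε δ y ≤ δ + ‖y‖ :=
  ⟨Real.le_sqrt_of_sq_le (le_add_of_nonneg_left (sq_nonneg _)),
    Real.sqrt_le_iff.2 ⟨by positivity, by nlinarith [norm_nonneg y]⟩⟩

theorem ener3_stp1 {δ r : ℝ} (hδ : 0 < δ) (h : δ ≤ r) : stp δ r = 1 :=
  Real.smoothTransition.one_of_one_le ((one_le_div hδ).2 h)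

theorem ener3_stp0 {δ r : ℝ} (hδ : 0 < δ) (h : r ≤ 0) : stp δ r = 0 :=
  Real.smoothTransition.zero_of_nonpos (div_nonpos_of_nonpos_of_nonneg h hδ.le)

theorem ener3_supp {δ r : ℝ} (hδ : 0 < δ) (h : deriv (stp δ) r ≠ 0) : 0 ≤ r ∧ r ≤ δ := by
  refine ⟨not_lt.1 fun h1 => h ?_, not_lt.1 fun h1 => h ?_⟩
  · rw [EventuallyEq.deriv_eq (f := fun _ => (0 : ℝ))
      ((gt_mem_nhds h1).mono fun y hy => ener3_stp0 hδ hy.le), deriv_const]
  · rw [EventuallyEq.deriv_eq (f := fun _ => (1 : ℝ))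
      ((lt_mem_nhds h1).mono fun y hy => ener3_stp1 hδ hy.le), deriv_const]

theorem ener3_big (p : ST) : ∀ᶠ n : ℕ in atTop, cone 1 n 0 p = 1 :=
  (tendsto_natCast_atTop_atTop.eventually_ge_atTop (1 + p.1 + rε 1 (0 - p.2))).mono
    fun _ hn => ener3_stp1 one_pos (by linarith)

theorem ener3_one {Y W : ℝ → V} (h : Tm Y W) {δ s β : ℝ} (hδ : 0 < δ) {x : V}
    (h1 : ‖x - Y 0‖ + 2 * δ ≤ s) (hβ : 0 ≤ β) : ENNReal.ofReal β ≤ ∫⁻ t in Ioc 0 s,
      ENNReal.ofReal (-fderiv ℝ (cone δ s x) (t, Y t) (1, vel (W t)) * β) := by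
  have hg := adm_cone hδ s x
  have hs : 0 ≤ s := le_trans (by positivity) h1
  have hc : Continuous fun t => -fderiv ℝ (cone δ s x) (t, Y t) (1, vel (W t)) * β :=
    (((hg.c1.continuous_fderiv one_ne_zero).comp (continuous_id.prodMk h.ret_cont)).clm_apply
      (continuous_const.prodMk (contDiff_vel.continuous.comp h.cW))).neg.mul continuous_const
  have e := intervalIntegral.integral_eq_sub_of_hasDerivAt (a := 0) (b := s)
    (f := fun t => -cone δ s x (t, Y t) * β) (fun t _ =>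
      (((hg.c1.differentiable one_ne_zero _).hasFDerivAt.comp_hasDerivAt t
        ((hasDerivAt_id' t).prodMk (h.hY t))).neg.mul_const β)) (hc.intervalIntegrable _ _)
  have e0 : cone δ s x (0, Y 0) = 1 := ener3_stp1 hδ (by linarith [(ener3_r hδ.le (x - Y 0)).2])
  have e1 : cone δ s x (s, Y s) = 0 :=
    ener3_stp0 hδ (by linarith [(ener3_r hδ.le (x - Y s)).1, norm_nonneg (x - Y s)])
  rw [← ofReal_integral_eq_lintegral_ofReal (hc.integrableOn_Icc.mono_set Ioc_subset_Icc_self)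
    (Eventually.of_forall fun t => mul_nonneg (neg_nonneg.2 (hg.caus _ _ _ (norm_vel_lt _).le)) hβ),
    ← intervalIntegral.integral_of_le hs, e, e0, e1]
  simp

theorem ener3_pt {Y W : ℝ → V} (h : Tm Y W) {s : ℝ} {x : V} (h0 : 0 < ret Y s x) {c : ℝ × ℝ → ℝ}
    (hc : ContinuousAt c (0, ret Y s x)) :
    ENNReal.ofReal (c (0, ret Y s x)) ≤ liminf (fun k : ℕ => ∫⁻ t in Ioc 0 s, ENNReal.ofReal
      (-fderiv ℝ (cone (1 / (k + 1)) s x) (t, Y t) (1, vel (W t)) * c (1 / (k + 1), t))) atTop := by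
  refine le_of_forall_lt_imp_le_of_dense fun b hb => le_liminf_of_le (by isBoundedDefault) ?_
  have hb' := ENNReal.toReal_lt_of_lt_ofReal hb
  have h1 : ContinuousAt (fun p : ℝ × ℝ => c (p.1, ret Y (s - p.2) x)) (0, 0) :=
    ContinuousAt.comp (f := fun p : ℝ × ℝ => (p.1, ret Y (s - p.2) x)) (by simpa using hc)
      (continuous_fst.prodMk (h.continuous_ret.comp (f := fun p : ℝ × ℝ => (s - p.2, x))
        (by fun_prop))).continuousAt
  obtain ⟨η, hη, h2⟩ := Metric.eventually_nhds_iff.1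
    (h1.eventually (lt_mem_nhds (show b.toReal < _ by simpa using hb')))
  have h3 := (h.lt_ret_iff s x 0).1 h0
  filter_upwards [tendsto_one_div_add_atTop_nhds_zero_nat.eventually (gt_mem_nhds (half_pos hη)),
    tendsto_one_div_add_atTop_nhds_zero_nat.eventually
      (gt_mem_nhds (show 0 < (s - ‖x - Y 0‖) / 2 by linarith))] with k k1 k2
  have hδ : (0 : ℝ) < 1 / (k + 1) := Nat.one_div_pos_of_nat
  generalize (1 : ℝ) / (k + 1) = δ at *
  rw [← ENNReal.ofReal_toReal hb.ne_top]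
  refine (ener3_one h hδ (by linarith) ENNReal.toReal_nonneg).trans
    (lintegral_mono fun t => ENNReal.ofReal_le_ofReal ?_)
  by_cases hz : deriv (stp δ) (s - t - rε δ (x - Y t)) = 0
  · simp [fderiv_cone hδ, hz]
  refine mul_le_mul_of_nonneg_left ?_
    (neg_nonneg.2 ((adm_cone hδ s x).caus _ _ _ (norm_vel_lt _).le))
  obtain ⟨a1, a2⟩ := ener3_supp hδ hz
  obtain ⟨a3, a4⟩ := ener3_r hδ.le (x - Y t)
  have := h2 (y := (δ, s - (t + ‖x - Y t‖))) (by
    rw [Prod.dist_eq, Real.dist_eq, Real.dist_eq, sub_zero, sub_zero, abs_of_pos hδ,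
      abs_of_nonneg (by linarith)]
    exact max_lt (by linarith) (by linarith))
  rw [sub_sub_cancel, (h.ret_eq_iff _ x t).2 rfl] at this
  exact this.le

theorem ener3_en : Continuous en := by
  unfold en
  fun_prop

theorem Sol.enP (hK : Pre d K) (h : Sol d K T G) {s : ℝ} (hs : s ∈ Icc 0 T) :
    ∫⁻ z, ENNReal.ofReal (q (trW G z s)) ∂d.ν ≤ ENNReal.ofReal (En0 d K) := by
  obtain ⟨Λ, M1, l1, M2, l2, hG⟩ := h.cl
  have ht : Continuous fun z => tr G z s :=
    hG.continuous_tr.comp (continuous_id.prodMk continuous_const)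
  rw [← setLIntegral_univ]
  refine ener3_fatou (fun n : ℕ => ?_) (fun n => (h.bal hK (adm_cone one_pos n 0) hs).2.1)
    fun z _ => le_liminf_of_le (by isBoundedDefault)
      ((ener3_big (s, trY G z s)).mono fun n hn => ?_)
  · exact (((adm_cone one_pos n 0).c1.continuous.comp (continuous_const.prodMk ht.fst)).mul
      (contDiff_q.continuous.comp ht.snd)).measurable.ennreal_ofReal
  · rw [hn, one_mul]

theorem Sol.enB (hK : Pre d K) (h : Sol d K T G) {s : ℝ} (hs : s ∈ Icc 0 T) :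
    ∫⁻ y, ENNReal.ofReal (‖(G (s, y)).2‖ ^ 2) ≤ ENNReal.ofReal (2 * En0 d K) := by
  obtain ⟨Λ, M1, l1, M2, l2, hG⟩ := h.cl
  refine ener3_two ?_
  rw [← setLIntegral_univ]
  refine ener3_fatou (fun n : ℕ => ?_) (fun n => (h.bal hK (adm_cone one_pos n 0) hs).1)
    fun z _ => le_liminf_of_le (by isBoundedDefault) ((ener3_big (s, z)).mono fun n hn => ?_)
  · exact (((adm_cone one_pos n 0).c1.continuous.mul (ener3_en.comp hG.cont)).comp
      (continuous_const.prodMk continuous_id)).measurable.ennreal_ofReal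
  · rw [hn, one_mul]
    exact ENNReal.ofReal_le_ofReal (div_le_div_of_nonneg_right
      (le_add_of_nonneg_left (sq_nonneg _)) zero_le_two)

theorem Sol.flP (hK : Pre d K) (h : Sol d K T G) {s : ℝ} (hs : s ∈ Icc 0 T) (x : V) :
    ∫⁻ z in {z | 0 < ret (trY G z) s x}, ENNReal.ofReal (q (trW G z (ret (trY G z) s x))) ∂d.ν ≤
      ENNReal.ofReal (En0 d K) := by
  obtain ⟨Λ, M1, l1, M2, l2, hG⟩ := h.cl
  have hg := fun k : ℕ => adm_cone (Nat.one_div_pos_of_nat (α := ℝ) (n := k)) s x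
  have ht := hG.continuous_tr
  refine ener3_fatou (fun k : ℕ => ?_) (fun k => (h.bal hK (hg k) hs).2.2.2) fun z hz =>
    ener3_pt (hG.tm z) hz (c := fun p => q (trW G z p.2))
      (contDiff_q.continuous.comp ((hG.tm z).cW.comp continuous_snd)).continuousAt
  exact Measurable.lintegral_prod_right' (f := fun p : Z × ℝ => ENNReal.ofReal
    (-fderiv ℝ (cone (1 / (k + 1)) s x) (p.2, (tr G p.1 p.2).1) (1, vel (tr G p.1 p.2).2) *
      q (tr G p.1 p.2).2))
    (((((hg k).c1.continuous_fderiv one_ne_zero).comp (continuous_snd.prodMk ht.fst)).clm_apply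
      (continuous_const.prodMk (contDiff_vel.continuous.comp ht.snd))).neg.mul
        (contDiff_q.continuous.comp ht.snd)).measurable.ennreal_ofReal

theorem Sol.flK (hK : Pre d K) (h : Sol d K T G) {s : ℝ} (hs : s ∈ Icc 0 T) (x : V) :
    ∫⁻ y in Metric.ball x s, ENNReal.ofReal
      (‖(G (s - ‖x - y‖, y)).1 + cross (nrm (x - y)) (G (s - ‖x - y‖, y)).2‖ ^ 2) ≤
      ENNReal.ofReal (2 * En0 d K) := by
  obtain ⟨Λ, M1, l1, M2, l2, hG⟩ := h.cl
  have hδ := fun k : ℕ => Nat.one_div_pos_of_nat (α := ℝ) (n := k)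
  have hg := fun k : ℕ => adm_cone (hδ k) s x
  have hc : Continuous fun p => cross (G p).1 (G p).2 := contDiff_cross.continuous.comp hG.cont
  refine ener3_two ?_
  rw [← setLIntegral_congr (sdiff_null_ae_eq_self (measure_singleton x))]
  refine ener3_fatou (fun k : ℕ => ?_) (fun k => (h.bal hK (hg k) hs).2.2.1) fun y hy => ?_
  · exact Measurable.lintegral_prod_right' (f := fun p : V × ℝ => ENNReal.ofReal
      (-fderiv ℝ (cone (1 / (k + 1)) s x) (p.2, p.1) (poy (G (p.2, p.1)))))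
      ((((hg k).c1.continuous_fderiv one_ne_zero).clm_apply
        ((ener3_en.comp hG.cont).prodMk hc)).comp continuous_swap).neg.measurable.ennreal_ofReal
  have hv : vel 0 = 0 := by simp [vel]
  have hT : Tm (fun _ => y) fun _ => 0 :=
    ⟨fun t => (hasDerivAt_const t y).congr_deriv hv.symm, continuous_const, fun _ _ => rfl⟩
  have hne : x - y ≠ 0 := sub_ne_zero.2 (Ne.symm hy.2)
  have e : ret (fun _ => y) s x = s - ‖x - y‖ := (hT.ret_eq_iff s x _).2 (sub_add_cancel _ _)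
  have e0 : rε 0 (x - y) = ‖x - y‖ := by simp [rε]
  have := ener3_pt hT (s := s) (x := x) (c := fun p => en (G (p.2, y)) -
    ⟪(rε p.1 (x - y))⁻¹ • (x - y), cross (G (p.2, y)).1 (G (p.2, y)).2⟫)
    (e ▸ sub_pos.2 (mem_ball_iff_norm'.1 hy.1)) (by
      have c1 : Continuous fun p : ℝ × ℝ => (p.2, y) := by fun_prop
      have c2 : Continuous fun p : ℝ × ℝ => rε p.1 (x - y) := by
        unfold rε
        fun_prop
      exact ((ener3_en.comp hG.cont).comp c1).continuousAt.sub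
        (((c2.continuousAt.inv₀ (by rw [e0]; exact norm_ne_zero_iff.2 hne)).smul
          continuousAt_const).inner (hc.comp c1).continuousAt))
  rw [e] at this
  refine (ENNReal.ofReal_le_ofReal ?_).trans (this.trans_eq ?_)
  · simp only [e0]
    exact (div_le_iff₀' two_pos).2 (flux_le _ (norm_nrm hne))
  · simp only [fderiv_cone (hδ _), hv, poy, inner_zero_right, sub_zero, mul_one, neg_neg]

end

end Vale.Agent.P107
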