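import Vale.Agent.P107.Flow1
import Vale.Agent.P107.Chi

/-! Definitions for the construction of solutions. -/

namespace Vale.Agent.P107

open MeasureTheory Set Filter Topology
open scoped ENNReal RealInnerProductSpace

noncomputable section

/-- Space-time. -/
abbrev ST : Type := ℝ × V

/-- The class of force fields `G = (E, B)` in which the fixed point is found. -/
structure Cl (Λ M1 l1 M2 l2 : ℝ) (G : ST → Z) : Prop where
  hΛ : 1 ≤ Λ
  hM1 : 1 ≤ M1
  hl1 : 1 ≤ l1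
  hM2 : 1 ≤ M2
  hl2 : 1 ≤ l2
  bdd : ∀ p, ‖G p‖ ≤ Λ
  lip : ∀ t, 0 ≤ t → ∀ p p' : ST, p.1 ≤ t → p'.1 ≤ t →
    ‖G p - G p'‖ ≤ M1 * Real.exp (l1 * t) * ‖p - p'‖
  sd : ∀ t, 0 ≤ t → ∀ s, s ≤ t → SD (fun x => G (s, x)) (M2 * Real.exp (l2 * t))

/-- Membership in one of the classes. -/
def InCl (G : ST → Z) : Prop := ∃ Λ M1 l1 M2 l2 : ℝ, Cl Λ M1 l1 M2 l2 G

/-- The initial density with its bounds. -/
structure Dat where
  f : Z → ℝ
  R0 : ℝ
  P0 : ℝ
  F0 : ℝ
  hR : 1 ≤ R0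
  hP : 1 ≤ P0
  hF : 1 ≤ F0
  sm : ContDiff ℝ (⊤ : ℕ∞) f
  supp : ∀ z, f z ≠ 0 → ‖z.1‖ ≤ R0 ∧ q z.2 ≤ P0
  nn : ∀ z, 0 ≤ f z
  le : ∀ z, f z ≤ F0
  lip : ∀ a b, ‖f a - f b‖ ≤ F0 * ‖a - b‖
  sd : SD f F0

/-- A compact set containing the support of the initial density. -/
def Dat.S (d : Dat) : Set Z := {z | ‖z.1‖ ≤ d.R0 ∧ q z.2 ≤ d.P0}

/-- The initial distribution of charges divided by `4π`. -/
def Dat.ν (d : Dat) : Measure Z :=
  (volume : Measure Z).withDensity (fun z => ENNReal.ofReal (d.f z / (4 * Real.pi)))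

/-- The characteristic vector field. -/
def vf (G : ST → Z) (s : ℝ) (z : Z) : Z := (vel z.2, lor (G (s, z.1)).1 (G (s, z.1)).2 z.2)

/-- Characteristics, moving freely for negative times. -/
def tr (G : ST → Z) (z : Z) (s : ℝ) : Z :=
  if s ≤ 0 then (z.1 + s • vel z.2, z.2) else fl (vf G) s 0 z

/-- The inverse of `tr G · s`. -/
def bk (G : ST → Z) (s : ℝ) (w : Z) : Z :=
  if s ≤ 0 then (w.1 - s • vel w.2, w.2) else fl (vf G) 0 s w

/-- Position along a characteristic. -/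
def trY (G : ST → Z) (z : Z) (s : ℝ) : V := (tr G z s).1

/-- Momentum along a characteristic. -/
def trW (G : ST → Z) (z : Z) (s : ℝ) : V := (tr G z s).2

/-- The density transported by the force field. -/
def den (d : Dat) (G : ST → Z) (s : ℝ) (w : Z) : ℝ := d.f (bk G s w)

/-- A bound for the momenta up to time `t`. -/
def Bd (d : Dat) (G : ST → Z) (t P : ℝ) : Prop := ∀ z ∈ d.S, ∀ s, s ≤ t → q (trW G z s) ≤ P

/-- Retarded time. -/
def rt (G : ST → Z) (z : Z) (p : ST) : ℝ := ret (trY G z) p.1 p.2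

/-- Retarded displacement. -/
def rl (G : ST → Z) (z : Z) (p : ST) : V := p.2 - trY G z (rt G z p)

/-- Retarded momentum. -/
def rW (G : ST → Z) (z : Z) (p : ST) : V := trW G z (rt G z p)

/-- Force at the retarded time. -/
def rF (G : ST → Z) (z : Z) (p : ST) : V :=
  lor (G (rt G z p, trY G z (rt G z p))).1 (G (rt G z p, trY G z (rt G z p))).2 (rW G z p)

/-- The pair `(e, n × e)`. -/
def pr (l e : V) : Z := (e, cross (nrm l) e)

/-- Velocity field of a point charge. -/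
def zT (v l : V) : Z := pr l (kT 0 v l)

/-- Acceleration field of a point charge. -/
def zS (v F l : V) : Z := pr l (kS 0 v F l)

/-- Potential of a point charge. -/
def lw (v l : V) : ST := (al (vel v) l)⁻¹ • ((1 : ℝ), vel v)

/-- Superposition of the velocity fields. -/
def opT (d : Dat) (G : ST → Z) (p : ST) : Z := ∫ z, zT (rW G z p) (rl G z p) ∂d.ν

/-- The acceleration field of one charge. -/
def sZ (G : ST → Z) (z : Z) (p : ST) : Z :=
  if 0 < rt G z p then zS (rW G z p) (rF G z p) (rl G z p) else 0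

/-- Superposition of the acceleration fields. -/
def opS (d : Dat) (G : ST → Z) (p : ST) : Z := ∫ z, sZ G z p ∂d.ν

/-- The retarded field of the plasma. -/
def retF (d : Dat) (G : ST → Z) (p : ST) : Z := opT d G p + opS d G p

/-- The retarded potential of the plasma. -/
def pot (d : Dat) (G : ST → Z) (p : ST) : ST := ∫ z, lw (rW G z p) (rl G z p) ∂d.ν

/-- Density of the charges on the backward light cone, in the variables `(l, v)`. -/
def cw (d : Dat) (G : ST → Z) (p : ST) (w : Z) : ℝ :=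
  ang (vel w.2) (nrm w.1) * den d G (p.1 - ‖w.1‖) (p.2 - w.1, w.2) / (4 * Real.pi)

/-- Charge and current density. -/
def Jc (d : Dat) (G : ST → Z) (p : ST) : ST :=
  (∫ v, den d G p.1 (p.2, v), ∫ v, den d G p.1 (p.2, v) • vel v)

/-- Time direction. -/
def e0 : ST := (1, 0)

/-- Space directions. -/
def ei (i : Fin 3) : ST := (0, EuclideanSpace.single i 1)

/-- Curl read off from directional derivatives. -/
def cu (g : ST → V) : V :=
  mk3 (g (ei 1) 2 - g (ei 2) 1) (g (ei 2) 0 - g (ei 0) 2) (g (ei 0) 1 - g (ei 1) 0)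

/-- Divergence read off from directional derivatives. -/
def dv (g : ST → V) : ℝ := ∑ i, g (ei i) i

/-- The fields of a potential with derivative `D`. -/
def EB (D : ST →L[ℝ] ST) : Z :=
  (mk3 (-(D (ei 0)).1 - (D e0).2 0) (-(D (ei 1)).1 - (D e0).2 1) (-(D (ei 2)).1 - (D e0).2 2),
    cu (fun e => (D e).2))

/-- The Maxwell equations for a field with derivative `D` and source `J`. -/
structure MxD (D : ST →L[ℝ] Z) (J : ST) : Prop where
  amp : (D e0).1 - cu (fun e => (D e).2) = -J.2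
  far : (D e0).2 + cu (fun e => (D e).1) = 0
  gE : dv (fun e => (D e).1) = J.1
  gB : dv (fun e => (D e).2) = 0

/-- Retarded potential. -/
def rp {F : Type} [NormedAddCommGroup F] [NormedSpace ℝ F] (J : ST → F) (p : ST) : F :=
  ∫ y : V, (4 * Real.pi * ‖y‖)⁻¹ • J (p.1 - ‖y‖, p.2 - y)

/-- Sources whose support meets every backward light cone in a bounded set. -/
def PS {F : Type} [Zero F] (J : ST → F) : Prop :=
  ∃ R κ : ℝ, 0 < κ ∧ κ ≤ 1 ∧ 0 ≤ R ∧ ∀ p, J p ≠ 0 → -R ≤ p.1 ∨ ‖p.2‖ ≤ R - (1 - κ) * p.1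

/-- The continuity equation in the weak sense. -/
def WDiv (J : ST → ST) : Prop :=
  ∀ ψ : ST → ℝ, ContDiff ℝ 1 ψ → HasCompactSupport ψ → ∫ p, fderiv ℝ ψ p (J p) = 0

/-- Smooth functions that are bounded with all derivatives. -/
def SB {F : Type} [NormedAddCommGroup F] [NormedSpace ℝ F] (g : V → F) : Prop :=
  ContDiff ℝ (⊤ : ℕ∞) g ∧ ∀ n : ℕ, ∃ C : ℝ, ∀ x, ‖iteratedFDeriv ℝ n g x‖ ≤ C

/-- Fields with good bounds on bounded time intervals. -/
structure Nice (K : ST → Z) : Prop where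
  c1 : ContDiff ℝ 1 K
  bd : ∀ T : ℝ, ∃ C : ℝ, 1 ≤ C ∧ (∀ p : ST, p.1 ∈ Icc 0 T → ‖K p‖ ≤ C) ∧
    (∀ p p' : ST, p.1 ∈ Icc 0 T → p'.1 ∈ Icc 0 T → ‖K p - K p'‖ ≤ C * ‖p - p'‖) ∧
    ∀ s ∈ Icc 0 T, SD (fun x => K (s, x)) C

/-- Energy density. -/
def en (a : Z) : ℝ := (‖a.1‖ ^ 2 + ‖a.2‖ ^ 2) / 2

/-- Energy density and Poynting vector. -/
def poy (a : Z) : ST := (en a, cross a.1 a.2)

/-- A classical solution of the Maxwell equations for nonnegative times. -/
structure MxS (H : ST → Z) (J : ST → ST) : Prop where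
  c1 : ContDiff ℝ 1 H
  cJ : Continuous J
  mx : ∀ p : ST, 0 ≤ p.1 → MxD (fderiv ℝ H p) (J p)

/-- Admissible weights for the energy identity. -/
structure Adm (g : ST → ℝ) : Prop where
  c1 : ContDiff ℝ 1 g
  nn : ∀ p, 0 ≤ g p
  le : ∀ p, g p ≤ 1
  supp : ∃ R : ℝ, ∀ p, g p ≠ 0 → ‖p.2‖ ≤ R + |p.1|
  caus : ∀ (p : ST) (a : ℝ) (ξ : V), ‖ξ‖ ≤ a → fderiv ℝ g p (a, ξ) ≤ 0

/-- The total field. -/
def HH (d : Dat) (K G : ST → Z) (p : ST) : Z := K p + retF d G p

/-- The vacuum field that corrects the initial values. -/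
structure Pre (d : Dat) (K : ST → Z) : Prop where
  nice : Nice K
  mx : ∀ p : ST, 0 ≤ p.1 → MxD (fderiv ℝ K p) 0
  l1 : IsL2 (fun x => (HH d K 0 (0, x)).1)
  l2 : IsL2 (fun x => (HH d K 0 (0, x)).2)

/-- A self-consistent force field on `[0, T]`. -/
structure Sol (d : Dat) (K : ST → Z) (T : ℝ) (G : ST → Z) : Prop where
  cl : InCl G
  eq : ∀ p : ST, p.1 ∈ Icc 0 T → G p = HH d K G p

/-- A solution of the system in which the Vlasov equation is only required up to time `T`. -/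
structure Loc (f₀ : V → V → ℝ) (E₀ B₀ : V → V) (T : ℝ) (f : ℝ → V → V → ℝ) (E B : ℝ → V → V) :
    Prop where
  c1f : C1Den f
  c1E : C1Fld E
  c1B : C1Fld B
  nonneg : ∀ t, 0 ≤ t → ∀ x v, 0 ≤ f t x v
  vlasov : ∀ t, 0 ≤ t → t ≤ T → ∀ x v, Vlasov f E B t x v
  maxwell : ∀ t, 0 ≤ t → ∀ x, Maxwell f E B t x
  initf : f 0 = f₀
  initE : E 0 = E₀
  initB : B 0 = B₀
  l2E : L2Cont E
  l2B : L2Cont B
  supp : ∀ T' : ℝ, ∃ R : ℝ, ∀ t ∈ Icc 0 T', ∀ x v, f t x v ≠ 0 → ‖x‖ ≤ R ∧ ‖v‖ ≤ R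

end

end Vale.Agent.P107
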