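import Vale.Agent.P107.SD

/-! Flows of bounded Lipschitz vector fields. -/

namespace Vale.Agent.P107

open MeasureTheory Set Filter Topology
open scoped ENNReal RealInnerProductSpace

noncomputable section

variable {F : Type} [NormedAddCommGroup F] [NormedSpace ℝ F]

theorem flow1_gron {u u' : ℝ → F} {L β : ℝ → ℝ} (cL : Continuous L) (cβ : Continuous β)
    (L0 : ∀ s, 0 ≤ L s) (β0 : ∀ s, 0 ≤ β s) {a b : ℝ} (hab : a ≤ b)
    (hu : ∀ s ∈ Icc a b, HasDerivAt u (u' s) s)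
    (hb : ∀ s ∈ Icc a b, ‖u' s‖ ≤ L s * ‖u s‖ + β s) :
    ‖u b‖ ≤ Real.exp |∫ s in a..b, L s| * (‖u a‖ + |∫ s in a..b, β s|) := by
  rw [abs_of_nonneg (intervalIntegral.integral_nonneg hab fun s _ => L0 s),
    abs_of_nonneg (intervalIntegral.integral_nonneg hab fun s _ => β0 s)]
  have hc : Continuous fun ε : ℝ =>
      Real.exp (∫ s in a..b, L s) * (‖u a‖ + (∫ s in a..b, β s) + ε * (b - a)) := by fun_prop
  refine ge_of_tendsto ((hc.tendsto' 0 _ (by simp)).mono_left (nhdsWithin_le_nhds (s := Ioi 0)))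
    (eventually_mem_nhdsWithin.mono fun ε (hε : 0 < ε) => ?_)
  refine image_norm_le_of_norm_deriv_right_lt_deriv_boundary
    (B := fun s => Real.exp (∫ r in a..s, L r) * (‖u a‖ + (∫ r in a..s, β r) + ε * (s - a)))
    (fun s hs => (hu s hs).continuousAt.continuousWithinAt)
    (fun s hs => (hu s (Ico_subset_Icc_self hs)).hasDerivWithinAt) (by simp)
    (fun s => (cL.integral_hasStrictDerivAt a s).hasDerivAt.exp.fun_mul
      (((cβ.integral_hasStrictDerivAt a s).hasDerivAt.const_add _).fun_add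
        (((hasDerivAt_id' s).sub_const a).const_mul ε))) (fun s hs e => ?_) (right_mem_Icc.2 hab)
  have h1 := hb s (Ico_subset_Icc_self hs)
  have h2 := Real.one_le_exp (intervalIntegral.integral_nonneg (μ := volume) hs.1 fun r _ => L0 r)
  have h3 := mul_le_mul_of_nonneg_right h2 (add_pos_of_nonneg_of_pos (β0 s) hε).le
  rw [e] at h1
  linarith

/-- Gronwall's lemma with variable coefficients, forwards and backwards. -/
theorem gron {u u' : ℝ → F} {L β : ℝ → ℝ} (cL : Continuous L) (cβ : Continuous β)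
    (L0 : ∀ s, 0 ≤ L s) (β0 : ∀ s, 0 ≤ β s) {a b : ℝ}
    (hu : ∀ s ∈ uIcc a b, HasDerivAt u (u' s) s)
    (hb : ∀ s ∈ uIcc a b, ‖u' s‖ ≤ L s * ‖u s‖ + β s) :
    ‖u b‖ ≤ Real.exp |∫ s in a..b, L s| * (‖u a‖ + |∫ s in a..b, β s|) := by
  rcases le_total a b with hab | hab
  · rw [uIcc_of_le hab] at hu hb
    exact flow1_gron cL cβ L0 β0 hab hu hb
  · rw [uIcc_of_ge hab] at hu hb
    have hm : ∀ s ∈ Icc (-a) (-b), -s ∈ Icc b a := fun s hs =>
      ⟨le_neg.1 hs.2, neg_le.1 hs.1⟩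
    have h := flow1_gron (u := fun s => u (-s)) (u' := fun s => -u' (-s)) (cL.comp continuous_neg)
      (cβ.comp continuous_neg) (fun s => L0 _) (fun s => β0 _) (neg_le_neg hab)
      (fun s hs => by simpa [Function.comp_def] using (hu _ (hm s hs)).scomp s (hasDerivAt_neg s))
      (fun s hs => by rw [norm_neg]; exact hb _ (hm s hs))
    simp only [Function.comp_def, intervalIntegral.integral_comp_neg, neg_neg] at h
    rwa [intervalIntegral.integral_symm b a, intervalIntegral.integral_symm (f := β) b a, abs_neg,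
      abs_neg]

/-- A bounded time-dependent vector field, Lipschitz in space. -/
structure VF (b : ℝ → F → F) (K : ℝ) (L : ℝ → ℝ) : Prop where
  cont : Continuous (fun p : ℝ × F => b p.1 p.2)
  bdd : ∀ s z, ‖b s z‖ ≤ K
  cL : Continuous L
  L0 : ∀ s, 0 ≤ L s
  lip : ∀ s z z', ‖b s z - b s z'‖ ≤ L s * ‖z - z'‖

open Classical in
/-- The position at time `s` of the integral curve through `z` at time `t`. -/
def fl (b : ℝ → F → F) (s t : ℝ) (z : F) : F :=
  if h : ∃ γ : ℝ → F, γ t = z ∧ ∀ r, HasDerivAt γ (b r (γ r)) r then h.choose s else z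

variable [CompleteSpace F] {b b' : ℝ → F → F} {K K' : ℝ} {L L' : ℝ → ℝ}

omit [CompleteSpace F] in
theorem VF.flow1_lip (h : VF b K L) {γ γ' : ℝ → F} {s t : ℝ}
    (hγ : ∀ r ∈ uIcc t s, HasDerivAt γ (b r (γ r)) r)
    (hγ' : ∀ r ∈ uIcc t s, HasDerivAt γ' (b r (γ' r)) r) :
    ‖γ s - γ' s‖ ≤ Real.exp |∫ r in t..s, L r| * ‖γ t - γ' t‖ := by
  simpa using gron (u := fun r => γ r - γ' r) h.cL continuous_const h.L0 (fun _ => le_rfl)
    (fun r hr => (hγ r hr).fun_sub (hγ' r hr)) fun r _ => (h.lip r _ _).trans_eq (add_zero _).symm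

omit [CompleteSpace F] in
theorem VF.flow1_uniq (h : VF b K L) {γ γ' : ℝ → F} {s t : ℝ}
    (hγ : ∀ r ∈ uIcc t s, HasDerivAt γ (b r (γ r)) r)
    (hγ' : ∀ r ∈ uIcc t s, HasDerivAt γ' (b r (γ' r)) r) (e : γ t = γ' t) : γ s = γ' s := by
  have h1 := h.flow1_lip hγ hγ'
  rwa [e, sub_self, norm_zero, mul_zero, norm_le_zero_iff, sub_eq_zero] at h1

theorem VF.exists_curve (h : VF b K L) (t : ℝ) (z : F) :
    ∃ γ : ℝ → F, γ t = z ∧ ∀ r, HasDerivAt γ (b r (γ r)) r := by
  have K0 : 0 ≤ K := (norm_nonneg _).trans (h.bdd 0 0)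
  have loc : ∀ n : ℕ, ∃ γ : ℝ → F, γ t = z ∧
      ∀ r, |r - t| < n → HasDerivAt γ (b r (γ r)) r := fun n => by
    have n0 : (0 : ℝ) ≤ n := Nat.cast_nonneg n
    obtain ⟨C, hC⟩ := (isCompact_Icc (a := t - n) (b := t + n)).exists_bound_of_continuousOn
      h.cL.continuousOn
    have H : IsPicardLindelof b (tmin := t - n) (tmax := t + n) ⟨t, by linarith, by linarith⟩ z
        ⟨K * n, mul_nonneg K0 n0⟩ 0 ⟨K, K0⟩ C.toNNReal :=
      ⟨fun s hs => (LipschitzWith.of_dist_le' fun x y => by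
          rw [dist_eq_norm, dist_eq_norm]
          exact (h.lip s x y).trans (mul_le_mul_of_nonneg_right
            ((le_abs_self _).trans (hC s hs)) (norm_nonneg _))).lipschitzOnWith,
        fun x _ => (h.cont.comp (continuous_id.prodMk continuous_const)).continuousOn,
        fun s _ x _ => h.bdd s x,
        show K * max (t + n - t) (t - (t - n)) ≤ K * n - 0 by simp⟩
    obtain ⟨γ, h0, h1⟩ := H.exists_eq_forall_mem_Icc_hasDerivWithinAt₀
    refine ⟨γ, h0, fun r hr => ?_⟩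
    obtain ⟨p, q⟩ := abs_lt.1 hr
    exact (h1 r ⟨by linarith, by linarith⟩).hasDerivAt (Icc_mem_nhds (by linarith) (by linarith))
  choose γ h0 h1 using loc
  have key : ∀ (n m : ℕ) (r : ℝ), |r - t| < n → |r - t| < m → γ n r = γ m r := fun n m r p q =>
    h.flow1_uniq (fun s hs => h1 n s ((abs_sub_left_of_mem_uIcc hs).trans_lt p))
      (fun s hs => h1 m s ((abs_sub_left_of_mem_uIcc hs).trans_lt q)) ((h0 n).trans (h0 m).symm)
  have lt : ∀ r : ℝ, |r - t| < (⌊|r - t|⌋₊ + 1 : ℕ) := fun r => by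
    rw [Nat.cast_succ]
    exact Nat.lt_floor_add_one _
  refine ⟨fun r => γ (⌊|r - t|⌋₊ + 1) r, h0 _, fun r => (h1 _ r (lt r)).congr_of_eventuallyEq ?_⟩
  have hc : ContinuousAt (fun s : ℝ => |s - t|) r := by fun_prop
  exact (hc.eventually_lt continuousAt_const (lt r)).mono fun s hs => key _ _ s (lt s) hs

theorem VF.fl_self (h : VF b K L) (t : ℝ) (z : F) : fl b t t z = z := by
  rw [fl, dif_pos (h.exists_curve t z)]
  exact (h.exists_curve t z).choose_spec.1

theorem VF.hasDerivAt_fl (h : VF b K L) (s t : ℝ) (z : F) :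
    HasDerivAt (fun r => fl b r t z) (b s (fl b s t z)) s := by
  simp only [fl, dif_pos (h.exists_curve t z)]
  exact (h.exists_curve t z).choose_spec.2 s

theorem VF.fl_unique (h : VF b K L) {γ : ℝ → F} {s t : ℝ}
    (hγ : ∀ r ∈ uIcc t s, HasDerivAt γ (b r (γ r)) r) : fl b s t (γ t) = γ s :=
  h.flow1_uniq (γ := fun r => fl b r t (γ t)) (fun r _ => h.hasDerivAt_fl r t _) hγ
    (h.fl_self t _)

theorem VF.fl_fl (h : VF b K L) (s t r : ℝ) (z : F) : fl b s t (fl b t r z) = fl b s r z :=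
  h.fl_unique (γ := fun s => fl b s r z) fun s _ => h.hasDerivAt_fl s r z

theorem VF.fl_time (h : VF b K L) (s s' t : ℝ) (z : F) :
    ‖fl b s t z - fl b s' t z‖ ≤ K * |s - s'| :=
  convex_univ.norm_image_sub_le_of_norm_hasDerivWithin_le (f := fun r => fl b r t z)
    (fun r _ => (h.hasDerivAt_fl r t z).hasDerivWithinAt) (fun r _ => h.bdd r _) (mem_univ s')
    (mem_univ s)

theorem VF.fl_lip (h : VF b K L) (s t : ℝ) (z z' : F) :
    ‖fl b s t z - fl b s t z'‖ ≤ Real.exp |∫ r in t..s, L r| * ‖z - z'‖ := by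
  have h1 := h.flow1_lip (s := s) (t := t) (fun r _ => h.hasDerivAt_fl r t z)
    fun r _ => h.hasDerivAt_fl r t z'
  rwa [h.fl_self, h.fl_self] at h1

theorem VF.fl_stab (h : VF b K L) (h' : VF b' K' L') {β : ℝ → ℝ} (cβ : Continuous β)
    (β0 : ∀ s, 0 ≤ β s) {s t : ℝ} (hβ : ∀ r ∈ uIcc t s, ∀ z, ‖b r z - b' r z‖ ≤ β r) (z : F) :
    ‖fl b s t z - fl b' s t z‖ ≤ Real.exp |∫ r in t..s, L r| * |∫ r in t..s, β r| := by
  have h1 := gron (u := fun r => fl b r t z - fl b' r t z) h.cL cβ h.L0 β0 (a := t) (b := s)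
    (fun r _ => (h.hasDerivAt_fl r t z).fun_sub (h'.hasDerivAt_fl r t z)) fun r hr =>
      (norm_sub_le_norm_sub_add_norm_sub _ _ _).trans (add_le_add (h.lip r _ _) (hβ r hr _))
  rwa [h.fl_self, h'.fl_self, sub_self, norm_zero, zero_add] at h1

theorem VF.fl_sd (h : VF b K L) {L2 : ℝ → ℝ} (c2 : Continuous L2) (L20 : ∀ s, 0 ≤ L2 s) {s t : ℝ}
    (h2 : ∀ r ∈ uIcc t s, SD (b r) (L2 r)) :
    SD (fl b s t) (Real.exp (3 * |∫ r in t..s, L r|) * |∫ r in t..s, L2 r|) := by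
  intro z k
  obtain ⟨c, hc⟩ : ∃ c, c = Real.exp |∫ r in t..s, L r| := ⟨_, rfl⟩
  have h1 := gron (u := fun r => fl b r t (z + k) + fl b r t (z - k) - (2 : ℝ) • fl b r t z)
    (β := fun r => L2 r * (c * ‖k‖) ^ 2) h.cL (by fun_prop) h.L0
    (fun r => mul_nonneg (L20 r) (sq_nonneg _)) (a := t) (b := s)
    (fun r _ => ((h.hasDerivAt_fl r t _).fun_add (h.hasDerivAt_fl r t _)).fun_sub
      ((h.hasDerivAt_fl r t _).fun_const_smul _)) fun r hr => by
      have h3 := h.fl_lip r t (z + k) z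
      rw [add_sub_cancel_left] at h3
      have h4 := intervalIntegral.abs_integral_mono_interval (μ := volume)
        (uIoc_subset_uIoc_of_uIcc_subset_uIcc (uIcc_subset_uIcc_left hr))
        (Eventually.of_forall h.L0) (h.cL.intervalIntegrable _ _)
      have h5 := h3.trans (mul_le_mul_of_nonneg_right ((Real.exp_le_exp.2 h4).trans_eq hc.symm)
        (norm_nonneg _))
      exact ((h2 r hr).three (h.lip r) _ _ _).trans ((add_comm _ _).trans_le (add_le_add le_rfl
        (mul_le_mul_of_nonneg_left (pow_le_pow_left₀ (norm_nonneg _) h5 2) (L20 r))))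
  rw [h.fl_self, h.fl_self, h.fl_self, add_add_sub_cancel, two_smul ℝ z, sub_self, norm_zero,
    zero_add, intervalIntegral.integral_mul_const, abs_mul, abs_sq, ← hc] at h1
  refine h1.trans_eq ?_
  rw [show (3 : ℝ) = (3 : ℕ) by norm_num, Real.exp_nat_mul, ← hc]
  ring

theorem VF.continuous_fl (h : VF b K L) :
    Continuous (fun p : ℝ × ℝ × F => fl b p.1 p.2.1 p.2.2) := by
  refine continuous_iff_continuousAt.2 fun q => tendsto_iff_norm_sub_tendsto_zero.2 ?_
  have hc : Continuous fun p : ℝ × ℝ × F => K * |p.1 - q.1| +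
      Real.exp |∫ r in q.2.1..q.1, L r| * (K * |q.2.1 - p.2.1| + ‖p.2.2 - q.2.2‖) := by fun_prop
  refine squeeze_zero (fun _ => norm_nonneg _) (fun p => ?_) (hc.tendsto' q 0 (by simp))
  refine (norm_sub_le_norm_sub_add_norm_sub _ _ _).trans (add_le_add (h.fl_time _ _ _ _) ?_)
  rw [← h.fl_fl q.1 q.2.1 p.2.1]
  refine (h.fl_lip _ _ _ _).trans (mul_le_mul_of_nonneg_left ?_ (Real.exp_pos _).le)
  refine (norm_sub_le_norm_sub_add_norm_sub _ p.2.2 _).trans (add_le_add ?_ le_rfl)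
  have h1 := h.fl_time q.2.1 p.2.1 p.2.1 p.2.2
  rwa [h.fl_self] at h1

end

end Vale.Agent.P107
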