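import Vale.Agent.P107.Flow1

/-! Differentiability of flows and conservation of volume. -/

namespace Vale.Agent.P107

open MeasureTheory Set Filter Topology
open scoped ENNReal RealInnerProductSpace

noncomputable section

variable {F : Type} [NormedAddCommGroup F] [NormedSpace ℝ F] [FiniteDimensional ℝ F]
  [CompleteSpace F] {b : ℝ → F → F} {K : ℝ} {L L2 : ℝ → ℝ}

theorem VF.differentiable_fl (h : VF b K L) (c2 : Continuous L2) (L20 : ∀ s, 0 ≤ L2 s)
    (h2 : ∀ r, SD (b r) (L2 r)) (s t : ℝ) : Differentiable ℝ (fl b s t) :=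
  (SD.diff (h.continuous_fl.comp ((Continuous.prodMk_right s).comp (Continuous.prodMk_right t)))
    (h.fl_sd c2 L20 fun r _ => h2 r)).1

theorem flow2_cont {L : ℝ → ℝ} (hL : Continuous L) :
    Continuous fun p : ℝ × ℝ => ∫ r in p.2..p.1, L r := by
  have h := intervalIntegral.continuous_primitive (μ := volume) hL.intervalIntegrable 0
  simp only [fun p : ℝ × ℝ => (intervalIntegral.integral_interval_sub_left (μ := volume)
    (hL.intervalIntegrable 0 p.1) (hL.intervalIntegrable 0 p.2)).symm]
  exact (h.comp continuous_fst).sub (h.comp continuous_snd)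

theorem VF.continuous_fderiv_fl (h : VF b K L) (c2 : Continuous L2) (L20 : ∀ s, 0 ≤ L2 s)
    (h2 : ∀ r, SD (b r) (L2 r)) :
    Continuous (fun p : (ℝ × ℝ) × F => fderiv ℝ (fl b p.1.1 p.1.2) p.2) := by
  exact SD.cont_fderiv (g := fun p : ℝ × ℝ => fl b p.1 p.2)
    (h.continuous_fl.comp (continuous_fst.fst.prodMk (continuous_fst.snd.prodMk continuous_snd)))
    fun x => ⟨_, (((Real.continuous_exp.comp ((flow2_cont h.cL).abs.const_mul 3)).mul
      (flow2_cont c2).abs).tendsto x |>.eventually_le_const (lt_add_one _)).mono fun p hp =>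
        (h.fl_sd c2 L20 fun r _ => h2 r).mono hp⟩

omit [FiniteDimensional ℝ F] in
theorem VF.flow2_id (h : VF b K L) (t : ℝ) (z : F) :
    HasFDerivAt (fun p : ℝ × F => fl b t p.1 p.2) (ContinuousLinearMap.snd ℝ ℝ F -
      (ContinuousLinearMap.fst ℝ ℝ F).smulRight (b t z)) (t, z) := by
  refine hasFDerivAt_iff_isLittleO.2 (Asymptotics.isLittleO_iff.2 fun ε hε => ?_)
  have hc := (h.cont.comp (continuous_fst.prodMk h.continuous_fl)).tendsto (t, t, z)
  simp only [Function.comp_def, h.fl_self] at hc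
  obtain ⟨δ, hδ, H⟩ := Metric.eventually_nhds_iff.1 (Metric.tendsto_nhds.1 hc ε hε)
  filter_upwards [Metric.ball_mem_nhds (t, z) hδ] with p hp
  have h1 := (convex_ball t δ).norm_image_sub_le_of_norm_hasDerivWithin_le
    (f := fun r => fl b r p.1 p.2 - r • b t z) (C := ε)
    (fun r _ => ((h.hasDerivAt_fl r p.1 p.2).sub
      ((hasDerivAt_id r).smul_const (b t z))).hasDerivWithinAt)
    (fun r hr => by
      rw [one_smul, ← dist_eq_norm]
      exact (H (y := (r, p)) (max_lt hr hp)).le)
    (x := p.1) ((le_max_left _ _).trans_lt (show max (dist p.1 t) (dist p.2 z) < δ from hp))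
    (Metric.mem_ball_self hδ)
  rw [h.fl_self] at h1 ⊢
  refine le_trans (le_of_eq ?_) (h1.trans ?_)
  · congr 1
    simp only [sub_apply, ContinuousLinearMap.coe_snd', Prod.snd_sub,
      ContinuousLinearMap.smulRight_apply, ContinuousLinearMap.coe_fst', Prod.fst_sub, sub_smul]
    abel
  · rw [norm_sub_rev]
    exact mul_le_mul_of_nonneg_left (norm_fst_le (p - (t, z))) hε.le

theorem VF.hasFDerivAt_back (h : VF b K L) (c2 : Continuous L2) (L20 : ∀ s, 0 ≤ L2 s)
    (h2 : ∀ r, SD (b r) (L2 r)) (s t : ℝ) (z : F) :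
    HasFDerivAt (fun p : ℝ × F => fl b s p.1 p.2)
      ((fderiv ℝ (fl b s t) z).comp (ContinuousLinearMap.snd ℝ ℝ F -
        (ContinuousLinearMap.fst ℝ ℝ F).smulRight (b t z))) (t, z) := by
  have h1 : HasFDerivAt (fl b s t) (fderiv ℝ (fl b s t) z) (fl b t t z) := by
    rw [h.fl_self]
    exact (h.differentiable_fl c2 L20 h2 s t z).hasFDerivAt
  simpa only [Function.comp_def, h.fl_fl] using
    HasFDerivAt.comp (t, z) (g := fl b s t) h1 (h.flow2_id t z)

theorem VF.contDiff_back (h : VF b K L) (c2 : Continuous L2) (L20 : ∀ s, 0 ≤ L2 s)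
    (h2 : ∀ r, SD (b r) (L2 r)) (s : ℝ) : ContDiff ℝ 1 (fun p : ℝ × F => fl b s p.1 p.2) := by
  refine contDiff_one_iff_fderiv.2
    ⟨fun p => (h.hasFDerivAt_back c2 L20 h2 s p.1 p.2).differentiableAt, ?_⟩
  rw [show fderiv ℝ (fun p : ℝ × F => fl b s p.1 p.2) = _ from
    funext fun p : ℝ × F => (h.hasFDerivAt_back c2 L20 h2 s p.1 p.2).fderiv]
  exact ((h.continuous_fderiv_fl c2 L20 h2).comp (((Continuous.prodMk_right s).comp
    continuous_fst).prodMk continuous_snd)).clm_comp (continuous_const.sub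
      ((ContinuousLinearMap.smulRightL ℝ (ℝ × F) F
        (ContinuousLinearMap.fst ℝ ℝ F)).continuous.comp h.cont))

/-- The variational equation. -/
theorem VF.hasDerivAt_fderiv_fl (h : VF b K L) (c2 : Continuous L2) (L20 : ∀ s, 0 ≤ L2 s)
    (h2 : ∀ r, SD (b r) (L2 r)) (s t : ℝ) (z : F) :
    HasDerivAt (fun r => fderiv ℝ (fl b r t) z)
      ((fderiv ℝ (b s) (fl b s t z)).comp (fderiv ℝ (fl b s t) z)) s := by
  have cf : ∀ w, Continuous fun u => fl b u t w := fun w =>
    h.continuous_fl.comp (Continuous.prodMk_left (t, w))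
  have cb : ∀ w, Continuous fun u => b u (fl b u t w) := fun w =>
    h.cont.comp (continuous_id.prodMk (cf w))
  have cd : Continuous fun u => (fderiv ℝ (b u) (fl b u t z)).comp (fderiv ℝ (fl b u t) z) :=
    ((SD.cont_fderiv h.cont fun x => ⟨_, ((c2.tendsto x).eventually_le_const (lt_add_one _)).mono
      fun r hr => (h2 r).mono hr⟩).comp (continuous_id.prodMk (cf z))).clm_comp
      ((h.continuous_fderiv_fl c2 L20 h2).comp
        ((Continuous.prodMk_left z).comp (Continuous.prodMk_left t)))
  have e : ∀ r, fderiv ℝ (fl b r t) z = ContinuousLinearMap.id ℝ F +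
      ∫ u in t..r, (fderiv ℝ (b u) (fl b u t z)).comp (fderiv ℝ (fl b u t) z) := fun r => by
    have e1 : fl b r t = fun w => w + ∫ u in t..r, b u (fl b u t w) := funext fun w => by
      rw [intervalIntegral.integral_eq_sub_of_hasDerivAt (fun u _ => h.hasDerivAt_fl u t w)
        ((cb w).intervalIntegrable _ _), h.fl_self, add_sub_cancel]
    rw [e1]
    refine ((hasFDerivAt_id z).fun_add
      (intervalIntegral.hasFDerivAt_integral_of_dominated_of_fderiv_le
        (F' := fun w u => (fderiv ℝ (b u) (fl b u t w)).comp (fderiv ℝ (fl b u t) w))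
        (bound := fun u => L u * Real.exp |∫ r in t..u, L r|) univ_mem
        (Eventually.of_forall fun w => (cb w).aestronglyMeasurable) ((cb z).intervalIntegrable _ _)
        cd.aestronglyMeasurable (Eventually.of_forall fun u _ w _ => ?_)
        ((h.cL.mul (Real.continuous_exp.comp ((flow2_cont h.cL).comp
          (Continuous.prodMk_left t)).abs)).intervalIntegrable _ _)
        (Eventually.of_forall fun u _ w _ => HasFDerivAt.comp w (g := b u)
          ((SD.diff (h.cont.comp (Continuous.prodMk_right u)) (h2 u)).1 _).hasFDerivAt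
          (h.differentiable_fl c2 L20 h2 u t w).hasFDerivAt))).fderiv
    exact (ContinuousLinearMap.opNorm_comp_le _ _).trans (mul_le_mul
      (norm_fderiv_le_of_lip' ℝ (h.L0 u) (Eventually.of_forall fun x => h.lip u x _))
      (norm_fderiv_le_of_lip' ℝ (Real.exp_pos _).le
        (Eventually.of_forall fun x => h.fl_lip u t x _)) (norm_nonneg _) (h.L0 u))
  rw [funext e]
  exact (cd.integral_hasStrictDerivAt t s).hasDerivAt.const_add _

end

end Vale.Agent.P107
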