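import Vale.Agent.P107.Ex

/-! Gluing solutions on longer and longer intervals. -/

namespace Vale.Agent.P107

open MeasureTheory Set Filter Topology
open scoped ENNReal RealInnerProductSpace

noncomputable section

theorem glue_c1 {W F : Type} [NormedAddCommGroup W] [NormedSpace ℝ W] [NormedAddCommGroup F]
    [NormedSpace ℝ F] {g : ℝ × W → F} (h : ∀ t, 0 ≤ t → ∃ g' : ℝ × W → F,
      ContDiffOn ℝ 1 g' (Ici 0 ×ˢ univ) ∧ ∀ᶠ s in 𝓝[Ici 0] t, ∀ w, g (s, w) = g' (s, w)) :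
    ContDiffOn ℝ 1 g (Ici 0 ×ˢ univ) := by
  intro p hp
  obtain ⟨g', h1, h2⟩ := h p.1 hp.1
  have t : Tendsto Prod.fst (𝓝[Ici 0 ×ˢ univ] p) (𝓝[Ici 0] p.1) :=
    continuous_fst.continuousWithinAt.tendsto_nhdsWithin fun q hq => hq.1
  exact (h1 p hp).congr_of_eventuallyEq ((t.eventually h2).mono fun q hq => hq q.2)
    (h2.self_of_nhdsWithin hp.1 p.2)

theorem glue_l2 {E : ℝ → V → V} (h : ∀ t, 0 ≤ t → ∃ E', L2Cont E' ∧ E =ᶠ[𝓝[Ici 0] t] E') :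
    L2Cont E := by
  intro t ht
  obtain ⟨E', h1, h2⟩ := h t ht
  rw [h2.self_of_nhdsWithin ht]
  exact ⟨(h1 t ht).1, (h1 t ht).2.congr' (h2.mono fun s hs => by simp only [hs])⟩

theorem glue {f₀ : V → V → ℝ} {E₀ B₀ : V → V} {f : ℕ → ℝ → V → V → ℝ} {E B : ℕ → ℝ → V → V}
    (h : ∀ n : ℕ, Loc f₀ E₀ B₀ n (f n) (E n) (B n))
    (hc : ∀ (n m : ℕ) (t : ℝ), 0 ≤ t → t ≤ n → t ≤ m →
      f n t = f m t ∧ E n t = E m t ∧ B n t = B m t) :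
    ∃ f' E' B', IsSol f₀ E₀ B₀ f' E' B' := by
  have lt : ∀ t : ℝ, t < (⌊t⌋₊ + 1 : ℕ) := fun t => by
    push_cast
    exact Nat.lt_floor_add_one t
  have ev : ∀ t : ℝ, ∀ᶠ s in 𝓝[Ici 0] t, f (⌊s⌋₊ + 1) s = f (⌊t⌋₊ + 1) s ∧
      E (⌊s⌋₊ + 1) s = E (⌊t⌋₊ + 1) s ∧ B (⌊s⌋₊ + 1) s = B (⌊t⌋₊ + 1) s := fun t => by
    filter_upwards [self_mem_nhdsWithin, nhdsWithin_le_nhds (gt_mem_nhds (lt t))] with s h1 h2
    exact hc _ _ s h1 (lt s).le h2.le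
  refine ⟨fun t => f (⌊t⌋₊ + 1) t, fun t => E (⌊t⌋₊ + 1) t, fun t => B (⌊t⌋₊ + 1) t,
    glue_c1 fun t _ => ⟨_, (h (⌊t⌋₊ + 1)).c1f, (ev t).mono fun s hs w => by simp only [hs.1]⟩,
    glue_c1 fun t _ => ⟨_, (h (⌊t⌋₊ + 1)).c1E, (ev t).mono fun s hs w => by simp only [hs.2.1]⟩,
    glue_c1 fun t _ => ⟨_, (h (⌊t⌋₊ + 1)).c1B, (ev t).mono fun s hs w => by simp only [hs.2.2]⟩,
    fun t ht => (h _).nonneg t ht, fun t ht x v => ?_, fun t ht x => ?_, (h _).initf, (h _).initE,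
    (h _).initB, glue_l2 fun t _ => ⟨_, (h (⌊t⌋₊ + 1)).l2E, (ev t).mono fun s hs => hs.2.1⟩,
    glue_l2 fun t _ => ⟨_, (h (⌊t⌋₊ + 1)).l2B, (ev t).mono fun s hs => hs.2.2⟩, fun T => ?_⟩
  · have e : dt (fun s => f (⌊s⌋₊ + 1) s x v) t = dt (fun s => f (⌊t⌋₊ + 1) s x v) t :=
      EventuallyEq.derivWithin_eq ((ev t).mono fun s hs => by simp only [hs.1]) rfl
    rw [Vlasov, e]
    exact (h _).vlasov t ht (lt t).le x v
  · have e1 : dtV (fun s => E (⌊s⌋₊ + 1) s x) t = dtV (fun s => E (⌊t⌋₊ + 1) s x) t :=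
      EventuallyEq.derivWithin_eq ((ev t).mono fun s hs => by simp only [hs.2.1]) rfl
    have e2 : dtV (fun s => B (⌊s⌋₊ + 1) s x) t = dtV (fun s => B (⌊t⌋₊ + 1) s x) t :=
      EventuallyEq.derivWithin_eq ((ev t).mono fun s hs => by simp only [hs.2.2]) rfl
    obtain ⟨a1, a2, a3, a4⟩ := (h (⌊t⌋₊ + 1)).maxwell t ht x
    exact ⟨by rw [e1]; exact a1, by rw [e2]; exact a2, a3, a4⟩
  · obtain ⟨R, hR⟩ := (h (⌊T⌋₊ + 1)).supp T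
    refine ⟨R, fun t ht x v hv => hR t ht x v ?_⟩
    rwa [← (hc _ _ t ht.1 (lt t).le (ht.2.trans (lt T).le)).1]

end

end Vale.Agent.P107
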