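import Vale.Agent.P107.ChiD

/-! The truncated boundary kernel. -/

namespace Vale.Agent.P107

open MeasureTheory Set Filter Topology
open scoped ENNReal RealInnerProductSpace

noncomputable section

/-- The truncated boundary kernel. -/
def hc (π : Par) (u W l : V) : V := chi π u W l • hs u W l

private theorem hc_aux1 {a b R p f : ℝ} (ha : 0 < a) (hb : 0 < b) (hR : 0 < R) (hp : 0 < p) :
    a / b * (1 / R + f / (p * √b)) * bH a b R = bG a b R + bS p a b R * f := by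
  obtain ⟨x, hx, rfl⟩ : ∃ x : ℝ, 0 < x ∧ a = x ^ 2 :=
    ⟨√a, Real.sqrt_pos.2 ha, (Real.sq_sqrt ha.le).symm⟩
  obtain ⟨y, hy, rfl⟩ : ∃ y : ℝ, 0 < y ∧ b = y ^ 2 :=
    ⟨√b, Real.sqrt_pos.2 hb, (Real.sq_sqrt hb.le).symm⟩
  simp only [bH, bG, bS, Real.sqrt_sq hx.le, Real.sqrt_sq hy.le]
  field_simp

private theorem hc_aux2 {a b R d : ℝ} (ha : 0 < a) :
    d / √a * bH a b R = d * bL a b R := by
  obtain ⟨x, hx, rfl⟩ : ∃ x : ℝ, 0 < x ∧ a = x ^ 2 :=
    ⟨√a, Real.sqrt_pos.2 ha, (Real.sq_sqrt ha.le).symm⟩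
  simp only [bH, bL, Real.sqrt_sq hx.le]
  rw [div_mul_div_comm, mul_one_div, mul_one]
  congr 1
  ring

private theorem hc_self {δ : ℝ} {U U₀ : V} (h : Close δ U U₀) : Close δ U U :=
  ⟨by rw [sub_self, norm_zero]; exact h.pos.le, h.q1, h.q1⟩

theorem hc_eq_zero {π : Par} (hπ : π.Ok) (u : V) {W l : V} (h : q W ≤ π.pm ∨ ‖l‖ ≤ π.r0) :
    hc π u W l = 0 := by
  rw [hc, chi_eq_zero hπ u h, zero_smul]

theorem measurable_hc (π : Par) : Measurable (fun p : V × V × V => hc π p.1 p.2.1 p.2.2) := by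
  exact (measurable_chi π).smul measurable_hs

theorem hc_deriv : ∃ C : ℝ, 1 ≤ C ∧ ∀ (π : Par), π.Ok → ∀ (U U₀ F : V) (W l : ℝ → V) (s : ℝ),
    Close π.δ U U₀ → l s ≠ 0 →
    HasDerivAt l (vel U - (ang (vel U) (nrm (l s)) / ang (vel (W s)) (nrm (l s))) • vel (W s)) s →
    HasDerivAt W ((ang (vel U) (nrm (l s)) / ang (vel (W s)) (nrm (l s))) • F) s →
    ∃ D : V, HasDerivAt (fun r => hc π (vel U₀) (W r) (l r)) D s ∧
      ‖kT (vel U) (W s) (l s) + kS (vel U) (W s) F (l s) - D‖ ≤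
        C * psi π (q (W s)) (ang (vel U) (nrm (l s))) (ang (vel (W s)) (nrm (l s))) ‖l s‖ ‖F‖ := by
  classical
  obtain ⟨C1, hC1, H1⟩ := chi_deriv
  obtain ⟨C2, hC2, H2⟩ := hs_bound
  obtain ⟨C3, hC3, H3⟩ := hsD_cmp
  have hC12 : 0 ≤ C1 * C2 := by positivity
  refine ⟨20 + C3 + C1 * C2, by linarith, ?_⟩
  intro π hπ U U₀ F W l s hcl h0 hl hW
  obtain ⟨D, hD, hDs, hDb⟩ := H1 π hπ U U₀ F W l s hcl h0 hl hW
  have hh := hasDerivAt_hs U₀ hl hW h0
  refine ⟨_, hD.smul hh, ?_⟩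
  have ha : 0 < ang (vel U) (nrm (l s)) := ang_vel_pos U (norm_nrm_le _)
  have hb : 0 < ang (vel (W s)) (nrm (l s)) := ang_vel_pos (W s) (norm_nrm_le _)
  have hR : 0 < ‖l s‖ := norm_pos_iff.2 h0
  have hp : 0 < q (W s) := q_pos _
  have hf : 0 ≤ ‖F‖ := norm_nonneg _
  have hT := norm_kT_le (norm_vel_lt U).le (W s) (l s)
  have hS := norm_kS_le (norm_vel_lt U).le (W s) F (l s)
  have e1 := fun h => (CEdge_of_ne hπ U₀ (W := W s) (l := l s) h).dir hπ hcl
  have e2 := fun h => (CSupp_of_ne hπ U₀ (W := W s) (l := l s) h).rtr hπ hcl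
  have e3 := fun h => H3 π.δ U U₀ (W s) F (l s)
    ((CSupp_of_ne hπ U₀ (W := W s) (l := l s) h).frz hπ hcl)
  have e4 := fun h => (hDs h).1.rtr hπ hcl
  have e5 := fun h => (hDs h).2.dir hπ hcl
  have e6 := fun h => H2 π.δ U U₀ (W s) (l s) ((hDs h).1.frz hπ hcl)
  have c0 := chi_nonneg π (vel U₀) (W s) (l s)
  have c1 := chi_le_one π (vel U₀) (W s) (l s)
  have hx := hc_aux1 (f := ‖F‖) ha hb hR hp
  have hδ := hπ.δ0
  unfold psi
  generalize hsD (vel U₀) (W s) (l s) _ _ = Y at e3 ⊢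
  generalize hs (vel U₀) (W s) (l s) = X at e6 ⊢
  generalize chi π (vel U₀) (W s) (l s) = c at e1 e2 e3 c0 c1 ⊢
  generalize kT (vel U) (W s) (l s) = A at hT e3 ⊢
  generalize kS (vel U) (W s) F (l s) = B at hS e3 ⊢
  generalize ang (vel U) (nrm (l s)) = a at *
  generalize ang (vel (W s)) (nrm (l s)) = b at *
  generalize ‖l s‖ = R at *
  generalize q (W s) = p at *
  generalize ‖F‖ = f at *
  have nT : 0 ≤ bT p a b R := bT_nonneg hb.le
  have nS : 0 ≤ bS p a b R * f := mul_nonneg (bS_nonneg hp.le hR.le) hf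
  have nG : 0 ≤ bG a b R := bG_nonneg hb.le
  have nH : 0 ≤ bH a b R := bH_nonneg hR.le
  have nM : 0 ≤ π.δ / √a * (bS p a b R * f + bG a b R) := by positivity
  set P1 : ℝ := if RDir π p a b R ∨ RNr π a b then bT p a b R + bS p a b R * f else 0 with hP1
  set P2 : ℝ := if RTr π p a b R then π.δ / √a * (bS p a b R * f + bG a b R) else 0 with hP2
  set P3 : ℝ := if RTr π p a b R ∧ (RDir π p a b R ∨ RNr π a b) then bG a b R else 0 with hP3
  have n1 : 0 ≤ P1 := by rw [hP1]; split_ifs <;> linarith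
  have n2 : 0 ≤ P2 := by rw [hP2]; split_ifs <;> linarith
  have n3 : 0 ≤ P3 := by rw [hP3]; split_ifs <;> linarith
  have t1 : ‖(1 - c) • (A + B)‖ ≤ 20 * P1 := by
    by_cases h : c = 1
    · rw [h, sub_self, zero_smul, norm_zero]; linarith
    · rw [hP1, if_pos (e1 h), norm_smul, Real.norm_eq_abs, abs_of_nonneg (by linarith)]
      have h1 : ‖A + B‖ ≤ 20 * (bT p a b R + bS p a b R * f) := by
        have := norm_add_le A B
        linarith
      have h2 : (1 - c) * ‖A + B‖ ≤ 1 * ‖A + B‖ :=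
        mul_le_mul_of_nonneg_right (by linarith) (norm_nonneg _)
      linarith
  have t2 : ‖c • (A + B - Y)‖ ≤ C3 * P2 := by
    by_cases h : c = 0
    · rw [h, zero_smul, norm_zero]; positivity
    · rw [hP2, if_pos (e2 h), norm_smul, Real.norm_eq_abs, abs_of_nonneg c0]
      have h2 : c * ‖A + B - Y‖ ≤ 1 * ‖A + B - Y‖ :=
        mul_le_mul_of_nonneg_right c1 (norm_nonneg _)
      have := e3 h
      linarith
  have t3 : ‖D • X‖ ≤ C1 * C2 * (P1 + P3) := by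
    by_cases h : D = 0
    · rw [h, zero_smul, norm_zero]; positivity
    · rw [hP1, hP3, if_pos (e5 h), if_pos ⟨e4 h, e5 h⟩, norm_smul, Real.norm_eq_abs]
      have h1 : |D| * ‖X‖ ≤ (C1 * (a / b * (1 / R + f / (p * √b)))) * (C2 * bH a b R) :=
        mul_le_mul hDb (e6 h) (norm_nonneg _) (le_trans (abs_nonneg _) hDb)
      have h2 : (C1 * (a / b * (1 / R + f / (p * √b)))) * (C2 * bH a b R) =
          C1 * C2 * (bG a b R + bS p a b R * f) := by
        rw [← hx]; ring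
      have h3 : C1 * C2 * (bG a b R + bS p a b R * f) ≤
          C1 * C2 * (bT p a b R + bS p a b R * f + bG a b R) :=
        mul_le_mul_of_nonneg_left (by linarith) hC12
      linarith
  have hid : A + B - (c • Y + D • X) = (1 - c) • (A + B) + c • (A + B - Y) - D • X := by
    module
  rw [hid]
  have u1 := norm_sub_le ((1 - c) • (A + B) + c • (A + B - Y)) (D • X)
  have u2 := norm_add_le ((1 - c) • (A + B)) (c • (A + B - Y))
  have m1 : 0 ≤ C3 * P1 := by positivity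
  have m2 : 0 ≤ C3 * P3 := by positivity
  have m3 : 0 ≤ C1 * C2 * P2 := by positivity
  nlinarith

open Classical in
theorem hc_bound : ∃ C : ℝ, 1 ≤ C ∧ ∀ (π : Par), π.Ok → ∀ (U U₀ W l : V), Close π.δ U U₀ →
    ‖hc π (vel U₀) W l‖ ≤ C * (if RTr π (q W) (ang (vel U) (nrm l)) (ang (vel W) (nrm l)) ‖l‖ then
      bH (ang (vel U) (nrm l)) (ang (vel W) (nrm l)) ‖l‖ else 0) := by
  obtain ⟨C2, hC2, H2⟩ := hs_bound
  refine ⟨C2, hC2, ?_⟩
  intro π hπ U U₀ W l hcl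
  have nH : 0 ≤ bH (ang (vel U) (nrm l)) (ang (vel W) (nrm l)) ‖l‖ := bH_nonneg (norm_nonneg _)
  by_cases h : chi π (vel U₀) W l = 0
  · rw [hc, h, zero_smul, norm_zero]
    apply mul_nonneg (by linarith)
    split_ifs
    · exact nH
    · exact le_rfl
  · have hs0 := CSupp_of_ne hπ U₀ h
    rw [if_pos (hs0.rtr hπ hcl), hc, norm_smul, Real.norm_eq_abs,
      abs_of_nonneg (chi_nonneg _ _ _ _)]
    have h1 := H2 π.δ U U₀ W l (hs0.frz hπ hcl)
    have h2 : chi π (vel U₀) W l * ‖hs (vel U₀) W l‖ ≤ 1 * ‖hs (vel U₀) W l‖ :=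
      mul_le_mul_of_nonneg_right (chi_le_one _ _ _ _) (norm_nonneg _)
    linarith

open Classical in
theorem hc_lip : ∃ C : ℝ, 1 ≤ C ∧ ∀ (π : Par), π.Ok → ∀ (U U₀ W l : V), Close π.δ U U₀ →
    ‖hc π (vel U₀) W l - hc π (vel U) W l‖ ≤
      C * π.δ * (if RTr π (q W) (ang (vel U) (nrm l)) (ang (vel W) (nrm l)) ‖l‖ then
        bL (ang (vel U) (nrm l)) (ang (vel W) (nrm l)) ‖l‖ else 0) := by
  obtain ⟨C1, hC1, H1⟩ := chi_lip
  obtain ⟨C2, hC2, H2⟩ := hs_bound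
  obtain ⟨C3, hC3, H3⟩ := hs_lip
  have hC12 : 0 ≤ C1 * C2 := by positivity
  refine ⟨C1 * C2 + C3, by linarith, ?_⟩
  intro π hπ U U₀ W l hcl
  have ha : 0 < ang (vel U) (nrm l) := ang_vel_pos U (norm_nrm_le _)
  have nL : 0 ≤ bL (ang (vel U) (nrm l)) (ang (vel W) (nrm l)) ‖l‖ :=
    bL_nonneg ha.le (norm_nonneg _)
  have hδ := hπ.δ0
  have hx := hc_aux2 (b := ang (vel W) (nrm l)) (R := ‖l‖) (d := π.δ) ha
  have hl := H1 π hπ U U₀ W l hcl
  have key : ∀ X : V, ‖X‖ ≤ C2 * bH (ang (vel U) (nrm l)) (ang (vel W) (nrm l)) ‖l‖ →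
      ‖(chi π (vel U₀) W l - chi π (vel U) W l) • X‖ ≤
        C1 * C2 * (π.δ * bL (ang (vel U) (nrm l)) (ang (vel W) (nrm l)) ‖l‖) := by
    intro X hX
    rw [norm_smul, Real.norm_eq_abs, ← hx]
    refine le_trans (mul_le_mul hl hX (norm_nonneg _) (le_trans (abs_nonneg _) hl)) ?_
    apply le_of_eq
    ring
  have m0 : 0 ≤ π.δ * bL (ang (vel U) (nrm l)) (ang (vel W) (nrm l)) ‖l‖ := by positivity
  by_cases h : chi π (vel U₀) W l = 0
  · by_cases h' : chi π (vel U) W l = 0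
    · rw [hc, hc, h, h', zero_smul, zero_smul, sub_self, norm_zero]
      apply mul_nonneg (by positivity)
      split_ifs
      · exact nL
      · exact le_rfl
    · have hs0 := CSupp_of_ne hπ U h'
      have hcl' := hc_self hcl
      rw [if_pos (hs0.rtr hπ hcl')]
      have h1 := key _ (H2 π.δ U U W l (hs0.frz hπ hcl'))
      have hid : hc π (vel U₀) W l - hc π (vel U) W l =
          (chi π (vel U₀) W l - chi π (vel U) W l) • hs (vel U) W l := by
        rw [hc, hc, h, zero_smul, sub_smul, zero_smul]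
      rw [hid]
      have m1 := mul_nonneg (by linarith : (0 : ℝ) ≤ C3) m0
      nlinarith
  · have hs0 := CSupp_of_ne hπ U₀ h
    rw [if_pos (hs0.rtr hπ hcl)]
    have h1 := key _ (H2 π.δ U U₀ W l (hs0.frz hπ hcl))
    have h2 := H3 π.δ U U₀ W l (hs0.frz hπ hcl)
    have hid : hc π (vel U₀) W l - hc π (vel U) W l =
        (chi π (vel U₀) W l - chi π (vel U) W l) • hs (vel U₀) W l +
          chi π (vel U) W l • (hs (vel U₀) W l - hs (vel U) W l) := by
      rw [hc, hc]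
      module
    have h3 : ‖chi π (vel U) W l • (hs (vel U₀) W l - hs (vel U) W l)‖ ≤
        1 * ‖hs (vel U₀) W l - hs (vel U) W l‖ := by
      rw [norm_smul, Real.norm_eq_abs, abs_of_nonneg (chi_nonneg _ _ _ _)]
      exact mul_le_mul_of_nonneg_right (chi_le_one _ _ _ _) (norm_nonneg _)
    rw [hid]
    refine le_trans (norm_add_le _ _) ?_
    nlinarith

end

end Vale.Agent.P107
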