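import Vale.Agent.P107.Alg1

/-! The boundary kernel and its exact derivative. -/

namespace Vale.Agent.P107

open MeasureTheory Set Filter Topology
open scoped ENNReal RealInnerProductSpace

noncomputable section

/-- `|l| - u · l`. -/
def al (u l : V) : ℝ := ‖l‖ - ⟪u, l⟫

/-- The boundary kernel. -/
def hs (u W l : V) : V :=
  (al u l * al (vel W) l)⁻¹ • (ang u (vel W) • l - al u l • vel W - al (vel W) l • u)

/-- Derivative of `hs u W l` when `l` has derivative `L` and `W` has derivative `G`. -/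
def hsD (u W l L G : V) : V :=
  (al u l * al (vel W) l)⁻¹ •
      ((-⟪u, acc W G⟫) • l + ang u (vel W) • L - (⟪nrm l, L⟫ - ⟪u, L⟫) • vel W -
        al u l • acc W G - (⟪nrm l, L⟫ - ⟪acc W G, l⟫ - ⟪vel W, L⟫) • u) -
    (((⟪nrm l, L⟫ - ⟪u, L⟫) * al (vel W) l +
        al u l * (⟪nrm l, L⟫ - ⟪acc W G, l⟫ - ⟪vel W, L⟫)) / (al u l * al (vel W) l) ^ 2) •
      (ang u (vel W) • l - al u l • vel W - al (vel W) l • u)

theorem al_eq (u l : V) : al u l = ‖l‖ * ang u (nrm l) := by
  unfold al ang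
  conv_lhs => rw [← norm_smul_nrm l, inner_smul_right]
  rw [norm_smul_nrm]
  ring

theorem hasDerivAt_norm_path {l : ℝ → V} {L : V} {s : ℝ} (hl : HasDerivAt l L s) (h0 : l s ≠ 0) :
    HasDerivAt (fun r => ‖l r‖) ⟪nrm (l s), L⟫ s := by
  have h1 := hl.norm_sq
  have hpos : 0 < ‖l s‖ := norm_pos_iff.2 h0
  have h2 := h1.sqrt (pow_pos hpos 2).ne'
  simp only [Real.sqrt_sq (norm_nonneg _)] at h2
  convert h2 using 1
  unfold nrm
  rw [real_inner_smul_left]
  field_simp

theorem hasDerivAt_al (u : V) {l : ℝ → V} {L : V} {s : ℝ} (hl : HasDerivAt l L s)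
    (h0 : l s ≠ 0) : HasDerivAt (fun r => al u (l r)) (⟪nrm (l s), L⟫ - ⟪u, L⟫) s := by
  have h1 := (hasDerivAt_const s u).inner ℝ hl
  rw [inner_zero_left, add_zero] at h1
  exact (hasDerivAt_norm_path hl h0).sub h1

theorem hasDerivAt_al_vel {l W : ℝ → V} {L G : V} {s : ℝ} (hl : HasDerivAt l L s)
    (hW : HasDerivAt W G s) (h0 : l s ≠ 0) :
    HasDerivAt (fun r => al (vel (W r)) (l r))
      (⟪nrm (l s), L⟫ - ⟪acc (W s) G, l s⟫ - ⟪vel (W s), L⟫) s := by
  have h1 := (hasDerivAt_vel hW).inner ℝ hl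
  exact ((hasDerivAt_norm_path hl h0).sub h1).congr_deriv (by ring)

theorem hasDerivAt_hs (U : V) {l W : ℝ → V} {L G : V} {s : ℝ} (hl : HasDerivAt l L s)
    (hW : HasDerivAt W G s) (h0 : l s ≠ 0) :
    HasDerivAt (fun r => hs (vel U) (W r) (l r)) (hsD (vel U) (W s) (l s) L G) s := by
  have hpos : 0 < ‖l s‖ := norm_pos_iff.2 h0
  have ha : al (vel U) (l s) ≠ 0 := by
    rw [al_eq]; exact (mul_pos hpos (ang_vel_pos U (norm_nrm_le _))).ne'
  have hb : al (vel (W s)) (l s) ≠ 0 := by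
    rw [al_eq]; exact (mul_pos hpos (ang_vel_pos (W s) (norm_nrm_le _))).ne'
  have d1 := hasDerivAt_al (vel U) hl h0
  have d2 := hasDerivAt_al_vel hl hW h0
  have d3 := hasDerivAt_vel hW
  have d4 : HasDerivAt (fun r => ang (vel U) (vel (W r))) (-⟪vel U, acc (W s) G⟫) s := by
    have h1 := (hasDerivAt_const s (vel U)).inner ℝ d3
    rw [inner_zero_left, add_zero] at h1
    exact h1.const_sub 1
  have d5 := (d1.fun_mul d2).fun_inv (mul_ne_zero ha hb)
  have d6 := ((d4.fun_smul hl).fun_sub (d1.fun_smul d3)).fun_sub (d2.smul_const (vel U))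
  refine (d5.fun_smul d6).congr_deriv ?_
  unfold hsD
  module

theorem acc_smul (W G : V) (r : ℝ) : acc W (r • G) = r • acc W G := by
  unfold acc
  rw [inner_smul_right]
  module

theorem hsD_lin (u W l L L' G : V) (r : ℝ) :
    hsD u W l (r • L + L') (r • G) = r • hsD u W l L G + hsD u W l L' 0 := by
  have h0 : acc W 0 = 0 := by simp [acc]
  unfold hsD
  rw [acc_smul, h0]
  simp only [inner_add_right, inner_smul_right, real_inner_smul_left, inner_zero_left,
    inner_zero_right]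
  match_scalars <;> ring

/-- The exact identity for a test particle in uniform motion. -/
theorem hsD_frozen (U W F : V) {l : V} (h0 : l ≠ 0) :
    hsD (vel U) W l (vel U - (ang (vel U) (nrm l) / ang (vel W) (nrm l)) • vel W)
        ((ang (vel U) (nrm l) / ang (vel W) (nrm l)) • F) =
      kT (vel U) W l + kS (vel U) W F l +
        (((q U)⁻¹) ^ 2 / ((ang (vel U) (nrm l)) ^ 2 * ang (vel W) (nrm l) * ‖l‖ ^ 2)) •
          (ang (vel W) (nrm l) • vel U - ang (vel U) (vel W) • nrm l) := by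
  have ha := (ang_vel_pos U (norm_nrm_le l)).ne'
  have hb := (ang_vel_pos W (norm_nrm_le l)).ne'
  have hn : ⟪nrm l, nrm l⟫ = 1 := by rw [real_inner_self_eq_norm_sq, norm_nrm h0, one_pow]
  have hR : ‖l‖ ≠ 0 := norm_ne_zero_iff.2 h0
  have hl := norm_smul_nrm l
  have hq := (q_pos W).ne'
  have e4 : ⟪vel U, vel U⟫ = 1 - ((q U)⁻¹) ^ 2 := by rw [real_inner_self_eq_norm_sq, norm_vel_sq]
  have e5 : ⟪vel W, vel W⟫ = 1 - ((q W)⁻¹) ^ 2 := by rw [real_inner_self_eq_norm_sq, norm_vel_sq]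
  unfold hsD kT kS
  rw [al_eq, al_eq, acc_smul]
  generalize nrm l = n at *
  generalize ‖l‖ = R at *
  subst hl
  have e1 : ⟪vel U, n⟫ = 1 - ang (vel U) n := by unfold ang; ring
  have e2 : ⟪vel W, n⟫ = 1 - ang (vel W) n := by unfold ang; ring
  have e3 : ⟪vel U, vel W⟫ = 1 - ang (vel U) (vel W) := by unfold ang; ring
  have e1' : ⟪n, vel U⟫ = 1 - ang (vel U) n := by rw [real_inner_comm, e1]
  have e2' : ⟪n, vel W⟫ = 1 - ang (vel W) n := by rw [real_inner_comm, e2]
  have e3' : ⟪vel W, vel U⟫ = 1 - ang (vel U) (vel W) := by rw [real_inner_comm, e3]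
  simp only [inner_sub_right, inner_smul_right, real_inner_smul_left, e1', e2', e3, e3', e4, e5]
  generalize ang (vel U) n = a at *
  generalize ang (vel W) n = b at *
  generalize ang (vel U) (vel W) = c at *
  generalize (q U)⁻¹ = p at *
  match_scalars <;> field_simp <;> ring

theorem hsD_geo (U W e : V) {l : V} (h0 : l ≠ 0) :
    hsD (vel U) W l e 0 =
      (ang (vel U) (vel W) / (ang (vel U) (nrm l) * ang (vel W) (nrm l) * ‖l‖ ^ 2)) • e +
        (⟪nrm l - vel U, e⟫ / ((ang (vel U) (nrm l)) ^ 2 * ang (vel W) (nrm l) * ‖l‖ ^ 2)) •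
          (ang (vel W) (nrm l) • vel U - ang (vel U) (vel W) • nrm l) +
        (⟪nrm l - vel W, e⟫ / (ang (vel U) (nrm l) * (ang (vel W) (nrm l)) ^ 2 * ‖l‖ ^ 2)) •
          (ang (vel U) (nrm l) • vel W - ang (vel U) (vel W) • nrm l) := by
  have ha := (ang_vel_pos U (norm_nrm_le l)).ne'
  have hb := (ang_vel_pos W (norm_nrm_le l)).ne'
  have hn : ⟪nrm l, nrm l⟫ = 1 := by rw [real_inner_self_eq_norm_sq, norm_nrm h0, one_pow]
  have hR : ‖l‖ ≠ 0 := norm_ne_zero_iff.2 h0
  have hl := norm_smul_nrm l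
  have h1 : acc W 0 = 0 := by simp [acc]
  unfold hsD
  rw [al_eq, al_eq, h1]
  generalize nrm l = n at *
  generalize ‖l‖ = R at *
  subst hl
  simp only [inner_sub_left, inner_zero_left, inner_zero_right]
  generalize ang (vel U) n = a at *
  generalize ang (vel W) n = b at *
  generalize ang (vel U) (vel W) = c at *
  match_scalars <;> field_simp <;> ring

/-- `y = (n - u) / a`. -/
def yv (u n : V) : V := (ang u n)⁻¹ • (n - u)

theorem hs_eq_yv (U W : V) {l : V} (h0 : l ≠ 0) :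
    hs (vel U) W l = (ang (vel W) (nrm l) * ‖l‖)⁻¹ •
      (⟪yv (vel U) (nrm l), vel W⟫ • nrm l + ang (vel W) (nrm l) • yv (vel U) (nrm l) - vel W) := by
  have ha := (ang_vel_pos U (norm_nrm_le l)).ne'
  have hb := (ang_vel_pos W (norm_nrm_le l)).ne'
  have hn : ⟪nrm l, nrm l⟫ = 1 := by rw [real_inner_self_eq_norm_sq, norm_nrm h0, one_pow]
  have hR : ‖l‖ ≠ 0 := norm_ne_zero_iff.2 h0
  have hl := norm_smul_nrm l
  unfold hs yv
  rw [al_eq, al_eq]
  generalize nrm l = n at *
  generalize ‖l‖ = R at *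
  subst hl
  have e1 : ⟪vel U, n⟫ = 1 - ang (vel U) n := by unfold ang; ring
  have e2 : ⟪vel W, n⟫ = 1 - ang (vel W) n := by unfold ang; ring
  have e3 : ⟪vel U, vel W⟫ = 1 - ang (vel U) (vel W) := by unfold ang; ring
  have e1' : ⟪n, vel U⟫ = 1 - ang (vel U) n := by rw [real_inner_comm, e1]
  have e2' : ⟪n, vel W⟫ = 1 - ang (vel W) n := by rw [real_inner_comm, e2]
  have e3' : ⟪vel W, vel U⟫ = 1 - ang (vel U) (vel W) := by rw [real_inner_comm, e3]
  simp only [inner_sub_left, real_inner_smul_left, e2', e3]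
  generalize ang (vel U) n = a at *
  generalize ang (vel W) n = b at *
  generalize ang (vel U) (vel W) = c at *
  match_scalars <;> field_simp <;> ring

theorem inner_yv (U : V) {n : V} (hn : ‖n‖ = 1) : ⟪yv (vel U) n, n⟫ = 1 := by
  have ha := (ang_vel_pos U hn.le).ne'
  unfold yv
  rw [real_inner_smul_left, inner_sub_left, real_inner_self_eq_norm_sq, hn, one_pow]
  exact inv_mul_cancel₀ ha

theorem norm_hs_le {u : V} (hu : ‖u‖ ≤ 1) (W : V) {l : V}
    (hb : ang (vel W) (nrm l) ≤ ang u (nrm l)) :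
    ‖hs u W l‖ ≤ 9 * bH (ang u (nrm l)) (ang (vel W) (nrm l)) ‖l‖ := by
  by_cases h0 : l = 0
  · subst h0
    simp [hs, al, bH]
  have hbp := ang_vel_pos W (norm_nrm_le l)
  have hap := hbp.trans_le hb
  have hR : 0 < ‖l‖ := norm_pos_iff.2 h0
  have hc := norm_cn hu (norm_vel_lt W).le (norm_nrm h0)
  have e : hs u W l = (ang u (nrm l) * ang (vel W) (nrm l) * ‖l‖)⁻¹ •
      (ang u (vel W) • nrm l - ang u (nrm l) • vel W - ang (vel W) (nrm l) • u) := by
    have hl := norm_smul_nrm l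
    unfold hs
    rw [al_eq, al_eq]
    generalize nrm l = n at *
    generalize ‖l‖ = R at *
    subst hl
    match_scalars <;> field_simp
  rw [e, norm_smul, Real.norm_of_nonneg (by positivity)]
  have h1 := norm_sub_le (ang u (vel W) • nrm l - ang u (nrm l) • vel W) (ang (vel W) (nrm l) • u)
  have h2 : ‖ang (vel W) (nrm l) • u‖ ≤ ang (vel W) (nrm l) := by
    rw [norm_smul, Real.norm_of_nonneg hbp.le]
    exact mul_le_of_le_one_right hbp.le hu
  unfold bH
  generalize ang u (nrm l) = a at *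
  generalize ang (vel W) (nrm l) = b at *
  have hs1 : √b ≤ √a := Real.sqrt_le_sqrt hb
  have hsa : 0 < √a := Real.sqrt_pos.2 hap
  have hsb : 0 < √b := Real.sqrt_pos.2 hbp
  have ea : a = √a * √a := (Real.mul_self_sqrt hap.le).symm
  have eb : b = √b * √b := (Real.mul_self_sqrt hbp.le).symm
  generalize √a = x at *
  generalize √b = y at *
  have h3 : y * y ≤ x * y := mul_le_mul_of_nonneg_right hs1 hsb.le
  calc _ ≤ (a * b * ‖l‖)⁻¹ * (9 * (x * y)) :=
        mul_le_mul_of_nonneg_left (by nlinarith) (by positivity)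
    _ = _ := by rw [ea, eb]; field_simp

theorem measurable_hs : Measurable (fun p : V × V × V => hs p.1 p.2.1 p.2.2) := by
  have hv : Measurable vel := contDiff_vel.continuous.measurable
  unfold hs al ang
  fun_prop

end

end Vale.Agent.P107
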