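import Vale.Agent.P107.HsA

/-! Comparison of the true test velocity with the frozen one. -/

namespace Vale.Agent.P107

open MeasureTheory Set Filter Topology
open scoped ENNReal RealInnerProductSpace

noncomputable section

/-- The situation in which the test velocity may be frozen. -/
structure Frz (δ : ℝ) (U U₀ W l : V) : Prop where
  cl : Close δ U U₀
  l0 : l ≠ 0
  big : 100 * δ ^ 2 ≤ ang (vel U₀) (nrm l)
  small : ang (vel W) (nrm l) ≤ ang (vel U₀) (nrm l) / 100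

variable {δ : ℝ} {U U₀ W l : V}

theorem Close.pos (h : Close δ U U₀) : 0 < δ := by
  exact (inv_pos.2 (q_pos U)).trans_le h.q1

theorem hsb_sqrt {a : ℝ} (ha : 0 ≤ a) : √(2 * a) ≤ 3 / 2 * √a := by
  refine Real.sqrt_le_iff.2 ⟨by positivity, ?_⟩
  rw [mul_pow, Real.sq_sqrt ha]
  linarith

theorem Close.near (h : Close δ U U₀) {n : V} (hn : ‖n‖ ≤ 1)
    (hb : 100 * δ ^ 2 ≤ ang (vel U₀) n) :
    |ang (vel U) n - ang (vel U₀) n| ≤ ang (vel U₀) n / 5 ∧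
      |ang (vel U) n - ang (vel U₀) n| ≤ 2 * √(ang (vel U) n) * δ := by
  have hδ := h.pos
  have h1 := h.ang_pert hn
  have h2 := h.symm.ang_pert hn
  have p0 := ang_vel_pos U₀ hn
  have p1 := ang_vel_pos U hn
  have h3 : |ang (vel U) n - ang (vel U₀) n| ≤ ang (vel U₀) n / 5 := by
    have h4 := hsb_sqrt p0.le
    have h5 := Real.sq_sqrt p0.le
    have h6 : 10 * δ ≤ √(ang (vel U₀) n) := Real.le_sqrt_of_sq_le (by linarith)
    have h7 := mul_le_mul_of_nonneg_right h4 hδ.le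
    have h8 := mul_le_mul_of_nonneg_left h6 (Real.sqrt_nonneg (ang (vel U₀) n))
    nlinarith
  refine ⟨h3, ?_⟩
  have h4 := hsb_sqrt p1.le
  have h6 : 2 * δ ≤ √(ang (vel U) n) :=
    Real.le_sqrt_of_sq_le (by nlinarith [(abs_le.1 h3).1, sq_nonneg δ])
  have h7 := mul_le_mul_of_nonneg_right h4 hδ.le
  have h8 := mul_le_mul_of_nonneg_left h6 hδ.le
  rw [abs_sub_comm]
  nlinarith

theorem Frz.sz (h : Frz δ U U₀ W l) : ∃ s s0 t : ℝ, 0 < s ∧ 0 < s0 ∧ 0 < t ∧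
    ang (vel U) (nrm l) = s ^ 2 ∧ ang (vel U₀) (nrm l) = s0 ^ 2 ∧ ang (vel W) (nrm l) = t ^ 2 ∧
    10 * δ ≤ s0 ∧ 10 * t ≤ s0 ∧ 4 * s ≤ 5 * s0 ∧ s0 ≤ 3 / 2 ∧ |s ^ 2 - s0 ^ 2| ≤ 2 * s * δ ∧
    |1 - s ^ 2 / s0 ^ 2| ≤ 3 * δ / s0 ∧ s ^ 2 / s0 ^ 2 ≤ 2 := by
  have hn := norm_nrm_le l
  have hδ := h.cl.pos
  have p0 := ang_vel_pos U₀ hn
  have p1 := ang_vel_pos U hn
  have p2 := ang_vel_pos W hn
  obtain ⟨h1, h2⟩ := h.cl.near hn h.big
  have h3 := h.big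
  have h4 := h.small
  have h5 := ang_le_two (norm_vel_lt U₀).le hn
  have e0 := Real.sq_sqrt p0.le
  have e1 := Real.sq_sqrt p1.le
  have e2 := Real.sq_sqrt p2.le
  have q0 := Real.sqrt_pos.2 p0
  have q1 := Real.sqrt_pos.2 p1
  have q2 := Real.sqrt_pos.2 p2
  generalize √(ang (vel U₀) (nrm l)) = s0 at *
  generalize √(ang (vel U) (nrm l)) = s at *
  generalize √(ang (vel W) (nrm l)) = t at *
  rw [← e0, ← e1] at h1 h2
  rw [← e0] at h3 h5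
  rw [← e0, ← e2] at h4
  have h6 : 4 * s ≤ 5 * s0 :=
    le_of_sq_le_sq (by nlinarith [(abs_le.1 h1).2]) (by positivity)
  refine ⟨s, s0, t, q1, q0, q2, e1.symm, e0.symm, e2.symm,
    le_of_sq_le_sq (by linarith) q0.le, le_of_sq_le_sq (by linarith) q0.le, h6,
    le_of_sq_le_sq (by linarith) (by norm_num), h2, ?_, ?_⟩
  · rw [one_sub_div (by positivity), abs_div, abs_of_pos (by positivity : 0 < s0 ^ 2),
      abs_sub_comm, div_le_div_iff₀ (by positivity) q0]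
    have h7 := mul_le_mul_of_nonneg_right h2 q0.le
    have h8 : 0 ≤ δ * s0 * (3 * s0 - 2 * s) := mul_nonneg (by positivity) (by linarith)
    linarith
  · rw [div_le_iff₀ (by positivity)]
    nlinarith [(abs_le.1 h1).2]

theorem hsb_term {x D A B : ℝ} {v : V} (hD : 0 < D) (hx : |x| ≤ A) (hv : ‖v‖ ≤ B) :
    ‖(x / D) • v‖ ≤ A * B / D := by
  rw [norm_smul, Real.norm_eq_abs, abs_div, abs_of_pos hD, div_mul_eq_mul_div]
  exact div_le_div_of_nonneg_right (mul_le_mul hx hv (norm_nonneg _) ((abs_nonneg _).trans hx))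
    hD.le

theorem hsb_sub (U : V) {n : V} {s : ℝ} (hn : ‖n‖ ≤ 1) (hs : 0 < s) (e : ang (vel U) n = s ^ 2) :
    ‖n - vel U‖ ≤ 3 / 2 * s := by
  have h := sub_sq_le_ang (norm_vel_lt U).le hn
  rw [norm_sub_rev, e] at h
  exact le_of_sq_le_sq (by nlinarith) (by positivity)

theorem Frz.yv_sub (h : Frz δ U U₀ W l) :
    ‖yv (vel U) (nrm l) - yv (vel U₀) (nrm l)‖ ≤ 6 * δ / ang (vel U) (nrm l) := by
  obtain ⟨s, s0, t, hs, hs0, -, ea, ea0, -, -, -, h3, -, h5, -, -⟩ := h.sz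
  have hδ := h.cl.pos
  have hn := hsb_sub U₀ (norm_nrm_le l) hs0 ea0
  have e : yv (vel U) (nrm l) - yv (vel U₀) (nrm l) =
      (1 / s ^ 2) • (vel U₀ - vel U) + ((s0 ^ 2 - s ^ 2) / (s ^ 2 * s0 ^ 2)) • (nrm l - vel U₀) := by
    rw [yv, yv, ea, ea0]
    match_scalars <;> field_simp <;> ring
  have h6 := hsb_term (x := 1) (A := 1) (by positivity : 0 < s ^ 2) (by simp)
    ((norm_sub_rev _ _).trans_le h.cl.d)
  have h7 := hsb_term (by positivity : 0 < s ^ 2 * s0 ^ 2) ((abs_sub_comm _ _).trans_le h5) hn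
  rw [e, ea]
  refine (norm_add_le _ _).trans ((add_le_add h6 h7).trans ?_)
  rw [div_add_div _ _ (by positivity) (by positivity), div_le_div_iff₀ (by positivity)
    (by positivity)]
  have h8 : 0 ≤ δ * s ^ 4 * s0 * (5 * s0 - 3 * s) := mul_nonneg (by positivity) (by linarith)
  linarith

theorem Frz.force (h : Frz δ U U₀ W l) (E : V) :
    ‖ang (vel U) (nrm l) • E + ⟪vel U, E⟫ • nrm l - (ang (vel U) (nrm l) / ang (vel U₀) (nrm l)) •
      (ang (vel U₀) (nrm l) • E + ⟪vel U₀, E⟫ • nrm l)‖ ≤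
      |1 - ang (vel U) (nrm l) / ang (vel U₀) (nrm l)| * |⟪nrm l, E⟫| + 6 * δ * ‖E‖ := by
  have p0 := ang_vel_pos U₀ (norm_nrm_le l)
  have p1 := ang_vel_pos U (norm_nrm_le l)
  have h1 := h.yv_sub
  have e : ang (vel U) (nrm l) • E + ⟪vel U, E⟫ • nrm l -
      (ang (vel U) (nrm l) / ang (vel U₀) (nrm l)) •
      (ang (vel U₀) (nrm l) • E + ⟪vel U₀, E⟫ • nrm l) =
      ((1 - ang (vel U) (nrm l) / ang (vel U₀) (nrm l)) * ⟪nrm l, E⟫ -
        ang (vel U) (nrm l) * ⟪yv (vel U) (nrm l) - yv (vel U₀) (nrm l), E⟫) • nrm l := by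
    simp only [yv, inner_sub_left, real_inner_smul_left]
    match_scalars <;> field_simp <;> ring
  rw [e, norm_smul, norm_nrm h.l0, mul_one, Real.norm_eq_abs]
  refine (abs_sub _ _).trans (add_le_add (abs_mul _ _).le ?_)
  rw [abs_mul, abs_of_pos p1]
  refine (mul_le_mul_of_nonneg_left ((abs_real_inner_le_norm _ _).trans
    (mul_le_mul_of_nonneg_right h1 (norm_nonneg _))) p1.le).trans (le_of_eq ?_)
  field_simp

theorem cmp_kT : ∃ C : ℝ, 1 ≤ C ∧ ∀ (δ : ℝ) (U U₀ W l : V), Frz δ U U₀ W l →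
    ‖kT (vel U) W l - (ang (vel U) (nrm l) / ang (vel U₀) (nrm l)) • kT (vel U₀) W l‖ ≤
      C * (δ / √(ang (vel U) (nrm l)) * bG (ang (vel U) (nrm l)) (ang (vel W) (nrm l)) ‖l‖) := by
  refine ⟨30, by norm_num, fun δ U U₀ W l h => ?_⟩
  have h1 := h.force (kT 0 W l)
  rw [← kT_force, ← kT_force, inner_nrm_kT0 W h.l0] at h1
  have h2 := norm_kT0_le W l
  have h3 := inv_q_sq_le_ang W (norm_nrm_le l)
  obtain ⟨s, s0, t, hs, hs0, ht, ea, ea0, eb, -, h4, -, -, -, h5, -⟩ := h.sz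
  have hδ := h.cl.pos
  have hR := norm_pos_iff.2 h.l0
  have hq := q_pos W
  refine h1.trans ?_
  rw [ea, ea0, eb, bG, Real.sqrt_sq hs.le, Real.sqrt_sq ht.le]
  rw [eb] at h3
  rw [eb, Real.sqrt_sq ht.le] at h2
  have h6 : |(q W ^ 2 * (t ^ 2) ^ 2 * ‖l‖ ^ 2)⁻¹| ≤ 2 / (t ^ 2 * ‖l‖ ^ 2) := by
    rw [abs_of_pos (by positivity)]
    calc (q W ^ 2 * (t ^ 2) ^ 2 * ‖l‖ ^ 2)⁻¹ = (q W)⁻¹ ^ 2 / ((t ^ 2) ^ 2 * ‖l‖ ^ 2) := by
          field_simp
      _ ≤ 2 * t ^ 2 / ((t ^ 2) ^ 2 * ‖l‖ ^ 2) := div_le_div_of_nonneg_right h3 (by positivity)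
      _ = _ := by field_simp
  have h7 : 3 * δ / s0 ≤ 3 * δ / t := div_le_div_of_nonneg_left (by positivity) ht (by linarith)
  refine (add_le_add (mul_le_mul (h5.trans h7) h6 (abs_nonneg _) (by positivity))
    (mul_le_mul_of_nonneg_left h2 (by positivity))).trans (le_of_eq ?_)
  field_simp
  ring

theorem cmp_kS : ∃ C : ℝ, 1 ≤ C ∧ ∀ (δ : ℝ) (U U₀ W F l : V), Frz δ U U₀ W l →
    ‖kS (vel U) W F l - (ang (vel U) (nrm l) / ang (vel U₀) (nrm l)) • kS (vel U₀) W F l‖ ≤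
      C * (δ / √(ang (vel U) (nrm l)) *
        (bS (q W) (ang (vel U) (nrm l)) (ang (vel W) (nrm l)) ‖l‖ * ‖F‖)) := by
  refine ⟨42, by norm_num, fun δ U U₀ W F l h => ?_⟩
  have h1 := h.force (kS 0 W F l)
  rw [← kS_force, ← kS_force, inner_nrm_kS0, abs_zero, mul_zero, zero_add] at h1
  have hδ := h.cl.pos
  have hs := Real.sqrt_pos.2 (ang_vel_pos U (norm_nrm_le l))
  refine h1.trans ((mul_le_mul_of_nonneg_left (norm_kS0_le W F l) (by positivity)).trans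
    (le_of_eq ?_))
  rw [bS]
  field_simp
  ring

theorem hs_lip : ∃ C : ℝ, 1 ≤ C ∧ ∀ (δ : ℝ) (U U₀ W l : V), Frz δ U U₀ W l →
    ‖hs (vel U₀) W l - hs (vel U) W l‖ ≤
      C * (δ * bL (ang (vel U) (nrm l)) (ang (vel W) (nrm l)) ‖l‖) := by
  refine ⟨18, by norm_num, fun δ U U₀ W l h => ?_⟩
  have h1 := h.yv_sub
  rw [norm_sub_rev] at h1
  obtain ⟨s, s0, t, hs1, hs0, ht, ea, ea0, eb, -, h4, -, h5, -, -, -⟩ := h.sz
  have hδ := h.cl.pos
  have hR := norm_pos_iff.2 h.l0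
  have hn := norm_nrm h.l0
  have h2 := hsb_sub W hn.le ht eb
  have e : hs (vel U₀) W l - hs (vel U) W l =
      (-⟪yv (vel U₀) (nrm l) - yv (vel U) (nrm l), nrm l - vel W⟫ / (t ^ 2 * ‖l‖)) • nrm l +
        (t ^ 2 / (t ^ 2 * ‖l‖)) • (yv (vel U₀) (nrm l) - yv (vel U) (nrm l)) := by
    rw [hs_eq_yv U₀ W h.l0, hs_eq_yv U W h.l0, eb, inner_sub_right, inner_sub_left,
      inner_sub_left, inner_yv U hn, inner_yv U₀ hn]
    match_scalars <;> ring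
  have h6 := hsb_term (by positivity : 0 < t ^ 2 * ‖l‖) ((abs_neg _).trans_le
    ((abs_real_inner_le_norm _ _).trans (mul_le_mul h1 h2 (norm_nonneg _)
      ((norm_nonneg _).trans h1)))) hn.le
  have h7 := hsb_term (x := t ^ 2) (A := 3 / 2 * t) (by positivity : 0 < t ^ 2 * ‖l‖)
    (by rw [abs_of_pos (by positivity)]; nlinarith) h1
  rw [e]
  refine (norm_add_le _ _).trans ((add_le_add h6 h7).trans (le_of_eq ?_))
  rw [ea, eb, bL, Real.sqrt_sq ht.le]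
  field_simp
  ring

theorem hs_bound : ∃ C : ℝ, 1 ≤ C ∧ ∀ (δ : ℝ) (U U₀ W l : V), Frz δ U U₀ W l →
    ‖hs (vel U₀) W l‖ ≤ C * bH (ang (vel U) (nrm l)) (ang (vel W) (nrm l)) ‖l‖ := by
  refine ⟨18, by norm_num, fun δ U U₀ W l h => ?_⟩
  obtain ⟨s, s0, t, hs, hs0, ht, ea, ea0, eb, -, h4, h5, -, -, -, -⟩ := h.sz
  have hR := norm_pos_iff.2 h.l0
  refine (norm_hs_le (norm_vel_lt U₀).le W (by rw [ea0, eb]; nlinarith)).trans ?_
  rw [ea, ea0, eb, bH, bH, Real.sqrt_sq hs.le, Real.sqrt_sq hs0.le, Real.sqrt_sq ht.le,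
    mul_one_div, mul_one_div, div_le_div_iff₀ (by positivity) (by positivity)]
  have h8 : 0 ≤ t * ‖l‖ * (2 * s0 - s) := mul_nonneg (by positivity) (by linarith)
  linarith

theorem hsb_T {δ s s0 t R : ℝ} (hδ : 0 < δ) (hs : 0 < s) (ht : 0 < t) (hR : 0 < R)
    (h : 10 * t ≤ s0) : δ / (s0 * t ^ 2 * R ^ 2) ≤ δ / √(s ^ 2) * bG (s ^ 2) (t ^ 2) R := by
  rw [bG, Real.sqrt_sq hs.le, Real.sqrt_sq ht.le]
  calc δ / (s0 * t ^ 2 * R ^ 2) ≤ δ / (t * t ^ 2 * R ^ 2) :=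
        div_le_div_of_nonneg_left hδ.le (by positivity) (by gcongr; linarith)
    _ = _ := by field_simp

theorem hsb_vec (U₀ W : V) {n : V} {s0 t : ℝ} (hn : ‖n‖ = 1) (ht : 0 < t)
    (ea0 : ang (vel U₀) n = s0 ^ 2) (eb : ang (vel W) n = t ^ 2) (h : 10 * t ≤ s0) :
    |ang (vel U₀) (vel W)| ≤ 3 * s0 ^ 2 ∧
      ‖t ^ 2 • vel U₀ - ang (vel U₀) (vel W) • n‖ ≤ 3 * s0 ^ 2 := by
  have h1 := tri_c U₀ W hn
  have h2 := ang_nonneg (norm_vel_lt U₀).le (norm_vel_lt W).le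
  have h3 := norm_sub_le (t ^ 2 • vel U₀) (ang (vel U₀) (vel W) • n)
  rw [norm_smul, norm_smul, hn, Real.norm_of_nonneg h2, Real.norm_of_nonneg (sq_nonneg t)] at h3
  have h4 := mul_le_of_le_one_right (sq_nonneg t) (norm_vel_lt U₀).le
  rw [ea0, eb] at h1
  rw [abs_of_nonneg h2]
  constructor <;> nlinarith

theorem Frz.rem (h : Frz δ U U₀ W l) :
    ‖(ang (vel U) (nrm l) / ang (vel U₀) (nrm l)) •
      (((q U₀)⁻¹) ^ 2 / ((ang (vel U₀) (nrm l)) ^ 2 * ang (vel W) (nrm l) * ‖l‖ ^ 2)) •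
        (ang (vel W) (nrm l) • vel U₀ - ang (vel U₀) (vel W) • nrm l)‖ ≤
      6 * (δ / √(ang (vel U) (nrm l)) * bG (ang (vel U) (nrm l)) (ang (vel W) (nrm l)) ‖l‖) := by
  obtain ⟨s, s0, t, hs, hs0, ht, ea, ea0, eb, h3, h4, -, -, -, -, h5⟩ := h.sz
  have hδ := h.cl.pos
  have hR := norm_pos_iff.2 h.l0
  have h1 := (hsb_vec U₀ W (norm_nrm h.l0) ht ea0 eb h4).2
  have h2 : |(q U₀)⁻¹ ^ 2| ≤ δ * s0 := by
    have h6 := inv_pos.2 (q_pos U₀)
    have h7 := h.cl.q2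
    rw [abs_of_nonneg (sq_nonneg _)]
    nlinarith
  have h6 := hsb_term (by positivity : 0 < (s0 ^ 2) ^ 2 * t ^ 2 * ‖l‖ ^ 2) h2 h1
  have h7 := hsb_T hδ hs ht hR h4
  rw [ea, ea0, eb, norm_smul, Real.norm_of_nonneg (by positivity)]
  refine (mul_le_mul h5 h6 (norm_nonneg _) zero_le_two).trans ?_
  have e : 2 * (δ * s0 * (3 * s0 ^ 2) / ((s0 ^ 2) ^ 2 * t ^ 2 * ‖l‖ ^ 2)) =
      6 * (δ / (s0 * t ^ 2 * ‖l‖ ^ 2)) := by
    field_simp
    ring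
  linarith

theorem Frz.geo (h : Frz δ U U₀ W l) :
    ‖hsD (vel U₀) W l (vel U - (ang (vel U) (nrm l) / ang (vel U₀) (nrm l)) • vel U₀) 0‖ ≤
      115 * (δ / √(ang (vel U) (nrm l)) * bG (ang (vel U) (nrm l)) (ang (vel W) (nrm l)) ‖l‖) := by
  obtain ⟨s, s0, t, hs, hs0, ht, ea, ea0, eb, h3, h4, h5, h6, h7, h8, -⟩ := h.sz
  have hδ := h.cl.pos
  have hR := norm_pos_iff.2 h.l0
  have hn := norm_nrm h.l0
  have hu := (norm_vel_lt U₀).le
  have hw := (norm_vel_lt W).le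
  obtain ⟨v1, v2⟩ := hsb_vec U₀ W hn ht ea0 eb h4
  have v3 := norm_cn hu hw hn
  have v4 := abs_ang_sub hu hw hn
  rw [ea0, eb, Real.sqrt_sq hs0.le, Real.sqrt_sq ht.le] at v3 v4
  rw [norm_sub_rev] at v3
  have v0 := mul_le_mul_of_nonneg_left (by linarith : t ≤ s0) ht.le
  have v5 := v3.trans (show _ ≤ 8 * t * s0 by linarith)
  have v6 := v4.trans (show _ ≤ 3 * s0 * t by linarith)
  have e : vel U - (s ^ 2 / s0 ^ 2) • vel U₀ = (vel U - vel U₀) + (1 - s ^ 2 / s0 ^ 2) • vel U₀ := by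
    module
  have hin : ∀ m : V, |⟪m, vel U - (s ^ 2 / s0 ^ 2) • vel U₀⟫| ≤
      ‖m‖ * δ + |(1 - s ^ 2 / s0 ^ 2) * ⟪m, vel U₀⟫| := fun m => by
    rw [e, inner_add_right, real_inner_smul_right]
    exact (abs_add_le _ _).trans (add_le_add ((abs_real_inner_le_norm _ _).trans
      (mul_le_mul_of_nonneg_left h.cl.d (norm_nonneg _))) le_rfl)
  have x1 : ‖vel U - (s ^ 2 / s0 ^ 2) • vel U₀‖ ≤ 5 * δ / s0 := by
    rw [e]
    refine (norm_add_le _ _).trans ?_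
    rw [norm_smul, Real.norm_eq_abs]
    have y1 := mul_le_of_le_one_right (abs_nonneg (1 - s ^ 2 / s0 ^ 2)) hu
    have y2 : δ ≤ 2 * δ / s0 := by
      rw [le_div_iff₀ hs0]
      linarith [mul_le_mul_of_nonneg_left h6 hδ.le]
    have y3 : 5 * δ / s0 = 2 * δ / s0 + 3 * δ / s0 := by ring
    linarith [h.cl.d]
  have x2 : |⟪nrm l - vel U₀, vel U - (s ^ 2 / s0 ^ 2) • vel U₀⟫| ≤ 4 * s0 * δ := by
    refine (hin _).trans ?_
    have y1 := mul_le_mul_of_nonneg_right (hsb_sub U₀ hn.le hs0 ea0) hδ.le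
    have y2 : ⟪nrm l - vel U₀, vel U₀⟫ = (q U₀)⁻¹ ^ 2 - s0 ^ 2 := by
      rw [inner_sub_left, real_inner_self_eq_norm_sq, norm_vel_sq, ← ea0, ang, real_inner_comm]
      ring
    have y3 := inv_q_sq_le_ang U₀ hn.le
    have y4 : |(q U₀)⁻¹ ^ 2 - s0 ^ 2| ≤ s0 ^ 2 := by
      rw [ea0] at y3
      rw [abs_le]
      constructor <;> linarith [sq_nonneg (q U₀)⁻¹]
    have y5 : |1 - s ^ 2 / s0 ^ 2| * s0 ^ 2 ≤ 2 * s * δ := by
      rw [one_sub_div (by positivity), abs_div, abs_of_pos (by positivity : 0 < s0 ^ 2),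
        div_mul_cancel₀ _ (by positivity), abs_sub_comm]
      exact h7
    have y6 := mul_le_mul_of_nonneg_left y4 (abs_nonneg (1 - s ^ 2 / s0 ^ 2))
    rw [y2, abs_mul]
    linarith [mul_le_mul_of_nonneg_right h5 hδ.le]
  have x3 : |⟪nrm l - vel W, vel U - (s ^ 2 / s0 ^ 2) • vel U₀⟫| ≤ 11 * δ * t := by
    refine (hin _).trans ?_
    have y1 := mul_le_mul_of_nonneg_right (hsb_sub W hn.le ht eb) hδ.le
    have y2 : ⟪nrm l - vel W, vel U₀⟫ = ang (vel U₀) (vel W) - s0 ^ 2 := by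
      rw [inner_sub_left, ← ea0, ang, ang, real_inner_comm (nrm l), real_inner_comm (vel W)]
      ring
    have y3 := mul_le_mul h8 v6 (abs_nonneg _) (by positivity)
    have y4 : 3 * δ / s0 * (3 * s0 * t) = 9 * δ * t := by
      field_simp
      ring
    rw [y2, abs_mul]
    linarith [mul_pos hδ ht]
  have t1 := hsb_term (by positivity : 0 < s0 ^ 2 * t ^ 2 * ‖l‖ ^ 2) v1 x1
  have t2 := hsb_term (by positivity : 0 < (s0 ^ 2) ^ 2 * t ^ 2 * ‖l‖ ^ 2) x2 v2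
  have t3 := hsb_term (by positivity : 0 < s0 ^ 2 * (t ^ 2) ^ 2 * ‖l‖ ^ 2) x3 v5
  have h9 := hsb_T hδ hs ht hR h4
  rw [hsD_geo U₀ W _ h.l0, ea, ea0, eb]
  refine ((norm_add_le _ _).trans (add_le_add ((norm_add_le _ _).trans (add_le_add t1 t2))
    t3)).trans ?_
  have e1 : 3 * s0 ^ 2 * (5 * δ / s0) / (s0 ^ 2 * t ^ 2 * ‖l‖ ^ 2) +
      4 * s0 * δ * (3 * s0 ^ 2) / ((s0 ^ 2) ^ 2 * t ^ 2 * ‖l‖ ^ 2) +
      11 * δ * t * (8 * t * s0) / (s0 ^ 2 * (t ^ 2) ^ 2 * ‖l‖ ^ 2) =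
      115 * (δ / (s0 * t ^ 2 * ‖l‖ ^ 2)) := by
    field_simp
    ring
  linarith

/-- The derivative of the frozen boundary kernel along the true path reproduces the force. -/
theorem hsD_cmp : ∃ C : ℝ, 1 ≤ C ∧ ∀ (δ : ℝ) (U U₀ W F l : V), Frz δ U U₀ W l →
    ‖kT (vel U) W l + kS (vel U) W F l -
        hsD (vel U₀) W l (vel U - (ang (vel U) (nrm l) / ang (vel W) (nrm l)) • vel W)
          ((ang (vel U) (nrm l) / ang (vel W) (nrm l)) • F)‖ ≤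
      C * (δ / √(ang (vel U) (nrm l)) *
        (bS (q W) (ang (vel U) (nrm l)) (ang (vel W) (nrm l)) ‖l‖ * ‖F‖ +
          bG (ang (vel U) (nrm l)) (ang (vel W) (nrm l)) ‖l‖)) := by
  obtain ⟨C1, hC1, h1⟩ := cmp_kT
  obtain ⟨C2, hC2, h2⟩ := cmp_kS
  refine ⟨C1 + C2 + 121, by linarith, fun δ U U₀ W F l h => ?_⟩
  have p0 := ang_vel_pos U₀ (norm_nrm_le l)
  have p1 := ang_vel_pos U (norm_nrm_le l)
  have p2 := ang_vel_pos W (norm_nrm_le l)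
  have e1 : vel U - (ang (vel U) (nrm l) / ang (vel W) (nrm l)) • vel W =
      (ang (vel U) (nrm l) / ang (vel U₀) (nrm l)) •
        (vel U₀ - (ang (vel U₀) (nrm l) / ang (vel W) (nrm l)) • vel W) +
      (vel U - (ang (vel U) (nrm l) / ang (vel U₀) (nrm l)) • vel U₀) := by
    match_scalars <;> field_simp <;> ring
  have e2 : (ang (vel U) (nrm l) / ang (vel W) (nrm l)) • F =
      (ang (vel U) (nrm l) / ang (vel U₀) (nrm l)) •
        ((ang (vel U₀) (nrm l) / ang (vel W) (nrm l)) • F) := by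
    match_scalars
    field_simp
  have h3 := h.rem
  have h4 := h.geo
  have h5 := h1 δ U U₀ W l h
  have h6 := h2 δ U U₀ W F l h
  rw [e1, e2, hsD_lin, hsD_frozen U₀ W F h.l0]
  have key : ∀ (a b a0 b0 c d : V) (r : ℝ), a + b - (r • (a0 + b0 + c) + d) =
      (a - r • a0) + (b - r • b0) - r • c - d := fun a b a0 b0 c d r => by module
  rw [key]
  refine ((norm_sub_le _ _).trans (add_le_add ((norm_sub_le _ _).trans (add_le_add
    ((norm_add_le _ _).trans (add_le_add h5 h6)) h3)) h4)).trans ?_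
  have hδ := h.cl.pos
  have n1 : 0 ≤ δ / √(ang (vel U) (nrm l)) * bG (ang (vel U) (nrm l)) (ang (vel W) (nrm l)) ‖l‖ :=
    mul_nonneg (by positivity) (bG_nonneg p2.le)
  have n2 : 0 ≤ δ / √(ang (vel U) (nrm l)) *
      (bS (q W) (ang (vel U) (nrm l)) (ang (vel W) (nrm l)) ‖l‖ * ‖F‖) :=
    mul_nonneg (by positivity) (mul_nonneg (bS_nonneg (q_pos W).le (norm_nonneg _)) (norm_nonneg _))
  rw [mul_add (δ / √(ang (vel U) (nrm l)))]
  linarith [mul_nonneg (zero_le_one.trans hC1) n2, mul_nonneg (zero_le_one.trans hC2) n1]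

end

end Vale.Agent.P107
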