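import Vale.Agent.P107.Ex
import Vale.Agent.P107.Geo

/-! Bounds and Lipschitz bounds of the fields of a point charge. -/

namespace Vale.Agent.P107

open MeasureTheory Set Filter Topology
open scoped ENNReal RealInnerProductSpace

noncomputable section

/-- The weight in the Lipschitz bound of the truncated kernel. -/
def gr (r R : ℝ) : ℝ := 1 / (max r R) ^ 3 + 1 / (max r R) ^ 2

theorem norm_pr_le (l e : V) : ‖pr l e‖ ≤ ‖e‖ := by
  exact norm_prod_le_iff.2 ⟨le_rfl, (norm_cross_le _ _).trans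
    (mul_le_of_le_one_left (norm_nonneg _) (norm_nrm_le l))⟩

theorem lor_pr_T (U W l : V) : lor (zT W l).1 (zT W l).2 U = kT (vel U) W l := by
  exact (kT_lor _ W l).symm

theorem lor_pr_S (U W F l : V) : lor (zS W F l).1 (zS W F l).2 U = kS (vel U) W F l := by
  exact (kS_lor _ W F l).symm

theorem KerL_add (v F F' l : V) : zS v (F + F') l = zS v F l + zS v F' l := by
  simp only [zS, pr, kS_add, cross_add_right, Prod.mk_add_mk]

theorem KerL_smul (v F l : V) (r : ℝ) : zS v (r • F) l = r • zS v F l := by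
  simp only [zS, pr, kS_smul, cross_smul_right, Prod.smul_mk]

theorem zS_sub (v F F' l : V) : zS v F l - zS v F' l = zS v (F - F') l := by
  rw [sub_eq_iff_eq_add, ← KerL_add, sub_add_cancel]

theorem zS_zero (v l : V) : zS v 0 l = 0 := by
  simpa using KerL_smul v 0 l 0

/-- The acceleration field as a linear function of the force. -/
theorem exists_zSL (v l : V) : ∃ A : V →L[ℝ] Z, (∀ F, zS v F l = A F) ∧
    ∀ P, q v ≤ P → ‖A‖ ≤ 120 * P ^ 3 / ‖l‖ := by
  refine ⟨LinearMap.toContinuousLinearMap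
    { toFun := fun F => zS v F l, map_add' := fun F F' => KerL_add v F F' l,
      map_smul' := fun r F => KerL_smul v F l r }, fun F => rfl, fun P hP => ?_⟩
  have := (q_pos v).trans_le hP
  refine ContinuousLinearMap.opNorm_le_bound _ (by positivity) fun F => ?_
  rw [div_mul_eq_mul_div]
  exact (norm_pr_le _ _).trans (norm_kS_crude (by simp) hP F l)

theorem norm_zT_le {v : V} {P : ℝ} (h : q v ≤ P) (l : V) : ‖zT v l‖ ≤ 100 * P ^ 3 / ‖l‖ ^ 2 := by
  exact (norm_pr_le _ _).trans (norm_kT_crude (by simp) h l)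

theorem norm_zS_le {v : V} {P : ℝ} (h : q v ≤ P) (F l : V) :
    ‖zS v F l‖ ≤ 120 * P ^ 3 * ‖F‖ / ‖l‖ := by
  exact (norm_pr_le _ _).trans (norm_kS_crude (by simp) h F l)

theorem norm_lw_le {v : V} {P : ℝ} (h : q v ≤ P) (l : V) : ‖lw v l‖ ≤ 2 * P ^ 2 / ‖l‖ := by
  have h0 := q_pos v
  have ha := ang_vel_pos v (norm_nrm_le l)
  have e1 := inv_q_sq_le_ang v (norm_nrm_le l)
  have e2 : ‖(((1 : ℝ), vel v) : ST)‖ ≤ 1 := norm_prod_le_iff.2 ⟨by simp, (norm_vel_lt v).le⟩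
  have e3 : (ang (vel v) (nrm l))⁻¹ ≤ 2 * P ^ 2 := by
    rw [inv_pow, inv_le_iff_one_le_mul₀ (by positivity)] at e1
    rw [inv_le_iff_one_le_mul₀ ha]
    have := pow_le_pow_left₀ h0.le h 2
    nlinarith
  rw [lw, norm_smul, al_eq, mul_inv, Real.norm_of_nonneg (by positivity), div_eq_inv_mul]
  exact (mul_le_of_le_one_right (by positivity) e2).trans
    (mul_le_mul_of_nonneg_left e3 (by positivity))

theorem KerL_meas {X : Type} [MeasurableSpace X] {l e : X → V} (hl : Measurable l)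
    (he : Measurable e) : Measurable fun x => pr (l x) (e x) :=
  he.prodMk (contDiff_cross.continuous.measurable.comp (f := fun x => (nrm (l x), e x))
    ((measurable_nrm.comp hl).prodMk he))

theorem measurable_zT : Measurable (fun x : V × V => zT x.1 x.2) := by
  exact KerL_meas measurable_snd (measurable_kT.comp (f := fun x : V × V => (0, x))
    (measurable_const.prodMk measurable_id))

theorem measurable_zS : Measurable (fun x : V × V × V => zS x.1 x.2.1 x.2.2) := by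
  exact KerL_meas measurable_snd.snd (measurable_kS.comp (f := fun x : V × V × V => (0, x))
    (measurable_const.prodMk measurable_id))

theorem measurable_lw : Measurable (fun x : V × V => lw x.1 x.2) := by
  have h2 := contDiff_vel.continuous.measurable
  unfold lw al
  fun_prop

theorem KerL_nrm {l : V} (hl : l ≠ 0) (l' : V) : ‖nrm l - nrm l'‖ ≤ 2 * ‖l - l'‖ / ‖l‖ := by
  have h0 : 0 < ‖l‖ := norm_pos_iff.2 hl
  have e : ‖l‖ • (nrm l - nrm l') = l - l' + (‖l'‖ - ‖l‖) • nrm l' := by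
    rw [smul_sub, sub_smul, norm_smul_nrm, norm_smul_nrm]
    abel
  have e1 := congrArg norm e
  rw [norm_smul, norm_norm] at e1
  have e2 := norm_add_le (l - l') ((‖l'‖ - ‖l‖) • nrm l')
  rw [norm_smul, Real.norm_eq_abs, abs_sub_comm] at e2
  have e3 := mul_le_of_le_one_right (abs_nonneg (‖l‖ - ‖l'‖)) (norm_nrm_le l')
  rw [le_div_iff₀ h0]
  linarith [abs_norm_sub_norm_le l l']

theorem norm_nrm_sub {l l' : V} (hl : l ≠ 0) (hl' : l' ≠ 0) :
    ‖nrm l - nrm l'‖ ≤ 2 * ‖l - l'‖ / ‖l‖ := by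
  exact KerL_nrm hl l'

/-- The angular part of the velocity field. -/
def KerL_T (x : V × V) : Z :=
  ((q x.1) ^ 2 * (ang (vel x.1) x.2) ^ 3)⁻¹ • (x.2 - vel x.1, cross x.2 (x.2 - vel x.1))

/-- The angular part of the acceleration field. -/
def KerL_S (x : V × V × V) : Z :=
  (⟪acc x.2.1 x.1, x.2.2⟫ / (ang (vel x.2.1) x.2.2) ^ 3) •
      (x.2.2 - vel x.2.1, cross x.2.2 (x.2.2 - vel x.2.1)) -
    ((ang (vel x.2.1) x.2.2) ^ 2)⁻¹ • (acc x.2.1 x.1, cross x.2.2 (acc x.2.1 x.1))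

/-- The angular part of the potential. -/
def KerL_A (x : V × V) : ST := (ang (vel x.1) x.2)⁻¹ • ((1 : ℝ), vel x.1)

theorem KerL_T_eq (v l : V) : zT v l = (‖l‖ ^ 2)⁻¹ • KerL_T (v, nrm l) := by
  simp only [zT, pr, Alg1_kT0, KerL_T, cross_smul_right, smul_smul, Prod.smul_mk, mul_inv]
  rw [mul_comm (‖l‖ ^ 2)⁻¹]

theorem KerL_S_eq (v F l : V) : zS v F l = ‖l‖⁻¹ • KerL_S (F, v, nrm l) := by
  rw [zS, pr, Alg1_kS0, KerL_S, cross_sub_right, cross_smul_right, cross_smul_right,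
    ← Prod.mk_sub_mk, ← Prod.smul_mk, ← Prod.smul_mk, mul_inv, div_mul_eq_div_div,
    div_eq_mul_inv _ ‖l‖]
  module

theorem KerL_A_eq (v l : V) : lw v l = ‖l‖⁻¹ • KerL_A (v, nrm l) := by
  rw [lw, al_eq, mul_inv, KerL_A, smul_smul]

theorem KerL_cross {X : Type} [NormedAddCommGroup X] [NormedSpace ℝ X] {f g : X → V}
    (hf : ContDiff ℝ 1 f) (hg : ContDiff ℝ 1 g) : ContDiff ℝ 1 fun x => cross (f x) (g x) :=
  (contDiff_cross.of_le (by exact_mod_cast le_top)).comp (hf.prodMk hg)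

theorem KerL_q : ContDiff ℝ 1 q := contDiff_q.of_le (by exact_mod_cast le_top)

theorem KerL_vel : ContDiff ℝ 1 vel := contDiff_vel.of_le (by exact_mod_cast le_top)

theorem KerL_ang : ContDiff ℝ 1 fun x : V × V => ang (vel x.1) x.2 :=
  contDiff_const.sub ((KerL_vel.comp contDiff_fst).inner ℝ contDiff_snd)

theorem KerL_T_c1 : ContDiffOn ℝ 1 KerL_T {x | ‖x.2‖ ≤ 1} := by
  have h1 : ContDiff ℝ 1 fun x : V × V => x.2 - vel x.1 :=
    contDiff_snd.sub (KerL_vel.comp contDiff_fst)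
  exact ((((KerL_q.comp contDiff_fst).pow 2).mul (KerL_ang.pow 3)).contDiffOn.inv fun x hx =>
    (mul_pos (pow_pos (q_pos _) _) (pow_pos (ang_vel_pos _ hx) _)).ne').smul
    (h1.prodMk (KerL_cross contDiff_snd h1)).contDiffOn

theorem KerL_A_c1 : ContDiffOn ℝ 1 KerL_A {x | ‖x.2‖ ≤ 1} :=
  (KerL_ang.contDiffOn.inv fun _ hx => (ang_vel_pos _ hx).ne').smul
    (contDiff_const.prodMk (KerL_vel.comp contDiff_fst)).contDiffOn

theorem KerL_S_c1 : ContDiffOn ℝ 1 KerL_S {x | ‖x.2.2‖ ≤ 1} := by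
  have h0 : ContDiff ℝ 1 fun x : V × V × V => vel x.2.1 := KerL_vel.comp contDiff_snd.fst
  have h1 : ContDiff ℝ 1 fun x : V × V × V => x.2.2 - vel x.2.1 := contDiff_snd.snd.sub h0
  have h2 : ContDiff ℝ 1 fun x : V × V × V => acc x.2.1 x.1 :=
    ((KerL_q.comp contDiff_snd.fst).inv fun _ => (q_pos _).ne').smul
      (contDiff_fst.sub ((h0.inner ℝ contDiff_fst).smul h0))
  have h3 : ContDiff ℝ 1 fun x : V × V × V => ang (vel x.2.1) x.2.2 := KerL_ang.comp contDiff_snd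
  exact (((h2.inner ℝ contDiff_snd.snd).contDiffOn.div (h3.pow 3).contDiffOn fun x hx =>
    (pow_pos (ang_vel_pos _ hx) _).ne').smul
      (h1.prodMk (KerL_cross contDiff_snd.snd h1)).contDiffOn).sub
    (((h3.pow 2).contDiffOn.inv fun x hx => (pow_pos (ang_vel_pos _ hx) _).ne').smul
      (h2.prodMk (KerL_cross contDiff_snd.snd h2)).contDiffOn)

theorem KerL_lip {E : Type} [NormedAddCommGroup E] [NormedSpace ℝ E] (P : ℝ) (κ : V × V × V → E)
    (hκ : ContDiffOn ℝ 1 κ (univ ×ˢ {x | ‖x.2‖ ≤ 1})) : ∃ C : ℝ, 1 ≤ C ∧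
      ∀ (a a' : ℝ) (F v v' l l' : V), ‖F‖ ≤ 1 → q v ≤ P → q v' ≤ P →
        ‖a • κ (F, v, nrm l) - a' • κ (F, v', nrm l')‖ ≤
          C * (|a - a'| + |a| * ‖v - v'‖ + |a| * ‖nrm l - nrm l'‖) := by
  let D : Set (V × V × V) :=
    Metric.closedBall 0 1 ×ˢ Metric.closedBall 0 P ×ˢ Metric.closedBall 0 1
  have hD : IsCompact D :=
    (isCompact_closedBall _ _).prod ((isCompact_closedBall _ _).prod (isCompact_closedBall _ _))
  have h1 : ContDiffOn ℝ 1 κ D := hκ.mono fun x hx => ⟨trivial, mem_closedBall_zero_iff.1 hx.2.2⟩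
  obtain ⟨K, hK⟩ := h1.exists_lipschitzOnWith one_ne_zero ((convex_closedBall _ _).prod
    ((convex_closedBall _ _).prod (convex_closedBall _ _))) hD
  obtain ⟨B, hB⟩ := hD.exists_bound_of_continuousOn h1.continuousOn
  refine ⟨max 1 (max K B), le_max_left _ _, fun a a' F v v' l l' hF hv hv' => ?_⟩
  have m : ∀ v l : V, q v ≤ P → (F, v, nrm l) ∈ D := fun v l hv =>
    ⟨mem_closedBall_zero_iff.2 hF, mem_closedBall_zero_iff.2 ((norm_lt_q v).le.trans hv),
      mem_closedBall_zero_iff.2 (norm_nrm_le l)⟩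
  have e : a • κ (F, v, nrm l) - a' • κ (F, v', nrm l') =
      (a - a') • κ (F, v', nrm l') + a • (κ (F, v, nrm l) - κ (F, v', nrm l')) := by module
  have e1 := (hB _ (m v' l' hv')).trans ((le_max_right (K : ℝ) B).trans (le_max_right 1 _))
  have e2 := hK.norm_sub_le (m v l hv) (m v' l' hv')
  have e3 : ‖((F, v, nrm l) : V × V × V) - (F, v', nrm l')‖ ≤ ‖v - v'‖ + ‖nrm l - nrm l'‖ :=
    norm_prod_le_iff.2 ⟨by simp; positivity, norm_prod_le_iff.2
      ⟨le_add_of_nonneg_right (norm_nonneg _), le_add_of_nonneg_left (norm_nonneg _)⟩⟩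
  have e4 := e2.trans (mul_le_mul ((le_max_left (K : ℝ) B).trans (le_max_right 1 _)) e3 (norm_nonneg _)
    (by positivity))
  rw [e]
  refine (norm_add_le _ _).trans ?_
  rw [norm_smul, norm_smul, Real.norm_eq_abs, Real.norm_eq_abs]
  have e5 := mul_le_mul_of_nonneg_left e1 (abs_nonneg (a - a'))
  have e6 := mul_le_mul_of_nonneg_left e4 (abs_nonneg a)
  linarith

theorem KerL_max {r : ℝ} (hr : 0 < r) (R : ℝ) (n : ℕ) :
    (1 - phi (R / r)) / R ^ n = (1 - phi (max r R / r)) / max r R ^ n := by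
  rcases le_total r R with h | h
  · rw [max_eq_right h]
  · rw [max_eq_left h, div_self hr.ne', phi_eq_one le_rfl, phi_eq_one ((div_le_one hr).2 h)]
    simp

theorem KerL_max_lip (r : ℝ) (l l' : V) : |max r ‖l‖ - max r ‖l'‖| ≤ ‖l - l'‖ := by
  rw [max_comm, max_comm r]
  exact (abs_max_sub_max_le_abs _ _ _).trans (abs_norm_sub_norm_le _ _)

theorem KerL_dir {r a b : ℝ} (hr : 0 < r) (l l' : V) (hb : |a| ≤ b) (h : max r ‖l‖ = r → a = 0) :
    |a| * ‖nrm l - nrm l'‖ ≤ b * (2 * ‖l - l'‖ / max r ‖l‖) := by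
  have b0 := (abs_nonneg a).trans hb
  rcases le_total r ‖l‖ with h1 | h1
  · rw [max_eq_right h1]
    exact mul_le_mul hb (KerL_nrm (norm_pos_iff.1 (hr.trans_le h1)) l') (norm_nonneg _) b0
  · rw [h (max_eq_left h1), abs_zero, zero_mul]
    positivity

theorem KerL_c2 : ∃ A : ℝ, 1 ≤ A ∧ ∀ r M M' : ℝ, 0 < r → r ≤ M → r ≤ M' →
    |(1 - phi (M / r)) / M ^ 2 - (1 - phi (M' / r)) / M' ^ 2| ≤
      A * |M - M'| * (1 / M ^ 3 + 1 / M' ^ 3) := by
  obtain ⟨C, hC, -, -, hL⟩ := deriv_phi_bdd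
  have k : ∀ r M M' : ℝ, 0 < r → r ≤ M → M ≤ M' →
      |(1 - phi (M / r)) / M ^ 2 - (1 - phi (M' / r)) / M' ^ 2| ≤
        (2 * C + 2) * |M - M'| * (1 / M ^ 3) := fun r M M' hr h1 h2 => by
    have M0 := hr.trans_le h1
    have M0' := M0.trans_le h2
    have d0 := sub_nonneg.2 h2
    rw [abs_sub_comm M, abs_of_nonneg d0]
    have e1 : |phi (M' / r) - phi (M / r)| ≤ 2 * C * (M' - M) / M := by
      rcases le_total M (2 * r) with h | h
      · refine (hL _ _).trans ?_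
        rw [← sub_div, abs_of_nonneg (by positivity), ← mul_div_assoc, div_le_div_iff₀ hr M0]
        have := mul_le_mul_of_nonneg_left h (show 0 ≤ C * (M' - M) by positivity)
        linarith
      · rw [phi_eq_zero ((le_div_iff₀ hr).2 h), phi_eq_zero ((le_div_iff₀ hr).2 (h.trans h2)),
          sub_self, abs_zero]
        positivity
    have e2 : 1 / M ^ 2 - 1 / M' ^ 2 ≤ 2 * (M' - M) / M ^ 3 := by
      rw [div_sub_div _ _ (by positivity) (by positivity), div_le_div_iff₀ (by positivity)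
        (by positivity)]
      have : (M' + M) * M ≤ 2 * M' ^ 2 := by nlinarith
      have := mul_le_mul_of_nonneg_left this (show 0 ≤ (M' - M) * M ^ 2 by positivity)
      linarith
    have e3 : 0 ≤ 1 / M ^ 2 - 1 / M' ^ 2 := sub_nonneg.2 (by gcongr)
    have e : (1 - phi (M / r)) / M ^ 2 - (1 - phi (M' / r)) / M' ^ 2 =
        (phi (M' / r) - phi (M / r)) / M ^ 2 + (1 - phi (M' / r)) * (1 / M ^ 2 - 1 / M' ^ 2) := by
      ring
    rw [e]
    refine (abs_add_le _ _).trans ?_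
    rw [abs_div, abs_of_pos (pow_pos M0 2), abs_of_nonneg (mul_nonneg (chiA_sub_nonneg _) e3)]
    refine (add_le_add (div_le_div_of_nonneg_right e1 (by positivity))
      ((mul_le_of_le_one_left e3 (chiA_sub_le_one _)).trans e2)).trans_eq ?_
    field_simp
  refine ⟨2 * C + 2, by linarith, fun r M M' hr h1 h2 => ?_⟩
  have M0 := hr.trans_le h1
  have M0' := hr.trans_le h2
  rcases le_total M M' with h | h
  · exact (k r M M' hr h1 h).trans (mul_le_mul_of_nonneg_left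
      (le_add_of_nonneg_right (by positivity)) (by positivity))
  · rw [abs_sub_comm, abs_sub_comm M]
    exact (k r M' M hr h2 h).trans (mul_le_mul_of_nonneg_left
      (le_add_of_nonneg_left (by positivity)) (by positivity))

theorem zT_cut_lip (P : ℝ) : ∃ C : ℝ, 1 ≤ C ∧ ∀ (r : ℝ) (v v' l l' : V), 0 < r → q v ≤ P →
    q v' ≤ P → ‖(1 - phi (‖l‖ / r)) • zT v l - (1 - phi (‖l'‖ / r)) • zT v' l'‖ ≤
      C * (‖l - l'‖ + ‖v - v'‖) * (gr r ‖l‖ + gr r ‖l'‖) := by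
  obtain ⟨C, hC, hκ⟩ := KerL_lip P (fun x => KerL_T x.2) (KerL_T_c1.comp contDiffOn_snd
    fun x hx => hx.2)
  obtain ⟨A, hA, hc⟩ := KerL_c2
  refine ⟨C * (A + 3), by nlinarith, fun r v v' l l' hr hv hv' => ?_⟩
  have e : ∀ v l : V, (1 - phi (‖l‖ / r)) • zT v l =
      ((1 - phi (max r ‖l‖ / r)) / max r ‖l‖ ^ 2) • KerL_T (v, nrm l) := fun v l => by
    rw [KerL_T_eq, smul_smul, ← div_eq_mul_inv, KerL_max hr]
  rw [e, e]
  refine (hκ _ _ 0 v v' l l' (by simp) hv hv').trans ?_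
  set M := max r ‖l‖ with hM
  set M' := max r ‖l'‖
  have M0 : 0 < M := hr.trans_le (le_max_left _ _)
  have M0' : 0 < M' := hr.trans_le (le_max_left _ _)
  have e1 := (hc r M M' hr (le_max_left _ _) (le_max_left _ _)).trans (mul_le_mul_of_nonneg_right
    (mul_le_mul_of_nonneg_left (KerL_max_lip r l l') (by positivity)) (by positivity))
  have e2 : |(1 - phi (M / r)) / M ^ 2| ≤ 1 / M ^ 2 := by
    rw [abs_of_nonneg (div_nonneg (chiA_sub_nonneg _) (by positivity))]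
    exact div_le_div_of_nonneg_right (chiA_sub_le_one _) (by positivity)
  have e3 := KerL_dir hr l l' (le_of_eq (rfl : |(1 - phi (M / r)) / M ^ 2| = _)) (fun h => by
    rw [hM, h, div_self hr.ne', phi_eq_one le_rfl, sub_self, zero_div])
  have e4 : |(1 - phi (M / r)) / M ^ 2| * (2 * ‖l - l'‖ / M) ≤ 2 * ‖l - l'‖ * (1 / M ^ 3) :=
    (mul_le_mul_of_nonneg_right e2 (by positivity)).trans_eq (by field_simp)
  have e5 := mul_le_mul_of_nonneg_right e2 (norm_nonneg (v - v'))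
  rw [mul_assoc, mul_assoc]
  refine mul_le_mul_of_nonneg_left ?_ (by positivity)
  simp only [gr, ← hM]
  change _ ≤ (A + 3) * (_ * (_ + (1 / M' ^ 3 + 1 / M' ^ 2)))
  have p1 : 0 ≤ 1 / M ^ 3 := by positivity
  have p2 : 0 ≤ 1 / M ^ 2 := by positivity
  have p3 : 0 ≤ 1 / M' ^ 3 := by positivity
  have p4 : 0 ≤ 1 / M' ^ 2 := by positivity
  generalize 1 / M ^ 3 = a at *
  generalize 1 / M ^ 2 = b at *
  generalize 1 / M' ^ 3 = a' at *
  generalize 1 / M' ^ 2 = b' at *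
  have q1 := norm_nonneg (l - l')
  have q2 := norm_nonneg (v - v')
  generalize ‖l - l'‖ = x at *
  generalize ‖v - v'‖ = y at *
  have A0 : 0 ≤ A := by linarith
  have : 0 ≤ A * (x * (b + b') + y * (a + b + (a' + b'))) := by positivity
  have : 0 ≤ x * a + 3 * x * (b + a' + b') + y * (3 * a + 2 * b + 3 * a' + 3 * b') := by positivity
  nlinarith

theorem zS_lip (P : ℝ) : ∃ C : ℝ, 1 ≤ C ∧ ∀ (v v' F l l' : V), q v ≤ P → q v' ≤ P → l ≠ 0 →
    l' ≠ 0 → ‖zS v F l - zS v' F l'‖ ≤ C * ‖F‖ * (‖l - l'‖ + ‖v - v'‖) *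
      ((1 / ‖l‖ ^ 2 + 1 / ‖l‖) + (1 / ‖l'‖ ^ 2 + 1 / ‖l'‖)) := by
  obtain ⟨C, hC, hκ⟩ := KerL_lip P KerL_S (KerL_S_c1.mono fun x hx => hx.2)
  refine ⟨C * 3, by linarith, fun v v' F l l' hv hv' hl hl' => ?_⟩
  have e : ∀ v l : V, zS v F l = ‖F‖ • ‖l‖⁻¹ • KerL_S (nrm F, v, nrm l) := fun v l => by
    rw [← KerL_S_eq, ← KerL_smul, norm_smul_nrm]
  rw [e, e, ← smul_sub, norm_smul, norm_norm]
  have R0 : 0 < ‖l‖ := norm_pos_iff.2 hl
  have R0' : 0 < ‖l'‖ := norm_pos_iff.2 hl'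
  have e1 : |‖l‖⁻¹ - ‖l'‖⁻¹| ≤ ‖l - l'‖ * (1 / ‖l‖ ^ 2 + 1 / ‖l'‖ ^ 2) := by
    have e : ‖l‖⁻¹ - ‖l'‖⁻¹ = (‖l'‖ - ‖l‖) * (‖l‖⁻¹ * ‖l'‖⁻¹) := by field_simp
    rw [e, abs_mul, abs_sub_comm, abs_of_nonneg (by positivity : 0 ≤ ‖l‖⁻¹ * ‖l'‖⁻¹), one_div,
      one_div, ← inv_pow, ← inv_pow]
    refine mul_le_mul (abs_norm_sub_norm_le _ _) ?_ (by positivity) (norm_nonneg _)
    nlinarith [sq_nonneg (‖l‖⁻¹ - ‖l'‖⁻¹), sq_nonneg ‖l‖⁻¹, sq_nonneg ‖l'‖⁻¹]
  have e2 : |‖l‖⁻¹| * ‖nrm l - nrm l'‖ ≤ 2 * ‖l - l'‖ * (1 / ‖l‖ ^ 2) := by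
    rw [abs_of_nonneg (by positivity)]
    exact (mul_le_mul_of_nonneg_left (KerL_nrm hl l') (by positivity)).trans_eq (by field_simp)
  have e3 : |‖l‖⁻¹| = 1 / ‖l‖ := by rw [abs_of_nonneg (by positivity), one_div]
  refine (mul_le_mul_of_nonneg_left (hκ _ _ _ v v' l l' (norm_nrm_le F) hv hv')
    (norm_nonneg _)).trans ?_
  rw [← mul_assoc, mul_comm ‖F‖, mul_right_comm C 3, mul_assoc _ 3, mul_assoc _ (3 * _)]
  refine mul_le_mul_of_nonneg_left ?_ (by positivity)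
  rw [e3] at e2 ⊢
  have p1 : 0 ≤ 1 / ‖l‖ ^ 2 := by positivity
  have p2 : 0 ≤ 1 / ‖l‖ := by positivity
  have p3 : 0 ≤ 1 / ‖l'‖ ^ 2 := by positivity
  have p4 : 0 ≤ 1 / ‖l'‖ := by positivity
  generalize 1 / ‖l‖ ^ 2 = a at *
  generalize 1 / ‖l‖ = b at *
  generalize 1 / ‖l'‖ ^ 2 = a' at *
  generalize 1 / ‖l'‖ = b' at *
  have q1 := norm_nonneg (l - l')
  have q2 := norm_nonneg (v - v')
  generalize ‖l - l'‖ = x at *
  generalize ‖v - v'‖ = y at *
  have : 0 ≤ x * (3 * b + 2 * a' + 3 * b') + y * (3 * a + 2 * b + 3 * a' + 3 * b') := by positivity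
  nlinarith

theorem lw_cut_lip (P r : ℝ) (hr : 0 < r) : ∃ C : ℝ, 1 ≤ C ∧ ∀ (v v' l l' : V), q v ≤ P →
    q v' ≤ P → ‖(1 - phi (‖l‖ / r)) • lw v l - (1 - phi (‖l'‖ / r)) • lw v' l'‖ ≤
      C * (‖l - l'‖ + ‖v - v'‖) := by
  obtain ⟨C, hC, hκ⟩ := KerL_lip P (fun x => KerL_A x.2) (KerL_A_c1.comp contDiffOn_snd
    fun x hx => hx.2)
  obtain ⟨A, hA, -, -, hL⟩ := deriv_phi_bdd
  have r1 : 0 < r⁻¹ := inv_pos.2 hr
  refine ⟨C * (1 + r⁻¹ + (A + 3) * r⁻¹ ^ 2), one_le_mul_of_one_le_of_one_le hC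
    (by rw [add_assoc]; exact le_add_of_nonneg_right (by positivity)),
    fun v v' l l' hv hv' => ?_⟩
  have e : ∀ v l : V, (1 - phi (‖l‖ / r)) • lw v l =
      ((1 - phi (max r ‖l‖ / r)) * (max r ‖l‖)⁻¹) • KerL_A (v, nrm l) := fun v l => by
    have := KerL_max hr ‖l‖ 1
    simp only [pow_one] at this
    rw [KerL_A_eq, smul_smul, ← div_eq_mul_inv, this, div_eq_mul_inv]
  rw [e, e]
  refine (hκ _ _ 0 v v' l l' (by simp) hv hv').trans ?_
  have e0 := KerL_max_lip r l l'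
  set M := max r ‖l‖ with hM
  set M' := max r ‖l'‖
  have M0 : 0 < M := hr.trans_le (le_max_left _ _)
  have M0' : 0 < M' := hr.trans_le (le_max_left _ _)
  have i1 : M⁻¹ ≤ r⁻¹ := inv_anti₀ hr (le_max_left _ _)
  have i2 : M'⁻¹ ≤ r⁻¹ := inv_anti₀ hr (le_max_left _ _)
  have q1 := norm_nonneg (l - l')
  have q2 := norm_nonneg (v - v')
  have e2 : |(1 - phi (M / r)) * M⁻¹| ≤ r⁻¹ := by
    rw [abs_of_nonneg (mul_nonneg (chiA_sub_nonneg _) (by positivity))]
    exact (mul_le_of_le_one_left (by positivity) (chiA_sub_le_one _)).trans i1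
  have e3 := KerL_dir hr l l' e2 (fun h => by
    rw [hM, h, div_self hr.ne', phi_eq_one le_rfl, sub_self, zero_mul])
  have e4 : r⁻¹ * (2 * ‖l - l'‖ / M) ≤ 2 * ‖l - l'‖ * r⁻¹ ^ 2 := by
    rw [div_eq_mul_inv]
    exact (mul_le_mul_of_nonneg_left (mul_le_mul_of_nonneg_left i1 (by positivity))
      r1.le).trans_eq (by ring)
  have e5 := mul_le_mul_of_nonneg_right e2 q2
  have e6 : |(1 - phi (M / r)) * M⁻¹ - (1 - phi (M' / r)) * M'⁻¹| ≤
      (A + 1) * ‖l - l'‖ * r⁻¹ ^ 2 := by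
    have e : (1 - phi (M / r)) * M⁻¹ - (1 - phi (M' / r)) * M'⁻¹ =
        (phi (M' / r) - phi (M / r)) * M⁻¹ + (1 - phi (M' / r)) * ((M' - M) * (M⁻¹ * M'⁻¹)) := by
      field_simp
      ring
    have a1 : |phi (M' / r) - phi (M / r)| ≤ A * (‖l - l'‖ * r⁻¹) := by
      refine (hL _ _).trans (mul_le_mul_of_nonneg_left ?_ (by positivity))
      rw [← sub_div, abs_div, abs_of_pos hr, abs_sub_comm, div_eq_mul_inv]
      exact mul_le_mul_of_nonneg_right e0 r1.le
    rw [e]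
    refine (abs_add_le _ _).trans ?_
    rw [abs_mul, abs_mul, abs_mul, abs_of_pos (inv_pos.2 M0), abs_of_nonneg (chiA_sub_nonneg _),
      abs_sub_comm M', abs_of_nonneg (by positivity : 0 ≤ M⁻¹ * M'⁻¹)]
    refine (add_le_add (mul_le_mul a1 i1 (by positivity) (by positivity))
      ((mul_le_of_le_one_left (by positivity) (chiA_sub_le_one _)).trans
        (mul_le_mul e0 (mul_le_mul i1 i2 (by positivity) r1.le) (by positivity) q1))).trans_eq ?_
    ring
  rw [mul_assoc]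
  refine mul_le_mul_of_nonneg_left ?_ (by positivity)
  have : 0 ≤ ‖l - l'‖ * (1 + r⁻¹) + ‖v - v'‖ * (1 + (A + 3) * r⁻¹ ^ 2) := by positivity
  nlinarith

theorem lint_gr {r : ℝ} (hr : 0 < r) (hr1 : r ≤ 1) :
    ∫⁻ R in Ioc (0 : ℝ) 1, ENNReal.ofReal (R ^ 2) * ENNReal.ofReal (gr r R) ≤
      ENNReal.ofReal (3 + Real.log (1 / r)) := by
  have p : ∀ R, 0 < R → ENNReal.ofReal (R ^ 2) * ENNReal.ofReal (gr r R) ≤
      ENNReal.ofReal (1 / max r R + 1) := fun R hR => by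
    rw [← ENNReal.ofReal_mul (sq_nonneg _)]
    refine ENNReal.ofReal_le_ofReal ?_
    have M0 : 0 < max r R := hr.trans_le (le_max_left _ _)
    refine (mul_le_mul_of_nonneg_right (pow_le_pow_left₀ hR.le (le_max_right r R) 2)
      (by unfold gr; positivity)).trans_eq ?_
    unfold gr
    field_simp
  have e1 : ∫⁻ R in Ioc (0 : ℝ) r, ENNReal.ofReal (R ^ 2) * ENNReal.ofReal (gr r R) ≤
      ENNReal.ofReal 2 := by
    refine (setLIntegral_mono' measurableSet_Ioc (g := fun _ => ENNReal.ofReal (1 / r + 1))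
      fun R hR => (p R hR.1).trans_eq (by rw [max_eq_left hR.2])).trans ?_
    rw [setLIntegral_const, Real.volume_Ioc, ← ENNReal.ofReal_mul (by positivity), sub_zero,
      add_mul, one_div, inv_mul_cancel₀ hr.ne']
    exact ENNReal.ofReal_le_ofReal (by linarith)
  have e2 : ∫⁻ R in Ioc r 1, ENNReal.ofReal (R ^ 2) * ENNReal.ofReal (gr r R) ≤
      ENNReal.ofReal (1 + Real.log (1 / r)) := by
    refine (setLIntegral_mono' measurableSet_Ioc (g := fun R => ENNReal.ofReal (1 / R + 1))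
      fun R hR => (p R (hr.trans hR.1)).trans_eq (by rw [max_eq_right hR.1.le])).trans ?_
    have n : (0 : ℝ) ∉ uIcc r 1 := by
      rw [uIcc_of_le hr1]
      exact fun h => h.1.not_gt hr
    have i1 : IntervalIntegrable (fun R : ℝ => 1 / R) volume r 1 :=
      intervalIntegral.intervalIntegrable_one_div (fun x hx h => n (h ▸ hx)) continuousOn_id
    have i2 := i1.add (intervalIntegrable_const (c := (1 : ℝ)))
    rw [← ofReal_integral_eq_lintegral_ofReal i2.1 ((ae_restrict_mem measurableSet_Ioc).mono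
      fun R hR => by have := hr.trans hR.1; positivity), ← intervalIntegral.integral_of_le hr1,
      intervalIntegral.integral_add i1 intervalIntegrable_const, integral_one_div n]
    refine ENNReal.ofReal_le_ofReal ?_
    simp only [intervalIntegral.integral_const, smul_eq_mul, mul_one]
    linarith
  have l0 : 0 ≤ Real.log (1 / r) := Real.log_nonneg (one_le_one_div hr hr1)
  rw [← Ioc_union_Ioc_eq_Ioc hr.le hr1]
  refine (lintegral_union_le _ _ _).trans ((add_le_add e1 e2).trans_eq ?_)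
  rw [← ENNReal.ofReal_add (by norm_num) (by positivity)]
  congr 1
  ring

/-- The singular integral over the past of a freely moving bounded cloud. -/
theorem free_int (R0 P0 : ℝ) : ∃ C : ℝ, 1 ≤ C ∧ ∀ x v : V, q v ≤ P0 →
    ∫⁻ y in {y : V | ‖x - y + ‖y‖ • vel v‖ ≤ R0}, ENNReal.ofReal (1 / ‖y‖ ^ 2) ≤
      ENNReal.ofReal C := by
  obtain ⟨C, hC, hI⟩ := lint_inv_sq
  refine ⟨C * 1 + 8 * |4 * R0 * P0 ^ 2| ^ 3,
    by rw [mul_one]; exact le_add_of_le_of_nonneg hC (by positivity), fun x v hv => ?_⟩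
  rcases {y : V | ‖x - y + ‖y‖ • vel v‖ ≤ R0}.eq_empty_or_nonempty with h | ⟨y0, h0⟩
  · simp [h]
  have P0' := (q_pos v).trans_le hv
  have hs : {y : V | ‖x - y + ‖y‖ • vel v‖ ≤ R0} ⊆ Metric.closedBall 0 1 ∪
      (Metric.closedBall y0 |4 * R0 * P0 ^ 2| \ Metric.closedBall 0 1) := fun y hy => by
    by_cases h1 : y ∈ Metric.closedBall (0 : V) 1
    · exact .inl h1
    refine .inr ⟨mem_closedBall_iff_norm.2 (le_trans ?_ (le_abs_self _)), h1⟩
    have e : y - y0 = (x - y0 + ‖y0‖ • vel v) - (x - y + ‖y‖ • vel v) + (‖y‖ - ‖y0‖) • vel v := by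
      module
    have e1 := (congrArg norm e).trans_le ((norm_add_le _ _).trans
      (add_le_add ((norm_sub_le _ _).trans (add_le_add h0 hy)) (norm_smul _ _).le))
    have e2 := mul_le_mul (abs_norm_sub_norm_le y y0) (norm_vel_le hv) (norm_nonneg _)
      (norm_nonneg _)
    rw [Real.norm_eq_abs] at e1
    have e3 : (2 * P0 ^ 2)⁻¹ * ‖y - y0‖ ≤ 2 * R0 := by linarith
    rw [inv_mul_le_iff₀ (by positivity)] at e3
    linarith
  refine (lintegral_mono_set hs).trans ((lintegral_union_le _ _ _).trans ?_)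
  rw [ENNReal.ofReal_add (by positivity) (by positivity)]
  refine add_le_add (by simpa using hI 0 1 zero_le_one) ?_
  refine (setLIntegral_mono' (measurableSet_closedBall.diff measurableSet_closedBall)
    (g := fun _ => 1) fun y hy => ?_).trans ?_
  · have : 1 < ‖y‖ := not_le.1 fun h => hy.2 (mem_closedBall_zero_iff.2 h)
    exact ENNReal.ofReal_le_one.2 (div_le_one_of_le₀ (one_le_pow₀ this.le) (sq_nonneg _))
  · rw [setLIntegral_one]
    exact (measure_mono sdiff_subset).trans (vol_ball_le _ (abs_nonneg _))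

end

end Vale.Agent.P107
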