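import Vale.Agent.P107.Ret

/-! The kinematic bound for one source. -/

namespace Vale.Agent.P107

open MeasureTheory Set Filter Topology
open scoped ENNReal RealInnerProductSpace

noncomputable section

namespace Kin1Aux

theorem vol_le_of_dist {S : Set ℝ} {L : ℝ} (h : ∀ x ∈ S, ∀ y ∈ S, x ≤ y → y - x ≤ L) :
    volume S ≤ ENNReal.ofReal L := by
  refine (Real.volume_le_diam S).trans (Metric.ediam_le fun x hx y hy => ?_)
  rw [edist_dist, Real.dist_eq]
  refine ENNReal.ofReal_le_ofReal ?_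
  rcases le_total x y with hxy | hxy
  · rw [abs_sub_comm, abs_of_nonneg (sub_nonneg.2 hxy)]
    exact h x hx y hy hxy
  · rw [abs_of_nonneg (sub_nonneg.2 hxy)]
    exact h y hy x hx hxy

theorem incr {Y W : ℝ → V} (h : Tm Y W) (e : V) {k s s' : ℝ} (hs : s ≤ s')
    (hk : ∀ t ∈ Icc s s', k ≤ ⟪e, vel (W t)⟫) :
    k * (s' - s) ≤ ⟪e, Y s'⟫ - ⟪e, Y s⟫ := by
  have hd : ∀ t, HasDerivAt (fun t => ⟪e, Y t⟫) ⟪e, vel (W t)⟫ t := by
    intro t
    have := (hasDerivAt_const t e).inner ℝ (h.hY t)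
    simpa using this
  refine (convex_Icc s s').mul_sub_le_image_sub_of_le_deriv (f := fun t => ⟪e, Y t⟫)
    (fun t _ => (hd t).continuousAt.continuousWithinAt)
    (fun t _ => (hd t).differentiableAt.differentiableWithinAt) (fun t ht => ?_)
    s ⟨le_rfl, hs⟩ s' ⟨hs, le_rfl⟩ hs
  rw [(hd t).deriv]
  exact hk t (interior_subset ht)

theorem inner_ge {U0 W0 U : V} {c : ℝ} (hc : 0 < c) (h1 : c ≤ ang (vel U0) (vel W0))
    (h2 : ang (vel U0) (vel W0) ≤ 2 * c) (hcl : Close (√c / 100) U U0) :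
    c / 2 ≤ ⟪vel U0 - vel W0, vel U⟫ := by
  have hsq : √c ^ 2 = c := Real.sq_sqrt hc.le
  have hs0 : 0 < √c := Real.sqrt_pos.2 hc
  have he2 : ‖vel U0 - vel W0‖ ^ 2 ≤ (2 * √c) ^ 2 := by
    have := sub_sq_le_ang (norm_vel_lt U0).le (norm_vel_lt W0).le
    nlinarith
  have he : ‖vel U0 - vel W0‖ ≤ 2 * √c :=
    (pow_le_pow_iff_left₀ (norm_nonneg _) (by positivity) two_ne_zero).1 he2
  have e1 : ⟪vel U0 - vel W0, vel U⟫ =
      ⟪vel U0 - vel W0, vel U0⟫ + ⟪vel U0 - vel W0, vel U - vel U0⟫ := by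
    rw [inner_sub_right]; ring
  have e2 : ⟪vel U0 - vel W0, vel U0⟫ = ang (vel U0) (vel W0) - ((q U0)⁻¹) ^ 2 := by
    rw [inner_sub_left, real_inner_self_eq_norm_sq, norm_vel_sq, real_inner_comm]
    unfold ang
    ring
  have h3 : |⟪vel U0 - vel W0, vel U - vel U0⟫| ≤ 2 * √c * (√c / 100) :=
    (abs_real_inner_le_norm _ _).trans
      (mul_le_mul he hcl.d (norm_nonneg _) (by positivity))
  have h4 : ((q U0)⁻¹) ^ 2 ≤ (√c / 100) ^ 2 :=
    pow_le_pow_left₀ (inv_nonneg.2 (q_pos U0).le) hcl.q2 2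
  have h5 := (abs_le.1 h3).1
  rw [e1, e2]
  nlinarith

theorem ang_le {U U0 n : V} {a d c : ℝ} (hn : ‖n‖ ≤ 1) (hc : 0 < c) (ha : 0 < a) (hcd : c ≤ 4 * d)
    (had : a ≤ d) (h1 : ang (vel U0) n ≤ 2 * a) (hcl : Close (√c / 100) U U0) :
    ang (vel U) n ≤ 4 * d := by
  have hsq : √c ^ 2 = c := Real.sq_sqrt hc.le
  have hs0 : 0 < √c := Real.sqrt_pos.2 hc
  have h2 := (abs_le.1 (hcl.ang_pert hn)).2
  have h0 : 0 ≤ 2 * ang (vel U0) n := by
    have := ang_nonneg (norm_vel_lt U0).le hn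
    linarith
  have h3 : √(2 * ang (vel U0) n) ^ 2 = 2 * ang (vel U0) n := Real.sq_sqrt h0
  have h4 : √(2 * ang (vel U0) n) * (√c / 100) ≤ a + (√c / 100) ^ 2 := by
    nlinarith [sq_nonneg (√(2 * ang (vel U0) n) / 2 - √c / 100)]
  nlinarith

theorem zeta_eq (u w l : V) : ⟪u - w, l⟫ = ‖l‖ * (ang w (nrm l) - ang u (nrm l)) := by
  have h : ⟪u - w, l⟫ = ⟪u - w, ‖l‖ • nrm l⟫ := by rw [norm_smul_nrm]
  rw [h, real_inner_smul_right, inner_sub_left]
  unfold ang
  ring

theorem zeta_le {U0 W0 U W l : V} {a b c R : ℝ} (ha : 0 < a) (hb : 0 < b) (hc : 0 < c)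
    (hR : 0 < R) (hl1 : R ≤ ‖l‖) (hl2 : ‖l‖ ≤ 2 * R) (h1 : ang (vel U) (nrm l) ≤ 2 * a)
    (h2 : ang (vel W) (nrm l) ≤ 2 * b) (h3 : c ≤ ang (vel U) (vel W))
    (c1 : Close (√c / 100) U0 U) (c2 : Close (√c / 100) W0 W) :
    |⟪vel U0 - vel W0, l⟫| ≤ 8 * R * (a + b) := by
  have hl0 : l ≠ 0 := by
    intro h
    rw [h, norm_zero] at hl1
    linarith
  have hn := norm_nrm hl0
  have hcd : c ≤ 4 * (a + b) := by
    have := tri_c U W hn
    linarith
  have k1 := ang_le hn.le hc ha hcd (by linarith) h1 c1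
  have k2 := ang_le hn.le hc hb hcd (by linarith) h2 c2
  have k3 := ang_nonneg (norm_vel_lt U0).le hn.le
  have k4 := ang_nonneg (norm_vel_lt W0).le hn.le
  rw [zeta_eq, abs_mul, abs_of_nonneg (norm_nonneg _)]
  have k5 : |ang (vel W0) (nrm l) - ang (vel U0) (nrm l)| ≤ 4 * (a + b) :=
    abs_le.2 ⟨by linarith, by linarith⟩
  calc ‖l‖ * |ang (vel W0) (nrm l) - ang (vel U0) (nrm l)| ≤ 2 * R * (4 * (a + b)) :=
        mul_le_mul hl2 k5 (abs_nonneg _) (by positivity)
    _ = 8 * R * (a + b) := by ring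

theorem measurable_ang {f g : ℝ → V} (hf : Measurable f) (hg : Measurable g) :
    Measurable fun s => ang (f s) (g s) := by
  unfold ang
  exact measurable_const.sub (hf.inner hg)

end Kin1Aux

open Kin1Aux in
/-- Time spent in a box while both velocities are almost constant. -/
theorem kin_frozen : ∃ C : ℝ, 1 ≤ C ∧ ∀ (X U Y W : ℝ → V), Tm X U → Tm Y W →
    ∀ (a b c R r r' : ℝ), 0 < a → 0 < b → 0 < c → 0 < R →
    (∀ s ∈ Icc r r', ∀ s' ∈ Icc r r', Close (√c / 100) (U s) (U s') ∧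
      Close (√c / 100) (W (ret Y s (X s))) (W (ret Y s' (X s')))) →
    volume {s | s ∈ Icc r r' ∧
      (R ≤ ‖X s - Y (ret Y s (X s))‖ ∧ ‖X s - Y (ret Y s (X s))‖ ≤ 2 * R) ∧
      (a ≤ ang (vel (U s)) (nrm (X s - Y (ret Y s (X s)))) ∧
        ang (vel (U s)) (nrm (X s - Y (ret Y s (X s)))) ≤ 2 * a) ∧
      (b ≤ ang (vel (W (ret Y s (X s)))) (nrm (X s - Y (ret Y s (X s)))) ∧
        ang (vel (W (ret Y s (X s)))) (nrm (X s - Y (ret Y s (X s)))) ≤ 2 * b) ∧
      (c ≤ ang (vel (U s)) (vel (W (ret Y s (X s)))) ∧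
        ang (vel (U s)) (vel (W (ret Y s (X s)))) ≤ 2 * c)} ≤
      ENNReal.ofReal (C * (b * R / c)) := by
  refine ⟨128, by norm_num, ?_⟩
  intro X U Y W hX hY a b c R r r' ha hb hc hR hcl
  set σ : ℝ → ℝ := fun s => ret Y s (X s) with hσ
  have hσm : StrictMono σ := hY.smono_along hX
  have hσc : Continuous σ := hY.continuous_along hX
  have hXc : Continuous X := continuous_iff_continuousAt.2 fun s => (hX.hY s).continuousAt
  have hYc : Continuous Y := continuous_iff_continuousAt.2 fun s => (hY.hY s).continuousAt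
  set A : Set ℝ := {s | s ∈ Icc r r' ∧
      (R ≤ ‖X s - Y (σ s)‖ ∧ ‖X s - Y (σ s)‖ ≤ 2 * R) ∧
      (a ≤ ang (vel (U s)) (nrm (X s - Y (σ s))) ∧
        ang (vel (U s)) (nrm (X s - Y (σ s))) ≤ 2 * a) ∧
      (b ≤ ang (vel (W (σ s))) (nrm (X s - Y (σ s))) ∧
        ang (vel (W (σ s))) (nrm (X s - Y (σ s))) ≤ 2 * b) ∧
      (c ≤ ang (vel (U s)) (vel (W (σ s))) ∧
        ang (vel (U s)) (vel (W (σ s))) ≤ 2 * c)} with hA
  change volume A ≤ _
  have ml : Measurable fun s => X s - Y (σ s) := (hXc.sub (hYc.comp hσc)).measurable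
  have mn : Measurable fun s => nrm (X s - Y (σ s)) := measurable_nrm.comp ml
  have mu : Measurable fun s => vel (U s) := (contDiff_vel.continuous.comp hX.cW).measurable
  have mw : Measurable fun s => vel (W (σ s)) :=
    (contDiff_vel.continuous.comp (hY.cW.comp hσc)).measurable
  have mA : MeasurableSet A := by
    refine MeasurableSet.inter measurableSet_Icc (MeasurableSet.inter (MeasurableSet.inter
      (measurableSet_le measurable_const ml.norm) (measurableSet_le ml.norm measurable_const))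
      (MeasurableSet.inter (MeasurableSet.inter
        (measurableSet_le measurable_const (measurable_ang mu mn))
        (measurableSet_le (measurable_ang mu mn) measurable_const))
      (MeasurableSet.inter (MeasurableSet.inter
        (measurableSet_le measurable_const (measurable_ang mw mn))
        (measurableSet_le (measurable_ang mw mn) measurable_const))
      (MeasurableSet.inter
        (measurableSet_le measurable_const (measurable_ang mu mw))
        (measurableSet_le (measurable_ang mu mw) measurable_const)))))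
  set L : ℝ := 32 * R * (a + b) / c with hL
  have key : ∀ s ∈ A, ∀ s' ∈ A, s ≤ s' → (s' - s) + (σ s' - σ s) ≤ L := by
    intro s hs s' hs' hss
    obtain ⟨hsI, ⟨l1, l2⟩, ⟨-, a2⟩, ⟨-, b2⟩, c1, c2⟩ := hs
    obtain ⟨hsI', ⟨l1', l2'⟩, ⟨-, a2'⟩, ⟨-, b2'⟩, c1', -⟩ := hs'
    have hsub : Icc s s' ⊆ Icc r r' := Icc_subset_Icc hsI.1 hsI'.2
    have i1 := incr hX (vel (U s) - vel (W (σ s))) (k := c / 2) hss fun t ht =>
      inner_ge hc c1 c2 (hcl t (hsub ht) s hsI).1
    have i2 := incr hY (vel (W (σ s)) - vel (U s)) (k := c / 2) (hσm.monotone hss) fun t ht => by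
      obtain ⟨t', ht', rfl⟩ := intermediate_value_Icc hss hσc.continuousOn ht
      refine inner_ge hc ?_ ?_ (hcl t' (hsub ht') s hsI).2
      · rw [ang_comm]; exact c1
      · rw [ang_comm]; exact c2
    have z1 := zeta_le ha hb hc hR l1 l2 a2 b2 c1 (hcl s hsI s hsI).1 (hcl s hsI s hsI).2
    have z2 := zeta_le ha hb hc hR l1' l2' a2' b2' c1' (hcl s hsI s' hsI').1 (hcl s hsI s' hsI').2
    rw [inner_sub_right] at z1 z2
    rw [← neg_sub (vel (U s)) (vel (W (σ s))), inner_neg_left, inner_neg_left] at i2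
    have z3 := (abs_le.1 z1).1
    have z4 := (abs_le.1 z2).2
    rw [hL, le_div_iff₀ hc]
    linarith
  have v1 : volume A ≤ ENNReal.ofReal L := by
    refine vol_le_of_dist fun s hs s' hs' hss => ?_
    have := key s hs s' hs' hss
    have h2 := hσm.monotone hss
    linarith
  have v2 : volume (σ '' A) ≤ ENNReal.ofReal L := by
    refine vol_le_of_dist ?_
    rintro _ ⟨s, hs, rfl⟩ _ ⟨s', hs', rfl⟩ hss
    have h2 : s ≤ s' := hσm.le_iff_le.1 hss
    have := key s hs s' hs' h2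
    linarith
  rcases le_total a b with hab | hab
  · refine v1.trans (ENNReal.ofReal_le_ofReal ?_)
    rw [hL, ← mul_div_assoc]
    refine div_le_div_of_nonneg_right ?_ hc.le
    nlinarith [mul_pos hb hR, mul_le_mul_of_nonneg_left hab hR.le]
  · have hcv := cv_le (φ := σ) (φ' := fun s => ang (vel (U s)) (nrm (X s - Y (σ s))) /
        ang (vel (W (σ s))) (nrm (X s - Y (σ s)))) mA hσm.injective.injOn (β := a / (2 * b))
        (fun s hs => by
          obtain ⟨-, ⟨l1, -⟩, ⟨a1, -⟩, ⟨b1, b2⟩, -⟩ := hs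
          have hne : X s ≠ Y (σ s) := by
            intro h
            rw [h, sub_self, norm_zero] at l1
            linarith
          exact ⟨hY.hasDerivAt_along hX hne,
            div_le_div₀ (ha.le.trans a1) a1 (hb.trans_le b1) b2⟩) (fun _ => 1)
    simp only [lintegral_const, one_mul, Measure.restrict_apply_univ] at hcv
    have h3 : ENNReal.ofReal (a / (2 * b)) * volume A ≤ ENNReal.ofReal L := hcv.trans v2
    have h4 : volume A = ENNReal.ofReal (2 * b / a) * (ENNReal.ofReal (a / (2 * b)) * volume A) := by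
      rw [← mul_assoc, ← ENNReal.ofReal_mul (by positivity)]
      have : 2 * b / a * (a / (2 * b)) = 1 := by field_simp
      rw [this, ENNReal.ofReal_one, one_mul]
    rw [h4]
    refine (mul_le_mul_right h3 _).trans ?_
    rw [← ENNReal.ofReal_mul (by positivity)]
    refine ENNReal.ofReal_le_ofReal ?_
    have h5 : L ≤ 64 * R * a / c := by
      rw [hL]
      refine div_le_div_of_nonneg_right ?_ hc.le
      nlinarith [mul_le_mul_of_nonneg_left hab hR.le]
    calc 2 * b / a * L ≤ 2 * b / a * (64 * R * a / c) :=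
          mul_le_mul_of_nonneg_left h5 (by positivity)
      _ = 128 * (b * R / c) := by field_simp; ring

/-- An interval is covered by few intervals on which a monotone function varies by at most one. -/
theorem vol_le_of_mono {h : ℝ → ℝ} (hm : Monotone h) (hc : Continuous h) {r r' : ℝ} (hr : r ≤ r')
    (A : Set ℝ) (hA : A ⊆ Icc r r') (M : ℝ≥0∞)
    (hM : ∀ s s', r ≤ s → s ≤ s' → s' ≤ r' → h s' - h s ≤ 1 → volume (A ∩ Icc s s') ≤ M) :
    volume A ≤ ENNReal.ofReal (h r' - h r + 1) * M := by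
  have key : ∀ n : ℕ, ∀ s, r ≤ s → s ≤ r' → h r' - h s ≤ n + 1 →
      volume (A ∩ Icc s r') ≤ ((n : ℝ≥0∞) + 1) * M := by
    intro n
    induction n with
    | zero =>
      intro s h1 h2 h3
      simpa using hM s r' h1 h2 le_rfl (by simpa using h3)
    | succ n ih =>
      intro s h1 h2 h3
      rcases le_total (h r' - h s) 1 with h4 | h4
      · refine (hM s r' h1 h2 le_rfl h4).trans ?_
        calc M = 1 * M := (one_mul M).symm
          _ ≤ _ := mul_le_mul_left le_add_self M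
      · obtain ⟨t, ht, htv⟩ := intermediate_value_Icc h2 hc.continuousOn
          (show h s + 1 ∈ Icc (h s) (h r') from ⟨by linarith, by linarith⟩)
        have hsub : A ∩ Icc s r' ⊆ (A ∩ Icc s t) ∪ (A ∩ Icc t r') := by
          rintro x ⟨hx, hx1, hx2⟩
          rcases le_total x t with h5 | h5
          · exact Or.inl ⟨hx, hx1, h5⟩
          · exact Or.inr ⟨hx, h5, hx2⟩
        have e1 := hM s t h1 ht.1 ht.2 (by linarith)
        have e2 := ih t (h1.trans ht.1) ht.2 (by push_cast at h3; linarith)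
        calc volume (A ∩ Icc s r') ≤ volume (A ∩ Icc s t) + volume (A ∩ Icc t r') :=
              (measure_mono hsub).trans (measure_union_le _ _)
          _ ≤ M + ((n : ℝ≥0∞) + 1) * M := add_le_add e1 e2
          _ = (((n + 1 : ℕ) : ℝ≥0∞) + 1) * M := by push_cast; ring
  have h0 : 0 ≤ h r' - h r := sub_nonneg.2 (hm hr)
  have h1 := key ⌊h r' - h r⌋₊ r le_rfl hr (Nat.lt_floor_add_one _).le
  rw [inter_eq_self_of_subset_left hA] at h1
  refine h1.trans (mul_le_mul_left ?_ M)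
  have h2 : ((⌊h r' - h r⌋₊ : ℝ≥0∞) + 1) = ENNReal.ofReal ((⌊h r' - h r⌋₊ : ℝ) + 1) := by
    rw [ENNReal.ofReal_add (Nat.cast_nonneg _) zero_le_one, ENNReal.ofReal_natCast,
      ENNReal.ofReal_one]
  rw [h2]
  exact ENNReal.ofReal_le_ofReal (by linarith [Nat.floor_le h0])

end

end Vale.Agent.P107
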