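import Vale.Agent.P107.Kin1
import Vale.Agent.P107.CtxB

/-! The kinematic occupancy bound. -/

namespace Vale.Agent.P107

open MeasureTheory Set Filter Topology
open scoped ENNReal RealInnerProductSpace

noncomputable section

theorem kin2_close {m k : ℝ} {a b : V} (hm : 0 < m) (hk : 200 ≤ m * k) (ha : m / 2 ≤ q a)
    (hb : m / 2 ≤ q b) (hab : ‖a - b‖ ≤ 2 * (m * k / 1000)) : Close (k / 100) a b := by
  have hk0 : 0 < k := (pos_iff_pos_of_mul_pos (by linarith : 0 < m * k)).1 hm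
  have h1 : ∀ v : V, m / 2 ≤ q v → (q v)⁻¹ ≤ k / 100 := fun v hv => by
    rw [inv_le_comm₀ (q_pos v) (by positivity), inv_div, div_le_iff₀ hk0]
    nlinarith
  refine ⟨(vel_lip a b).trans ?_, h1 a ha, h1 b hb⟩
  rw [div_le_iff₀ (q_pos a)]
  nlinarith

theorem kin2_osc {W : ℝ → V} {g : ℝ → ℝ} {s1 s2 η a b u u' : ℝ} (hg : Monotone g)
    (h : ∀ r r', s1 ≤ r → r ≤ r' → r' ≤ s2 → ‖W r' - W r‖ ≤ η + (g r' - g r))
    (ha : s1 ≤ a) (hb : b ≤ s2) (hu : u ∈ Icc a b) (hu' : u' ∈ Icc a b) :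
    ‖W u - W u'‖ ≤ η + (g b - g a) := by
  rcases le_total u u' with h1 | h1
  · rw [norm_sub_rev]
    linarith [h u u' (ha.trans hu.1) h1 (hu'.2.trans hb), hg hu.1, hg hu'.2]
  · linarith [h u' u (ha.trans hu'.1) h1 (hu.2.trans hb), hg hu'.1, hg hu.2]

namespace Ctx

/-- One source, one cell of retarded times. -/
theorem kin_cell : ∃ C : ℝ, 1 ≤ C ∧ ∀ (T1 F0 En C0 P0 c0 P : ℝ) (x : Ctx T1 F0 En C0 P0 c0 P)
    (d : Box), d.Pos → x.Stable d → ∀ (z : Z) (σ : ℝ),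
    volume {s | (s, z) ∈ x.piece d ∧ x.sg s z ∈ Icc σ (σ + uu c0 P d.p)} ≤
      ENNReal.ofReal (C * (d.b * d.R / (d.c * √d.c))) ∧
    ((∃ s, (s, z) ∈ x.piece d ∧ x.sg s z ∈ Icc σ (σ + uu c0 P d.p)) →
      d.p / 2 ≤ q (x.S.W z (min x.t (σ + uu c0 P d.p)))) := by
  obtain ⟨C, hC, hfr⟩ := kin_frozen
  refine ⟨32 * C, by linarith, fun T1 F0 En C0 P0 c0 P x d hd hS z σ => ?_⟩
  rcases eq_empty_or_nonempty {s | (s, z) ∈ x.piece d ∧ x.sg s z ∈ Icc σ (σ + uu c0 P d.p)} with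
    hA | ⟨s0, hs0⟩
  · exact ⟨by rw [hA, measure_empty]; exact zero_le, fun ⟨s, hs⟩ => absurd hs
      (eq_empty_iff_forall_notMem.1 hA s)⟩
  have hz : z ∈ x.S.S := hs0.1.1.2.1
  have htm := x.S.tm z
  have hsgc : Continuous fun s => x.sg s z := htm.continuous_along x.tm
  have hsgm : Monotone fun s => x.sg s z := (htm.smono_along x.tm).monotone
  have hp0 : 0 < d.p := lt_of_lt_of_le one_pos hd.p
  have hP0 : 0 ≤ P := zero_le_one.trans x.num.hP2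
  obtain ⟨K, hK⟩ : ∃ K : Set ℝ, K = Icc x.s1 x.s2 ∩ ((fun s => x.sg s z) ⁻¹'
      (Ici 0 ∩ Icc σ (σ + uu c0 P d.p) ∩ (fun ρ => q (x.S.W z ρ)) ⁻¹' Icc d.p (2 * d.p))) :=
    ⟨_, rfl⟩
  have hAK : {s | (s, z) ∈ x.piece d ∧ x.sg s z ∈ Icc σ (σ + uu c0 P d.p)} ⊆ K := fun s hs =>
    hK ▸ ⟨hs.1.1.1, ⟨hs.1.1.2.2.1.le, hs.2⟩, hs.1.2.p1, hs.1.2.p2⟩
  have hKc : IsCompact K := hK ▸ isCompact_Icc.inter_right
    (((isClosed_Ici.inter isClosed_Icc).inter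
      (isClosed_Icc.preimage (contDiff_q.continuous.comp htm.cW))).preimage hsgc)
  obtain ⟨r, hr, hrm⟩ := hKc.exists_isLeast ⟨s0, hAK hs0⟩
  obtain ⟨r', hr', hrM⟩ := hKc.exists_isGreatest ⟨s0, hAK hs0⟩
  have hrr : r ≤ r' := hrm hr'
  rw [hK] at hr hr'
  obtain ⟨hr1, ⟨hr2, hr3⟩, hr4⟩ := hr
  obtain ⟨hr1', ⟨-, hr3'⟩, -⟩ := hr'
  have hle : ∀ s, s ≤ x.s2 → x.sg s z ≤ x.t := fun s hs =>
    (htm.ret_le _ _).trans (hs.trans x.s2_le.2)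
  obtain ⟨q1, hq1⟩ : ∃ q1, q1 = q (x.S.W z (x.sg r z)) := ⟨_, rfl⟩
  have hq2 : d.p ≤ q1 ∧ q1 ≤ 2 * d.p := hq1 ▸ hr4
  have hq3 : P ^ (11 / 20 : ℝ) ≤ q1 := by linarith [hS.1, Real.rpow_nonneg hP0 (11 / 20 : ℝ)]
  obtain ⟨g', hg'c, hg'm, hg', hg'X⟩ := x.hyp z hz _ ⟨hr2, hle r hr1.2⟩ (hq1 ▸ hq3)
  obtain ⟨g, hgc, hgm, hg, hgX⟩ := x.ctl
  rw [← hq1] at hg' hg'X
  have he : min x.t (σ + uu c0 P d.p) ≤ min x.t (x.sg r z + uu c0 P q1) :=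
    min_le_min le_rfl (add_le_add hr3.1 (uu_mono x.num.hc0.le x.num.hP2 hp0.le hq2.1))
  have hη := x.num.eta_le hq3
  have hW : ∀ ρ, x.sg r z ≤ ρ → ρ ≤ min x.t (σ + uu c0 P d.p) → d.p / 2 ≤ q (x.S.W z ρ) :=
    fun ρ h1 h2 => by
      have h3 := hg' _ ρ le_rfl h1 (h2.trans he)
      have h4 := (abs_le.1 (q_lip (x.S.W z ρ) (x.S.W z (x.sg r z)))).1
      linarith [hg'm (h2.trans he), hη.2]
  refine ⟨?_, fun _ => hW _ (le_min (hle r hr1.2) hr3.2) le_rfl⟩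
  have hr5 : x.sg r' z ≤ min x.t (σ + uu c0 P d.p) := le_min (hle r' hr1'.2) hr3'.2
  have hk0 : 0 < √d.c := Real.sqrt_pos.2 hd.c
  have hk2 : √d.c ≤ 2 := Real.sqrt_le_iff.2 ⟨by norm_num, by
    linarith [hs0.1.2.c1, (x.act_range hs0.1.1).2.2.2.2.1.2.2]⟩
  have hQ0 : 0 < x.Q := lt_of_lt_of_le one_pos x.one_le_Q
  have hη4 : eta P q1 ≤ d.p * √d.c / 1000 :=
    (eta_mono hP0 (by linarith) (by linarith : q1 ≤ 4 * d.p)).trans hS.2.1
  have h1 : 0 < 1000 / (x.Q * √d.c) := by positivity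
  have h2 : 0 < 1000 / (d.p * √d.c) := by positivity
  refine (vol_le_of_mono
    (h := fun s => 1000 / (x.Q * √d.c) * g s + 1000 / (d.p * √d.c) * g' (x.sg s z))
    ((hgm.const_mul h1.le).add ((hg'm.comp hsgm).const_mul h2.le))
    ((hgc.const_mul _).add ((hg'c.comp hsgc).const_mul _)) hrr _
    (fun s hs => ⟨hrm (hAK hs), hrM (hAK hs)⟩) (ENNReal.ofReal (C * (d.b * d.R / d.c)))
    fun s s' hs hss hs' hh => ?_).trans ?_
  · refine le_trans (measure_mono ?_)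
      (hfr x.X x.U (x.S.Y z) (x.S.W z) x.tm htm d.a d.b d.c d.R s s' hd.a hd.b hd.c hd.R ?_)
    · rintro u ⟨⟨⟨-, hu⟩, -⟩, hu'⟩
      exact ⟨hu', ⟨hu.R1, hu.R2⟩, ⟨hu.a1, hu.a2⟩, ⟨hu.b1, hu.b2⟩, hu.c1, hu.c2⟩
    have k1 : 0 ≤ g s' - g s := sub_nonneg.2 (hgm hss)
    have k2 : 0 ≤ g' (x.sg s' z) - g' (x.sg s z) := sub_nonneg.2 (hg'm (hsgm hss))
    have k3 : g s' - g s ≤ x.Q * √d.c / 1000 := by
      rw [← inv_div, ← mul_one _⁻¹, le_inv_mul_iff₀ h1]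
      nlinarith [mul_nonneg h2.le k2]
    have k4 : g' (x.sg s' z) - g' (x.sg s z) ≤ d.p * √d.c / 1000 := by
      rw [← inv_div, ← mul_one _⁻¹, le_inv_mul_iff₀ h2]
      nlinarith [mul_nonneg h1.le k1]
    intro u hu u' hu'
    have k5 : ∀ v ∈ Icc s s', v ∈ Icc x.s1 x.s2 := fun v hv =>
      ⟨hr1.1.trans (hs.trans hv.1), hv.2.trans (hs'.trans hr1'.2)⟩
    have k6 : ∀ v ∈ Icc s s', d.p / 2 ≤ q (x.S.W z (x.sg v z)) := fun v hv =>
      hW _ (hsgm (hs.trans hv.1)) ((hsgm (hv.2.trans hs')).trans hr5)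
    refine ⟨kin2_close hQ0 (by linarith [x.η_ge, hS.2.2]) (x.q_U (k5 u hu)).1
      (x.q_U (k5 u' hu')).1 ?_, kin2_close hp0 (by linarith [hη.1]) (k6 u hu) (k6 u' hu') ?_⟩
    · linarith [kin2_osc hgm hg (hr1.1.trans hs) (hs'.trans hr1'.2) hu hu', hS.2.2]
    · have := kin2_osc hg'm hg' (hsgm hs) ((hsgm hs').trans (hr5.trans he))
        (u := x.sg u z) (u' := x.sg u' z) ⟨hsgm hu.1, hsgm hu.2⟩ ⟨hsgm hu'.1, hsgm hu'.2⟩
      exact this.trans (by linarith)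
  have hM : 0 ≤ C * (d.b * d.R / d.c) := by
    have := hd.b; have := hd.c; have := hd.R
    positivity
  rw [← ENNReal.ofReal_mul' hM]
  refine ENNReal.ofReal_le_ofReal (le_trans (mul_le_mul_of_nonneg_right (?_ : _ ≤ 32 / √d.c) hM)
    (le_of_eq (by field_simp)))
  have k1 : g r' - g r ≤ 1 / 100 * x.Q := by linarith [hgm hr1.1, hgm hr1'.2]
  have k2 : g' (x.sg r' z) - g' (x.sg r z) ≤ 1 / 50 * d.p := by linarith [hg'm (hr5.trans he)]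
  have k3 : 1000 / (x.Q * √d.c) * (1 / 100 * x.Q) = 10 / √d.c := by field_simp; norm_num
  have k4 : 1000 / (d.p * √d.c) * (1 / 50 * d.p) = 20 / √d.c := by field_simp; norm_num
  have k5 : 1 ≤ 2 / √d.c := (one_le_div hk0).2 hk2
  have k6 : 32 / √d.c = 10 / √d.c + 20 / √d.c + 2 / √d.c := by ring
  nlinarith [mul_le_mul_of_nonneg_left k1 h1.le, mul_le_mul_of_nonneg_left k2 h2.le]

theorem O_kin : ∃ C : ℝ, 1 ≤ C ∧ ∀ (T1 F0 En C0 P0 c0 P : ℝ) (x : Ctx T1 F0 En C0 P0 c0 P)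
    (d : Box), d.Pos → x.Stable d →
    x.O d ≤ C * En * (d.b * d.R / (d.c * √d.c) * (1 + (x.τ + d.R) / uu c0 P d.p) / d.p) := by
  obtain ⟨C, hC, hcell⟩ := kin_cell
  refine ⟨2 * C, by linarith, fun T1 F0 En C0 P0 c0 P x d hd hS => ?_⟩
  have := x.S.fin
  have hp0 : 0 < d.p := lt_of_lt_of_le one_pos hd.p
  have hu : 0 < uu c0 P d.p := uu_pos x.num.hc0 x.num.hP2 hp0
  have hEn : 0 ≤ En := zero_le_one.trans x.num.hEn
  obtain ⟨M, hM⟩ : ∃ M, M = d.b * d.R / (d.c * √d.c) := ⟨_, rfl⟩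
  have hM0 : 0 ≤ M := by
    have := hd.b; have := hd.c; have := hd.R
    rw [hM]
    positivity
  have hcb : ∀ σ : ℝ, x.m {w | w ∈ x.piece d ∧ x.sg w.1 w.2 ∈ Icc σ (σ + uu c0 P d.p)} ≤
      ENNReal.ofReal (C * M * (2 / d.p) * En) := fun σ => by
    have ht0 : 0 ≤ x.t := x.hs0.trans x.hs1
    have hms : MeasurableSet
        {w | w ∈ x.piece d ∧ x.sg w.1 w.2 ∈ Icc σ (σ + uu c0 P d.p)} :=
      (x.measurableSet_piece d).inter (x.measurable_sg measurableSet_Icc)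
    rw [m, Measure.prod_apply_symm hms, ENNReal.ofReal_mul (by positivity)]
    refine le_trans (lintegral_mono fun z => ?_) ((lintegral_const_mul' _ _
      ENNReal.ofReal_ne_top).trans_le (mul_le_mul_right
        (x.S.enP (max 0 (min x.t (σ + uu c0 P d.p))) ⟨le_max_left _ _,
          (max_le ht0 (min_le_left _ _)).trans x.ht⟩) _))
    obtain ⟨h1, h2⟩ := hcell _ _ _ _ _ _ _ x d hd hS z σ
    rcases eq_empty_or_nonempty {s | (s, z) ∈ x.piece d ∧ x.sg s z ∈ Icc σ (σ + uu c0 P d.p)} with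
      hA | ⟨s, hs⟩
    · exact (congrArg volume hA).trans_le (by rw [measure_empty]; exact zero_le)
    refine h1.trans ?_
    rw [max_eq_right (le_min ht0 (hs.1.1.2.2.1.le.trans hs.2.2)),
      ← ENNReal.ofReal_mul (by positivity), ← hM, mul_assoc (C * M)]
    refine ENNReal.ofReal_le_ofReal (le_mul_of_one_le_right (by positivity) ?_)
    rw [div_mul_eq_mul_div, one_le_div hp0]
    linarith [h2 ⟨s, hs⟩]
  have hτ : 0 ≤ (x.τ + d.R) / uu c0 P d.p := div_nonneg (by linarith [x.τ_pos, hd.R]) hu.le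
  have hsub : x.piece d ⊆ ⋃ j ∈ Finset.range (⌊(x.τ + d.R) / uu c0 P d.p⌋₊ + 1),
      {w | w ∈ x.piece d ∧ x.sg w.1 w.2 ∈ Icc (x.s1 - 2 * d.R + j * uu c0 P d.p)
        (x.s1 - 2 * d.R + j * uu c0 P d.p + uu c0 P d.p)} := fun w hw => by
    have h1 := x.pR_eq w.1 w.2
    have h2 : 0 ≤ (x.sg w.1 w.2 - (x.s1 - 2 * d.R)) / uu c0 P d.p :=
      div_nonneg (by linarith [hw.1.1.1, hw.2.R2]) hu.le
    have h3 := (le_div_iff₀ hu).1 (Nat.floor_le h2)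
    have h4 := (div_lt_iff₀ hu).1
      (Nat.lt_floor_add_one ((x.sg w.1 w.2 - (x.s1 - 2 * d.R)) / uu c0 P d.p))
    refine mem_iUnion₂.2 ⟨⌊(x.sg w.1 w.2 - (x.s1 - 2 * d.R)) / uu c0 P d.p⌋₊,
      Finset.mem_range.2 (Nat.lt_succ_of_le (Nat.floor_mono (div_le_div_of_nonneg_right ?_ hu.le))),
      hw, by linarith, by linarith⟩
    linarith [hw.1.1.2, hw.2.R1, x.s2_le.1]
  refine ENNReal.toReal_le_of_le_ofReal (by rw [← hM]; positivity) ((measure_mono hsub).trans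
    ((measure_biUnion_finset_le _ _).trans ((Finset.sum_le_card_nsmul _ _ _
      fun j _ => hcb _).trans ?_)))
  rw [Finset.card_range, nsmul_eq_mul, ← ENNReal.ofReal_natCast,
    ← ENNReal.ofReal_mul (Nat.cast_nonneg _), ← hM]
  refine ENNReal.ofReal_le_ofReal (le_trans (mul_le_mul_of_nonneg_right
    (?_ : _ ≤ 1 + (x.τ + d.R) / uu c0 P d.p) (by positivity)) (le_of_eq (by ring)))
  push_cast
  linarith [Nat.floor_le hτ]

end Ctx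

end

end Vale.Agent.P107
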