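import Mathlib

/-! Linear arithmetic behind the dyadic piece bounds (all variables are logarithms). -/

namespace Vale.Agent.P107.LP

/-- Logarithms of the parameters of a dyadic piece: `L = log P`, `q = log Q`, `t = log τ`,
`s = log (τ + R)`, `k = log K`. -/
structure Rng (L q t s k p a b c r : ℝ) : Prop where
  k0 : 0 ≤ k
  L0 : 0 ≤ L
  q1 : 11 / 20 * L ≤ q
  q2 : q ≤ L
  p1 : 0 ≤ k + p
  p2 : p ≤ L
  a1 : a ≤ k
  b1 : b ≤ k
  c1 : c ≤ k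
  a2 : 0 ≤ k + 2 * q + a
  b2 : 0 ≤ k + 2 * p + b
  c2 : 0 ≤ k + 2 * p + c
  c3 : 0 ≤ k + 2 * q + c
  ta : a ≤ k + b ∨ a ≤ k + c
  tb : b ≤ k + a ∨ b ≤ k + c
  tc : c ≤ k + a ∨ c ≤ k + b
  r1 : r ≤ k
  t1 : t ≤ 2 * q - 2 * L
  s1 : t ≤ s
  s2 : r ≤ s
  s3 : s ≤ k + t ∨ s ≤ k + r

/-- The three occupancy bounds that always hold; `m = log (min b c)`. -/
structure Occ (t s k p a b c r m o : ℝ) : Prop where
  m1 : m ≤ b
  m2 : m ≤ c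
  cap : o ≤ k + t + 3 * p + m + a + b + 3 * r
  fl : o ≤ k + t - p
  en : o ≤ k + b - a + s - p

/-- The kinematic occupancy bound. -/
def Kin (L s k p b c r o : ℝ) : Prop :=
  o ≤ k + b + r - 3 / 2 * c - p ∨ o ≤ k + b + r - 3 / 2 * c + s + 2 * L - 3 * p

/-- Unstable classes. -/
def Uns (L q k p c : ℝ) : Prop :=
  p ≤ k + 11 / 20 * L ∨ 2 * p + c ≤ k + 1 / 5 * L + 1 / 2 * p ∨ 2 * q + c ≤ k + 1 / 5 * L + 1 / 2 * q

/-- The part of the direct region away from the first transition. -/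
def Dir (L q s k p a b r : ℝ) : Prop :=
  a ≤ k + 6 / 25 * L - 3 / 2 * q ∨ 1 / 50 * L + s ≤ k + 2 * p + b + 2 * r ∨ p ≤ k + 11 / 20 * L ∨
    r ≤ k - 10 * L

/-- The region `b ≳ θ a`. -/
def Nr (L q k a b : ℝ) : Prop := 3 / 2 * q - 3 / 2 * L + a ≤ k + b

/-- The transfer region. -/
structure Tr (L q s k p a b c r : ℝ) : Prop where
  h1 : b ≤ k + 3 / 2 * q - 3 / 2 * L + a
  h2 : 6 / 25 * L - 3 / 2 * q ≤ k + a
  h3 : 2 * p + b + 2 * r ≤ k + 1 / 50 * L + s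
  h4 : 11 / 20 * L ≤ k + p
  h5 : -10 * L ≤ k + r
  h6 : a ≤ k + c
  h7 : c ≤ k + a

end Vale.Agent.P107.LP
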