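import Vale.Agent.P107.LP

/-! Linear arithmetic for the dyadic piece bounds. -/

namespace Vale.Agent.P107.LP

variable {L q t s k p a b c r m o : ℝ}

theorem lSg2 (h : Rng L q t s k p a b c r) (ho : Occ t s k p a b c r m o)
    (hn : Nr L q k a b) (hu : Uns L q k p c ∨ t ≤ k + r) :
    (t + o + p + m + a) / 2 - 3 / 2 * b - r ≤ q - L / 200 + 100 * k := by
  obtain ⟨k0, L0, q1, q2, p1, p2, a1, b1, c1, a2, b2, c2, c3, ta, tb, tc, r1, t1, s1, s2, s3⟩ := h
  obtain ⟨m1, m2, cap, fl, en⟩ := ho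
  unfold Nr at hn
  unfold Uns at hu
  rcases hu with (hu | hu | hu) | hu <;> rcases s3 with s3 | s3 <;> rcases ta with ta | ta <;> rcases tb with tb | tb <;> rcases tc with tc | tc <;> linarith

theorem lSb2 (h : Rng L q t s k p a b c r) (ho : Occ t s k p a b c r m o)
    (hn : Nr L q k a b) (hu : Uns L q k p c ∨ t ≤ k + r) :
    (o + p + m + s) / 2 - b - r ≤ q - L / 200 + 100 * k := by
  obtain ⟨k0, L0, q1, q2, p1, p2, a1, b1, c1, a2, b2, c2, c3, ta, tb, tc, r1, t1, s1, s2, s3⟩ := h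
  obtain ⟨m1, m2, cap, fl, en⟩ := ho
  unfold Nr at hn
  unfold Uns at hu
  rcases hu with (hu | hu | hu) | hu <;> rcases s3 with s3 | s3 <;> rcases ta with ta | ta <;> rcases tb with tb | tb <;> rcases tc with tc | tc <;> linarith

end Vale.Agent.P107.LP
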