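import Vale.Agent.P107.LP

/-! Linear arithmetic for the dyadic piece bounds. -/

namespace Vale.Agent.P107.LP

variable {L q t s k p a b c r m o : ℝ}

theorem lESg (h : Rng L q t s k p a b c r) (ho : Occ t s k p a b c r m o)
    (ht : Tr L q s k p a b c r) (hk : Kin L s k p b c r o ∨ Uns L q k p c) :
    1 / 10 * L - 3 / 4 * q - a / 2 + ((t + o + p + m + a) / 2 - 3 / 2 * b - r) ≤ q - L / 200 + 100 * k := by
  obtain ⟨k0, L0, q1, q2, p1, p2, a1, b1, c1, a2, b2, c2, c3, ta, tb, tc, r1, t1, s1, s2, s3⟩ := h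
  obtain ⟨m1, m2, cap, fl, en⟩ := ho
  obtain ⟨h1, h2, h3, h4, h5, h6, h7⟩ := ht
  unfold Kin Uns at hk
  rcases hk with (hk | hk) | hk | hk | hk <;> rcases s3 with s3 | s3 <;> linarith

theorem lESb (h : Rng L q t s k p a b c r) (ho : Occ t s k p a b c r m o)
    (ht : Tr L q s k p a b c r) (hk : Kin L s k p b c r o ∨ Uns L q k p c) :
    1 / 10 * L - 3 / 4 * q - a / 2 + ((o + p + m + s) / 2 - b - r) ≤ q - L / 200 + 100 * k := by
  obtain ⟨k0, L0, q1, q2, p1, p2, a1, b1, c1, a2, b2, c2, c3, ta, tb, tc, r1, t1, s1, s2, s3⟩ := h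
  obtain ⟨m1, m2, cap, fl, en⟩ := ho
  obtain ⟨h1, h2, h3, h4, h5, h6, h7⟩ := ht
  unfold Kin Uns at hk
  rcases hk with (hk | hk) | hk | hk | hk <;> rcases s3 with s3 | s3 <;> linarith

theorem lEG (h : Rng L q t s k p a b c r) (ho : Occ t s k p a b c r m o)
    (ht : Tr L q s k p a b c r) (hk : Kin L s k p b c r o ∨ Uns L q k p c) :
    1 / 10 * L - 3 / 4 * q - a / 2 + (o + a / 2 - 3 / 2 * b - 2 * r) ≤ q - L / 200 + 100 * k := by
  obtain ⟨k0, L0, q1, q2, p1, p2, a1, b1, c1, a2, b2, c2, c3, ta, tb, tc, r1, t1, s1, s2, s3⟩ := h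
  obtain ⟨m1, m2, cap, fl, en⟩ := ho
  obtain ⟨h1, h2, h3, h4, h5, h6, h7⟩ := ht
  unfold Kin Uns at hk
  rcases hk with (hk | hk) | hk | hk | hk <;> rcases s3 with s3 | s3 <;> linarith

theorem lG1 (h : Rng L q t s k p a b c r) (ho : Occ t s k p a b c r m o)
    (ht : Tr L q s k p a b c r) (hd : Dir L q s k p a b r)
    (hk : Kin L s k p b c r o ∨ Uns L q k p c) :
    o + a / 2 - 3 / 2 * b - 2 * r ≤ q - L / 200 + 100 * k := by
  obtain ⟨k0, L0, q1, q2, p1, p2, a1, b1, c1, a2, b2, c2, c3, ta, tb, tc, r1, t1, s1, s2, s3⟩ := h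
  obtain ⟨m1, m2, cap, fl, en⟩ := ho
  obtain ⟨h1, h2, h3, h4, h5, h6, h7⟩ := ht
  unfold Dir at hd
  unfold Kin Uns at hk
  rcases hd with hd | hd | hd | hd <;> rcases hk with (hk | hk) | hk | hk | hk <;> rcases s3 with s3 | s3 <;> linarith

theorem lG2 (h : Rng L q t s k p a b c r) (ho : Occ t s k p a b c r m o)
    (ht : Tr L q s k p a b c r) (hn : Nr L q k a b) (hu : Uns L q k p c ∨ t ≤ k + r) :
    o + a / 2 - 3 / 2 * b - 2 * r ≤ q - L / 200 + 100 * k := by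
  obtain ⟨k0, L0, q1, q2, p1, p2, a1, b1, c1, a2, b2, c2, c3, ta, tb, tc, r1, t1, s1, s2, s3⟩ := h
  obtain ⟨m1, m2, cap, fl, en⟩ := ho
  obtain ⟨h1, h2, h3, h4, h5, h6, h7⟩ := ht
  unfold Nr at hn
  unfold Uns at hu
  rcases hu with (hu | hu | hu) | hu <;> rcases s3 with s3 | s3 <;> linarith

end Vale.Agent.P107.LP
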