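import Vale.Agent.P107.Flow2

/-! Liouville: divergence free fields preserve volume. -/

namespace Vale.Agent.P107

open MeasureTheory Set Filter Topology
open scoped ENNReal RealInnerProductSpace

noncomputable section

theorem liou_det {n : Type} [Fintype n] [DecidableEq n] {N : ℝ → n → n → ℝ} {B : Matrix n n ℝ}
    {s : ℝ} (h : HasDerivAt N (B * Matrix.of (N s) :) s) :
    HasDerivAt (fun r => (Matrix.of (N r)).det) (B.trace * (Matrix.of (N s)).det) s := by
  let D : ContinuousMultilinearMap ℝ (fun _ : n => n → ℝ) ℝ :=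
    ⟨Matrix.detRowAlternating.toMultilinearMap, continuous_id.matrix_det⟩
  refine ((D.hasFDerivAt (N s)).comp_hasDerivAt s h).congr_deriv ?_
  rw [Matrix.trace, Finset.sum_mul]
  refine (D.linearDeriv_apply _ _).trans ?_
  refine Finset.sum_congr rfl fun i _ => ?_
  have e : (B * Matrix.of (N s)) i = ∑ k, B i k • Matrix.of (N s) k := by
    ext j
    simp [Matrix.mul_apply]
  rw [e]
  exact Matrix.det_updateRow_sum (Matrix.of (N s)) i (B i)

variable {F : Type} [NormedAddCommGroup F] [NormedSpace ℝ F] [FiniteDimensional ℝ F]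
  [CompleteSpace F]

theorem det_eq_one_of_trace {M A : ℝ → F →L[ℝ] F} {t : ℝ} (h0 : M t = ContinuousLinearMap.id ℝ F)
    (hM : ∀ s, HasDerivAt M ((A s).comp (M s)) s)
    (hA : ∀ s, LinearMap.trace ℝ F (A s : F →ₗ[ℝ] F) = 0) (s : ℝ) : (M s).det = 1 := by
  let e := Module.finBasis ℝ F
  let T : (F →L[ℝ] F) →L[ℝ] (Fin (Module.finrank ℝ F) → Fin (Module.finrank ℝ F) → ℝ) :=
    LinearMap.toContinuousLinearMap ((Matrix.ofLinearEquiv ℝ).symm.toLinearMap ∘ₗ
      (LinearMap.toMatrix e e).toLinearMap ∘ₗ ContinuousLinearMap.coeLM ℝ)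
  have h : ∀ s, HasDerivAt (fun r => (M r).det) 0 s := fun s => by
    have h1 := liou_det (N := fun r => T (M r)) (B := LinearMap.toMatrix e e (A s))
      ((T.hasFDerivAt.comp_hasDerivAt s (hM s)).congr_deriv
        (LinearMap.toMatrix_comp e e e (A s : F →ₗ[ℝ] F) (M s : F →ₗ[ℝ] F)))
    rw [← LinearMap.trace_eq_matrix_trace, hA, zero_mul] at h1
    exact h1.congr_of_eventuallyEq (Eventually.of_forall fun r =>
      (LinearMap.det_toMatrix e (M r : F →ₗ[ℝ] F)).symm)
  rw [is_const_of_deriv_eq_zero (fun s => (h s).differentiableAt) (fun s => (h s).deriv) s t, h0]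
  exact LinearMap.det_id

theorem VF.measurePreserving_fl [MeasurableSpace F] [BorelSpace F] {b : ℝ → F → F} {K : ℝ}
    {L L2 : ℝ → ℝ} (h : VF b K L) (c2 : Continuous L2) (L20 : ∀ s, 0 ≤ L2 s)
    (h2 : ∀ r, SD (b r) (L2 r))
    (htr : ∀ s z, LinearMap.trace ℝ F (fderiv ℝ (b s) z : F →ₗ[ℝ] F) = 0)
    (μ : Measure F) [μ.IsAddHaarMeasure] (s t : ℝ) : MeasurePreserving (fl b s t) μ μ := by
  have hm := (h.differentiable_fl c2 L20 h2 s t).continuous.measurable
  have hl : ∀ s t, Function.LeftInverse (fl b s t) (fl b t s) := fun s t z => by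
    rw [h.fl_fl, h.fl_self]
  have hd : ∀ z, (fderiv ℝ (fl b t s) z).det = 1 := fun z =>
    det_eq_one_of_trace (M := fun r => fderiv ℝ (fl b r s) z) (t := s)
      (by rw [funext (h.fl_self s)]; exact fderiv_fun_id ..)
      (fun r => h.hasDerivAt_fderiv_fl c2 L20 h2 r s z) (fun r => htr r _) t
  refine ⟨hm, Measure.ext fun A hA => ?_⟩
  rw [Measure.map_apply hm hA, ← image_eq_preimage_of_inverse (hl s t) (hl t s),
    ← lintegral_abs_det_fderiv_eq_addHaar_image μ hA (fun z _ =>
      (h.differentiable_fl c2 L20 h2 t s z).hasFDerivAt.hasFDerivWithinAt) (hl s t).injective.injOn]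
  simp [hd]

end

end Vale.Agent.P107
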