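import Vale.Agent.P107.Trunc
import Vale.Agent.P107.Conv
import Vale.Agent.P107.Glue

/-! Global classical solutions. -/

namespace Vale.Agent.P107

open MeasureTheory Set Filter Topology
open scoped ENNReal RealInnerProductSpace

noncomputable section

theorem main (f₀ : V → V → ℝ) (E₀ B₀ : V → V) (h : Datum f₀ E₀ B₀) :
    ∃ f E B, IsSol f₀ E₀ B₀ f E B := by
  obtain ⟨d, hd⟩ := exists_dat h
  obtain ⟨K, hK, h0⟩ := exists_pre h hd
  choose G hG using fun n : ℕ => exists_sol d hK (T := n) (Nat.cast_nonneg n)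
  refine glue (fun n => (hG n).loc hd hK h0) ?_
  intro n m t ht hn hm
  have hs : ∀ k : ℕ, t ≤ k → Sol d K t (G k) := fun k hk =>
    ⟨(hG k).cl, fun p hp => (hG k).eq p ⟨hp.1, hp.2.trans hk⟩⟩
  have he := (hs n hn).unique (hs m hm)
  have hH : ∀ x, HH d K (G n) (t, x) = HH d K (G m) (t, x) := fun x => by
    rw [← (hs n hn).eq (t, x) ⟨ht, le_rfl⟩, ← (hs m hm).eq (t, x) ⟨ht, le_rfl⟩]
    exact he (t, x) ⟨ht, le_rfl⟩
  refine ⟨?_, ?_, ?_⟩
  · funext x v
    simp only [den, (tr_congr (hG n).cl (hG m).cl he le_rfl (x, v)).2]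
  · funext x
    simp only [hH]
  · funext x
    simp only [hH]

end

end Vale.Agent.P107
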