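import Vale.Agent.P107.Wave2

/-! The Maxwell equations for smooth sources. -/

namespace Vale.Agent.P107

open MeasureTheory Set Filter Topology
open scoped ENNReal RealInnerProductSpace

noncomputable section

private theorem ms_cu_add (g g' : ST → V) : cu (fun e => g e + g' e) = cu g + cu g' := by
  refine ext3 ?_ ?_ ?_ <;> simp only [cu, mk3_0, mk3_1, mk3_2, PiLp.add_apply] <;> ring

private theorem ms_cu_smul (r : ℝ) (g : ST → V) : cu (fun e => r • g e) = r • cu g := by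
  refine ext3 ?_ ?_ ?_ <;>
    simp only [cu, mk3_0, mk3_1, mk3_2, PiLp.smul_apply, smul_eq_mul] <;> ring

private theorem ms_dv_add (g g' : ST → V) : dv (fun e => g e + g' e) = dv g + dv g' := by
  simp only [dv, PiLp.add_apply, Finset.sum_add_distrib]

private theorem ms_dv_smul (r : ℝ) (g : ST → V) : dv (fun e => r • g e) = r * dv g := by
  simp only [dv, PiLp.smul_apply, smul_eq_mul, Finset.mul_sum]

theorem EB_add (D D' : ST →L[ℝ] ST) : EB (D + D') = EB D + EB D' := by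
  refine Prod.ext ?_ (ms_cu_add (fun e => (D e).2) (fun e => (D' e).2))
  refine ext3 ?_ ?_ ?_ <;>
    simp only [EB, mk3_0, mk3_1, mk3_2, PiLp.add_apply, Prod.fst_add, Prod.snd_add,
      add_apply] <;> ring

theorem EB_smul (r : ℝ) (D : ST →L[ℝ] ST) : EB (r • D) = r • EB D := by
  refine Prod.ext ?_ (ms_cu_smul r (fun e => (D e).2))
  refine ext3 ?_ ?_ ?_ <;>
    simp only [EB, mk3_0, mk3_1, mk3_2, PiLp.smul_apply, Prod.smul_fst, Prod.smul_snd,
      smul_apply, smul_eq_mul] <;> ring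

/-- `EB` as a continuous linear map. -/
def EBL : (ST →L[ℝ] ST) →L[ℝ] Z :=
  LinearMap.toContinuousLinearMap { toFun := EB, map_add' := EB_add, map_smul' := EB_smul }

theorem EBL_apply (D : ST →L[ℝ] ST) : EBL D = EB D := rfl

/-- The defect in the Maxwell equations. -/
private def msL : ((ST →L[ℝ] Z) × ST) →ₗ[ℝ] V × V × ℝ × ℝ where
  toFun x := ((x.1 e0).1 - cu (fun e => (x.1 e).2) + x.2.2, (x.1 e0).2 + cu (fun e => (x.1 e).1),
    dv (fun e => (x.1 e).1) - x.2.1, dv (fun e => (x.1 e).2))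
  map_add' x y := by
    simp only [Prod.fst_add, Prod.snd_add, add_apply, ms_cu_add, ms_dv_add, Prod.mk_add_mk,
      Prod.mk.injEq]
    refine ⟨?_, ?_, ?_, trivial⟩ <;> abel1
  map_smul' r x := by
    simp only [Prod.smul_fst, Prod.smul_snd, smul_apply, ms_cu_smul, ms_dv_smul, Prod.smul_mk,
      RingHom.id_apply, smul_add, smul_sub, smul_eq_mul, mul_sub]

private theorem msL_iff (D : ST →L[ℝ] Z) (J : ST) : MxD D J ↔ msL (D, J) = 0 := by
  constructor
  · intro h
    refine Prod.ext ?_ (Prod.ext h.far (Prod.ext (sub_eq_zero.2 h.gE) h.gB))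
    exact add_eq_zero_iff_eq_neg.2 h.amp
  · intro h
    exact ⟨add_eq_zero_iff_eq_neg.1 (congrArg Prod.fst h), congrArg (fun x => x.2.1) h,
      sub_eq_zero.1 (congrArg (fun x => x.2.2.1) h), congrArg (fun x => x.2.2.2) h⟩

theorem MxD.add {D D' : ST →L[ℝ] Z} {J J' : ST} (h : MxD D J) (h' : MxD D' J') :
    MxD (D + D') (J + J') := by
  rw [msL_iff] at h h' ⊢
  rw [← Prod.mk_add_mk, map_add, h, h', add_zero]

theorem MxD.smul {D : ST →L[ℝ] Z} {J : ST} (h : MxD D J) (r : ℝ) : MxD (r • D) (r • J) := by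
  rw [msL_iff] at h ⊢
  rw [← Prod.smul_mk, map_smul, h, smul_zero]

theorem isClosed_MxD : IsClosed {x : (ST →L[ℝ] Z) × ST | MxD x.1 x.2} := by
  simp only [msL_iff]
  exact isClosed_eq msL.continuous_of_finiteDimensional continuous_const

theorem st_decomp (e : ST) : e = e.1 • e0 + ∑ i, e.2 i • ei i := by
  refine Prod.ext ?_ (ext3 ?_ ?_ ?_) <;> simp [e0, ei, Fin.sum_univ_three]

/-- The solution operator for the time derivative. -/
private def msA : ((V →L[ℝ] Z) × ST) →ₗ[ℝ] (ST →L[ℝ] Z) where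
  toFun x := (ContinuousLinearMap.fst ℝ ℝ V).smulRight
      (cu (fun e => (x.1 e.2).2) - x.2.2, -cu (fun e => (x.1 e.2).1)) +
    x.1.comp (ContinuousLinearMap.snd ℝ ℝ V)
  map_add' x y := by
    refine ContinuousLinearMap.ext fun e => ?_
    simp only [Prod.fst_add, Prod.snd_add, add_apply, ms_cu_add,
      ContinuousLinearMap.smulRight_apply, ContinuousLinearMap.comp_apply]
    refine Prod.ext ?_ ?_ <;>
      simp only [Prod.fst_add, Prod.snd_add, Prod.smul_fst, Prod.smul_snd] <;> module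
  map_smul' r x := by
    refine ContinuousLinearMap.ext fun e => ?_
    simp only [Prod.smul_fst, Prod.smul_snd, add_apply, smul_apply, ms_cu_smul,
      ContinuousLinearMap.smulRight_apply, ContinuousLinearMap.comp_apply, RingHom.id_apply]
    refine Prod.ext ?_ ?_ <;>
      simp only [Prod.fst_add, Prod.snd_add, Prod.smul_fst, Prod.smul_snd] <;> module

/-- The time derivative is determined by the space derivatives and the source. -/
theorem exists_MxL : ∃ A : ((V →L[ℝ] Z) × ST) →L[ℝ] (ST →L[ℝ] Z), ∀ (D : ST →L[ℝ] Z) (J : ST),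
    MxD D J → D = A (D.comp (ContinuousLinearMap.inr ℝ ℝ V), J) := by
  refine ⟨LinearMap.toContinuousLinearMap msA, fun D J h => ?_⟩
  refine ContinuousLinearMap.ext fun e => ?_
  have h1 : D e0 = (cu (fun e => (D e).2) - J.2, -cu (fun e => (D e).1)) := by
    refine Prod.ext ?_ (eq_neg_of_add_eq_zero_left h.far)
    show (D e0).1 = cu (fun e => (D e).2) - J.2
    rw [sub_eq_add_neg, ← h.amp]
    abel1
  have h2 : e = e.1 • e0 + ((0 : ℝ), e.2) := by
    simp [e0]
  show D e = e.1 • (cu (fun e => (D e).2) - J.2, -cu (fun e => (D e).1)) + D (0, e.2)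
  rw [← h1, ← map_smul, ← map_add, ← h2]

/-- The Lorenz expression. -/
private def msZ : (ST →L[ℝ] ST) →L[ℝ] ℝ :=
  LinearMap.toContinuousLinearMap
    { toFun := fun D => (D e0).1 + dv (fun e => (D e).2)
      map_add' := fun D D' => by
        simp only [Prod.fst_add, Prod.snd_add, add_apply, ms_dv_add]
        ring
      map_smul' := fun r D => by
        simp only [Prod.smul_fst, Prod.smul_snd, smul_apply, ms_dv_smul, RingHom.id_apply,
          smul_eq_mul]
        ring }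

private theorem msZ_apply (D : ST →L[ℝ] ST) : msZ D = (D e0).1 + dv (fun e => (D e).2) := rfl

/-- The space components. -/
private def msC (i : Fin 3) : ST →L[ℝ] ℝ :=
  (EuclideanSpace.proj i : V →L[ℝ] ℝ).comp (ContinuousLinearMap.snd ℝ ℝ V)

private theorem ms_second {Φ : ST → ST} (hΦ : ContDiff ℝ 2 Φ) (A : ST →L[ℝ] ℝ) (p a b : ST) :
    fderiv ℝ (fun p => fderiv ℝ (fun p => A (Φ p)) p a) p b =
      A (fderiv ℝ (fderiv ℝ Φ) p b a) := by
  have hd : Differentiable ℝ Φ := hΦ.differentiable (by norm_num)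
  have hS : HasFDerivAt (fderiv ℝ Φ) (fderiv ℝ (fderiv ℝ Φ) p) p :=
    ((hΦ.fderiv_right (m := 1) le_rfl).differentiable one_ne_zero p).hasFDerivAt
  have e : (fun p => fderiv ℝ (fun p => A (Φ p)) p a) =
      fun p => (A.comp (ContinuousLinearMap.apply ℝ ST a)) (fderiv ℝ Φ p) := by
    funext q
    have h1 : HasFDerivAt (fun p => A (Φ p)) (A.comp (fderiv ℝ Φ q)) q :=
      A.hasFDerivAt.comp q (hd q).hasFDerivAt
    rw [h1.fderiv]
    rfl
  have h2 : HasFDerivAt (fun p => (A.comp (ContinuousLinearMap.apply ℝ ST a)) (fderiv ℝ Φ p))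
      ((A.comp (ContinuousLinearMap.apply ℝ ST a)).comp (fderiv ℝ (fderiv ℝ Φ) p)) p :=
    (A.comp (ContinuousLinearMap.apply ℝ ST a)).hasFDerivAt.comp p hS
  rw [e, h2.fderiv]
  rfl

private theorem ms_box {Φ : ST → ST} (hΦ : ContDiff ℝ 2 Φ) (A : ST →L[ℝ] ℝ) (p : ST) :
    box4 (fun p => A (Φ p)) p = A (fderiv ℝ (fderiv ℝ Φ) p e0 e0) -
      ∑ i, A (fderiv ℝ (fderiv ℝ Φ) p (ei i) (ei i)) := by
  simp only [box4, ms_second hΦ]

private theorem ms_alg (S : ST →L[ℝ] ST →L[ℝ] ST) (J : ST) (hs : ∀ a b, S a b = S b a)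
    (h0 : (S e0 e0).1 - ∑ i, (S (ei i) (ei i)).1 = J.1)
    (hi : ∀ j, (S e0 e0).2 j - ∑ i, (S (ei i) (ei i)).2 j = J.2 j)
    (hL : ∀ a, (S a e0).1 + dv (fun e => (S a e).2) = 0) : MxD (EBL.comp S) J := by
  have i0 := hi 0
  have i1 := hi 1
  have i2 := hi 2
  have l := hL e0
  have l0 := hL (ei 0)
  have l1 := hL (ei 1)
  have l2 := hL (ei 2)
  have s0 := hs (ei 0) e0
  have s1 := hs (ei 1) e0
  have s2 := hs (ei 2) e0
  have s10 := hs (ei 1) (ei 0)
  have s20 := hs (ei 2) (ei 0)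
  have s21 := hs (ei 2) (ei 1)
  simp only [dv, Fin.sum_univ_three, s0, s1, s2, s10, s20, s21] at h0 i0 i1 i2 l l0 l1 l2
  refine ⟨ext3 ?_ ?_ ?_, ext3 ?_ ?_ ?_, ?_, ?_⟩ <;>
    simp only [ContinuousLinearMap.comp_apply, EBL_apply, EB, cu, dv, Fin.sum_univ_three, mk3_0,
      mk3_1, mk3_2, PiLp.sub_apply, PiLp.add_apply, PiLp.neg_apply, PiLp.zero_apply, s0, s1, s2,
      s10, s20, s21] <;> linarith

theorem maxwell_of_pot {Φ J : ST → ST} (hΦ : ContDiff ℝ 2 Φ)
    (h0 : ∀ p, box4 (fun p => (Φ p).1) p = (J p).1)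
    (hi : ∀ p i, box4 (fun p => (Φ p).2 i) p = (J p).2 i)
    (hL : ∀ p, (fderiv ℝ Φ p e0).1 + dv (fun e => (fderiv ℝ Φ p e).2) = 0) (p : ST) :
    MxD (fderiv ℝ (fun p => EB (fderiv ℝ Φ p)) p) (J p) := by
  have hS : HasFDerivAt (fderiv ℝ Φ) (fderiv ℝ (fderiv ℝ Φ) p) p :=
    ((hΦ.fderiv_right (m := 1) le_rfl).differentiable one_ne_zero p).hasFDerivAt
  have h1 : HasFDerivAt (fun p => EB (fderiv ℝ Φ p)) (EBL.comp (fderiv ℝ (fderiv ℝ Φ) p)) p :=
    EBL.hasFDerivAt.comp p hS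
  rw [h1.fderiv]
  refine ms_alg _ _ (fun a b => ?_) ?_ (fun j => ?_) (fun a => ?_)
  · exact (hΦ.contDiffAt.isSymmSndFDerivAt (by simp)).eq a b
  · rw [← h0 p]
    exact (ms_box hΦ (ContinuousLinearMap.fst ℝ ℝ V) p).symm
  · rw [← hi p j]
    exact (ms_box hΦ (msC j) p).symm
  · have h2 : HasFDerivAt (fun p => msZ (fderiv ℝ Φ p)) (msZ.comp (fderiv ℝ (fderiv ℝ Φ) p)) p :=
      msZ.hasFDerivAt.comp p hS
    have h3 : (fun p => msZ (fderiv ℝ Φ p)) = fun _ => 0 := funext hL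
    rw [h3] at h2
    exact DFunLike.congr_fun (h2.unique (hasFDerivAt_const 0 p)) a

private theorem ms_box_rp {J : ST → ST} (hc : ContDiff ℝ 2 J) (h : PS J) (A : ST →L[ℝ] ℝ)
    (p : ST) : box4 (fun p => A (rp J p)) p = A (J p) := by
  have e : (fun p => A (rp J p)) = rp (fun p => A (J p)) :=
    funext fun q => rp_clm hc.continuous h A q
  rw [e]
  exact box_rp (J := fun p => A (J p)) (A.contDiff.comp hc)
    (h.of_imp fun q hq => by rw [hq, map_zero]) p

theorem maxwell_smooth {J : ST → ST} (hc : ContDiff ℝ 2 J) (h : PS J)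
    (hd : ∀ p, (fderiv ℝ J p e0).1 + dv (fun e => (fderiv ℝ J p e).2) = 0) :
    ContDiff ℝ 1 (fun p => EB (fderiv ℝ (rp J) p)) ∧
      ∀ p, MxD (fderiv ℝ (fun p => EB (fderiv ℝ (rp J) p)) p) (J p) := by
  have hΦ : ContDiff ℝ 2 (rp J) := contDiff_rp 2 hc h
  refine ⟨EBL.contDiff.comp (hΦ.fderiv_right (m := 1) le_rfl), fun p => ?_⟩
  refine maxwell_of_pot hΦ (ms_box_rp hc h (ContinuousLinearMap.fst ℝ ℝ V))
    (fun q i => ms_box_rp hc h (msC i) q) (fun q => ?_) p
  rw [← msZ_apply, (hasFDerivAt_rp (hc.of_le (by norm_num)) h q).fderiv,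
    rp_clm (hc.continuous_fderiv (by norm_num)) h.fderiv msZ q]
  have h3 : (fun p => msZ (fderiv ℝ J p)) = fun _ => 0 := funext hd
  rw [h3]
  simp [rp]

end

end Vale.Agent.P107
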