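import Vale.Agent.P107.MulD
import Vale.Agent.P107.LP1
import Vale.Agent.P107.LP2
import Vale.Agent.P107.LP3

/-! Subcritical piece bounds, direct part. -/

namespace Vale.Agent.P107

open MeasureTheory Set Filter Topology
open scoped ENNReal RealInnerProductSpace

noncomputable section

variable {P Q τ K p a b c R O : ℝ}

/-- `x` is positive with logarithm `u`. -/
def Lg (x u : ℝ) : Prop := 0 < x ∧ Real.log x = u

namespace Lg
variable {x y u v : ℝ}

theorem of (h : 0 < x) : Lg x (Real.log x) := ⟨h, rfl⟩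

theorem one : Lg 1 0 := ⟨one_pos, Real.log_one⟩

theorem mul (h : Lg x u) (h' : Lg y v) : Lg (x * y) (u + v) :=
  ⟨mul_pos h.1 h'.1, by rw [Real.log_mul h.1.ne' h'.1.ne', h.2, h'.2]⟩

theorem div (h : Lg x u) (h' : Lg y v) : Lg (x / y) (u - v) :=
  ⟨div_pos h.1 h'.1, by rw [Real.log_div h.1.ne' h'.1.ne', h.2, h'.2]⟩

theorem pow (h : Lg x u) (n : ℕ) : Lg (x ^ n) (n * u) :=
  ⟨pow_pos h.1 n, by rw [Real.log_pow, h.2]⟩

theorem rpow (h : Lg x u) (e : ℝ) : Lg (x ^ e) (e * u) :=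
  ⟨Real.rpow_pos_of_pos h.1 e, by rw [Real.log_rpow h.1, h.2]⟩

theorem sqrt (h : Lg x u) : Lg (√x) (u / 2) :=
  ⟨Real.sqrt_pos.2 h.1, by rw [Real.log_sqrt h.1.le, h.2]⟩

theorem le (h : Lg x u) (h' : Lg y v) (hxy : x ≤ y) : u ≤ v :=
  h.2 ▸ h'.2 ▸ Real.log_le_log h.1 hxy

theorem le_of (h : Lg x u) (h' : Lg y v) (huv : u ≤ v) : x ≤ y :=
  (Real.log_le_log_iff h.1 h'.1).1 (by rw [h.2, h'.2]; exact huv)

end Lg

theorem MRng.P0 (h : MRng P Q τ K p a b c R) : 0 < P := lt_of_lt_of_le one_pos h.P1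

theorem MRng.Q0 (h : MRng P Q τ K p a b c R) : 0 < Q :=
  lt_of_lt_of_le (Real.rpow_pos_of_pos h.P0 _) h.q1

theorem MRng.K0 (h : MRng P Q τ K p a b c R) : 0 < K := lt_of_lt_of_le two_pos h.K2

theorem MRng.p0 (h : MRng P Q τ K p a b c R) : 0 < p := lt_of_lt_of_le one_pos h.p1

theorem MRng.lg (h : MRng P Q τ K p a b c R) :
    Lg P (Real.log P) ∧ Lg Q (Real.log Q) ∧ Lg τ (Real.log τ) ∧ Lg (τ + R) (Real.log (τ + R)) ∧
      Lg K (Real.log K) ∧ Lg p (Real.log p) ∧ Lg a (Real.log a) ∧ Lg b (Real.log b) ∧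
      Lg c (Real.log c) ∧ Lg R (Real.log R) ∧ Lg (min b c) (Real.log (min b c)) :=
  ⟨.of h.P0, .of h.Q0, .of h.τ0, .of (add_pos h.τ0 h.R0), .of h.K0, .of h.p0, .of h.a0, .of h.b0,
    .of h.c0, .of h.R0, .of (lt_min h.b0 h.c0)⟩

theorem MRng.log (h : MRng P Q τ K p a b c R) :
    LP.Rng (Real.log P) (Real.log Q) (Real.log τ) (Real.log (τ + R)) (Real.log K) (Real.log p)
      (Real.log a) (Real.log b) (Real.log c) (Real.log R) := by
  obtain ⟨lP, lQ, lt, ls, lK, lp, la, lb, lc, lR, -⟩ := h.lg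
  have k0 : 0 ≤ Real.log K := Real.log_nonneg (le_trans one_le_two h.K2)
  have e1 := Lg.one.le ((lK.mul (lQ.pow 2)).mul la) h.a2
  have e2 := Lg.one.le ((lK.mul (lp.pow 2)).mul lb) h.b2
  have e3 := Lg.one.le ((lK.mul (lp.pow 2)).mul lc) h.c2
  have e4 := Lg.one.le ((lK.mul (lQ.pow 2)).mul lc) h.c3
  have e5 := lt.le ((lQ.pow 2).div (lP.pow 2)) h.t1
  push_cast at e1 e2 e3 e4 e5
  refine ⟨k0, Real.log_nonneg h.P1, (lP.rpow _).le lQ h.q1, lQ.le lP h.q2,
    add_nonneg k0 (Real.log_nonneg h.p1), lp.le lP h.p2, la.le lK h.a1, lb.le lK h.b1,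
    lc.le lK h.c1, e1, e2, e3, e4, h.ta.imp (la.le (lK.mul lb)) (la.le (lK.mul lc)),
    h.tb.imp (lb.le (lK.mul la)) (lb.le (lK.mul lc)),
    h.tc.imp (lc.le (lK.mul la)) (lc.le (lK.mul lb)), lR.le lK h.r1, e5,
    lt.le ls (by linarith [h.R0]), lR.le ls (by linarith [h.τ0]), ?_⟩
  rcases le_total R τ with h1 | h1
  · exact Or.inl (ls.le (lK.mul lt) (by nlinarith [h.K2, h.τ0]))
  · exact Or.inr (ls.le (lK.mul lR) (by nlinarith [h.K2, h.R0]))

theorem MOcc.log (h : MRng P Q τ K p a b c R) (ho : MOcc τ K p a b c R O) (hO : 0 < O) :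
    LP.Occ (Real.log τ) (Real.log (τ + R)) (Real.log K) (Real.log p) (Real.log a) (Real.log b)
      (Real.log c) (Real.log R) (Real.log (min b c)) (Real.log O) := by
  obtain ⟨-, -, lt, ls, lK, lp, la, lb, lc, lR, lm⟩ := h.lg
  have lO := Lg.of hO
  have e1 := lO.le (lK.mul (lt.mul (((((lp.pow 3).mul lm).mul la).mul lb).mul (lR.pow 3)))) ho.cap
  have e2 := lO.le (lK.mul (lt.div lp)) ho.fl
  have e3 := lO.le (lK.mul (((lb.div la).mul ls).div lp)) ho.en
  push_cast at e1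
  exact ⟨lm.le lb (min_le_left _ _), lm.le lc (min_le_right _ _), by linarith, by linarith,
    by linarith⟩

theorem MKin.log (h : MRng P Q τ K p a b c R) (hk : MKin P τ K p b c R O) (hO : 0 < O) :
    LP.Kin (Real.log P) (Real.log (τ + R)) (Real.log K) (Real.log p) (Real.log b) (Real.log c)
      (Real.log R) (Real.log O) := by
  obtain ⟨lP, -, -, ls, lK, lp, -, lb, lc, lR, -⟩ := h.lg
  have lO := Lg.of hO
  rcases hk with hk | hk
  · have e := lO.le (lK.mul (((lb.mul lR).div (lc.mul lc.sqrt)).div lp)) hk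
    exact Or.inl (by linarith)
  · have e := lO.le (lK.mul (((lb.mul lR).div (lc.mul lc.sqrt)).mul
      ((ls.mul (lP.pow 2)).div (lp.pow 3)))) hk
    push_cast at e
    exact Or.inr (by linarith)

theorem MUns.log (h : MRng P Q τ K p a b c R) (hu : MUns P Q K p c) :
    LP.Uns (Real.log P) (Real.log Q) (Real.log K) (Real.log p) (Real.log c) := by
  obtain ⟨lP, lQ, -, -, lK, lp, -, -, lc, -, -⟩ := h.lg
  rcases hu with hu | hu | hu
  · exact Or.inl (lp.le (lK.mul (lP.rpow _)) hu)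
  · have e := ((lp.pow 2).mul lc).le (lK.mul ((lP.rpow _).mul lp.sqrt)) hu
    push_cast at e
    exact Or.inr (Or.inl (by linarith))
  · have e := ((lQ.pow 2).mul lc).le (lK.mul ((lP.rpow _).mul lQ.sqrt)) hu
    push_cast at e
    exact Or.inr (Or.inr (by linarith))

theorem MDir.log (h : MRng P Q τ K p a b c R) (hd : MDir P Q τ K p a b R) :
    LP.Dir (Real.log P) (Real.log Q) (Real.log (τ + R)) (Real.log K) (Real.log p) (Real.log a)
      (Real.log b) (Real.log R) := by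
  obtain ⟨lP, lQ, -, ls, lK, lp, la, lb, -, lR, -⟩ := h.lg
  rcases hd with hd | hd | hd | hd
  · have e := la.le (lK.mul ((lP.rpow _).mul (lQ.rpow _))) hd
    exact Or.inl (by linarith)
  · have e := ((lP.rpow _).mul ls).le (lK.mul (((lp.pow 2).mul lb).mul (lR.pow 2))) hd
    push_cast at e
    exact Or.inr (Or.inl (by linarith))
  · exact Or.inr (Or.inr (Or.inl (lp.le (lK.mul (lP.rpow _)) hd)))
  · have e := lR.le (lK.mul (lP.rpow _)) hd
    exact Or.inr (Or.inr (Or.inr (by linarith)))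

theorem MNr.log (h : MRng P Q τ K p a b c R) (hn : MNr P Q K a b) :
    LP.Nr (Real.log P) (Real.log Q) (Real.log K) (Real.log a) (Real.log b) := by
  obtain ⟨lP, lQ, -, -, lK, -, la, lb, -, -, -⟩ := h.lg
  have e := (((lQ.div lP).rpow _).mul la).le (lK.mul lb) hn
  unfold LP.Nr
  linarith

theorem MTr.log (h : MRng P Q τ K p a b c R) (ht : MTr P Q τ K p a b c R) :
    LP.Tr (Real.log P) (Real.log Q) (Real.log (τ + R)) (Real.log K) (Real.log p) (Real.log a)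
      (Real.log b) (Real.log c) (Real.log R) := by
  obtain ⟨lP, lQ, -, ls, lK, lp, la, lb, lc, lR, -⟩ := h.lg
  have e1 := lb.le (lK.mul (((lQ.div lP).rpow _).mul la)) ht.h1
  have e2 := ((lP.rpow _).mul (lQ.rpow _)).le (lK.mul la) ht.h2
  have e3 := (((lp.pow 2).mul lb).mul (lR.pow 2)).le (lK.mul ((lP.rpow _).mul ls)) ht.h3
  push_cast at e3
  exact ⟨by linarith, by linarith, by linarith, (lP.rpow _).le (lK.mul lp) ht.h4,
    (lP.rpow _).le (lK.mul lR) ht.h5, la.le (lK.mul lc) ht.h6, lc.le (lK.mul la) ht.h7⟩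

/-- From logarithmic bounds of two positive terms to the target. -/
theorem add_le_sm (h : MRng P Q τ K p a b c R) {v v' : ℝ} (hv : 0 < v) (hv' : 0 < v')
    (h1 : Real.log v ≤ Real.log Q - Real.log P / 200 + 101 * Real.log K)
    (h2 : Real.log v ≤ 10 * Real.log P + Real.log R / 2 + 101 * Real.log K)
    (h1' : Real.log v' ≤ Real.log Q - Real.log P / 200 + 101 * Real.log K)
    (h2' : Real.log v' ≤ 10 * Real.log P + Real.log R / 2 + 101 * Real.log K) :
    v + v' ≤ sm P Q K R := by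
  obtain ⟨lP, lQ, -, -, lK, -, -, -, -, lR, -⟩ := h.lg
  have hL := h.log.L0
  have hq := h.log.q1
  have lA := ((lK.pow 101).mul lQ).mul (lP.rpow (-1 / 200))
  have lB := lA.mul ((lP.pow 11).mul lR.sqrt)
  have a1 := (Lg.of hv).le_of lA (by push_cast; linarith)
  have a2 := (Lg.of hv').le_of lA (by push_cast; linarith)
  have b1 := (Lg.of hv).le_of lB (by push_cast; linarith)
  have b2 := (Lg.of hv').le_of lB (by push_cast; linarith)
  have c1 := mul_le_mul_of_nonneg_right h.K2 lA.1.le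
  have c2 := mul_le_mul_of_nonneg_right h.K2 lB.1.le
  have e1 : K ^ 102 * Q * P ^ (-1 / 200 : ℝ) = K * (K ^ 101 * Q * P ^ (-1 / 200 : ℝ)) := by ring
  unfold sm
  rw [e1, mul_assoc K]
  exact le_min (by linarith) (by linarith)

theorem sm_nonneg (h : MRng P Q τ K p a b c R) : 0 ≤ sm P Q K R := by
  have h1 := h.P0
  have h2 := h.Q0
  have h3 := h.K0
  unfold sm
  exact le_min (by positivity) (by positivity)

theorem mul_T (h : MRng P Q τ K p a b c R) (ho : MOcc τ K p a b c R O)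
    (hd : MDir P Q τ K p a b R ∨ MNr P Q K a b) : bT p a b R * O ≤ sm P Q K R := by
  rcases ho.O0.eq_or_lt with hO | hO
  · rw [← hO, mul_zero]
    exact sm_nonneg h
  obtain ⟨-, -, -, -, -, lp, la, lb, -, lR, -⟩ := h.lg
  have lO := Lg.of hO
  have lD := ((lp.pow 2).mul (lb.pow 3)).mul (lR.pow 2)
  have l1 := ((lO.mul la.sqrt).mul lb.sqrt).div lD
  have l2 := ((lO.mul lb.sqrt).mul lb.sqrt).div lD
  have e : bT p a b R * O = O * √a * √b / (p ^ 2 * b ^ 3 * R ^ 2) +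
      O * √b * √b / (p ^ 2 * b ^ 3 * R ^ 2) := by
    unfold bT
    ring
  have hd' := hd.imp (MDir.log h) (MNr.log h)
  have k0 := h.log.k0
  have a1 := LP.lT1 h.log (ho.log h hO) hd'
  have a2 := LP.lT2 h.log (ho.log h hO) hd'
  have a3 := LP.dT1 h.log (ho.log h hO)
  have a4 := LP.dT2 h.log (ho.log h hO)
  rw [e]
  refine add_le_sm h l1.1 l2.1 ?_ ?_ ?_ ?_
  · rw [l1.2]; push_cast; linarith
  · rw [l1.2]; push_cast; linarith
  · rw [l2.2]; push_cast; linarith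
  · rw [l2.2]; push_cast; linarith

/-- The first part of the acceleration term. -/
def Sg (τ p a b c R O : ℝ) : ℝ := bS p a b R * (√(O * b * p ^ 3 * min b c) * √τ)

/-- The second part of the acceleration term. -/
def Sb (τ p a b c R O : ℝ) : ℝ := bS p a b R * (√(O * b * p ^ 3 * min b c) * √(b * (τ + R) / a))

theorem bS_mF (τ p a b c R O : ℝ) :
    bS p a b R * mF τ p a b c R O = Sg τ p a b c R O + Sb τ p a b c R O := by
  unfold mF Sg Sb
  ring

theorem bS_mF_zero (τ p a b c R : ℝ) : bS p a b R * mF τ p a b c R 0 = 0 := by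
  unfold mF
  simp

theorem lg_Sg (hτ : 0 < τ) (hp : 0 < p) (ha : 0 < a) (hb : 0 < b) (hc : 0 < c) (hR : 0 < R)
    (hO : 0 < O) : Lg (Sg τ p a b c R O) ((Real.log τ + Real.log O + Real.log p +
      Real.log (min b c) + Real.log a) / 2 - 3 / 2 * Real.log b - Real.log R) := by
  have l := ((Lg.of ha).sqrt.div (((Lg.of hp).mul ((Lg.of hb).pow 2)).mul (Lg.of hR))).mul
    (((((Lg.of hO).mul (Lg.of hb)).mul ((Lg.of hp).pow 3)).mul (Lg.of (lt_min hb hc))).sqrt.mul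
      (Lg.of hτ).sqrt)
  refine ⟨l.1, l.2.trans ?_⟩
  push_cast
  ring

theorem lg_Sb (hτ : 0 < τ) (hp : 0 < p) (ha : 0 < a) (hb : 0 < b) (hc : 0 < c) (hR : 0 < R)
    (hO : 0 < O) : Lg (Sb τ p a b c R O) ((Real.log O + Real.log p + Real.log (min b c) +
      Real.log (τ + R)) / 2 - Real.log b - Real.log R) := by
  have l := ((Lg.of ha).sqrt.div (((Lg.of hp).mul ((Lg.of hb).pow 2)).mul (Lg.of hR))).mul
    (((((Lg.of hO).mul (Lg.of hb)).mul ((Lg.of hp).pow 3)).mul (Lg.of (lt_min hb hc))).sqrt.mul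
      (((Lg.of hb).mul (Lg.of (add_pos hτ hR))).div (Lg.of ha)).sqrt)
  refine ⟨l.1, l.2.trans ?_⟩
  push_cast
  ring

theorem log_Sg (hτ : 0 < τ) (hp : 0 < p) (ha : 0 < a) (hb : 0 < b) (hc : 0 < c) (hR : 0 < R)
    (hO : 0 < O) : Real.log (Sg τ p a b c R O) = (Real.log τ + Real.log O + Real.log p +
      Real.log (min b c) + Real.log a) / 2 - 3 / 2 * Real.log b - Real.log R :=
  (lg_Sg hτ hp ha hb hc hR hO).2

theorem log_Sb (hτ : 0 < τ) (hp : 0 < p) (ha : 0 < a) (hb : 0 < b) (hc : 0 < c) (hR : 0 < R)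
    (hO : 0 < O) : Real.log (Sb τ p a b c R O) = (Real.log O + Real.log p + Real.log (min b c) +
      Real.log (τ + R)) / 2 - Real.log b - Real.log R :=
  (lg_Sb hτ hp ha hb hc hR hO).2

theorem mul_S1 (h : MRng P Q τ K p a b c R) (ho : MOcc τ K p a b c R O)
    (hd : MDir P Q τ K p a b R) : bS p a b R * mF τ p a b c R O ≤ sm P Q K R := by
  rcases ho.O0.eq_or_lt with hO | hO
  · rw [← hO, bS_mF_zero]
    exact sm_nonneg h
  have l1 := lg_Sg h.τ0 h.p0 h.a0 h.b0 h.c0 h.R0 hO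
  have l2 := lg_Sb h.τ0 h.p0 h.a0 h.b0 h.c0 h.R0 hO
  have k0 := h.log.k0
  have a1 := LP.lSg1 h.log (ho.log h hO) (hd.log h)
  have a2 := LP.lSb1 h.log (ho.log h hO) (hd.log h)
  have a3 := LP.dSg h.log (ho.log h hO)
  have a4 := LP.dSb h.log (ho.log h hO)
  rw [bS_mF]
  refine add_le_sm h l1.1 l2.1 ?_ ?_ ?_ ?_
  · rw [l1.2]; linarith
  · rw [l1.2]; linarith
  · rw [l2.2]; linarith
  · rw [l2.2]; linarith

theorem mul_S2 (h : MRng P Q τ K p a b c R) (ho : MOcc τ K p a b c R O) (hn : MNr P Q K a b)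
    (hu : MUns P Q K p c ∨ τ ≤ K * R) : bS p a b R * mF τ p a b c R O ≤ sm P Q K R := by
  rcases ho.O0.eq_or_lt with hO | hO
  · rw [← hO, bS_mF_zero]
    exact sm_nonneg h
  have l1 := lg_Sg h.τ0 h.p0 h.a0 h.b0 h.c0 h.R0 hO
  have l2 := lg_Sb h.τ0 h.p0 h.a0 h.b0 h.c0 h.R0 hO
  have k0 := h.log.k0
  have hu' := hu.imp (MUns.log h) ((Lg.of h.τ0).le ((Lg.of h.K0).mul (Lg.of h.R0)))
  have a1 := LP.lSg2 h.log (ho.log h hO) (hn.log h) hu'
  have a2 := LP.lSb2 h.log (ho.log h hO) (hn.log h) hu'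
  have a3 := LP.dSg h.log (ho.log h hO)
  have a4 := LP.dSb h.log (ho.log h hO)
  rw [bS_mF]
  refine add_le_sm h l1.1 l2.1 ?_ ?_ ?_ ?_
  · rw [l1.2]; linarith
  · rw [l1.2]; linarith
  · rw [l2.2]; linarith
  · rw [l2.2]; linarith

end

end Vale.Agent.P107
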