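import Vale.Agent.P107.Mul1
import Vale.Agent.P107.LP4

/-! Subcritical piece bounds, transfer part. -/

namespace Vale.Agent.P107

open MeasureTheory Set Filter Topology
open scoped ENNReal RealInnerProductSpace

noncomputable section

variable {P Q τ K p a b c R O : ℝ}

namespace Mul2

lemma P0 (h : MRng P Q τ K p a b c R) : 0 < P := lt_of_lt_of_le one_pos h.P1

lemma Q0 (h : MRng P Q τ K p a b c R) : 0 < Q :=
  lt_of_lt_of_le (Real.rpow_pos_of_pos (P0 h) _) h.q1

lemma p0 (h : MRng P Q τ K p a b c R) : 0 < p := lt_of_lt_of_le one_pos h.p1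

lemma K0 (h : MRng P Q τ K p a b c R) : 0 < K := lt_of_lt_of_le two_pos h.K2

lemma eta_pos (h : MRng P Q τ K p a b c R) : 0 < eta P Q :=
  mul_pos (Real.rpow_pos_of_pos (P0 h) _) (Real.rpow_pos_of_pos (Q0 h) _)

lemma log_eta (h : MRng P Q τ K p a b c R) :
    Real.log (eta P Q / Q) = 1 / 10 * Real.log P - 3 / 4 * Real.log Q := by
  have h1 := P0 h
  have h2 := Q0 h
  rw [Real.log_div (eta_pos h).ne' h2.ne', eta,
    Real.log_mul (Real.rpow_pos_of_pos h1 _).ne' (Real.rpow_pos_of_pos h2 _).ne',
    Real.log_rpow h1, Real.log_rpow h2]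
  ring

lemma fac_pos (h : MRng P Q τ K p a b c R) : 0 < eta P Q / Q / √a :=
  div_pos (div_pos (eta_pos h) (Q0 h)) (Real.sqrt_pos.2 h.a0)

lemma log_fac (h : MRng P Q τ K p a b c R) :
    Real.log (eta P Q / Q / √a) = 1 / 10 * Real.log P - 3 / 4 * Real.log Q - Real.log a / 2 := by
  rw [Real.log_div (div_pos (eta_pos h) (Q0 h)).ne' (Real.sqrt_pos.2 h.a0).ne', log_eta h,
    Real.log_sqrt h.a0.le]

lemma bS_pos (h : MRng P Q τ K p a b c R) : 0 < bS p a b R := by
  have := p0 h
  have := h.a0
  have := h.b0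
  have := h.R0
  unfold bS
  positivity

lemma log_bS (h : MRng P Q τ K p a b c R) : Real.log (bS p a b R) =
    Real.log a / 2 - Real.log p - 2 * Real.log b - Real.log R := by
  have h1 := p0 h
  have h2 := h.a0
  have h3 := h.b0
  have h4 := h.R0
  unfold bS
  rw [Real.log_div (by positivity) (by positivity), Real.log_mul (by positivity) h4.ne',
    Real.log_mul h1.ne' (by positivity), Real.log_pow, Real.log_sqrt h2.le]
  push_cast
  ring

lemma bG_pos (h : MRng P Q τ K p a b c R) : 0 < bG a b R := by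
  have := h.a0
  have := h.b0
  have := h.R0
  unfold bG
  positivity

lemma log_bG (h : MRng P Q τ K p a b c R) : Real.log (bG a b R) =
    Real.log a / 2 - 3 / 2 * Real.log b - 2 * Real.log R := by
  have h2 := h.a0
  have h3 := h.b0
  have h4 := h.R0
  unfold bG
  rw [Real.log_div (by positivity) (by positivity), Real.log_mul (by positivity) (by positivity),
    Real.log_mul h3.ne' (by positivity), Real.log_pow, Real.log_sqrt h2.le, Real.log_sqrt h3.le]
  push_cast
  ring

lemma bH_pos (h : MRng P Q τ K p a b c R) : 0 < bH a b R := by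
  have := h.a0
  have := h.b0
  have := h.R0
  unfold bH
  positivity

lemma log_bH (h : MRng P Q τ K p a b c R) : Real.log (bH a b R) =
    -(Real.log a / 2) - Real.log b / 2 - Real.log R := by
  have h2 := h.a0
  have h3 := h.b0
  have h4 := h.R0
  unfold bH
  rw [Real.log_div one_ne_zero (by positivity), Real.log_mul (by positivity) h4.ne',
    Real.log_mul (by positivity) (by positivity), Real.log_sqrt h2.le, Real.log_sqrt h3.le,
    Real.log_one]
  ring

lemma bL_pos (h : MRng P Q τ K p a b c R) : 0 < bL a b R := by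
  have := h.a0
  have := h.b0
  have := h.R0
  unfold bL
  positivity

lemma log_bL (h : MRng P Q τ K p a b c R) : Real.log (bL a b R) =
    -Real.log a - Real.log b / 2 - Real.log R := by
  have h2 := h.a0
  have h3 := h.b0
  have h4 := h.R0
  unfold bL
  rw [Real.log_div one_ne_zero (by positivity), Real.log_mul (by positivity) h4.ne',
    Real.log_mul h2.ne' (by positivity), Real.log_sqrt h3.le, Real.log_one]
  ring

lemma rt_pos (h : MRng P Q τ K p a b c R) (hO : 0 < O) : 0 < O * b * p ^ 3 * min b c := by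
  have h1 := p0 h
  have h3 := h.b0
  have h4 := lt_min h.b0 h.c0
  positivity

lemma log_rt (h : MRng P Q τ K p a b c R) (hO : 0 < O) :
    Real.log √(O * b * p ^ 3 * min b c) =
      (Real.log O + Real.log b + 3 * Real.log p + Real.log (min b c)) / 2 := by
  have h1 := p0 h
  have h3 := h.b0
  have h4 := lt_min h.b0 h.c0
  rw [Real.log_sqrt (rt_pos h hO).le, Real.log_mul (by positivity) h4.ne',
    Real.log_mul (by positivity) (by positivity), Real.log_mul hO.ne' h3.ne', Real.log_pow]
  push_cast
  ring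

lemma log_rb (h : MRng P Q τ K p a b c R) : Real.log √(b * (τ + R) / a) =
    (Real.log b + Real.log (τ + R) - Real.log a) / 2 := by
  have h2 := h.a0
  have h3 := h.b0
  have h4 := add_pos h.τ0 h.R0
  rw [Real.log_sqrt (by positivity), Real.log_div (by positivity) h2.ne',
    Real.log_mul h3.ne' h4.ne']

lemma le_sm (h : MRng P Q τ K p a b c R) {v : ℝ} (hv : 0 < v)
    (h1 : Real.log v ≤ Real.log Q - Real.log P / 200 + 101 * Real.log K)
    (h2 : Real.log v ≤ 10 * Real.log P + Real.log R / 2 + 101 * Real.log K) :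
    v ≤ sm P Q K R := by
  have := add_le_sm h hv hv h1 h2 h1 h2
  linarith

lemma kin_log (h : MRng P Q τ K p a b c R) (hO : 0 < O)
    (hk : MKin P τ K p b c R O ∨ MUns P Q K p c) :
    LP.Kin (Real.log P) (Real.log (τ + R)) (Real.log K) (Real.log p) (Real.log b) (Real.log c)
      (Real.log R) (Real.log O) ∨
    LP.Uns (Real.log P) (Real.log Q) (Real.log K) (Real.log p) (Real.log c) :=
  hk.imp (fun x => MKin.log h x hO) (MUns.log h)

lemma uns_log (h : MRng P Q τ K p a b c R) (hu : MUns P Q K p c ∨ τ ≤ K * R) :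
    LP.Uns (Real.log P) (Real.log Q) (Real.log K) (Real.log p) (Real.log c) ∨
      Real.log τ ≤ Real.log K + Real.log R := by
  refine hu.imp (MUns.log h) fun x => ?_
  rw [← Real.log_mul (K0 h).ne' h.R0.ne']
  exact Real.log_le_log h.τ0 x

lemma cap_log (h : MRng P Q τ K p a b c R) {M : ℝ} (hM : 0 < M)
    (cap : M ≤ K * (p ^ 3 * min b c * a * b * R ^ 3)) :
    Real.log M ≤ Real.log K + 3 * Real.log p + Real.log a + 2 * Real.log b + 3 * Real.log R := by
  have h0 := K0 h
  have h1 := p0 h
  have h2 := h.a0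
  have h3 := h.b0
  have h4 := h.R0
  have h5 := lt_min h.b0 h.c0
  have h6 := Real.log_le_log h5 (min_le_left b c)
  have h7 := Real.log_le_log hM cap
  rw [Real.log_mul h0.ne' (by positivity), Real.log_mul (by positivity) (by positivity),
    Real.log_mul (by positivity) h3.ne', Real.log_mul (by positivity) h2.ne',
    Real.log_mul (by positivity) h5.ne', Real.log_pow, Real.log_pow] at h7
  push_cast at h7
  linarith

lemma fl_log (h : MRng P Q τ K p a b c R) {M : ℝ} (hM : 0 < M) (fl : M ≤ K / p) :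
    Real.log M ≤ Real.log K - Real.log p := by
  rw [← Real.log_div (K0 h).ne' (p0 h).ne']
  exact Real.log_le_log hM fl

end Mul2

open Mul2

theorem mul_ES (h : MRng P Q τ K p a b c R) (ho : MOcc τ K p a b c R O)
    (ht : MTr P Q τ K p a b c R) (hk : MKin P τ K p b c R O ∨ MUns P Q K p c) :
    eta P Q / Q / √a * (bS p a b R * mF τ p a b c R O) ≤ sm P Q K R := by
  rcases ho.O0.eq_or_lt with hO | hO
  · subst hO
    simpa [mF] using sm_nonneg h
  have r := MRng.log h
  have o := MOcc.log h ho hO
  have t := MTr.log h ht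
  have k := kin_log h hO hk
  have f0 := fac_pos h
  have s0 := bS_pos h
  have w0 := Real.sqrt_pos.2 (rt_pos h hO)
  have τ0 := Real.sqrt_pos.2 h.τ0
  have b0 : 0 < √(b * (τ + R) / a) :=
    Real.sqrt_pos.2 (div_pos (mul_pos h.b0 (add_pos h.τ0 h.R0)) h.a0)
  have e : eta P Q / Q / √a * (bS p a b R * mF τ p a b c R O) =
      eta P Q / Q / √a * (bS p a b R * (√(O * b * p ^ 3 * min b c) * √τ)) +
        eta P Q / Q / √a * (bS p a b R * (√(O * b * p ^ 3 * min b c) * √(b * (τ + R) / a))) := by
    unfold mF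
    ring
  have l1 : Real.log (eta P Q / Q / √a * (bS p a b R * (√(O * b * p ^ 3 * min b c) * √τ))) =
      1 / 10 * Real.log P - 3 / 4 * Real.log Q - Real.log a / 2 +
        ((Real.log τ + Real.log O + Real.log p + Real.log (min b c) + Real.log a) / 2 -
          3 / 2 * Real.log b - Real.log R) := by
    rw [Real.log_mul f0.ne' (by positivity), Real.log_mul s0.ne' (by positivity),
      Real.log_mul w0.ne' τ0.ne', log_fac h, log_bS h, log_rt h hO, Real.log_sqrt h.τ0.le]
    ring
  have l2 : Real.log (eta P Q / Q / √a *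
      (bS p a b R * (√(O * b * p ^ 3 * min b c) * √(b * (τ + R) / a)))) =
      1 / 10 * Real.log P - 3 / 4 * Real.log Q - Real.log a / 2 +
        ((Real.log O + Real.log p + Real.log (min b c) + Real.log (τ + R)) / 2 -
          Real.log b - Real.log R) := by
    rw [Real.log_mul f0.ne' (by positivity), Real.log_mul s0.ne' (by positivity),
      Real.log_mul w0.ne' b0.ne', log_fac h, log_bS h, log_rt h hO, log_rb h]
    ring
  have x1 := LP.lESg r o t k
  have x2 := LP.lESb r o t k
  have x3 := LP.dSg r o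
  have x4 := LP.dSb r o
  have x5 := t.h2
  have x6 := r.k0
  have x7 := r.L0
  rw [e]
  refine add_le_sm h (by positivity) (by positivity) ?_ ?_ ?_ ?_
  · rw [l1]; linarith
  · rw [l1]; linarith
  · rw [l2]; linarith
  · rw [l2]; linarith

theorem mul_EG (h : MRng P Q τ K p a b c R) (ho : MOcc τ K p a b c R O)
    (ht : MTr P Q τ K p a b c R) (hk : MKin P τ K p b c R O ∨ MUns P Q K p c) :
    eta P Q / Q / √a * (bG a b R * O) ≤ sm P Q K R := by
  rcases ho.O0.eq_or_lt with hO | hO
  · subst hO
    simpa using sm_nonneg h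
  have r := MRng.log h
  have o := MOcc.log h ho hO
  have t := MTr.log h ht
  have k := kin_log h hO hk
  have f0 := fac_pos h
  have s0 := bG_pos h
  have l1 : Real.log (eta P Q / Q / √a * (bG a b R * O)) =
      1 / 10 * Real.log P - 3 / 4 * Real.log Q - Real.log a / 2 +
        (Real.log O + Real.log a / 2 - 3 / 2 * Real.log b - 2 * Real.log R) := by
    rw [Real.log_mul f0.ne' (by positivity), Real.log_mul s0.ne' hO.ne', log_fac h, log_bG h]
    ring
  have x1 := LP.lEG r o t k
  have x3 := LP.dG r o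
  have x5 := t.h2
  have x6 := r.k0
  have x7 := r.L0
  refine le_sm h (by positivity) ?_ ?_
  · rw [l1]; linarith
  · rw [l1]; linarith

theorem mul_G1 (h : MRng P Q τ K p a b c R) (ho : MOcc τ K p a b c R O)
    (ht : MTr P Q τ K p a b c R) (hd : MDir P Q τ K p a b R)
    (hk : MKin P τ K p b c R O ∨ MUns P Q K p c) : bG a b R * O ≤ sm P Q K R := by
  rcases ho.O0.eq_or_lt with hO | hO
  · subst hO
    simpa using sm_nonneg h
  have r := MRng.log h
  have o := MOcc.log h ho hO
  have s0 := bG_pos h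
  have x1 := LP.lG1 r o (MTr.log h ht) (MDir.log h hd) (kin_log h hO hk)
  have x3 := LP.dG r o
  have x6 := r.k0
  refine le_sm h (by positivity) ?_ ?_
  · rw [Real.log_mul s0.ne' hO.ne', log_bG h]; linarith
  · rw [Real.log_mul s0.ne' hO.ne', log_bG h]; linarith

theorem mul_G2 (h : MRng P Q τ K p a b c R) (ho : MOcc τ K p a b c R O)
    (ht : MTr P Q τ K p a b c R) (hn : MNr P Q K a b) (hu : MUns P Q K p c ∨ τ ≤ K * R) :
    bG a b R * O ≤ sm P Q K R := by
  rcases ho.O0.eq_or_lt with hO | hO
  · subst hO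
    simpa using sm_nonneg h
  have r := MRng.log h
  have o := MOcc.log h ho hO
  have s0 := bG_pos h
  have x1 := LP.lG2 r o (MTr.log h ht) (MNr.log h hn) (uns_log h hu)
  have x3 := LP.dG r o
  have x6 := r.k0
  refine le_sm h (by positivity) ?_ ?_
  · rw [Real.log_mul s0.ne' hO.ne', log_bG h]; linarith
  · rw [Real.log_mul s0.ne' hO.ne', log_bG h]; linarith

theorem mul_H (h : MRng P Q τ K p a b c R) (ht : MTr P Q τ K p a b c R) {M : ℝ} (hM : 0 ≤ M)
    (cap : M ≤ K * (p ^ 3 * min b c * a * b * R ^ 3)) (fl : M ≤ K / p) :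
    bH a b R * M ≤ eta P Q / Q * sm P Q K R := by
  have f0 : 0 < eta P Q / Q := div_pos (eta_pos h) (Q0 h)
  rcases hM.eq_or_lt with hO | hO
  · subst hO
    simpa using mul_nonneg f0.le (sm_nonneg h)
  have r := MRng.log h
  have t := MTr.log h ht
  have s0 := bH_pos h
  have x1 := LP.lH r t (cap_log h hO cap) (fl_log h hO fl)
  have x5 := t.h5
  have x6 := r.k0
  have x7 := r.L0
  have x8 := r.q2
  rw [← div_le_iff₀' f0]
  refine le_sm h (by positivity) ?_ ?_
  · rw [Real.log_div (by positivity) f0.ne', Real.log_mul s0.ne' hO.ne', log_bH h, log_eta h]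
    linarith
  · rw [Real.log_div (by positivity) f0.ne', Real.log_mul s0.ne' hO.ne', log_bH h, log_eta h]
    linarith

theorem mul_L (h : MRng P Q τ K p a b c R) (ht : MTr P Q τ K p a b c R) {M : ℝ} (hM : 0 ≤ M)
    (cap : M ≤ K * (p ^ 3 * min b c * a * b * R ^ 3)) (fl : M ≤ K / p) :
    bL a b R * M ≤ sm P Q K R := by
  rcases hM.eq_or_lt with hO | hO
  · subst hO
    simpa using sm_nonneg h
  have r := MRng.log h
  have t := MTr.log h ht
  have s0 := bL_pos h
  have x1 := LP.lL r t (cap_log h hO cap) (fl_log h hO fl)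
  have x5 := t.h5
  have x6 := r.k0
  have x7 := r.L0
  have x8 := r.q2
  refine le_sm h (by positivity) ?_ ?_
  · rw [Real.log_mul s0.ne' hO.ne', log_bL h]; linarith
  · rw [Real.log_mul s0.ne' hO.ne', log_bL h]; linarith

end

end Vale.Agent.P107
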