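import Vale.Agent.P107.Sum
import Vale.Agent.P107.LP

/-! Multiplicative form of the hypotheses of the piece bounds. -/

namespace Vale.Agent.P107

open MeasureTheory Set Filter Topology
open scoped ENNReal RealInnerProductSpace

noncomputable section

/-- Ranges of the parameters of a box. -/
structure MRng (P Q τ K p a b c R : ℝ) : Prop where
  K2 : 2 ≤ K
  P1 : 1 ≤ P
  q1 : P ^ (11 / 20 : ℝ) ≤ Q
  q2 : Q ≤ P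
  τ0 : 0 < τ
  p1 : 1 ≤ p
  p2 : p ≤ P
  a0 : 0 < a
  b0 : 0 < b
  c0 : 0 < c
  R0 : 0 < R
  a1 : a ≤ K
  b1 : b ≤ K
  c1 : c ≤ K
  a2 : 1 ≤ K * Q ^ 2 * a
  b2 : 1 ≤ K * p ^ 2 * b
  c2 : 1 ≤ K * p ^ 2 * c
  c3 : 1 ≤ K * Q ^ 2 * c
  ta : a ≤ K * b ∨ a ≤ K * c
  tb : b ≤ K * a ∨ b ≤ K * c
  tc : c ≤ K * a ∨ c ≤ K * b
  r1 : R ≤ K
  t1 : τ ≤ Q ^ 2 / P ^ 2

/-- The three occupancy bounds. -/
structure MOcc (τ K p a b c R O : ℝ) : Prop where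
  O0 : 0 ≤ O
  cap : O ≤ K * (τ * (p ^ 3 * min b c * a * b * R ^ 3))
  fl : O ≤ K * (τ / p)
  en : O ≤ K * (b / a * (τ + R) / p)

/-- The kinematic bound. -/
def MKin (P τ K p b c R O : ℝ) : Prop :=
  O ≤ K * (b * R / (c * √c) / p) ∨ O ≤ K * (b * R / (c * √c) * ((τ + R) * P ^ 2 / p ^ 3))

/-- Unstable boxes. -/
def MUns (P Q K p c : ℝ) : Prop :=
  p ≤ K * P ^ (11 / 20 : ℝ) ∨ p ^ 2 * c ≤ K * (P ^ (1 / 5 : ℝ) * √p) ∨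
    Q ^ 2 * c ≤ K * (P ^ (1 / 5 : ℝ) * √Q)

/-- Direct boxes. -/
def MDir (P Q τ K p a b R : ℝ) : Prop :=
  a ≤ K * (P ^ (6 / 25 : ℝ) * Q ^ (-3 / 2 : ℝ)) ∨
    P ^ (1 / 50 : ℝ) * (τ + R) ≤ K * (p ^ 2 * b * R ^ 2) ∨ p ≤ K * P ^ (11 / 20 : ℝ) ∨
      R ≤ K * P ^ (-10 : ℝ)

/-- Boxes with `b ≳ θ a`. -/
def MNr (P Q K a b : ℝ) : Prop := (Q / P) ^ (3 / 2 : ℝ) * a ≤ K * b

/-- Transfer boxes. -/
structure MTr (P Q τ K p a b c R : ℝ) : Prop where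
  h1 : b ≤ K * ((Q / P) ^ (3 / 2 : ℝ) * a)
  h2 : P ^ (6 / 25 : ℝ) * Q ^ (-3 / 2 : ℝ) ≤ K * a
  h3 : p ^ 2 * b * R ^ 2 ≤ K * (P ^ (1 / 50 : ℝ) * (τ + R))
  h4 : P ^ (11 / 20 : ℝ) ≤ K * p
  h5 : P ^ (-10 : ℝ) ≤ K * R
  h6 : a ≤ K * c
  h7 : c ≤ K * a

/-- The bound for the mean force on the sources of a box. -/
def mF (τ p a b c R O : ℝ) : ℝ := √(O * b * p ^ 3 * min b c) * (√τ + √(b * (τ + R) / a))

/-- The target of the subcritical bounds. -/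
def sm (P Q K R : ℝ) : ℝ :=
  min (K ^ 102 * Q * P ^ (-1 / 200 : ℝ)) (K ^ 102 * Q * P ^ (-1 / 200 : ℝ) * (P ^ 11 * √R))

/-- The distance at which the two occupancy bounds agree. -/
def rho0 (τ N p a b c : ℝ) : ℝ := √(N / (τ * p ^ 4 * min b c * a * (c * √c)))

/-- Hypotheses of the critical bounds. -/
structure MCr (θ τ N K p a b c R O : ℝ) : Prop where
  K2 : 2 ≤ K
  θ0 : 0 < θ
  θ1 : θ ≤ 1
  τ0 : 0 < τ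
  N0 : 0 < N
  p0 : 0 < p
  a0 : 0 < a
  b0 : 0 < b
  c0 : 0 < c
  R0 : 0 < R
  O0 : 0 ≤ O
  a1 : a ≤ K
  b1 : b ≤ K
  c1 : c ≤ K
  ta : a ≤ K * b ∨ a ≤ K * c
  tb : b ≤ K * a ∨ b ≤ K * c
  tc : c ≤ K * a ∨ c ≤ K * b
  nr : θ * a ≤ K * b
  cap : O ≤ K * (τ * (p ^ 3 * min b c * a * b * R ^ 3))
  kin : O ≤ K * (b * R / (c * √c) * N / p)
  Rτ : R ≤ τ

/-- The profile of the critical bounds in the source energy. -/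
def gg (c0 P Q p : ℝ) : ℝ :=
  √(uu c0 P Q) * p * √(1 + uu c0 P Q / uu c0 P p) +
    ((Q / P) ^ (3 / 2 : ℝ) / 1000) ^ (-1 / 3 : ℝ) * (uu c0 P Q) ^ (3 / 4 : ℝ) * p *
      (1 + uu c0 P Q / uu c0 P p) ^ (1 / 4 : ℝ)

end

end Vale.Agent.P107
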