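import Vale.Agent.P107.CtxB
import Vale.Agent.P107.Geo

/-! The three occupancy bounds that always hold. -/

namespace Vale.Agent.P107

open MeasureTheory Set Filter Topology
open scoped ENNReal RealInnerProductSpace

noncomputable section

theorem occ_ang {α : Type} [MeasurableSpace α] {f g : α → V} (hf : Measurable f)
    (hg : Measurable g) : Measurable fun a => ang (f a) (g a) :=
  measurable_const.sub (hf.inner hg)

theorem occ_toReal {μ : ℝ≥0∞} {M : ℝ} (hM : 0 ≤ M) (h : μ ≤ ENNReal.ofReal M) : μ.toReal ≤ M :=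
  ENNReal.toReal_le_of_le_ofReal hM h

/-- Markov inequality for the energy. -/
theorem occ_markov {ν : Measure Z} {A B : Set Z} (hA : MeasurableSet A) (hAB : A ⊆ B) {f : Z → ℝ}
    {p En : ℝ} (hp : 0 < p) (hf : ∀ z ∈ A, p ≤ f z)
    (h : ∫⁻ z in B, ENNReal.ofReal (f z) ∂ν ≤ ENNReal.ofReal En) :
    ν A ≤ ENNReal.ofReal (En / p) := by
  have h1 : ∫⁻ _z in A, ENNReal.ofReal p ∂ν ≤ ∫⁻ z in A, ENNReal.ofReal (f z) ∂ν :=
    setLIntegral_mono' hA fun z hz => ENNReal.ofReal_le_ofReal (hf z hz)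
  rw [setLIntegral_const] at h1
  have h2 := h1.trans ((lintegral_mono_set hAB).trans h)
  rw [ENNReal.ofReal_div_of_pos hp, ENNReal.le_div_iff_mul_le (Or.inl (by simpa using hp))
    (Or.inl ENNReal.ofReal_ne_top), mul_comm]
  exact h2

namespace Ctx

section

variable {T1 F0 En C0 P0 c0 P : ℝ} (x : Ctx T1 F0 En C0 P0 c0 P)

theorem occ_slice (s : ℝ) (d : Box) : MeasurableSet {z | (s, z) ∈ x.piece d} :=
  measurable_prodMk_left (x.measurableSet_piece d)

/-- The cone bound for a product of a function of the position and an indicator function. -/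
theorem occ_cone (s : ℝ) {A : Set Z} (hA : MeasurableSet A) {g : V → ℝ≥0∞} (hg : Measurable g)
    {T : Set Z} (hT : MeasurableSet T) {f : Z → ℝ≥0∞} {B : Set V} (hB : MeasurableSet B)
    {β M : ℝ≥0∞} (h1 : ∀ z ∈ T, (x.S.Y z (x.sg s z), x.Ws s z) ∈ A ∧ f z ≤ g (x.S.Y z (x.sg s z)))
    (h2 : ∀ w ∈ A, w.1 ∈ B ∧ ENNReal.ofReal (ang (vel w.2) (nrm (x.X s - w.1))) ≤ β)
    (h3 : ∀ y, volume {v | (y, v) ∈ A} ≤ M) :
    ∫⁻ z in T, f z ∂x.S.ν ≤ ENNReal.ofReal F0 * (β * M * ∫⁻ y in B, g y) := by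
  have c := x.S.cone s (x.X s) (A.indicator fun w => g w.1) ((hg.comp measurable_fst).indicator hA)
  refine le_trans ((setLIntegral_mono' hT fun z hz => ?_).trans (setLIntegral_le_lintegral _ _))
    (c.trans (mul_le_mul_right ?_ _))
  · have := h1 z hz
    exact this.2.trans_eq (indicator_of_mem (f := fun w : Z => g w.1) this.1).symm
  · rw [← lintegral_const_mul _ hg, ← lintegral_indicator hB]
    refine lintegral_mono fun y => ?_
    have hy : MeasurableSet {v | (y, v) ∈ A} := measurable_prodMk_left hA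
    calc ∫⁻ v, ENNReal.ofReal (ang (vel v) (nrm (x.X s - y))) * A.indicator (fun w => g w.1) (y, v)
        ≤ ∫⁻ v, {v | (y, v) ∈ A}.indicator (fun _ => B.indicator (fun y => β * g y) y) v := by
          refine lintegral_mono fun v => ?_
          by_cases hv : (y, v) ∈ A
          · rw [indicator_of_mem hv, indicator_of_mem (show v ∈ {v | (y, v) ∈ A} from hv),
              indicator_of_mem (h2 _ hv).1]
            exact mul_le_mul_left (h2 _ hv).2 _
          · rw [indicator_of_notMem hv, mul_zero]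
            exact zero_le
      _ ≤ B.indicator (fun y => β * g y) y * M := by
          rw [lintegral_indicator_const hy]
          exact mul_le_mul_right (h3 y) _
      _ = B.indicator (fun y => β * M * g y) y := by
          by_cases hy : y ∈ B
          · rw [indicator_of_mem hy, indicator_of_mem hy, mul_right_comm]
          · rw [indicator_of_notMem hy, indicator_of_notMem hy, zero_mul]

end

theorem Ms_cap : ∃ C : ℝ, 1 ≤ C ∧ ∀ (T1 F0 En C0 P0 c0 P : ℝ) (x : Ctx T1 F0 En C0 P0 c0 P)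
    (d : Box), d.Pos → ∀ s : ℝ,
    x.Ms s d ≤ C * F0 * (d.p ^ 3 * min d.b d.c * d.a * d.b * d.R ^ 3) := by
  obtain ⟨CV, hV1, hV⟩ := vol_V
  obtain ⟨CY, hY1, hY⟩ := vol_Y
  refine ⟨512 * CV * CY, by nlinarith, fun T1 F0 En C0 P0 c0 P x d hd s => ?_⟩
  have hF : 0 ≤ F0 := zero_le_one.trans x.num.hF0
  have hp : 0 < d.p := zero_lt_one.trans_le hd.p
  have ha := hd.a
  have hb := hd.b
  have hc := hd.c
  have hR := hd.R
  have hm : 0 < min d.b d.c := lt_min hb hc
  refine occ_toReal (by positivity) ?_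
  rcases eq_empty_or_nonempty {z | (s, z) ∈ x.piece d} with he | ⟨z0, hz0⟩
  · rw [he, measure_empty]
    exact zero_le
  obtain ⟨-, -, ⟨-, -, ra⟩, ⟨-, rb⟩, ⟨-, -, rc⟩, -⟩ := x.act_range hz0.1
  have ha2 := hz0.2.a1.trans ra
  have hb2 := hz0.2.b1.trans rb
  have hc2 := hz0.2.c1.trans rc
  have hu : ‖vel (x.U s)‖ ≤ 1 := (norm_vel_lt _).le
  have mn : Measurable fun y : V => nrm (x.X s - y) :=
    measurable_nrm.comp (measurable_const.sub measurable_id)
  have mv : Measurable fun w : Z => vel w.2 :=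
    contDiff_vel.continuous.measurable.comp measurable_snd
  have hB : MeasurableSet
      {y : V | ‖x.X s - y‖ ≤ 2 * d.R ∧ ang (vel (x.U s)) (nrm (x.X s - y)) ≤ 2 * d.a} :=
    (measurableSet_le (measurable_const.sub measurable_id).norm measurable_const).inter
      (measurableSet_le (occ_ang measurable_const mn) measurable_const)
  have hA : MeasurableSet {w : Z | (‖x.X s - w.1‖ ≤ 2 * d.R ∧
      ang (vel (x.U s)) (nrm (x.X s - w.1)) ≤ 2 * d.a) ∧ q w.2 ≤ 2 * d.p ∧
      ang (vel w.2) (nrm (x.X s - w.1)) ≤ 2 * d.b ∧ ang (vel (x.U s)) (vel w.2) ≤ 2 * d.c} :=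
    (measurable_fst hB).inter ((measurableSet_le
      (contDiff_q.continuous.measurable.comp measurable_snd) measurable_const).inter
      ((measurableSet_le (occ_ang mv (mn.comp measurable_fst)) measurable_const).inter
        (measurableSet_le (occ_ang measurable_const mv) measurable_const)))
  have key := x.occ_cone s hA (g := fun _ => 1) measurable_const (x.occ_slice s d)
    (f := fun _ => 1) hB (β := ENNReal.ofReal (2 * d.b))
    (M := ENNReal.ofReal (CV * ((2 * d.p) ^ 3 * (2 * min d.b d.c))))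
    (fun z hz => ⟨⟨⟨hz.2.R2, hz.2.a2⟩, hz.2.p2, hz.2.b2, hz.2.c2⟩, le_rfl⟩)
    (fun w hw => ⟨hw.1, ENNReal.ofReal_le_ofReal hw.2.2.1⟩) (fun y => by
      rcases le_total d.b d.c with h | h
      · rw [min_eq_left h]
        refine le_trans (measure_mono fun v hv => ?_) (hV (nrm (x.X s - y)) (2 * d.p) (2 * d.b)
          (norm_nrm_le _) (by positivity) (by positivity) (by linarith))
        exact ⟨hv.2.1, hv.2.2.1⟩
      · rw [min_eq_right h]
        refine le_trans (measure_mono fun v hv => ?_) (hV (vel (x.U s)) (2 * d.p) (2 * d.c)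
          hu (by positivity) (by positivity) (by linarith))
        exact ⟨hv.2.1, (ang_comm _ _).trans_le hv.2.2.2⟩)
  rw [setLIntegral_one, setLIntegral_one] at key
  refine key.trans ((mul_le_mul_right (mul_le_mul_right
    (hY _ _ _ _ hu (by positivity) (by positivity) (by linarith)) _) _).trans_eq ?_)
  rw [← ENNReal.ofReal_mul (by positivity), ← ENNReal.ofReal_mul (by positivity),
    ← ENNReal.ofReal_mul hF]
  congr 1
  ring

variable {T1 F0 En C0 P0 c0 P : ℝ} (x : Ctx T1 F0 En C0 P0 c0 P)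

theorem Ms_fl {d : Box} (hd : d.Pos) (s : ℝ) : x.Ms s d ≤ En / d.p := by
  have hE : 0 ≤ En := zero_le_one.trans x.num.hEn
  have hp : 0 < d.p := zero_lt_one.trans_le hd.p
  refine occ_toReal (by positivity) ?_
  rcases eq_empty_or_nonempty {z | (s, z) ∈ x.piece d} with he | ⟨z0, hz0⟩
  · rw [he, measure_empty]
    exact zero_le
  exact occ_markov (x.occ_slice s d) (fun z hz => hz.1.2.2.1) hp (fun z hz => hz.2.p1)
    (x.S.flP s (x.mem_Icc hz0.1.1) (x.X s))

theorem O_en {d : Box} (hd : d.Pos) : x.O d ≤ 4 * En * (d.b / d.a * (x.τ + d.R) / d.p) := by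
  have hE : 0 ≤ En := zero_le_one.trans x.num.hEn
  have hp : 0 < d.p := zero_lt_one.trans_le hd.p
  have ha := hd.a
  have hb := hd.b
  have hR := hd.R
  have hτ := x.τ_pos
  have := x.S.fin
  refine occ_toReal (by positivity) ?_
  obtain ⟨I, hI⟩ : ∃ I : Set ℝ, I = Icc (max 0 (x.s1 - 2 * d.R)) x.s2 := ⟨_, rfl⟩
  have mI : MeasurableSet I := hI ▸ measurableSet_Icc
  have mq : Measurable fun w : ℝ × Z => q (x.S.W w.2 w.1) :=
    contDiff_q.continuous.measurable.comp (x.S.mW.comp measurable_swap)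
  have hG : MeasurableSet {w : ℝ × Z | w.1 ∈ I ∧ d.p ≤ q (x.S.W w.2 w.1)} :=
    (measurable_fst mI).inter (measurableSet_le measurable_const mq)
  have h1 : ∀ z, ENNReal.ofReal (d.a / (2 * d.b)) * volume ((fun s => (s, z)) ⁻¹' x.piece d) ≤
      volume ((fun s => (s, z)) ⁻¹' {w : ℝ × Z | w.1 ∈ I ∧ d.p ≤ q (x.S.W w.2 w.1)}) := by
    intro z
    have h2 := cv_le (φ := fun s => x.sg s z) (φ' := fun s => x.pa s z / x.pb s z)
      (A := (fun s => (s, z)) ⁻¹' x.piece d) (measurable_prodMk_right (x.measurableSet_piece d))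
      ((x.S.tm z).smono_along x.tm).injective.injOn (β := d.a / (2 * d.b)) (fun s hs =>
        ⟨(x.S.tm z).hasDerivAt_along x.tm (sub_ne_zero.1 (norm_pos_iff.1 hs.1.2.2.2)),
          div_le_div₀ (ha.le.trans hs.2.a1) hs.2.a1 (hb.trans_le hs.2.b1) hs.2.b2⟩) fun _ => 1
    rw [setLIntegral_one, setLIntegral_one] at h2
    refine h2.trans (measure_mono ?_)
    rintro _ ⟨s, hs, rfl⟩
    have e := x.pR_eq s z
    have e1 : 0 < x.pR s z := hs.1.2.2.2
    have e2 : x.pR s z ≤ 2 * d.R := hs.2.R2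
    have e3 : s ∈ Icc x.s1 x.s2 := hs.1.1
    refine ⟨?_, hs.2.p1⟩
    rw [hI]
    exact ⟨max_le hs.1.2.2.1.le (by linarith [e3.1]), by linarith [e3.2]⟩
  have h3 : x.m {w : ℝ × Z | w.1 ∈ I ∧ d.p ≤ q (x.S.W w.2 w.1)} ≤
      ENNReal.ofReal (En / d.p) * ENNReal.ofReal (x.τ + 2 * d.R) := by
    rw [m, Measure.prod_apply hG]
    calc _ ≤ ∫⁻ s, I.indicator (fun _ => ENNReal.ofReal (En / d.p)) s := by
          refine lintegral_mono fun s => ?_
          by_cases hs : s ∈ I
          · rw [indicator_of_mem hs]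
            refine occ_markov (measurable_prodMk_left hG) (subset_univ _) hp
              (f := fun z => q (x.S.W z s)) (fun z hz => hz.2) ?_
            rw [Measure.restrict_univ]
            rw [hI] at hs
            exact x.S.enP s ⟨(le_max_left _ _).trans hs.1, hs.2.trans (x.s2_le.2.trans x.ht)⟩
          · rw [indicator_of_notMem hs]
            exact (measure_mono (t := ∅) fun z hz => hs hz.1).trans_eq measure_empty
      _ ≤ _ := by
          rw [lintegral_indicator_const mI, hI, Real.volume_Icc]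
          refine mul_le_mul_right (ENNReal.ofReal_le_ofReal ?_) _
          linarith [x.s2_le.1, le_max_right 0 (x.s1 - 2 * d.R)]
  have h4 : ENNReal.ofReal (d.a / (2 * d.b)) * x.m (x.piece d) ≤
      x.m {w : ℝ × Z | w.1 ∈ I ∧ d.p ≤ q (x.S.W w.2 w.1)} := by
    rw [m, Measure.prod_apply_symm hG, Measure.prod_apply_symm (x.measurableSet_piece d),
      ← lintegral_const_mul' _ _ ENNReal.ofReal_ne_top]
    exact lintegral_mono h1
  have h5 := mul_le_mul_right (h4.trans h3) (ENNReal.ofReal (2 * d.b / d.a))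
  rw [← mul_assoc, ← ENNReal.ofReal_mul (by positivity), ← ENNReal.ofReal_mul (by positivity),
    ← ENNReal.ofReal_mul (by positivity),
    show 2 * d.b / d.a * (d.a / (2 * d.b)) = 1 by field_simp, ENNReal.ofReal_one, one_mul] at h5
  refine h5.trans (ENNReal.ofReal_le_ofReal ?_)
  calc 2 * d.b / d.a * (En / d.p * (x.τ + 2 * d.R)) ≤
        2 * d.b / d.a * (En / d.p * (2 * (x.τ + d.R))) := by
        gcongr
        linarith
    _ = _ := by ring

/-- The singular kernels are integrable on the active pairs. -/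
theorem lint_inv_act : ∃ M : ℝ, ∀ s : ℝ,
    ∫⁻ z in {z | (s, z) ∈ x.act}, ENNReal.ofReal (1 / x.pR s z ^ 2 + 1 / x.pR s z) ∂x.S.ν ≤
      ENNReal.ofReal M := by
  obtain ⟨C1, hC1, h1⟩ := lint_inv_sq
  obtain ⟨C2, hC2, h2⟩ := lint_inv
  have hF : 0 ≤ F0 := zero_le_one.trans x.num.hF0
  have hP : 0 ≤ P := zero_le_one.trans x.num.hP2
  have hT : 0 ≤ T1 := zero_le_one.trans x.num.hT1
  refine ⟨F0 * (2 * (8 * P ^ 3) * (C1 * T1 + C2 * T1 ^ 2)), fun s => ?_⟩
  have mn : Measurable fun y : V => ‖x.X s - y‖ := (measurable_const.sub measurable_id).norm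
  have m1 : Measurable fun y : V => ENNReal.ofReal (1 / ‖x.X s - y‖ ^ 2) :=
    (measurable_const.div (mn.pow_const 2)).ennreal_ofReal
  have m2 : Measurable fun y : V => ENNReal.ofReal (1 / ‖x.X s - y‖) :=
    (measurable_const.div mn).ennreal_ofReal
  have hA : MeasurableSet {w : Z | w.1 ∈ Metric.closedBall (x.X s) T1 ∧ q w.2 ≤ P} :=
    (measurable_fst Metric.isClosed_closedBall.measurableSet).inter
      (measurableSet_le (contDiff_q.continuous.measurable.comp measurable_snd) measurable_const)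
  have key := x.occ_cone s hA (m1.add m2) (T := {z | (s, z) ∈ x.act})
    (measurable_prodMk_left x.measurableSet_act)
    (f := fun z => ENNReal.ofReal (1 / x.pR s z ^ 2 + 1 / x.pR s z))
    Metric.isClosed_closedBall.measurableSet (β := ENNReal.ofReal 2)
    (M := ENNReal.ofReal (8 * P ^ 3))
    (fun z hz => ⟨⟨mem_closedBall_iff_norm'.2 (x.act_range hz).2.1.2, (x.act_range hz).1.2⟩,
      ENNReal.ofReal_add_le⟩)
    (fun w hw => ⟨hw.1, ENNReal.ofReal_le_ofReal
      (ang_le_two (norm_vel_lt _).le (norm_nrm_le _))⟩)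
    (fun y => (measure_mono fun v hv => mem_closedBall_zero_iff.2
      ((norm_lt_q v).le.trans hv.2)).trans (vol_ball_le 0 hP))
  simp only [Pi.add_apply] at key
  rw [lintegral_add_left m1] at key
  refine key.trans ((mul_le_mul_right (mul_le_mul_right
    (add_le_add (h1 _ _ hT) (h2 _ _ hT)) _) _).trans_eq ?_)
  rw [← ENNReal.ofReal_add (by positivity) (by positivity), ← ENNReal.ofReal_mul (by positivity),
    ← ENNReal.ofReal_mul (by positivity), ← ENNReal.ofReal_mul hF]

end Ctx

end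

end Vale.Agent.P107
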