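import Vale.Agent.P107.Cone
import Vale.Agent.P107.KerL

/-! The retarded field: integrability, Eulerian form and size. -/

namespace Vale.Agent.P107

open MeasureTheory Set Filter Topology
open scoped ENNReal RealInnerProductSpace

noncomputable section

/-- The acceleration kernel in the variables `(l, v)`. -/
def eS (G : ST → Z) (p : ST) (w : Z) : Z :=
  if ‖w.1‖ < p.1 then
    zS w.2 (lor (G (p.1 - ‖w.1‖, p.2 - w.1)).1 (G (p.1 - ‖w.1‖, p.2 - w.1)).2 w.2) w.1
  else 0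

variable {Λ M1 l1 M2 l2 : ℝ} {G : ST → Z}

theorem Cl.sZ_eq (h : Cl Λ M1 l1 M2 l2 G) (z : Z) (p : ST) :
    sZ G z p = eS G p (rl G z p, rW G z p) := by
  have h1 := h.norm_rl z p
  have h2 : p.1 - ‖rl G z p‖ = rt G z p := by rw [h1]; ring
  have h3 : p.2 - rl G z p = trY G z (rt G z p) := by rw [rl, sub_sub_cancel]
  unfold sZ eS
  simp only [h2, h3]
  by_cases h4 : 0 < rt G z p
  · rw [if_pos h4, if_pos (by linarith)]; rfl
  · rw [if_neg h4, if_neg (by linarith)]

theorem opa_mT {α : Type} [MeasurableSpace α] {f g : α → V} (hf : Measurable f)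
    (hg : Measurable g) : Measurable fun a => zT (f a) (g a) := by
  have h := measurable_zT.comp (hf.prodMk hg)
  exact h

theorem opa_mS {α : Type} [MeasurableSpace α] {f g k : α → V} (hf : Measurable f)
    (hg : Measurable g) (hk : Measurable k) : Measurable fun a => zS (f a) (g a) (k a) := by
  have h := measurable_zS.comp (hf.prodMk (hg.prodMk hk))
  exact h

theorem opa_mL {α : Type} [MeasurableSpace α] {f g : α → V} (hf : Measurable f)
    (hg : Measurable g) : Measurable fun a => lw (f a) (g a) := by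
  have h := measurable_lw.comp (hf.prodMk hg)
  exact h

theorem opa_mK {α : Type} [MeasurableSpace α] (u : V) {f g : α → V} (hf : Measurable f)
    (hg : Measurable g) : Measurable fun a => kT u (f a) (g a) := by
  have h := measurable_kT.comp ((measurable_const (a := u)).prodMk (hf.prodMk hg))
  exact h

theorem Cl.measurable_eS (h : Cl Λ M1 l1 M2 l2 G) (p : ST) : Measurable (eS G p) := by
  have h1 : Continuous fun w : Z => G (p.1 - ‖w.1‖, p.2 - w.1) := h.cont.comp (by fun_prop)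
  have h2 : Continuous fun w : Z =>
      lor (G (p.1 - ‖w.1‖, p.2 - w.1)).1 (G (p.1 - ‖w.1‖, p.2 - w.1)).2 w.2 :=
    continuous_lor.comp (h1.fst.prodMk (h1.snd.prodMk continuous_snd))
  refine Measurable.ite (measurableSet_lt measurable_fst.norm measurable_const) ?_ measurable_const
  exact opa_mS measurable_snd h2.measurable measurable_fst

theorem opa_lint (h : Cl Λ M1 l1 M2 l2 G) {d : Dat} {p : ST} {P C K : ℝ} (hK : 0 ≤ K)
    (hC : ∫⁻ z in {z | q (rW G z p) ≤ P},
      ENNReal.ofReal (1 / ‖rl G z p‖ ^ 2 + 1 / ‖rl G z p‖) ∂d.ν ≤ ENNReal.ofReal C)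
    {F : Type} [NormedAddCommGroup F] {Φ : Z → F}
    (hΦ : ∀ z ∈ d.S, Φ z = 0 ∨ (q (rW G z p) ≤ P ∧
      ‖Φ z‖ ≤ K * (1 / ‖rl G z p‖ ^ 2 + 1 / ‖rl G z p‖))) :
    ∫⁻ z, ‖Φ z‖ₑ ∂d.ν ≤ ENNReal.ofReal (K * C) := by
  have hS : MeasurableSet {z | q (rW G z p) ≤ P} :=
    measurableSet_le (contDiff_q.continuous.measurable.comp (h.measurable_r p).2.2.1)
      measurable_const
  calc ∫⁻ z, ‖Φ z‖ₑ ∂d.ν ≤ ∫⁻ z, {z | q (rW G z p) ≤ P}.indicator (fun z => ENNReal.ofReal K *
          ENNReal.ofReal (1 / ‖rl G z p‖ ^ 2 + 1 / ‖rl G z p‖)) z ∂d.ν := by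
        refine lintegral_mono_ae (d.ae_mem.mono fun z hz => ?_)
        rcases hΦ z hz with h0 | ⟨h1, h2⟩
        · rw [h0, enorm_zero]; exact zero_le
        · rw [indicator_of_mem (show z ∈ {z | q (rW G z p) ≤ P} from h1),
            ← ENNReal.ofReal_mul hK, ← ofReal_norm]
          exact ENNReal.ofReal_le_ofReal h2
    _ ≤ ENNReal.ofReal K * ENNReal.ofReal C := by
        rw [lintegral_indicator hS, lintegral_const_mul' _ _ ENNReal.ofReal_ne_top]
        exact mul_le_mul_right hC _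
    _ = _ := (ENNReal.ofReal_mul hK).symm

theorem opa_norm {d : Dat} {F : Type} [NormedAddCommGroup F] [NormedSpace ℝ F] {Φ : Z → F} {B : ℝ}
    (hB : 0 ≤ B) (h : ∫⁻ z, ‖Φ z‖ₑ ∂d.ν ≤ ENNReal.ofReal B) : ‖∫ z, Φ z ∂d.ν‖ ≤ B := by
  have h1 := (enorm_integral_le_lintegral_enorm Φ).trans h
  rwa [← ofReal_norm, ENNReal.ofReal_le_ofReal_iff hB] at h1

theorem opa_sq {K R : ℝ} (hK : 0 ≤ K) (hR : 0 ≤ R) : K / R ^ 2 ≤ K * (1 / R ^ 2 + 1 / R) := by
  rw [mul_add, mul_one_div]
  exact le_add_of_nonneg_right (by positivity)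

theorem opa_lin {K R : ℝ} (hK : 0 ≤ K) : K / R ≤ K * (1 / R ^ 2 + 1 / R) := by
  rw [mul_add, mul_one_div K R]
  exact le_add_of_nonneg_left (by positivity)

theorem opa_int (h : Cl Λ M1 l1 M2 l2 G) (d : Dat) (p : ST) {F : Type} [NormedAddCommGroup F]
    {Φ : Z → F} (hm : AEStronglyMeasurable Φ d.ν)
    (hΦ : ∀ P, 0 ≤ P → ∃ K, 0 ≤ K ∧ ∀ z, q (rW G z p) ≤ P →
      ‖Φ z‖ ≤ K * (1 / ‖rl G z p‖ ^ 2 + 1 / ‖rl G z p‖)) : Integrable Φ d.ν := by
  have hb := h.bd d (le_max_right p.1 0)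
  have hP : 0 ≤ d.P0 + 2 * Λ * max p.1 0 := by
    have h1 := d.hP
    have h2 := h.hΛ
    positivity
  obtain ⟨K, hK, hΦ⟩ := hΦ _ hP
  obtain ⟨C, -, hC⟩ := lint_sing d (d.P0 + 2 * Λ * max p.1 0)
  refine ⟨hm, lt_of_le_of_lt (opa_lint h hK (hC _ _ _ _ _ G h p) fun z hz => Or.inr ?_)
    ENNReal.ofReal_lt_top⟩
  have h1 := h.q_rW hb hz (le_max_left p.1 0)
  exact ⟨h1, hΦ z h1⟩

theorem Cl.integrable_T (h : Cl Λ M1 l1 M2 l2 G) (d : Dat) (p : ST) :
    Integrable (fun z => zT (rW G z p) (rl G z p)) d.ν := by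
  obtain ⟨-, h1, h2, -⟩ := h.measurable_r p
  refine opa_int h d p (opa_mT h2 h1).aestronglyMeasurable fun P hP =>
    ⟨100 * P ^ 3, by positivity, fun z hz => ?_⟩
  exact (norm_zT_le hz _).trans (opa_sq (by positivity) (norm_nonneg _))

theorem Cl.integrable_S (h : Cl Λ M1 l1 M2 l2 G) (d : Dat) (p : ST) :
    Integrable (fun z => sZ G z p) d.ν := by
  obtain ⟨-, h1, h2, -⟩ := h.measurable_r p
  have hΛ := h.hΛ
  have hm : Measurable fun z => sZ G z p := by
    simp only [h.sZ_eq]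
    exact (h.measurable_eS p).comp (h1.prodMk h2)
  refine opa_int h d p hm.aestronglyMeasurable fun P hP =>
    ⟨120 * P ^ 3 * (2 * Λ), by positivity, fun z hz => ?_⟩
  refine le_trans ?_ (opa_lin (by positivity))
  unfold sZ
  split_ifs
  · refine (norm_zS_le hz _ _).trans ?_
    have h3 := h.norm_rF z p
    gcongr
  · rw [norm_zero]; positivity

theorem Cl.integrable_lw (h : Cl Λ M1 l1 M2 l2 G) (d : Dat) (p : ST) :
    Integrable (fun z => lw (rW G z p) (rl G z p)) d.ν := by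
  obtain ⟨-, h1, h2, -⟩ := h.measurable_r p
  refine opa_int h d p (opa_mL h2 h1).aestronglyMeasurable fun P _ =>
    ⟨2 * P ^ 2, by positivity, fun z hz => ?_⟩
  exact (norm_lw_le hz _).trans (opa_lin (by positivity))

theorem Cl.opT_eul (h : Cl Λ M1 l1 M2 l2 G) (d : Dat) (p : ST) :
    opT d G p = ∫ w : Z, cw d G p w • zT w.2 w.1 ∧
      Integrable (fun w : Z => cw d G p w • zT w.2 w.1) := by
  have hm : Measurable fun w : Z => zT w.2 w.1 :=
    opa_mT measurable_snd measurable_fst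
  obtain ⟨h1, h2⟩ := h.int_cone d p hm.stronglyMeasurable
  exact ⟨h1, h2.1 (h.integrable_T d p)⟩

theorem Cl.opS_eul (h : Cl Λ M1 l1 M2 l2 G) (d : Dat) (p : ST) :
    opS d G p = ∫ w : Z, cw d G p w • eS G p w ∧
      Integrable (fun w : Z => cw d G p w • eS G p w) := by
  obtain ⟨h1, h2⟩ := h.int_cone d p (h.measurable_eS p).stronglyMeasurable
  have h3 := h.integrable_S d p
  simp only [h.sZ_eq] at h3
  refine ⟨?_, h2.1 h3⟩
  rw [← h1, opS]
  simp only [h.sZ_eq]

theorem opa_congr {G G' : ST → Z} (h : InCl G) (h' : InCl G') {z : Z} {p : ST}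
    (he : ∀ s, s ≤ p.1 → tr G z s = tr G' z s) :
    rt G z p = rt G' z p ∧ trY G z (rt G z p) = trY G' z (rt G' z p) ∧ rl G z p = rl G' z p ∧
      rW G z p = rW G' z p := by
  obtain ⟨_, _, _, _, _, h⟩ := h
  obtain ⟨_, _, _, _, _, h'⟩ := h'
  have h1 := he _ ((h.tm z).ret_le p.1 p.2)
  have h2 : trY G z (rt G z p) = trY G' z (rt G z p) := congrArg Prod.fst h1
  have h3 : trW G z (rt G z p) = trW G' z (rt G z p) := congrArg Prod.snd h1
  have h4 : rt G' z p = rt G z p := by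
    refine ((h'.tm z).ret_eq_iff p.1 p.2 _).2 ?_
    rw [← h2]
    exact (h.tm z).ret_eq p.1 p.2
  refine ⟨h4.symm, by rw [h4, h2], ?_, ?_⟩
  · rw [rl, rl, h4, h2]
  · rw [rW, rW, h4, h3]

theorem retF_congr (d : Dat) {G G' : ST → Z} (h : InCl G) (h' : InCl G') {t : ℝ}
    (he : ∀ p : ST, p.1 ∈ Icc 0 t → G p = G' p) {p : ST} (hp : p.1 ≤ t) :
    retF d G p = retF d G' p := by
  have hc := fun z => opa_congr (z := z) (p := p) h h' fun s hs =>
    (tr_congr h h' he (hs.trans hp) z).1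
  have e1 : opT d G p = opT d G' p := by
    unfold opT
    congr 1
    funext z
    rw [(hc z).2.2.1, (hc z).2.2.2]
  have e2 : opS d G p = opS d G' p := by
    unfold opS
    congr 1
    funext z
    obtain ⟨h1, h2, h3, h4⟩ := hc z
    obtain ⟨_, _, _, _, _, hG⟩ := h'
    have h5 : rt G' z p ≤ t := ((hG.tm z).ret_le p.1 p.2).trans hp
    unfold sZ rF
    rw [h2, h3, h4, h1]
    split_ifs with h6
    · rw [he (rt G' z p, trY G' z (rt G' z p)) ⟨h6.le, h5⟩]
    · rfl
  rw [retF, retF, e1, e2]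

theorem retF_zero (d : Dat) {G : ST → Z} (h : InCl G) (x : V) :
    retF d G (0, x) = opT d 0 (0, x) := by
  have hc := fun z => opa_congr (z := z) (p := ((0 : ℝ), x)) h ⟨1, 1, 1, 1, 1, Cl.zero⟩
    fun s hs => by
      have hs' : s ≤ 0 := hs
      rw [tr, tr, if_pos hs', if_pos hs']
  have e1 : opT d G (0, x) = opT d 0 (0, x) := by
    unfold opT
    congr 1
    funext z
    rw [(hc z).2.2.1, (hc z).2.2.2]
  have e2 : opS d G (0, x) = 0 := by
    obtain ⟨_, _, _, _, _, hG⟩ := h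
    have e3 : ∀ z, sZ G z (0, x) = 0 := fun z => if_neg (not_lt.2 ((hG.tm z).ret_le 0 x))
    simp only [opS, e3, integral_zero]
  rw [retF, e1, e2, add_zero]

theorem opa_rad {A lam t T : ℝ} (hA : 0 ≤ A) (hl : 0 < lam) (ht : t ≤ T) (hT : 0 ≤ T) :
    ∫⁻ r in Ioi (0 : ℝ), ENNReal.ofReal (r ^ 2) *
      (Iio t).indicator (fun r => ENNReal.ofReal (A * Real.exp (lam * (t - r)) / r)) r ≤
      ENNReal.ofReal (A * T * (Real.exp (lam * t) / lam)) := by
  have hi := integrableOn_exp_mul_Ioi (neg_lt_zero.2 hl) 0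
  have hv := integral_exp_mul_Ioi (neg_lt_zero.2 hl) 0
  calc _ ≤ ∫⁻ r in Ioi (0 : ℝ),
        ENNReal.ofReal (A * T * Real.exp (lam * t) * Real.exp (-lam * r)) := by
        refine setLIntegral_mono' measurableSet_Ioi fun r hr => ?_
        have hr0 : 0 < r := hr
        by_cases h1 : r ∈ Iio t
        · rw [indicator_of_mem h1, ← ENNReal.ofReal_mul (sq_nonneg r)]
          apply ENNReal.ofReal_le_ofReal
          have h2 : r ≤ T := (le_of_lt h1).trans ht
          have e : r ^ 2 * (A * Real.exp (lam * (t - r)) / r) =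
              A * r * Real.exp (lam * t) * Real.exp (-lam * r) := by
            rw [mul_assoc (A * r), ← Real.exp_add]
            have e2 : lam * t + -lam * r = lam * (t - r) := by ring
            rw [e2]
            field_simp
          rw [e]
          gcongr
        · rw [indicator_of_notMem h1, mul_zero]; exact zero_le
    _ = _ := by
        rw [← ofReal_integral_eq_lintegral_ofReal (hi.const_mul _)
          (ae_of_all _ fun r => by positivity), integral_const_mul, hv]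
        congr 1
        rw [mul_zero, Real.exp_zero]
        field_simp

theorem op_sup (d : Dat) (P T : ℝ) : ∃ C : ℝ, 1 ≤ C ∧ ∀ (Λ M1 l1 M2 l2 : ℝ) (G : ST → Z),
    Cl Λ M1 l1 M2 l2 G → ∀ t ∈ Icc 0 T, Bd d G t P → ∀ N lam : ℝ, 0 ≤ N → 1 ≤ lam →
    (∀ p : ST, p.1 ∈ Icc 0 t → ‖G p‖ ≤ N * Real.exp (lam * p.1)) →
    ∀ x, ‖retF d G (t, x)‖ ≤ C * (1 + N * Real.exp (lam * t) / lam) := by
  obtain ⟨Q, hQ1, hPQ⟩ : ∃ Q : ℝ, 1 ≤ Q ∧ P ≤ Q := ⟨max 1 P, le_max_left _ _, le_max_right _ _⟩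
  obtain ⟨C, hC1, hC⟩ := lint_sing d Q
  have hF := d.hF
  have hQ0 : 0 ≤ Q := by linarith
  have a1 : 0 ≤ 100 * Q ^ 3 * C := by positivity
  have a2 : 0 ≤ 16 * d.F0 * Q ^ 3 * (240 * Q ^ 3 * |T|) := by positivity
  refine ⟨1 + 100 * Q ^ 3 * C + 16 * d.F0 * Q ^ 3 * (240 * Q ^ 3 * |T|), by linarith,
    fun Λ M1 l1 M2 l2 G h t ht hb N lam hN hl hG x => ?_⟩
  have hb' : Bd d G t Q := hb.mono le_rfl hPQ
  have hl0 : 0 < lam := by linarith
  have b1 : ‖opT d G (t, x)‖ ≤ 100 * Q ^ 3 * C := by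
    refine opa_norm a1 (opa_lint h (by positivity) (hC _ _ _ _ _ G h (t, x)) fun z hz =>
      Or.inr ?_)
    have h1 := h.q_rW hb' hz (p := (t, x)) le_rfl
    exact ⟨h1, (norm_zT_le h1 _).trans (opa_sq (by positivity) (norm_nonneg _))⟩
  have b2 : ‖opS d G (t, x)‖ ≤
      16 * d.F0 * Q ^ 3 * (240 * Q ^ 3 * N * |T| * (Real.exp (lam * t) / lam)) := by
    refine opa_norm (by positivity) ?_
    have hg : Measurable ((Iio t).indicator
        fun r => ENNReal.ofReal (240 * Q ^ 3 * N * Real.exp (lam * (t - r)) / r)) :=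
      Measurable.indicator (by fun_prop) measurableSet_Iio
    refine le_trans (lintegral_mono_ae (d.ae_mem.mono fun z hz => ?_))
      ((h.cone_rad' hb' hQ0 (p := (t, x)) le_rfl hg).trans ?_)
    · have h1 := h.q_rW hb' hz (p := (t, x)) le_rfl
      have h2 : ‖rl G z (t, x)‖ = t - rt G z (t, x) := h.norm_rl z (t, x)
      unfold sZ
      split_ifs with h3
      · have h4 : ‖rl G z (t, x)‖ ∈ Iio t := by
          rw [mem_Iio, h2]; linarith
        rw [indicator_of_mem h4, ← ofReal_norm]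
        refine ENNReal.ofReal_le_ofReal ((norm_zS_le h1 _ _).trans ?_)
        have h5 := hG (rt G z (t, x), trY G z (rt G z (t, x)))
          ⟨h3.le, by linarith [norm_nonneg (rl G z (t, x))]⟩
        have h6 : ‖rF G z (t, x)‖ ≤ 2 * (N * Real.exp (lam * rt G z (t, x))) :=
          (norm_lor_le _ _ _).trans (by
            linarith [norm_fst_le (G (rt G z (t, x), trY G z (rt G z (t, x)))),
              norm_snd_le (G (rt G z (t, x), trY G z (rt G z (t, x))))])
        have h7 : t - ‖rl G z (t, x)‖ = rt G z (t, x) := by rw [h2]; ring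
        rw [h7]
        refine div_le_div_of_nonneg_right ?_ (norm_nonneg _)
        calc 120 * Q ^ 3 * ‖rF G z (t, x)‖ ≤
              120 * Q ^ 3 * (2 * (N * Real.exp (lam * rt G z (t, x)))) := by gcongr
          _ = _ := by ring
      · rw [enorm_zero]; exact zero_le
    · rw [ENNReal.ofReal_mul (p := 16 * d.F0 * Q ^ 3) (by positivity)]
      exact mul_le_mul_right (opa_rad (A := 240 * Q ^ 3 * N) (by positivity) hl0 (ht.2.trans (le_abs_self T))
        (abs_nonneg T)) _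
  have b3 : 0 ≤ N * Real.exp (lam * t) / lam := by positivity
  have e : 16 * d.F0 * Q ^ 3 * (240 * Q ^ 3 * N * |T| * (Real.exp (lam * t) / lam)) =
      16 * d.F0 * Q ^ 3 * (240 * Q ^ 3 * |T|) * (N * Real.exp (lam * t) / lam) := by ring
  rw [e] at b2
  have b4 := norm_add_le (opT d G (t, x)) (opS d G (t, x))
  have b5 := mul_nonneg a1 b3
  rw [retF]
  nlinarith

theorem rep_bound (d : Dat) : ∃ C : ℝ, 1 ≤ C ∧ ∀ (Λ M1 l1 M2 l2 : ℝ) (G : ST → Z),
    Cl Λ M1 l1 M2 l2 G → ∀ (p : ST) (U : V),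
    ‖lor (retF d G p).1 (retF d G p).2 U -
      ∫ z, ker (trY G z) (trW G z) (fun s x => (G (s, x)).1) (fun s x => (G (s, x)).2) p.1 p.2
        (vel U) ∂d.ν‖ ≤ C := by
  obtain ⟨C, hC1, hC⟩ := lint_sing d d.P0
  have hP := d.hP
  have a1 : 0 ≤ 100 * d.P0 ^ 3 * C := by positivity
  refine ⟨1 + 100 * d.P0 ^ 3 * C, by linarith, fun Λ M1 l1 M2 l2 G h p U => ?_⟩
  let A : Z →L[ℝ] V :=
    ContinuousLinearMap.fst ℝ V V + (crossL (vel U)).comp (ContinuousLinearMap.snd ℝ V V)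
  have hA : ∀ a : Z, A a = lor a.1 a.2 U := fun a => rfl
  let ρ : Z → V := fun z => if 0 < rt G z p then 0 else kT (vel U) (rW G z p) (rl G z p)
  obtain ⟨m1, m2, m3, -⟩ := h.measurable_r p
  have mρ : Measurable ρ := Measurable.ite (measurableSet_lt measurable_const m1) measurable_const
    (opa_mK (vel U) m3 m2)
  have bρ : ∫⁻ z, ‖ρ z‖ₑ ∂d.ν ≤ ENNReal.ofReal (100 * d.P0 ^ 3 * C) := by
    refine opa_lint h (by positivity) (hC _ _ _ _ _ G h p) fun z hz => ?_
    by_cases h1 : 0 < rt G z p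
    · exact Or.inl (if_pos h1)
    · have h2 : q (rW G z p) ≤ d.P0 := by
        rw [rW, trW_past G z (not_lt.1 h1)]; exact hz.2
      have h3 : ρ z = kT (vel U) (rW G z p) (rl G z p) := if_neg h1
      refine Or.inr ⟨h2, ?_⟩
      rw [h3]
      exact (norm_kT_crude (norm_vel_lt U).le h2 _).trans (opa_sq (by positivity) (norm_nonneg _))
  have iρ : Integrable ρ d.ν :=
    ⟨mρ.aestronglyMeasurable, lt_of_le_of_lt bρ ENNReal.ofReal_lt_top⟩
  have iT := h.integrable_T d p
  have iS := h.integrable_S d p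
  have e1 : ∀ z, ker (trY G z) (trW G z) (fun s x => (G (s, x)).1) (fun s x => (G (s, x)).2)
      p.1 p.2 (vel U) = A (zT (rW G z p) (rl G z p) + sZ G z p) - ρ z := by
    intro z
    rw [map_add, hA, hA, lor_pr_T]
    by_cases h1 : 0 < rt G z p
    · have h2 : ρ z = 0 := if_pos h1
      have h3 : sZ G z p = zS (rW G z p) (rF G z p) (rl G z p) := if_pos h1
      rw [h2, h3, lor_pr_S, sub_zero]
      exact if_pos h1
    · have h2 : ρ z = kT (vel U) (rW G z p) (rl G z p) := if_neg h1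
      have h3 : sZ G z p = 0 := if_neg h1
      rw [h2, h3, ← hA, map_zero, add_zero, sub_self]
      exact if_neg h1
  have e2 : retF d G p = ∫ z, (zT (rW G z p) (rl G z p) + sZ G z p) ∂d.ν :=
    (integral_add iT iS).symm
  simp only [e1]
  have iTS : Integrable (fun z => zT (rW G z p) (rl G z p) + sZ G z p) d.ν := iT.add iS
  have iA : Integrable (fun z => A (zT (rW G z p) (rl G z p) + sZ G z p)) d.ν :=
    A.integrable_comp iTS
  rw [← hA, e2, integral_sub iA iρ, A.integral_comp_comm iTS]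
  have b1 := opa_norm a1 bρ
  have e3 : ∀ a b : V, a - (a - b) = b := fun a b => sub_sub_cancel a b
  refine le_trans (le_of_eq (congrArg norm (e3 _ _))) ?_
  linarith

end

end Vale.Agent.P107
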