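import Vale.Agent.P107.OpA

/-! Radial integrals used for the Lipschitz and second difference bounds. -/

namespace Vale.Agent.P107

open MeasureTheory Set Filter Topology
open scoped ENNReal RealInnerProductSpace

noncomputable section

/-- Radial majorant: an exponential weight below `a` and a shell of width `δ` below `a`. -/
def oplsB (a l δ c1 c2 r : ℝ) : ℝ :=
  c1 * (if r < a then Real.exp (l * (a - r)) / r else 0) +
    c2 * (if a - δ ≤ r ∧ r < a then 1 / r else 0)

theorem oplsB_meas (a l δ c1 c2 : ℝ) : Measurable (oplsB a l δ c1 c2) := by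
  unfold oplsB
  refine (Measurable.const_mul (Measurable.ite measurableSet_Iio ?_ measurable_const) _).add
    (Measurable.const_mul (Measurable.ite measurableSet_Ico ?_ measurable_const) _)
  · fun_prop
  · fun_prop

theorem oplsB_nonneg (a l δ : ℝ) {c1 c2 r : ℝ} (h1 : 0 ≤ c1) (h2 : 0 ≤ c2) (hr : 0 ≤ r) :
    0 ≤ oplsB a l δ c1 c2 r := by
  unfold oplsB
  split_ifs <;> positivity

theorem oplsB_int {a t T l δ c1 c2 : ℝ} (ha : a ≤ t) (ht : 0 ≤ t) (hT : t ≤ T) (hl : 0 < l)
    (hδ : 0 ≤ δ) (h1 : 0 ≤ c1) (h2 : 0 ≤ c2) :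
    ∫⁻ r in Ioi (0 : ℝ), ENNReal.ofReal (r ^ 2) * ENNReal.ofReal (oplsB a l δ c1 c2 r) ≤
      ENNReal.ofReal (c1 * T * (Real.exp (l * t) / l) + c2 * T * δ) := by
  have hT0 : 0 ≤ T := ht.trans hT
  have e1 : ∫⁻ r in Ioi (0 : ℝ), ENNReal.ofReal (c1 * T * Real.exp (l * t) * Real.exp (-l * r)) =
      ENNReal.ofReal (c1 * T * (Real.exp (l * t) / l)) := by
    rw [← ofReal_integral_eq_lintegral_ofReal
      ((integrableOn_exp_mul_Ioi (neg_lt_zero.2 hl) 0).const_mul _)
      (Eventually.of_forall fun r => by positivity), integral_const_mul,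
      integral_exp_mul_Ioi (neg_lt_zero.2 hl)]
    congr 1
    simp only [mul_zero, Real.exp_zero]
    field_simp
  have e2 : ∫⁻ r in Ioi (0 : ℝ), (Ico (a - δ) a).indicator (fun _ => ENNReal.ofReal (c2 * T)) r ≤
      ENNReal.ofReal (c2 * T * δ) := by
    refine (setLIntegral_le_lintegral _ _).trans ?_
    rw [lintegral_indicator_const measurableSet_Ico, Real.volume_Ico, sub_sub_cancel,
      ← ENNReal.ofReal_mul (by positivity)]
  refine le_trans (setLIntegral_mono' measurableSet_Ioi (g := fun r =>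
    ENNReal.ofReal (c1 * T * Real.exp (l * t) * Real.exp (-l * r)) +
      (Ico (a - δ) a).indicator (fun _ => ENNReal.ofReal (c2 * T)) r) fun r hr => ?_) ?_
  · have hr0 : 0 < r := hr
    rw [← ENNReal.ofReal_mul (by positivity), oplsB, mul_add]
    refine ENNReal.ofReal_add_le.trans (add_le_add (ENNReal.ofReal_le_ofReal ?_) ?_)
    · split_ifs with h
      · have h3 : Real.exp (l * (a - r)) ≤ Real.exp (l * t) * Real.exp (-l * r) := by
          rw [← Real.exp_add]
          exact Real.exp_le_exp.2 (by nlinarith)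
        have h4 : r ^ 2 * (c1 * (Real.exp (l * (a - r)) / r)) =
            c1 * r * Real.exp (l * (a - r)) := by field_simp
        rw [h4, mul_assoc (c1 * T)]
        have h5 : r ≤ T := by linarith
        gcongr
      · rw [mul_zero, mul_zero]
        positivity
    · split_ifs with h
      · rw [indicator_of_mem (show r ∈ Ico (a - δ) a from h)]
        refine ENNReal.ofReal_le_ofReal ?_
        have h4 : r ^ 2 * (c2 * (1 / r)) = c2 * r := by field_simp
        rw [h4]
        exact mul_le_mul_of_nonneg_left (by linarith [h.2]) h2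
      · simp
  · rw [lintegral_add_left (by fun_prop), e1, ENNReal.ofReal_add (by positivity) (by positivity)]
    exact add_le_add le_rfl e2

theorem opls_norm_int {X : Type} [MeasurableSpace X] {μ : Measure X} {f : X → Z} {K : ℝ}
    (hK : 0 ≤ K) (h : ∫⁻ z, ‖f z‖ₑ ∂μ ≤ ENNReal.ofReal K) : ‖∫ z, f z ∂μ‖ ≤ K := by
  have h1 := (enorm_integral_le_lintegral_enorm f).trans h
  rwa [← ofReal_norm, ENNReal.ofReal_le_ofReal_iff hK] at h1

end

end Vale.Agent.P107
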