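import Vale.Agent.P107.OpA

/-! Logarithmic Lipschitz bound of the velocity field. -/

namespace Vale.Agent.P107

open MeasureTheory Set Filter Topology
open scoped ENNReal RealInnerProductSpace

noncomputable section

variable {Λ M1 l1 M2 l2 : ℝ} {G : ST → Z}

theorem opLT_meas_phi (r : ℝ) : Measurable (fun l : V => phi (‖l‖ / r)) :=
  contDiff_phi.continuous.measurable.comp (measurable_norm.div_const r)

theorem opLT_meas_zT : Measurable (fun w : Z => zT w.2 w.1) :=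
  Measurable.comp (g := fun x : V × V => zT x.1 x.2) (f := fun w : Z => (w.2, w.1))
    measurable_zT (measurable_snd.prodMk measurable_fst)

theorem opLT_meas_near (r : ℝ) : Measurable (fun w : Z => phi (‖w.1‖ / r) • zT w.2 w.1) := by
  have h1 : Measurable fun w : Z => phi (‖w.1‖ / r) :=
    Measurable.comp (g := fun l : V => phi (‖l‖ / r)) (opLT_meas_phi r) measurable_fst
  exact Measurable.smul (f := fun w : Z => phi (‖w.1‖ / r)) (g := fun w : Z => zT w.2 w.1) h1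
    opLT_meas_zT

theorem opLT_meas_far (r : ℝ) : Measurable (fun w : Z => (1 - phi (‖w.1‖ / r)) • zT w.2 w.1) := by
  have h1 : Measurable fun w : Z => phi (‖w.1‖ / r) :=
    Measurable.comp (g := fun l : V => phi (‖l‖ / r)) (opLT_meas_phi r) measurable_fst
  exact Measurable.smul (f := fun w : Z => 1 - phi (‖w.1‖ / r)) (g := fun w : Z => zT w.2 w.1)
    (measurable_const.sub h1) opLT_meas_zT

theorem opLT_int_near (h : Cl Λ M1 l1 M2 l2 G) (d : Dat) (p : ST) (r : ℝ) :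
    Integrable (fun z => phi (‖rl G z p‖ / r) • zT (rW G z p) (rl G z p)) d.ν := by
  have hm := (opLT_meas_near r).comp ((h.measurable_r p).2.1.prodMk (h.measurable_r p).2.2.1)
  refine (h.integrable_T d p).mono hm.aestronglyMeasurable (ae_of_all _ fun z => ?_)
  rw [norm_smul, Real.norm_eq_abs, abs_of_nonneg (phi_nonneg _)]
  exact mul_le_of_le_one_left (norm_nonneg _) (phi_le_one _)

theorem opLT_int_far (h : Cl Λ M1 l1 M2 l2 G) (d : Dat) (p : ST) (r : ℝ) :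
    Integrable (fun z => (1 - phi (‖rl G z p‖ / r)) • zT (rW G z p) (rl G z p)) d.ν := by
  have hm := (opLT_meas_far r).comp ((h.measurable_r p).2.1.prodMk (h.measurable_r p).2.2.1)
  refine (h.integrable_T d p).mono hm.aestronglyMeasurable (ae_of_all _ fun z => ?_)
  rw [norm_smul, Real.norm_eq_abs, abs_of_nonneg (chiA_sub_nonneg _)]
  exact mul_le_of_le_one_left (norm_nonneg _) (chiA_sub_le_one _)

theorem opLT_split (h : Cl Λ M1 l1 M2 l2 G) (d : Dat) (p : ST) (r : ℝ) :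
    opT d G p = ∫ z, phi (‖rl G z p‖ / r) • zT (rW G z p) (rl G z p) ∂d.ν +
      ∫ z, (1 - phi (‖rl G z p‖ / r)) • zT (rW G z p) (rl G z p) ∂d.ν := by
  rw [← integral_add (opLT_int_near h d p r) (opLT_int_far h d p r), opT]
  refine integral_congr_ae (ae_of_all _ fun z => ?_)
  simp only [← add_smul, add_sub_cancel, one_smul]

theorem opLT_cw_lip (h : Cl Λ M1 l1 M2 l2 G) (d : Dat) {t : ℝ} (ht : 0 ≤ t) {p p' : ST}
    (hp : p.1 ≤ t) (hp' : p'.1 ≤ t) (w : Z) :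
    |cw d G p w - cw d G p' w| ≤ 8 * Λ * d.F0 * Real.exp (Av Λ M1 l1 t) * ‖p - p'‖ := by
  have h1 := h.den_lip d ht (s := p.1 - ‖w.1‖) (s' := p'.1 - ‖w.1‖)
    (by linarith [norm_nonneg w.1]) (by linarith [norm_nonneg w.1]) (p.2 - w.1) (p'.2 - w.1) w.2
  rw [sub_sub_sub_cancel_right, sub_sub_sub_cancel_right] at h1
  have h2 : |p.1 - p'.1| ≤ ‖p - p'‖ := norm_fst_le (p - p')
  have h3 : ‖p.2 - p'.2‖ ≤ ‖p - p'‖ := norm_snd_le (p - p')
  have h4 := ang_nonneg (norm_vel_lt w.2).le (norm_nrm_le w.1)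
  have h5 := ang_le_two (norm_vel_lt w.2).le (norm_nrm_le w.1)
  have hπ := Real.pi_gt_three
  have h6 : ang (vel w.2) (nrm w.1) / (4 * Real.pi) ≤ 1 := by
    rw [div_le_one (by positivity)]
    linarith
  have e : cw d G p w - cw d G p' w = ang (vel w.2) (nrm w.1) / (4 * Real.pi) *
      (den d G (p.1 - ‖w.1‖) (p.2 - w.1, w.2) - den d G (p'.1 - ‖w.1‖) (p'.2 - w.1, w.2)) := by
    unfold cw
    ring
  have hΛ := h.hΛ
  have hF := d.hF
  have h7 : 0 ≤ 4 * Λ * d.F0 * Real.exp (Av Λ M1 l1 t) := by positivity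
  rw [e, abs_mul, abs_of_nonneg (by positivity)]
  refine (mul_le_of_le_one_left (abs_nonneg _) h6).trans (h1.trans ?_)
  refine (mul_le_mul_of_nonneg_left (add_le_add h2 h3) h7).trans (le_of_eq ?_)
  ring

theorem opLT_prod : ∃ C : ℝ, 1 ≤ C ∧ ∀ (A r P : ℝ), 0 ≤ A → 0 ≤ r → 0 ≤ P →
    ∫⁻ w : Z, (Metric.closedBall (0 : V) r ×ˢ Metric.closedBall (0 : V) P).indicator
      (fun w => ENNReal.ofReal (A * (1 / ‖w.1‖ ^ 2))) w ≤
        ENNReal.ofReal (A * (C * r) * (8 * P ^ 3)) := by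
  obtain ⟨C, hC1, hC⟩ := lint_inv_sq
  refine ⟨C, hC1, fun A r P hA hr hP => ?_⟩
  have hm : Measurable fun l : V => ENNReal.ofReal (1 / ‖l‖ ^ 2) := by fun_prop
  have h1 := hC 0 r hr
  simp only [zero_sub, norm_neg] at h1
  rw [lintegral_indicator (Metric.isClosed_closedBall.measurableSet.prod
    Metric.isClosed_closedBall.measurableSet), Measure.volume_eq_prod, ← Measure.prod_restrict]
  have e : ∀ w : Z, ENNReal.ofReal (A * (1 / ‖w.1‖ ^ 2)) =
      ENNReal.ofReal (1 / ‖w.1‖ ^ 2) * ENNReal.ofReal A := fun w => by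
    rw [ENNReal.ofReal_mul hA, mul_comm]
  simp only [e]
  rw [lintegral_prod_mul (f := fun l : V => ENNReal.ofReal (1 / ‖l‖ ^ 2))
    (g := fun _ : V => ENNReal.ofReal A) hm.aemeasurable aemeasurable_const, lintegral_const,
    Measure.restrict_apply_univ]
  refine (mul_le_mul' h1 (mul_le_mul' le_rfl (vol_ball_le 0 hP))).trans (le_of_eq ?_)
  have hC0 : 0 ≤ C * r := by positivity
  rw [← ENNReal.ofReal_mul hA, ← ENNReal.ofReal_mul hC0]
  congr 1
  ring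

theorem opLT_near : ∃ C : ℝ, 1 ≤ C ∧ ∀ (Λ M1 l1 M2 l2 : ℝ) (G : ST → Z), Cl Λ M1 l1 M2 l2 G →
    ∀ (d : Dat) (t P r : ℝ), 0 ≤ t → 0 ≤ P → 0 < r → Bd d G t P → ∀ p p' : ST, p.1 ≤ t →
    p'.1 ≤ t → ‖∫ z, phi (‖rl G z p‖ / r) • zT (rW G z p) (rl G z p) ∂d.ν -
      ∫ z, phi (‖rl G z p'‖ / r) • zT (rW G z p') (rl G z p') ∂d.ν‖ ≤
      8 * Λ * d.F0 * Real.exp (Av Λ M1 l1 t) * ‖p - p'‖ * (100 * P ^ 3) * (C * (2 * r)) *
        (8 * P ^ 3) := by
  obtain ⟨C, hC1, hC⟩ := opLT_prod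
  refine ⟨C, hC1, fun Λ M1 l1 M2 l2 G h d t P r ht hP hr hB p p' hp hp' => ?_⟩
  have h1 := h.int_cone d p (opLT_meas_near r).stronglyMeasurable
  have h2 := h.int_cone d p' (opLT_meas_near r).stronglyMeasurable
  have h3 := h1.2.1 (opLT_int_near h d p r)
  have h4 := h2.2.1 (opLT_int_near h d p' r)
  have hΛ := h.hΛ
  have hF := d.hF
  obtain ⟨A, hA⟩ : ∃ A, A = 8 * Λ * d.F0 * Real.exp (Av Λ M1 l1 t) * ‖p - p'‖ := ⟨_, rfl⟩
  have hA0 : 0 ≤ A := by rw [hA]; positivity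
  rw [h1.1, h2.1, ← integral_sub h3 h4, ← hA]
  refine (norm_integral_le_lintegral_norm _).trans (ENNReal.toReal_le_of_le_ofReal
    (by positivity) (le_trans (lintegral_mono fun w => ?_)
      (hC (A * (100 * P ^ 3)) (2 * r) P (by positivity) (by positivity) hP)))
  rw [← sub_smul]
  by_cases hq : q w.2 ≤ P
  · by_cases hl : ‖w.1‖ ≤ 2 * r
    · rw [indicator_of_mem (show w ∈ Metric.closedBall (0 : V) (2 * r) ×ˢ Metric.closedBall (0 : V) P
        from ⟨mem_closedBall_zero_iff.2 hl,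
          mem_closedBall_zero_iff.2 ((norm_lt_q w.2).le.trans hq)⟩)]
      refine ENNReal.ofReal_le_ofReal ?_
      rw [norm_smul, norm_smul, Real.norm_eq_abs, Real.norm_eq_abs, abs_of_nonneg (phi_nonneg _)]
      have h5 := opLT_cw_lip h d ht hp hp' w
      rw [← hA] at h5
      have h6 := (mul_le_of_le_one_left (norm_nonneg _) (phi_le_one (‖w.1‖ / r))).trans
        (norm_zT_le hq w.1)
      refine (mul_le_mul h5 h6 (mul_nonneg (phi_nonneg _) (norm_nonneg _)) hA0).trans (le_of_eq ?_)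
      ring
    · rw [phi_eq_zero ((le_div_iff₀ hr).2 (not_le.1 hl).le)]
      simp
  · have h5 : cw d G p w = 0 := by
      by_contra hne
      exact hq (h.cw_supp hB hp hne).1
    have h6 : cw d G p' w = 0 := by
      by_contra hne
      exact hq (h.cw_supp hB hp' hne).1
    rw [h5, h6]
    simp

theorem opLT_gr_nonneg {r : ℝ} (hr : 0 < r) (R : ℝ) : 0 ≤ gr r R := by
  have h : 0 < max r R := hr.trans_le (le_max_left _ _)
  unfold gr
  positivity

theorem opLT_gr_le {r R : ℝ} (hR : 1 ≤ R) : gr r R ≤ 2 := by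
  have h : 1 ≤ max r R := hR.trans (le_max_right _ _)
  have h1 : 1 / (max r R) ^ 3 ≤ 1 := (div_le_one (by positivity)).2 (one_le_pow₀ h)
  have h2 : 1 / (max r R) ^ 2 ≤ 1 := (div_le_one (by positivity)).2 (one_le_pow₀ h)
  unfold gr
  linarith

theorem opLT_meas_gr (r : ℝ) : Measurable (fun R => ENNReal.ofReal (gr r R)) := by
  unfold gr
  fun_prop

theorem opLT_lint_gr (h : Cl Λ M1 l1 M2 l2 G) {d : Dat} {t P r : ℝ} (hB : Bd d G t P) (hP : 0 ≤ P)
    (hr : 0 < r) (hr1 : r ≤ 1) {p : ST} (hp : p.1 ≤ t) :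
    ∫⁻ z, ENNReal.ofReal (gr r ‖rl G z p‖) ∂d.ν ≤
      ENNReal.ofReal (16 * d.F0 * P ^ 3 * (3 + Real.log (1 / r)) + 2 * d.ν.real univ) := by
  have hg : Measurable ((Iic (1 : ℝ)).indicator fun R => ENNReal.ofReal (gr r R)) :=
    (opLT_meas_gr r).indicator measurableSet_Iic
  have h1 := h.cone_rad' hB hP hp hg
  have h2 : ∫⁻ R in Ioi (0 : ℝ), ENNReal.ofReal (R ^ 2) *
      (Iic (1 : ℝ)).indicator (fun R => ENNReal.ofReal (gr r R)) R =
      ∫⁻ R in Ioc (0 : ℝ) 1, ENNReal.ofReal (R ^ 2) * ENNReal.ofReal (gr r R) := by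
    rw [← Iic_inter_Ioi, ← Measure.restrict_restrict measurableSet_Iic,
      ← lintegral_indicator measurableSet_Iic]
    refine lintegral_congr fun R => ?_
    by_cases hR : R ∈ Iic (1 : ℝ)
    · simp only [indicator_of_mem hR]
    · simp only [indicator_of_notMem hR, mul_zero]
  rw [h2] at h1
  have hF := d.hF
  have hlog : 0 ≤ Real.log (1 / r) := Real.log_nonneg ((one_le_div hr).2 hr1)
  have h3 : ∀ R : ℝ, ENNReal.ofReal (gr r R) ≤
      (Iic (1 : ℝ)).indicator (fun R => ENNReal.ofReal (gr r R)) R + ENNReal.ofReal 2 := fun R => by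
    by_cases hR : R ∈ Iic (1 : ℝ)
    · rw [indicator_of_mem hR]
      exact le_self_add
    · rw [indicator_of_notMem hR, zero_add]
      exact ENNReal.ofReal_le_ofReal (opLT_gr_le (not_le.1 hR).le)
  refine (lintegral_mono fun z => h3 _).trans ?_
  rw [lintegral_add_right _ measurable_const, lintegral_const,
    ENNReal.ofReal_add (by positivity) (by positivity), ENNReal.ofReal_mul (by positivity),
    ENNReal.ofReal_mul (p := 2) (by positivity), ofReal_measureReal]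
  exact add_le_add (h1.trans (mul_le_mul' le_rfl (lint_gr hr hr1))) le_rfl

theorem opLT_far (P : ℝ) : ∃ C : ℝ, 1 ≤ C ∧ ∀ (Λ M1 l1 M2 l2 : ℝ) (G : ST → Z),
    Cl Λ M1 l1 M2 l2 G → ∀ (d : Dat) (t r : ℝ), 0 ≤ P → 0 < r → r ≤ 1 → Bd d G t P →
    ∀ p p' : ST, p.1 ≤ t → p'.1 ≤ t →
    ‖∫ z, (1 - phi (‖rl G z p‖ / r)) • zT (rW G z p) (rl G z p) ∂d.ν -
      ∫ z, (1 - phi (‖rl G z p'‖ / r)) • zT (rW G z p') (rl G z p') ∂d.ν‖ ≤
      C * ((5 * P ^ 2 + 8 * Λ * P ^ 2) * ‖p - p'‖) *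
        (2 * (16 * d.F0 * P ^ 3 * (3 + Real.log (1 / r)) + 2 * d.ν.real univ)) := by
  obtain ⟨C, hC1, hC⟩ := zT_cut_lip P
  refine ⟨C, hC1, fun Λ M1 l1 M2 l2 G h d t r hP hr hr1 hB p p' hp hp' => ?_⟩
  have hΛ := h.hΛ
  have hF := d.hF
  have hlog : 0 ≤ Real.log (1 / r) := Real.log_nonneg ((one_le_div hr).2 hr1)
  obtain ⟨A, hA⟩ : ∃ A, A = C * ((5 * P ^ 2 + 8 * Λ * P ^ 2) * ‖p - p'‖) := ⟨_, rfl⟩
  obtain ⟨B, hB'⟩ : ∃ B, B = 16 * d.F0 * P ^ 3 * (3 + Real.log (1 / r)) + 2 * d.ν.real univ :=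
    ⟨_, rfl⟩
  have hA0 : 0 ≤ A := by rw [hA]; positivity
  have hB0 : 0 ≤ B := by rw [hB']; positivity
  have h1 := opLT_lint_gr h hB hP hr hr1 hp
  have h2 := opLT_lint_gr h hB hP hr hr1 hp'
  rw [← hB'] at h1 h2
  rw [← integral_sub (opLT_int_far h d p r) (opLT_int_far h d p' r), ← hA, ← hB']
  refine (norm_integral_le_lintegral_norm _).trans (ENNReal.toReal_le_of_le_ofReal
    (by positivity) ?_)
  have h3 : ∀ᵐ z ∂d.ν, ENNReal.ofReal ‖(1 - phi (‖rl G z p‖ / r)) • zT (rW G z p) (rl G z p) -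
      (1 - phi (‖rl G z p'‖ / r)) • zT (rW G z p') (rl G z p')‖ ≤ ENNReal.ofReal A *
        (ENNReal.ofReal (gr r ‖rl G z p‖) + ENNReal.ofReal (gr r ‖rl G z p'‖)) := by
    filter_upwards [d.ae_mem] with z hz
    have g1 := opLT_gr_nonneg hr ‖rl G z p‖
    have g2 := opLT_gr_nonneg hr ‖rl G z p'‖
    rw [← ENNReal.ofReal_add g1 g2, ← ENNReal.ofReal_mul hA0]
    refine ENNReal.ofReal_le_ofReal ((hC r _ _ _ _ hr (h.q_rW hB hz hp) (h.q_rW hB hz hp')).trans ?_)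
    obtain ⟨-, k1, k2, -⟩ := h.r_lip hB hz hp hp'
    refine mul_le_mul_of_nonneg_right ?_ (add_nonneg g1 g2)
    rw [hA, add_mul]
    exact mul_le_mul_of_nonneg_left (add_le_add k1 k2) (by positivity)
  have hm : Measurable fun z => ENNReal.ofReal (gr r ‖rl G z p'‖) :=
    (opLT_meas_gr r).comp (h.measurable_r p').2.1.norm
  refine (lintegral_mono_ae h3).trans ?_
  rw [lintegral_const_mul' _ _ ENNReal.ofReal_ne_top, lintegral_add_right _ hm,
    ENNReal.ofReal_mul hA0, two_mul, ENNReal.ofReal_add hB0 hB0]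
  exact mul_le_mul' le_rfl (add_le_add h1 h2)

theorem opLT_arith {K0 K1 B N a X L D : ℝ} (h0 : 0 ≤ K0) (h1 : 0 ≤ K1) (hB : 0 ≤ B) (hN : 0 ≤ N)
    (ha : 0 ≤ a) (hX : 0 ≤ X) (hD : 0 ≤ D) (hL : L ≤ a + 2 * X) :
    K0 * D + K1 * D * (2 * (B * (3 + L) + 2 * N)) ≤
      max 1 (K0 + K1 * (2 * (B * (5 + a) + 2 * N))) * (1 + X) * D := by
  have e1 : B * (3 + L) + 2 * N ≤ (B * (5 + a) + 2 * N) * (1 + X) := by
    have k1 := mul_le_mul_of_nonneg_left hL hB
    have k2 := mul_nonneg hB hX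
    have k3 := mul_nonneg k2 ha
    have k4 := mul_nonneg hN hX
    nlinarith
  have e2 : K0 + K1 * (2 * (B * (3 + L) + 2 * N)) ≤
      (K0 + K1 * (2 * (B * (5 + a) + 2 * N))) * (1 + X) := by
    have k1 := mul_le_mul_of_nonneg_left e1 h1
    have k2 := mul_nonneg h0 hX
    nlinarith
  have e3 := e2.trans (mul_le_mul_of_nonneg_right (le_max_right 1 _) (by positivity))
  refine le_trans (le_of_eq ?_) (mul_le_mul_of_nonneg_right e3 hD)
  ring

theorem op_lipT (d : Dat) (Λ T : ℝ) : ∃ C : ℝ, 1 ≤ C ∧ ∀ (M1 l1 M2 l2 : ℝ) (G : ST → Z),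
    Cl Λ M1 l1 M2 l2 G → ∀ t ∈ Icc 0 T, ∀ p p' : ST, p.1 ≤ t → p'.1 ≤ t →
    ‖opT d G p - opT d G p'‖ ≤ C * (1 + M1 * Real.exp (l1 * t) / l1) * ‖p - p'‖ := by
  obtain ⟨P, hP⟩ : ∃ P, P = d.P0 + 2 * Λ * T := ⟨_, rfl⟩
  obtain ⟨C0, hC0, hn⟩ := opLT_near
  obtain ⟨C1, hC1, hf⟩ := opLT_far P
  refine ⟨max 1 (8 * Λ * d.F0 * (100 * P ^ 3) * (C0 * 2) * (8 * P ^ 3) +
    C1 * (5 * P ^ 2 + 8 * Λ * P ^ 2) *
      (2 * (16 * d.F0 * P ^ 3 * (5 + (2 + 2 * Λ) * T) + 2 * d.ν.real univ))), le_max_left _ _,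
    fun M1 l1 M2 l2 G h t ht p p' hp hp' => ?_⟩
  have hT : 0 ≤ T := ht.1.trans ht.2
  have ht0 := ht.1
  have hΛ := h.hΛ
  have hM := h.hM1
  have hl := h.hl1
  have hF := d.hF
  have hP0 : 0 ≤ P := by
    have := d.hP
    rw [hP]
    positivity
  have hB : Bd d G t P := (h.bd d hT).mono ht.2 hP.ge
  have hA : 0 ≤ Av Λ M1 l1 t := by
    unfold Av
    positivity
  have hr : 0 < Real.exp (-Av Λ M1 l1 t) := Real.exp_pos _
  have hr1 : Real.exp (-Av Λ M1 l1 t) ≤ 1 := Real.exp_le_one_iff.2 (neg_nonpos.2 hA)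
  have h1 := hn Λ M1 l1 M2 l2 G h d t P _ ht0 hP0 hr hB p p' hp hp'
  have h2 := hf Λ M1 l1 M2 l2 G h d t _ hP0 hr hr1 hB p p' hp hp'
  have e1 : Real.log (1 / Real.exp (-Av Λ M1 l1 t)) = Av Λ M1 l1 t := by
    rw [one_div, ← Real.exp_neg, neg_neg, Real.log_exp]
  have e2 : Real.exp (Av Λ M1 l1 t) * Real.exp (-Av Λ M1 l1 t) = 1 := by
    rw [← Real.exp_add, add_neg_cancel, Real.exp_zero]
  have hL : Av Λ M1 l1 t ≤ (2 + 2 * Λ) * T + 2 * (M1 * Real.exp (l1 * t) / l1) := by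
    have k : (2 + 2 * Λ) * t ≤ (2 + 2 * Λ) * T := mul_le_mul_of_nonneg_left ht.2 (by positivity)
    have e : 2 * M1 * Real.exp (l1 * t) / l1 = 2 * (M1 * Real.exp (l1 * t) / l1) := by ring
    unfold Av
    linarith
  rw [e1] at h2
  rw [opLT_split h d p (Real.exp (-Av Λ M1 l1 t)), opLT_split h d p' (Real.exp (-Av Λ M1 l1 t)),
    add_sub_add_comm]
  refine (norm_add_le _ _).trans ((add_le_add h1 h2).trans (le_trans (le_of_eq ?_)
    (opLT_arith (by positivity) (by positivity) (by positivity) (by positivity) (by positivity)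
      (by positivity) (norm_nonneg _) hL)))
  linear_combination (8 * Λ * d.F0 * ‖p - p'‖ * (100 * P ^ 3) * (C0 * 2) * (8 * P ^ 3)) * e2

end

end Vale.Agent.P107
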