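import Vale.Agent.P107.Hc
import Vale.Agent.P107.Occ

/-! Integration by parts along the test trajectory, one source at a time. -/

namespace Vale.Agent.P107

open MeasureTheory Set Filter Topology
open scoped ENNReal RealInnerProductSpace

noncomputable section

namespace Ctx

variable {T1 F0 En C0 P0 c0 P : ℝ} (x : Ctx T1 F0 En C0 P0 c0 P)

/-- The force of the source `z` on the test particle. -/
def kr (w : ℝ × Z) : V :=
  ker (x.S.Y w.2) (x.S.W w.2) x.S.E x.S.B w.1 (x.X w.1) (vel (x.U w.1))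

/-- The boundary term of the source `z`. -/
def hz' (s : ℝ) (U₀ : V) (z : Z) : V := hc x.par (vel U₀) (x.Ws s z) (x.el s z)

theorem measurable_kr : Measurable x.kr := by
  have hU : Measurable (fun w : ℝ × Z => vel (x.U w.1)) :=
    (contDiff_vel.continuous.comp x.tm.cW).measurable.comp measurable_fst
  have e : x.kr = fun w : ℝ × Z => if 0 < x.sg w.1 w.2 then
      kT (vel (x.U w.1)) (x.Ws w.1 w.2) (x.el w.1 w.2) +
        kS (vel (x.U w.1)) (x.Ws w.1 w.2) (x.Fs w.1 w.2) (x.el w.1 w.2) else 0 := by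
    funext w
    exact x.ker_eq w.1 w.2
  rw [e]
  refine Measurable.ite (measurableSet_lt measurable_const x.measurable_sg) ?_ measurable_const
  have h1 := measurable_kT.comp (hU.prodMk (x.measurable_Ws.prodMk x.measurable_el))
  have h2 := measurable_kS.comp
    (hU.prodMk (x.measurable_Ws.prodMk (x.measurable_Fs.prodMk x.measurable_el)))
  simp only [Function.comp_def] at h1 h2
  exact h1.add h2

theorem kr_eq_zero {w : ℝ × Z} (h1 : w.1 ∈ Icc x.s1 x.s2) (h2 : w.2 ∈ x.S.S) (h : w ∉ x.act) :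
    x.kr w = 0 := by
  rw [kr, x.ker_eq]
  split_ifs with hs
  · have hR : ¬ 0 < x.pR w.1 w.2 := fun hR => h ⟨h1, h2, hs, hR⟩
    have h0 : x.el w.1 w.2 = 0 := norm_le_zero_iff.1 (not_lt.1 hR)
    rw [h0, kT_zero_l, kS_zero_l, add_zero]
  · rfl

theorem path_norm_kr {w : ℝ × Z} (h : w ∈ x.act) :
    ‖x.kr w‖ ≤ (100 * P ^ 3 + 240 * P ^ 3 * x.S.Λ) *
      (1 / x.pR w.1 w.2 ^ 2 + 1 / x.pR w.1 w.2) := by
  obtain ⟨⟨hp1, hp2⟩, ⟨hR, -⟩, -⟩ := x.act_range h
  have hP : 0 ≤ P ^ 3 := pow_nonneg (by linarith) 3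
  have hΛ := x.S.Λ_nonneg
  have hF : ‖x.Fs w.1 w.2‖ ≤ 2 * x.S.Λ := by
    refine (norm_lor_le _ _ _).trans ?_
    linarith [x.S.bE (x.sg w.1 w.2) (x.S.Y w.2 (x.sg w.1 w.2)),
      x.S.bB (x.sg w.1 w.2) (x.S.Y w.2 (x.sg w.1 w.2))]
  rw [kr, x.ker_eq, if_pos h.2.2.1]
  have h1 := norm_kT_crude (norm_vel_lt (x.U w.1)).le hp2 (x.el w.1 w.2)
  have h2 := norm_kS_crude (norm_vel_lt (x.U w.1)).le hp2 (x.Fs w.1 w.2) (x.el w.1 w.2)
  refine (norm_add_le _ _).trans ((add_le_add h1 h2).trans ?_)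
  change 100 * P ^ 3 / x.pR w.1 w.2 ^ 2 + 120 * P ^ 3 * ‖x.Fs w.1 w.2‖ / x.pR w.1 w.2 ≤ _
  have ha : 0 ≤ 1 / x.pR w.1 w.2 ^ 2 := by positivity
  have hb : 0 ≤ 1 / x.pR w.1 w.2 := by positivity
  have h3 : 120 * P ^ 3 * ‖x.Fs w.1 w.2‖ ≤ 240 * P ^ 3 * x.S.Λ := by
    have := mul_le_mul_of_nonneg_left hF hP
    linarith
  have h4 := mul_le_mul_of_nonneg_right h3 hb
  have h5 := mul_nonneg (mul_nonneg hP hΛ) ha
  have h6 := mul_nonneg hP hb
  rw [div_eq_mul_one_div (100 * P ^ 3), div_eq_mul_one_div (120 * P ^ 3 * _)]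
  linarith

theorem integrable_kr :
    Integrable x.kr (((volume : Measure ℝ).restrict (Icc x.s1 x.s2)).prod x.S.ν) := by
  have := x.S.fin
  refine ⟨x.measurable_kr.aestronglyMeasurable, ?_⟩
  obtain ⟨M, hM⟩ := x.lint_inv_act
  set K : ℝ := 100 * P ^ 3 + 240 * P ^ 3 * x.S.Λ with hK
  have hK0 : 0 ≤ K := by
    have hP : 0 ≤ P ^ 3 := pow_nonneg (by linarith [x.num.hP2]) 3
    have hΛ := x.S.Λ_nonneg
    positivity
  rw [hasFiniteIntegral_iff_enorm, lintegral_prod _ x.measurable_kr.enorm.aemeasurable]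
  have key : ∀ s ∈ Icc x.s1 x.s2,
      ∫⁻ z, ‖x.kr (s, z)‖ₑ ∂x.S.ν ≤ ENNReal.ofReal K * ENNReal.ofReal M := by
    intro s hs
    have hA : MeasurableSet {z | (s, z) ∈ x.act} := measurable_prodMk_left x.measurableSet_act
    have hae : ∀ᵐ z ∂x.S.ν, z ∈ x.S.S := x.S.νS
    calc ∫⁻ z, ‖x.kr (s, z)‖ₑ ∂x.S.ν
        ≤ ∫⁻ z, {z | (s, z) ∈ x.act}.indicator (fun z => ENNReal.ofReal K *
            ENNReal.ofReal (1 / x.pR s z ^ 2 + 1 / x.pR s z)) z ∂x.S.ν := by
          refine lintegral_mono_ae ?_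
          filter_upwards [hae] with z hz
          by_cases hw : (s, z) ∈ x.act
          · rw [indicator_of_mem (show z ∈ {z | (s, z) ∈ x.act} from hw),
              ← ENNReal.ofReal_mul hK0, ← ofReal_norm]
            exact ENNReal.ofReal_le_ofReal (x.path_norm_kr hw)
          · rw [x.kr_eq_zero (w := (s, z)) hs hz hw, enorm_zero]
            exact zero_le
      _ = ENNReal.ofReal K * ∫⁻ z in {z | (s, z) ∈ x.act},
            ENNReal.ofReal (1 / x.pR s z ^ 2 + 1 / x.pR s z) ∂x.S.ν := by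
          rw [lintegral_indicator hA, lintegral_const_mul' _ _ ENNReal.ofReal_ne_top]
      _ ≤ _ := by
          gcongr
          exact hM s
  calc ∫⁻ s in Icc x.s1 x.s2, ∫⁻ z, ‖x.kr (s, z)‖ₑ ∂x.S.ν
      ≤ ∫⁻ _ in Icc x.s1 x.s2, ENNReal.ofReal K * ENNReal.ofReal M :=
        setLIntegral_mono' measurableSet_Icc key
    _ < ⊤ := by
        rw [setLIntegral_const]
        exact ENNReal.mul_lt_top (ENNReal.mul_lt_top ENNReal.ofReal_lt_top ENNReal.ofReal_lt_top)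
          measure_Icc_lt_top

theorem path_past {s : ℝ} {z : Z} (h2 : z ∈ x.S.S) (hs : x.sg s z ≤ 0) :
    q (x.Ws s z) < x.par.pm := by
  rw [Ws, (x.S.tm z).past _ hs]
  exact (x.S.init z h2).trans_lt x.num.hP0

theorem path_off {s : ℝ} {z : Z} (h1 : s ∈ Icc x.s1 x.s2) (h2 : z ∈ x.S.S) (h : (s, z) ∉ x.act) :
    q (x.Ws s z) < x.par.pm ∨ ‖x.el s z‖ < x.par.r0 := by
  by_cases hs : 0 < x.sg s z
  · have hR : ¬ 0 < x.pR s z := fun hR => h ⟨h1, h2, hs, hR⟩
    exact Or.inr ((not_lt.1 hR).trans_lt x.par_ok.r00)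
  · exact Or.inl (x.path_past h2 (not_lt.1 hs))

theorem hz'_eq_zero {s : ℝ} {z : Z} (h1 : s ∈ Icc x.s1 x.s2) (h2 : z ∈ x.S.S) (U₀ : V)
    (h : ¬ ((s, z) ∈ x.act ∧ x.par.pm ≤ x.pp s z)) : x.hz' s U₀ z = 0 := by
  refine hc_eq_zero x.par_ok _ ?_
  by_cases hw : (s, z) ∈ x.act
  · exact Or.inl (not_le.1 fun hp => h ⟨hw, hp⟩).le
  · exact (x.path_off h1 h2 hw).imp le_of_lt le_of_lt

theorem path_cont_sg (z : Z) : Continuous (fun r => x.sg r z) :=
  (x.S.tm z).continuous_along x.tm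

theorem path_cont_Ws (z : Z) : Continuous (fun r => x.Ws r z) :=
  (x.S.tm z).cW.comp (x.path_cont_sg z)

theorem path_cont_el (z : Z) : Continuous (fun r => x.el r z) := by
  have h1 : Continuous x.X := continuous_iff_continuousAt.2 fun s => (x.tm.hY s).continuousAt
  have h2 : Continuous (x.S.Y z) :=
    continuous_iff_continuousAt.2 fun s => ((x.S.tm z).hY s).continuousAt
  exact h1.sub (h2.comp (x.path_cont_sg z))

theorem path_deriv : ∃ C : ℝ, 1 ≤ C ∧ ∀ (T1 F0 En C0 P0 c0 P : ℝ) (x : Ctx T1 F0 En C0 P0 c0 P)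
    (U₀ : V) (s : ℝ) (z : Z), s ∈ Icc x.s1 x.s2 → z ∈ x.S.S → Close x.par.δ (x.U s) U₀ →
    ∃ D : V, HasDerivAt (fun r => x.hz' r U₀ z) D s ∧
      ‖x.kr (s, z) - D‖ ≤ C * x.act.indicator x.Psi (s, z) := by
  obtain ⟨C, hC, H⟩ := hc_deriv
  refine ⟨C, hC, fun T1 F0 En C0 P0 c0 P x U₀ s z h1 h2 hcl => ?_⟩
  by_cases hw : (s, z) ∈ x.act
  · have hl : x.el s z ≠ 0 := norm_pos_iff.1 hw.2.2.2
    have hsg : HasDerivAt (fun r => x.sg r z)
        (ang (vel (x.U s)) (nrm (x.el s z)) / ang (vel (x.Ws s z)) (nrm (x.el s z))) s :=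
      (x.S.tm z).hasDerivAt_along x.tm (sub_ne_zero.1 hl)
    have hel : HasDerivAt (fun r => x.el r z) (vel (x.U s) -
        (ang (vel (x.U s)) (nrm (x.el s z)) / ang (vel (x.Ws s z)) (nrm (x.el s z))) •
          vel (x.Ws s z)) s :=
      (x.tm.hY s).sub (((x.S.tm z).hY (x.sg s z)).scomp s hsg)
    have hW : HasDerivAt (fun r => x.Ws r z)
        ((ang (vel (x.U s)) (nrm (x.el s z)) / ang (vel (x.Ws s z)) (nrm (x.el s z))) •
          x.Fs s z) s :=
      (x.S.hW z (x.sg s z) hw.2.2.1).scomp s hsg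
    obtain ⟨D, hD, hb⟩ := H x.par x.par_ok (x.U s) U₀ (x.Fs s z) (fun r => x.Ws r z)
      (fun r => x.el r z) s hcl hl hel hW
    refine ⟨D, hD, ?_⟩
    rw [indicator_of_mem hw, kr, x.ker_eq, if_pos hw.2.2.1]
    exact hb
  · refine ⟨0, ?_, ?_⟩
    · have hev : ∀ᶠ r in 𝓝 s, q (x.Ws r z) < x.par.pm ∨ ‖x.el r z‖ < x.par.r0 := by
        rcases x.path_off h1 h2 hw with h | h
        · have hc := (contDiff_q.continuous.comp (x.path_cont_Ws z)).continuousAt (x := s)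
          exact (hc.eventually_lt continuousAt_const h).mono fun r hr => Or.inl hr
        · have hc := (x.path_cont_el z).norm.continuousAt (x := s)
          exact (hc.eventually_lt continuousAt_const h).mono fun r hr => Or.inr hr
      refine (hasDerivAt_const s (0 : V)).congr_of_eventuallyEq ?_
      filter_upwards [hev] with r hr
      exact hc_eq_zero x.par_ok _ (hr.imp le_of_lt le_of_lt)
    · rw [x.kr_eq_zero (w := (s, z)) h1 h2 hw, indicator_of_notMem hw]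
      simp

theorem path : ∃ C : ℝ, 1 ≤ C ∧ ∀ (T1 F0 En C0 P0 c0 P : ℝ) (x : Ctx T1 F0 En C0 P0 c0 P)
    (U₀ : V) (r r' : ℝ) (z : Z), x.s1 ≤ r → r ≤ r' → r' ≤ x.s2 → z ∈ x.S.S →
    (∀ s ∈ Icc r r', Close x.par.δ (x.U s) U₀) →
    IntegrableOn (fun s => x.kr (s, z)) (Icc x.s1 x.s2) →
    IntegrableOn (fun s => x.act.indicator x.Psi (s, z)) (Icc x.s1 x.s2) →
    ‖(∫ s in r..r', x.kr (s, z)) - (x.hz' r' U₀ z - x.hz' r U₀ z)‖ ≤
      C * ∫ s in r..r', x.act.indicator x.Psi (s, z) := by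
  obtain ⟨C, hC, H⟩ := path_deriv
  refine ⟨C, hC, fun T1 F0 En C0 P0 c0 P x U₀ r r' z h1 h2 h3 hz hcl hk hψ => ?_⟩
  have hsub : Icc r r' ⊆ Icc x.s1 x.s2 := Icc_subset_Icc h1 h3
  have hd : ∀ s ∈ Icc r r', HasDerivAt (fun r => x.hz' r U₀ z)
      (deriv (fun r => x.hz' r U₀ z) s) s ∧
      ‖x.kr (s, z) - deriv (fun r => x.hz' r U₀ z) s‖ ≤ C * x.act.indicator x.Psi (s, z) := by
    intro s hs
    obtain ⟨D, hD, hb⟩ := H T1 F0 En C0 P0 c0 P x U₀ s z (hsub hs) hz (hcl s hs)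
    rw [hD.deriv]
    exact ⟨hD, hb⟩
  have hk' : IntervalIntegrable (fun s => x.kr (s, z)) volume r r' :=
    (intervalIntegrable_iff_integrableOn_Icc_of_le h2).2 (hk.mono_set hsub)
  have hψ' : IntervalIntegrable (fun s => C * x.act.indicator x.Psi (s, z)) volume r r' :=
    ((intervalIntegrable_iff_integrableOn_Icc_of_le h2).2 (hψ.mono_set hsub)).const_mul C
  have hD' : IntervalIntegrable (deriv (fun r => x.hz' r U₀ z)) volume r r' := by
    refine (intervalIntegrable_iff_integrableOn_Icc_of_le h2).2 ?_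
    refine Integrable.mono'
      ((intervalIntegrable_iff_integrableOn_Icc_of_le h2).1 (hk'.norm.add hψ'))
      (measurable_deriv _).aestronglyMeasurable ?_
    refine (ae_restrict_iff' measurableSet_Icc).2 (Eventually.of_forall fun s hs => ?_)
    have h4 := norm_sub_norm_le (deriv (fun r => x.hz' r U₀ z) s) (x.kr (s, z))
    rw [norm_sub_rev] at h4
    have h5 := (hd s hs).2
    linarith
  have hftc := intervalIntegral.integral_eq_sub_of_hasDerivAt
    (f := fun r => x.hz' r U₀ z) (f' := deriv (fun r => x.hz' r U₀ z)) (a := r) (b := r')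
    (fun s hs => (hd s (by rwa [uIcc_of_le h2] at hs)).1) hD'
  rw [← hftc, ← intervalIntegral.integral_sub hk' hD', ← intervalIntegral.integral_const_mul]
  refine intervalIntegral.norm_integral_le_of_norm_le h2 ?_ hψ'
  exact Eventually.of_forall fun s hs => (hd s (Ioc_subset_Icc_self hs)).2

end Ctx

end

end Vale.Agent.P107
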