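import Vale.Agent.P107.PieceA
import Vale.Agent.P107.Mul2
import Vale.Agent.P107.Crit

/-! The contribution of one box. -/

namespace Vale.Agent.P107

open MeasureTheory Set Filter Topology
open scoped ENNReal RealInnerProductSpace

noncomputable section

theorem piece_sm_mono {P Q K K' R : ℝ} (hP : 0 ≤ P) (hQ : 0 ≤ Q) (hK : 0 ≤ K) (h : K ≤ K') :
    sm P Q K R ≤ sm P Q K' R := by
  have h1 : K ^ 102 * Q * P ^ (-1 / 200 : ℝ) ≤ K' ^ 102 * Q * P ^ (-1 / 200 : ℝ) :=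
    mul_le_mul_of_nonneg_right (mul_le_mul_of_nonneg_right (pow_le_pow_left₀ hK h _) hQ)
      (Real.rpow_nonneg hP _)
  exact min_le_min h1 (mul_le_mul_of_nonneg_right h1 (by positivity))

theorem piece_wt_nonneg {θ a b c : ℝ} (hθ : 0 < θ) (ha : 0 < a) (hb : 0 < b) (hc : 0 < c) :
    0 ≤ wt θ a b c :=
  mul_nonneg (Real.rpow_nonneg (by positivity) _)
    (Real.rpow_nonneg (le_min (by positivity) (by positivity)) _)

theorem piece_mn_nonneg (R ρ : ℝ) : 0 ≤ mn R ρ := le_min (Real.sqrt_nonneg _) (Real.sqrt_nonneg _)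

theorem piece_mF_nonneg (τ p a b c R O : ℝ) : 0 ≤ mF τ p a b c R O := by
  unfold mF; positivity

theorem piece_lint {α : Type} [MeasurableSpace α] {μ : Measure α} {s : Set α} {g f : α → ℝ}
    (hf : Measurable f) (hf0 : ∀ w, 0 ≤ f w) {t u O F : ℝ} (ht : 0 ≤ t) (hu : 0 ≤ u) (hO : 0 ≤ O)
    (hF : 0 ≤ F) (h : ∀ w ∈ s, g w ≤ t + u * f w) (hs : μ s = ENNReal.ofReal O)
    (hi : ∫⁻ w in s, ENNReal.ofReal (f w) ∂μ ≤ ENNReal.ofReal F) :
    ∫⁻ w in s, ENNReal.ofReal (g w) ∂μ ≤ ENNReal.ofReal (t * O + u * F) := by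
  have hm : Measurable fun w => ENNReal.ofReal (f w) := hf.ennreal_ofReal
  calc ∫⁻ w in s, ENNReal.ofReal (g w) ∂μ
      ≤ ∫⁻ w in s, (ENNReal.ofReal t + ENNReal.ofReal u * ENNReal.ofReal (f w)) ∂μ := by
        refine setLIntegral_mono (measurable_const.add (hm.const_mul _)) fun w hw => ?_
        rw [← ENNReal.ofReal_mul hu, ← ENNReal.ofReal_add ht (mul_nonneg hu (hf0 w))]
        exact ENNReal.ofReal_le_ofReal (h w hw)
    _ = ENNReal.ofReal t * μ s +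
        ENNReal.ofReal u * ∫⁻ w in s, ENNReal.ofReal (f w) ∂μ := by
        rw [lintegral_add_left measurable_const, setLIntegral_const, lintegral_const_mul _ hm]
    _ ≤ ENNReal.ofReal (t * O + u * F) := by
        rw [ENNReal.ofReal_add (mul_nonneg ht hO) (mul_nonneg hu hF), ENNReal.ofReal_mul ht,
          ENNReal.ofReal_mul hu, hs]
        gcongr

theorem piece_const {α : Type} [MeasurableSpace α] {μ : Measure α} {s s' : Set α} {g : α → ℝ}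
    {t M : ℝ} (ht : 0 ≤ t) (h : ∀ w ∈ s, g w ≤ t) (hs : s ⊆ s') (hs' : μ s' = ENNReal.ofReal M) :
    ∫⁻ w in s, ENNReal.ofReal (g w) ∂μ ≤ ENNReal.ofReal (t * M) := by
  calc ∫⁻ w in s, ENNReal.ofReal (g w) ∂μ ≤ ∫⁻ _ in s, ENNReal.ofReal t ∂μ :=
        setLIntegral_mono measurable_const fun w hw => ENNReal.ofReal_le_ofReal (h w hw)
    _ = ENNReal.ofReal t * μ s := setLIntegral_const _ _
    _ ≤ ENNReal.ofReal (t * M) := by
        rw [ENNReal.ofReal_mul ht, ← hs']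
        gcongr

namespace Ctx

variable {T1 F0 En C0 P0 c0 P : ℝ} (x : Ctx T1 F0 En C0 P0 c0 P)

include x in
theorem piece_K {K0 : ℝ} (h : 0 ≤ K0) : K0 ≤ K0 * Real.log P / c0 := by
  have h1 := x.num.log_ge
  have h2 := x.num.hc0
  have h3 := x.num.hc1
  rw [le_div_iff₀ h2]
  exact mul_le_mul_of_nonneg_left (h3.trans h1) h

/-- The critical profile. -/
def pieceC (d : Box) : ℝ := gg c0 P x.Q d.p * wt x.par.th d.a d.b d.c *
  mn d.R (rho0 x.τ (1 + x.τ / uu c0 P d.p) d.p d.a d.b d.c)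

theorem piece_gg {d : Box} (hd : d.Pos) :
    √x.τ * d.p * √(1 + x.τ / uu c0 P d.p) ≤ gg c0 P x.Q d.p ∧
    x.par.th ^ (-1 / 3 : ℝ) * x.τ ^ (3 / 4 : ℝ) * d.p * (1 + x.τ / uu c0 P d.p) ^ (1 / 4 : ℝ) ≤
      gg c0 P x.Q d.p := by
  have hp : 0 < d.p := lt_of_lt_of_le one_pos hd.p
  have hτ := x.τ_pos
  have hθ := x.par_ok.th0
  have hu := uu_pos x.num.hc0 x.num.hP2 hp
  have h1 : 0 ≤ √x.τ * d.p * √(1 + x.τ / uu c0 P d.p) := by positivity
  have h2 : 0 ≤ x.par.th ^ (-1 / 3 : ℝ) * x.τ ^ (3 / 4 : ℝ) * d.p *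
      (1 + x.τ / uu c0 P d.p) ^ (1 / 4 : ℝ) := by positivity
  exact ⟨le_add_of_nonneg_right h2, le_add_of_nonneg_left h1⟩

theorem pieceC_nonneg {d : Box} (hd : d.Pos) : 0 ≤ x.pieceC d :=
  mul_nonneg (mul_nonneg (gg_nonneg x.num.hc0 x.num.hP2 (lt_of_lt_of_le one_pos x.one_le_Q)
    (lt_of_lt_of_le one_pos hd.p)) (piece_wt_nonneg x.par_ok.th0 hd.a hd.b hd.c))
    (piece_mn_nonneg _ _)

theorem piece_critS {d : Box} (hd : d.Pos) {K0 O : ℝ}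
    (h : MCr x.par.th x.τ (1 + x.τ / uu c0 P d.p) K0 d.p d.a d.b d.c d.R O) :
    bS d.p d.a d.b d.R * mF x.τ d.p d.a d.b d.c d.R O ≤ K0 ^ 101 * x.pieceC d := by
  have hK : 0 ≤ K0 := le_trans (by norm_num) h.K2
  refine (crit_S h).trans (mul_le_mul_of_nonneg_left (mul_le_mul_of_nonneg_right
    (mul_le_mul_of_nonneg_right (x.piece_gg hd).2 (piece_wt_nonneg x.par_ok.th0 hd.a hd.b hd.c))
    (piece_mn_nonneg _ _)) (by positivity))

theorem piece_critG {d : Box} (hd : d.Pos) {K0 O : ℝ}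
    (h : MCr x.par.th x.τ (1 + x.τ / uu c0 P d.p) K0 d.p d.a d.b d.c d.R O)
    (h1 : d.b ≤ K0 * (x.par.th * d.a)) (h6 : d.a ≤ K0 * d.c) (h7 : d.c ≤ K0 * d.a) :
    bG d.a d.b d.R * O ≤ K0 ^ 100 * x.pieceC d := by
  have hK : 0 ≤ K0 := le_trans (by norm_num) h.K2
  refine (crit_G h h1 h6 h7).trans (mul_le_mul_of_nonneg_left (mul_le_mul_of_nonneg_right
    (mul_le_mul_of_nonneg_right (x.piece_gg hd).1 (piece_wt_nonneg x.par_ok.th0 hd.a hd.b hd.c))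
    (piece_mn_nonneg _ _)) (by positivity))

/-- What is known on a box that is met. -/
structure PieceH (d : Box) (K0 K : ℝ) : Prop where
  pos : d.Pos
  k0 : 10 ^ 7 ≤ K0
  k1 : K0 ≤ K
  rng : MRng P x.Q x.τ K d.p d.a d.b d.c d.R
  occ : MOcc x.τ K d.p d.a d.b d.c d.R (x.O d)
  kin : MKin P x.τ K d.p d.b d.c d.R (x.O d) ∨ MUns P x.Q K d.p d.c
  cr : x.Stable d → d.R ≤ x.τ → x.par.th * d.a ≤ 4 * d.b →
    MCr x.par.th x.τ (1 + x.τ / uu c0 P d.p) K0 d.p d.a d.b d.c d.R (x.O d)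

variable {x}

theorem PieceH.alt {d : Box} {K0 K : ℝ} (h : x.PieceH d K0 K) (hn : x.par.th * d.a ≤ 4 * d.b) :
    (MUns P x.Q K d.p d.c ∨ x.τ ≤ K * d.R) ∨
      MCr x.par.th x.τ (1 + x.τ / uu c0 P d.p) K0 d.p d.a d.b d.c d.R (x.O d) := by
  by_cases hs : x.Stable d
  · rcases le_total d.R x.τ with hR | hR
    · exact Or.inr (h.cr hs hR hn)
    · refine Or.inl (Or.inr (hR.trans (le_mul_of_one_le_left h.pos.R.le ?_)))
      linarith [h.rng.K2]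
  · exact Or.inl (Or.inl (x.muns h.pos (h.k0.trans h.k1) hs))

theorem PieceH.partA {d : Box} {K0 K : ℝ} (h : x.PieceH d K0 K) {w : ℝ × Z} (hw : w ∈ x.piece d)
    (hA : RDir x.par (x.pp w.1 w.2) (x.pa w.1 w.2) (x.pb w.1 w.2) (x.pR w.1 w.2) ∨
      RNr x.par (x.pa w.1 w.2) (x.pb w.1 w.2)) :
    bT d.p d.a d.b d.R * x.O d ≤ sm P x.Q K d.R ∧
      bS d.p d.a d.b d.R * mF x.τ d.p d.a d.b d.c d.R (x.O d) ≤
        sm P x.Q K d.R + K0 ^ 101 * x.pieceC d := by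
  have hK0 : 0 ≤ K0 := le_trans (by norm_num) h.k0
  have hK : 4000 ≤ K := le_trans (by norm_num) (h.k0.trans h.k1)
  have hS := sm_nonneg h.rng
  have hC : 0 ≤ K0 ^ 101 * x.pieceC d := mul_nonneg (by positivity) (x.pieceC_nonneg h.pos)
  rcases hA with hA | hA
  · have hd := x.mdir h.pos hw (K := K) (by linarith) hA
    exact ⟨mul_T h.rng h.occ (Or.inl hd), (mul_S1 h.rng h.occ hd).trans (by linarith)⟩
  · obtain ⟨hn, hn'⟩ := x.mnr h.pos hw hK hA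
    refine ⟨mul_T h.rng h.occ (Or.inr hn), ?_⟩
    rcases h.alt hn' with hu | hc
    · exact (mul_S2 h.rng h.occ hn hu).trans (by linarith)
    · exact (x.piece_critS h.pos hc).trans (by linarith)

theorem PieceH.partD {d : Box} {K0 K : ℝ} (h : x.PieceH d K0 K) {w : ℝ × Z} (hw : w ∈ x.piece d)
    (hB : RTr x.par (x.pp w.1 w.2) (x.pa w.1 w.2) (x.pb w.1 w.2) (x.pR w.1 w.2))
    (hA : RDir x.par (x.pp w.1 w.2) (x.pa w.1 w.2) (x.pb w.1 w.2) (x.pR w.1 w.2) ∨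
      RNr x.par (x.pa w.1 w.2) (x.pb w.1 w.2)) :
    bG d.a d.b d.R * x.O d ≤ sm P x.Q K d.R + K0 ^ 100 * x.pieceC d := by
  have hK0 : 100 ≤ K0 := le_trans (by norm_num) h.k0
  have hK : 4000 ≤ K := le_trans (by norm_num) (h.k0.trans h.k1)
  have hS := sm_nonneg h.rng
  have hC : 0 ≤ K0 ^ 100 * x.pieceC d := mul_nonneg (by positivity) (x.pieceC_nonneg h.pos)
  have ht := (x.mtr h.pos hw (K := K) (by linarith) hB).1
  rcases hA with hA | hA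
  · have hd := x.mdir h.pos hw (K := K) (by linarith) hA
    exact (mul_G1 h.rng h.occ ht hd h.kin).trans (by linarith)
  · obtain ⟨hn, hn'⟩ := x.mnr h.pos hw hK hA
    rcases h.alt hn' with hu | hc
    · exact (mul_G2 h.rng h.occ ht hn hu).trans (by linarith)
    · obtain ⟨ht0, hb⟩ := x.mtr h.pos hw hK0 hB
      refine (x.piece_critG h.pos hc (hb.trans (mul_le_mul_of_nonneg_right (by linarith)
        (mul_nonneg x.par_ok.th0.le h.pos.a.le))) ht0.h6 ht0.h7).trans (by linarith)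

open Classical in
theorem PieceH.bound {d : Box} {K0 K : ℝ} (h : x.PieceH d K0 K) :
    ∃ t u : ℝ, 0 ≤ t ∧ 0 ≤ u ∧ (∀ w ∈ x.piece d, x.Psi w ≤ t + u * ‖x.Fs w.1 w.2‖) ∧
      t * x.O d ≤ 20 * sm P x.Q K d.R + 2 * K0 ^ 100 * x.pieceC d ∧
      u * mF x.τ d.p d.a d.b d.c d.R (x.O d) ≤
        18 * sm P x.Q K d.R + 2 * K0 ^ 101 * x.pieceC d := by
  have hK0 : 0 ≤ K0 := le_trans (by norm_num) h.k0
  have hS := sm_nonneg h.rng
  have hC := x.pieceC_nonneg h.pos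
  have hp : 0 < d.p := lt_of_lt_of_le one_pos h.pos.p
  have nT : 0 ≤ bT d.p d.a d.b d.R := bT_nonneg h.pos.b.le
  have nS : 0 ≤ bS d.p d.a d.b d.R := bS_nonneg hp.le h.pos.R.le
  have nG : 0 ≤ bG d.a d.b d.R := bG_nonneg h.pos.b.le
  have hA : ∃ t u : ℝ, 0 ≤ t ∧ 0 ≤ u ∧ (∀ w ∈ x.piece d,
      (if RDir x.par (x.pp w.1 w.2) (x.pa w.1 w.2) (x.pb w.1 w.2) (x.pR w.1 w.2) ∨
          RNr x.par (x.pa w.1 w.2) (x.pb w.1 w.2) then
        bT (x.pp w.1 w.2) (x.pa w.1 w.2) (x.pb w.1 w.2) (x.pR w.1 w.2) +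
          bS (x.pp w.1 w.2) (x.pa w.1 w.2) (x.pb w.1 w.2) (x.pR w.1 w.2) * ‖x.Fs w.1 w.2‖
        else 0) ≤ t + u * ‖x.Fs w.1 w.2‖) ∧ t * x.O d ≤ 2 * sm P x.Q K d.R ∧
      u * mF x.τ d.p d.a d.b d.c d.R (x.O d) ≤
        2 * sm P x.Q K d.R + 2 * K0 ^ 101 * x.pieceC d := by
    by_cases hA : ∃ w ∈ x.piece d,
        RDir x.par (x.pp w.1 w.2) (x.pa w.1 w.2) (x.pb w.1 w.2) (x.pR w.1 w.2) ∨
          RNr x.par (x.pa w.1 w.2) (x.pb w.1 w.2)
    · obtain ⟨w0, hw0, h0⟩ := hA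
      obtain ⟨e1, e2⟩ := h.partA hw0 h0
      refine ⟨2 * bT d.p d.a d.b d.R, 2 * bS d.p d.a d.b d.R, by positivity, by positivity,
        fun w hw => ?_, by linarith, by linarith⟩
      obtain ⟨s1, s2, -⟩ := Box.Mem.sizes h.pos hw.2
      split_ifs
      · exact add_le_add s1 (mul_le_mul_of_nonneg_right s2 (norm_nonneg _))
      · positivity
    · refine ⟨0, 0, le_rfl, le_rfl, fun w hw => ?_, by rw [zero_mul]; positivity,
        by rw [zero_mul]; positivity⟩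
      rw [if_neg fun h' => hA ⟨w, hw, h'⟩, zero_mul, add_zero]
  have hB : ∃ t u : ℝ, 0 ≤ t ∧ 0 ≤ u ∧ (∀ w ∈ x.piece d,
      (if RTr x.par (x.pp w.1 w.2) (x.pa w.1 w.2) (x.pb w.1 w.2) (x.pR w.1 w.2) then
        x.par.δ / √(x.pa w.1 w.2) *
          (bS (x.pp w.1 w.2) (x.pa w.1 w.2) (x.pb w.1 w.2) (x.pR w.1 w.2) * ‖x.Fs w.1 w.2‖ +
            bG (x.pa w.1 w.2) (x.pb w.1 w.2) (x.pR w.1 w.2))
        else 0) ≤ t + u * ‖x.Fs w.1 w.2‖) ∧ t * x.O d ≤ 16 * sm P x.Q K d.R ∧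
      u * mF x.τ d.p d.a d.b d.c d.R (x.O d) ≤ 16 * sm P x.Q K d.R := by
    by_cases hB : ∃ w ∈ x.piece d,
        RTr x.par (x.pp w.1 w.2) (x.pa w.1 w.2) (x.pb w.1 w.2) (x.pR w.1 w.2)
    · obtain ⟨w0, hw0, h0⟩ := hB
      have ht := (x.mtr h.pos hw0 (K := K) (le_trans (by norm_num) (h.k0.trans h.k1)) h0).1
      have e1 := mul_ES h.rng h.occ ht h.kin
      have e2 := mul_EG h.rng h.occ ht h.kin
      have hδ : x.par.δ / √d.a = 8 * (eta P x.Q / x.Q / √d.a) := by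
        change 8 * eta P x.Q / x.Q / √d.a = _
        ring
      have hδ0 := x.par_ok.δ0
      have hD : 0 ≤ x.par.δ / √d.a := by positivity
      refine ⟨x.par.δ / √d.a * (2 * bG d.a d.b d.R), x.par.δ / √d.a * (2 * bS d.p d.a d.b d.R),
        by positivity, by positivity, fun w hw => ?_, by rw [hδ]; linarith, by rw [hδ]; linarith⟩
      obtain ⟨-, s2, s3, -⟩ := Box.Mem.sizes h.pos hw.2
      split_ifs
      · have r1 : x.par.δ / √(x.pa w.1 w.2) ≤ x.par.δ / √d.a :=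
          div_le_div_of_nonneg_left hδ0.le (Real.sqrt_pos.2 h.pos.a) (Real.sqrt_le_sqrt hw.2.a1)
        have r2 := add_le_add (mul_le_mul_of_nonneg_right s2 (norm_nonneg (x.Fs w.1 w.2))) s3
        have r3 := mul_le_mul_of_nonneg_left r2 (by positivity : 0 ≤ x.par.δ / √(x.pa w.1 w.2))
        have r4 := mul_le_mul_of_nonneg_right r1
          (by positivity : 0 ≤ 2 * bS d.p d.a d.b d.R * ‖x.Fs w.1 w.2‖ + 2 * bG d.a d.b d.R)
        linarith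
      · positivity
    · refine ⟨0, 0, le_rfl, le_rfl, fun w hw => ?_, by rw [zero_mul]; positivity,
        by rw [zero_mul]; positivity⟩
      rw [if_neg fun h' => hB ⟨w, hw, h'⟩, zero_mul, add_zero]
  have hD : ∃ t : ℝ, 0 ≤ t ∧ (∀ w ∈ x.piece d,
      (if RTr x.par (x.pp w.1 w.2) (x.pa w.1 w.2) (x.pb w.1 w.2) (x.pR w.1 w.2) ∧
          (RDir x.par (x.pp w.1 w.2) (x.pa w.1 w.2) (x.pb w.1 w.2) (x.pR w.1 w.2) ∨
            RNr x.par (x.pa w.1 w.2) (x.pb w.1 w.2)) then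
        bG (x.pa w.1 w.2) (x.pb w.1 w.2) (x.pR w.1 w.2) else 0) ≤ t) ∧
      t * x.O d ≤ 2 * sm P x.Q K d.R + 2 * K0 ^ 100 * x.pieceC d := by
    by_cases hD : ∃ w ∈ x.piece d,
        RTr x.par (x.pp w.1 w.2) (x.pa w.1 w.2) (x.pb w.1 w.2) (x.pR w.1 w.2) ∧
          (RDir x.par (x.pp w.1 w.2) (x.pa w.1 w.2) (x.pb w.1 w.2) (x.pR w.1 w.2) ∨
            RNr x.par (x.pa w.1 w.2) (x.pb w.1 w.2))
    · obtain ⟨w0, hw0, h0, h1⟩ := hD
      have e1 := h.partD hw0 h0 h1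
      refine ⟨2 * bG d.a d.b d.R, by positivity, fun w hw => ?_, by linarith⟩
      obtain ⟨-, -, s3, -⟩ := Box.Mem.sizes h.pos hw.2
      split_ifs
      · exact s3
      · positivity
    · refine ⟨0, le_rfl, fun w hw => ?_, by rw [zero_mul]; positivity⟩
      rw [if_neg fun h' => hD ⟨w, hw, h'⟩]
  obtain ⟨t1, u1, a1, a2, a3, a4, a5⟩ := hA
  obtain ⟨t2, u2, b1, b2, b3, b4, b5⟩ := hB
  obtain ⟨t3, c1, c2, c3⟩ := hD
  refine ⟨t1 + t2 + t3, u1 + u2, by positivity, by positivity, fun w hw => ?_, by linarith,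
    by linarith⟩
  unfold Psi psi
  linarith [a3 w hw, b3 w hw, c2 w hw]

theorem piece_Psi (T1 F0 En : ℝ) : ∃ K0 : ℝ, 1 ≤ K0 ∧
    ∀ (C0 P0 c0 P : ℝ) (x : Ctx T1 F0 En C0 P0 c0 P) (d : Box), d.Pos →
      ∫⁻ w in x.piece d, ENNReal.ofReal (x.Psi w) ∂x.m ≤
        ENNReal.ofReal (K0 * sm P x.Q (K0 * Real.log P / c0) d.R) +
          ENNReal.ofReal (K0 * (gg c0 P x.Q d.p * wt x.par.th d.a d.b d.c *
            mn d.R (rho0 x.τ (1 + x.τ / uu c0 P d.p) d.p d.a d.b d.c))) := by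
  obtain ⟨K0, hK, hT, H⟩ := occ_all T1 F0 En
  have hK0 : 0 ≤ K0 := le_trans (by norm_num) hK
  obtain ⟨K1, hK1⟩ : ∃ K1 : ℝ, K1 = 20 + 18 * K0 + (2 * K0 ^ 100 + 2 * K0 ^ 102) := ⟨_, rfl⟩
  have p1 : 0 ≤ 2 * K0 ^ 100 + 2 * K0 ^ 102 := by positivity
  refine ⟨K1, by linarith, fun C0 P0 c0 P x d hd => ?_⟩
  rcases (x.piece d).eq_empty_or_nonempty with he | hne
  · rw [he, Measure.restrict_empty, lintegral_zero_measure]
    exact zero_le
  obtain ⟨h1, -, h3, h4, h5⟩ := H C0 P0 c0 P x d hd hne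
  obtain ⟨w0, hw0⟩ := hne
  have hKK := x.piece_K hK0
  have hH : x.PieceH d K0 (K0 * Real.log P / c0) :=
    ⟨hd, hK, hKK, x.mrng hd hw0 (hT.trans hKK), h1 _ hKK, h3, h4⟩
  obtain ⟨t, u, ht, hu, hpt, e1, e2⟩ := hH.bound
  have hS := sm_nonneg hH.rng
  have hC := x.pieceC_nonneg hd
  have hF := piece_mF_nonneg x.τ d.p d.a d.b d.c d.R (x.O d)
  have hmono : sm P x.Q (K0 * Real.log P / c0) d.R ≤ sm P x.Q (K1 * Real.log P / c0) d.R :=
    piece_sm_mono (le_trans zero_le_one x.num.hP2) (le_trans zero_le_one x.one_le_Q)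
      (hK0.trans hKK) (div_le_div_of_nonneg_right (mul_le_mul_of_nonneg_right (by linarith)
        (le_trans zero_le_one x.num.log_ge)) x.num.hc0.le)
  refine (piece_lint x.measurable_Fs.norm (fun _ => norm_nonneg _) ht hu hH.occ.O0
    (mul_nonneg hK0 hF) hpt (x.m_piece d) h5).trans
    ((ENNReal.ofReal_le_ofReal ?_).trans ENNReal.ofReal_add_le)
  change _ ≤ _ + K1 * x.pieceC d
  have f1 := mul_le_mul_of_nonneg_left e2 hK0
  have f2 := mul_le_mul_of_nonneg_left hmono (by linarith : 0 ≤ K1)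
  have f3 : (20 + 18 * K0) * sm P x.Q (K0 * Real.log P / c0) d.R ≤
      K1 * sm P x.Q (K0 * Real.log P / c0) d.R := mul_le_mul_of_nonneg_right (by linarith) hS
  have f4 : (2 * K0 ^ 100 + 2 * K0 ^ 102) * x.pieceC d ≤ K1 * x.pieceC d :=
    mul_le_mul_of_nonneg_right (by linarith) hC
  linarith

theorem piece_H (T1 F0 En : ℝ) : ∃ K0 : ℝ, 1 ≤ K0 ∧
    ∀ (C0 P0 c0 P : ℝ) (x : Ctx T1 F0 En C0 P0 c0 P) (d : Box), d.Pos → ∀ s : ℝ,
      ∫⁻ z in {z | (s, z) ∈ x.piece d ∧ RTr x.par (x.pp s z) (x.pa s z) (x.pb s z) (x.pR s z)},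
          ENNReal.ofReal (bH (x.pa s z) (x.pb s z) (x.pR s z)) ∂x.S.ν ≤
        ENNReal.ofReal (x.η / x.Q * sm P x.Q (K0 * Real.log P / c0) d.R) ∧
      ∫⁻ z in {z | (s, z) ∈ x.piece d ∧ RTr x.par (x.pp s z) (x.pa s z) (x.pb s z) (x.pR s z)},
          ENNReal.ofReal (bL (x.pa s z) (x.pb s z) (x.pR s z)) ∂x.S.ν ≤
        ENNReal.ofReal (sm P x.Q (K0 * Real.log P / c0) d.R) := by
  obtain ⟨K0, hK, hT, H⟩ := occ_all T1 F0 En
  have hK0 : 0 ≤ K0 := le_trans (by norm_num) hK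
  refine ⟨K0, le_trans (by norm_num) hK, fun C0 P0 c0 P x d hd s => ?_⟩
  rcases {z | (s, z) ∈ x.piece d ∧
    RTr x.par (x.pp s z) (x.pa s z) (x.pb s z) (x.pR s z)}.eq_empty_or_nonempty with he | hne
  · rw [he, Measure.restrict_empty, lintegral_zero_measure, lintegral_zero_measure]
    exact ⟨zero_le, zero_le⟩
  obtain ⟨z0, hz0, hz1⟩ := hne
  obtain ⟨-, h2, -⟩ := H C0 P0 c0 P x d hd ⟨_, hz0⟩
  have hKK := x.piece_K hK0
  obtain ⟨cap, fl⟩ := h2 _ hKK s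
  have hr := x.mrng hd hz0 (hT.trans hKK)
  have ht := (x.mtr hd hz0 (K := K0 * Real.log P / c0)
    (le_trans (by norm_num) (hK.trans hKK)) hz1).1
  have hM : 0 ≤ x.Ms s d := ENNReal.toReal_nonneg
  constructor
  · refine (piece_const (bH_nonneg hd.R.le) (fun z hz => (Box.Mem.sizes hd hz.1.2).2.2.2.1)
      (fun z hz => hz.1) (x.ν_slice s d)).trans (ENNReal.ofReal_le_ofReal ?_)
    exact mul_H hr ht hM cap fl
  · refine (piece_const (bL_nonneg hd.a.le hd.R.le)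
      (fun z hz => (Box.Mem.sizes hd hz.1.2).2.2.2.2)
      (fun z hz => hz.1) (x.ν_slice s d)).trans (ENNReal.ofReal_le_ofReal ?_)
    exact mul_L hr ht hM cap fl

end Ctx

end

end Vale.Agent.P107
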