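import Vale.Agent.P107.MulD
import Vale.Agent.P107.CS
import Vale.Agent.P107.Kin2

/-! The hypotheses of the piece bounds hold on the boxes that are met. -/

namespace Vale.Agent.P107

open MeasureTheory Set Filter Topology
open scoped ENNReal RealInnerProductSpace

noncomputable section

theorem pieceA_eta_sq {P Q : ℝ} (hP : 0 ≤ P) (hQ : 0 ≤ Q) :
    eta P Q ^ 2 = P ^ (1 / 5 : ℝ) * √Q := by
  unfold eta
  rw [mul_pow, ← Real.rpow_natCast, ← Real.rpow_natCast, ← Real.rpow_mul hP, ← Real.rpow_mul hQ,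
    Real.sqrt_eq_rpow]
  norm_num

theorem pieceA_le {u v k K : ℝ} (h : u ≤ k * v) (hk : k ≤ K) (hv : 0 ≤ v) : u ≤ K * v :=
  h.trans (mul_le_mul_of_nonneg_right hk hv)

theorem pieceA_tri {a b c K : ℝ} (h : a ≤ 4 * b + 4 * c) (hK : 8 ≤ K) (hb : 0 < b) (hc : 0 < c) :
    a ≤ K * b ∨ a ≤ K * c := by
  rcases le_total b c with h1 | h1
  · exact Or.inr (pieceA_le (by linarith) hK hc.le)
  · exact Or.inl (pieceA_le (by linarith) hK hb.le)

theorem pieceA_sq {p p' b b' : ℝ} (hp : 0 ≤ p') (h1 : p' ≤ 2 * p) (hb : 0 ≤ b') (h2 : b' ≤ 2 * b) :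
    p' ^ 2 * b' ≤ 8 * (p ^ 2 * b) := by
  have h3 : p' ^ 2 ≤ (2 * p) ^ 2 := pow_le_pow_left₀ hp h1 2
  calc p' ^ 2 * b' ≤ (2 * p) ^ 2 * (2 * b) := mul_le_mul h3 h2 hb (sq_nonneg _)
    _ = 8 * (p ^ 2 * b) := by ring

namespace Ctx

variable {T1 F0 En C0 P0 c0 P : ℝ} (x : Ctx T1 F0 En C0 P0 c0 P)

include x in
theorem pieceA_P : 0 < P := one_pos.trans_le x.num.hP2

theorem pieceA_Q : 0 < x.Q := one_pos.trans_le x.one_le_Q

theorem pieceA_am : x.par.am = P ^ (6 / 25 : ℝ) * x.Q ^ (-3 / 2 : ℝ) := by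
  have hP := x.pieceA_P
  have hQ := x.pieceA_Q
  show P ^ (1 / 25 : ℝ) * (eta P x.Q / x.Q) ^ 2 = _
  have e1 : P ^ (6 / 25 : ℝ) = P ^ (1 / 25 : ℝ) * P ^ (1 / 5 : ℝ) := by
    rw [← Real.rpow_add hP]; norm_num
  have e2 : x.Q ^ (-3 / 2 : ℝ) = √x.Q / x.Q ^ 2 := by
    rw [Real.sqrt_eq_rpow, ← Real.rpow_natCast, ← Real.rpow_sub hQ]; norm_num
  rw [div_pow, pieceA_eta_sq hP.le hQ.le, e1, e2]
  ring

theorem mrng {d : Box} (hd : d.Pos) {w : ℝ × Z} (hw : w ∈ x.piece d) {K : ℝ}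
    (hK : 16 * T1 ≤ K) : MRng P x.Q x.τ K d.p d.a d.b d.c d.R := by
  obtain ⟨⟨p1, p2⟩, ⟨r1, r2⟩, ⟨a1, -, a3⟩, ⟨b1, b2⟩, ⟨c1, c2, c3⟩, t1, t2, t3⟩ := x.act_range hw.1
  have m := hw.2
  have hT := x.num.hT1
  have hK16 : 16 ≤ K := by linarith
  have hQ := sq_nonneg x.Q
  have hp0 : 0 < d.p := one_pos.trans_le hd.p
  have ha := hd.a
  have hb := hd.b
  have hc := hd.c
  have e1 := pieceA_sq (by linarith) m.p2 (hb.le.trans m.b1) m.b2
  have e2 := pieceA_sq (by linarith) m.p2 (hc.le.trans m.c1) m.c2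
  have e3 := mul_le_mul_of_nonneg_left m.a2 hQ
  have e4 := mul_le_mul_of_nonneg_left m.c2 hQ
  refine ⟨by linarith, x.num.hP2, x.Q_ge, x.Q_le, x.τ_pos, hd.p, m.p1.trans p2, ha, hb, hc, hd.R,
    by linarith [m.a1], by linarith [m.b1], by linarith [m.c1], ?_, ?_, ?_, ?_,
    pieceA_tri (by linarith [m.a1, m.b2, m.c2]) (by linarith) hb hc,
    pieceA_tri (by linarith [m.b1, m.a2, m.c2]) (by linarith) ha hc,
    pieceA_tri (by linarith [m.c1, m.a2, m.b2]) (by linarith) ha hb,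
    by linarith [m.R1], x.τ_le⟩
  · rw [mul_assoc]
    exact pieceA_le (by linarith) hK16 (by positivity)
  · rw [mul_assoc]
    exact pieceA_le (by linarith) hK16 (by positivity)
  · rw [mul_assoc]
    exact pieceA_le (by linarith) hK16 (by positivity)
  · rw [mul_assoc]
    exact pieceA_le (by linarith) hK16 (by positivity)

theorem pieceA_cube {d : Box} (hd : d.Pos) {p a b c R : ℝ} (m : d.Mem p a b c R) :
    d.p ^ 2 * d.b * d.R ^ 2 ≤ p ^ 2 * b * R ^ 2 ∧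
      p ^ 2 * b * R ^ 2 ≤ 32 * (d.p ^ 2 * d.b * d.R ^ 2) := by
  have hp0 : 0 < d.p := one_pos.trans_le hd.p
  have hb := hd.b
  have hR := hd.R
  have hb' := hb.trans_le m.b1
  constructor
  · exact mul_le_mul (mul_le_mul (pow_le_pow_left₀ hp0.le m.p1 2) m.b1 hb.le (sq_nonneg _))
      (pow_le_pow_left₀ hR.le m.R1 2) (sq_nonneg _) (by positivity)
  · calc p ^ 2 * b * R ^ 2 ≤ 8 * (d.p ^ 2 * d.b) * (2 * d.R) ^ 2 :=
          mul_le_mul (pieceA_sq (hp0.le.trans m.p1) m.p2 hb'.le m.b2)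
            (pow_le_pow_left₀ (hR.le.trans m.R1) m.R2 2) (sq_nonneg _) (by positivity)
      _ = 32 * (d.p ^ 2 * d.b * d.R ^ 2) := by ring

theorem mdir {d : Box} (hd : d.Pos) {w : ℝ × Z} (hw : w ∈ x.piece d) {K : ℝ} (hK : 100 ≤ K)
    (h : RDir x.par (x.pp w.1 w.2) (x.pa w.1 w.2) (x.pb w.1 w.2) (x.pR w.1 w.2)) :
    MDir P x.Q x.τ K d.p d.a d.b d.R := by
  have m := hw.2
  have ok := x.par_ok
  have hb := hd.b
  rcases h with h | h | h | h
  · refine Or.inl ?_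
    rw [← x.pieceA_am]
    exact pieceA_le (m.a1.trans h) (by linarith) ok.am0.le
  · refine Or.inr (Or.inl (pieceA_le (k := 32) ?_ (by linarith) (by positivity)))
    refine le_trans ?_ (h.trans (pieceA_cube hd m).2)
    exact mul_le_mul_of_nonneg_left (add_le_add le_rfl m.R1) ok.yy0.le
  · exact Or.inr (Or.inr (Or.inl (pieceA_le (m.p1.trans h) (by linarith) ok.pm0.le)))
  · exact Or.inr (Or.inr (Or.inr (pieceA_le (m.R1.trans h) (by linarith) ok.r00.le)))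

theorem mnr {d : Box} (hd : d.Pos) {w : ℝ × Z} (hw : w ∈ x.piece d) {K : ℝ} (hK : 4000 ≤ K)
    (h : RNr x.par (x.pa w.1 w.2) (x.pb w.1 w.2)) :
    MNr P x.Q K d.a d.b ∧ x.par.th * d.a ≤ 4 * d.b := by
  have m := hw.2
  have h1 : x.par.th * d.a ≤ 4 * d.b := by
    have h2 := mul_le_mul_of_nonneg_left m.a1 x.par_ok.th0.le
    have h3 := m.b2
    unfold RNr at h
    linarith
  refine ⟨pieceA_le ?_ hK hd.b.le, h1⟩
  have e : x.par.th = (x.Q / P) ^ (3 / 2 : ℝ) / 1000 := rfl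
  rw [e] at h1
  linarith

theorem mtr {d : Box} (hd : d.Pos) {w : ℝ × Z} (hw : w ∈ x.piece d) {K : ℝ} (hK : 100 ≤ K)
    (h : RTr x.par (x.pp w.1 w.2) (x.pa w.1 w.2) (x.pb w.1 w.2) (x.pR w.1 w.2)) :
    MTr P x.Q x.τ K d.p d.a d.b d.c d.R ∧ d.b ≤ 8 * (x.par.th * d.a) := by
  obtain ⟨-, -, -, -, -, t1, -, t3⟩ := x.act_range hw.1
  obtain ⟨h1, h2, h3, h4, h5⟩ := h
  have m := hw.2
  have ok := x.par_ok
  have ha := hd.a
  have hc := hd.c
  have hR := hd.R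
  have hτ := x.τ_pos
  have hp0 : 0 < d.p := one_pos.trans_le hd.p
  have ha' := ha.trans_le m.a1
  have k1 : d.b ≤ 8 * (x.par.th * d.a) := by
    have := mul_le_mul_of_nonneg_left m.a2 ok.th0.le
    linarith [m.b1]
  have k2 : x.pb w.1 w.2 ≤ x.pa w.1 w.2 / 250 := by
    have := mul_le_mul_of_nonneg_right ok.th1 ha'.le
    linarith
  have e : x.par.th = (x.Q / P) ^ (3 / 2 : ℝ) / 1000 := rfl
  have k3 : 0 ≤ (x.Q / P) ^ (3 / 2 : ℝ) * d.a := by
    have := mul_pos ok.th0 ha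
    rw [e] at this
    linarith
  refine ⟨⟨pieceA_le (k := 1) ?_ (by linarith) k3, ?_, pieceA_le (k := 4) ?_ (by linarith) ?_,
    pieceA_le (h4.trans m.p2) (by linarith) hp0.le, pieceA_le (h5.trans m.R2) (by linarith) hR.le,
    pieceA_le (k := 5) (by linarith [m.a1, m.c2]) (by linarith) hc.le,
    pieceA_le (k := 5) (by linarith [m.c1, m.a2]) (by linarith) ha.le⟩, k1⟩
  · rw [e] at k1
    linarith
  · rw [← x.pieceA_am]
    exact pieceA_le (k := 4) (by linarith [m.a2]) (by linarith) ha.le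
  · have k4 : x.par.yy * (x.τ + x.pR w.1 w.2) ≤ x.par.yy * (2 * (x.τ + d.R)) :=
      mul_le_mul_of_nonneg_left (by linarith [m.R2]) ok.yy0.le
    have k5 := (pieceA_cube hd m).1
    have e1 : x.par.τ = x.τ := rfl
    have e2 : x.par.yy = P ^ (1 / 50 : ℝ) := rfl
    rw [e1] at h3
    rw [← e2]
    linarith
  · exact mul_nonneg ok.yy0.le (by linarith)

theorem muns {d : Box} (hd : d.Pos) {K : ℝ} (hK : 10 ^ 7 ≤ K) (h : ¬ x.Stable d) :
    MUns P x.Q K d.p d.c := by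
  have hP := x.pieceA_P
  have hQ := x.pieceA_Q
  have hp0 : 0 < d.p := one_pos.trans_le hd.p
  have hc := hd.c
  have key : ∀ u v : ℝ, 0 < u → 0 < v → u * √d.c / 1000 < eta P v →
      u ^ 2 * d.c ≤ 10 ^ 6 * (P ^ (1 / 5 : ℝ) * √v) := by
    intro u v hu hv h1
    have h2 := pow_le_pow_left₀ (by positivity) h1.le 2
    rw [pieceA_eta_sq hP.le hv.le, div_pow, mul_pow, Real.sq_sqrt hc.le] at h2
    linarith
  unfold Stable at h
  rw [not_and_or, not_and_or, not_le, not_le, not_le] at h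
  rcases h with h | h | h
  · exact Or.inl (pieceA_le h.le (by linarith) (by positivity))
  · refine Or.inr (Or.inl (pieceA_le (k := 2 * 10 ^ 6) ?_ (by linarith) (by positivity)))
    have h3 := key _ _ hp0 (by positivity) h
    have e : √(4 * d.p) = 2 * √d.p := by
      rw [Real.sqrt_mul (by norm_num), show (4 : ℝ) = 2 ^ 2 by norm_num,
        Real.sqrt_sq (by norm_num)]
    rw [e] at h3
    linarith
  · exact Or.inr (Or.inr (pieceA_le (key _ _ hQ hQ h) (by linarith) (by positivity)))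

theorem pieceA_kin {d : Box} (hd : d.Pos) (hp : d.p ≤ P) {C K0 : ℝ} (hC : 0 ≤ C)
    (hK : 4 * C ≤ K0)
    (h : x.O d ≤ C * (d.b * d.R / (d.c * √d.c) * (1 + (x.τ + d.R) / uu c0 P d.p) / d.p)) :
    MKin P x.τ (K0 * Real.log P / c0) d.p d.b d.c d.R (x.O d) := by
  have hP := x.pieceA_P
  have hp0 : 0 < d.p := one_pos.trans_le hd.p
  have hb := hd.b
  have hc := hd.c
  have hR := hd.R
  have hτ := x.τ_pos
  have hc0 := x.num.hc0
  have hL := x.num.log_ge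
  have hLc : 1 ≤ Real.log P / c0 := (one_le_div hc0).2 (x.num.hc1.trans hL)
  have hY : 0 < d.b * d.R / (d.c * √d.c) := by positivity
  have h1 := inv_uu_le hc0 x.num.hP2 hL hp0 hp
  rw [mul_div_assoc K0]
  unfold MKin
  generalize d.b * d.R / (d.c * √d.c) = Y at h hY ⊢
  have hK' : 4 * C * (Real.log P / c0) ≤ K0 * (Real.log P / c0) :=
    mul_le_mul_of_nonneg_right hK (by linarith)
  rcases le_total ((x.τ + d.R) / uu c0 P d.p) 1 with h2 | h2
  · refine Or.inl (pieceA_le (k := 2 * C) (h.trans ?_) (le_trans ?_ hK') (by positivity))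
    · calc C * (Y * (1 + (x.τ + d.R) / uu c0 P d.p) / d.p) ≤ C * (Y * 2 / d.p) := by
            gcongr
            linarith
        _ = 2 * C * (Y / d.p) := by ring
    · nlinarith
  · refine Or.inr (pieceA_le (h.trans ?_) hK' (by positivity))
    have h3 : (x.τ + d.R) / uu c0 P d.p ≤
        (x.τ + d.R) * (2 * Real.log P / c0 * (P ^ 2 / d.p ^ 2)) := by
      rw [div_eq_mul_one_div]
      exact mul_le_mul_of_nonneg_left h1 (by positivity)
    calc C * (Y * (1 + (x.τ + d.R) / uu c0 P d.p) / d.p) ≤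
          C * (Y * (2 * ((x.τ + d.R) * (2 * Real.log P / c0 * (P ^ 2 / d.p ^ 2)))) / d.p) := by
          gcongr
          linarith
      _ = 4 * C * (Real.log P / c0) * (Y * ((x.τ + d.R) * P ^ 2 / d.p ^ 3)) := by
          field_simp
          ring

/-- All the occupancy information with one constant. -/
theorem occ_all (T1 F0 En : ℝ) : ∃ K0 : ℝ, 10 ^ 7 ≤ K0 ∧ 16 * T1 ≤ K0 ∧
    ∀ (C0 P0 c0 P : ℝ) (x : Ctx T1 F0 En C0 P0 c0 P) (d : Box), d.Pos → (x.piece d).Nonempty →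
      (∀ K, K0 ≤ K → MOcc x.τ K d.p d.a d.b d.c d.R (x.O d)) ∧
      (∀ K, K0 ≤ K → ∀ s, x.Ms s d ≤ K * (d.p ^ 3 * min d.b d.c * d.a * d.b * d.R ^ 3) ∧
        x.Ms s d ≤ K / d.p) ∧
      (MKin P x.τ (K0 * Real.log P / c0) d.p d.b d.c d.R (x.O d) ∨
        MUns P x.Q (K0 * Real.log P / c0) d.p d.c) ∧
      (x.Stable d → d.R ≤ x.τ → x.par.th * d.a ≤ 4 * d.b →
        MCr x.par.th x.τ (1 + x.τ / uu c0 P d.p) K0 d.p d.a d.b d.c d.R (x.O d)) ∧
      ∫⁻ w in x.piece d, ENNReal.ofReal ‖x.Fs w.1 w.2‖ ∂x.m ≤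
        ENNReal.ofReal (K0 * mF x.τ d.p d.a d.b d.c d.R (x.O d)) := by
  obtain ⟨C1, -, h1⟩ := Ms_cap
  obtain ⟨C2, hC2, h2⟩ := O_kin
  obtain ⟨C3, -, h3⟩ := lint_F
  obtain ⟨K0, hK0⟩ : ∃ K0 : ℝ, max (max (max (10 ^ 7) (16 * T1)) (max (C1 * F0) (4 * En)))
    (max (4 * (C2 * En)) (C3 * F0 * En)) ≤ K0 := ⟨_, le_rfl⟩
  simp only [max_le_iff] at hK0
  obtain ⟨⟨⟨k1, k2⟩, k3, k4⟩, k5, k6⟩ := hK0
  refine ⟨K0, k1, k2, fun C0 P0 c0 P x d hd ⟨w, hw⟩ => ?_⟩
  have hp0 : 0 < d.p := one_pos.trans_le hd.p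
  have ha := hd.a
  have hb := hd.b
  have hc := hd.c
  have hR := hd.R
  have hτ := x.τ_pos
  have hEn := x.num.hEn
  have hbc : 0 < min d.b d.c := lt_min hb hc
  have r := x.mrng hd hw k2
  have m1 : ∀ K, K0 ≤ K → ∀ s, x.Ms s d ≤ K * (d.p ^ 3 * min d.b d.c * d.a * d.b * d.R ^ 3) ∧
      x.Ms s d ≤ K / d.p := fun K hK s =>
    ⟨pieceA_le (h1 _ _ _ _ _ _ _ x d hd s) (k3.trans hK) (by positivity),
      (x.Ms_fl hd s).trans (div_le_div_of_nonneg_right (by linarith) hp0.le)⟩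
  have m2 : ∀ K, K0 ≤ K → MOcc x.τ K d.p d.a d.b d.c d.R (x.O d) := by
    intro K hK
    have hK' : 0 < K := by linarith
    refine ⟨ENNReal.toReal_nonneg, ?_, ?_, pieceA_le (x.O_en hd) (k4.trans hK) (by positivity)⟩
    · refine (x.O_le_of_Ms d (by positivity) fun s _ => (m1 K hK s).1).trans (le_of_eq ?_)
      ring
    · refine (x.O_le_of_Ms d (by positivity) fun s _ => (m1 K hK s).2).trans (le_of_eq ?_)
      ring
  have hCE : 0 ≤ C2 * En := mul_nonneg (by linarith) (by linarith)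
  refine ⟨m2, m1, ?_, fun hs hRτ hn => ?_, (h3 _ _ _ _ _ _ _ x d hd).trans
    (ENNReal.ofReal_le_ofReal (mul_le_mul_of_nonneg_right k6 (by positivity)))⟩
  · by_cases hs : x.Stable d
    · exact Or.inl (x.pieceA_kin hd r.p2 hCE k5 (h2 _ _ _ _ _ _ _ x d hd hs))
    · refine Or.inr (x.muns hd ?_ hs)
      have hLc : 1 ≤ Real.log P / c0 :=
        (one_le_div x.num.hc0).2 (x.num.hc1.trans x.num.log_ge)
      rw [mul_div_assoc]
      exact k1.trans (le_mul_of_one_le_right (by linarith) hLc)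
  · have hu := uu_pos x.num.hc0 x.num.hP2 hp0
    have ok := x.par_ok
    refine ⟨r.K2, ok.th0, ok.th1.trans (by norm_num), hτ, by positivity, hp0, ha, hb, hc, hR,
      ENNReal.toReal_nonneg, r.a1, r.b1, r.c1, r.ta, r.tb, r.tc,
      pieceA_le hn (by linarith) hb.le, (m2 K0 le_rfl).cap, ?_, hRτ⟩
    refine pieceA_le (k := 2 * (C2 * En)) ((h2 _ _ _ _ _ _ _ x d hd hs).trans ?_) (by linarith)
      (by positivity)
    have e : 1 + (x.τ + d.R) / uu c0 P d.p ≤ 2 * (1 + x.τ / uu c0 P d.p) := by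
      have e1 : d.R / uu c0 P d.p ≤ x.τ / uu c0 P d.p := div_le_div_of_nonneg_right hRτ hu.le
      rw [add_div]
      linarith
    calc C2 * En * (d.b * d.R / (d.c * √d.c) * (1 + (x.τ + d.R) / uu c0 P d.p) / d.p) ≤
          C2 * En * (d.b * d.R / (d.c * √d.c) * (2 * (1 + x.τ / uu c0 P d.p)) / d.p) := by
          gcongr
      _ = _ := by ring

end Ctx

end

end Vale.Agent.P107
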