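import Vale.Agent.P107.KerL

/-! Derivative of the potential of a point charge. -/

namespace Vale.Agent.P107

open MeasureTheory Set Filter Topology
open scoped ENNReal RealInnerProductSpace

noncomputable section

/-- Derivative of the retarded time. -/
def dσ (v l : V) : ST →L[ℝ] ℝ :=
  (ang (vel v) (nrm l))⁻¹ • (ContinuousLinearMap.fst ℝ ℝ V -
    (innerSL ℝ (nrm l)).comp (ContinuousLinearMap.snd ℝ ℝ V))

/-- Derivative of `al (vel W) l`. -/
def dγ (v F l : V) : ST →L[ℝ] ℝ :=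
  (innerSL ℝ (nrm l - vel v)).comp
      (ContinuousLinearMap.snd ℝ ℝ V - (dσ v l).smulRight (vel v)) -
    ⟪l, acc v F⟫ • dσ v l

/-- Derivative of the potential. -/
def lwD (v F l : V) : ST →L[ℝ] ST :=
  (al (vel v) l)⁻¹ • (dσ v l).smulRight ((0 : ℝ), acc v F) -
    ((al (vel v) l) ^ 2)⁻¹ • (dγ v F l).smulRight ((1 : ℝ), vel v)

theorem Pot1_dσ (v l : V) (e : ST) :
    dσ v l e = (ang (vel v) (nrm l))⁻¹ * (e.1 - ⟪nrm l, e.2⟫) := by
  simp [dσ]

theorem Pot1_dγ (v F l : V) (e : ST) :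
    dγ v F l e = ⟪nrm l - vel v, e.2⟫ -
      dσ v l e * (⟪nrm l - vel v, vel v⟫ + ⟪l, acc v F⟫) := by
  simp only [dγ, ContinuousLinearMap.sub_apply, ContinuousLinearMap.comp_apply,
    ContinuousLinearMap.coe_snd', ContinuousLinearMap.smulRight_apply, innerSL_apply_apply,
    inner_sub_right, real_inner_smul_right, ContinuousLinearMap.smul_apply, smul_eq_mul]
  ring

theorem Pot1_fst (v F l : V) (e : ST) :
    (lwD v F l e).1 = -(((al (vel v) l) ^ 2)⁻¹ * dγ v F l e) := by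
  simp [lwD]

theorem Pot1_snd (v F l : V) (e : ST) (j : Fin 3) :
    (lwD v F l e).2 j = (al (vel v) l)⁻¹ * (dσ v l e * acc v F j) -
      ((al (vel v) l) ^ 2)⁻¹ * (dγ v F l e * vel v j) := by
  simp [lwD]

theorem Pot1_kap (v F l : V) : ⟪nrm l - vel v, vel v⟫ + ⟪l, acc v F⟫ =
    ((q v)⁻¹) ^ 2 - ang (vel v) (nrm l) + ‖l‖ * ⟪acc v F, nrm l⟫ := by
  have h : ⟪l, acc v F⟫ = ⟪‖l‖ • nrm l, acc v F⟫ := by rw [norm_smul_nrm]
  rw [h, real_inner_smul_left, inner_sub_left, real_inner_self_eq_norm_sq, norm_vel_sq,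
    real_inner_comm (acc v F), real_inner_comm (vel v)]
  unfold ang
  ring

theorem Pot1_ei (x : V) (i : Fin 3) : ⟪x, (ei i).2⟫ = x i := by
  simp [ei, EuclideanSpace.inner_single_right]

theorem Pot1_E (v F l : V) (i : Fin 3) : (kT 0 v l + kS 0 v F l) i =
    ((q v) ^ 2 * (ang (vel v) (nrm l)) ^ 3 * ‖l‖ ^ 2)⁻¹ * (nrm l i - vel v i) +
      (⟪acc v F, nrm l⟫ / ((ang (vel v) (nrm l)) ^ 3 * ‖l‖) * (nrm l i - vel v i) -
        ((ang (vel v) (nrm l)) ^ 2 * ‖l‖)⁻¹ * acc v F i) := by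
  have h0 : ∀ y : V, ang 0 y = 1 := fun y => by simp [ang]
  simp [kT, kS, h0]

theorem EB_lwD (v F : V) {l : V} (hl : l ≠ 0) : EB (lwD v F l) = zT v l + zS v F l := by
  have hR : ‖l‖ ≠ 0 := norm_ne_zero_iff.2 hl
  have hb : ang (vel v) (nrm l) ≠ 0 := (ang_vel_pos v (norm_nrm_le l)).ne'
  have hq : q v ≠ 0 := (q_pos v).ne'
  have s0 : dσ v l e0 = (ang (vel v) (nrm l))⁻¹ := by simp [Pot1_dσ, e0]
  have si : ∀ i, dσ v l (ei i) = -((ang (vel v) (nrm l))⁻¹ * nrm l i) := fun i => by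
    rw [Pot1_dσ, Pot1_ei]
    simp [ei]
  have g0 : dγ v F l e0 = -((ang (vel v) (nrm l))⁻¹ *
      (((q v)⁻¹) ^ 2 - ang (vel v) (nrm l) + ‖l‖ * ⟪acc v F, nrm l⟫)) := by
    rw [Pot1_dγ, Pot1_kap, s0]
    simp [e0]
  have gi : ∀ i, dγ v F l (ei i) = (nrm l i - vel v i) + (ang (vel v) (nrm l))⁻¹ * nrm l i *
      (((q v)⁻¹) ^ 2 - ang (vel v) (nrm l) + ‖l‖ * ⟪acc v F, nrm l⟫) := fun i => by
    rw [Pot1_dγ, Pot1_kap, si, Pot1_ei, PiLp.sub_apply]
    ring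
  have e : zT v l + zS v F l =
      (kT 0 v l + kS 0 v F l, cross (nrm l) (kT 0 v l + kS 0 v F l)) := by
    rw [cross_add_right]
    rfl
  rw [e, EB]
  refine Prod.ext (ext3 ?_ ?_ ?_) (ext3 ?_ ?_ ?_) <;>
    simp only [cu, cross, mk3_0, mk3_1, mk3_2, Pot1_fst, Pot1_snd, Pot1_E, s0, si, g0, gi, al_eq] <;>
    generalize ang (vel v) (nrm l) = b at hb ⊢ <;>
    generalize ⟪acc v F, nrm l⟫ = a <;>
    field_simp <;> ring

theorem Pot1_inv {v : V} {P : ℝ} (h : q v ≤ P) (l : V) : (ang (vel v) (nrm l))⁻¹ ≤ 2 * P ^ 2 := by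
  have h1 := inv_q_sq_le_ang v (norm_nrm_le l)
  have h2 := ang_vel_pos v (norm_nrm_le l)
  have h3 := q_pos v
  have h4 : q v ^ 2 ≤ P ^ 2 := pow_le_pow_left₀ h3.le h 2
  rw [inv_pow, inv_le_iff_one_le_mul₀ (by positivity)] at h1
  rw [inv_le_iff_one_le_mul₀ h2]
  nlinarith

theorem norm_dσ_le {v : V} {P : ℝ} (h : q v ≤ P) (l : V) : ‖dσ v l‖ ≤ 4 * P ^ 2 := by
  refine ContinuousLinearMap.opNorm_le_bound _ (by positivity) fun e => ?_
  have h2 := ang_vel_pos v (norm_nrm_le l)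
  have h3 : |e.1 - ⟪nrm l, e.2⟫| ≤ 2 * ‖e‖ := by
    have a1 : |e.1| ≤ ‖e‖ := norm_fst_le e
    have a2 : |⟪nrm l, e.2⟫| ≤ 1 * ‖e‖ := (abs_real_inner_le_norm _ _).trans
      (mul_le_mul (norm_nrm_le l) (norm_snd_le e) (norm_nonneg _) zero_le_one)
    have a3 := abs_sub e.1 ⟪nrm l, e.2⟫
    linarith
  rw [Pot1_dσ, Real.norm_eq_abs, abs_mul, abs_of_pos (inv_pos.2 h2)]
  calc _ ≤ 2 * P ^ 2 * (2 * ‖e‖) := mul_le_mul (Pot1_inv h l) h3 (abs_nonneg _) (by positivity)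
    _ = _ := by ring

theorem Pot1_acc (v F : V) : ‖acc v F‖ ≤ 2 * ‖F‖ :=
  (norm_acc_le v F).trans (div_le_self (by positivity) (one_le_q v))

theorem Pot1_norm_dγ {v : V} {P : ℝ} (h : q v ≤ P) (F l : V) :
    ‖dγ v F l‖ ≤ 10 * P ^ 2 + 8 * P ^ 2 * ‖l‖ * ‖F‖ := by
  have hP : 1 ≤ P := (one_le_q v).trans h
  have hP2 : 1 ≤ P ^ 2 := one_le_pow₀ hP
  refine ContinuousLinearMap.opNorm_le_bound _ (by positivity) fun e => ?_
  have a0 : ‖nrm l - vel v‖ ≤ 2 := (norm_sub_le _ _).trans (by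
    linarith [norm_nrm_le l, norm_vel_lt v])
  have a1 : |⟪nrm l - vel v, e.2⟫| ≤ 2 * ‖e‖ := (abs_real_inner_le_norm _ _).trans
    (mul_le_mul a0 (norm_snd_le e) (norm_nonneg _) zero_le_two)
  have a2 : |⟪nrm l - vel v, vel v⟫| ≤ 2 * 1 := (abs_real_inner_le_norm _ _).trans
    (mul_le_mul a0 (norm_vel_lt v).le (norm_nonneg _) zero_le_two)
  have a3 : |⟪l, acc v F⟫| ≤ ‖l‖ * (2 * ‖F‖) := (abs_real_inner_le_norm _ _).trans
    (mul_le_mul_of_nonneg_left (Pot1_acc v F) (norm_nonneg _))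
  have a4 : |dσ v l e| ≤ 4 * P ^ 2 * ‖e‖ := ((dσ v l).le_opNorm e).trans
    (mul_le_mul_of_nonneg_right (norm_dσ_le h l) (norm_nonneg _))
  have a5 : |dσ v l e * (⟪nrm l - vel v, vel v⟫ + ⟪l, acc v F⟫)| ≤
      4 * P ^ 2 * ‖e‖ * (2 * 1 + ‖l‖ * (2 * ‖F‖)) := by
    rw [abs_mul]
    exact mul_le_mul a4 ((abs_add_le _ _).trans (add_le_add a2 a3)) (abs_nonneg _) (by positivity)
  rw [Pot1_dγ, Real.norm_eq_abs]
  refine (abs_sub _ _).trans ?_
  nlinarith [mul_le_mul_of_nonneg_right hP2 (norm_nonneg e)]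

theorem norm_lwD_le (P : ℝ) : ∃ C : ℝ, 1 ≤ C ∧ ∀ v F l : V, q v ≤ P →
    ‖lwD v F l‖ ≤ C * (1 + ‖F‖) * (1 / ‖l‖ ^ 2 + 1 / ‖l‖) := by
  refine ⟨1 + 48 * P ^ 6, le_add_of_nonneg_right (by positivity), fun v F l h => ?_⟩
  have hP : 1 ≤ P := (one_le_q v).trans h
  have hb := ang_vel_pos v (norm_nrm_le l)
  have hu : 0 ≤ ‖l‖⁻¹ := inv_nonneg.2 (norm_nonneg _)
  have i0 : 0 ≤ (al (vel v) l)⁻¹ := by rw [al_eq]; positivity
  have i1 : (al (vel v) l)⁻¹ ≤ ‖l‖⁻¹ * (2 * P ^ 2) := by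
    rw [al_eq, mul_inv]
    exact mul_le_mul_of_nonneg_left (Pot1_inv h l) hu
  have i2 : ((al (vel v) l) ^ 2)⁻¹ ≤ (‖l‖⁻¹ * (2 * P ^ 2)) ^ 2 := by
    rw [← inv_pow]
    exact pow_le_pow_left₀ i0 i1 2
  have n1 : ‖((0 : ℝ), acc v F)‖ ≤ 2 * ‖F‖ := by
    rw [Prod.norm_mk, norm_zero]
    exact max_le (by positivity) (Pot1_acc v F)
  have n2 : ‖((1 : ℝ), vel v)‖ ≤ 1 := by
    rw [Prod.norm_mk, norm_one]
    exact max_le le_rfl (norm_vel_lt v).le
  have t1 : ‖(al (vel v) l)⁻¹ • (dσ v l).smulRight ((0 : ℝ), acc v F)‖ ≤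
      ‖l‖⁻¹ * (2 * P ^ 2) * (4 * P ^ 2 * (2 * ‖F‖)) := by
    rw [norm_smul, ContinuousLinearMap.norm_smulRight_apply, Real.norm_of_nonneg i0]
    exact mul_le_mul i1 (mul_le_mul (norm_dσ_le h l) n1 (norm_nonneg _) (by positivity))
      (by positivity) (by positivity)
  have t2 : ‖((al (vel v) l) ^ 2)⁻¹ • (dγ v F l).smulRight ((1 : ℝ), vel v)‖ ≤
      (‖l‖⁻¹ * (2 * P ^ 2)) ^ 2 * ((10 * P ^ 2 + 8 * P ^ 2 * ‖l‖ * ‖F‖) * 1) := by
    rw [norm_smul, ContinuousLinearMap.norm_smulRight_apply, Real.norm_of_nonneg (by positivity)]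
    exact mul_le_mul i2 (mul_le_mul (Pot1_norm_dγ h F l) n2 (norm_nonneg _) (by positivity))
      (by positivity) (by positivity)
  have e1 : ‖l‖⁻¹ ^ 2 * ‖l‖ = ‖l‖⁻¹ := by
    rcases eq_or_ne ‖l‖ 0 with h0 | h0
    · simp [h0]
    · field_simp
  have e2 : (‖l‖⁻¹ * (2 * P ^ 2)) ^ 2 * ((10 * P ^ 2 + 8 * P ^ 2 * ‖l‖ * ‖F‖) * 1) =
      40 * P ^ 6 * ‖l‖⁻¹ ^ 2 + 32 * P ^ 6 * ‖F‖ * (‖l‖⁻¹ ^ 2 * ‖l‖) := by ring
  have p46 : P ^ 4 ≤ P ^ 6 := pow_le_pow_right₀ hP (by norm_num)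
  have p6 : 0 ≤ P ^ 6 := by positivity
  refine (norm_sub_le _ _).trans ((add_le_add t1 t2).trans ?_)
  rw [e2, e1, one_div, one_div, ← inv_pow]
  generalize ‖l‖⁻¹ = u at hu
  have hF := norm_nonneg F
  nlinarith [mul_le_mul_of_nonneg_right p46 (mul_nonneg hu hF), mul_nonneg hu hF, sq_nonneg u,
    mul_nonneg p6 hu, mul_nonneg p6 (sq_nonneg u), mul_nonneg hF (sq_nonneg u),
    mul_nonneg p6 (mul_nonneg hF (sq_nonneg u))]

theorem Pot1_ret {Y W : ℝ → V} (h : Tm Y W) {p : ST} (hl : p.2 - Y (ret Y p.1 p.2) ≠ 0) :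
    HasFDerivAt (fun p : ST => ret Y p.1 p.2)
      (dσ (W (ret Y p.1 p.2)) (p.2 - Y (ret Y p.1 p.2))) p :=
  h.hasFDerivAt_ret (sub_ne_zero.1 hl)

theorem Pot1_dist {Y W : ℝ → V} (h : Tm Y W) {p : ST} (hl : p.2 - Y (ret Y p.1 p.2) ≠ 0) :
    HasFDerivAt (fun p : ST => ‖p.2 - Y (ret Y p.1 p.2)‖)
      (ContinuousLinearMap.fst ℝ ℝ V - dσ (W (ret Y p.1 p.2)) (p.2 - Y (ret Y p.1 p.2))) p := by
  have e : (fun p : ST => ‖p.2 - Y (ret Y p.1 p.2)‖) = fun p : ST => p.1 - ret Y p.1 p.2 := by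
    funext p
    linarith [h.ret_eq p.1 p.2]
  rw [e]
  exact hasFDerivAt_fst.sub (Pot1_ret h hl)

theorem Tm.hasFDerivAt_lw {Y W : ℝ → V} (h : Tm Y W) {p : ST} {F : V}
    (hl : p.2 - Y (ret Y p.1 p.2) ≠ 0) (hW : HasDerivAt W F (ret Y p.1 p.2)) :
    HasFDerivAt (fun p : ST => lw (W (ret Y p.1 p.2)) (p.2 - Y (ret Y p.1 p.2)))
      (lwD (W (ret Y p.1 p.2)) F (p.2 - Y (ret Y p.1 p.2))) p := by
  have hσ := Pot1_ret h hl
  have hY := (h.hY (ret Y p.1 p.2)).hasFDerivAt.comp p hσ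
  have hw := (hasDerivAt_vel hW).hasFDerivAt.comp p hσ
  have hd := Pot1_dist h hl
  set v := W (ret Y p.1 p.2) with hv
  set l := p.2 - Y (ret Y p.1 p.2) with hl'
  have hb := ang_vel_pos v (norm_nrm_le l)
  have hal : al (vel v) l ≠ 0 := by
    rw [al_eq]
    exact mul_ne_zero (norm_ne_zero_iff.2 hl) hb.ne'
  have hγ : HasFDerivAt (fun p : ST => al (vel (W (ret Y p.1 p.2))) (p.2 - Y (ret Y p.1 p.2)))
      (dγ v F l) p := by
    refine (hd.sub (hw.inner ℝ (hasFDerivAt_snd.sub hY))).congr_fderiv ?_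
    refine ContinuousLinearMap.ext fun e => ?_
    have k : dσ v l e * (1 - ⟪vel v, nrm l⟫) = e.1 - ⟪nrm l, e.2⟫ := by
      rw [Pot1_dσ]
      have : ang (vel v) (nrm l) = 1 - ⟪vel v, nrm l⟫ := rfl
      rw [← this]
      field_simp
    rw [Pot1_dγ]
    simp only [ContinuousLinearMap.sub_apply, ContinuousLinearMap.comp_apply,
      ContinuousLinearMap.coe_fst', ContinuousLinearMap.coe_snd', fderivInnerCLM_apply,
      ContinuousLinearMap.prod_apply, ContinuousLinearMap.toSpanSingleton_apply, Function.comp,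
      Pi.sub_apply, ← hv, ← hl', inner_sub_left, inner_sub_right, real_inner_smul_right,
      real_inner_smul_left, real_inner_comm (vel v) (nrm l), real_inner_comm (acc v F) l]
    linarith
  have hi := (hasDerivAt_inv hal).comp_hasFDerivAt p hγ
  refine (hi.smul ((hasFDerivAt_const (1 : ℝ) p).prodMk hw)).congr_fderiv ?_
  refine ContinuousLinearMap.ext fun e => ?_
  refine Prod.ext ?_ ?_
  · simp [lwD, ← hv, ← hl']
  · simp [lwD, ← hv, ← hl', mul_smul]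
    rw [sub_eq_add_neg]

theorem Tm.hasFDerivAt_dist {Y W : ℝ → V} (h : Tm Y W) {p : ST}
    (hl : p.2 - Y (ret Y p.1 p.2) ≠ 0) :
    HasFDerivAt (fun p : ST => ‖p.2 - Y (ret Y p.1 p.2)‖)
      (ContinuousLinearMap.fst ℝ ℝ V - dσ (W (ret Y p.1 p.2)) (p.2 - Y (ret Y p.1 p.2))) p :=
  Pot1_dist h hl

theorem Pot1_smr {α G : Type} [MeasurableSpace α] [NormedAddCommGroup G] [NormedSpace ℝ G]
    {f : α → ST →L[ℝ] ℝ} {g : α → G} (hf : StronglyMeasurable f) (hg : StronglyMeasurable g) :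
    StronglyMeasurable fun x => (f x).smulRight (g x) :=
  (ContinuousLinearMap.smulRightL ℝ ST G).continuous₂.comp_stronglyMeasurable (hf.prodMk hg)

theorem Pot1_inn {α : Type} [MeasurableSpace α] {f : α → V} {g : α → ST →L[ℝ] V}
    (hf : Measurable f) (hg : StronglyMeasurable g) :
    StronglyMeasurable fun x => (innerSL ℝ (f x)).comp (g x) :=
  (ContinuousLinearMap.compL ℝ ST V ℝ).continuous₂.comp_stronglyMeasurable
    (((innerSL ℝ (E := V)).continuous.comp_stronglyMeasurable hf.stronglyMeasurable).prodMk hg)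

theorem Pot1_smσ {α : Type} [MeasurableSpace α] {v l : α → V} (hv : Measurable v)
    (hl : Measurable l) : StronglyMeasurable fun x => dσ (v x) (l x) := by
  have mw : Measurable fun x => vel (v x) := contDiff_vel.continuous.measurable.comp hv
  have mn : Measurable fun x => nrm (l x) := measurable_nrm.comp hl
  have mb : Measurable fun x => (ang (vel (v x)) (nrm (l x)))⁻¹ :=
    (measurable_const.sub (mw.inner mn)).inv
  exact mb.stronglyMeasurable.smul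
    (stronglyMeasurable_const.sub (Pot1_inn mn stronglyMeasurable_const))

theorem stronglyMeasurable_dσ : StronglyMeasurable (fun x : V × V => dσ x.1 x.2) :=
  Pot1_smσ measurable_fst measurable_snd

theorem stronglyMeasurable_lwD :
    StronglyMeasurable (fun x : V × V × V => lwD x.1 x.2.1 x.2.2) := by
  have hv : Measurable fun x : V × V × V => x.1 := measurable_fst
  have hF : Measurable fun x : V × V × V => x.2.1 := measurable_snd.fst
  have hl : Measurable fun x : V × V × V => x.2.2 := measurable_snd.snd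
  have mw : Measurable fun x : V × V × V => vel x.1 := contDiff_vel.continuous.measurable.comp hv
  have mn : Measurable fun x : V × V × V => nrm x.2.2 := measurable_nrm.comp hl
  have mq : Measurable fun x : V × V × V => (q x.1)⁻¹ :=
    (contDiff_q.continuous.measurable.comp hv).inv
  have m1 : Measurable fun x : V × V × V => ⟪vel x.1, x.2.1⟫ := mw.inner hF
  have m2 : Measurable fun x : V × V × V => ⟪vel x.1, x.2.1⟫ • vel x.1 := m1.smul mw
  have mA : Measurable fun x : V × V × V => acc x.1 x.2.1 :=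
    mq.smul (hF.sub m2)
  have ma : Measurable fun x : V × V × V => al (vel x.1) x.2.2 := hl.norm.sub (mw.inner hl)
  have sσ := Pot1_smσ hv hl
  have m3 : Measurable fun x : V × V × V => ⟪x.2.2, acc x.1 x.2.1⟫ := hl.inner mA
  have s3 : StronglyMeasurable fun x : V × V × V =>
      ⟪x.2.2, acc x.1 x.2.1⟫ • dσ x.1 x.2.2 := m3.stronglyMeasurable.smul sσ
  have sγ : StronglyMeasurable fun x : V × V × V => dγ x.1 x.2.1 x.2.2 :=
    (Pot1_inn (mn.sub mw) (stronglyMeasurable_const.sub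
      (Pot1_smr sσ mw.stronglyMeasurable))).sub s3
  exact (ma.inv.stronglyMeasurable.smul
      (Pot1_smr sσ (measurable_const.prodMk mA).stronglyMeasurable)).sub
    ((ma.pow_const 2).inv.stronglyMeasurable.smul
      (Pot1_smr sγ (measurable_const.prodMk mw).stronglyMeasurable))

end

end Vale.Agent.P107
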