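import Vale.Agent.P107.Pot1
import Vale.Agent.P107.OpA
import Vale.Agent.P107.MaxSm

/-! The retarded field derives from the retarded potential. -/

namespace Vale.Agent.P107

open MeasureTheory Set Filter Topology
open scoped ENNReal RealInnerProductSpace

noncomputable section

/-- Derivative of the potential of one charge. -/
def potD (G : ST → Z) (z : Z) (p : ST) : ST →L[ℝ] ST :=
  lwD (rW G z p) (if 0 < rt G z p then rF G z p else 0) (rl G z p)

variable {Λ M1 l1 M2 l2 : ℝ} {G : ST → Z}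

theorem pot2_lint {E : Type} [NormedAddCommGroup E] {μ : Measure Z} {f : Z → E} {g : Z → ℝ}
    {K B : ℝ} (hK : 0 ≤ K) (hf : ∀ᵐ z ∂μ, ‖f z‖ ≤ K * g z)
    (hg : ∫⁻ z, ENNReal.ofReal (g z) ∂μ ≤ ENNReal.ofReal B) :
    ∫⁻ z, ENNReal.ofReal ‖f z‖ ∂μ ≤ ENNReal.ofReal (K * B) := by
  calc ∫⁻ z, ENNReal.ofReal ‖f z‖ ∂μ ≤ ∫⁻ z, ENNReal.ofReal K * ENNReal.ofReal (g z) ∂μ := by
        refine lintegral_mono_ae (hf.mono fun z hz => ?_)
        rw [← ENNReal.ofReal_mul hK]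
        exact ENNReal.ofReal_le_ofReal hz
    _ ≤ ENNReal.ofReal (K * B) := by
        rw [lintegral_const_mul' _ _ ENNReal.ofReal_ne_top, ENNReal.ofReal_mul hK]
        exact mul_le_mul_right hg _

theorem pot2_norm {E : Type} [NormedAddCommGroup E] [NormedSpace ℝ E] {μ : Measure Z} {f : Z → E}
    {g : Z → ℝ} {K B : ℝ} (hK : 0 ≤ K) (hB : 0 ≤ B) (hf : ∀ᵐ z ∂μ, ‖f z‖ ≤ K * g z)
    (hg : ∫⁻ z, ENNReal.ofReal (g z) ∂μ ≤ ENNReal.ofReal B) : ‖∫ z, f z ∂μ‖ ≤ K * B :=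
  (norm_integral_le_lintegral_norm f).trans
    (ENNReal.toReal_le_of_le_ofReal (mul_nonneg hK hB) (pot2_lint hK hf hg))

theorem Cl.pot2_F (h : Cl Λ M1 l1 M2 l2 G) (z : Z) (p : ST) :
    ‖(if 0 < rt G z p then rF G z p else 0 : V)‖ ≤ 2 * Λ := by
  split_ifs
  · exact h.norm_rF z p
  · rw [norm_zero]
    linarith [h.hΛ]

theorem Cl.pot2_P (h : Cl Λ M1 l1 M2 l2 G) (d : Dat) (T : ℝ) :
    ∃ P : ℝ, 0 ≤ P ∧ Bd d G T P := by
  have h1 := h.hΛ
  have h2 := d.hP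
  have h3 := le_max_right T 0
  exact ⟨d.P0 + 2 * Λ * max T 0, by positivity, (h.bd d h3).mono (le_max_left T 0) le_rfl⟩

theorem Cl.pot2_D (h : Cl Λ M1 l1 M2 l2 G) {d : Dat} {T P : ℝ} (hP : Bd d G T P) :
    ∃ K : ℝ, 0 ≤ K ∧ ∀ z ∈ d.S, ∀ p : ST, p.1 ≤ T →
      ‖potD G z p‖ ≤ K * (1 / ‖rl G z p‖ ^ 2 + 1 / ‖rl G z p‖) := by
  obtain ⟨C, hC, hb⟩ := norm_lwD_le P
  have h1 := h.hΛ
  refine ⟨C * (1 + 2 * Λ), by positivity, fun z hz p hp => ?_⟩
  refine (hb _ _ _ (h.q_rW hP hz hp)).trans (mul_le_mul_of_nonneg_right ?_ (by positivity))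
  exact mul_le_mul_of_nonneg_left (by linarith [h.pot2_F z p]) (by positivity)

theorem Cl.pot2_sing (h : Cl Λ M1 l1 M2 l2 G) {d : Dat} {T P : ℝ} (hP : Bd d G T P) :
    ∃ B : ℝ, 0 ≤ B ∧ ∀ p : ST, p.1 ≤ T →
      ∫⁻ z, ENNReal.ofReal (1 / ‖rl G z p‖ ^ 2 + 1 / ‖rl G z p‖) ∂d.ν ≤ ENNReal.ofReal B := by
  obtain ⟨C, hC, hb⟩ := lint_sing d P
  refine ⟨C, by linarith, fun p hp => ?_⟩
  have h1 := hb _ _ _ _ _ _ h p
  have h2 : ∀ᵐ z ∂d.ν, z ∈ {z | q (rW G z p) ≤ P} := d.ae_mem.mono fun z hz => h.q_rW hP hz hp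
  rwa [Measure.restrict_eq_self_of_ae_mem h2] at h1

theorem Cl.pot2_meas (h : Cl Λ M1 l1 M2 l2 G) (p : ST) :
    StronglyMeasurable (fun z => potD G z p) := by
  obtain ⟨m1, m2, m3, m4⟩ := h.measurable_r p
  have m5 : Measurable fun z => (if 0 < rt G z p then rF G z p else 0 : V) :=
    Measurable.ite (measurableSet_lt measurable_const m1) m4 measurable_const
  have m6 := stronglyMeasurable_lwD.comp_measurable (m3.prodMk (m5.prodMk m2))
  simp only [Function.comp_def] at m6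
  exact m6

theorem Cl.integrable_potD (h : Cl Λ M1 l1 M2 l2 G) (d : Dat) (p : ST) :
    Integrable (fun z => potD G z p) d.ν := by
  obtain ⟨P, -, hP⟩ := h.pot2_P d p.1
  obtain ⟨K, hK, hD⟩ := h.pot2_D hP
  obtain ⟨B, -, hB⟩ := h.pot2_sing hP
  refine ⟨(h.pot2_meas p).aestronglyMeasurable, (hasFiniteIntegral_iff_norm _).2 ?_⟩
  exact (pot2_lint hK (d.ae_mem.mono fun z hz => hD z hz p le_rfl) (hB p le_rfl)).trans_lt
    ENNReal.ofReal_lt_top

/-- The singular weight cut off at distance `2 e`. -/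
def pot2g (e r : ℝ) : ℝ := if r ≤ 2 * e then 1 / r ^ 2 + 1 / r else 0

theorem pot2g_meas (e : ℝ) : Measurable (pot2g e) :=
  Measurable.ite measurableSet_Iic (by fun_prop) measurable_const

theorem pot2g_int {e : ℝ} (he1 : e ≤ 1) :
    ∫⁻ r in Ioi (0 : ℝ), ENNReal.ofReal (r ^ 2) * ENNReal.ofReal (pot2g e r) ≤
      ENNReal.ofReal (6 * e) := by
  calc ∫⁻ r in Ioi (0 : ℝ), ENNReal.ofReal (r ^ 2) * ENNReal.ofReal (pot2g e r)
      ≤ ∫⁻ r in Ioi (0 : ℝ), (Iic (2 * e)).indicator (fun _ => ENNReal.ofReal 3) r := by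
        refine setLIntegral_mono' measurableSet_Ioi fun r hr => ?_
        have h0 : 0 < r := hr
        by_cases h1 : r ≤ 2 * e
        · rw [indicator_of_mem (show r ∈ Iic (2 * e) from h1), pot2g, if_pos h1,
            ← ENNReal.ofReal_mul (sq_nonneg r)]
          refine ENNReal.ofReal_le_ofReal ?_
          have : r ^ 2 * (1 / r ^ 2 + 1 / r) = 1 + r := by field_simp
          linarith
        · rw [pot2g, if_neg h1, ENNReal.ofReal_zero, mul_zero]
          exact zero_le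
    _ = ENNReal.ofReal (6 * e) := by
        rw [lintegral_indicator_const measurableSet_Iic, Measure.restrict_apply measurableSet_Iic,
          Iic_inter_Ioi, Real.volume_Ioc, ← ENNReal.ofReal_mul (by norm_num)]
        congr 1
        ring

theorem Cl.pot2_small (h : Cl Λ M1 l1 M2 l2 G) {d : Dat} {T P : ℝ} (hP0 : 0 ≤ P)
    (hP : Bd d G T P) {p : ST} (hp : p.1 ≤ T) {e : ℝ} (he1 : e ≤ 1) :
    ∫⁻ z, ENNReal.ofReal (pot2g e ‖rl G z p‖) ∂d.ν ≤
      ENNReal.ofReal (16 * d.F0 * P ^ 3 * (6 * e)) := by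
  have h1 := d.hF
  refine (h.cone_rad' hP hP0 hp (g := fun r => ENNReal.ofReal (pot2g e r))
    (pot2g_meas e).ennreal_ofReal).trans ?_
  rw [ENNReal.ofReal_mul (q := 6 * e) (by positivity)]
  exact mul_le_mul_right (pot2g_int he1) _

/-- The cut-off potential of one charge. -/
def pot2F (G : ST → Z) (e : ℝ) (p : ST) (z : Z) : ST :=
  (1 - phi (‖rl G z p‖ / e)) • lw (rW G z p) (rl G z p)

/-- Its derivative. -/
def pot2D (G : ST → Z) (e : ℝ) (p : ST) (z : Z) : ST →L[ℝ] ST :=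
  (1 - phi (‖rl G z p‖ / e)) • potD G z p +
    ((-(deriv phi (‖rl G z p‖ / e) / e)) • (ContinuousLinearMap.fst ℝ ℝ V -
      dσ (rW G z p) (rl G z p))).smulRight (lw (rW G z p) (rl G z p))

theorem Cl.pot2_fd (h : Cl Λ M1 l1 M2 l2 G) (e : ℝ) {z : Z} {p : ST} (hl : rl G z p ≠ 0)
    (ht : rt G z p ≠ 0) : HasFDerivAt (fun p => pot2F G e p z) (pot2D G e p z) p := by
  have hW : HasDerivAt (trW G z) (if 0 < rt G z p then rF G z p else 0) (rt G z p) := by
    split_ifs with h0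
    · exact h.hasDerivAt_trW z h0
    · exact hasDerivAt_trW_neg G z (lt_of_le_of_ne (not_lt.1 h0) ht)
  have h1 : HasFDerivAt (fun p => lw (rW G z p) (rl G z p)) (potD G z p) p :=
    (h.tm z).hasFDerivAt_lw hl hW
  have h2 : HasFDerivAt (fun p => ‖rl G z p‖)
      (ContinuousLinearMap.fst ℝ ℝ V - dσ (rW G z p) (rl G z p)) p := (h.tm z).hasFDerivAt_dist hl
  have h3 : HasDerivAt (fun r : ℝ => 1 - phi (r / e)) (-(deriv phi (‖rl G z p‖ / e) / e))
      ‖rl G z p‖ := by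
    have h4 := ((contDiff_phi.differentiable (by simp)) (‖rl G z p‖ / e)).hasDerivAt
    have h5 := HasDerivAt.comp (h₂ := phi) (h := fun r : ℝ => r / e) ‖rl G z p‖ h4
      ((hasDerivAt_id' ‖rl G z p‖).div_const e)
    rw [mul_one_div] at h5
    exact h5.const_sub 1
  have h6 : HasFDerivAt (fun p => 1 - phi (‖rl G z p‖ / e)) _ p :=
    HasDerivAt.comp_hasFDerivAt (h₂ := fun r : ℝ => 1 - phi (r / e)) (f := fun p => ‖rl G z p‖)
      p h3 h2
  exact h6.fun_smul h1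

theorem Cl.pot2F_int (h : Cl Λ M1 l1 M2 l2 G) (d : Dat) (e : ℝ) (p : ST) :
    Integrable (pot2F G e p) d.ν := by
  obtain ⟨-, m2, m3, -⟩ := h.measurable_r p
  have m4 : Measurable fun z => 1 - phi (‖rl G z p‖ / e) :=
    measurable_const.sub (contDiff_phi.continuous.measurable.comp (m2.norm.div_const e))
  have m5 := h.integrable_lw d p
  refine m5.mono (m4.aestronglyMeasurable.smul m5.1) (Eventually.of_forall fun z => ?_)
  rw [pot2F, norm_smul, Real.norm_of_nonneg (chiA_sub_nonneg _)]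
  exact mul_le_of_le_one_left (norm_nonneg _) (chiA_sub_le_one _)

theorem Cl.pot2D_meas (h : Cl Λ M1 l1 M2 l2 G) (e : ℝ) (p : ST) :
    StronglyMeasurable (pot2D G e p) := by
  obtain ⟨-, m2, m3, -⟩ := h.measurable_r p
  have m4 : Measurable fun z => 1 - phi (‖rl G z p‖ / e) :=
    measurable_const.sub (contDiff_phi.continuous.measurable.comp (m2.norm.div_const e))
  have m5 : Measurable fun z => -(deriv phi (‖rl G z p‖ / e) / e) :=
    (((measurable_deriv phi).comp (m2.norm.div_const e)).div_const e).neg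
  have m6 := stronglyMeasurable_dσ.comp_measurable (m3.prodMk m2)
  have m7 := (measurable_lw.comp (m3.prodMk m2)).stronglyMeasurable
  simp only [Function.comp_def] at m6 m7
  have m8 : StronglyMeasurable fun z => (-(deriv phi (‖rl G z p‖ / e) / e)) •
      (ContinuousLinearMap.fst ℝ ℝ V - dσ (rW G z p) (rl G z p)) :=
    m5.stronglyMeasurable.smul (stronglyMeasurable_const.sub m6)
  have m9 := (isBoundedBilinearMap_smulRight (𝕜 := ℝ) (E := ST)
    (F := ST)).continuous.comp_stronglyMeasurable (m8.prodMk m7)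
  have m10 : StronglyMeasurable fun z => (1 - phi (‖rl G z p‖ / e)) • potD G z p :=
    m4.stronglyMeasurable.smul (h.pot2_meas p)
  exact m10.add m9

theorem Cl.pot2_cut (h : Cl Λ M1 l1 M2 l2 G) {d : Dat} {T P : ℝ} (hP : Bd d G T P) {e : ℝ}
    (he : 0 < e) {p : ST} (hp : p.1 < T) : Integrable (pot2D G e p) d.ν ∧
      HasFDerivAt (fun p => ∫ z, pot2F G e p z ∂d.ν) (∫ z, pot2D G e p z ∂d.ν) p := by
  obtain ⟨C, hC, hb⟩ := lw_cut_lip P e he
  refine hasFDerivAt_integral_of_dominated_loc_of_lip' (s := {p : ST | p.1 < T})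
    (bound := fun _ => C * (5 * P ^ 2 + 8 * Λ * P ^ 2))
    ((isOpen_lt continuous_fst continuous_const).mem_nhds hp)
    (fun x _ => (h.pot2F_int d e x).1) (h.pot2F_int d e p)
    (h.pot2D_meas e p).aestronglyMeasurable (d.ae_mem.mono fun z hz x hx => ?_)
    (integrable_const _) ((h.ae_rl_ne d p).mono fun z hz => h.pot2_fd e hz.1 hz.2)
  have hx' : x.1 ≤ T := le_of_lt hx
  obtain ⟨-, h1, h2, -⟩ := h.r_lip hP hz hx' hp.le
  refine (hb _ _ _ _ (h.q_rW hP hz hx') (h.q_rW hP hz hp.le)).trans ?_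
  rw [mul_assoc]
  exact mul_le_mul_of_nonneg_left (by linarith) (by linarith)

theorem pot2_phi {e R : ℝ} (he : 0 < e) (hR : ¬R ≤ 2 * e) :
    phi (R / e) = 0 ∧ deriv phi (R / e) = 0 := by
  have h1 : 2 ≤ R / e := by
    rw [le_div_iff₀ he]
    linarith
  exact ⟨phi_eq_zero h1, deriv_phi_eq_zero (Or.inr h1)⟩

theorem Cl.pot2F_sub (h : Cl Λ M1 l1 M2 l2 G) {d : Dat} {T P : ℝ} (hP : Bd d G T P) {e : ℝ}
    (he : 0 < e) {p : ST} (hp : p.1 ≤ T) {z : Z} (hz : z ∈ d.S) :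
    ‖pot2F G e p z - lw (rW G z p) (rl G z p)‖ ≤ 2 * P ^ 2 * pot2g e ‖rl G z p‖ := by
  have e1 : pot2F G e p z - lw (rW G z p) (rl G z p) =
      -(phi (‖rl G z p‖ / e) • lw (rW G z p) (rl G z p)) := by
    rw [pot2F, sub_smul, one_smul]
    abel
  rw [e1, norm_neg, norm_smul, Real.norm_of_nonneg (phi_nonneg _), pot2g]
  split_ifs with h1
  · refine (mul_le_of_le_one_left (norm_nonneg _) (phi_le_one _)).trans ?_
    refine (norm_lw_le (h.q_rW hP hz hp) _).trans ?_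
    rw [div_eq_mul_one_div]
    exact mul_le_mul_of_nonneg_left (le_add_of_nonneg_left (by positivity)) (by positivity)
  · rw [(pot2_phi he h1).1, zero_mul, mul_zero]

theorem Cl.pot2D_sub (h : Cl Λ M1 l1 M2 l2 G) {d : Dat} {T P : ℝ} (hP : Bd d G T P) :
    ∃ K : ℝ, 0 ≤ K ∧ ∀ e, 0 < e → ∀ p : ST, p.1 ≤ T → ∀ z ∈ d.S, rl G z p ≠ 0 →
      ‖pot2D G e p z - potD G z p‖ ≤ K * pot2g e ‖rl G z p‖ := by
  obtain ⟨K, hK, hD⟩ := h.pot2_D hP
  obtain ⟨C, hC, -, hb, -⟩ := deriv_phi_bdd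
  refine ⟨K + C * (1 + 4 * P ^ 2) * (2 * P ^ 2), by positivity, fun e he p hp z hz hl => ?_⟩
  have hR : 0 < ‖rl G z p‖ := norm_pos_iff.2 hl
  have hq := h.q_rW hP hz hp
  have e1 : pot2D G e p z - potD G z p = (-phi (‖rl G z p‖ / e)) • potD G z p +
      ((-(deriv phi (‖rl G z p‖ / e) / e)) • (ContinuousLinearMap.fst ℝ ℝ V -
        dσ (rW G z p) (rl G z p))).smulRight (lw (rW G z p) (rl G z p)) := by
    refine ContinuousLinearMap.ext fun u => ?_
    simp only [pot2D, add_apply, sub_apply, smul_apply, sub_smul, one_smul, neg_smul]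
    abel
  rw [e1]
  refine (norm_add_le _ _).trans ?_
  rw [ContinuousLinearMap.norm_smulRight_apply, norm_smul, norm_smul, norm_neg, norm_neg,
    Real.norm_of_nonneg (phi_nonneg _), pot2g]
  split_ifs with h1
  · have h2 : phi (‖rl G z p‖ / e) * ‖potD G z p‖ ≤ K * (1 / ‖rl G z p‖ ^ 2 + 1 / ‖rl G z p‖) :=
      (mul_le_of_le_one_left (norm_nonneg _) (phi_le_one _)).trans (hD z hz p hp)
    have h3 : ‖deriv phi (‖rl G z p‖ / e) / e‖ ≤ C / ‖rl G z p‖ := by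
      have h4 := hb (‖rl G z p‖ / e)
      rw [le_div_iff₀ hR]
      refine le_of_eq_of_le ?_ h4
      rw [Real.norm_eq_abs, ← abs_of_pos hR, ← abs_mul, abs_of_pos hR]
      congr 1
      ring
    have h5 : ‖ContinuousLinearMap.fst ℝ ℝ V - dσ (rW G z p) (rl G z p)‖ ≤ 1 + 4 * P ^ 2 :=
      (norm_sub_le _ _).trans (add_le_add (ContinuousLinearMap.norm_fst_le _ _ _)
        (norm_dσ_le hq _))
    have h6 := mul_le_mul (mul_le_mul h3 h5 (norm_nonneg _) (by positivity)) (norm_lw_le hq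
      (rl G z p)) (norm_nonneg _) (by positivity)
    have h7 : C / ‖rl G z p‖ * (1 + 4 * P ^ 2) * (2 * P ^ 2 / ‖rl G z p‖) =
        C * (1 + 4 * P ^ 2) * (2 * P ^ 2) * (1 / ‖rl G z p‖ ^ 2) := by
      field_simp
    have h8 : 0 ≤ C * (1 + 4 * P ^ 2) * (2 * P ^ 2) * (1 / ‖rl G z p‖) := by positivity
    rw [h7] at h6
    nlinarith
  · rw [(pot2_phi he h1).1, (pot2_phi he h1).2]
    simp

theorem pot2_lim (A : ℝ) : Tendsto (fun n : ℕ => A * (6 * (1 / ((n : ℝ) + 1)))) atTop (𝓝 0) := by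
  have := (tendsto_one_div_add_atTop_nhds_zero_nat.const_mul (6 : ℝ)).const_mul A
  rwa [mul_zero, mul_zero] at this

theorem Cl.hasFDerivAt_pot (h : Cl Λ M1 l1 M2 l2 G) (d : Dat) (p : ST) :
    HasFDerivAt (pot d G) (∫ z, potD G z p ∂d.ν) p := by
  obtain ⟨P, hP0, hP⟩ := h.pot2_P d (p.1 + 1)
  obtain ⟨K, hK, hD⟩ := h.pot2D_sub hP
  have hF := d.hF
  have he : ∀ n : ℕ, (0 : ℝ) < 1 / ((n : ℝ) + 1) := fun n => by positivity
  have he1 : ∀ n : ℕ, 1 / ((n : ℝ) + 1) ≤ 1 := fun n => by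
    rw [div_le_one (by positivity)]
    linarith [Nat.cast_nonneg (α := ℝ) n]
  refine hasFDerivAt_of_tendstoUniformlyOn (l := atTop) (s := {x : ST | x.1 < p.1 + 1})
    (f := fun (n : ℕ) x => ∫ z, pot2F G (1 / ((n : ℝ) + 1)) x z ∂d.ν)
    (f' := fun (n : ℕ) x => ∫ z, pot2D G (1 / ((n : ℝ) + 1)) x z ∂d.ν)
    (g' := fun x => ∫ z, potD G z x ∂d.ν) (isOpen_lt continuous_fst continuous_const) ?_
    (fun n x hx => (h.pot2_cut hP (he n) hx).2) (fun x hx => ?_) (lt_add_one p.1)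
  · refine Metric.tendstoUniformlyOn_iff.2 fun ε hε => ?_
    filter_upwards [(pot2_lim (K * (16 * d.F0 * P ^ 3))).eventually (gt_mem_nhds hε)]
      with n hn x hx
    have hx' : x.1 ≤ p.1 + 1 := le_of_lt hx
    rw [dist_comm, dist_eq_norm, ← integral_sub (h.pot2_cut hP (he n) hx).1
      (h.integrable_potD d x)]
    refine lt_of_le_of_lt ?_ hn
    rw [mul_assoc]
    refine pot2_norm hK (by have := he n; positivity) ?_ (h.pot2_small hP0 hP hx' (he1 n))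
    filter_upwards [d.ae_mem, h.ae_rl_ne d x] with z hz hl
    exact hD _ (he n) x hx' z hz hl.1
  · have hx' : x.1 ≤ p.1 + 1 := le_of_lt hx
    refine tendsto_iff_norm_sub_tendsto_zero.2 (squeeze_zero (fun _ => norm_nonneg _)
      (fun n => ?_) (pot2_lim (2 * P ^ 2 * (16 * d.F0 * P ^ 3))))
    rw [pot, ← integral_sub (h.pot2F_int d _ x) (h.integrable_lw d x), mul_assoc (2 * P ^ 2)]
    exact pot2_norm (by positivity) (by have := he n; positivity)
      (d.ae_mem.mono fun z hz => h.pot2F_sub hP (he n) hx' hz) (h.pot2_small hP0 hP hx' (he1 n))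

theorem Cl.EB_pot (h : Cl Λ M1 l1 M2 l2 G) (d : Dat) (p : ST) :
    EB (fderiv ℝ (pot d G) p) = retF d G p := by
  rw [(h.hasFDerivAt_pot d p).fderiv, ← EBL_apply, ← EBL.integral_comp_comm (h.integrable_potD d p),
    retF, opT, opS, ← integral_add (h.integrable_T d p) (h.integrable_S d p)]
  refine integral_congr_ae ((h.ae_rl_ne d p).mono fun z hz => ?_)
  beta_reduce
  rw [EBL_apply, potD, EB_lwD _ _ hz.1, sZ]
  split_ifs
  · rfl
  · rw [zS_zero]

theorem Cl.pot_bd (h : Cl Λ M1 l1 M2 l2 G) (d : Dat) (T : ℝ) :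
    ∃ C : ℝ, ∀ p : ST, p.1 ≤ T → ‖fderiv ℝ (pot d G) p‖ ≤ C := by
  obtain ⟨P, -, hP⟩ := h.pot2_P d T
  obtain ⟨K, hK, hD⟩ := h.pot2_D hP
  obtain ⟨B, hB0, hB⟩ := h.pot2_sing hP
  refine ⟨K * B, fun p hp => ?_⟩
  rw [(h.hasFDerivAt_pot d p).fderiv]
  exact pot2_norm hK hB0 (d.ae_mem.mono fun z hz => hD z hz p hp) (hB p hp)

end

end Vale.Agent.P107
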