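import Vale.Agent.P107.Basic

/-! Retarded times along timelike curves. -/

namespace Vale.Agent.P107

open MeasureTheory Set Filter Topology
open scoped ENNReal RealInnerProductSpace

noncomputable section

/-- A world line with momentum `W`, moving freely in the past. -/
structure Tm (Y W : ℝ → V) : Prop where
  hY : ∀ s, HasDerivAt Y (vel (W s)) s
  cW : Continuous W
  past : ∀ s, s ≤ 0 → W s = W 0

/-- Retarded time of the point `(t, x)` on the world line `Y`. -/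
def ret (Y : ℝ → V) (t : ℝ) (x : V) : ℝ := sSup {s | s + ‖x - Y s‖ ≤ t}

variable {Y W X U : ℝ → V}

theorem Tm.bdd (h : Tm Y W) (t : ℝ) : ∃ P, 1 ≤ P ∧ ∀ s, s ≤ t → q (W s) ≤ P := by
  have hc : Continuous fun s => q (W s) := contDiff_q.continuous.comp h.cW
  obtain ⟨C, hC⟩ := (isCompact_Icc (a := (0 : ℝ)) (b := max t 0)).bddAbove_image hc.continuousOn
  have h0 : q (W 0) ≤ C := hC ⟨0, ⟨le_rfl, le_max_right _ _⟩, rfl⟩
  refine ⟨C, (one_le_q _).trans h0, fun s hs => ?_⟩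
  rcases le_total s 0 with h1 | h1
  · rw [h.past s h1]; exact h0
  · exact hC ⟨s, ⟨h1, hs.trans (le_max_left _ _)⟩, rfl⟩

theorem Tm.lip (h : Tm Y W) {t P : ℝ} (hP : ∀ s, s ≤ t → q (W s) ≤ P) {s s' : ℝ} (hs : s ≤ s')
    (ht : s' ≤ t) : ‖Y s' - Y s‖ ≤ (1 - (2 * P ^ 2)⁻¹) * (s' - s) := by
  exact norm_image_sub_le_of_norm_deriv_le_segment' (f' := fun s => vel (W s))
    (fun x _ => (h.hY x).hasDerivWithinAt)
    (fun x hx => norm_vel_le (hP x (hx.2.le.trans ht))) s' (right_mem_Icc.2 hs)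

theorem Tm.ret_lip_lt (h : Tm Y W) {s s' : ℝ} (hs : s < s') : ‖Y s' - Y s‖ < s' - s := by
  obtain ⟨P, h1, hP⟩ := h.bdd s'
  have h2 := h.lip hP hs.le le_rfl
  have h3 : 0 < (2 * P ^ 2)⁻¹ * (s' - s) := mul_pos (by positivity) (sub_pos.2 hs)
  linarith

theorem Tm.ret_cont (h : Tm Y W) : Continuous Y :=
  continuous_iff_continuousAt.2 fun s => (h.hY s).continuousAt

theorem Tm.ret_rate (h : Tm Y W) {t P : ℝ} (hP : ∀ s, s ≤ t → q (W s) ≤ P) (x : V) {s s' : ℝ}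
    (hs : s ≤ s') (ht : s' ≤ t) :
    s + ‖x - Y s‖ + (2 * P ^ 2)⁻¹ * (s' - s) ≤ s' + ‖x - Y s'‖ := by
  have h1 := h.lip hP hs ht
  have h2 : ‖x - Y s‖ ≤ ‖x - Y s'‖ + ‖Y s' - Y s‖ := norm_sub_le_norm_sub_add_norm_sub _ _ _
  linarith

theorem Tm.lip_one (h : Tm Y W) (s s' : ℝ) : ‖Y s' - Y s‖ ≤ |s' - s| := by
  rcases lt_trichotomy s s' with h1 | h1 | h1
  · exact (h.ret_lip_lt h1).le.trans (le_abs_self _)
  · simp [h1]
  · rw [norm_sub_rev, abs_sub_comm]
    exact (h.ret_lip_lt h1).le.trans (le_abs_self _)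

theorem Tm.smono (h : Tm Y W) (x : V) : StrictMono (fun s => s + ‖x - Y s‖) := by
  intro s s' hs
  have h1 := h.ret_lip_lt hs
  have h2 : ‖x - Y s‖ ≤ ‖x - Y s'‖ + ‖Y s' - Y s‖ := norm_sub_le_norm_sub_add_norm_sub _ _ _
  simp only
  linarith

theorem Tm.ret_eq (h : Tm Y W) (t : ℝ) (x : V) : ret Y t x + ‖x - Y (ret Y t x)‖ = t := by
  obtain ⟨P, h1, hP⟩ := h.bdd t
  have hc : Continuous fun s => s + ‖x - Y s‖ :=
    continuous_id.add (continuous_const.sub h.ret_cont).norm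
  have h2 : t - 2 * P ^ 2 * ‖x - Y t‖ ≤ t := sub_le_self _ (by positivity)
  have h3 := h.ret_rate hP x h2 le_rfl
  have h4 : (2 * P ^ 2)⁻¹ * (t - (t - 2 * P ^ 2 * ‖x - Y t‖)) = ‖x - Y t‖ := by
    field_simp
    ring
  obtain ⟨r, -, hr⟩ := intermediate_value_Icc h2 hc.continuousOn
    (show t ∈ Icc _ _ from ⟨by linarith, by simp⟩)
  have e : {s | s + ‖x - Y s‖ ≤ t} = Iic r := by
    ext s
    rw [mem_setOf_eq, mem_Iic, ← (h.smono x).le_iff_le (a := s) (b := r)]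
    simp only at hr ⊢
    rw [hr]
  rw [ret, e, csSup_Iic]
  exact hr

theorem Tm.ret_le (h : Tm Y W) (t : ℝ) (x : V) : ret Y t x ≤ t := by
  linarith [h.ret_eq t x, norm_nonneg (x - Y (ret Y t x))]

theorem Tm.lt_ret_iff (h : Tm Y W) (t : ℝ) (x : V) (s : ℝ) :
    s < ret Y t x ↔ s + ‖x - Y s‖ < t := by
  rw [← (h.smono x).lt_iff_lt]
  simp only [h.ret_eq]

theorem Tm.ret_lt_iff (h : Tm Y W) (t : ℝ) (x : V) (s : ℝ) :
    ret Y t x < s ↔ t < s + ‖x - Y s‖ := by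
  rw [← (h.smono x).lt_iff_lt]
  simp only [h.ret_eq]

theorem Tm.ret_eq_iff (h : Tm Y W) (t : ℝ) (x : V) (s : ℝ) :
    ret Y t x = s ↔ s + ‖x - Y s‖ = t := by
  rw [← (h.smono x).injective.eq_iff]
  simp only [h.ret_eq]
  exact eq_comm

theorem Tm.ret_lip_aux (h : Tm Y W) {P T t t' : ℝ} (hP : ∀ s, s ≤ T → q (W s) ≤ P) (ht : t ≤ T)
    (x x' : V) : ret Y t x - ret Y t' x' ≤ 2 * P ^ 2 * (|t - t'| + ‖x - x'‖) := by
  have hP1 : 1 ≤ P := (one_le_q _).trans (hP T le_rfl)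
  rcases le_total (ret Y t x) (ret Y t' x') with h1 | h1
  · exact (sub_nonpos.2 h1).trans (by positivity)
  · have h2 := h.ret_rate hP x h1 ((h.ret_le t x).trans ht)
    have h3 : ‖x' - Y (ret Y t' x')‖ ≤ ‖x' - x‖ + ‖x - Y (ret Y t' x')‖ :=
      norm_sub_le_norm_sub_add_norm_sub _ _ _
    rw [norm_sub_rev x' x] at h3
    have h4 : (2 * P ^ 2)⁻¹ * (ret Y t x - ret Y t' x') ≤ |t - t'| + ‖x - x'‖ := by
      linarith [h.ret_eq t x, h.ret_eq t' x', le_abs_self (t - t')]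
    rwa [inv_mul_le_iff₀ (by positivity)] at h4

theorem Tm.ret_lip (h : Tm Y W) {P t t' : ℝ} (hP : ∀ s, s ≤ max t t' → q (W s) ≤ P) (x x' : V) :
    |ret Y t x - ret Y t' x'| ≤ 2 * P ^ 2 * (|t - t'| + ‖x - x'‖) := by
  refine abs_sub_le_iff.2 ⟨h.ret_lip_aux hP (le_max_left _ _) x x', ?_⟩
  rw [abs_sub_comm, norm_sub_rev]
  exact h.ret_lip_aux hP (le_max_right _ _) x' x

theorem Tm.continuous_ret (h : Tm Y W) : Continuous (fun p : ℝ × V => ret Y p.1 p.2) := by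
  have hc : ∀ a, Continuous fun p : ℝ × V => a + ‖p.2 - Y a‖ := fun a => by fun_prop
  refine continuous_iff_continuousAt.2 fun p => tendsto_order.2 ⟨fun a ha => ?_, fun a ha => ?_⟩
  · simp only [h.lt_ret_iff] at ha ⊢
    exact (hc a).continuousAt.eventually_lt continuous_fst.continuousAt ha
  · simp only [h.ret_lt_iff] at ha ⊢
    exact continuous_fst.continuousAt.eventually_lt (hc a).continuousAt ha

theorem ret_hasFDerivAt_norm {l : V} (h : l ≠ 0) :
    HasFDerivAt (fun x : V => ‖x‖) (innerSL ℝ (nrm l)) l := by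
  have h0 : ‖l‖ ≠ 0 := norm_ne_zero_iff.2 h
  have h1 := (hasStrictFDerivAt_norm_sq l).hasFDerivAt.sqrt (pow_ne_zero 2 h0)
  simp only [Real.sqrt_sq (norm_nonneg _)] at h1
  refine h1.congr_fderiv ?_
  ext v
  simp only [nrm, ContinuousLinearMap.smul_apply, innerSL_apply_apply, smul_eq_mul,
    real_inner_smul_left, nsmul_eq_mul]
  field_simp
  norm_num

theorem Tm.hasFDerivAt_ret (h : Tm Y W) {t : ℝ} {x : V} (hx : x ≠ Y (ret Y t x)) :
    HasFDerivAt (fun p : ℝ × V => ret Y p.1 p.2)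
      ((ang (vel (W (ret Y t x))) (nrm (x - Y (ret Y t x))))⁻¹ •
        (ContinuousLinearMap.fst ℝ ℝ V -
          (innerSL ℝ (nrm (x - Y (ret Y t x)))).comp (ContinuousLinearMap.snd ℝ ℝ V))) (t, x) := by
  set r := ret Y t x with hr
  set n := nrm (x - Y r) with hn
  set b := ang (vel (W r)) n with hb
  have hb0 : b ≠ 0 := (ang_vel_pos _ (norm_nrm_le _)).ne'
  let A : ℝ × V →L[ℝ] ℝ := b • ContinuousLinearMap.fst ℝ ℝ V +
    (innerSL ℝ n).comp (ContinuousLinearMap.snd ℝ ℝ V)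
  let B : ℝ × V →L[ℝ] ℝ := b⁻¹ • (ContinuousLinearMap.fst ℝ ℝ V -
    (innerSL ℝ n).comp (ContinuousLinearMap.snd ℝ ℝ V))
  let L : (ℝ × V) ≃L[ℝ] ℝ × V := ContinuousLinearEquiv.equivOfInverse
    (A.prod (ContinuousLinearMap.snd ℝ ℝ V)) (B.prod (ContinuousLinearMap.snd ℝ ℝ V))
    (fun p => by
      refine Prod.ext ?_ rfl
      simp [A, B, hb0])
    (fun p => by
      refine Prod.ext ?_ rfl
      simp [A, B, hb0])
  have h1 : HasFDerivAt (fun p : ℝ × V => p.2 - Y p.1) (ContinuousLinearMap.snd ℝ ℝ V -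
      (ContinuousLinearMap.toSpanSingleton ℝ (vel (W r))).comp (ContinuousLinearMap.fst ℝ ℝ V))
      (r, x) := hasFDerivAt_snd.sub ((h.hY r).hasFDerivAt.comp (r, x) hasFDerivAt_fst)
  have h2 := (ret_hasFDerivAt_norm (sub_ne_zero.2 hx)).comp (r, x) h1
  have h3 : HasFDerivAt (fun p : ℝ × V => p.1 + ‖p.2 - Y p.1‖) A (r, x) := by
    refine (hasFDerivAt_fst.add h2).congr_fderiv ?_
    refine ContinuousLinearMap.ext fun p => ?_
    simp only [A, hb, ang, ← hn, ContinuousLinearMap.add_apply, ContinuousLinearMap.smul_apply,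
      ContinuousLinearMap.comp_apply, ContinuousLinearMap.sub_apply, innerSL_apply_apply,
      ContinuousLinearMap.coe_fst', ContinuousLinearMap.coe_snd',
      ContinuousLinearMap.toSpanSingleton_apply, inner_sub_right, real_inner_smul_right,
      smul_eq_mul]
    rw [real_inner_comm n (vel (W r))]
    ring
  have h4 : HasFDerivAt (fun p : ℝ × V => (p.1 + ‖p.2 - Y p.1‖, p.2)) (L : ℝ × V →L[ℝ] ℝ × V)
      ((fun p : ℝ × V => (ret Y p.1 p.2, p.2)) (t, x)) := h3.prodMk hasFDerivAt_snd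
  have h5 := HasFDerivAt.of_local_left_inverse
    (g := fun p : ℝ × V => (ret Y p.1 p.2, p.2)) (a := (t, x))
    (h.continuous_ret.prodMk continuous_snd).continuousAt h4
    (Eventually.of_forall fun p => Prod.ext (h.ret_eq p.1 p.2) rfl)
  exact h5.fst

theorem measurable_ret {Z : Type} [MeasurableSpace Z] {Y W : Z → ℝ → V}
    (h : ∀ z, Tm (Y z) (W z)) (hm : Measurable (fun p : Z × ℝ => Y p.1 p.2)) :
    Measurable (fun p : Z × ℝ × V => ret (Y p.1) p.2.1 p.2.2) := by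
  refine measurable_of_Iio fun a => ?_
  have e : (fun p : Z × ℝ × V => ret (Y p.1) p.2.1 p.2.2) ⁻¹' Iio a =
      {p | p.2.1 < a + ‖p.2.2 - Y p.1 a‖} := by
    ext p
    exact (h p.1).ret_lt_iff _ _ _
  have h1 : Measurable fun p : Z × ℝ × V => Y p.1 a :=
    hm.comp (measurable_fst.prodMk measurable_const)
  rw [e]
  exact measurableSet_lt measurable_snd.fst
    (measurable_const.add (measurable_snd.snd.sub h1).norm)

theorem Tm.smono_along (h : Tm Y W) (hX : Tm X U) : StrictMono (fun s => ret Y s (X s)) := by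
  intro s s' hs
  simp only
  rw [h.lt_ret_iff]
  have h1 := hX.ret_lip_lt hs
  have h2 : ‖X s' - Y (ret Y s (X s))‖ ≤ ‖X s' - X s‖ + ‖X s - Y (ret Y s (X s))‖ :=
    norm_sub_le_norm_sub_add_norm_sub _ _ _
  linarith [h.ret_eq s (X s)]

theorem Tm.continuous_along (h : Tm Y W) (hX : Tm X U) : Continuous (fun s => ret Y s (X s)) := by
  have h1 : Continuous fun s : ℝ => (s, X s) := continuous_id.prodMk hX.ret_cont
  have h2 := h.continuous_ret.comp h1
  exact h2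

theorem Tm.hasDerivAt_along (h : Tm Y W) (hX : Tm X U) {s : ℝ} (hx : X s ≠ Y (ret Y s (X s))) :
    HasDerivAt (fun s => ret Y s (X s))
      (ang (vel (U s)) (nrm (X s - Y (ret Y s (X s)))) /
        ang (vel (W (ret Y s (X s)))) (nrm (X s - Y (ret Y s (X s))))) s := by
  have h1 : HasDerivAt (fun s => (s, X s)) (1, vel (U s)) s := (hasDerivAt_id s).prodMk (hX.hY s)
  have h2 := HasFDerivAt.comp_hasDerivAt (f := fun s => (s, X s))
    (l := fun p : ℝ × V => ret Y p.1 p.2) s (h.hasFDerivAt_ret hx) h1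
  refine h2.congr_deriv ?_
  simp only [ContinuousLinearMap.smul_apply, ContinuousLinearMap.sub_apply,
    ContinuousLinearMap.comp_apply, innerSL_apply_apply, ContinuousLinearMap.coe_fst',
    ContinuousLinearMap.coe_snd', smul_eq_mul]
  rw [div_eq_inv_mul, real_inner_comm]
  rfl

theorem Tm.smono_sub (hX : Tm X U) (y : V) : StrictMono (fun s => s - ‖X s - y‖) := by
  intro s s' hs
  have h1 := hX.ret_lip_lt hs
  have h2 : ‖X s' - y‖ ≤ ‖X s' - X s‖ + ‖X s - y‖ := norm_sub_le_norm_sub_add_norm_sub _ _ _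
  simp only
  linarith

theorem Tm.hasDerivAt_sub (hX : Tm X U) {y : V} {s : ℝ} (hy : X s ≠ y) :
    HasDerivAt (fun s => s - ‖X s - y‖) (ang (vel (U s)) (nrm (X s - y))) s := by
  have h1 := (ret_hasFDerivAt_norm (sub_ne_zero.2 hy)).comp_hasDerivAt s ((hX.hY s).sub_const y)
  refine ((hasDerivAt_id s).sub h1).congr_deriv ?_
  rw [innerSL_apply_apply, real_inner_comm]
  rfl

/-- One-dimensional change of variables as an inequality. -/
theorem cv_le {φ φ' : ℝ → ℝ} {A : Set ℝ} (hA : MeasurableSet A) (hφ : InjOn φ A) {β : ℝ}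
    (hd : ∀ s ∈ A, HasDerivAt φ (φ' s) s ∧ β ≤ φ' s) (g : ℝ → ℝ≥0∞) :
    ENNReal.ofReal β * ∫⁻ s in A, g (φ s) ≤ ∫⁻ s in φ '' A, g s := by
  rw [lintegral_image_eq_lintegral_abs_deriv_mul hA (fun s hs => (hd s hs).1.hasDerivWithinAt) hφ,
    ← lintegral_const_mul' _ _ ENNReal.ofReal_ne_top]
  refine setLIntegral_mono' hA fun s hs => ?_
  exact mul_le_mul_left (ENNReal.ofReal_le_ofReal ((hd s hs).2.trans (le_abs_self _))) _

end

end Vale.Agent.P107
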