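import Vale.Agent.P107.Basic

/-! Functions with bounded second differences. -/

namespace Vale.Agent.P107

open MeasureTheory Set Filter Topology
open scoped ENNReal RealInnerProductSpace

noncomputable section

variable {F F' : Type} [NormedAddCommGroup F] [NormedSpace ℝ F] [NormedAddCommGroup F']
  [NormedSpace ℝ F']

/-- The symmetric second difference. -/
def sd (g : F → F') (z h : F) : F' := g (z + h) + g (z - h) - (2 : ℝ) • g z

/-- Bounded second differences. -/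
def SD (g : F → F') (C : ℝ) : Prop := ∀ z h, ‖sd g z h‖ ≤ C * ‖h‖ ^ 2

theorem SD.mono {g : F → F'} {C C' : ℝ} (h : SD g C) (hC : C ≤ C') : SD g C' := by
  exact fun z k => (h z k).trans (mul_le_mul_of_nonneg_right hC (sq_nonneg _))

theorem SD.const (a : F') : SD (fun _ : F => a) 0 := by
  intro z k
  simp [sd, two_smul]

theorem SD.add {g g' : F → F'} {C C' : ℝ} (h : SD g C) (h' : SD g' C') :
    SD (fun z => g z + g' z) (C + C') := by
  intro z k
  have e : sd (fun z => g z + g' z) z k = sd g z k + sd g' z k := by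
    simp only [sd, smul_add]
    abel
  rw [e, add_mul]
  exact (norm_add_le _ _).trans (add_le_add (h z k) (h' z k))

theorem SD.clm {F'' : Type} [NormedAddCommGroup F''] [NormedSpace ℝ F''] {g : F → F'} {C : ℝ}
    (h : SD g C) (A : F' →L[ℝ] F'') : SD (fun z => A (g z)) (‖A‖ * C) := by
  intro z k
  have e : sd (fun z => A (g z)) z k = A (sd g z k) := by
    simp only [sd, map_add, map_sub, map_smul]
  rw [e, mul_assoc]
  exact (A.le_opNorm _).trans (mul_le_mul_of_nonneg_left (h z k) (norm_nonneg _))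

theorem SD.prod {F'' : Type} [NormedAddCommGroup F''] [NormedSpace ℝ F''] {g : F → F'}
    {g' : F → F''} {C : ℝ} (h : SD g C) (h' : SD g' C) : SD (fun z => (g z, g' z)) C := by
  intro z k
  exact max_le (h z k) (h' z k)

theorem SD.three {g : F → F'} {C L : ℝ} (h : SD g C) (hL : ∀ a b, ‖g a - g b‖ ≤ L * ‖a - b‖)
    (a c d : F) : ‖g a + g d - (2 : ℝ) • g c‖ ≤ C * ‖a - c‖ ^ 2 + L * ‖a + d - (2 : ℝ) • c‖ := by
  have e : g a + g d - (2 : ℝ) • g c = sd g c (a - c) + (g d - g (c - (a - c))) := by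
    simp only [sd, add_sub_cancel]
    abel
  have e2 : d - (c - (a - c)) = a + d - (2 : ℝ) • c := by
    rw [two_smul]
    abel
  rw [e, ← e2]
  exact (norm_add_le _ _).trans (add_le_add (h _ _) (hL _ _))

theorem SD.comp {F'' : Type} [NormedAddCommGroup F''] [NormedSpace ℝ F''] {g : F' → F''}
    {k : F → F'} {C L C' L' : ℝ} (h : SD g C) (hC : 0 ≤ C) (hL0 : 0 ≤ L)
    (hL : ∀ a b, ‖g a - g b‖ ≤ L * ‖a - b‖) (h' : SD k C')
    (hL' : ∀ a b, ‖k a - k b‖ ≤ L' * ‖a - b‖) : SD (fun z => g (k z)) (C * L' ^ 2 + L * C') := by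
  intro z u
  refine (h.three hL (k (z + u)) (k z) (k (z - u))).trans ?_
  have h1 := hL' (z + u) z
  rw [add_sub_cancel_left] at h1
  have h2 := mul_le_mul_of_nonneg_left (pow_le_pow_left₀ (norm_nonneg _) h1 2) hC
  have h3 := mul_le_mul_of_nonneg_left (h' z u) hL0
  unfold sd at h3
  calc _ ≤ C * (L' * ‖u‖) ^ 2 + L * (C' * ‖u‖ ^ 2) := add_le_add h2 h3
    _ = _ := by ring

theorem sd_bilin {F₁ F₂ : Type} [NormedAddCommGroup F₁] [NormedSpace ℝ F₁] [NormedAddCommGroup F₂]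
    [NormedSpace ℝ F₂] (B : F₁ →L[ℝ] F₂ →L[ℝ] F') (g : F → F₁) (k : F → F₂) (z h : F) :
    sd (fun z => B (g z) (k z)) z h = B (g z) (sd k z h) + B (sd g z h) (k z) +
      B (g (z + h) - g z) (k (z + h) - k z) + B (g (z - h) - g z) (k (z - h) - k z) := by
  simp only [sd, map_add, map_sub, add_apply, sub_apply, two_smul]
  abel

theorem SD.bilin {F₁ F₂ : Type} [NormedAddCommGroup F₁] [NormedSpace ℝ F₁] [NormedAddCommGroup F₂]
    [NormedSpace ℝ F₂] (B : F₁ →L[ℝ] F₂ →L[ℝ] F') {g : F → F₁} {k : F → F₂}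
    {A L C A' L' C' : ℝ} (hA : ∀ z, ‖g z‖ ≤ A) (hL0 : 0 ≤ L)
    (hL : ∀ a b, ‖g a - g b‖ ≤ L * ‖a - b‖) (hC0 : 0 ≤ C)
    (hC : SD g C) (hA' : ∀ z, ‖k z‖ ≤ A') (hL0' : 0 ≤ L') (hL' : ∀ a b, ‖k a - k b‖ ≤ L' * ‖a - b‖)
    (hC0' : 0 ≤ C') (hC' : SD k C') :
    SD (fun z => B (g z) (k z)) (‖B‖ * (A * C' + A' * C + 2 * L * L')) := by
  intro z u
  have hA0 : 0 ≤ A := (norm_nonneg _).trans (hA z)
  have hA0' : 0 ≤ A' := (norm_nonneg _).trans (hA' z)
  have l1 : ‖g (z + u) - g z‖ ≤ L * ‖u‖ := by simpa using hL (z + u) z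
  have l2 : ‖g (z - u) - g z‖ ≤ L * ‖u‖ := by simpa using hL (z - u) z
  have l3 : ‖k (z + u) - k z‖ ≤ L' * ‖u‖ := by simpa using hL' (z + u) z
  have l4 : ‖k (z - u) - k z‖ ≤ L' * ‖u‖ := by simpa using hL' (z - u) z
  have key : ∀ (x : F₁) (y : F₂) (a b : ℝ), ‖x‖ ≤ a → ‖y‖ ≤ b → ‖B x y‖ ≤ ‖B‖ * a * b :=
    fun x y a b hx hy => B.le_of_opNorm₂_le_of_le le_rfl hx hy
  have b1 := key _ _ _ _ (hA z) (hC' z u)
  have b2 := key _ _ _ _ (hC z u) (hA' z)
  have b3 := key _ _ _ _ l1 l3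
  have b4 := key _ _ _ _ l2 l4
  rw [sd_bilin]
  refine (norm_add_le_of_le (norm_add_le_of_le (norm_add_le_of_le b1 b2) b3) b4).trans_eq ?_
  ring

theorem SD.of_fderiv {g : F → F'} {C : ℝ} (hd : Differentiable ℝ g)
    (h : ∀ a b, ‖fderiv ℝ g a - fderiv ℝ g b‖ ≤ C * ‖a - b‖) : SD g (2 * C) := by
  intro z u
  have hC : 0 ≤ C * ‖u‖ := by simpa using (norm_nonneg _).trans (h (z + u) z)
  have d1 : ∀ s : ℝ, HasDerivAt (fun s : ℝ => g (z + s • u) + g (z - s • u))
      (fderiv ℝ g (z + s • u) u - fderiv ℝ g (z - s • u) u) s := by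
    intro s
    have e1 : HasDerivAt (fun s : ℝ => z + s • u) u s := by
      simpa using ((hasDerivAt_id s).smul_const u).const_add z
    have e2 : HasDerivAt (fun s : ℝ => z - s • u) (-u) s := by
      simpa using ((hasDerivAt_id s).smul_const u).const_sub z
    have e3 := ((hd _).hasFDerivAt.comp_hasDerivAt s e1).add
      ((hd _).hasFDerivAt.comp_hasDerivAt s e2)
    rw [map_neg, ← sub_eq_add_neg] at e3
    exact e3
  have key := norm_image_sub_le_of_norm_deriv_le_segment_01' (C := 2 * C * ‖u‖ ^ 2)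
    (fun s _ => (d1 s).hasDerivWithinAt) (fun s hs => by
      rw [← sub_apply]
      refine (ContinuousLinearMap.le_opNorm _ _).trans ?_
      have e1 := h (z + s • u) (z - s • u)
      have e2 : z + s • u - (z - s • u) = (2 * s) • u := by
        rw [mul_smul, two_smul]
        abel
      rw [e2, norm_smul, Real.norm_eq_abs, abs_of_nonneg (by linarith [hs.1])] at e1
      have e3 : C * (2 * s * ‖u‖) ≤ 2 * (C * ‖u‖) := by nlinarith [hs.2]
      calc _ ≤ 2 * (C * ‖u‖) * ‖u‖ := mul_le_mul_of_nonneg_right (e1.trans e3) (norm_nonneg _)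
        _ = _ := by ring)
  simpa [sd, two_smul] using key

theorem SD.para {g : F → F'} {C : ℝ} (h : SD g C) {a b c d : F} (e : a + b = c + d) :
    ‖g a + g b - (g c + g d)‖ ≤ C * (‖a - b‖ ^ 2 + ‖c - d‖ ^ 2) / 4 := by
  have k : ∀ a b : F, ‖g a + g b - (2 : ℝ) • g ((1 / 2 : ℝ) • (a + b))‖ ≤ C * ‖a - b‖ ^ 2 / 4 := by
    intro a b
    have h1 := h ((1 / 2 : ℝ) • (a + b)) ((1 / 2 : ℝ) • (a - b))
    have e1 : (1 / 2 : ℝ) • (a + b) + (1 / 2 : ℝ) • (a - b) = a := by module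
    have e2 : (1 / 2 : ℝ) • (a + b) - (1 / 2 : ℝ) • (a - b) = b := by module
    rw [sd, e1, e2, norm_smul, Real.norm_eq_abs, abs_of_pos (by norm_num)] at h1
    refine h1.trans_eq ?_
    ring
  have h1 := k a b
  have h2 := k c d
  rw [← e] at h2
  have h3 := norm_sub_le_of_le h1 h2
  rw [sub_sub_sub_cancel_right] at h3
  refine h3.trans_eq ?_
  ring

theorem SD.exists_lim [CompleteSpace F'] {g : F → F'} {C : ℝ} (h : SD g C) (z k : F) :
    ∃ D : F', Tendsto (fun n : ℕ => (2 : ℝ) ^ n • (g (z + (1 / 2 : ℝ) ^ n • k) - g z)) atTop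
      (𝓝 D) ∧ ‖g (z + k) - g z - D‖ ≤ C * ‖k‖ ^ 2 / 2 := by
  have hs : ∀ n : ℕ, dist ((2 : ℝ) ^ n • (g (z + (1 / 2 : ℝ) ^ n • k) - g z))
      ((2 : ℝ) ^ (n + 1) • (g (z + (1 / 2 : ℝ) ^ (n + 1) • k) - g z)) ≤
      C * ‖k‖ ^ 2 / 2 / 2 / 2 ^ n := by
    intro n
    have h1 := h (z + (1 / 2 : ℝ) ^ (n + 1) • k) ((1 / 2 : ℝ) ^ (n + 1) • k)
    have e1 : z + (1 / 2 : ℝ) ^ (n + 1) • k + (1 / 2 : ℝ) ^ (n + 1) • k =
        z + (1 / 2 : ℝ) ^ n • k := by
      rw [pow_succ]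
      module
    rw [sd, e1, add_sub_cancel_right, norm_smul, Real.norm_eq_abs, abs_of_pos (by positivity)] at h1
    have e2 : (2 : ℝ) ^ n • (g (z + (1 / 2 : ℝ) ^ n • k) - g z) -
        (2 : ℝ) ^ (n + 1) • (g (z + (1 / 2 : ℝ) ^ (n + 1) • k) - g z) =
        (2 : ℝ) ^ n • (g (z + (1 / 2 : ℝ) ^ n • k) + g z -
          (2 : ℝ) • g (z + (1 / 2 : ℝ) ^ (n + 1) • k)) := by
      rw [pow_succ (2 : ℝ)]
      module
    rw [dist_eq_norm, e2, norm_smul, Real.norm_eq_abs, abs_of_pos (by positivity)]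
    refine (mul_le_mul_of_nonneg_left h1 (by positivity)).trans_eq ?_
    rw [one_div, inv_pow]
    field_simp
    ring
  obtain ⟨D, hD⟩ := cauchySeq_tendsto_of_complete (cauchySeq_of_le_geometric_two hs)
  refine ⟨D, hD, ?_⟩
  have h1 := dist_le_of_le_geometric_two_of_tendsto₀ hs hD
  simpa [dist_eq_norm] using h1

theorem SD.diff_aux [CompleteSpace F'] {g : F → F'} {C : ℝ} (hg : Continuous g) (h : SD g C)
    (z : F) : HasFDerivAt g (fderiv ℝ g z) z ∧
      ∀ k, ‖g (z + k) - g z - fderiv ℝ g z k‖ ≤ C * ‖k‖ ^ 2 / 2 := by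
  choose D hD hD' using h.exists_lim z
  have hadd : ∀ a b, D (a + b) = D a + D b := by
    intro a b
    have h1 := (hD (a + b)).sub ((hD a).add (hD b))
    have h2 : Tendsto (fun n : ℕ => C * (‖a + b‖ ^ 2 + ‖a - b‖ ^ 2) / 4 * (1 / 2 : ℝ) ^ n) atTop
        (𝓝 (C * (‖a + b‖ ^ 2 + ‖a - b‖ ^ 2) / 4 * 0)) :=
      (tendsto_pow_atTop_nhds_zero_of_lt_one (by norm_num) (by norm_num)).const_mul _
    rw [mul_zero] at h2
    refine sub_eq_zero.1 (tendsto_nhds_unique h1 (squeeze_zero_norm (fun n => ?_) h2))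
    have h3 := h.para (a := z + (1 / 2 : ℝ) ^ n • (a + b)) (b := z)
      (c := z + (1 / 2 : ℝ) ^ n • a) (d := z + (1 / 2 : ℝ) ^ n • b) (by module)
    rw [add_sub_cancel_left, add_sub_add_left_eq_sub, ← smul_sub, norm_smul, norm_smul,
      Real.norm_eq_abs, abs_of_pos (by positivity)] at h3
    have e2 : (2 : ℝ) ^ n • (g (z + (1 / 2 : ℝ) ^ n • (a + b)) - g z) -
        ((2 : ℝ) ^ n • (g (z + (1 / 2 : ℝ) ^ n • a) - g z) +
          (2 : ℝ) ^ n • (g (z + (1 / 2 : ℝ) ^ n • b) - g z)) =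
        (2 : ℝ) ^ n • (g (z + (1 / 2 : ℝ) ^ n • (a + b)) + g z -
          (g (z + (1 / 2 : ℝ) ^ n • a) + g (z + (1 / 2 : ℝ) ^ n • b))) := by module
    rw [e2, norm_smul, Real.norm_eq_abs, abs_of_pos (by positivity)]
    refine (mul_le_mul_of_nonneg_left h3 (by positivity)).trans_eq ?_
    rw [one_div, inv_pow]
    field_simp
  let A : F →+ F' := AddMonoidHom.mk' D hadd
  have hA : Continuous A := by
    refine continuous_of_continuousAt_zero A ?_
    rw [ContinuousAt, map_zero]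
    have h1 : Continuous fun k : F => ‖g (z + k) - g z‖ + C * ‖k‖ ^ 2 / 2 := by fun_prop
    have h2 := h1.tendsto 0
    simp only [add_zero, sub_self, norm_zero, ne_eq, OfNat.ofNat_ne_zero, not_false_eq_true,
      zero_pow, mul_zero, zero_div] at h2
    refine squeeze_zero_norm (fun k => ?_) h2
    have h3 := norm_sub_le_of_le (le_refl ‖g (z + k) - g z‖) (hD' k)
    rwa [sub_sub_cancel] at h3
  have hF : HasFDerivAt g (A.toRealLinearMap hA) z := by
    rw [hasFDerivAt_iff_isLittleO_nhds_zero]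
    have h1 : (fun k => g (z + k) - g z - A.toRealLinearMap hA k) =O[𝓝 0]
        fun k : F => ‖k‖ ^ 2 := by
      refine Asymptotics.IsBigO.of_bound (C / 2) (Eventually.of_forall fun k => ?_)
      rw [norm_pow, norm_norm]
      exact (hD' k).trans_eq (by ring)
    exact h1.trans_isLittleO (Asymptotics.isLittleO_norm_pow_id one_lt_two)
  rw [hF.fderiv]
  exact ⟨hF, hD'⟩

theorem SD.diff [CompleteSpace F'] {g : F → F'} {C : ℝ} (hg : Continuous g) (h : SD g C) :
    Differentiable ℝ g ∧ (∀ z k, ‖g (z + k) - g z - fderiv ℝ g z k‖ ≤ C * ‖k‖ ^ 2) ∧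
      ∀ z z', ‖fderiv ℝ g z - fderiv ℝ g z'‖ ≤ 4 * C * ‖z - z'‖ := by
  refine ⟨fun z => (h.diff_aux hg z).1.differentiableAt, fun z k => ?_, fun z z' => ?_⟩
  · have h1 := (h.diff_aux hg z).2 k
    linarith [norm_nonneg (g (z + k) - g z - fderiv ℝ g z k)]
  · rcases eq_or_ne z z' with rfl | hne
    · simp
    have hr : 0 < ‖z - z'‖ := norm_pos_iff.2 (sub_ne_zero.2 hne)
    have hC : 0 ≤ C := nonneg_of_mul_nonneg_left ((norm_nonneg _).trans (h z (z - z')))
      (by positivity)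
    refine ContinuousLinearMap.opNorm_le_of_unit_norm (by positivity) fun u hu => ?_
    set k := ‖z - z'‖ • u with hk
    have nk : ‖k‖ = ‖z - z'‖ := by rw [hk, norm_smul, hu, norm_norm, mul_one]
    have h1 := (h.diff_aux hg z).2 k
    have h2 := (h.diff_aux hg z').2 k
    have h3 := h.para (a := z + k) (b := z') (c := z) (d := z' + k) (by abel)
    have n1 : ‖z + k - z'‖ ≤ 2 * ‖z - z'‖ := by
      rw [add_sub_right_comm]
      linarith [norm_add_le (z - z') k]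
    have n2 : ‖z - (z' + k)‖ ≤ 2 * ‖z - z'‖ := by
      rw [← sub_sub]
      linarith [norm_sub_le (z - z') k]
    have n3 := mul_le_mul_of_nonneg_left (add_le_add (pow_le_pow_left₀ (norm_nonneg _) n1 2)
      (pow_le_pow_left₀ (norm_nonneg _) n2 2)) hC
    have e : (fderiv ℝ g z - fderiv ℝ g z') k = (g (z + k) + g z' - (g z + g (z' + k))) -
        (g (z + k) - g z - fderiv ℝ g z k) + (g (z' + k) - g z' - fderiv ℝ g z' k) := by
      rw [sub_apply]
      abel
    have h4 := norm_add_le_of_le (norm_sub_le_of_le h3 h1) h2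
    rw [← e, nk, hk, map_smul, norm_smul, norm_norm] at h4
    rw [← hk] at h4
    refine le_of_mul_le_mul_left ?_ hr
    nlinarith [mul_nonneg hC (sq_nonneg ‖z - z'‖)]

theorem SD.cont_fderiv [CompleteSpace F'] [FiniteDimensional ℝ F] {X : Type} [TopologicalSpace X]
    {g : X → F → F'} (hg : Continuous (fun p : X × F => g p.1 p.2))
    (h : ∀ x₀, ∃ C, ∀ᶠ x in 𝓝 x₀, SD (g x) C) :
    Continuous (fun p : X × F => fderiv ℝ (g p.1) p.2) := by
  refine continuous_clm_apply.2 fun k => continuous_iff_continuousAt.2 fun p => ?_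
  obtain ⟨C, hC⟩ := h p.1
  refine continuousAt_of_locally_uniform_approx_of_continuousAt fun u hu => ?_
  obtain ⟨ε, hε, hu⟩ := Metric.mem_uniformity_dist.1 hu
  set e : ℝ := ε / (|C| * ‖k‖ ^ 2 + 1) with he
  have he0 : 0 < e := by positivity
  refine ⟨{y | SD (g y.1) C}, continuous_fst.continuousAt.eventually hC,
    fun y => e⁻¹ • (g y.1 (y.2 + e • k) - g y.1 y.2), ?_, fun y hy => hu ?_⟩
  · have c1 : Continuous fun y : X × F => g y.1 (y.2 + e • k) :=
      hg.comp (f := fun y : X × F => (y.1, y.2 + e • k)) (by fun_prop)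
    exact ((c1.sub hg).const_smul e⁻¹).continuousAt
  · have c1 : Continuous (g y.1) := hg.comp (f := fun z : F => (y.1, z)) (by fun_prop)
    have h1 := (SD.diff c1 hy).2.1 y.2 (e • k)
    have e1 : e⁻¹ • (g y.1 (y.2 + e • k) - g y.1 y.2) - fderiv ℝ (g y.1) y.2 k =
        e⁻¹ • (g y.1 (y.2 + e • k) - g y.1 y.2 - fderiv ℝ (g y.1) y.2 (e • k)) := by
      rw [map_smul, smul_sub e⁻¹ _ (e • _), smul_smul, inv_mul_cancel₀ he0.ne', one_smul]
    rw [dist_comm, dist_eq_norm, e1, norm_smul, norm_inv, Real.norm_eq_abs, abs_of_pos he0,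
      inv_mul_lt_iff₀ he0]
    rw [norm_smul, Real.norm_eq_abs, abs_of_pos he0] at h1
    have h2 : e * (|C| * ‖k‖ ^ 2 + 1) = ε := by
      rw [he]
      field_simp
    have h3 : C * (e * ‖k‖) ^ 2 ≤ |C| * (e * ‖k‖) ^ 2 :=
      mul_le_mul_of_nonneg_right (le_abs_self C) (sq_nonneg _)
    rw [← h2]
    nlinarith [mul_pos he0 he0]

theorem exists_bounds_of_compact {g : F → F'} (hg : ContDiff ℝ 2 g) (hc : HasCompactSupport g) :
    ∃ C : ℝ, 1 ≤ C ∧ (∀ z, ‖g z‖ ≤ C) ∧ (∀ a b, ‖g a - g b‖ ≤ C * ‖a - b‖) ∧ SD g C := by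
  obtain ⟨A, hA⟩ := hg.continuous.bounded_above_of_compact_support hc
  obtain ⟨L, hL⟩ := hg.lipschitzWith_of_hasCompactSupport hc (by norm_num)
  have h1 : ContDiff ℝ 1 (fderiv ℝ g) := hg.fderiv_right (by norm_num)
  obtain ⟨L', hL'⟩ := h1.lipschitzWith_of_hasCompactSupport (hc.fderiv ℝ) (by norm_num)
  have hA0 : 0 ≤ A := (norm_nonneg _).trans (hA 0)
  have hL0 := L.coe_nonneg
  have hL0' := L'.coe_nonneg
  refine ⟨1 + A + L + 2 * L', by linarith, fun z => (hA z).trans (by linarith), fun a b => ?_,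
    (SD.of_fderiv (hg.differentiable (by norm_num)) fun a b => hL'.norm_sub_le a b).mono
      (by linarith)⟩
  exact (hL.norm_sub_le a b).trans (mul_le_mul_of_nonneg_right (by linarith) (norm_nonneg _))

theorem SD_vel : ∃ C : ℝ, 1 ≤ C ∧ SD vel C := by
  refine ⟨2 * 6, by norm_num, SD.of_fderiv (contDiff_vel.differentiable (by simp)) fun a b => ?_⟩
  refine ContinuousLinearMap.opNorm_le_bound _ (by positivity) fun u => ?_
  rw [sub_apply, fderiv_vel, fderiv_vel]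
  have e : acc a u - acc b u = ((q a)⁻¹ - (q b)⁻¹) • (u - ⟪vel a, u⟫ • vel a) -
      (q b)⁻¹ • (⟪vel a - vel b, u⟫ • vel a + ⟪vel b, u⟫ • (vel a - vel b)) := by
    simp only [acc, inner_sub_left]
    module
  have qa := one_le_q a
  have qb := one_le_q b
  have na := (norm_vel_lt a).le
  have nb := (norm_vel_lt b).le
  have h1 : |(q a)⁻¹ - (q b)⁻¹| ≤ ‖a - b‖ := by
    rw [inv_sub_inv (by positivity) (by positivity), abs_div, abs_sub_comm,
      abs_of_pos (mul_pos (q_pos a) (q_pos b))]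
    exact (div_le_self (abs_nonneg _) (one_le_mul_of_one_le_of_one_le qa qb)).trans (q_lip a b)
  have h2 : ‖vel a - vel b‖ ≤ 2 * ‖a - b‖ :=
    (vel_lip a b).trans (div_le_self (by positivity) qa)
  have h3 : |(q b)⁻¹| ≤ 1 := by
    rw [abs_of_pos (inv_pos.2 (q_pos b))]
    exact inv_le_one_of_one_le₀ qb
  have k : ∀ (x y : V) (s t : ℝ), ‖x‖ ≤ s → ‖y‖ ≤ t → ‖⟪x, u⟫ • y‖ ≤ s * ‖u‖ * t := by
    intro x y s t hx hy
    rw [norm_smul]
    exact mul_le_mul ((norm_inner_le_norm x u).trans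
      (mul_le_mul_of_nonneg_right hx (norm_nonneg _))) hy (norm_nonneg _)
      (mul_nonneg ((norm_nonneg _).trans hx) (norm_nonneg _))
  have h4 := norm_sub_le_of_le (le_refl ‖u‖) (k _ _ _ _ na na)
  have h5 := norm_add_le_of_le (k _ _ _ _ h2 na) (k _ _ _ _ nb h2)
  rw [e]
  refine (norm_sub_le _ _).trans ?_
  rw [norm_smul, norm_smul, Real.norm_eq_abs, Real.norm_eq_abs]
  refine (add_le_add (mul_le_mul h1 h4 (norm_nonneg _) (norm_nonneg _))
    (mul_le_mul h3 h5 (norm_nonneg _) zero_le_one)).trans_eq ?_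
  ring

/-- A function that is Lipschitz for short distances on a convex set is Lipschitz. -/
theorem lip_of_local {g : F → F'} {A : Set F} (hA : Convex ℝ A) {ε L : ℝ} (hε : 0 < ε)
    (h : ∀ a ∈ A, ∀ b ∈ A, ‖a - b‖ ≤ ε → ‖g a - g b‖ ≤ L * ‖a - b‖) :
    ∀ a ∈ A, ∀ b ∈ A, ‖g a - g b‖ ≤ L * ‖a - b‖ := by
  intro a ha b hb
  obtain ⟨n, hn⟩ := exists_nat_gt (‖a - b‖ / ε)
  have hn0 : (0 : ℝ) < n := lt_of_le_of_lt (by positivity) hn
  have hm : ∀ i : ℕ, i ≤ n → b + ((i : ℝ) / n) • (a - b) ∈ A := fun i hi =>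
    hA.add_smul_sub_mem hb ha ⟨by positivity, (div_le_one hn0).2 (by exact_mod_cast hi)⟩
  have key : ∀ i : ℕ, i ≤ n →
      ‖g (b + ((i : ℝ) / n) • (a - b)) - g b‖ ≤ i * (L * (‖a - b‖ / n)) := by
    intro i
    induction i with
    | zero => simp
    | succ i ih =>
      intro hi
      have e : ‖b + (((i + 1 : ℕ) : ℝ) / n) • (a - b) - (b + ((i : ℝ) / n) • (a - b))‖ =
          ‖a - b‖ / n := by
        rw [add_sub_add_left_eq_sub, ← sub_smul, norm_smul, ← sub_div, Nat.cast_succ,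
          add_sub_cancel_left, Real.norm_eq_abs, abs_of_pos (by positivity)]
        ring
      have h1 := h _ (hm _ hi) _ (hm i (by omega)) (by
        rw [e, div_le_iff₀ hn0]
        rw [div_lt_iff₀ hε] at hn
        linarith)
      rw [e] at h1
      have h2 := norm_add_le_of_le h1 (ih (by omega))
      rw [sub_add_sub_cancel] at h2
      refine h2.trans_eq ?_
      push_cast
      ring
  have h1 := key n le_rfl
  rw [div_self hn0.ne', one_smul, add_sub_cancel] at h1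
  refine h1.trans_eq ?_
  field_simp

end

end Vale.Agent.P107
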