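import Vale.Agent.P107.Path

/-! The window inequality. -/

namespace Vale.Agent.P107

open MeasureTheory Set Filter Topology
open scoped ENNReal RealInnerProductSpace

noncomputable section

namespace Ctx

variable {T1 F0 En C0 P0 c0 P : ℝ} (x : Ctx T1 F0 En C0 P0 c0 P)

/-- The total boundary term. -/
def hh (s : ℝ) (U₀ : V) : V := ∫ z, x.hz' s U₀ z ∂x.S.ν

/-- The majorant integrated over the sources. -/
def ψ (s : ℝ) : ℝ := ∫ z, x.act.indicator x.Psi (s, z) ∂x.S.ν

theorem ψ_nonneg (s : ℝ) : 0 ≤ x.ψ s := by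
  unfold ψ
  exact integral_nonneg fun z => Set.indicator_nonneg (fun w _ => x.Psi_nonneg w) _

theorem integrable_Psi {M : ℝ}
    (h : ∫⁻ w in x.act, ENNReal.ofReal (x.Psi w) ∂x.m ≤ ENNReal.ofReal M) :
    Integrable (x.act.indicator x.Psi) x.m := by
  rw [integrable_indicator_iff x.measurableSet_act]
  refine ⟨x.measurable_Psi.aestronglyMeasurable, ?_⟩
  rw [hasFiniteIntegral_iff_ofReal (Eventually.of_forall x.Psi_nonneg)]
  exact h.trans_lt ENNReal.ofReal_lt_top

theorem integrable_ψ {M : ℝ} (hM : 0 ≤ M)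
    (h : ∫⁻ w in x.act, ENNReal.ofReal (x.Psi w) ∂x.m ≤ ENNReal.ofReal M) :
    Integrable x.ψ ∧ ∫ s in x.s1..x.s2, x.ψ s ≤ M := by
  have := x.S.fin
  have hI : Integrable (x.act.indicator x.Psi) ((volume : Measure ℝ).prod x.S.ν) :=
    x.integrable_Psi h
  have h1 : Integrable x.ψ := hI.integral_prod_left
  refine ⟨h1, ?_⟩
  rw [intervalIntegral.integral_of_le x.s1_le_s2]
  calc ∫ s in Ioc x.s1 x.s2, x.ψ s ≤ ∫ s, x.ψ s :=
        setIntegral_le_integral h1 (Eventually.of_forall x.ψ_nonneg)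
    _ = ∫ w, x.act.indicator x.Psi w ∂x.m := (integral_prod _ hI).symm
    _ = ∫ w in x.act, x.Psi w ∂x.m := integral_indicator x.measurableSet_act
    _ = (∫⁻ w in x.act, ENNReal.ofReal (x.Psi w) ∂x.m).toReal :=
        integral_eq_lintegral_of_nonneg_ae (Eventually.of_forall x.Psi_nonneg)
          x.measurable_Psi.aestronglyMeasurable
    _ ≤ M := ENNReal.toReal_le_of_le_ofReal hM h

theorem win_ae : ∀ᵐ z ∂x.S.ν, z ∈ x.S.S := by
  rw [ae_iff]
  exact x.S.νS

theorem win_measurable_hz' (s : ℝ) (U₀ : V) : Measurable (x.hz' s U₀) := by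
  have h0 : Measurable (fun z : Z => ((s, z) : ℝ × Z)) := measurable_prodMk_left
  have h1 := x.measurable_Ws.comp h0
  have h2 := x.measurable_el.comp h0
  have hv : Measurable (fun _ : Z => vel U₀) := measurable_const
  have h3 := hv.prodMk (h1.prodMk h2)
  have h4 := (measurable_hc x.par).comp h3
  simp only [Function.comp_def] at h4
  exact h4

theorem win_bH_le {a b R a0 b0 R0 : ℝ} (ha : 0 < a0) (hb : 0 < b0) (hR : 0 < R0) (h1 : a0 ≤ a)
    (h2 : b0 ≤ b) (h3 : R0 ≤ R) : bH a b R ≤ bH a0 b0 R0 := by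
  unfold bH
  have e1 := Real.sqrt_le_sqrt h1
  have e2 := Real.sqrt_le_sqrt h2
  have e3 := Real.sqrt_pos.2 ha
  have e4 := Real.sqrt_pos.2 hb
  apply one_div_le_one_div_of_le (by positivity)
  gcongr

theorem integrable_hz' {s : ℝ} (hs : s ∈ Icc x.s1 x.s2) {U₀ : V}
    (hU : Close x.par.δ (x.U s) U₀) : Integrable (x.hz' s U₀) x.S.ν := by
  classical
  have := x.S.fin
  obtain ⟨C, hC, hb⟩ := hc_bound
  have ok := x.par_ok
  have hP : 0 < P := lt_of_lt_of_le one_pos x.num.hP2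
  have ha : 0 < x.par.am / 2 := half_pos ok.am0
  have hb0 : 0 < 1 / (2 * P ^ 2) := by positivity
  have hB : 0 ≤ bH (x.par.am / 2) (1 / (2 * P ^ 2)) x.par.r0 := by
    unfold bH
    have := ok.r00
    positivity
  refine Integrable.of_bound (x.win_measurable_hz' s U₀).aestronglyMeasurable
    (C * bH (x.par.am / 2) (1 / (2 * P ^ 2)) x.par.r0) ?_
  filter_upwards [x.win_ae] with z hz
  by_cases hact : (s, z) ∈ x.act ∧ x.par.pm ≤ x.pp s z
  · refine (hb x.par ok (x.U s) U₀ (x.Ws s z) (x.el s z) hU).trans ?_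
    refine mul_le_mul_of_nonneg_left ?_ (by linarith)
    split_ifs with hR
    · obtain ⟨⟨p1, p2⟩, -, -, ⟨b1, -⟩, -⟩ := x.act_range hact.1
      refine win_bH_le ha hb0 ok.r00 (by linarith [hR.2.1]) ?_ hR.2.2.2.2
      change 1 / (2 * P ^ 2) ≤ x.pb s z
      simp only at p1 p2 b1
      have hpb : 0 ≤ x.pb s z := by
        by_contra hneg
        push Not at hneg
        nlinarith [mul_nonneg (sq_nonneg (x.pp s z)) (neg_nonneg.2 hneg.le)]
      rw [div_le_iff₀ (by positivity)]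
      have : x.pp s z ^ 2 ≤ P ^ 2 := by gcongr
      nlinarith [mul_le_mul_of_nonneg_right this hpb]
    · exact hB
  · rw [x.hz'_eq_zero hs hz U₀ hact, norm_zero]
    exact mul_nonneg (by linarith) hB

theorem win_ftc {r r' : ℝ} (h0 : 0 ≤ r) (hr : r ≤ r') :
    IntervalIntegrable (fun s => lor (x.S.E s (x.X s)) (x.S.B s (x.X s)) (x.U s)) volume r r' ∧
    ∫ s in r..r', lor (x.S.E s (x.X s)) (x.S.B s (x.X s)) (x.U s) = x.U r' - x.U r := by
  have cX : Continuous x.X := continuous_iff_continuousAt.2 fun s => (x.tm.hY s).continuousAt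
  have cU : Continuous x.U := x.tm.cW
  have c1 : Continuous (fun s => x.S.E s (x.X s)) := x.S.cE.comp (continuous_id.prodMk cX)
  have c2 : Continuous (fun s => x.S.B s (x.X s)) := x.S.cB.comp (continuous_id.prodMk cX)
  have c3 : Continuous (fun s => lor (x.S.E s (x.X s)) (x.S.B s (x.X s)) (x.U s)) :=
    continuous_lor.comp (c1.prodMk (c2.prodMk cU))
  refine ⟨c3.intervalIntegrable _ _, ?_⟩
  exact intervalIntegral.integral_eq_sub_of_hasDerivAt_of_le hr cU.continuousOn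
    (fun s hs => x.S.hW x.z0 s (lt_of_le_of_lt h0 hs.1)) (c3.intervalIntegrable _ _)

theorem win_restrict {G : Type} [NormedAddCommGroup G] {f : ℝ × Z → G} {ν : Measure Z}
    [SFinite ν] {A B : Set ℝ} (hAB : A ⊆ B)
    (h : Integrable f (((volume : Measure ℝ).restrict B).prod ν)) :
    Integrable f (((volume : Measure ℝ).restrict A).prod ν) := by
  rw [Measure.restrict_prod_eq_prod_univ] at h ⊢
  exact IntegrableOn.mono_set h (prod_mono hAB le_rfl)

theorem win : ∃ C : ℝ, 1 ≤ C ∧ ∀ (T1 F0 En C0 P0 c0 P : ℝ) (x : Ctx T1 F0 En C0 P0 c0 P)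
    (U₀ : V) (r r' : ℝ), x.s1 ≤ r → r ≤ r' → r' ≤ x.s2 →
    (∀ s ∈ Icc r r', Close x.par.δ (x.U s) U₀) → Integrable (x.act.indicator x.Psi) x.m →
    ‖x.U r' - x.U r - (x.hh r' U₀ - x.hh r U₀)‖ ≤ C * (∫ s in r..r', x.ψ s) + C0 * (r' - r) := by
  obtain ⟨C, hC, hp⟩ := path
  refine ⟨C, hC, fun T1 F0 En C0 P0 c0 P x U₀ r r' h1 h2 h3 hcl hI => ?_⟩
  have := x.S.fin
  have hsub : Ioc r r' ⊆ Icc x.s1 x.s2 := fun s hs => ⟨h1.trans hs.1.le, hs.2.trans h3⟩
  have hI0 : Integrable (x.act.indicator x.Psi)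
      (((volume : Measure ℝ).restrict univ).prod x.S.ν) := by
    rw [Measure.restrict_univ]
    exact hI
  have hI1 := win_restrict (subset_univ (Icc x.s1 x.s2)) hI0
  have hI2 := win_restrict hsub hI1
  have hK1 := x.integrable_kr
  have hK2 := win_restrict hsub hK1
  obtain ⟨iL, eL⟩ := x.win_ftc (x.hs0.trans h1) h2
  have iK : IntervalIntegrable (fun s => ∫ z, x.kr (s, z) ∂x.S.ν) volume r r' := by
    rw [intervalIntegrable_iff_integrableOn_Ioc_of_le h2]
    exact hK2.integral_prod_left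
  have b1 : ‖(x.U r' - x.U r) - ∫ s in r..r', ∫ z, x.kr (s, z) ∂x.S.ν‖ ≤ C0 * (r' - r) := by
    rw [← eL, ← intervalIntegral.integral_sub iL iK]
    have := intervalIntegral.norm_integral_le_of_norm_le_const (a := r) (b := r') (C := C0)
      (f := fun s => lor (x.S.E s (x.X s)) (x.S.B s (x.X s)) (x.U s) - ∫ z, x.kr (s, z) ∂x.S.ν)
      (fun s hs => by
        rw [uIoc_of_le h2] at hs
        exact x.S.rep s (x.mem_Icc (hsub hs)) (x.X s) (x.U s))
    rwa [abs_of_nonneg (by linarith)] at this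
  have sK : ∫ s in r..r', ∫ z, x.kr (s, z) ∂x.S.ν = ∫ z, (∫ s in r..r', x.kr (s, z)) ∂x.S.ν := by
    simp only [intervalIntegral.integral_of_le h2]
    exact integral_integral_swap (f := fun s z => x.kr (s, z)) hK2
  have sP : ∫ s in r..r', x.ψ s = ∫ z, (∫ s in r..r', x.act.indicator x.Psi (s, z)) ∂x.S.ν := by
    simp only [intervalIntegral.integral_of_le h2]
    exact integral_integral_swap (f := fun s z => x.act.indicator x.Psi (s, z)) hI2
  have jK : Integrable (fun z => ∫ s in r..r', x.kr (s, z)) x.S.ν := by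
    simp only [intervalIntegral.integral_of_le h2]
    exact hK2.integral_prod_right
  have jP : Integrable (fun z => ∫ s in r..r', x.act.indicator x.Psi (s, z)) x.S.ν := by
    simp only [intervalIntegral.integral_of_le h2]
    exact hI2.integral_prod_right
  have j1 := x.integrable_hz' ⟨h1, h2.trans h3⟩ (hcl r ⟨le_rfl, h2⟩)
  have j2 := x.integrable_hz' ⟨h1.trans h2, h3⟩ (hcl r' ⟨h2, le_rfl⟩)
  have b2 : ‖(∫ s in r..r', ∫ z, x.kr (s, z) ∂x.S.ν) - (x.hh r' U₀ - x.hh r U₀)‖ ≤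
      C * ∫ s in r..r', x.ψ s := by
    unfold hh
    have j3 : Integrable (fun z => x.hz' r' U₀ z - x.hz' r U₀ z) x.S.ν := j2.sub j1
    rw [sK, sP, ← integral_sub j2 j1, ← integral_sub jK j3, ← integral_const_mul]
    refine norm_integral_le_of_norm_le (jP.const_mul C) ?_
    filter_upwards [x.win_ae, hK1.prod_left_ae, hI1.prod_left_ae] with z hz k1 k2
    exact hp T1 F0 En C0 P0 c0 P x U₀ r r' z h1 h2 h3 hz hcl k1 k2
  have e : x.U r' - x.U r - (x.hh r' U₀ - x.hh r U₀) =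
      ((∫ s in r..r', ∫ z, x.kr (s, z) ∂x.S.ν) - (x.hh r' U₀ - x.hh r U₀)) +
        ((x.U r' - x.U r) - ∫ s in r..r', ∫ z, x.kr (s, z) ∂x.S.ν) := by abel
  rw [e]
  exact (norm_add_le _ _).trans (add_le_add b2 b1)

theorem win_norm_le {ν : Measure Z} {f : Z → V} {g : Z → ℝ} {A : Set Z} {K M : ℝ} (hK : 0 ≤ K)
    (hM : 0 ≤ M) (hf : ∀ᵐ z ∂ν, ‖f z‖ ≤ K * A.indicator g z)
    (h : ∫⁻ z in A, ENNReal.ofReal (g z) ∂ν ≤ ENNReal.ofReal M) : ‖∫ z, f z ∂ν‖ ≤ K * M := by
  refine (norm_integral_le_lintegral_norm f).trans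
    (ENNReal.toReal_le_of_le_ofReal (mul_nonneg hK hM) ?_)
  calc ∫⁻ z, ENNReal.ofReal ‖f z‖ ∂ν
      ≤ ∫⁻ z, ENNReal.ofReal K * A.indicator (fun z => ENNReal.ofReal (g z)) z ∂ν := by
        refine lintegral_mono_ae ?_
        filter_upwards [hf] with z hz
        refine (ENNReal.ofReal_le_ofReal hz).trans (le_of_eq ?_)
        rw [ENNReal.ofReal_mul hK]
        by_cases hA : z ∈ A
        · rw [indicator_of_mem hA, indicator_of_mem hA]
        · rw [indicator_of_notMem hA, indicator_of_notMem hA, ENNReal.ofReal_zero]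
    _ = ENNReal.ofReal K * ∫⁻ z, A.indicator (fun z => ENNReal.ofReal (g z)) z ∂ν :=
        lintegral_const_mul' _ _ ENNReal.ofReal_ne_top
    _ ≤ ENNReal.ofReal K * ENNReal.ofReal M := by
        gcongr
        exact (lintegral_indicator_le _ _).trans h
    _ = ENNReal.ofReal (K * M) := (ENNReal.ofReal_mul hK).symm

theorem hh_bound : ∃ C : ℝ, 1 ≤ C ∧ ∀ (T1 F0 En C0 P0 c0 P : ℝ) (x : Ctx T1 F0 En C0 P0 c0 P)
    (U₀ : V) (s M : ℝ), s ∈ Icc x.s1 x.s2 → Close x.par.δ (x.U s) U₀ → 0 ≤ M →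
    (∫⁻ z in {z | (s, z) ∈ x.act ∧ RTr x.par (x.pp s z) (x.pa s z) (x.pb s z) (x.pR s z)},
        ENNReal.ofReal (bH (x.pa s z) (x.pb s z) (x.pR s z)) ∂x.S.ν ≤ ENNReal.ofReal M →
      ‖x.hh s U₀‖ ≤ C * M) ∧
    (∫⁻ z in {z | (s, z) ∈ x.act ∧ RTr x.par (x.pp s z) (x.pa s z) (x.pb s z) (x.pR s z)},
        ENNReal.ofReal (bL (x.pa s z) (x.pb s z) (x.pR s z)) ∂x.S.ν ≤ ENNReal.ofReal M →
      ‖x.hh s U₀ - x.hh s (x.U s)‖ ≤ C * x.par.δ * M) := by
  classical
  obtain ⟨C1, hC1, hb⟩ := hc_bound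
  obtain ⟨C2, hC2, hl⟩ := hc_lip
  refine ⟨C1 + C2, by linarith, fun T1 F0 En C0 P0 c0 P x U₀ s M hs hU hM => ⟨fun h => ?_, fun h => ?_⟩⟩
  · have ok := x.par_ok
    have := win_norm_le (f := x.hz' s U₀) (K := C1) (by linarith) hM ?_ h
    · refine this.trans ?_
      nlinarith
    · filter_upwards [x.win_ae] with z hz
      by_cases hact : (s, z) ∈ x.act
      · refine (hb x.par ok (x.U s) U₀ (x.Ws s z) (x.el s z) hU).trans (le_of_eq ?_)
        congr 1
        split_ifs with hR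
        · rw [indicator_of_mem]
          · rfl
          · exact ⟨hact, hR⟩
        · rw [indicator_of_notMem]
          exact fun h' => hR h'.2
      · rw [x.hz'_eq_zero hs hz U₀ (fun h' => hact h'.1), norm_zero, indicator_of_notMem, mul_zero]
        exact fun h' => hact h'.1
  · have ok := x.par_ok
    have hU' : Close x.par.δ (x.U s) (x.U s) := ⟨by simpa using ok.δ0.le, hU.q1, hU.q1⟩
    have hδ := ok.δ0
    unfold hh
    rw [← integral_sub (x.integrable_hz' hs hU) (x.integrable_hz' hs hU')]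
    have := win_norm_le (f := fun z => x.hz' s U₀ z - x.hz' s (x.U s) z) (K := C2 * x.par.δ)
      (by positivity) hM ?_ h
    · refine this.trans ?_
      have : 0 ≤ C1 * x.par.δ * M := by positivity
      nlinarith
    · filter_upwards [x.win_ae] with z hz
      by_cases hact : (s, z) ∈ x.act
      · refine (hl x.par ok (x.U s) U₀ (x.Ws s z) (x.el s z) hU).trans (le_of_eq ?_)
        congr 1
        split_ifs with hR
        · rw [indicator_of_mem]
          · rfl
          · exact ⟨hact, hR⟩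
        · rw [indicator_of_notMem]
          exact fun h' => hR h'.2
      · rw [x.hz'_eq_zero hs hz U₀ (fun h' => hact h'.1),
          x.hz'_eq_zero hs hz (x.U s) (fun h' => hact h'.1), sub_zero, norm_zero,
          indicator_of_notMem, mul_zero]
        exact fun h' => hact h'.1

end Ctx

end

end Vale.Agent.P107
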