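import Vale.Agent.P107.Tot
import Vale.Agent.P107.Win
import Vale.Agent.P107.Chain

/-! The improvement of the bootstrap hypothesis. -/

namespace Vale.Agent.P107

open MeasureTheory Set Filter Topology
open scoped ENNReal RealInnerProductSpace

noncomputable section

theorem step (T1 F0 En C0 P0 : ℝ) (hT : 1 ≤ T1) (hF : 1 ≤ F0) (hE : 1 ≤ En) (hC : 0 ≤ C0) :
    ∃ c0 P1 : ℝ, 0 < c0 ∧ 1 ≤ P1 ∧ ∀ P, P1 ≤ P → Num T1 F0 En C0 P0 c0 P ∧
      ∀ x : Ctx T1 F0 En C0 P0 c0 P, Ctl x.U x.s1 x.s2 x.η (1 / 200 * x.Q) := by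
  obtain ⟨K1, hK1, htot⟩ := Ctx.tot T1 F0 En
  obtain ⟨Cw, hCw, hwin⟩ := Ctx.win
  obtain ⟨Ch, hCh, hhh⟩ := Ctx.hh_bound
  have pK : 0 < K1 := by linarith
  have pw : 0 < Cw := by linarith
  have ph : 0 < Ch := by linarith
  obtain ⟨a, ha, ha1, ha2⟩ : ∃ a : ℝ, 0 < a ∧ a ≤ 1 ∧ Cw * (K1 * a) = 1 / 1600 := by
    refine ⟨1 / (1600 * Cw * K1), by positivity, ?_, by field_simp⟩
    rw [div_le_one (by positivity)]
    nlinarith [mul_le_mul hCw hK1 zero_le_one pw.le]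
  obtain ⟨ε, hε, hε1, hε2⟩ : ∃ ε : ℝ, 0 < ε ∧ Cw * ε ≤ 1 / 1600 ∧ Ch * ε ≤ 1 / 1600 := by
    refine ⟨1 / (1600 * (Cw + Ch)), by positivity, ?_, ?_⟩
    · rw [mul_one_div, div_le_div_iff₀ (by positivity) (by positivity)]
      nlinarith
    · rw [mul_one_div, div_le_div_iff₀ (by positivity) (by positivity)]
      nlinarith
  have hc0 : 0 < a ^ 2 := by positivity
  obtain ⟨P2, hP2⟩ := htot (a ^ 2) ε hc0 hε
  have ev : ∀ᶠ P : ℝ in atTop, P2 ≤ P ∧ 1 ≤ P ∧ (10 : ℝ) ^ 6 ≤ P ^ (1 / 100 : ℝ) ∧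
      P0 < P ^ (11 / 20 : ℝ) ∧ 800 * C0 ≤ P ^ (11 / 20 : ℝ) :=
    (eventually_ge_atTop P2).and ((eventually_ge_atTop 1).and
      (((tendsto_rpow_atTop (by norm_num)).eventually_ge_atTop _).and
        (((tendsto_rpow_atTop (by norm_num)).eventually_gt_atTop _).and
          ((tendsto_rpow_atTop (by norm_num)).eventually_ge_atTop _))))
  obtain ⟨P1, hP1⟩ := eventually_atTop.1 ev
  refine ⟨a ^ 2, max P1 1, hc0, le_max_right _ _, fun P hP => ?_⟩
  obtain ⟨g1, g2, g3, g4, g5⟩ := hP1 P ((le_max_left _ _).trans hP)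
  refine ⟨⟨hT, hF, hE, hC, hc0, by nlinarith, g3, g2, g4⟩, fun x => ?_⟩
  obtain ⟨t1, t2⟩ := hP2 C0 P0 P x g1
  rw [Real.sqrt_sq ha.le] at t1
  have hQ : 0 < x.Q := lt_of_lt_of_le one_pos x.one_le_Q
  have hη : 0 < x.η := lt_of_lt_of_le (by norm_num) x.η_ge
  have hI := x.integrable_Psi t1
  obtain ⟨iψ, bψ⟩ := x.integrable_ψ (by positivity) t1
  have ii : ∀ u v, IntervalIntegrable x.ψ volume u v := fun u v => iψ.intervalIntegrable
  have dΘ : ∀ u v, (Cw * (∫ s in x.s1..v, x.ψ s) + C0 * v) - (Cw * (∫ s in x.s1..u, x.ψ s) + C0 * u)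
      = Cw * (∫ s in u..v, x.ψ s) + C0 * (v - u) := by
    intro u v
    rw [← intervalIntegral.integral_interval_sub_left (ii x.s1 v) (ii x.s1 u)]
    ring
  have hδ : x.par.δ = 8 * x.η / x.Q := rfl
  have key := chain (U := x.U) (h := x.hh)
    (Θ := fun v => Cw * (∫ s in x.s1..v, x.ψ s) + C0 * v) (lam := 1 / 4) (Y := x.Q / 400)
    hη x.s1_le_s2 (by norm_num) (by norm_num) x.ctl
    ((continuous_const.mul (intervalIntegral.continuous_primitive ii x.s1)).add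
      (continuous_const.mul continuous_id))
    (fun u v huv => by
      have e1 := dΘ u v
      have e2 : 0 ≤ ∫ s in u..v, x.ψ s :=
        intervalIntegral.integral_nonneg huv fun s _ => x.ψ_nonneg s
      have e3 := mul_nonneg pw.le e2
      have e4 := mul_nonneg hC (sub_nonneg.2 huv)
      simp only
      linarith)
    (by
      rw [dΘ]
      have e1 := mul_le_mul_of_nonneg_left bψ pw.le
      have e2 : x.s2 - x.s1 ≤ 1 := by linarith [x.s2_le.1, x.τ_le_one]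
      have e3 := mul_le_mul_of_nonneg_left e2 hC
      have e4 := x.Q_ge
      have e5 := mul_le_mul_of_nonneg_right hε1 hQ.le
      have e6 : Cw * ((K1 * a + ε) * x.Q) = Cw * (K1 * a) * x.Q + Cw * ε * x.Q := by ring
      rw [e6, ha2] at e1
      linarith)
    (fun r r' U₀ h1 h2 h3 h4 => by
      rw [dΘ]
      exact hwin T1 F0 En C0 P0 _ P x U₀ r r' h1 h2 h3
        (fun s hs => x.close ⟨h1.trans hs.1, hs.2.trans h3⟩ (h4 s hs)) hI)
    (fun s hs => by
      have hcl := x.close hs (U₀ := x.U s) (by rw [sub_self, norm_zero]; positivity)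
      have e1 := (hhh T1 F0 En C0 P0 _ P x (x.U s) s (ε * x.η) hs hcl (by positivity)).1 (t2 s).1
      have e2 := mul_le_mul_of_nonneg_right hε2 hη.le
      nlinarith)
    (fun s hs U₀ h1 => by
      have hcl := x.close hs h1
      have e1 := (hhh T1 F0 En C0 P0 _ P x U₀ s (ε * x.Q) hs hcl (by positivity)).2 (t2 s).2
      have e2 := mul_le_mul_of_nonneg_right hε2 hη.le
      have e3 : Ch * x.par.δ * (ε * x.Q) = 8 * (Ch * ε * x.η) := by
        rw [hδ]
        field_simp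
      rw [e3] at e1
      linarith)
  exact key.mono (le_of_eq (by ring))

end

end Vale.Agent.P107
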