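import Mathlib

/-! Statement-level definitions: the relativistic Vlasov-Maxwell system in three dimensions. -/

namespace Vale.Agent.P107

open MeasureTheory Set Filter Topology
open scoped ENNReal RealInnerProductSpace ContDiff

noncomputable section

/-- Euclidean three-space. -/
abbrev V : Type := EuclideanSpace ℝ (Fin 3)

/-- `q(v) = √(1 + |v|²)`. -/
def q (v : V) : ℝ := √(1 + ‖v‖ ^ 2)

/-- `u(v) = v / q(v)`. -/
def vel (v : V) : V := (q v)⁻¹ • v

/-- The vector with three given coordinates. -/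
def mk3 (a b c : ℝ) : V := WithLp.toLp 2 ![a, b, c]

/-- The cross product. -/
def cross (a b : V) : V :=
  mk3 (a 1 * b 2 - a 2 * b 1) (a 2 * b 0 - a 0 * b 2) (a 0 * b 1 - a 1 * b 0)

/-- Derivative of a scalar function in the `i`-th coordinate direction. -/
def pd (i : Fin 3) (g : V → ℝ) (x : V) : ℝ := fderiv ℝ g x (EuclideanSpace.single i 1)

/-- Gradient. -/
def grad (g : V → ℝ) (x : V) : V := mk3 (pd 0 g x) (pd 1 g x) (pd 2 g x)

/-- Divergence. -/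
def dvg (E : V → V) (x : V) : ℝ := ∑ i, pd i (fun y => E y i) x

/-- Curl. -/
def curl (E : V → V) (x : V) : V :=
  mk3 (pd 1 (fun y => E y 2) x - pd 2 (fun y => E y 1) x)
    (pd 2 (fun y => E y 0) x - pd 0 (fun y => E y 2) x)
    (pd 0 (fun y => E y 1) x - pd 1 (fun y => E y 0) x)

/-- Charge density `ρ_f(x) = ∫ f dv`. -/
def rho (f : V → V → ℝ) (x : V) : ℝ := ∫ v, f x v

/-- Current density `j_f(x) = ∫ u(v) f dv`. -/
def cur (f : V → V → ℝ) (x : V) : V := ∫ v, f x v • vel v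

/-- Time derivative on `[0,∞)` of a scalar function (one-sided at `0`). -/
def dt (g : ℝ → ℝ) (t : ℝ) : ℝ := derivWithin g (Ici 0) t

/-- Time derivative on `[0,∞)` of a vector function (one-sided at `0`). -/
def dtV (g : ℝ → V) (t : ℝ) : V := derivWithin g (Ici 0) t

/-- Square integrability on `ℝ³`. -/
def IsL2 (E : V → V) : Prop := MemLp E 2 volume

/-- `L²` distance. -/
def dist2 (E E' : V → V) : ℝ≥0∞ := eLpNorm (fun x => E x - E' x) 2 volume

/-- A smooth square-integrable field, bounded together with all its derivatives. -/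
structure Fld (E : V → V) : Prop where
  smooth : ContDiff ℝ ∞ E
  l2 : IsL2 E
  bdd : ∀ n : ℕ, ∃ C : ℝ, ∀ x, ‖iteratedFDeriv ℝ n E x‖ ≤ C

/-- A smooth admissible datum. -/
structure Datum (f₀ : V → V → ℝ) (E₀ B₀ : V → V) : Prop where
  smooth : ContDiff ℝ ∞ (fun p : V × V => f₀ p.1 p.2)
  supp : HasCompactSupport (fun p : V × V => f₀ p.1 p.2)
  nonneg : ∀ x v, 0 ≤ f₀ x v
  fE : Fld E₀
  fB : Fld B₀
  divE : ∀ x, dvg E₀ x = rho f₀ x
  divB : ∀ x, dvg B₀ x = 0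

/-- A field that is `C¹` on `[0,∞) × ℝ³`. -/
def C1Fld (E : ℝ → V → V) : Prop :=
  ContDiffOn ℝ 1 (fun p : ℝ × V => E p.1 p.2) (Ici 0 ×ˢ univ)

/-- A density that is `C¹` on `[0,∞) × ℝ³ × ℝ³`. -/
def C1Den (f : ℝ → V → V → ℝ) : Prop :=
  ContDiffOn ℝ 1 (fun p : ℝ × V × V => f p.1 p.2.1 p.2.2) (Ici 0 ×ˢ univ)

/-- Membership in `C([0,∞); L²(ℝ³))`. -/
def L2Cont (E : ℝ → V → V) : Prop :=
  ∀ t, 0 ≤ t → IsL2 (E t) ∧ Tendsto (fun s => dist2 (E s) (E t)) (𝓝[Ici 0] t) (𝓝 0)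

/-- The Vlasov equation at a point. -/
def Vlasov (f : ℝ → V → V → ℝ) (E B : ℝ → V → V) (t : ℝ) (x v : V) : Prop :=
  dt (fun s => f s x v) t + ⟪vel v, grad (fun y => f t y v) x⟫
    + ⟪E t x + cross (vel v) (B t x), grad (f t x) v⟫ = 0

/-- The Maxwell equations at a point. -/
structure Maxwell (f : ℝ → V → V → ℝ) (E B : ℝ → V → V) (t : ℝ) (x : V) : Prop where
  ampere : dtV (fun s => E s x) t - curl (B t) x = -cur (f t) x
  faraday : dtV (fun s => B s x) t + curl (E t) x = 0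
  gaussE : dvg (E t) x = rho (f t) x
  gaussB : dvg (B t) x = 0

/-- A classical solution on `[0,∞)` with datum `(f₀, E₀, B₀)`. -/
structure IsSol (f₀ : V → V → ℝ) (E₀ B₀ : V → V) (f : ℝ → V → V → ℝ) (E B : ℝ → V → V) :
    Prop where
  c1f : C1Den f
  c1E : C1Fld E
  c1B : C1Fld B
  nonneg : ∀ t, 0 ≤ t → ∀ x v, 0 ≤ f t x v
  vlasov : ∀ t, 0 ≤ t → ∀ x v, Vlasov f E B t x v
  maxwell : ∀ t, 0 ≤ t → ∀ x, Maxwell f E B t x
  initf : f 0 = f₀
  initE : E 0 = E₀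
  initB : B 0 = B₀
  l2E : L2Cont E
  l2B : L2Cont B
  supp : ∀ T : ℝ, ∃ R : ℝ, ∀ t ∈ Icc 0 T, ∀ x v, f t x v ≠ 0 → ‖x‖ ≤ R ∧ ‖v‖ ≤ R

end

end Vale.Agent.P107
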