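import Vale.Agent.P107.Sys

/-! Sums over dyadic boxes. -/

namespace Vale.Agent.P107

open MeasureTheory Set Filter Topology
open scoped ENNReal RealInnerProductSpace

noncomputable section

/-- Indices of dyadic boxes. -/
abbrev Ix : Type := ℕ × ℕ × ℕ × ℕ × ℕ

/-- The dyadic boxes. -/
def box (T1 : ℝ) (i : Ix) : Box where
  p := 2 ^ i.1
  a := (1 / 2) ^ i.2.1
  b := (1 / 2) ^ i.2.2.1
  c := (1 / 2) ^ i.2.2.2.1
  R := T1 * (1 / 2) ^ (i.2.2.2.2 + 1)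

/-- The boxes that can be met. -/
def Idx (T1 P : ℝ) : Set Ix :=
  {i | (box T1 i).p ≤ P ∧ 1 ≤ 4 * P ^ 2 * (box T1 i).a ∧ 1 ≤ 4 * P ^ 2 * (box T1 i).b ∧
    1 ≤ 4 * P ^ 2 * (box T1 i).c}

/-- The summable weight in the angles. -/
def wt (θ a b c : ℝ) : ℝ := (a * c) ^ (1 / 100 : ℝ) * (min (b / (θ * a)) (θ * a / b)) ^ (1 / 100 : ℝ)

/-- The summable weight in the distance. -/
def mn (R ρ : ℝ) : ℝ := min (√(R / ρ)) (√(ρ / R))

theorem box_pos {T1 : ℝ} (h : 0 < T1) (i : Ix) : (box T1 i).Pos := by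
  refine ⟨one_le_pow₀ one_le_two, ?_, ?_, ?_, ?_⟩ <;> simp only [box] <;> positivity

theorem sum_half {x : ℝ} (h0 : 0 < x) (h2 : x ≤ 2) :
    ∃ j : ℕ, (1 / 2 : ℝ) ^ j ≤ x ∧ x ≤ 2 * (1 / 2 : ℝ) ^ j := by
  obtain ⟨n, h1, h3⟩ := exists_nat_pow_near_of_lt_one (x := x / 2) (y := 1 / 2) (by positivity)
    (by linarith) (by norm_num) (by norm_num)
  rw [pow_succ] at h1
  exact ⟨n, by linarith, by linarith⟩

theorem exists_box {T1 P p a b c R : ℝ} (hp : 1 ≤ p) (hp' : p ≤ P) (hR : 0 < R) (hR' : R ≤ T1)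
    (ha : 1 ≤ 2 * P ^ 2 * a) (ha' : a ≤ 2) (hb : 1 ≤ 2 * P ^ 2 * b) (hb' : b ≤ 2)
    (hc : 1 ≤ 2 * P ^ 2 * c) (hc' : c ≤ 2) : ∃ i ∈ Idx T1 P, (box T1 i).Mem p a b c R := by
  have hP : 0 < 2 * P ^ 2 := by have : 0 < P := by linarith
                                positivity
  have hT : 0 < T1 := hR.trans_le hR'
  have key : ∀ x : ℝ, 1 ≤ 2 * P ^ 2 * x → x ≤ 2 → ∃ j : ℕ, (1 / 2 : ℝ) ^ j ≤ x ∧
      x ≤ 2 * (1 / 2 : ℝ) ^ j ∧ 1 ≤ 4 * P ^ 2 * (1 / 2 : ℝ) ^ j := fun x h1 h2 => by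
    obtain ⟨j, h3, h4⟩ := sum_half ((mul_pos_iff_of_pos_left hP).1 (by linarith)) h2
    exact ⟨j, h3, h4, by nlinarith⟩
  obtain ⟨i, i1, i2⟩ := exists_nat_pow_near hp (one_lt_two (α := ℝ))
  obtain ⟨j, j1, j2, j3⟩ := key a ha ha'
  obtain ⟨k, k1, k2, k3⟩ := key b hb hb'
  obtain ⟨l, l1, l2, l3⟩ := key c hc hc'
  obtain ⟨m, m1, m2⟩ := sum_half (x := 2 * R / T1) (by positivity)
    ((div_le_iff₀ hT).2 (by linarith))
  rw [le_div_iff₀ hT] at m1
  rw [div_le_iff₀ hT] at m2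
  rw [pow_succ] at i2
  refine ⟨(i, j, k, l, m), ⟨i1.trans hp', j3, k3, l3⟩, i1, ?_, j1, j2, k1, k2, l1, l2, ?_, ?_⟩ <;>
    simp only [box, pow_succ] <;> linarith

theorem sum_tel {f φ : ℕ → ℝ} (hf : ∀ k, 0 ≤ f k) (hφ : ∀ k, 0 ≤ φ k)
    (h : ∀ k, f k ≤ φ k - φ (k + 1)) : ∑' k, ENNReal.ofReal (f k) ≤ ENNReal.ofReal (φ 0) := by
  refine ENNReal.tsum_le_of_sum_range_le fun n => ?_
  rw [← ENNReal.ofReal_sum_of_nonneg fun k _ => hf k]
  refine ENNReal.ofReal_le_ofReal ((Finset.sum_le_sum fun k _ => h k).trans ?_)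
  rw [Finset.sum_range_sub']
  linarith [hφ n]

theorem sum_geo {y : ℕ → ℝ} {r : ℝ} (h0 : 0 ≤ r) (h1 : r < 1) (hy : ∀ k, 0 < y k)
    (hr : ∀ k, y (k + 1) = r * y k) :
    ∑' k, ENNReal.ofReal (min (y k) (y k)⁻¹) ≤ ENNReal.ofReal (4 / (1 - r)) := by
  have hd : 0 < 1 - r := by linarith
  refine (sum_tel (φ := fun k => 4 / (1 - r) * (y k / (1 + y k)))
    (fun k => (lt_min (hy k) (inv_pos.2 (hy k))).le)
    (fun k => by have := hy k; positivity) fun k => ?_).trans (ENNReal.ofReal_le_ofReal ?_)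
  · have hk := hy k
    have e : 4 / (1 - r) * (y k / (1 + y k)) - 4 / (1 - r) * (y (k + 1) / (1 + y (k + 1))) =
        4 * y k / ((1 + y k) * (1 + r * y k)) := by
      rw [hr k]; field_simp; ring
    rw [e, le_div_iff₀ (by positivity)]
    have h2 : (1 + y k) * (1 + r * y k) ≤ (1 + y k) ^ 2 := by nlinarith [mul_pos hd hk]
    have h3 : 0 ≤ min (y k) (y k)⁻¹ := (lt_min hk (inv_pos.2 hk)).le
    refine (mul_le_mul_of_nonneg_left h2 h3).trans ?_
    rcases le_total (y k) 1 with h | h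
    · have h4 : (1 + y k) ^ 2 ≤ 4 := by nlinarith
      nlinarith [min_le_left (y k) (y k)⁻¹]
    · have h4 : (1 + y k) ^ 2 ≤ 4 * y k * y k := by nlinarith
      refine (mul_le_mul (min_le_right _ _) h4 (by positivity) (by positivity)).trans
        (le_of_eq ?_)
      field_simp
  · have hk := hy 0
    exact mul_le_of_le_one_right (by positivity) ((div_le_one (by positivity)).2 (by linarith))

theorem sum_log {y : ℕ → ℝ} {r : ℝ} (h0 : 0 ≤ r) (h1 : r < 1) (hy : ∀ k, 0 ≤ y k)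
    (hr : ∀ k, y (k + 1) = r * y k) :
    ∑' k, ENNReal.ofReal (min 1 (y k)) ≤ ENNReal.ofReal (2 / (1 - r) * Real.log (1 + y 0)) := by
  have hd : 0 < 1 - r := by linarith
  refine sum_tel (φ := fun k => 2 / (1 - r) * Real.log (1 + y k))
    (fun k => le_min zero_le_one (hy k))
    (fun k => mul_nonneg (by positivity) (Real.log_nonneg (by linarith [hy k]))) fun k => ?_
  have hk := hy k
  have h2 := Real.log_le_sub_one_of_pos (x := (1 + r * y k) / (1 + y k)) (by positivity)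
  rw [Real.log_div (by positivity) (by positivity)] at h2
  have e : 2 / (1 - r) * (1 - (1 + r * y k) / (1 + y k)) = 2 * y k / (1 + y k) := by
    field_simp; ring
  have h3 : min 1 (y k) ≤ 2 * y k / (1 + y k) := by
    rw [le_div_iff₀ (by positivity)]
    rcases le_total 1 (y k) with h | h
    · rw [min_eq_left h]; linarith
    · rw [min_eq_right h]; nlinarith
  rw [hr k, ← mul_sub]
  refine h3.trans (e ▸ mul_le_mul_of_nonneg_left (by linarith) (by positivity))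

theorem sum_cut {P G : ℝ} {g : ℕ → ℝ} (hg : ∀ i, 0 ≤ g i)
    (h : ∀ n : ℕ, (2 : ℝ) ^ n ≤ P → ∑ i ∈ Finset.range (n + 1), g i ≤ G) :
    ∑' i : ℕ, (if (2 : ℝ) ^ i ≤ P then ENNReal.ofReal (g i) else 0) ≤ ENNReal.ofReal G := by
  refine ENNReal.tsum_le_of_sum_range_le fun n => ?_
  induction n with
  | zero => simp
  | succ n ih =>
    by_cases hn : (2 : ℝ) ^ n ≤ P
    · refine le_trans (Finset.sum_le_sum fun i _ => ?_) ((ENNReal.ofReal_sum_of_nonneg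
        fun i _ => hg i).ge.trans (ENNReal.ofReal_le_ofReal (h n hn)))
      split_ifs <;> simp
    · rw [Finset.sum_range_succ, if_neg hn, add_zero]; exact ih

theorem sum_cnt {P X : ℝ} (hP : 1 ≤ P) (hl : 1 ≤ Real.log P) (hX : X ≤ 4 * P ^ 2) :
    ∑' i : ℕ, (if (2 : ℝ) ^ i ≤ X then (1 : ℝ≥0∞) else 0) ≤ ENNReal.ofReal (9 * Real.log P) := by
  have h := sum_cut (P := X) (G := 9 * Real.log P) (g := fun _ => 1) (fun _ => zero_le_one)
    fun n hn => by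
      have h1 := Real.log_le_log (by positivity) (hn.trans hX)
      rw [Real.log_pow, Real.log_mul (by norm_num) (by positivity), Real.log_pow,
        show (4 : ℝ) = 2 ^ 2 by norm_num, Real.log_pow] at h1
      have h2 := Real.log_two_gt_d9
      have h3 := Real.log_two_lt_d9
      have h4 : (0 : ℝ) ≤ n := n.cast_nonneg
      simp only [Finset.sum_const, Finset.card_range, nsmul_eq_mul, mul_one]
      push_cast at h1 ⊢
      nlinarith
  simpa using h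

theorem sum_sqrt_lt : √(1 / 2 : ℝ) ≤ 3 / 4 := by
  rw [Real.sqrt_le_left (by norm_num)]; norm_num

theorem sum_half_iff {P : ℝ} {j : ℕ} (h : 1 ≤ 4 * P ^ 2 * (1 / 2 : ℝ) ^ j) :
    (2 : ℝ) ^ j ≤ 4 * P ^ 2 := by
  rwa [one_div, inv_pow, ← div_eq_mul_inv, one_le_div (by positivity)] at h

theorem sum_one : ∃ C : ℝ, 1 ≤ C ∧ ∀ (T1 P α : ℝ), 1 ≤ T1 → 1 ≤ P → 1 ≤ Real.log P → 0 ≤ α →
    ∑' i : Idx T1 P, ENNReal.ofReal (min α (α * (P ^ 11 * √(box T1 i).R))) ≤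
      ENNReal.ofReal (C * T1 * Real.log P ^ 5 * α) := by
  refine ⟨9 ^ 4 * 104, by norm_num, fun T1 P α hT hP hl hα => ?_⟩
  set y : ℕ → ℝ := fun m => P ^ 11 * √(T1 * (1 / 2) ^ (m + 1)) with hy
  have h1 : ∑' m, ENNReal.ofReal (min 1 (y m)) ≤ ENNReal.ofReal (104 * T1 * Real.log P) := by
    refine (sum_log (r := √(1 / 2)) (Real.sqrt_nonneg _) (by linarith [sum_sqrt_lt])
      (fun k => by positivity) fun k => ?_).trans (ENNReal.ofReal_le_ofReal ?_)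
    · simp only [hy]
      rw [mul_left_comm, ← Real.sqrt_mul (by norm_num)]
      congr 2; ring
    · have a1 : √(T1 * (1 / 2) ^ (0 + 1)) ≤ T1 := by
        rw [Real.sqrt_le_left (by linarith)]; nlinarith
      have a2 : 1 ≤ P ^ 11 := one_le_pow₀ hP
      have a3 : 1 + y 0 ≤ 2 * (P ^ 11 * T1) := by
        have := mul_le_mul_of_nonneg_left a1 (zero_le_one.trans a2)
        simp only [hy]; nlinarith
      have a4 := Real.log_le_log (by positivity) a3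
      rw [Real.log_mul (by norm_num) (by positivity), Real.log_mul (by positivity) (by positivity),
        Real.log_pow] at a4
      have a5 := Real.log_le_sub_one_of_pos (x := T1) (by linarith)
      have a6 := Real.log_two_lt_d9
      have a7 : 2 / (1 - √(1 / 2 : ℝ)) ≤ 8 := by
        rw [div_le_iff₀ (by linarith [sum_sqrt_lt])]; linarith [sum_sqrt_lt]
      have a8 : Real.log (1 + y 0) ≤ 13 * T1 * Real.log P := by
        push_cast at a4; nlinarith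
      have a9 : 0 ≤ Real.log (1 + y 0) := Real.log_nonneg (by have : 0 ≤ y 0 := by positivity
                                                              linarith)
      nlinarith
  set e : ℕ → ℝ≥0∞ := fun i => if (2 : ℝ) ^ i ≤ 4 * P ^ 2 then 1 else 0 with he
  have h2 : ∑' i, e i ≤ ENNReal.ofReal (9 * Real.log P) := sum_cnt hP hl le_rfl
  have h3 : ∑' i : Idx T1 P, ENNReal.ofReal (min α (α * (P ^ 11 * √(box T1 i).R))) ≤
      ∑' i : Ix, e i.1 * (e i.2.1 * (e i.2.2.1 * (e i.2.2.2.1 *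
        (ENNReal.ofReal α * ENNReal.ofReal (min 1 (y i.2.2.2.2)))))) := by
    refine le_trans (ENNReal.tsum_le_tsum fun i => ?_)
      (ENNReal.tsum_comp_le_tsum_of_injective Subtype.val_injective _)
    obtain ⟨i1, i2, i3, i4⟩ := i.2
    have i0 : (2 : ℝ) ^ i.1.1 ≤ 4 * P ^ 2 := le_trans i1 (by nlinarith)
    simp only [he, if_pos i0, if_pos (sum_half_iff i2), if_pos (sum_half_iff i3),
      if_pos (sum_half_iff i4), one_mul]
    rw [← ENNReal.ofReal_mul hα, mul_min_of_nonneg _ _ hα, mul_one]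
    rfl
  refine h3.trans ?_
  simp only [ENNReal.tsum_prod', ENNReal.tsum_mul_left, ENNReal.tsum_mul_right]
  have hL : 0 ≤ 9 * Real.log P := by linarith
  refine (mul_le_mul' h2 (mul_le_mul' h2 (mul_le_mul' h2 (mul_le_mul' h2
    (mul_le_mul' le_rfl h1))))).trans (le_of_eq ?_)
  rw [← ENNReal.ofReal_mul hα, ← ENNReal.ofReal_mul hL, ← ENNReal.ofReal_mul hL,
    ← ENNReal.ofReal_mul hL, ← ENNReal.ofReal_mul hL]
  congr 1; ring

theorem sum_mn : ∃ C : ℝ, 1 ≤ C ∧ ∀ (T1 ρ : ℝ), 0 < T1 → 0 < ρ →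
    ∑' m : ℕ, ENNReal.ofReal (mn (T1 * (1 / 2) ^ (m + 1)) ρ) ≤ ENNReal.ofReal C := by
  refine ⟨16, by norm_num, fun T1 ρ hT hρ => ?_⟩
  have h := sum_geo (y := fun m => √(T1 * (1 / 2) ^ (m + 1) / ρ)) (r := √(1 / 2))
    (Real.sqrt_nonneg _) (by linarith [sum_sqrt_lt]) (fun k => by positivity) fun k => by
      rw [← Real.sqrt_mul (by norm_num)]
      congr 1; ring
  simp only [← Real.sqrt_inv, inv_div] at h
  refine h.trans (ENNReal.ofReal_le_ofReal ?_)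
  rw [div_le_iff₀ (by linarith [sum_sqrt_lt])]; linarith [sum_sqrt_lt]

theorem sum_wt : ∃ C : ℝ, 1 ≤ C ∧ ∀ θ : ℝ, 0 < θ →
    ∑' j : ℕ × ℕ × ℕ, ENNReal.ofReal (wt θ ((1 / 2) ^ j.1) ((1 / 2) ^ j.2.1) ((1 / 2) ^ j.2.2)) ≤
      ENNReal.ofReal C := by
  set r : ℝ := (1 / 2 : ℝ) ^ (1 / 100 : ℝ) with hr
  have r0 : 0 ≤ r := by positivity
  have r1 : r < 1 := Real.rpow_lt_one (by norm_num) (by norm_num) (by norm_num)
  have hD : 1 ≤ 4 / (1 - r) := by rw [le_div_iff₀ (by linarith)]; linarith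
  have key : ∀ x : ℝ, 0 < x → ∑' k : ℕ, ENNReal.ofReal
      (min ((1 / 2) ^ k / x) (x / (1 / 2) ^ k) ^ (1 / 100 : ℝ)) ≤ ENNReal.ofReal (4 / (1 - r)) := by
    intro x hx
    refine le_trans (ENNReal.tsum_le_tsum fun k => ENNReal.ofReal_le_ofReal ?_)
      (sum_geo (y := fun k => ((1 / 2) ^ k / x) ^ (1 / 100 : ℝ)) r0 r1 (fun k => by positivity)
        fun k => ?_)
    · refine le_min (Real.rpow_le_rpow (by positivity) (min_le_left _ _) (by norm_num)) ?_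
      rw [← Real.inv_rpow (by positivity), inv_div]
      exact Real.rpow_le_rpow (by positivity) (min_le_right _ _) (by norm_num)
    · rw [hr, ← Real.mul_rpow (by norm_num) (by positivity)]
      congr 1; ring
  have k1 : ∑' k : ℕ, ENNReal.ofReal (((1 / 2 : ℝ) ^ k) ^ (1 / 100 : ℝ)) ≤
      ENNReal.ofReal (4 / (1 - r)) := by
    refine le_trans (ENNReal.tsum_le_tsum fun k => le_of_eq ?_) (key 1 one_pos)
    have a1 : (1 / 2 : ℝ) ^ k ≤ 1 := pow_le_one₀ (by norm_num) (by norm_num)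
    rw [div_one, min_eq_left (a1.trans ((one_le_div (by positivity)).2 a1))]
  refine ⟨(4 / (1 - r)) ^ 3, one_le_pow₀ hD, fun θ hθ => ?_⟩
  have h1 : ∀ i j k : ℕ, ENNReal.ofReal (wt θ ((1 / 2) ^ i) ((1 / 2) ^ j) ((1 / 2) ^ k)) =
      ENNReal.ofReal (((1 / 2 : ℝ) ^ i) ^ (1 / 100 : ℝ)) * (ENNReal.ofReal
        (min ((1 / 2) ^ j / (θ * (1 / 2) ^ i)) (θ * (1 / 2) ^ i / (1 / 2) ^ j) ^ (1 / 100 : ℝ)) *
        ENNReal.ofReal (((1 / 2 : ℝ) ^ k) ^ (1 / 100 : ℝ))) := fun i j k => by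
    rw [← ENNReal.ofReal_mul (by positivity), ← ENNReal.ofReal_mul (by positivity), wt,
      Real.mul_rpow (by positivity) (by positivity)]
    congr 1; ring
  simp only [h1, ENNReal.tsum_prod', ENNReal.tsum_mul_left, ENNReal.tsum_mul_right]
  refine (ENNReal.tsum_le_tsum fun i => mul_le_mul' le_rfl
    (mul_le_mul' (key _ (by positivity)) k1)).trans ?_
  rw [ENNReal.tsum_mul_right]
  refine (mul_le_mul' k1 le_rfl).trans (le_of_eq ?_)
  rw [ENNReal.ofReal_pow (by linarith)]; ring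

theorem sum_two : ∃ C : ℝ, 1 ≤ C ∧ ∀ (T1 P θ G : ℝ) (g : ℝ → ℝ) (ρ : ℝ → ℝ → ℝ → ℝ → ℝ),
    0 < T1 → 0 < θ → 0 ≤ G → (∀ p, 0 < p → 0 ≤ g p) →
    (∀ p a b c, 0 < p → 0 < a → 0 < b → 0 < c → 0 < ρ p a b c) →
    (∀ n : ℕ, (2 : ℝ) ^ n ≤ P → ∑ i ∈ Finset.range (n + 1), g (2 ^ i) ≤ G) →
    ∑' i : Idx T1 P, ENNReal.ofReal (g (box T1 i).p * wt θ (box T1 i).a (box T1 i).b (box T1 i).c *
      mn (box T1 i).R (ρ (box T1 i).p (box T1 i).a (box T1 i).b (box T1 i).c)) ≤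
      ENNReal.ofReal (C * G) := by
  obtain ⟨C1, c1, h1⟩ := sum_mn
  obtain ⟨C2, c2, h2⟩ := sum_wt
  refine ⟨C2 * C1, one_le_mul_of_one_le_of_one_le c2 c1, fun T1 P θ G g ρ hT hθ hG hg hρ hs => ?_⟩
  set e : ℕ → ℝ≥0∞ := fun i => if (2 : ℝ) ^ i ≤ P then ENNReal.ofReal (g (2 ^ i)) else 0 with he
  have h3 : ∑' i, e i ≤ ENNReal.ofReal G := sum_cut (fun i => hg _ (by positivity)) hs
  have h4 : ∑' i : Idx T1 P, ENNReal.ofReal (g (box T1 i).p *
      wt θ (box T1 i).a (box T1 i).b (box T1 i).c *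
      mn (box T1 i).R (ρ (box T1 i).p (box T1 i).a (box T1 i).b (box T1 i).c)) ≤
      ∑' i : Ix, e i.1 * (ENNReal.ofReal (wt θ ((1 / 2) ^ i.2.1) ((1 / 2) ^ i.2.2.1)
        ((1 / 2) ^ i.2.2.2.1)) * ENNReal.ofReal (mn (T1 * (1 / 2) ^ (i.2.2.2.2 + 1))
          (ρ (2 ^ i.1) ((1 / 2) ^ i.2.1) ((1 / 2) ^ i.2.2.1) ((1 / 2) ^ i.2.2.2.1)))) := by
    refine le_trans (ENNReal.tsum_le_tsum fun i => ?_)
      (ENNReal.tsum_comp_le_tsum_of_injective Subtype.val_injective _)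
    have i0 : (2 : ℝ) ^ i.1.1 ≤ P := i.2.1
    simp only [he, if_pos i0]
    rw [← ENNReal.ofReal_mul (by unfold wt; positivity),
      ← ENNReal.ofReal_mul (hg _ (by positivity)), ← mul_assoc]
    rfl
  refine h4.trans ?_
  have h5 := h2 θ hθ
  simp only [ENNReal.tsum_prod', ENNReal.tsum_mul_left] at h5 ⊢
  refine (ENNReal.tsum_le_tsum fun i => mul_le_mul' le_rfl (ENNReal.tsum_le_tsum fun j =>
    ENNReal.tsum_le_tsum fun k => ENNReal.tsum_le_tsum fun l => mul_le_mul' le_rfl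
      (h1 T1 _ hT (hρ _ _ _ _ (by positivity) (by positivity) (by positivity)
        (by positivity))))).trans ?_
  simp only [ENNReal.tsum_mul_right]
  refine (mul_le_mul' h3 (mul_le_mul' h5 le_rfl)).trans (le_of_eq ?_)
  rw [← ENNReal.ofReal_mul (by linarith), ← ENNReal.ofReal_mul hG, mul_comm]

end

end Vale.Agent.P107
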