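import Vale.Agent.P107.Ret

/-! The Lagrangian description of a classical solution used by the a priori estimate. -/

namespace Vale.Agent.P107

open MeasureTheory Set Filter Topology
open scoped ENNReal RealInnerProductSpace

noncomputable section

/-- Phase space. -/
abbrev Z : Type := V × V

/-- The force exerted at `(s, x)` on a test velocity `u` by the charge with world line `Y`,
momentum `W`, moving in the fields `E`, `B`; only positive retarded times count. -/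
def ker (Y W : ℝ → V) (E B : ℝ → V → V) (s : ℝ) (x u : V) : V :=
  if 0 < ret Y s x then
    kT u (W (ret Y s x)) (x - Y (ret Y s x)) +
      kS u (W (ret Y s x))
        (lor (E (ret Y s x) (Y (ret Y s x))) (B (ret Y s x) (Y (ret Y s x))) (W (ret Y s x)))
        (x - Y (ret Y s x))
  else 0

/-- A solution on `[0, T]` seen along its characteristics. -/
structure Sys (T F0 En C0 P0 : ℝ) where
  ν : Measure Z
  S : Set Z
  Y : Z → ℝ → V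
  W : Z → ℝ → V
  E : ℝ → V → V
  B : ℝ → V → V
  Λ : ℝ
  fin : IsFiniteMeasure ν
  mS : MeasurableSet S
  νS : ν Sᶜ = 0
  tm : ∀ z, Tm (Y z) (W z)
  mY : Measurable (fun p : Z × ℝ => Y p.1 p.2)
  mW : Measurable (fun p : Z × ℝ => W p.1 p.2)
  cE : Continuous (fun p : ℝ × V => E p.1 p.2)
  cB : Continuous (fun p : ℝ × V => B p.1 p.2)
  bE : ∀ t x, ‖E t x‖ ≤ Λ
  bB : ∀ t x, ‖B t x‖ ≤ Λ
  hW : ∀ z s, 0 < s → HasDerivAt (W z) (lor (E s (Y z s)) (B s (Y z s)) (W z s)) s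
  init : ∀ z ∈ S, q (W z 0) ≤ P0
  cone : ∀ (s : ℝ) (x : V) (Φ : Z → ℝ≥0∞), Measurable Φ →
    ∫⁻ z, Φ (Y z (ret (Y z) s x), W z (ret (Y z) s x)) ∂ν ≤
      ENNReal.ofReal F0 * ∫⁻ y, ∫⁻ v, ENNReal.ofReal (ang (vel v) (nrm (x - y))) * Φ (y, v)
  enP : ∀ s ∈ Icc 0 T, ∫⁻ z, ENNReal.ofReal (q (W z s)) ∂ν ≤ ENNReal.ofReal En
  enB : ∀ s ∈ Icc 0 T, ∫⁻ y, ENNReal.ofReal (‖B s y‖ ^ 2) ≤ ENNReal.ofReal En
  flP : ∀ s ∈ Icc 0 T, ∀ x : V, ∫⁻ z in {z | 0 < ret (Y z) s x},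
    ENNReal.ofReal (q (W z (ret (Y z) s x))) ∂ν ≤ ENNReal.ofReal En
  flK : ∀ s ∈ Icc 0 T, ∀ x : V, ∫⁻ y in Metric.ball x s, ENNReal.ofReal
    (‖E (s - ‖x - y‖) y + cross (nrm (x - y)) (B (s - ‖x - y‖) y)‖ ^ 2) ≤ ENNReal.ofReal En
  rep : ∀ s ∈ Icc 0 T, ∀ x U : V,
    ‖lor (E s x) (B s x) U - ∫ z, ker (Y z) (W z) E B s x (vel U) ∂ν‖ ≤ C0

/-- Length of the time intervals on which a momentum of size `Q` is controlled. -/
def uu (c0 P Q : ℝ) : ℝ := c0 * Q ^ 2 / (P * (P + Real.log P * Q))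

/-- The oscillation threshold. -/
def eta (P Q : ℝ) : ℝ := P ^ (1 / 10 : ℝ) * Q ^ (1 / 4 : ℝ)

/-- Control of the truncated variation of `W` on `[s1, s2]`. -/
def Ctl (W : ℝ → V) (s1 s2 η X : ℝ) : Prop :=
  ∃ g : ℝ → ℝ, Continuous g ∧ Monotone g ∧
    (∀ r r', s1 ≤ r → r ≤ r' → r' ≤ s2 → ‖W r' - W r‖ ≤ η + (g r' - g r)) ∧ g s2 - g s1 ≤ X

/-- The bootstrap hypothesis up to time `t`. -/
def Hyp {T F0 En C0 P0 : ℝ} (S : Sys T F0 En C0 P0) (c0 P t X : ℝ) : Prop :=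
  ∀ z ∈ S.S, ∀ s1 ∈ Icc 0 t, P ^ (11 / 20 : ℝ) ≤ q (S.W z s1) →
    Ctl (S.W z) s1 (min t (s1 + uu c0 P (q (S.W z s1)))) (eta P (q (S.W z s1))) (X * q (S.W z s1))

/-- Numerical standing assumptions. -/
structure Num (T1 F0 En C0 P0 c0 P : ℝ) : Prop where
  hT1 : 1 ≤ T1
  hF0 : 1 ≤ F0
  hEn : 1 ≤ En
  hC0 : 0 ≤ C0
  hc0 : 0 < c0
  hc1 : c0 ≤ 1
  hP1 : (10 : ℝ) ^ 6 ≤ P ^ (1 / 100 : ℝ)
  hP2 : 1 ≤ P
  hP0 : P0 < P ^ (11 / 20 : ℝ)

/-- The data of one bootstrap step: a solution, a test particle and a starting time. -/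
structure Ctx (T1 F0 En C0 P0 c0 P : ℝ) where
  T : ℝ
  S : Sys T F0 En C0 P0
  t : ℝ
  z0 : Z
  s1 : ℝ
  num : Num T1 F0 En C0 P0 c0 P
  hT : T ≤ T1
  ht : t ≤ T
  hs0 : 0 ≤ s1
  hs1 : s1 ≤ t
  hz : z0 ∈ S.S
  hP : ∀ z ∈ S.S, ∀ s, s ≤ t → q (S.W z s) ≤ P
  hQ : P ^ (11 / 20 : ℝ) ≤ q (S.W z0 s1)
  hyp : Hyp S c0 P t (1 / 100)

/-- Parameters of the cutoff. -/
structure Par where
  th : ℝ
  am : ℝ
  yy : ℝ
  pm : ℝ
  r0 : ℝ
  τ : ℝ
  δ : ℝ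

/-- Admissible parameters. -/
structure Par.Ok (π : Par) : Prop where
  th0 : 0 < π.th
  th1 : π.th ≤ 1 / 1000
  am0 : 0 < π.am
  yy0 : 0 < π.yy
  pm0 : 0 < π.pm
  r00 : 0 < π.r0
  τ0 : 0 < π.τ
  δ0 : 0 < π.δ
  δ1 : 100 * π.δ ^ 2 ≤ π.am

/-- Part of the direct region. -/
def RDir (π : Par) (p a b R : ℝ) : Prop :=
  a ≤ 4 * π.am ∨ π.yy * (π.τ + R) ≤ p ^ 2 * b * R ^ 2 ∨ p ≤ 2 * π.pm ∨ R ≤ 2 * π.r0

/-- The other part of the direct region. -/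
def RNr (π : Par) (a b : ℝ) : Prop := π.th * a ≤ 2 * b

/-- The transfer region. -/
def RTr (π : Par) (p a b R : ℝ) : Prop :=
  b ≤ 4 * π.th * a ∧ π.am ≤ 2 * a ∧ p ^ 2 * b * R ^ 2 ≤ 2 * π.yy * (π.τ + R) ∧ π.pm ≤ p ∧ π.r0 ≤ R

/-- Size of the velocity kernel. -/
def bT (p a b R : ℝ) : ℝ := √b * (√a + √b) / (p ^ 2 * b ^ 3 * R ^ 2)

/-- Size of the acceleration kernel per unit force. -/
def bS (p a b R : ℝ) : ℝ := √a / (p * b ^ 2 * R)

/-- Size of the geometric error kernel. -/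
def bG (a b R : ℝ) : ℝ := √a / (b * √b * R ^ 2)

/-- Size of the boundary kernel. -/
def bH (a b R : ℝ) : ℝ := 1 / (√a * √b * R)

/-- Size of the derivative of the boundary kernel in the test velocity. -/
def bL (a b R : ℝ) : ℝ := 1 / (a * √b * R)

open Classical in
/-- The majorant of the force after the integration by parts; `f` is the size of the force on the
source. -/
def psi (π : Par) (p a b R f : ℝ) : ℝ :=
  (if RDir π p a b R ∨ RNr π a b then bT p a b R + bS p a b R * f else 0) +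
    (if RTr π p a b R then π.δ / √a * (bS p a b R * f + bG a b R) else 0) +
    (if RTr π p a b R ∧ (RDir π p a b R ∨ RNr π a b) then bG a b R else 0)

/-- A dyadic box. -/
structure Box where
  p : ℝ
  a : ℝ
  b : ℝ
  c : ℝ
  R : ℝ

/-- Boxes with positive corners. -/
structure Box.Pos (d : Box) : Prop where
  p : 1 ≤ d.p
  a : 0 < d.a
  b : 0 < d.b
  c : 0 < d.c
  R : 0 < d.R

/-- Membership in a box. -/
structure Box.Mem (d : Box) (p a b c R : ℝ) : Prop where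
  p1 : d.p ≤ p
  p2 : p ≤ 2 * d.p
  a1 : d.a ≤ a
  a2 : a ≤ 2 * d.a
  b1 : d.b ≤ b
  b2 : b ≤ 2 * d.b
  c1 : d.c ≤ c
  c2 : c ≤ 2 * d.c
  R1 : d.R ≤ R
  R2 : R ≤ 2 * d.R

namespace Ctx

variable {T1 F0 En C0 P0 c0 P : ℝ} (x : Ctx T1 F0 En C0 P0 c0 P)

/-- Position of the test particle. -/
def X (s : ℝ) : V := x.S.Y x.z0 s

/-- Momentum of the test particle. -/
def U (s : ℝ) : V := x.S.W x.z0 s

/-- Energy level of the test particle. -/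
def Q : ℝ := q (x.U x.s1)

/-- Length scale of the test interval. -/
def τ : ℝ := uu c0 P x.Q

/-- End of the test interval. -/
def s2 : ℝ := min x.t (x.s1 + x.τ)

/-- Oscillation threshold of the test particle. -/
def η : ℝ := eta P x.Q

/-- Retarded time of the source `z`. -/
def sg (s : ℝ) (z : Z) : ℝ := ret (x.S.Y z) s (x.X s)

/-- Retarded displacement. -/
def el (s : ℝ) (z : Z) : V := x.X s - x.S.Y z (x.sg s z)

/-- Retarded momentum of the source. -/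
def Ws (s : ℝ) (z : Z) : V := x.S.W z (x.sg s z)

/-- Force on the source at the retarded time. -/
def Fs (s : ℝ) (z : Z) : V :=
  lor (x.S.E (x.sg s z) (x.S.Y z (x.sg s z))) (x.S.B (x.sg s z) (x.S.Y z (x.sg s z))) (x.Ws s z)

/-- `p`. -/
def pp (s : ℝ) (z : Z) : ℝ := q (x.Ws s z)

/-- `a`. -/
def pa (s : ℝ) (z : Z) : ℝ := ang (vel (x.U s)) (nrm (x.el s z))

/-- `b`. -/
def pb (s : ℝ) (z : Z) : ℝ := ang (vel (x.Ws s z)) (nrm (x.el s z))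

/-- `c`. -/
def pc (s : ℝ) (z : Z) : ℝ := ang (vel (x.U s)) (vel (x.Ws s z))

/-- `R`. -/
def pR (s : ℝ) (z : Z) : ℝ := ‖x.el s z‖

/-- The parameters of the cutoff. -/
def par : Par where
  th := (x.Q / P) ^ (3 / 2 : ℝ) / 1000
  am := P ^ (1 / 25 : ℝ) * (x.η / x.Q) ^ 2
  yy := P ^ (1 / 50 : ℝ)
  pm := P ^ (11 / 20 : ℝ)
  r0 := P ^ (-10 : ℝ)
  τ := x.τ
  δ := 8 * x.η / x.Q

/-- Active pairs. -/
def act : Set (ℝ × Z) :=
  {w | w.1 ∈ Icc x.s1 x.s2 ∧ w.2 ∈ x.S.S ∧ 0 < x.sg w.1 w.2 ∧ 0 < x.pR w.1 w.2}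

/-- Active pairs in a box. -/
def piece (d : Box) : Set (ℝ × Z) :=
  {w | w ∈ x.act ∧
    d.Mem (x.pp w.1 w.2) (x.pa w.1 w.2) (x.pb w.1 w.2) (x.pc w.1 w.2) (x.pR w.1 w.2)}

/-- The measure on pairs. -/
def m : Measure (ℝ × Z) := (volume : Measure ℝ).prod x.S.ν

/-- Occupancy of a box. -/
def O (d : Box) : ℝ := (x.m (x.piece d)).toReal

/-- Mass of a box at a fixed time. -/
def Ms (s : ℝ) (d : Box) : ℝ := (x.S.ν {z | (s, z) ∈ x.piece d}).toReal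

/-- The majorant on pairs. -/
def Psi (w : ℝ × Z) : ℝ :=
  psi x.par (x.pp w.1 w.2) (x.pa w.1 w.2) (x.pb w.1 w.2) (x.pR w.1 w.2) ‖x.Fs w.1 w.2‖

/-- Boxes on which the kinematic bound is available. -/
def Stable (d : Box) : Prop :=
  2 * P ^ (11 / 20 : ℝ) ≤ d.p ∧ eta P (4 * d.p) ≤ d.p * √d.c / 1000 ∧ x.η ≤ x.Q * √d.c / 1000

end Ctx

end

end Vale.Agent.P107
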