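import Vale.Agent.P107.Piece

/-! The total contribution of all boxes. -/

namespace Vale.Agent.P107

open MeasureTheory Set Filter Topology
open scoped ENNReal RealInnerProductSpace

noncomputable section

theorem eventually_small (A c0 ε : ℝ) (hc : 0 < c0) (hε : 0 < ε) : ∃ P1 : ℝ, ∀ P, P1 ≤ P →
    A * Real.log P ^ 5 * ((A * Real.log P / c0) ^ 102 * P ^ (-1 / 200 : ℝ)) ≤ ε := by
  have h := ((isLittleO_log_rpow_rpow_atTop ((107 : ℕ) : ℝ)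
    (show (0 : ℝ) < 1 / 200 by norm_num)).tendsto_div_nhds_zero).const_mul (A ^ 103 / c0 ^ 102)
  rw [mul_zero] at h
  obtain ⟨P1, h1⟩ := eventually_atTop.1
    ((h.eventually (ge_mem_nhds hε)).and (eventually_ge_atTop (0 : ℝ)))
  refine ⟨P1, fun P hP => le_of_eq_of_le ?_ (h1 P hP).1⟩
  rw [neg_div, Real.rpow_neg (h1 P hP).2, Real.rpow_natCast]
  ring

theorem tot_sm (T1 K c0 ε : ℝ) (hK : 1 ≤ K) (hc : 0 < c0) (hε : 0 < ε) : ∃ P1 : ℝ,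
    ∀ P Q B : ℝ, P1 ≤ P → 1 ≤ T1 → 1 ≤ P → 1 ≤ Real.log P → 0 ≤ Q → 0 ≤ B →
      ∑' i : Idx T1 P, ENNReal.ofReal (B * sm P Q (K * Real.log P / c0) (box T1 i).R) ≤
        ENNReal.ofReal (B * (ε * Q)) := by
  obtain ⟨C, hC, h⟩ := sum_one
  obtain ⟨P1, h1⟩ := eventually_small (K * (C * T1)) c0 ε hc hε
  refine ⟨P1, fun P Q B hP hT hP' hL hQ hB => ?_⟩
  simp only [ENNReal.ofReal_mul hB, ENNReal.tsum_mul_left]
  refine mul_le_mul_right ((h T1 P _ hT hP' hL (by positivity)).trans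
    (ENNReal.ofReal_le_ofReal (le_trans ?_ (mul_le_mul_of_nonneg_right (h1 P hP) hQ)))) _
  have e1 : 1 ≤ C * T1 := one_le_mul_of_one_le_of_one_le hC hT
  have e2 : C * T1 ≤ K * (C * T1) := le_mul_of_one_le_left (by positivity) hK
  have e3 : K ≤ K * (C * T1) := le_mul_of_one_le_right (by positivity) e1
  calc _ = C * T1 * Real.log P ^ 5 * ((K * Real.log P / c0) ^ 102 * P ^ (-1 / 200 : ℝ)) * Q := by
        ring
    _ ≤ _ := by gcongr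

namespace Ctx

theorem act_subset {T1 F0 En C0 P0 c0 P : ℝ} (x : Ctx T1 F0 En C0 P0 c0 P) :
    x.act ⊆ ⋃ i : Idx T1 P, x.piece (box T1 i) := by
  intro w hw
  obtain ⟨⟨p1, p2⟩, ⟨r1, r2⟩, ⟨-, a1, a2⟩, ⟨b1, b2⟩, ⟨c1, -, c2⟩, -⟩ := x.act_range hw
  have e : ∀ y, 1 ≤ 2 * x.pp w.1 w.2 ^ 2 * y → 1 ≤ 2 * P ^ 2 * y := fun y h => by
    have hy : 0 ≤ y := (pos_of_mul_pos_right (zero_lt_one.trans_le h) (by positivity)).le
    exact h.trans (by gcongr)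
  obtain ⟨i, hi, hm⟩ := exists_box p1 p2 r1 r2 a1 a2 (e _ b1) b2 (e _ c1) c2
  exact mem_iUnion.2 ⟨⟨i, hi⟩, hw, hm⟩

theorem tot (T1 F0 En : ℝ) : ∃ K1 : ℝ, 1 ≤ K1 ∧ ∀ c0 ε : ℝ, 0 < c0 → 0 < ε → ∃ P1 : ℝ,
    ∀ (C0 P0 P : ℝ) (x : Ctx T1 F0 En C0 P0 c0 P), P1 ≤ P →
      ∫⁻ w in x.act, ENNReal.ofReal (x.Psi w) ∂x.m ≤ ENNReal.ofReal ((K1 * √c0 + ε) * x.Q) ∧
      ∀ s : ℝ,
        ∫⁻ z in {z | (s, z) ∈ x.act ∧ RTr x.par (x.pp s z) (x.pa s z) (x.pb s z) (x.pR s z)},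
            ENNReal.ofReal (bH (x.pa s z) (x.pb s z) (x.pR s z)) ∂x.S.ν ≤
          ENNReal.ofReal (ε * x.η) ∧
        ∫⁻ z in {z | (s, z) ∈ x.act ∧ RTr x.par (x.pp s z) (x.pa s z) (x.pb s z) (x.pR s z)},
            ENNReal.ofReal (bL (x.pa s z) (x.pb s z) (x.pR s z)) ∂x.S.ν ≤
          ENNReal.ofReal (ε * x.Q) := by
  obtain ⟨K, hK, hΨ⟩ := piece_Psi T1 F0 En
  obtain ⟨K', hK', hH⟩ := piece_H T1 F0 En
  obtain ⟨C2, hC2, h2⟩ := sum_two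
  obtain ⟨C3, hC3, h3⟩ := gg_sum
  refine ⟨K * (C2 * C3), one_le_mul_of_one_le_of_one_le hK
    (one_le_mul_of_one_le_of_one_le hC2 hC3), fun c0 ε hc hε => ?_⟩
  have hK0 : 0 < K := zero_lt_one.trans_le hK
  obtain ⟨P1, h1⟩ := tot_sm T1 K c0 (ε / K) hK hc (div_pos hε hK0)
  obtain ⟨P2, h1'⟩ := tot_sm T1 K' c0 ε hK' hc hε
  refine ⟨max P1 P2, fun C0 P0 P x hP => ?_⟩
  have hT := x.num.hT1
  have hT0 : 0 < T1 := zero_lt_one.trans_le hT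
  have hP1 := x.num.hP2
  have hL := x.num.log_ge
  have hQ : 0 < x.Q := zero_lt_one.trans_le x.one_le_Q
  have hη : 0 ≤ x.η := le_trans (by norm_num) x.η_ge
  have hs : ∀ s (f : Z → ℝ≥0∞) (R : Z → Prop), ∫⁻ z in {z | (s, z) ∈ x.act ∧ R z}, f z ∂x.S.ν ≤
      ∑' i : Idx T1 P, ∫⁻ z in {z | (s, z) ∈ x.piece (box T1 i) ∧ R z}, f z ∂x.S.ν :=
    fun s f R => (lintegral_mono_set fun z hz => by
      obtain ⟨i, hi⟩ := mem_iUnion.1 (x.act_subset hz.1)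
      exact mem_iUnion.2 ⟨i, hi, hz.2⟩).trans (lintegral_iUnion_le _ _)
  refine ⟨?_, fun s => ⟨?_, ?_⟩⟩
  · refine ((lintegral_mono_set x.act_subset).trans (lintegral_iUnion_le _ _)).trans
      ((ENNReal.tsum_le_tsum fun i => hΨ C0 P0 c0 P x _ (box_pos hT0 _)).trans ?_)
    rw [ENNReal.tsum_add]
    have e1 := h1 P x.Q K ((le_max_left _ _).trans hP) hT hP1 hL hQ.le hK0.le
    have e2 := h2 T1 P x.par.th (C3 * √c0 * x.Q) (gg c0 P x.Q)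
      (fun p a b c => rho0 x.τ (1 + x.τ / uu c0 P p) p a b c) hT0 x.par_ok.th0 (by positivity)
      (fun p hp => gg_nonneg hc hP1 hQ hp)
      (fun p a b c hp ha hb hc' => rho0_pos x.τ_pos
        (add_pos one_pos (div_pos x.τ_pos (uu_pos hc hP1 hp))) hp ha hb hc')
      fun n hn => h3 c0 P x.Q n hc x.num.hc1 hP1 hL hQ x.Q_le hn
    have e3 := mul_le_mul_right e2 (ENNReal.ofReal K)
    rw [← ENNReal.tsum_mul_left] at e3
    simp only [← ENNReal.ofReal_mul hK0.le] at e3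
    refine (add_le_add e1 e3).trans (le_of_eq ?_)
    rw [← ENNReal.ofReal_add (by positivity) (by positivity)]
    congr 1
    field_simp
    ring
  · refine (hs s _ _).trans ((ENNReal.tsum_le_tsum fun i =>
      (hH C0 P0 c0 P x _ (box_pos hT0 _) s).1).trans ((h1' P x.Q _ ((le_max_right _ _).trans hP)
        hT hP1 hL hQ.le (div_nonneg hη hQ.le)).trans (le_of_eq ?_)))
    congr 1
    field_simp
  · have e1 := h1' P x.Q 1 ((le_max_right _ _).trans hP) hT hP1 hL hQ.le zero_le_one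
    simp only [one_mul] at e1
    exact (hs s _ _).trans ((ENNReal.tsum_le_tsum fun i =>
      (hH C0 P0 c0 P x _ (box_pos hT0 _) s).2).trans e1)

end Ctx

end

end Vale.Agent.P107
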