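import Vale.Agent.P107.Ex
import Vale.Agent.P107.Liou

/-! Characteristics of a force field. -/

namespace Vale.Agent.P107

open MeasureTheory Set Filter Topology
open scoped ENNReal RealInnerProductSpace

noncomputable section

/-- Lipschitz constant of the characteristic vector field. -/
def Lv (Λ M1 l1 s : ℝ) : ℝ := 2 + 2 * Λ + 2 * M1 * Real.exp (l1 * max s 0)

/-- A bound for its integral. -/
def Av (Λ M1 l1 t : ℝ) : ℝ := (2 + 2 * Λ) * t + 2 * M1 * Real.exp (l1 * t) / l1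

variable {Λ M1 l1 M2 l2 : ℝ} {G : ST → Z}

theorem Cl.cont (h : Cl Λ M1 l1 M2 l2 G) : Continuous G := by
  refine continuous_iff_continuousAt.2 fun p =>
    continuousAt_of_locally_lipschitz one_pos (M1 * Real.exp (l1 * max (p.1 + 1) 0)) fun y hy => ?_
  rw [dist_eq_norm, dist_eq_norm] at *
  have h1 : |y.1 - p.1| ≤ ‖y - p‖ := norm_fst_le (y - p)
  exact h.lip _ (le_max_right _ _) y p (le_max_of_le_left (by linarith [(abs_le.1 h1).2]))
    (le_max_of_le_left (by linarith))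

theorem Cl.mono (h : Cl Λ M1 l1 M2 l2 G) {Λ' M1' l1' M2' l2' : ℝ} (h0 : Λ ≤ Λ') (h1 : M1 ≤ M1')
    (h2 : l1 ≤ l1') (h3 : M2 ≤ M2') (h4 : l2 ≤ l2') : Cl Λ' M1' l1' M2' l2' G := by
  have := h.hM1
  have := h.hM2
  refine ⟨h.hΛ.trans h0, h.hM1.trans h1, h.hl1.trans h2, h.hM2.trans h3, h.hl2.trans h4,
    fun p => (h.bdd p).trans h0, fun t ht p p' hp hp' => (h.lip t ht p p' hp hp').trans ?_,
    fun t ht s hs => (h.sd t ht s hs).mono ?_⟩
  · gcongr
    linarith
  · gcongr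
    linarith

theorem Cl.zero : Cl 1 1 1 1 1 (0 : ST → Z) := by
  refine ⟨le_rfl, le_rfl, le_rfl, le_rfl, le_rfl, fun p => by simp, fun t _ p p' _ _ => ?_,
    fun t _ s _ => (SD.const (0 : Z)).mono (by positivity)⟩
  simp only [Pi.zero_apply, sub_self, norm_zero]
  positivity

theorem InCl.common {G G' : ST → Z} (h : InCl G) (h' : InCl G') :
    ∃ Λ M1 l1 M2 l2 : ℝ, Cl Λ M1 l1 M2 l2 G ∧ Cl Λ M1 l1 M2 l2 G' := by
  obtain ⟨a, b, c, d, e, h⟩ := h
  obtain ⟨a', b', c', d', e', h'⟩ := h'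
  exact ⟨_, _, _, _, _, h.mono (le_max_left a a') (le_max_left b b') (le_max_left c c')
    (le_max_left d d') (le_max_left e e'), h'.mono (le_max_right _ _) (le_max_right _ _)
    (le_max_right _ _) (le_max_right _ _) (le_max_right _ _)⟩

theorem Traj1_vel (z z' : Z) : ‖vel z.2 - vel z'.2‖ ≤ 2 * ‖z - z'‖ :=
  (vel_lip _ _).trans ((div_le_self (by positivity) (one_le_q _)).trans
    (mul_le_mul_of_nonneg_left (norm_snd_le (z - z')) zero_le_two))

theorem Traj1_lor (a b : Z) (v w : V) :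
    ‖lor a.1 a.2 v - lor b.1 b.2 w‖ ≤ 2 * ‖a - b‖ + ‖vel v - vel w‖ * ‖b‖ := by
  have e : lor a.1 a.2 v - lor b.1 b.2 w =
      (a - b).1 + cross (vel v) (a - b).2 + cross (vel v - vel w) b.2 := by
    rw [Prod.snd_sub, Prod.fst_sub, cross_sub_right, cross_sub_left, lor, lor]
    abel
  rw [e]
  refine (norm_add₃_le ..).trans ?_
  have e1 := (norm_cross_le (vel v) (a - b).2).trans
    (mul_le_of_le_one_left (norm_nonneg _) (norm_vel_lt v).le)
  have e2 := (norm_cross_le (vel v - vel w) b.2).trans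
    (mul_le_mul_of_nonneg_left (norm_snd_le b) (norm_nonneg _))
  linarith [norm_fst_le (a - b), norm_snd_le (a - b)]

theorem Cl.Traj1_lip (h : Cl Λ M1 l1 M2 l2 G) (s : ℝ) (z z' : Z) :
    ‖G (s, z.1) - G (s, z'.1)‖ ≤ M1 * Real.exp (l1 * max s 0) * ‖z - z'‖ := by
  have := h.hM1
  refine (h.lip _ (le_max_right s 0) _ _ (le_max_left _ _) (le_max_left _ _)).trans
    (mul_le_mul_of_nonneg_left ?_ (by positivity))
  simpa using norm_fst_le (z - z')

theorem Cl.vF (h : Cl Λ M1 l1 M2 l2 G) : VF (vf G) (2 * Λ) (Lv Λ M1 l1) := by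
  have hΛ := h.hΛ
  have hM := h.hM1
  have c : Continuous fun p : ℝ × Z => G (p.1, p.2.1) := h.cont.comp (by fun_prop)
  refine ⟨(contDiff_vel.continuous.comp continuous_snd.snd).prodMk (continuous_lor.comp
    (c.fst.prodMk (c.snd.prodMk continuous_snd.snd))), fun s z => ?_, by unfold Lv; fun_prop,
    fun s => by unfold Lv; positivity, fun s z z' => ?_⟩
  · refine norm_prod_le_iff.2 ⟨(norm_vel_lt _).le.trans (by linarith), (norm_lor_le _ _ _).trans ?_⟩
    linarith [norm_fst_le (G (s, z.1)), norm_snd_le (G (s, z.1)), h.bdd (s, z.1)]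
  · have e1 := Traj1_vel z z'
    have e2 := h.Traj1_lip s z z'
    have e3 := Traj1_lor (G (s, z.1)) (G (s, z'.1)) z.2 z'.2
    have e4 := mul_le_mul e1 (h.bdd (s, z'.1)) (norm_nonneg _) (by positivity)
    have n := norm_nonneg (z - z')
    have : 0 ≤ M1 * Real.exp (l1 * max s 0) * ‖z - z'‖ := by positivity
    have := mul_nonneg (zero_le_one.trans hΛ) n
    refine norm_prod_le_iff.2 ⟨e1.trans ?_, e3.trans ?_⟩ <;> unfold Lv <;> linarith

theorem int_Lv (hΛ : 1 ≤ Λ) (hM : 1 ≤ M1) (hl : 1 ≤ l1) {s t : ℝ} (hs : 0 ≤ s) (hst : s ≤ t) :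
    |∫ r in (0 : ℝ)..s, Lv Λ M1 l1 r| ≤ Av Λ M1 l1 t ∧
      |∫ r in s..(0 : ℝ), Lv Λ M1 l1 r| ≤ Av Λ M1 l1 t := by
  have hd : ∀ r ∈ uIcc (0 : ℝ) s, HasDerivAt (Av Λ M1 l1)
      (2 + 2 * Λ + 2 * M1 * Real.exp (l1 * r)) r := fun r _ => by
    refine (((hasDerivAt_id r).const_mul (2 + 2 * Λ)).add
      (((((hasDerivAt_id r).const_mul l1).exp).const_mul (2 * M1)).div_const l1)).congr_deriv ?_
    have : l1 ≠ 0 := by positivity
    simp only [id]
    field_simp
  have e : ∫ r in (0 : ℝ)..s, Lv Λ M1 l1 r = Av Λ M1 l1 s - Av Λ M1 l1 0 := by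
    rw [← intervalIntegral.integral_eq_sub_of_hasDerivAt hd (Continuous.intervalIntegrable
      (by fun_prop) _ _)]
    refine intervalIntegral.integral_congr fun r hr => ?_
    rw [uIcc_of_le hs] at hr
    simp only [Lv, max_eq_left hr.1]
  have p : 0 ≤ ∫ r in (0 : ℝ)..s, Lv Λ M1 l1 r :=
    intervalIntegral.integral_nonneg hs fun r _ => by unfold Lv; positivity
  have k : |∫ r in (0 : ℝ)..s, Lv Λ M1 l1 r| ≤ Av Λ M1 l1 t := by
    rw [abs_of_nonneg p, e]
    have h0 : 0 ≤ Av Λ M1 l1 0 := by unfold Av; positivity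
    have h1 : Av Λ M1 l1 s ≤ Av Λ M1 l1 t := by unfold Av; gcongr
    linarith
  exact ⟨k, by rwa [intervalIntegral.integral_symm, abs_neg]⟩

/-- The cross product as a bilinear map. -/
def Traj1_cr : V →L[ℝ] V →L[ℝ] V :=
  LinearMap.mkContinuous₂ (LinearMap.mk₂ ℝ cross cross_add_left cross_smul_left cross_add_right
    fun r a b => cross_smul_right r a b) 1 fun a b => by
      simpa using norm_cross_le a b

theorem Traj1_cr_apply (a b : V) : Traj1_cr a b = cross a b := rfl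

theorem Traj1_cr_norm : ‖Traj1_cr‖ ≤ 1 := LinearMap.mkContinuous₂_norm_le _ zero_le_one _

theorem vf_sd : ∃ c : ℝ, 1 ≤ c ∧ ∀ (Λ M1 l1 M2 l2 : ℝ) (G : ST → Z), Cl Λ M1 l1 M2 l2 G →
    ∀ s, SD (vf G s)
      (c * (M2 * Real.exp (l2 * max s 0) + Λ + M1 * Real.exp (l1 * max s 0))) := by
  obtain ⟨C, hC, hv⟩ := SD_vel
  refine ⟨C + 4, by linarith, fun Λ M1 l1 M2 l2 G h s => ?_⟩
  have hΛ := h.hΛ
  have hM := h.hM1
  have hM2 := h.hM2
  set a := M1 * Real.exp (l1 * max s 0) with ha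
  set b := M2 * Real.exp (l2 * max s 0) with hb
  have a0 : 0 ≤ a := by positivity
  have b0 : 0 ≤ b := by positivity
  have s1 : SD (fun z : Z => vel z.2) C := fun z k => (hv z.2 k.2).trans (by
    gcongr; exact norm_snd_le k)
  have s2 : SD (fun z : Z => G (s, z.1)) b := fun z k =>
    (h.sd _ (le_max_right s 0) s (le_max_left _ _) z.1 k.1).trans (by
      gcongr; exact norm_fst_le k)
  have s3 : SD (fun z : Z => (G (s, z.1)).1) b := fun z k =>
    (norm_fst_le (sd (fun z : Z => G (s, z.1)) z k)).trans (s2 z k)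
  have s4 : SD (fun z : Z => (G (s, z.1)).2) b := fun z k =>
    (norm_snd_le (sd (fun z : Z => G (s, z.1)) z k)).trans (s2 z k)
  have s5 := SD.bilin Traj1_cr (A := 1) (A' := Λ) (fun z : Z => (norm_vel_lt z.2).le) zero_le_two
    Traj1_vel (by linarith) s1 (fun z => (norm_snd_le _).trans (h.bdd (s, z.1))) a0
    (fun z z' => (norm_snd_le (G (s, z.1) - G (s, z'.1))).trans (h.Traj1_lip s z z')) b0 s4
  have e := mul_le_of_le_one_left (b := 1 * b + Λ * C + 2 * 2 * a) (by positivity) Traj1_cr_norm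
  refine (s1.mono ?_).prod ((s3.add s5).mono ?_) <;> nlinarith

theorem Traj1_trace (A : Z →ₗ[ℝ] Z) : LinearMap.trace ℝ Z A =
    ∑ i, (A (EuclideanSpace.single i 1, 0)).1 i + ∑ i, (A (0, EuclideanSpace.single i 1)).2 i := by
  rw [LinearMap.trace_eq_matrix_trace ℝ ((EuclideanSpace.basisFun (Fin 3) ℝ).toBasis.prod
    (EuclideanSpace.basisFun (Fin 3) ℝ).toBasis), Matrix.trace, Fintype.sum_sum_type]
  simp [LinearMap.toMatrix_apply, Module.Basis.prod_apply]

theorem Cl.trace_vf (h : Cl Λ M1 l1 M2 l2 G) (s : ℝ) (z : Z) :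
    LinearMap.trace ℝ Z (fderiv ℝ (vf G s) z : Z →ₗ[ℝ] Z) = 0 := by
  have hd := ((h.sd _ (le_max_right s 0) s (le_max_left _ _)).diff
    (h.cont.comp (by fun_prop))).1 z.1
  have h1 : HasFDerivAt (fun z : Z => vel z.2) _ z :=
    (contDiff_vel.differentiable (by simp) z.2).hasFDerivAt.comp z hasFDerivAt_snd
  have h2 : HasFDerivAt (fun z : Z => G (s, z.1)) _ z := hd.hasFDerivAt.comp z hasFDerivAt_fst
  have h3 : HasFDerivAt (vf G s) _ z :=
    h1.prodMk (h2.fst.add (Traj1_cr.hasFDerivAt_of_bilinear h1 h2.snd))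
  rw [h3.fderiv, Traj1_trace]
  simp [fderiv_vel, Traj1_cr_apply, acc, cross, Fin.sum_univ_three, inner3]
  ring

theorem Cl.measurePreserving_fl (h : Cl Λ M1 l1 M2 l2 G) (s t : ℝ) :
    MeasurePreserving (fl (vf G) s t) volume volume := by
  obtain ⟨c, hc, hs⟩ := vf_sd
  have hΛ := h.hΛ
  have hM := h.hM1
  have hM2 := h.hM2
  exact h.vF.measurePreserving_fl (by fun_prop) (fun s => by positivity) (hs _ _ _ _ _ _ h)
    h.trace_vf ((volume : Measure V).prod volume) s t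

theorem fl_free (s t : ℝ) (z : Z) : fl (vf 0) s t z = (z.1 + (s - t) • vel z.2, z.2) := by
  have := Cl.zero.vF.fl_unique (γ := fun r => (z.1 + (r - t) • vel z.2, z.2)) (s := s) (t := t)
    fun r _ => by
      have e : vf 0 r (z.1 + (r - t) • vel z.2, z.2) = ((1 : ℝ) • vel z.2, 0) := by
        simp [vf, lor, ← crossL_apply]
      rw [e]
      exact ((((hasDerivAt_id r).sub_const t).smul_const _).const_add _).prodMk
        (hasDerivAt_const r z.2)
  simpa using this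

theorem tr_zero (G : ST → Z) (z : Z) : tr G z 0 = z := by
  simp [tr]

theorem bk_zero (G : ST → Z) (w : Z) : bk G 0 w = w := by
  simp [bk]

theorem Cl.tr_of_nonneg (h : Cl Λ M1 l1 M2 l2 G) (z : Z) {s : ℝ} (hs : 0 ≤ s) :
    tr G z s = fl (vf G) s 0 z := by
  rcases hs.eq_or_lt with rfl | h1
  · rw [tr_zero, h.vF.fl_self]
  · rw [tr, if_neg h1.not_ge]

theorem Cl.bk_of_nonneg (h : Cl Λ M1 l1 M2 l2 G) (w : Z) {s : ℝ} (hs : 0 ≤ s) :
    bk G s w = fl (vf G) 0 s w := by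
  rcases hs.eq_or_lt with rfl | h1
  · rw [bk_zero, h.vF.fl_self]
  · rw [bk, if_neg h1.not_ge]

theorem Cl.bk_tr (h : Cl Λ M1 l1 M2 l2 G) (z : Z) (s : ℝ) : bk G s (tr G z s) = z := by
  rcases le_total s 0 with hs | hs
  · simp [tr, bk, hs]
  · rw [h.tr_of_nonneg _ hs, h.bk_of_nonneg _ hs, h.vF.fl_fl, h.vF.fl_self]

theorem Cl.tr_bk (h : Cl Λ M1 l1 M2 l2 G) (w : Z) (s : ℝ) : tr G (bk G s w) s = w := by
  rcases le_total s 0 with hs | hs
  · simp [tr, bk, hs]
  · rw [h.tr_of_nonneg _ hs, h.bk_of_nonneg _ hs, h.vF.fl_fl, h.vF.fl_self]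

theorem Cl.measurePreserving_tr (h : Cl Λ M1 l1 M2 l2 G) (s : ℝ) :
    MeasurePreserving (fun z => tr G z s) volume volume := by
  rcases le_total s 0 with hs | hs
  · have e : (fun z => tr G z s) = fl (vf 0) s 0 := by
      funext z
      rw [fl_free, tr, if_pos hs, sub_zero]
    rw [e]
    exact Cl.zero.measurePreserving_fl s 0
  · simp only [h.tr_of_nonneg _ hs]
    exact h.measurePreserving_fl s 0

theorem Cl.continuous_tr (h : Cl Λ M1 l1 M2 l2 G) :
    Continuous (fun p : Z × ℝ => tr G p.1 p.2) := by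
  have hv := contDiff_vel.continuous
  refine Continuous.if_le (by fun_prop) (h.vF.continuous_fl.comp
    (continuous_snd.prodMk (continuous_const.prodMk continuous_fst))) continuous_snd
    continuous_const fun p hp => ?_
  simp [hp, h.vF.fl_self]

theorem Cl.continuous_bk (h : Cl Λ M1 l1 M2 l2 G) :
    Continuous (fun p : ℝ × Z => bk G p.1 p.2) := by
  have hv := contDiff_vel.continuous
  refine Continuous.if_le (by fun_prop) (h.vF.continuous_fl.comp
    (continuous_const.prodMk (continuous_fst.prodMk continuous_snd))) continuous_fst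
    continuous_const fun p hp => ?_
  simp [hp, h.vF.fl_self]

theorem Cl.tm (h : Cl Λ M1 l1 M2 l2 G) (z : Z) : Tm (trY G z) (trW G z) := by
  have h1 : ∀ s, s ≤ 0 → HasDerivWithinAt (trY G z) (vel (trW G z s)) (Iic 0) s := fun s hs => by
    have := (((hasDerivAt_id s).smul_const (vel z.2)).const_add z.1).hasDerivWithinAt (s := Iic 0)
    rw [one_smul] at this
    simp only [trW, tr, if_pos hs]
    exact this.congr_of_mem (fun r hr => by simp only [trY, tr, if_pos (mem_Iic.1 hr), id]) hs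
  have h2 : ∀ s, 0 ≤ s → HasDerivWithinAt (trY G z) (vel (trW G z s)) (Ici 0) s := fun s hs => by
    have := ((ContinuousLinearMap.fst ℝ V V).hasFDerivAt.comp_hasDerivAt s
      (h.vF.hasDerivAt_fl s 0 z)).hasDerivWithinAt (s := Ici 0)
    rw [trW, h.tr_of_nonneg z hs]
    exact this.congr_of_mem (fun r hr => by rw [trY, h.tr_of_nonneg z hr]; rfl) hs
  refine ⟨fun s => ?_, (h.continuous_tr.comp (continuous_const.prodMk continuous_id)).snd,
    fun s hs => by simp [trW, tr, hs]⟩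
  rcases lt_trichotomy s 0 with hs | rfl | hs
  · exact (h1 s hs.le).hasDerivAt (Iic_mem_nhds hs)
  · have := (h1 0 le_rfl).union (h2 0 le_rfl)
    rwa [Iic_union_Ici, hasDerivWithinAt_univ] at this
  · exact (h2 s hs.le).hasDerivAt (Ici_mem_nhds hs)

theorem Cl.hasDerivAt_trW (h : Cl Λ M1 l1 M2 l2 G) (z : Z) {s : ℝ} (hs : 0 < s) :
    HasDerivAt (trW G z) (lor (G (s, trY G z s)).1 (G (s, trY G z s)).2 (trW G z s)) s := by
  have := (ContinuousLinearMap.snd ℝ V V).hasFDerivAt.comp_hasDerivAt s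
    (h.vF.hasDerivAt_fl s 0 z)
  rw [trY, trW, h.tr_of_nonneg z hs.le]
  refine this.congr_of_eventuallyEq ?_
  filter_upwards [Ici_mem_nhds hs] with r hr
  rw [trW, h.tr_of_nonneg z hr]; rfl

theorem hasDerivAt_trW_neg (G : ST → Z) (z : Z) {s : ℝ} (hs : s < 0) :
    HasDerivAt (trW G z) 0 s := by
  refine (hasDerivAt_const s z.2).congr_of_eventuallyEq ?_
  filter_upwards [Iic_mem_nhds hs] with r hr
  simp only [trW, tr, if_pos (mem_Iic.1 hr)]

theorem trW_past (G : ST → Z) (z : Z) {s : ℝ} (hs : s ≤ 0) : trW G z s = z.2 := by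
  simp only [trW, tr, if_pos hs]

theorem Cl.lip_trW (h : Cl Λ M1 l1 M2 l2 G) (z : Z) (s s' : ℝ) :
    ‖trW G z s - trW G z s'‖ ≤ 2 * Λ * |s - s'| := by
  have e : ∀ r, trW G z r = (fl (vf G) (max r 0) 0 z).2 := fun r => by
    rcases le_total r 0 with hr | hr
    · rw [trW_past G z hr, max_eq_right hr, h.vF.fl_self]
    · rw [trW, h.tr_of_nonneg z hr, max_eq_left hr]
  have := h.hΛ
  rw [e, e]
  exact (norm_snd_le (_ - _ : Z)).trans ((h.vF.fl_time _ _ 0 z).trans
    (mul_le_mul_of_nonneg_left (abs_max_sub_max_le_abs _ _ _) (by positivity)))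

theorem Cl.bd (h : Cl Λ M1 l1 M2 l2 G) (d : Dat) {T : ℝ} (hT : 0 ≤ T) :
    Bd d G T (d.P0 + 2 * Λ * T) := by
  intro z hz s hs
  have := h.hΛ
  rcases le_total s 0 with h0 | h0
  · rw [trW_past G z h0]
    exact hz.2.trans (le_add_of_nonneg_right (by positivity))
  · have e1 := h.lip_trW z s 0
    have e2 := (abs_le.1 (q_lip (trW G z s) (trW G z 0))).2
    rw [sub_zero, abs_of_nonneg h0] at e1
    rw [trW_past G z le_rfl] at e1 e2
    have := mul_le_mul_of_nonneg_left hs (show 0 ≤ 2 * Λ by positivity)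
    linarith [hz.2]

theorem bd_zero (d : Dat) (G : ST → Z) : Bd d G 0 d.P0 := by
  intro z hz s hs
  rw [trW_past G z hs]
  exact hz.2

theorem Bd.mono {d : Dat} {t t' P P' : ℝ} (h : Bd d G t P) (ht : t' ≤ t) (hP : P ≤ P') :
    Bd d G t' P' := by
  exact fun z hz s hs => (h z hz s (hs.trans ht)).trans hP

theorem tr_congr {G G' : ST → Z} (h : InCl G) (h' : InCl G') {t : ℝ}
    (he : ∀ p : ST, p.1 ∈ Icc 0 t → G p = G' p) {s : ℝ} (hs : s ≤ t) (z : Z) :
    tr G z s = tr G' z s ∧ bk G s z = bk G' s z := by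
  obtain ⟨_, _, _, _, _, h⟩ := h
  obtain ⟨_, _, _, _, _, h'⟩ := h'
  rcases le_total s 0 with h0 | h0
  · simp [tr, bk, h0]
  have k : ∀ a b, uIcc b a ⊆ Icc 0 t → fl (vf G) a b z = fl (vf G') a b z := fun a b hab => by
    have := h.vF.fl_stab h'.vF (β := fun _ => 0) (s := a) (t := b) continuous_const
      (fun _ => le_rfl)
      (fun r hr w => by simp [vf, he (r, w.1) (hab hr)]) z
    simpa [sub_eq_zero] using this
  rw [h.tr_of_nonneg z h0, h'.tr_of_nonneg z h0, h.bk_of_nonneg z h0, h'.bk_of_nonneg z h0]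
  exact ⟨k _ _ (by rw [uIcc_of_le h0]; exact Icc_subset_Icc_right hs),
    k _ _ (by rw [uIcc_of_ge h0]; exact Icc_subset_Icc_right hs)⟩

end

end Vale.Agent.P107
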