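import Vale.Agent.P107.Traj1
import Vale.Agent.P107.Flow2

/-! The transported density. -/

namespace Vale.Agent.P107

open MeasureTheory Set Filter Topology
open scoped ENNReal RealInnerProductSpace

noncomputable section

variable {Λ M1 l1 M2 l2 : ℝ} {G : ST → Z}

theorem Dat.isCompact_S (d : Dat) : IsCompact d.S := by
  have hq := contDiff_q.continuous
  refine ((isCompact_closedBall (0 : V) d.R0).prod
    (isCompact_closedBall (0 : V) d.P0)).of_isClosed_subset
    ((isClosed_le continuous_fst.norm continuous_const).inter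
      (isClosed_le (hq.comp continuous_snd) continuous_const)) fun z hz => ⟨mem_closedBall_zero_iff.2 hz.1,
      mem_closedBall_zero_iff.2 ((norm_lt_q _).le.trans hz.2)⟩

theorem Dat.measurableSet_S (d : Dat) : MeasurableSet d.S := by
  exact d.isCompact_S.measurableSet

theorem Dat.ν_compl (d : Dat) : d.ν d.Sᶜ = 0 := by
  rw [Dat.ν, withDensity_apply _ d.measurableSet_S.compl]
  refine setLIntegral_eq_zero d.measurableSet_S.compl fun z hz => ?_
  have : d.f z = 0 := by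
    by_contra h
    exact hz (d.supp z h)
  simp [this]

instance Dat.finite (d : Dat) : IsFiniteMeasure d.ν := by
  have : IsLocallyFiniteMeasure d.ν :=
    IsLocallyFiniteMeasure.withDensity_ofReal (d.sm.continuous.div_const _)
  refine ⟨?_⟩
  rw [← measure_add_measure_compl d.measurableSet_S, d.ν_compl, add_zero]
  exact d.isCompact_S.measure_lt_top

theorem Dat.ae_mem (d : Dat) : ∀ᵐ z ∂d.ν, z ∈ d.S := by
  exact d.ν_compl

theorem den_nonneg (d : Dat) (G : ST → Z) (s : ℝ) (w : Z) : 0 ≤ den d G s w := by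
  exact d.nn _

theorem den_le (d : Dat) (G : ST → Z) (s : ℝ) (w : Z) : den d G s w ≤ d.F0 := by
  exact d.le _

theorem den_past (d : Dat) (G : ST → Z) {s : ℝ} (hs : s ≤ 0) (w : Z) :
    den d G s w = d.f (w.1 - s • vel w.2, w.2) := by
  rw [den, bk, if_pos hs]

theorem Cl.den_tr (h : Cl Λ M1 l1 M2 l2 G) (d : Dat) (z : Z) (s : ℝ) :
    den d G s (tr G z s) = d.f z := by
  rw [den, h.bk_tr]

theorem Cl.continuous_den (h : Cl Λ M1 l1 M2 l2 G) (d : Dat) :
    Continuous (fun p : ℝ × Z => den d G p.1 p.2) := by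
  exact d.sm.continuous.comp h.continuous_bk

theorem Cl.den_supp (h : Cl Λ M1 l1 M2 l2 G) {d : Dat} {t P : ℝ} (hP : Bd d G t P) {s : ℝ}
    (hs : s ≤ t) {w : Z} (hw : den d G s w ≠ 0) : q w.2 ≤ P ∧ ‖w.1‖ ≤ d.R0 + |s| := by
  have hz := d.supp _ hw
  have e1 := hP _ hz s hs
  have e2 := (h.tm (bk G s w)).lip_one 0 s
  rw [trW, h.tr_bk] at e1
  rw [trY, trY, h.tr_bk, tr_zero, sub_zero] at e2
  exact ⟨e1, by linarith [norm_sub_norm_le w.1 (bk G s w).1, hz.1]⟩

theorem den_supp_past (d : Dat) (G : ST → Z) {s : ℝ} (hs : s ≤ 0) {w : Z}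
    (hw : den d G s w ≠ 0) : q w.2 ≤ d.P0 ∧ ‖w.1 - s • vel w.2‖ ≤ d.R0 ∧
      ‖w.1‖ ≤ d.R0 - (1 - (2 * d.P0 ^ 2)⁻¹) * s := by
  rw [den_past d G hs] at hw
  obtain ⟨h1, h2⟩ := d.supp _ hw
  refine ⟨h2, h1, ?_⟩
  have e1 := norm_sub_norm_le w.1 (s • vel w.2)
  rw [norm_smul, Real.norm_eq_abs, abs_of_nonpos hs] at e1
  have e2 := mul_le_mul_of_nonneg_left (norm_vel_le h2) (neg_nonneg.2 hs)
  linarith

theorem Cl.den_lip (h : Cl Λ M1 l1 M2 l2 G) (d : Dat) {t s s' : ℝ} (ht : 0 ≤ t) (hs : s ≤ t)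
    (hs' : s' ≤ t) (x x' v : V) :
    |den d G s (x, v) - den d G s' (x', v)| ≤
      4 * Λ * d.F0 * Real.exp (Av Λ M1 l1 t) * (|s - s'| + ‖x - x'‖) := by
  have hΛ := h.hΛ
  have hM := h.hM1
  have hl := h.hl1
  have hF := d.hF
  set E := Real.exp (Av Λ M1 l1 t) with hE
  have E1 : 1 ≤ E := Real.one_le_exp (by unfold Av; positivity)
  have E2 : 1 ≤ 2 * Λ * E := by nlinarith
  have k1 : ∀ a a' y y', a ≤ 0 → a' ≤ 0 →
      ‖bk G a (y, v) - bk G a' (y', v)‖ ≤ 2 * Λ * E * (|a - a'| + ‖y - y'‖) := by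
    intro a a' y y' ha ha'
    have e : bk G a (y, v) - bk G a' (y', v) = (y - y' - (a - a') • vel v, 0) := by
      simp only [bk, if_pos ha, if_pos ha', Prod.mk_sub_mk, sub_self, sub_smul]
      congr 1
      abel
    have e1 := norm_sub_le (y - y') ((a - a') • vel v)
    rw [norm_smul, Real.norm_eq_abs] at e1
    have e2 := mul_le_of_le_one_right (abs_nonneg (a - a')) (norm_vel_lt v).le
    rw [e, Prod.norm_mk, norm_zero, max_eq_left (norm_nonneg _)]
    exact le_trans (by linarith) (le_mul_of_one_le_left (by positivity) E2)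
  have k2 : ∀ a a' y y', 0 ≤ a → a ≤ t → 0 ≤ a' →
      ‖bk G a (y, v) - bk G a' (y', v)‖ ≤ 2 * Λ * E * (|a - a'| + ‖y - y'‖) := by
    intro a a' y y' ha hat ha'
    rw [h.bk_of_nonneg _ ha, h.bk_of_nonneg _ ha', ← h.vF.fl_fl 0 a a']
    refine (h.vF.fl_lip 0 a _ _).trans ?_
    have e1 := h.vF.fl_time a' a a' (y', v)
    rw [h.vF.fl_self, abs_sub_comm] at e1
    have e2 := norm_sub_le_norm_sub_add_norm_sub ((y, v) : Z) (y', v) (fl (vf G) a a' (y', v))
    have e3 : ‖((y, v) : Z) - (y', v)‖ = ‖y - y'‖ := by simp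
    have e4 := le_mul_of_one_le_left (norm_nonneg (y - y')) (show 1 ≤ 2 * Λ by linarith)
    refine (mul_le_mul (Real.exp_le_exp.2 (int_Lv hΛ hM hl ha hat).2)
      (show _ ≤ 2 * Λ * (|a - a'| + ‖y - y'‖) by linarith) (norm_nonneg _) (by positivity)).trans_eq ?_
    ring
  have k3 : ∀ a a' y y', a ≤ 0 → 0 ≤ a' →
      ‖bk G a (y, v) - bk G a' (y', v)‖ ≤ 2 * Λ * E * (|a - a'| + ‖y - y'‖) := by
    intro a a' y y' ha ha'
    have e1 := k1 a 0 y y ha le_rfl
    have e2 := k2 0 a' y y' le_rfl ht ha'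
    have e3 := norm_sub_le_norm_sub_add_norm_sub (bk G a (y, v)) (bk G 0 (y, v)) (bk G a' (y', v))
    rw [sub_zero, sub_self, norm_zero, add_zero, abs_of_nonpos ha] at e1
    rw [zero_sub, abs_neg, abs_of_nonneg ha'] at e2
    rw [abs_of_nonpos (by linarith)]
    linarith
  have k : ‖bk G s (x, v) - bk G s' (x', v)‖ ≤ 2 * Λ * E * (|s - s'| + ‖x - x'‖) := by
    rcases le_total s 0 with h1 | h1 <;> rcases le_total s' 0 with h2 | h2
    · exact k1 _ _ _ _ h1 h2
    · exact k3 _ _ _ _ h1 h2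
    · rw [norm_sub_rev, abs_sub_comm, norm_sub_rev x]
      exact k3 _ _ _ _ h2 h1
    · exact k2 _ _ _ _ h1 hs h2
  refine (d.lip _ _).trans ((mul_le_mul_of_nonneg_left k (by positivity)).trans ?_)
  have : 0 ≤ d.F0 * (2 * Λ * E * (|s - s'| + ‖x - x'‖)) := by positivity
  linarith

theorem Traj2_past (d : Dat) (G : ST → Z) {s : ℝ} (hs : s ≤ 0) (v : V) :
    SD (fun x => den d G s (x, v)) d.F0 := fun x k => by
  have := d.sd (x - s • vel v, v) (k, 0)
  simpa [sd, den_past d G hs, sub_add_eq_add_sub, sub_right_comm x k] using this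

theorem den_sd (d : Dat) (Λ M1 l1 T : ℝ) : ∃ C : ℝ, 1 ≤ C ∧ ∀ (M2 l2 : ℝ) (G : ST → Z),
    Cl Λ M1 l1 M2 l2 G → ∀ t ∈ Icc 0 T, ∀ s, s ≤ t → ∀ v : V,
      SD (fun x => den d G s (x, v)) (C * (1 + M2 * Real.exp (l2 * t) / l2)) := by
  obtain ⟨c, hc, hv⟩ := vf_sd
  set E := Real.exp (Av Λ M1 l1 T) with hE
  set Λ' := Λ + M1 * Real.exp (l1 * T) with hΛ'
  set B := (2 + 2 * Λ') * T with hB
  refine ⟨max 1 (d.F0 * E ^ 2 + d.F0 * (E ^ 3 * (c * (2 + B)))), le_max_left _ _,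
    fun M2 l2 G h t ht s hs v => ?_⟩
  have hΛ := h.hΛ
  have hM := h.hM1
  have hl := h.hl1
  have hM2 := h.hM2
  have hl2 := h.hl2
  have hF := d.hF
  have hT := ht.1.trans ht.2
  have E1 : 1 ≤ E := Real.one_le_exp (by unfold Av; positivity)
  have Λ1 : 1 ≤ Λ' := le_add_of_le_of_nonneg hΛ (by positivity)
  have B0 : 0 ≤ B := by positivity
  set X := M2 * Real.exp (l2 * t) / l2 with hX
  have X0 : 0 ≤ X := by positivity
  have key : d.F0 * E ^ 2 + d.F0 * (E ^ 3 * (c * (B + 2 * X))) ≤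
      max 1 (d.F0 * E ^ 2 + d.F0 * (E ^ 3 * (c * (2 + B)))) * (1 + X) := by
    refine le_trans ?_ (mul_le_mul_of_nonneg_right (le_max_right _ _) (by positivity))
    have e1 : 0 ≤ d.F0 * E ^ 2 * X := by positivity
    have e2 : 0 ≤ d.F0 * E ^ 3 * c * (2 + B * X) := by positivity
    nlinarith
  refine SD.mono ?_ key
  rcases le_total s 0 with h0 | h0
  · refine (Traj2_past d G h0 v).mono ?_
    have e1 : 0 ≤ d.F0 * (E ^ 3 * (c * (B + 2 * X))) := by positivity
    have e2 := le_mul_of_one_le_right (zero_le_one.trans hF) (one_le_pow₀ E1 (n := 2))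
    linarith
  have i1 := (int_Lv hΛ hM hl h0 (hs.trans ht.2)).2
  have i2 := (int_Lv Λ1 hM2 hl2 h0 hs).2
  have s1 := h.vF.fl_sd (L2 := fun r => c * Lv Λ' M2 l2 r) (s := 0) (t := s)
    (by unfold Lv; fun_prop) (fun r => by unfold Lv; positivity) fun r hr => by
      refine (hv _ _ _ _ _ _ h r).mono (mul_le_mul_of_nonneg_left ?_ (by positivity))
      rw [uIcc_of_ge h0] at hr
      have e1 : M1 * Real.exp (l1 * max r 0) ≤ M1 * Real.exp (l1 * T) := by
        gcongr
        exact max_le (hr.2.trans (hs.trans ht.2)) hT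
      have e2 : 0 ≤ M2 * Real.exp (l2 * max r 0) := by positivity
      unfold Lv
      linarith
  have s2 : SD (fl (vf G) 0 s) (E ^ 3 * (c * (B + 2 * X))) := by
    refine s1.mono (mul_le_mul ?_ ?_ (abs_nonneg _) (by positivity))
    · rw [hE, ← Real.exp_nat_mul]
      exact Real.exp_le_exp.2 (by push_cast; linarith)
    · rw [intervalIntegral.integral_const_mul, abs_mul, abs_of_nonneg (by positivity : 0 ≤ c)]
      refine mul_le_mul_of_nonneg_left (i2.trans ?_) (by positivity)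
      have := mul_le_mul_of_nonneg_left ht.2 (show 0 ≤ 2 + 2 * Λ' by positivity)
      rw [Av, mul_assoc 2 M2, mul_div_assoc]
      linarith
  have s3 : SD (fun x : V => fl (vf G) 0 s (x, v)) (E ^ 3 * (c * (B + 2 * X))) := fun x k => by
    simpa [sd] using s2 (x, v) (k, 0)
  simp only [den, h.bk_of_nonneg _ h0]
  refine d.sd.comp (by positivity) (by positivity) d.lip s3 fun a b => ?_
  refine (h.vF.fl_lip 0 s _ _).trans (mul_le_mul (Real.exp_le_exp.2 i1) ?_ (norm_nonneg _)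
    (by positivity))
  simp

theorem den_sd_past (d : Dat) (G : ST → Z) {s : ℝ} (hs : s ≤ 0) (v : V) :
    SD (fun x => den d G s (x, v)) d.F0 := by
  exact Traj2_past d G hs v

theorem Cl.den_stab (h : Cl Λ M1 l1 M2 l2 G) {G' : ST → Z} (h' : Cl Λ M1 l1 M2 l2 G') (d : Dat)
    {D lam t : ℝ} (hD : 0 ≤ D) (hl : 1 ≤ lam)
    (he : ∀ p : ST, p.1 ∈ Icc 0 t → ‖G p - G' p‖ ≤ D * Real.exp (lam * p.1)) {s : ℝ}
    (hs : s ∈ Icc 0 t) (w : Z) :
    |den d G s w - den d G' s w| ≤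
      2 * d.F0 * Real.exp (Av Λ M1 l1 t) * (D * Real.exp (lam * s) / lam) := by
  have hF := d.hF
  have e1 := h.vF.fl_stab h'.vF (β := fun r => 2 * D * Real.exp (lam * r)) (s := 0) (t := s)
    (by fun_prop) (fun r => by positivity) (fun r hr z => by
      rw [uIcc_of_ge hs.1] at hr
      have e1 := Traj1_lor (G (r, z.1)) (G' (r, z.1)) z.2 z.2
      have e2 := he (r, z.1) ⟨hr.1, hr.2.trans hs.2⟩
      rw [sub_self, norm_zero, zero_mul] at e1
      refine norm_prod_le_iff.2 ⟨?_, e1.trans (by linarith)⟩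
      simp only [vf, Prod.fst_sub, sub_self, norm_zero]
      positivity) w
  have e2 : ∫ r in s..0, 2 * D * Real.exp (lam * r) =
      2 * D * Real.exp (lam * 0) / lam - 2 * D * Real.exp (lam * s) / lam :=
    intervalIntegral.integral_eq_sub_of_hasDerivAt (f := fun r => 2 * D * Real.exp (lam * r) / lam)
      (fun r _ => by
        refine ((((hasDerivAt_id r).const_mul lam).exp.const_mul (2 * D)).div_const lam).congr_deriv ?_
        have : lam ≠ 0 := by positivity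
        simp only [id]
        field_simp) (Continuous.intervalIntegrable (by fun_prop) _ _)
  have e3 : |∫ r in s..0, 2 * D * Real.exp (lam * r)| ≤ 2 * (D * Real.exp (lam * s) / lam) := by
    have a1 : 0 ≤ 2 * D * Real.exp (lam * 0) / lam := by positivity
    have a2 : 2 * D * Real.exp (lam * 0) / lam ≤ 2 * D * Real.exp (lam * s) / lam := by
      gcongr
      exact hs.1
    rw [e2, abs_of_nonpos (by linarith), ← mul_div_assoc, ← mul_assoc]
    linarith
  rw [den, den, h.bk_of_nonneg _ hs.1, h'.bk_of_nonneg _ hs.1]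
  refine (d.lip _ _).trans ((mul_le_mul_of_nonneg_left (e1.trans (mul_le_mul (Real.exp_le_exp.2
    (int_Lv h.hΛ h.hM1 h.hl1 hs.1 hs.2).2) e3 (abs_nonneg _) (by positivity)))
    (by positivity)).trans_eq ?_)
  ring

/-- The charges at time `s` have density `den`. -/
theorem Cl.lint_slice (h : Cl Λ M1 l1 M2 l2 G) (d : Dat) (s : ℝ) {Φ : Z → ℝ≥0∞}
    (hΦ : Measurable Φ) :
    ∫⁻ z, Φ (tr G z s) ∂d.ν = ∫⁻ w, ENNReal.ofReal (den d G s w / (4 * Real.pi)) * Φ w := by
  have m1 : Measurable fun z => Φ (tr G z s) := hΦ.comp (h.measurePreserving_tr s).measurable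
  have m2 : Measurable fun w => ENNReal.ofReal (den d G s w / (4 * Real.pi)) :=
    ((h.continuous_den d).comp (continuous_const.prodMk continuous_id)).measurable.div_const _
      |>.ennreal_ofReal
  rw [Dat.ν, lintegral_withDensity_eq_lintegral_mul _
    (d.sm.continuous.measurable.div_const _).ennreal_ofReal m1]
  refine Eq.trans ?_ ((h.measurePreserving_tr s).lintegral_comp (m2.mul hΦ))
  simp only [Pi.mul_apply, h.den_tr]

theorem Cl.int_slice (h : Cl Λ M1 l1 M2 l2 G) (d : Dat) (s : ℝ) {F : Type} [NormedAddCommGroup F]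
    [NormedSpace ℝ F] [CompleteSpace F] {Φ : Z → F} (hΦ : Continuous Φ) :
    ∫ z, Φ (tr G z s) ∂d.ν = ∫ w, (den d G s w / (4 * Real.pi)) • Φ w := by
  let e : Z ≃ₜ Z := ⟨⟨fun z => tr G z s, bk G s, fun z => h.bk_tr z s, fun w => h.tr_bk w s⟩,
    h.continuous_tr.comp (continuous_id.prodMk continuous_const),
    h.continuous_bk.comp (continuous_const.prodMk continuous_id)⟩
  rw [Dat.ν, integral_withDensity_eq_integral_toReal_smul
    (d.sm.continuous.measurable.div_const _).ennreal_ofReal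
    (Eventually.of_forall fun _ => ENNReal.ofReal_lt_top)]
  refine Eq.trans ?_ ((h.measurePreserving_tr s).integral_comp e.measurableEmbedding
    fun w => (den d G s w / (4 * Real.pi)) • Φ w)
  refine integral_congr_ae (Eventually.of_forall fun z => ?_)
  have := d.nn z
  simp only [h.den_tr]
  rw [ENNReal.toReal_ofReal (by positivity)]

theorem Cl.contDiff_den (h : Cl Λ M1 l1 M2 l2 G) (d : Dat) :
    ContDiff ℝ 1 (fun p : ℝ × Z => d.f (fl (vf G) 0 p.1 p.2)) := by
  obtain ⟨c, hc, hs⟩ := vf_sd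
  have hΛ := h.hΛ
  have hM := h.hM1
  have hM2 := h.hM2
  exact (d.sm.of_le (by exact_mod_cast le_top)).comp
    (h.vF.contDiff_back (by fun_prop) (fun s => by positivity) (hs _ _ _ _ _ _ h) 0)

theorem Cl.transport (h : Cl Λ M1 l1 M2 l2 G) (d : Dat) (t : ℝ) (w : Z) :
    fderiv ℝ (fun p : ℝ × Z => d.f (fl (vf G) 0 p.1 p.2)) (t, w) (1, vf G t w) = 0 := by
  obtain ⟨c, hc, hs⟩ := vf_sd
  have hΛ := h.hΛ
  have hM := h.hM1
  have hM2 := h.hM2
  have e := (d.sm.differentiable (by simp) _).hasFDerivAt.comp (t, w)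
    (h.vF.hasFDerivAt_back (by fun_prop) (fun s => by positivity) (hs _ _ _ _ _ _ h) 0 t w)
  have e' : HasFDerivAt (fun p : ℝ × Z => d.f (fl (vf G) 0 p.1 p.2)) _ (t, w) := e
  rw [e'.fderiv]
  simp

theorem Cl.measurable_rt (h : Cl Λ M1 l1 M2 l2 G) :
    Measurable (fun x : Z × ST => rt G x.1 x.2) := by
  exact measurable_ret (Y := trY G) (W := trW G) h.tm h.continuous_tr.fst.measurable

theorem Cl.continuous_rt (h : Cl Λ M1 l1 M2 l2 G) (z : Z) : Continuous (rt G z) := by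
  exact (h.tm z).continuous_ret

theorem Cl.measurable_r (h : Cl Λ M1 l1 M2 l2 G) (p : ST) :
    Measurable (fun z => rt G z p) ∧ Measurable (fun z => rl G z p) ∧
      Measurable (fun z => rW G z p) ∧ Measurable (fun z => rF G z p) := by
  have m1 : Measurable (fun z => rt G z p) :=
    h.measurable_rt.comp (f := fun z : Z => (z, p)) (measurable_id.prodMk measurable_const)
  have m2 : Measurable (fun z => tr G z (rt G z p)) :=
    h.continuous_tr.measurable.comp (f := fun z : Z => (z, rt G z p)) (measurable_id.prodMk m1)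
  have m3 : Measurable (fun z => G (rt G z p, trY G z (rt G z p))) :=
    h.cont.measurable.comp (f := fun z : Z => (rt G z p, trY G z (rt G z p))) (m1.prodMk m2.fst)
  have m4 := continuous_lor.measurable.comp (m3.fst.prodMk (m3.snd.prodMk m2.snd))
  exact ⟨m1, measurable_const.sub m2.fst, m2.snd, m4⟩

theorem Cl.norm_rl (h : Cl Λ M1 l1 M2 l2 G) (z : Z) (p : ST) : ‖rl G z p‖ = p.1 - rt G z p := by
  exact eq_sub_of_add_eq' ((h.tm z).ret_eq p.1 p.2)

theorem Cl.norm_rF (h : Cl Λ M1 l1 M2 l2 G) (z : Z) (p : ST) : ‖rF G z p‖ ≤ 2 * Λ := by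
  refine (norm_lor_le _ _ _).trans ?_
  linarith [norm_fst_le (G (rt G z p, trY G z (rt G z p))),
    norm_snd_le (G (rt G z p, trY G z (rt G z p))), h.bdd (rt G z p, trY G z (rt G z p))]

theorem Cl.q_rW (h : Cl Λ M1 l1 M2 l2 G) {d : Dat} {t P : ℝ} (hP : Bd d G t P) {z : Z}
    (hz : z ∈ d.S) {p : ST} (hp : p.1 ≤ t) : q (rW G z p) ≤ P := by
  exact hP z hz _ (((h.tm z).ret_le p.1 p.2).trans hp)

/-- The retarded quantities are Lipschitz functions of the observation point. -/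
theorem Cl.r_lip (h : Cl Λ M1 l1 M2 l2 G) {d : Dat} {t P : ℝ} (hP : Bd d G t P) {z : Z}
    (hz : z ∈ d.S) {p p' : ST} (hp : p.1 ≤ t) (hp' : p'.1 ≤ t) :
    |rt G z p - rt G z p'| ≤ 4 * P ^ 2 * ‖p - p'‖ ∧ ‖rl G z p - rl G z p'‖ ≤ 5 * P ^ 2 * ‖p - p'‖ ∧
      ‖rW G z p - rW G z p'‖ ≤ 8 * Λ * P ^ 2 * ‖p - p'‖ ∧
      ‖rF G z p - rF G z p'‖ ≤
        (8 * M1 * Real.exp (l1 * max (max (rt G z p) (rt G z p')) 0) + 16 * Λ ^ 2) * P ^ 2 *
          ‖p - p'‖ := by
  have hΛ := h.hΛ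
  have hM := h.hM1
  have P1 : 1 ≤ P := (one_le_q _).trans (hP z hz t le_rfl)
  have P2 : 1 ≤ P ^ 2 := one_le_pow₀ P1
  have a1 : |p.1 - p'.1| ≤ ‖p - p'‖ := norm_fst_le (p - p')
  have a2 : ‖p.2 - p'.2‖ ≤ ‖p - p'‖ := norm_snd_le (p - p')
  have n := norm_nonneg (p - p')
  have e1 : |rt G z p - rt G z p'| ≤ 4 * P ^ 2 * ‖p - p'‖ :=
    ((h.tm z).ret_lip (fun s hs => hP z hz s (hs.trans (max_le hp hp'))) p.2 p'.2).trans (by nlinarith)
  have e2 := (h.tm z).lip_one (rt G z p') (rt G z p)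
  have e3 : ‖rW G z p - rW G z p'‖ ≤ 8 * Λ * P ^ 2 * ‖p - p'‖ :=
    (h.lip_trW z _ _).trans ((mul_le_mul_of_nonneg_left e1 (by positivity)).trans_eq (by ring))
  refine ⟨e1, ?_, e3, ?_⟩
  · rw [rl, rl, sub_sub_sub_comm]
    refine (norm_sub_le _ _).trans ?_
    nlinarith
  · have e4 := h.lip _ (le_max_right (max (rt G z p) (rt G z p')) 0)
      (rt G z p, trY G z (rt G z p)) (rt G z p', trY G z (rt G z p'))
      (le_max_of_le_left (le_max_left _ _)) (le_max_of_le_left (le_max_right _ _))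
    have e5 : ‖((rt G z p, trY G z (rt G z p)) : ST) - (rt G z p', trY G z (rt G z p'))‖ ≤
        4 * P ^ 2 * ‖p - p'‖ := norm_prod_le_iff.2 ⟨e1, e2.trans e1⟩
    have e6 := e4.trans (mul_le_mul_of_nonneg_left e5 (by positivity))
    have e7 : ‖vel (rW G z p) - vel (rW G z p')‖ ≤ 2 * (8 * Λ * P ^ 2 * ‖p - p'‖) :=
      (vel_lip _ _).trans ((div_le_self (by positivity) (one_le_q _)).trans (by linarith))
    have e8 := mul_le_mul e7 (h.bdd (rt G z p', trY G z (rt G z p'))) (norm_nonneg _)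
      (by positivity)
    refine (Traj1_lor _ _ _ _).trans ?_
    linarith

end

end Vale.Agent.P107
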