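import Vale.Agent.P107.Ener3
import Vale.Agent.P107.Boot
import Vale.Agent.P107.Fix

/-! Removal of the truncation. -/

namespace Vale.Agent.P107

open MeasureTheory Set Filter Topology
open scoped ENNReal RealInnerProductSpace

noncomputable section

theorem Trunc_lor_add (a b : Z) (U : V) :
    lor (a + b).1 (a + b).2 U = lor a.1 a.2 U + lor b.1 b.2 U := by
  simp only [lor, Prod.fst_add, Prod.snd_add, cross_add_right]
  abel

theorem exists_sys (d : Dat) {K : ST → Z} (hK : Pre d K) (T1 : ℝ) : ∃ En C0 : ℝ, 1 ≤ En ∧ 0 ≤ C0 ∧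
    ∀ T ∈ Icc 0 T1, ∀ G : ST → Z, Sol d K T G →
      ∃ S : Sys T d.F0 En C0 d.P0, S.S = d.S ∧ S.W = trW G := by
  obtain ⟨CK, hCK, hKb, -⟩ := hK.nice.bd T1
  obtain ⟨C, hC, hrep⟩ := rep_bound d
  refine ⟨max 1 (max (En0 d K) (2 * En0 d K)), 2 * CK + C, le_max_left _ _, by linarith,
    fun T hT G hG => ?_⟩
  obtain ⟨Λ, M1, l1, M2, l2, h⟩ := hG.cl
  have e1 : ENNReal.ofReal (En0 d K) ≤ ENNReal.ofReal (max 1 (max (En0 d K) (2 * En0 d K))) :=
    ENNReal.ofReal_le_ofReal ((le_max_left _ _).trans (le_max_right _ _))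
  have e2 : ENNReal.ofReal (2 * En0 d K) ≤ ENNReal.ofReal (max 1 (max (En0 d K) (2 * En0 d K))) :=
    ENNReal.ofReal_le_ofReal ((le_max_right _ _).trans (le_max_right _ _))
  refine ⟨{
    ν := d.ν
    S := d.S
    Y := trY G
    W := trW G
    E := fun s x => (G (s, x)).1
    B := fun s x => (G (s, x)).2
    Λ := Λ
    fin := inferInstance
    mS := d.measurableSet_S
    νS := d.ν_compl
    tm := h.tm
    mY := h.continuous_tr.fst.measurable
    mW := h.continuous_tr.snd.measurable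
    cE := h.cont.fst
    cB := h.cont.snd
    bE := fun t x => (norm_fst_le _).trans (h.bdd _)
    bB := fun t x => (norm_snd_le _).trans (h.bdd _)
    hW := fun z s hs => h.hasDerivAt_trW z hs
    init := fun z hz => bd_zero d G z hz 0 le_rfl
    cone := h.cone_le d
    enP := fun s hs => (hG.enP hK hs).trans e1
    enB := fun s hs => (hG.enB hK hs).trans e2
    flP := fun s hs x => (hG.flP hK hs x).trans e1
    flK := fun s hs x => (hG.flK hK hs x).trans e2
    rep := fun s hs x U => ?_ }, rfl, rfl⟩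
  have h1 := hrep Λ M1 l1 M2 l2 G h (s, x) U
  have h2 := hKb (s, x) ⟨hs.1, hs.2.trans hT.2⟩
  have h3 := norm_lor_le (K (s, x)).1 (K (s, x)).2 U
  have h4 := norm_fst_le (K (s, x))
  have h5 := norm_snd_le (K (s, x))
  rw [hG.eq (s, x) hs, HH, Trunc_lor_add, add_sub_assoc]
  exact (norm_add_le _ _).trans (add_le_add (by linarith) h1)

theorem exists_bd (d : Dat) {K : ST → Z} (hK : Pre d K) (T1 : ℝ) : ∃ P : ℝ, d.P0 ≤ P ∧
    ∀ T ∈ Icc 0 T1, ∀ G : ST → Z, Sol d K T G → Bd d G T P := by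
  obtain ⟨En, C0, hE, hC, h⟩ := exists_sys d hK T1
  obtain ⟨Ps, -, hP⟩ := apriori (max 1 T1) d.F0 En C0 d.P0 (le_max_left _ _) d.hF hE hC
  refine ⟨max d.P0 Ps, le_max_left _ _, fun T hT G hG z hz s hs => ?_⟩
  obtain ⟨S, h1, h2⟩ := h T hT G hG
  rw [← h2]
  exact (hP T hT.1 (hT.2.trans (le_max_right _ _)) S z (h1 ▸ hz) s hs).trans (le_max_right _ _)

theorem exists_sol (d : Dat) {K : ST → Z} (hK : Pre d K) {T : ℝ} (hT : 0 ≤ T) :
    ∃ G, Sol d K T G := by
  obtain ⟨P, hP0, hP⟩ := exists_bd d hK T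
  obtain ⟨C, hC, hsup⟩ := op_sup d P T
  obtain ⟨CK, hCK, hKb, hKl, -⟩ := hK.nice.bd T
  obtain ⟨N, hN⟩ : ∃ N, N = 2 * (CK + 2 * C) := ⟨_, rfl⟩
  have hN1 : 1 ≤ N := by linarith
  have hex : ∀ s, 0 ≤ s → 1 ≤ Real.exp (4 * C * s) := fun s hs => Real.one_le_exp (by positivity)
  have hmo : ∀ s t, s ≤ t → Real.exp (4 * C * s) ≤ Real.exp (4 * C * t) := fun s t h =>
    Real.exp_le_exp.2 (mul_le_mul_of_nonneg_left h (by positivity))
  obtain ⟨G, hcl, hG⟩ := exists_fix d hK.nice (A := 2 * N * Real.exp (4 * C * T)) hT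
    (by nlinarith [hex T hT])
  obtain ⟨Λ, M1, l1, M2, l2, h⟩ := hcl
  obtain ⟨L, hL, hlip⟩ : ∃ L : ℝ, 0 < L ∧ ∀ s ∈ Icc 0 T, ∀ t ∈ Icc 0 T, ∀ x,
      ‖HH d K G (s, x) - HH d K G (t, x)‖ ≤ L * |s - t| := by
    obtain ⟨C', hC', h1⟩ := op_lip d Λ T
    have := h.hM1
    have := h.hl1
    refine ⟨CK + C' * (1 + M1 * Real.exp (l1 * T) / l1), by positivity, fun s hs t ht x => ?_⟩
    have h2 := h1 M1 l1 M2 l2 G h T ⟨hT, le_rfl⟩ (s, x) (t, x) hs.2 ht.2
    have h3 := hKl (s, x) (t, x) hs ht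
    have h4 : ‖((s, x) : ST) - (t, x)‖ = |s - t| := by simp [Prod.norm_def]
    rw [h4] at h2 h3
    rw [HH, HH, add_sub_add_comm, add_mul]
    exact (norm_add_le _ _).trans (add_le_add h3 h2)
  have sol : ∀ t ∈ Icc 0 T, (∀ p : ST, p.1 ∈ Icc 0 t →
      ‖HH d K G p‖ ≤ 2 * N * Real.exp (4 * C * p.1)) → Sol d K t G := fun t ht hb =>
    ⟨⟨_, _, _, _, _, h⟩, fun p hp => hG p ⟨hp.1, hp.2.trans ht.2⟩ ((hb p hp).trans
      (mul_le_mul_of_nonneg_left (hmo _ _ (hp.2.trans ht.2)) (by positivity)))⟩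
  have step : ∀ t t', 0 ≤ t → t ≤ t' → t' ≤ T → t' ≤ t + N / L →
      (∀ p : ST, p.1 ∈ Icc 0 t → ‖HH d K G p‖ ≤ N * Real.exp (4 * C * p.1)) →
      ∀ p : ST, p.1 ∈ Icc 0 t' → ‖HH d K G p‖ ≤ N * Real.exp (4 * C * p.1) := by
    intro t t' h0 h1 h2 h3 ih
    have hb : ∀ p : ST, p.1 ∈ Icc 0 t' → ‖HH d K G p‖ ≤ 2 * N * Real.exp (4 * C * p.1) := by
      rintro ⟨s, x⟩ hs
      have h4 := hex s hs.1
      rcases le_total s t with h5 | h5
      · have h6 := ih (s, x) ⟨hs.1, h5⟩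
        simp only at h6 ⊢
        nlinarith
      · have h6 := ih (t, x) ⟨h0, le_rfl⟩
        have h7 := hlip s ⟨hs.1, hs.2.trans h2⟩ t ⟨h0, h1.trans h2⟩ x
        have h8 : L * |s - t| ≤ N := by
          rw [abs_of_nonneg (sub_nonneg.2 h5), mul_comm, ← le_div_iff₀ hL]
          linarith [hs.2]
        have h9 := norm_le_insert' (HH d K G (s, x)) (HH d K G (t, x))
        have h10 := mul_le_mul_of_nonneg_left (hmo t s h5) (zero_le_one.trans hN1)
        simp only at h6 ⊢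
        nlinarith
    have hs := sol t' ⟨h0.trans h1, h2⟩ hb
    have hbd := hP t' ⟨h0.trans h1, h2⟩ G hs
    rintro ⟨s, x⟩ hp
    have h4 := hsup Λ M1 l1 M2 l2 G h s ⟨hp.1, hp.2.trans h2⟩ (hbd.mono hp.2 le_rfl) (2 * N)
      (4 * C) (by positivity) (by linarith) (fun p hp' => by
        rw [hs.eq p ⟨hp'.1, hp'.2.trans hp.2⟩]
        exact hb p ⟨hp'.1, hp'.2.trans hp.2⟩) x
    have h5 : C * (1 + 2 * N * Real.exp (4 * C * s) / (4 * C)) =
        C + N * Real.exp (4 * C * s) / 2 := by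
      field_simp
      ring
    have h6 := hKb (s, x) ⟨hp.1, hp.2.trans h2⟩
    have h7 := mul_le_mul_of_nonneg_left (hex s hp.1) (zero_le_one.trans hN1)
    refine (norm_add_le _ _).trans ?_
    simp only
    linarith
  have ind : ∀ j : ℕ, ∀ p : ST, p.1 ∈ Icc 0 (min T (j * (N / L))) →
      ‖HH d K G p‖ ≤ N * Real.exp (4 * C * p.1) := by
    intro j
    induction j with
    | zero =>
      rintro ⟨s, x⟩ hs
      rw [Nat.cast_zero, zero_mul, min_eq_right hT] at hs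
      obtain rfl : s = 0 := le_antisymm hs.2 hs.1
      have hΛ := h.hΛ
      have h4 := hsup Λ M1 l1 M2 l2 G h 0 ⟨le_rfl, hT⟩ ((bd_zero d G).mono le_rfl hP0) Λ Λ
        (by positivity) hΛ (fun p hp => (h.bdd p).trans (le_mul_of_one_le_right (by positivity)
          (Real.one_le_exp (mul_nonneg (by positivity) hp.1)))) x
      rw [mul_zero, Real.exp_zero, mul_one, div_self (by positivity)] at h4
      have h6 := hKb (0, x) ⟨le_rfl, hT⟩
      refine (norm_add_le _ _).trans ?_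
      simp only [mul_zero, Real.exp_zero]
      linarith
    | succ j ih =>
      have h0 : 0 < N / L := by positivity
      refine step _ _ (le_min hT (by positivity)) (min_le_min le_rfl ?_) (min_le_left _ _) ?_ ih
      · push_cast; linarith
      · push_cast
        rw [← min_add_add_right, add_mul, one_mul]
        exact min_le_min (by linarith) le_rfl
  obtain ⟨j, hj⟩ := exists_nat_ge (T / (N / L))
  rw [div_le_iff₀ (by positivity)] at hj
  refine ⟨G, sol T ⟨hT, le_rfl⟩ fun p hp => (ind j p (by rwa [min_eq_left hj])).trans ?_⟩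
  have := hex p.1 hp.1
  nlinarith

end

end Vale.Agent.P107
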