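import Vale.Agent.P107.Ex
import Vale.Agent.P107.Geo

/-! Retarded potentials: regularity. -/

namespace Vale.Agent.P107

open MeasureTheory Set Filter Topology
open scoped ENNReal RealInnerProductSpace

noncomputable section

variable {F : Type} [NormedAddCommGroup F] [NormedSpace ℝ F] [CompleteSpace F]

theorem PS.bound {J : ST → F} (h : PS J) (M : ℝ) : ∃ ρ : ℝ, 0 < ρ ∧ ∀ (p : ST) (y : V), ‖p‖ ≤ M →
    J (p.1 - ‖y‖, p.2 - y) ≠ 0 → ‖y‖ ≤ ρ := by
  obtain ⟨R, κ, k0, k1, R0, hR⟩ := h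
  have a0 := abs_nonneg M
  have a1 := le_abs_self M
  refine ⟨(R + 2 * |M| + 1) / κ, by positivity, fun p y hp hy => ?_⟩
  have p1 := (abs_le.1 ((norm_fst_le p).trans hp)).1
  have p1' := (abs_le.1 ((norm_fst_le p).trans hp)).2
  have p2 := (norm_snd_le p).trans hp
  have y0 := norm_nonneg y
  rw [le_div_iff₀ k0]
  rcases hR _ hy with h1 | h1
  · simp only at h1
    nlinarith
  · simp only at h1
    have h2 : ‖y‖ ≤ ‖p.2‖ + ‖p.2 - y‖ := by
      have := norm_sub_le p.2 (p.2 - y)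
      rwa [sub_sub_cancel] at this
    nlinarith [mul_nonneg (sub_nonneg.2 k1) (show 0 ≤ p.1 + |M| by linarith), mul_nonneg k0.le a0]

theorem PS.of_imp {F' : Type} [Zero F'] {J : ST → F} {J' : ST → F'} (h : PS J)
    (hi : ∀ p, J p = 0 → J' p = 0) : PS J' := by
  obtain ⟨R, κ, k0, k1, R0, hR⟩ := h
  exact ⟨R, κ, k0, k1, R0, fun p hp => hR p fun h0 => hp (hi p h0)⟩

theorem PS.fderiv {J : ST → F} (h : PS J) : PS (fderiv ℝ J) := by
  obtain ⟨R, κ, k0, k1, R0, hR⟩ := h
  refine ⟨R, κ, k0, k1, R0, fun p hp => ?_⟩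
  have hc : IsClosed ({p : ST | -R ≤ p.1} ∪ {p : ST | ‖p.2‖ ≤ R - (1 - κ) * p.1}) :=
    (isClosed_le continuous_const continuous_fst).union (isClosed_le (by fun_prop) (by fun_prop))
  have h1 : p ∈ tsupport J := by
    by_contra h2
    exact hp (fderiv_of_notMem_tsupport ℝ h2)
  exact closure_minimal (fun q hq => hR q hq) hc h1

theorem PS.add {J J' : ST → F} (h : PS J) (h' : PS J') : PS (fun p => J p + J' p) := by
  obtain ⟨R, κ, k0, k1, R0, hR⟩ := h
  obtain ⟨R', κ', k0', k1', R0', hR'⟩ := h'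
  have key : ∀ (R1 κ1 : ℝ) (p : ST), R1 ≤ R + R' → min κ κ' ≤ κ1 →
      (-R1 ≤ p.1 ∨ ‖p.2‖ ≤ R1 - (1 - κ1) * p.1) →
      (-(R + R') ≤ p.1 ∨ ‖p.2‖ ≤ R + R' - (1 - min κ κ') * p.1) := by
    intro R1 κ1 p a b c
    rcases le_or_gt (-(R + R')) p.1 with d | d
    · exact Or.inl d
    · rcases c with c | c
      · exact Or.inl (by linarith)
      · exact Or.inr (by nlinarith)
  refine ⟨R + R', min κ κ', lt_min k0 k0', (min_le_left _ _).trans k1, by positivity,
    fun p hp => ?_⟩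
  by_cases h0 : J p = 0
  · refine key R' κ' p (by linarith) (min_le_right _ _) (hR' p fun h1 => hp ?_)
    simp only [h0, h1, add_zero]
  · exact key R κ p (by linarith) (min_le_left _ _) (hR p h0)

theorem PS.of_neg {J : ST → F} (h : ∀ p : ST, p.1 ≤ 0 → J p = 0) : PS J := by
  refine ⟨0, 1, one_pos, le_rfl, le_rfl, fun p hp => Or.inl ?_⟩
  by_contra h1
  exact hp (h p (by linarith [not_le.1 h1]))

theorem wave1_int {ρ : ℝ} (hρ : 0 ≤ ρ) :
    Integrable ((Metric.closedBall (0 : V) ρ).indicator fun y => (4 * Real.pi * ‖y‖)⁻¹) ∧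
      ∫ y, (Metric.closedBall (0 : V) ρ).indicator (fun y => (4 * Real.pi * ‖y‖)⁻¹) y ≤ ρ ^ 2 := by
  have hπ := Real.pi_pos
  have h1 := geo_ball_radial 0 ρ (fun s => ENNReal.ofReal (4 * Real.pi * s)⁻¹) (by fun_prop)
    (ENNReal.ofReal ρ) fun s hs hs' => by
      rw [← ENNReal.ofReal_mul (by positivity)]
      refine ENNReal.ofReal_le_ofReal (le_of_eq_of_le ?_ hs')
      field_simp
  simp only [zero_sub, norm_neg] at h1
  rw [← ENNReal.ofReal_mul hρ, ← sq] at h1
  have hm : AEStronglyMeasurable (fun y : V => (4 * Real.pi * ‖y‖)⁻¹)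
      (volume.restrict (Metric.closedBall (0 : V) ρ)) :=
    (show Measurable fun y : V => (4 * Real.pi * ‖y‖)⁻¹ by fun_prop).aestronglyMeasurable
  have h0 : 0 ≤ᵐ[volume.restrict (Metric.closedBall (0 : V) ρ)]
      fun y : V => (4 * Real.pi * ‖y‖)⁻¹ := Eventually.of_forall fun y => by positivity
  constructor
  · rw [integrable_indicator_iff measurableSet_closedBall]
    exact ⟨hm, (hasFiniteIntegral_iff_ofReal h0).2 (h1.trans_lt ENNReal.ofReal_lt_top)⟩
  · rw [integral_indicator measurableSet_closedBall, integral_eq_lintegral_of_nonneg_ae h0 hm]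
    exact ENNReal.toReal_le_of_le_ofReal (sq_nonneg ρ) h1

omit [CompleteSpace F] in
theorem wave1_le {ρ C : ℝ} {y : V} {a : F} (h1 : a ≠ 0 → ‖y‖ ≤ ρ) (h2 : ‖y‖ ≤ ρ → ‖a‖ ≤ C) :
    ‖(4 * Real.pi * ‖y‖)⁻¹ • a‖ ≤
      (Metric.closedBall (0 : V) ρ).indicator (fun y => (4 * Real.pi * ‖y‖)⁻¹) y * C := by
  have hπ := Real.pi_pos
  by_cases hy : ‖y‖ ≤ ρ
  · rw [indicator_of_mem (mem_closedBall_zero_iff.2 hy), norm_smul, Real.norm_eq_abs,
      abs_of_nonneg (by positivity)]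
    exact mul_le_mul_of_nonneg_left (h2 hy) (by positivity)
  · rw [indicator_of_notMem (mt mem_closedBall_zero_iff.1 hy), not_not.1 (mt h1 hy)]
    simp

theorem wave1_dom {J : ST → F} (hc : Continuous J) (h : PS J) (M : ℝ) :
    ∃ b : V → ℝ, Integrable b ∧ ∀ p : ST, ‖p‖ ≤ M → ∀ y : V,
      ‖(4 * Real.pi * ‖y‖)⁻¹ • J (p.1 - ‖y‖, p.2 - y)‖ ≤ b y := by
  obtain ⟨ρ, ρ0, hρ⟩ := h.bound M
  obtain ⟨C, hC⟩ := (isCompact_closedBall (0 : ST) (M + ρ)).exists_bound_of_continuousOn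
    hc.continuousOn
  refine ⟨_, (wave1_int ρ0.le).1.mul_const C, fun p hp y =>
    wave1_le (hρ p y hp) fun hy => hC _ (mem_closedBall_zero_iff.2 ?_)⟩
  have e : ((p.1 - ‖y‖, p.2 - y) : ST) = p - (‖y‖, y) := rfl
  rw [e]
  refine (norm_sub_le _ _).trans (add_le_add hp ?_)
  rw [Prod.norm_def, norm_norm, max_self]
  exact hy

omit [CompleteSpace F] in
theorem wave1_meas {J : ST → F} (hc : Continuous J) (p : ST) :
    AEStronglyMeasurable (fun y : V => (4 * Real.pi * ‖y‖)⁻¹ • J (p.1 - ‖y‖, p.2 - y)) volume :=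
  (show Measurable fun y : V => (4 * Real.pi * ‖y‖)⁻¹ by fun_prop).aestronglyMeasurable.smul
    (hc.comp (by fun_prop)).aestronglyMeasurable

theorem wave1_nhds (p : ST) : {q : ST | ‖q‖ ≤ ‖p‖ + 1} ∈ 𝓝 p :=
  continuous_norm.continuousAt.eventually (ge_mem_nhds (lt_add_one _))

theorem integrable_rp {J : ST → F} (hc : Continuous J) (h : PS J) (p : ST) :
    Integrable (fun y : V => (4 * Real.pi * ‖y‖)⁻¹ • J (p.1 - ‖y‖, p.2 - y)) := by
  obtain ⟨b, hb, hle⟩ := wave1_dom hc h ‖p‖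
  exact hb.mono' (wave1_meas hc p) (Eventually.of_forall (hle p le_rfl))

theorem continuous_rp {J : ST → F} (hc : Continuous J) (h : PS J) : Continuous (rp J) := by
  refine continuous_iff_continuousAt.2 fun p => ?_
  obtain ⟨b, hb, hle⟩ := wave1_dom hc h (‖p‖ + 1)
  refine continuousAt_of_dominated (Eventually.of_forall (wave1_meas hc)) ?_ hb
    (Eventually.of_forall fun y => Continuous.continuousAt (by fun_prop))
  filter_upwards [wave1_nhds p] with q hq
  exact Eventually.of_forall (hle q hq)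

theorem rp_clm {F' : Type} [NormedAddCommGroup F'] [NormedSpace ℝ F'] [CompleteSpace F']
    {J : ST → F} (hc : Continuous J) (h : PS J) (A : F →L[ℝ] F') (p : ST) :
    A (rp J p) = rp (fun p => A (J p)) p := by
  unfold rp
  rw [← A.integral_comp_comm (integrable_rp hc h p)]
  simp only [map_smul]

theorem rp_add {J J' : ST → F} (hc : Continuous J) (h : PS J) (hc' : Continuous J') (h' : PS J')
    (p : ST) : rp (fun p => J p + J' p) p = rp J p + rp J' p := by
  unfold rp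
  rw [← integral_add (integrable_rp hc h p) (integrable_rp hc' h' p)]
  simp only [smul_add]

theorem hasFDerivAt_rp {J : ST → F} (hc : ContDiff ℝ 1 J) (h : PS J) (p : ST) :
    HasFDerivAt (rp J) (rp (fderiv ℝ J) p) p := by
  have hc' := hc.continuous_fderiv one_ne_zero
  obtain ⟨b, hb, hle⟩ := wave1_dom hc' h.fderiv (‖p‖ + 1)
  refine hasFDerivAt_integral_of_dominated_of_fderiv_le (wave1_nhds p)
    (F' := fun (q : ST) (y : V) => (4 * Real.pi * ‖y‖)⁻¹ • fderiv ℝ J (q.1 - ‖y‖, q.2 - y))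
    (Eventually.of_forall (wave1_meas hc.continuous)) (integrable_rp hc.continuous h p)
    (wave1_meas hc' p) (Eventually.of_forall fun y q hq => hle q hq y) hb
    (Eventually.of_forall fun y q _ => ?_)
  have h1 : HasFDerivAt (fun q : ST => J (q - (‖y‖, y))) (fderiv ℝ J (q - (‖y‖, y))) q :=
    (hc.differentiable one_ne_zero _).hasFDerivAt.comp q ((hasFDerivAt_id q).sub_const _)
  exact h1.const_smul _

theorem contDiff_rp (n : ℕ) {J : ST → F} (hc : ContDiff ℝ n J) (h : PS J) :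
    ContDiff ℝ n (rp J) := by
  induction n generalizing F with
  | zero => exact contDiff_zero.2 (continuous_rp hc.continuous h)
  | succ n ih =>
    have h1 : ContDiff ℝ 1 J := hc.of_le (by exact_mod_cast Nat.le_add_left 1 n)
    rw [Nat.cast_succ] at hc ⊢
    refine contDiff_succ_iff_fderiv.2 ⟨fun p => (hasFDerivAt_rp h1 h p).differentiableAt,
      fun h0 => absurd h0 (by simp), ?_⟩
    rw [show fderiv ℝ (rp J) = rp (fderiv ℝ J) from funext fun p => (hasFDerivAt_rp h1 h p).fderiv]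
    exact ih (contDiff_succ_iff_fderiv.1 hc).2.2 h.fderiv

theorem rp_of_neg {J : ST → F} (h : ∀ p : ST, p.1 ≤ 0 → J p = 0) {p : ST} (hp : p.1 ≤ 0) :
    rp J p = 0 := by
  unfold rp
  refine integral_eq_zero_of_ae (Eventually.of_forall fun y => ?_)
  simp only [Pi.zero_apply]
  rw [h _ (by linarith [norm_nonneg y]), smul_zero]

theorem norm_rp_le {J : ST → F} (h : ∀ p : ST, p.1 ≤ 0 → J p = 0) {M T : ℝ} (hM : 0 ≤ M)
    (hb : ∀ p : ST, p.1 ∈ Icc 0 T → ‖J p‖ ≤ M) {p : ST} (hp : p.1 ∈ Icc 0 T) :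
    ‖rp J p‖ ≤ M * T ^ 2 := by
  have key : ∀ y : V, J (p.1 - ‖y‖, p.2 - y) ≠ 0 → ‖y‖ ≤ p.1 := fun y hy => by
    by_contra h1
    exact hy (h _ (by linarith [not_le.1 h1]))
  have h1 := wave1_int (hp.1.trans hp.2)
  refine (norm_integral_le_of_norm_le (h1.1.mul_const M) (Eventually.of_forall fun y =>
    wave1_le (fun hy => (key y hy).trans hp.2) fun _ => ?_)).trans ?_
  · by_cases hy : J (p.1 - ‖y‖, p.2 - y) = 0
    · rwa [hy, norm_zero]
    · exact hb _ ⟨sub_nonneg.2 (key y hy), (sub_le_self _ (norm_nonneg y)).trans hp.2⟩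
  · rw [integral_mul_const, mul_comm]
    exact mul_le_mul_of_nonneg_left h1.2 hM

theorem SD_rp {J : ST → F} (hc : Continuous J) (h : ∀ p : ST, p.1 ≤ 0 → J p = 0) {M T : ℝ}
    (hM : 0 ≤ M) (hb : ∀ s ∈ Icc 0 T, SD (fun x => J (s, x)) M) {s : ℝ} (hs : s ∈ Icc 0 T) :
    SD (fun x => rp J (s, x)) (M * T ^ 2) := by
  intro z v
  have hP := PS.of_neg h
  have e : sd (fun x => rp J (s, x)) z v = rp (fun p : ST => sd (fun x => J (p.1, x)) p.2 v) (s, z) := by
    have i1 := integrable_rp hc hP (s, z + v)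
    have i2 := integrable_rp hc hP (s, z - v)
    have i3 := (integrable_rp hc hP (s, z)).smul (2 : ℝ)
    unfold sd rp
    rw [← integral_add i1 i2, ← integral_smul]
    refine (integral_sub (i1.add i2) i3).symm.trans
      (integral_congr_ae (Eventually.of_forall fun y => ?_))
    simp only [Pi.add_apply, Pi.smul_apply, smul_add, smul_sub, add_sub_right_comm, sub_right_comm z v y,
      smul_comm (2 : ℝ)]
  rw [e, mul_right_comm]
  refine norm_rp_le (fun p hp => ?_) (by positivity) (fun p hp => hb p.1 hp p.2 v) hs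
  simp only [sd]
  rw [h (p.1, p.2 + v) hp, h (p.1, p.2 - v) hp, h (p.1, p.2) hp]
  simp

end

end Vale.Agent.P107
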