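import Vale.Agent.P107.Wave1

/-! Retarded potentials invert the wave operator. -/

namespace Vale.Agent.P107

open MeasureTheory Set Filter Topology
open scoped ENNReal RealInnerProductSpace

noncomputable section

/-- The wave operator. -/
def box4 (g : ST → ℝ) (p : ST) : ℝ :=
  fderiv ℝ (fun p => fderiv ℝ g p e0) p e0 - ∑ i, fderiv ℝ (fun p => fderiv ℝ g p (ei i)) p (ei i)

namespace W2

/-- Regularised distance. -/
def sg (ε : ℝ) (y : V) : ℝ := √(‖y‖ ^ 2 + ε ^ 2)

/-- Regularised backward cone. -/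
def gm (p : ST) (ε : ℝ) (y : V) : ST := (p.1 - sg ε y, p.2 - y)

/-- Directional derivative. -/
def dd (g : ST → ℝ) (e : ST) (q : ST) : ℝ := fderiv ℝ g q e

theorem sg_sq (ε : ℝ) (y : V) : sg ε y ^ 2 = ‖y‖ ^ 2 + ε ^ 2 := Real.sq_sqrt (by positivity)

theorem norm_le_sg (ε : ℝ) (y : V) : ‖y‖ ≤ sg ε y :=
  Real.le_sqrt_of_sq_le (le_add_of_nonneg_right (sq_nonneg _))

theorem le_sg (ε : ℝ) (y : V) : ε ≤ sg ε y :=
  Real.le_sqrt_of_sq_le (le_add_of_nonneg_left (sq_nonneg _))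

theorem sg_pos {ε : ℝ} (hε : 0 < ε) (y : V) : 0 < sg ε y := hε.trans_le (le_sg ε y)

theorem sg_le {ε : ℝ} (hε : 0 ≤ ε) (y : V) : sg ε y ≤ ‖y‖ + ε :=
  Real.sqrt_le_iff.2 ⟨by positivity, by nlinarith [norm_nonneg y]⟩

theorem sg_zero (y : V) : sg 0 y = ‖y‖ := by simp [sg]

theorem sg_smul {ε : ℝ} (hε : 0 ≤ ε) (z : V) : sg ε (ε • z) = ε * sg 1 z := by
  rw [sg, sg, norm_smul, Real.norm_eq_abs, abs_of_nonneg hε,
    show (ε * ‖z‖) ^ 2 + ε ^ 2 = ε ^ 2 * (‖z‖ ^ 2 + 1 ^ 2) by ring,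
    Real.sqrt_mul (sq_nonneg _), Real.sqrt_sq hε]

theorem cont_sg' (ε : ℝ) : Continuous (sg ε) := by
  unfold sg
  fun_prop

theorem cont_gm (p : ST) {X : Type} [TopologicalSpace X] {a : X → ℝ} {b : X → V}
    (ha : Continuous a) (hb : Continuous b) : Continuous fun z => gm p (a z) (b z) := by
  unfold gm sg
  fun_prop

theorem cont_gm' (p : ST) (ε : ℝ) : Continuous (gm p ε) :=
  (continuous_const.sub (cont_sg' ε)).prodMk (continuous_const.sub continuous_id)

theorem PS_dd {g : ST → ℝ} (h : PS g) (e : ST) : PS (dd g e) :=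
  h.fderiv.of_imp fun q hq => by simp [dd, hq]

theorem cd_dd {n : ℕ} {g : ST → ℝ} (h : ContDiff ℝ (n + 1 : ℕ) g) (e : ST) :
    ContDiff ℝ n (dd g e) :=
  (h.fderiv_right (m := n) (by simp)).clm_apply contDiff_const

theorem cont_dd {g : ST → ℝ} (h : ContDiff ℝ 1 g) (e : ST) : Continuous (dd g e) :=
  (h.continuous_fderiv one_ne_zero).clm_apply continuous_const

theorem dd_dd {g : ST → ℝ} (h : ContDiff ℝ 2 g) (u v q : ST) :
    dd (dd g u) v q = fderiv ℝ (fderiv ℝ g) q v u := by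
  have h1 : DifferentiableAt ℝ (fderiv ℝ g) q :=
    (h.fderiv_right (m := 1) (by norm_num)).differentiable one_ne_zero q
  show fderiv ℝ (fun q => fderiv ℝ g q u) q v = _
  rw [fderiv_clm_apply h1 (differentiableAt_const u)]
  simp

theorem box_eq (g : ST → ℝ) (q : ST) :
    box4 g q = dd (dd g e0) e0 q - ∑ i, dd (dd g (ei i)) (ei i) q := rfl

theorem dd_comm {g : ST → ℝ} (h : ContDiff ℝ 2 g) (e e' q : ST) :
    dd (dd g e) e' q = dd (dd g e') e q := by
  rw [dd_dd h, dd_dd h]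
  exact h.contDiffAt.isSymmSndFDerivAt (by simp) _ _

theorem unif {g : ST → ℝ} (hc : Continuous g) (h : PS g) (p : ST) :
    ∃ ρ C : ℝ, 0 ≤ C ∧ ∀ ε ∈ Icc (0 : ℝ) 1, ∀ y : V,
      ‖g (gm p ε y)‖ ≤ C ∧ (ρ ≤ ‖y‖ → g (gm p ε y) = 0) := by
  obtain ⟨ρ, -, hρ⟩ := h.bound (‖p‖ + 1)
  have h1 : ∀ ε ∈ Icc (0 : ℝ) 1, ∀ y : V, g (gm p ε y) ≠ 0 → ‖y‖ ≤ ρ := by
    intro ε hε y hy
    refine hρ (p.1 - sg ε y + ‖y‖, p.2) y ?_ (by simpa [gm] using hy)
    have h2 := norm_le_sg ε y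
    have h3 := sg_le hε.1 y
    have h4 := abs_le.1 (norm_fst_le p)
    rw [Prod.norm_def]
    refine max_le (abs_le.2 ⟨?_, ?_⟩) ((norm_snd_le p).trans (by linarith))
    · linarith [hε.2, h4.1]
    · linarith [hε.2, h4.2]
  have hK : IsCompact (Icc (0 : ℝ) 1 ×ˢ Metric.closedBall (0 : V) ρ) :=
    isCompact_Icc.prod (isCompact_closedBall _ _)
  obtain ⟨C, hC⟩ := hK.exists_bound_of_continuousOn
    (hc.comp (cont_gm p continuous_fst continuous_snd)).continuousOn
  refine ⟨ρ + 1, max C 0, le_max_right _ _, fun ε hε y => ⟨?_, fun hy => ?_⟩⟩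
  · by_cases hy : g (gm p ε y) = 0
    · simp [hy]
    · exact (hC (ε, y) ⟨hε, mem_closedBall_zero_iff.2 (h1 ε hε y hy)⟩).trans (le_max_left _ _)
  · by_contra h0
    linarith [h1 ε hε y h0]

theorem intg {g : ST → ℝ} (hc : Continuous g) (h : PS g) (p : ST) {ε : ℝ} (hε : ε ∈ Icc (0 : ℝ) 1)
    {k : V → ℝ} (hk : Continuous k) : Integrable fun y => k y * g (gm p ε y) := by
  obtain ⟨ρ, C, -, h1⟩ := unif hc h p
  refine (hk.mul (hc.comp (cont_gm' p ε))).integrable_of_hasCompactSupport ?_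
  refine HasCompactSupport.intro (isCompact_closedBall (0 : V) ρ) fun y hy => ?_
  have h2 : ρ ≤ ‖y‖ := (not_le.1 (mt mem_closedBall_zero_iff.2 hy)).le
  show k y * g (gm p ε y) = 0
  rw [(h1 ε hε y).2 h2, mul_zero]

theorem line (y : V) (i : Fin 3) :
    HasDerivAt (fun τ : ℝ => y + τ • EuclideanSpace.single i (1 : ℝ))
      (EuclideanSpace.single i (1 : ℝ)) 0 := by
  simpa using ((hasDerivAt_id (0 : ℝ)).smul_const (EuclideanSpace.single i (1 : ℝ))).const_add y

theorem line_co (y : V) (i : Fin 3) :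
    HasDerivAt (fun τ : ℝ => (y + τ • EuclideanSpace.single i (1 : ℝ) : V) i) 1 0 := by
  simpa using (hasDerivAt_id (0 : ℝ)).const_add (y i)

theorem line_sg {ε : ℝ} (hε : 0 < ε) (y : V) (i : Fin 3) :
    HasDerivAt (fun τ : ℝ => sg ε (y + τ • EuclideanSpace.single i (1 : ℝ))) (y i / sg ε y) 0 := by
  have h1 := ((line y i).norm_sq.add_const (ε ^ 2)).sqrt (by positivity)
  refine h1.congr_deriv ?_
  have h0 := (sg_pos hε y).ne'
  simp only [zero_smul, add_zero, EuclideanSpace.inner_single_right, conj_trivial, one_mul]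
  change _ / (2 * sg ε y) = _
  field_simp

theorem line_gm {ε : ℝ} (hε : 0 < ε) {g : ST → ℝ} (hg : Differentiable ℝ g) (p : ST) (y : V)
    (i : Fin 3) :
    HasDerivAt (fun τ : ℝ => g (gm p ε (y + τ • EuclideanSpace.single i (1 : ℝ))))
      (-(y i / sg ε y) * dd g e0 (gm p ε y) - dd g (ei i) (gm p ε y)) 0 := by
  have h1 : HasDerivAt (fun τ : ℝ => gm p ε (y + τ • EuclideanSpace.single i (1 : ℝ)))
      (-(y i / sg ε y) • e0 - ei i) 0 := by
    refine (((line_sg hε y i).const_sub p.1).prodMk ((line y i).const_sub p.2)).congr_deriv ?_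
    simp [e0, ei]
  have h2 := (hg _).hasFDerivAt.comp_hasDerivAt (0 : ℝ) h1
  refine h2.congr_deriv ?_
  simp only [zero_smul, add_zero, map_sub, map_smul, smul_eq_mul, dd]

/-- Integrable with integral zero. -/
def Nl (f : V → ℝ) : Prop := Integrable f ∧ ∫ y, f y = 0

theorem Nl.sub {f g : V → ℝ} (hf : Nl f) (hg : Nl g) : Nl fun y => f y - g y :=
  ⟨hf.1.sub hg.1, by rw [integral_sub hf.1 hg.1, hf.2, hg.2, sub_zero]⟩

theorem Nl.add {f g : V → ℝ} (hf : Nl f) (hg : Nl g) : Nl fun y => f y + g y :=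
  ⟨hf.1.add hg.1, by rw [integral_add hf.1 hg.1, hf.2, hg.2, add_zero]⟩

theorem ibp {ε : ℝ} (hε : ε ∈ Ioc (0 : ℝ) 1) {g : ST → ℝ} (hg : ContDiff ℝ 1 g) (h : PS g) (p : ST)
    (i : Fin 3) {k k' : V → ℝ} (hk : Continuous k) (hk' : Continuous k')
    (hd : ∀ y, HasDerivAt (fun τ : ℝ => k (y + τ • EuclideanSpace.single i (1 : ℝ))) (k' y) 0) :
    Nl fun y => k' y * g (gm p ε y) +
      k y * (-(y i / sg ε y) * dd g e0 (gm p ε y) - dd g (ei i) (gm p ε y)) := by
  have hε' : ε ∈ Icc (0 : ℝ) 1 := Ioc_subset_Icc_self hε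
  have h1 := intg hg.continuous h p hε' hk'
  have h2 := intg hg.continuous h p hε' hk
  have hs := cont_sg' ε
  have h3 := intg (cont_dd hg e0) (PS_dd h e0) p hε'
    (k := fun y => k y * -(y i / sg ε y))
    (hk.mul (Continuous.div (by fun_prop) hs fun y => (sg_pos hε.1 y).ne').neg)
  have h4 := intg (cont_dd hg (ei i)) (PS_dd h (ei i)) p hε' hk
  have h5 : Integrable fun y =>
      k y * (-(y i / sg ε y) * dd g e0 (gm p ε y) - dd g (ei i) (gm p ε y)) := by
    refine (h3.sub h4).congr (Eventually.of_forall fun y => ?_)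
    simp only [Pi.sub_apply]
    ring
  refine ⟨h1.add h5, ?_⟩
  have h6 := integral_bilinear_hasLineDerivAt_right_eq_neg_left_of_integrable
    (B := ContinuousLinearMap.mul ℝ ℝ) (v := EuclideanSpace.single i (1 : ℝ)) h1 h5 h2
    (fun y _ => hd y) (fun y _ => line_gm hε.1 (hg.differentiable one_ne_zero) p y i)
  rw [integral_add h1 h5]
  simp only [ContinuousLinearMap.mul_apply'] at h6
  rw [h6, add_neg_cancel]

theorem main {ε : ℝ} (hε : ε ∈ Ioc (0 : ℝ) 1) {J : ST → ℝ} (hc : ContDiff ℝ 2 J) (h : PS J)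
    (p : ST) : Nl fun y => ε ^ 0 / sg ε y ^ (0 + 1) * box4 J (gm p ε y) -
      ε ^ 2 / sg ε y ^ (2 + 1) * dd (dd J e0) e0 (gm p ε y) -
      3 * (ε ^ 2 / sg ε y ^ (2 + 2) * dd J e0 (gm p ε y)) -
      3 * ε ^ 2 / sg ε y ^ 5 * J (gm p ε y) := by
  have hs := cont_sg' ε
  have h0 : ∀ y, sg ε y ≠ 0 := fun y => (sg_pos hε.1 y).ne'
  have hc1 : ∀ e, ContDiff ℝ 1 (dd J e) := fun e => cd_dd (n := 1) hc e
  have hA := fun i : Fin 3 => ibp hε (hc1 (ei i)) (PS_dd h _) p i (k := fun y => 1 / sg ε y)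
    (k' := fun y => -y i / sg ε y ^ 3) (continuous_const.div hs h0)
    (Continuous.div (by fun_prop) (hs.pow 3) fun y => pow_ne_zero _ (h0 y)) fun y => by
      refine ((hasDerivAt_const _ (1 : ℝ)).div (line_sg hε.1 y i) (h0 _)).congr_deriv ?_
      have := h0 y
      simp only [zero_smul, add_zero]
      field_simp
      ring
  have hB := fun i : Fin 3 => ibp hε (hc1 e0) (PS_dd h _) p i (k := fun y => y i / sg ε y ^ 2)
    (k' := fun y => (sg ε y ^ 2 - 2 * y i ^ 2) / sg ε y ^ 4)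
    (Continuous.div (by fun_prop) (hs.pow 2) fun y => pow_ne_zero _ (h0 y))
    (Continuous.div (by fun_prop) (hs.pow 4) fun y => pow_ne_zero _ (h0 y)) fun y => by
      refine ((line_co y i).div ((line_sg hε.1 y i).pow 2) (pow_ne_zero _ (h0 _))).congr_deriv ?_
      have := h0 y
      simp only [zero_smul, add_zero, Pi.pow_apply]
      field_simp
      ring
  have hC := fun i : Fin 3 => ibp hε (hc.of_le one_le_two) h p i (k := fun y => y i / sg ε y ^ 3)
    (k' := fun y => (sg ε y ^ 2 - 3 * y i ^ 2) / sg ε y ^ 5)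
    (Continuous.div (by fun_prop) (hs.pow 3) fun y => pow_ne_zero _ (h0 y))
    (Continuous.div (by fun_prop) (hs.pow 5) fun y => pow_ne_zero _ (h0 y)) fun y => by
      refine ((line_co y i).div ((line_sg hε.1 y i).pow 3) (pow_ne_zero _ (h0 _))).congr_deriv ?_
      have := h0 y
      simp only [zero_smul, add_zero, Pi.pow_apply]
      field_simp
      ring
  have hD := fun i : Fin 3 => ((hA i).sub (hB i)).sub (hC i)
  have hE := ((hD 0).add (hD 1)).add (hD 2)
  refine (congrArg Nl (funext fun y => ?_)).mp hE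
  have h1 : ε ^ 2 = sg ε y ^ 2 - y 0 ^ 2 - y 1 ^ 2 - y 2 ^ 2 := by
    rw [sg_sq, normsq3]
    ring
  have h3 := h0 y
  rw [h1, box_eq, Fin.sum_univ_three, dd_comm hc (ei 0) e0, dd_comm hc (ei 1) e0,
    dd_comm hc (ei 2) e0]
  field_simp
  ring

theorem lim1 {g : ST → ℝ} (hc : Continuous g) (h : PS g) (p : ST) (m a : ℕ) (ha : a < 3) :
    Tendsto (fun ε : ℝ => ∫ y, ε ^ m / sg ε y ^ (m + a) * g (gm p ε y)) (𝓝[>] 0)
      (𝓝 (∫ y, 0 ^ m / ‖y‖ ^ (m + a) * g (gm p 0 y))) := by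
  obtain ⟨ρ, C, hC, h1⟩ := unif hc h p
  have hi : IntegrableOn (fun y : V => C / ‖y‖ ^ a) (Metric.ball 0 ρ) := by
    refine integrableOn_ball_of_norm_le_rpow (C := C) (α := a) (by simp) (by simpa using ha)
      (Eventually.of_forall fun y => ?_) (Measurable.aestronglyMeasurable (by fun_prop))
    rw [Real.rpow_neg (norm_nonneg _), Real.rpow_natCast, Real.norm_of_nonneg (by positivity),
      div_eq_mul_inv]
  have h0 : ∀ᵐ y : V, y ≠ 0 := by simp [ae_iff]
  refine tendsto_integral_filter_of_dominated_convergence _ ?_ ?_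
    ((integrable_indicator_iff Metric.isOpen_ball.measurableSet).2 hi) ?_
  · filter_upwards [Ioc_mem_nhdsGT one_pos] with ε hε
    exact (intg hc h p (Ioc_subset_Icc_self hε) (continuous_const.div ((cont_sg' ε).pow _)
      fun y => pow_ne_zero _ (sg_pos hε.1 y).ne')).aestronglyMeasurable
  · filter_upwards [Ioc_mem_nhdsGT one_pos] with ε hε
    filter_upwards [h0] with y hy
    have h2 := h1 ε (Ioc_subset_Icc_self hε) y
    by_cases h3 : y ∈ Metric.ball (0 : V) ρ
    · have h4 := sg_pos hε.1 y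
      have h5 := hε.1
      have h6 := norm_pos_iff.2 hy
      rw [indicator_of_mem h3, norm_mul, Real.norm_of_nonneg (by positivity), div_eq_inv_mul C]
      refine mul_le_mul ?_ h2.1 (norm_nonneg _) (by positivity)
      rw [div_le_iff₀ (by positivity), ← div_eq_inv_mul, le_div_iff₀ (by positivity), pow_add]
      exact mul_le_mul (pow_le_pow_left₀ h5.le (le_sg ε y) m)
        (pow_le_pow_left₀ h6.le (norm_le_sg ε y) a) (by positivity) (by positivity)
    · rw [indicator_of_notMem h3, h2.2 (not_lt.1 (mt mem_ball_zero_iff.2 h3)), mul_zero, norm_zero]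
  · filter_upwards [h0] with y hy
    have h2 : Continuous fun ε : ℝ => sg ε y := by
      unfold sg
      fun_prop
    have h3 : Continuous fun ε : ℝ => g (gm p ε y) :=
      hc.comp (cont_gm p continuous_id' continuous_const)
    have h4 : ContinuousAt (fun ε : ℝ => ε ^ m / sg ε y ^ (m + a) * g (gm p ε y)) 0 :=
      (ContinuousAt.div (by fun_prop) (h2.pow _).continuousAt
        (pow_ne_zero _ ((sg_zero y).trans_ne (norm_ne_zero_iff.2 hy)))).mul h3.continuousAt
    have h5 := h4.tendsto.mono_left (nhdsWithin_le_nhds (s := Ioi 0))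
    rwa [sg_zero] at h5

theorem rad : ∫ r in Ioi (0 : ℝ), r ^ 2 * (3 / √(r ^ 2 + 1 ^ 2) ^ 5) = 1 := by
  have hp : ∀ r : ℝ, 0 < √(r ^ 2 + 1 ^ 2) := fun r => Real.sqrt_pos.2 (by positivity)
  have hd : ∀ r : ℝ, HasDerivAt (fun r : ℝ => (r / √(r ^ 2 + 1 ^ 2)) ^ 3)
      (r ^ 2 * (3 / √(r ^ 2 + 1 ^ 2) ^ 5)) r := fun r => by
    have h1 := (((hasDerivAt_id' r).pow 2).add_const ((1 : ℝ) ^ 2)).sqrt
      (by positivity : r ^ 2 + 1 ^ 2 ≠ 0)
    refine (((hasDerivAt_id' r).div h1 (hp r).ne').pow 3).congr_deriv ?_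
    have h2 : √(r ^ 2 + 1 ^ 2) ^ 2 = r ^ 2 + 1 ^ 2 := Real.sq_sqrt (by positivity)
    have h3 := (hp r).ne'
    simp only [Pi.pow_apply, Pi.div_apply, Nat.cast_ofNat, Nat.add_one_sub_one, pow_one, mul_one]
    generalize √(r ^ 2 + 1 ^ 2) = s at h2 h3 ⊢
    field_simp
    linear_combination r ^ 2 * h2
  have hl : Tendsto (fun r : ℝ => (r / √(r ^ 2 + 1 ^ 2)) ^ 3) atTop (𝓝 1) := by
    have h1 : Tendsto (fun r : ℝ => r / √(r ^ 2 + 1 ^ 2)) atTop (𝓝 1) := by
      have h2 : Tendsto (fun r : ℝ => 1 - r⁻¹) atTop (𝓝 (1 - 0)) :=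
        tendsto_const_nhds.sub tendsto_inv_atTop_zero
      rw [sub_zero] at h2
      refine tendsto_of_tendsto_of_tendsto_of_le_of_le' h2 tendsto_const_nhds ?_ ?_
      · filter_upwards [eventually_ge_atTop 1] with r hr
        have h3 : √(r ^ 2 + 1 ^ 2) ≤ r + 1 := Real.sqrt_le_iff.2 ⟨by positivity, by nlinarith⟩
        have h4 : r⁻¹ ≤ 1 := inv_le_one_of_one_le₀ hr
        have h5 : r⁻¹ * r = 1 := inv_mul_cancel₀ (by positivity)
        have h6 : 0 < r⁻¹ := by positivity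
        rw [le_div_iff₀ (hp r)]
        nlinarith [mul_le_mul_of_nonneg_left h3 (sub_nonneg.2 h4)]
      · refine Eventually.of_forall fun r => (div_le_one (hp r)).2 ?_
        exact Real.le_sqrt_of_sq_le (by nlinarith)
    simpa using h1.pow 3
  rw [integral_Ioi_of_hasDerivAt_of_nonneg' (fun r _ => hd r) (fun r _ => by
    have := hp r
    positivity) hl]
  simp

theorem mass : ∫ z : V, 3 / sg 1 z ^ 5 = 4 * Real.pi := by
  have h := integral_fun_norm_addHaar (volume : Measure V) fun r => 3 / √(r ^ 2 + 1 ^ 2) ^ 5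
  have hd : Module.finrank ℝ V = 3 := by simp
  refine h.trans ?_
  simp only [hd, smul_eq_mul, rad, Measure.real, EuclideanSpace.volume_ball_fin_three,
    Nat.add_one_sub_one]
  rw [ENNReal.ofReal_one, one_pow, one_mul, ENNReal.toReal_ofReal (by positivity), nsmul_eq_mul]
  push_cast
  ring

theorem lim2 {g : ST → ℝ} (hc : Continuous g) (h : PS g) (p : ST) :
    Tendsto (fun ε : ℝ => ∫ y, 3 * ε ^ 2 / sg ε y ^ 5 * g (gm p ε y)) (𝓝[>] 0)
      (𝓝 (4 * Real.pi * g p)) := by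
  obtain ⟨ρ, C, hC, h1⟩ := unif hc h p
  have hi : Integrable fun z : V => 3 / sg 1 z ^ 5 :=
    .of_integral_ne_zero (by rw [mass]; positivity)
  have h2 : Tendsto (fun ε : ℝ => ∫ z, 3 / sg 1 z ^ 5 * g (gm p ε (ε • z))) (𝓝[>] 0)
      (𝓝 (∫ z : V, 3 / sg 1 z ^ 5 * g p)) := by
    refine tendsto_integral_filter_of_dominated_convergence _ ?_ ?_ (hi.mul_const C) ?_
    · refine Eventually.of_forall fun ε => hi.aestronglyMeasurable.mul ?_
      exact (hc.comp ((cont_gm' p ε).comp (continuous_const_smul ε))).aestronglyMeasurable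
    · filter_upwards [Ioc_mem_nhdsGT one_pos] with ε hε
      refine Eventually.of_forall fun z => ?_
      have := sg_pos one_pos z
      rw [norm_mul, Real.norm_of_nonneg (by positivity)]
      exact mul_le_mul_of_nonneg_left (h1 ε (Ioc_subset_Icc_self hε) _).1 (by positivity)
    · refine Eventually.of_forall fun z => Tendsto.const_mul _ ?_
      have h3 : Continuous fun ε : ℝ => g (gm p ε (ε • z)) :=
        hc.comp (cont_gm p continuous_id' (by fun_prop))
      simpa [gm, sg_zero] using (h3.tendsto 0).mono_left (nhdsWithin_le_nhds (s := Ioi 0))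
  rw [integral_mul_const, mass] at h2
  refine h2.congr' ?_
  filter_upwards [self_mem_nhdsWithin] with ε (hε : 0 < ε)
  have h3 := Measure.integral_comp_smul (volume : Measure V)
    (fun y => 3 * ε ^ 2 / sg ε y ^ 5 * g (gm p ε y)) ε
  have hd : Module.finrank ℝ V = 3 := by simp
  rw [hd, abs_of_pos (by positivity), smul_eq_mul,
    eq_inv_mul_iff_mul_eq₀ (by positivity), ← integral_const_mul] at h3
  rw [← h3]
  refine integral_congr_ae (Eventually.of_forall fun z => ?_)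
  have := sg_pos one_pos z
  simp only [sg_smul hε.le]
  field_simp

theorem cont_box {J : ST → ℝ} (hc : ContDiff ℝ 2 J) : Continuous (box4 J) :=
  (cont_dd (cd_dd (n := 1) hc _) _).sub
    (continuous_finsetSum _ fun _ _ => cont_dd (cd_dd (n := 1) hc _) _)

theorem PS_box {J : ST → ℝ} (hc : ContDiff ℝ 2 J) (h : PS J) : PS (box4 J) :=
  h.fderiv.fderiv.of_imp fun q hq => by simp [box_eq, dd_dd hc, hq]

theorem dd_rp {g : ST → ℝ} (hc : ContDiff ℝ 1 g) (h : PS g) (e : ST) :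
    dd (rp g) e = rp (dd g e) := by
  funext q
  rw [dd, (hasFDerivAt_rp hc h q).fderiv]
  exact rp_clm (hc.continuous_fderiv one_ne_zero) h.fderiv (ContinuousLinearMap.apply ℝ ℝ e) q

end W2

open W2 in
theorem rp_box {J : ST → ℝ} (hc : ContDiff ℝ 2 J) (h : PS J) (p : ST) : rp (box4 J) p = J p := by
  have c1 : ContDiff ℝ 1 (dd J e0) := cd_dd (n := 1) hc _
  have h1 := lim1 (cont_box hc) (PS_box hc h) p 0 1 (by norm_num)
  have h2 := lim1 (cont_dd c1 e0) (PS_dd (PS_dd h e0) e0) p 2 1 (by norm_num)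
  have h3 := lim1 c1.continuous (PS_dd h e0) p 2 2 (by norm_num)
  have h4 := lim2 hc.continuous h p
  have h5 := ((h1.sub h2).sub (h3.const_mul 3)).sub h4
  have h6 : Tendsto (fun _ : ℝ => (0 : ℝ)) (𝓝[>] 0) _ := h5.congr' (by
    filter_upwards [Ioc_mem_nhdsGT one_pos] with ε hε
    have hε' : ε ∈ Icc (0 : ℝ) 1 := Ioc_subset_Icc_self hε
    have hk : ∀ (c : ℝ) (n : ℕ), Continuous fun y => c / sg ε y ^ n := fun c n =>
      continuous_const.div ((cont_sg' ε).pow _) fun y => pow_ne_zero _ (sg_pos hε.1 y).ne'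
    have i1 := intg (cont_box hc) (PS_box hc h) p hε' (hk (ε ^ 0) (0 + 1))
    have i2 := intg (cont_dd c1 e0) (PS_dd (PS_dd h e0) e0) p hε' (hk (ε ^ 2) (2 + 1))
    have i3 := (intg c1.continuous (PS_dd h e0) p hε' (hk (ε ^ 2) (2 + 2))).const_mul 3
    have i4 := intg hc.continuous h p hε' (hk (3 * ε ^ 2) 5)
    rw [← integral_const_mul, ← integral_sub i1 i2, ← integral_sub (i1.sub' i2) i3,
      ← integral_sub ((i1.sub' i2).sub' i3) i4]
    exact (main hε hc h p).2)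
  have h7 := tendsto_nhds_unique h6 tendsto_const_nhds
  have h8 : rp (box4 J) p =
      (4 * Real.pi)⁻¹ * ∫ y : V, 0 ^ 0 / ‖y‖ ^ (0 + 1) * box4 J (gm p 0 y) := by
    rw [← integral_const_mul]
    refine integral_congr_ae (Eventually.of_forall fun y => ?_)
    simp only [gm, sg_zero, smul_eq_mul]
    ring
  simp only [ne_eq, OfNat.ofNat_ne_zero, not_false_eq_true, zero_pow, zero_div, zero_mul,
    integral_zero, mul_zero, sub_zero] at h7
  rw [h8, sub_eq_zero.1 h7, inv_mul_cancel_left₀ (by positivity)]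

open W2 in
theorem box_rp {J : ST → ℝ} (hc : ContDiff ℝ 2 J) (h : PS J) (p : ST) : box4 (rp J) p = J p := by
  have c1 : ∀ e, ContDiff ℝ 1 (dd J e) := fun e => cd_dd (n := 1) hc e
  have i1 := fun e => integrable_rp (cont_dd (c1 e) e) (PS_dd (PS_dd h e) e) p
  rw [← rp_box hc h p, box_eq]
  simp only [dd_rp (hc.of_le one_le_two) h, fun e => dd_rp (c1 e) (PS_dd h e)]
  unfold rp
  rw [← integral_finsetSum _ fun i _ => i1 (ei i),
    ← integral_sub (i1 e0) (integrable_finsetSum _ fun i _ => i1 (ei i))]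
  refine integral_congr_ae (Eventually.of_forall fun y => ?_)
  simp only [box_eq, smul_sub, Finset.smul_sum]

end

end Vale.Agent.P107
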